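import Mathlib

/-! Hahn–Banach cone lemma; bounded sesquilinear forms give operators. -/

set_option autoImplicit false

namespace Crest.Agent.H7.Kad

open scoped InnerProductSpace ComplexConjugate
open Finset

/-- Mazur–Orlicz type lemma. -/
theorem mazur_orlicz {V J : Type*} [AddCommGroup V] [Module ℝ V] (v : J → V) (r : J → ℝ)
    (h0 : ∀ (s : Finset J) (c : J → ℝ), (∀ j, 0 ≤ c j) → ∑ j ∈ s, c j • v j = 0 →
      0 ≤ ∑ j ∈ s, c j * r j)
    (hsym : ∀ j, ∃ j', v j' = -v j) :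
    ∃ l : V →ₗ[ℝ] ℝ, ∀ j, l (v j) ≤ r j := by
  classical
  set Lv := Finsupp.linearCombination ℝ v with hLv
  set Lr := Finsupp.linearCombination ℝ r with hLr
  have h0' : ∀ c : J →₀ ℝ, 0 ≤ c → Lv c = 0 → 0 ≤ Lr c := fun c hc h => by
    rw [hLr, Finsupp.linearCombination_apply, Finsupp.sum]
    rw [hLv, Finsupp.linearCombination_apply, Finsupp.sum] at h
    exact h0 _ c hc h
  choose σ hσ using hsym
  have hpos : ∀ c : J →₀ ℝ, ∃ c' : J →₀ ℝ, 0 ≤ c' ∧ Lv c' = Lv c := by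
    intro c
    induction c using Finsupp.induction_linear with
    | zero => exact ⟨0, le_rfl, rfl⟩
    | add f g hf hg =>
      obtain ⟨f', hf1, hf2⟩ := hf
      obtain ⟨g', hg1, hg2⟩ := hg
      exact ⟨f' + g', add_nonneg hf1 hg1, by rw [map_add, map_add, hf2, hg2]⟩
    | single j a =>
      rcases le_total 0 a with ha | ha
      · exact ⟨Finsupp.single j a, Finsupp.single_nonneg.2 ha, rfl⟩
      · refine ⟨Finsupp.single (σ j) (-a), Finsupp.single_nonneg.2 (by linarith), ?_⟩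
        simp [hLv, hσ]
  set W := LinearMap.range Lv with hW
  let R : W → Set ℝ := fun w => {ρ | ∃ c : J →₀ ℝ, 0 ≤ c ∧ Lv c = w ∧ Lr c = ρ}
  have hne : ∀ w, (R w).Nonempty := by
    rintro ⟨_, c, rfl⟩
    obtain ⟨c', h1, h2⟩ := hpos c
    exact ⟨_, c', h1, h2, rfl⟩
  have hbd : ∀ w, BddBelow (R w) := by
    intro w
    obtain ⟨_, c', h1, h2, rfl⟩ := hne (-w)
    refine ⟨-Lr c', ?_⟩
    rintro _ ⟨c, h3, h4, rfl⟩
    have := h0' (c + c') (add_nonneg h3 h1) (by rw [map_add, h2, h4]; simp)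
    rw [map_add] at this
    linarith
  let N : W → ℝ := fun w => sInf (R w)
  have hle : ∀ (t : ℝ), 0 < t → ∀ w, N (t • w) ≤ t * N w := by
    intro t ht w
    rw [mul_comm, ← div_le_iff₀ ht]
    refine le_csInf (hne w) ?_
    rintro _ ⟨c, h1, h2, rfl⟩
    rw [div_le_iff₀ ht]
    refine csInf_le (hbd _) ⟨t • c, smul_nonneg ht.le h1, ?_, ?_⟩
    · rw [map_smul, h2]; rfl
    · rw [map_smul, smul_eq_mul, mul_comm]
  have hom : ∀ (t : ℝ), 0 < t → ∀ w, N (t • w) = t * N w := by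
    intro t ht w
    refine le_antisymm (hle t ht w) ?_
    have := hle t⁻¹ (inv_pos.2 ht) (t • w)
    rw [smul_smul, inv_mul_cancel₀ ht.ne', one_smul] at this
    have h2 := mul_le_mul_of_nonneg_left this ht.le
    rwa [← mul_assoc, mul_inv_cancel₀ ht.ne', one_mul] at h2
  have hadd : ∀ w w', N (w + w') ≤ N w + N w' := by
    intro w w'
    rw [← sub_le_iff_le_add]
    refine le_csInf (hne w) ?_
    rintro _ ⟨c, h1, h2, rfl⟩
    rw [sub_le_comm]
    refine le_csInf (hne w') ?_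
    rintro _ ⟨c', h1', h2', rfl⟩
    rw [sub_le_iff_le_add']
    refine csInf_le (hbd _) ⟨c + c', add_nonneg h1 h1', ?_, map_add _ _ _⟩
    rw [map_add, h2, h2']; rfl
  have hN0 : 0 ≤ N 0 := by
    refine le_csInf (hne 0) ?_
    rintro _ ⟨c, h1, h2, rfl⟩
    exact h0' c h1 h2
  obtain ⟨g, -, hg⟩ := exists_extension_of_le_sublinear
    (⟨⊥, 0⟩ : W →ₗ.[ℝ] ℝ) N hom hadd (by
      rintro ⟨x, hx⟩
      have : x = 0 := by simpa using hx
      subst this
      simpa using hN0)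
  obtain ⟨l, hl⟩ := LinearMap.exists_extend g
  refine ⟨l, fun j => ?_⟩
  have hj : v j ∈ W := ⟨Finsupp.single j 1, by simp [hLv]⟩
  have e : l (v j) = g ⟨v j, hj⟩ := by rw [← hl]; rfl
  rw [e]
  refine (hg _).trans (csInf_le (hbd _) ⟨Finsupp.single j 1,
    Finsupp.single_nonneg.2 zero_le_one, by simp [hLv], by simp [hLr]⟩)

section Form
variable {E : Type*} [AddCommGroup E] [Module ℂ E]
variable {H : Type*} [NormedAddCommGroup H] [InnerProductSpace ℂ H]

lemma form_norm_le (e : E →ₗ[ℂ] H) (B : E →ₗ⋆[ℂ] E →ₗ[ℂ] ℂ) (C : ℝ) (hC : 0 ≤ C)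
    (hB : ∀ a b, (B a b).re ≤ C / 2 * (‖e a‖ ^ 2 + ‖e b‖ ^ 2)) (a b : E) :
    ‖B a b‖ ≤ C * ‖e a‖ * ‖e b‖ := by
  have h1 : ∀ a b, ‖B a b‖ ≤ C / 2 * (‖e a‖ ^ 2 + ‖e b‖ ^ 2) := by
    intro a b
    obtain ⟨z, hz, hz2⟩ := Complex.exists_norm_eq_mul_self (B a b)
    have := hB a (z • b)
    rw [map_smul, map_smul, smul_eq_mul, ← hz2, norm_smul, hz, one_mul] at this
    simpa using this
  have h2 : ∀ t : ℝ, 0 < t → ‖B a b‖ ≤ C / 2 * (t ^ 2 * ‖e a‖ ^ 2 + t⁻¹ ^ 2 * ‖e b‖ ^ 2) := by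
    intro t ht
    have := h1 ((t : ℂ) • a) (((t⁻¹ : ℝ) : ℂ) • b)
    have e1 : B ((t : ℂ) • a) (((t⁻¹ : ℝ) : ℂ) • b) = B a b := by
      rw [map_smul, LinearMap.map_smulₛₗ, LinearMap.smul_apply, Complex.conj_ofReal, smul_smul,
        ← Complex.ofReal_mul, inv_mul_cancel₀ ht.ne', Complex.ofReal_one, one_smul]
    rw [e1, map_smul, map_smul, norm_smul, norm_smul] at this
    simpa only [Complex.norm_real, Real.norm_eq_abs, abs_of_pos ht,
      abs_of_pos (inv_pos.2 ht), mul_pow] using this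
  set x := ‖e a‖
  set y := ‖e b‖
  have hx : 0 ≤ x := norm_nonneg _
  have hy : 0 ≤ y := norm_nonneg _
  refine le_of_forall_pos_le_add fun ε hε => ?_
  -- choose `t² = (y + δ) / (x + δ)`
  obtain ⟨δ, hδ, hδ2⟩ : ∃ δ : ℝ, 0 < δ ∧ C / 2 * (x + y) * δ ≤ ε := by
    refine ⟨ε / (C / 2 * (x + y) + 1), by positivity, ?_⟩
    rw [mul_div_assoc', div_le_iff₀ (by positivity)]; nlinarith
  have hq : 0 < (y + δ) / (x + δ) := by positivity
  have := h2 (√((y + δ) / (x + δ))) (Real.sqrt_pos.2 hq)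
  rw [inv_pow, Real.sq_sqrt hq.le, inv_div] at this
  have e1 : (y + δ) / (x + δ) * x ^ 2 ≤ (y + δ) * x := by
    rw [div_mul_eq_mul_div, div_le_iff₀ (by positivity)]
    nlinarith [mul_nonneg (mul_nonneg (add_pos_of_nonneg_of_pos hy hδ).le hx) hδ.le]
  have e2 : (x + δ) / (y + δ) * y ^ 2 ≤ (x + δ) * y := by
    rw [div_mul_eq_mul_div, div_le_iff₀ (by positivity)]
    nlinarith [mul_nonneg (mul_nonneg (add_pos_of_nonneg_of_pos hx hδ).le hy) hδ.le]
  have e3 := mul_le_mul_of_nonneg_left (add_le_add e1 e2) (show 0 ≤ C / 2 by positivity)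
  nlinarith

variable [CompleteSpace H]

theorem form_dense (e : E →ₗ[ℂ] H) (he : DenseRange e) (B : E →ₗ⋆[ℂ] E →ₗ[ℂ] ℂ) (C : ℝ)
    (hC : 0 ≤ C) (hB : ∀ a b, ‖B a b‖ ≤ C * ‖e a‖ * ‖e b‖) :
    ∃ T : H →L[ℂ] H, ‖T‖ ≤ C ∧ ∀ a b, ⟪e a, T (e b)⟫_ℂ = B a b := by
  -- for each `b`, the functional `a ↦ conj (B a b)`
  let f : E → E →ₗ[ℂ] ℂ := fun b =>
    { toFun := fun a => conj (B a b)
      map_add' := fun a a' => by simp
      map_smul' := fun c a => by simp [LinearMap.map_smulₛₗ] }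
  have hf : ∀ b a, ‖f b a‖ ≤ (C * ‖e b‖) * ‖e a‖ := fun b a => by
    have := hB a b
    simp only [f, LinearMap.coe_mk, AddHom.coe_mk, RCLike.norm_conj]
    linarith
  let t : E → H := fun b => (InnerProductSpace.toDual ℂ H).symm ((f b).extendOfNorm e)
  have ht : ∀ a b, ⟪e a, t b⟫_ℂ = B a b := fun a b => by
    rw [← inner_conj_symm, InnerProductSpace.toDual_symm_apply,
      LinearMap.extendOfNorm_eq he ⟨_, hf b⟩]
    simp [f]
  have htn : ∀ b, ‖t b‖ ≤ C * ‖e b‖ := fun b => by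
    simp only [t, LinearIsometryEquiv.norm_map]
    exact LinearMap.opNorm_extendOfNorm_le he (by positivity) (hf b)
  have hext : ∀ w w' : H, (∀ a, ⟪e a, w⟫_ℂ = ⟪e a, w'⟫_ℂ) → w = w' := fun w w' h => by
    refine ext_inner_left ℂ fun z => ?_
    exact he.induction_on z (isClosed_eq (by fun_prop) (by fun_prop)) h
  let tl : E →ₗ[ℂ] H :=
    { toFun := t
      map_add' := fun b b' => hext _ _ fun a => by rw [inner_add_right, ht, ht, ht, map_add]
      map_smul' := fun c b => hext _ _ fun a => by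
        rw [inner_smul_right, ht, ht, map_smul]; rfl }
  refine ⟨tl.extendOfNorm e, LinearMap.opNorm_extendOfNorm_le he hC htn, fun a b => ?_⟩
  rw [LinearMap.extendOfNorm_eq he ⟨C, htn⟩]
  exact ht a b

/-- projection onto the closure of the range -/
noncomputable abbrev rproj (e : E →ₗ[ℂ] H) : H →L[ℂ] H :=
  (LinearMap.range e).topologicalClosure.starProjection

lemma rproj_apply (e : E →ₗ[ℂ] H) (a : E) : rproj e (e a) = e a :=
  Submodule.starProjection_eq_self_iff.2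
    (Submodule.le_topologicalClosure _ (LinearMap.mem_range_self e a))

lemma rproj_induction (e : E →ₗ[ℂ] H) {p : H → Prop} (hp : IsClosed {z | p z})
    (h : ∀ a, p (e a)) (z : H) : p (rproj e z) := by
  have hz : rproj e z ∈ closure (LinearMap.range e : Set H) :=
    Submodule.starProjection_apply_mem (LinearMap.range e).topologicalClosure z
  refine closure_minimal (s := (LinearMap.range e : Set H)) (t := {z | p z}) ?_ hp hz
  rintro _ ⟨a, rfl⟩
  exact h a

theorem form_op (e : E →ₗ[ℂ] H) (B : E →ₗ⋆[ℂ] E →ₗ[ℂ] ℂ) (C : ℝ)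
    (hC : 0 ≤ C) (hB : ∀ a b, ‖B a b‖ ≤ C * ‖e a‖ * ‖e b‖) :
    ∃ T : H →L[ℂ] H, ‖T‖ ≤ C ∧ (∀ a b, ⟪e a, T (e b)⟫_ℂ = B a b) ∧
      rproj e * T = T ∧ T * rproj e = T := by
  set M := (LinearMap.range e).topologicalClosure with hM
  let e' : E →ₗ[ℂ] M := e.codRestrict M fun a =>
    Submodule.le_topologicalClosure _ (LinearMap.mem_range_self e a)
  have he' : DenseRange e' := by
    rw [DenseRange, Subtype.dense_iff]
    intro z hz
    refine closure_mono ?_ (show z ∈ closure (LinearMap.range e : Set H) from hz)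
    rintro _ ⟨a, rfl⟩
    exact ⟨e' a, ⟨a, rfl⟩, rfl⟩
  obtain ⟨T, hT, hT2⟩ := form_dense e' he' B C hC hB
  refine ⟨M.subtypeL ∘L T ∘L M.orthogonalProjectionOnto, ?_, fun a b => ?_, ?_, ?_⟩
  · refine ContinuousLinearMap.opNorm_le_bound _ hC fun z => ?_
    change ‖T (M.orthogonalProjectionOnto z)‖ ≤ _
    refine (T.le_opNorm _).trans (mul_le_mul hT ?_ (norm_nonneg _) hC)
    exact M.norm_starProjection_apply_le z
  · rw [← hT2 a b]
    have : M.orthogonalProjectionOnto (e b) = e' b := Subtype.ext (rproj_apply e b)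
    change ⟪e a, (T (M.orthogonalProjectionOnto (e b)) : H)⟫_ℂ = _
    rw [this]; rfl
  · ext z
    exact Submodule.starProjection_eq_self_iff.2 (T (M.orthogonalProjectionOnto z)).2
  · ext z
    have : M.orthogonalProjectionOnto (M.starProjection z) = M.orthogonalProjectionOnto z :=
      Subtype.ext (Submodule.starProjection_eq_self_iff.2 (M.starProjection_apply_mem z))
    change (T (M.orthogonalProjectionOnto (M.starProjection z)) : H) =
      (T (M.orthogonalProjectionOnto z) : H)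
    rw [this]

lemma rproj_sa (e : E →ₗ[ℂ] H) : star (rproj e) = rproj e := (isSelfAdjoint_starProjection _).star_eq

lemma inner_rproj (e : E →ₗ[ℂ] H) (z w : H) : ⟪z, rproj e w⟫_ℂ = ⟪rproj e z, w⟫_ℂ :=
  (Submodule.inner_starProjection_left_eq_right _ z w).symm

lemma form_ext (e : E →ₗ[ℂ] H) (X X' : H →L[ℂ] H)
    (h : ∀ a b, ⟪e a, X (e b)⟫_ℂ = ⟪e a, X' (e b)⟫_ℂ) :
    rproj e * X * rproj e = rproj e * X' * rproj e := by
  ext w
  refine ext_inner_left ℂ fun z => ?_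
  change ⟪z, rproj e (X (rproj e w))⟫_ℂ = ⟪z, rproj e (X' (rproj e w))⟫_ℂ
  rw [inner_rproj, inner_rproj]
  refine rproj_induction e (p := fun z => ⟪z, X (rproj e w)⟫_ℂ = ⟪z, X' (rproj e w)⟫_ℂ)
    (isClosed_eq (by fun_prop) (by fun_prop)) (fun a => ?_) z
  exact rproj_induction e (p := fun w => ⟪e a, X w⟫_ℂ = ⟪e a, X' w⟫_ℂ)
    (isClosed_eq (by fun_prop) (by fun_prop)) (fun b => h a b) w

/-- an operator leaving the range invariant leaves the closure invariant -/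
lemma rproj_inv (e : E →ₗ[ℂ] H) (X : H →L[ℂ] H) (h : ∀ a, ∃ b, X (e a) = e b) :
    rproj e * X * rproj e = X * rproj e := by
  ext w
  change rproj e (X (rproj e w)) = X (rproj e w)
  refine rproj_induction e (p := fun z => rproj e (X z) = X z)
    (isClosed_eq (by fun_prop) (by fun_prop)) (fun a => ?_) w
  obtain ⟨b, hb⟩ := h a
  simp only [hb, rproj_apply]

lemma rproj_comm (e : E →ₗ[ℂ] H) (X : H →L[ℂ] H) (h : ∀ a, ∃ b, X (e a) = e b)
    (h' : ∀ a, ∃ b, star X (e a) = e b) : X * rproj e = rproj e * X := by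
  have h1 := rproj_inv e X h
  have h2 := congrArg star (rproj_inv e (star X) h')
  simp only [star_mul, star_star, rproj_sa] at h2
  rw [← h1, mul_assoc, h2]

end Form

end Crest.Agent.H7.Kad
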