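import Crest.Agent.H4.GenI

/-! Row 95, piece C (abstract part): `MainStmt` and `TopStmt`. -/

set_option autoImplicit false
open scoped ComplexConjugate InnerProductSpace Topology
open Filter

namespace Crest.Agent.H7.Gen

open Crest.Agent.H4.Gen

variable {A : Type*} [CStarAlgebra A]

lemma poly_mem {P S : StarSubalgebra ℂ A} (hPS : P ≤ S) {v : A} (hv : v ∈ S) {F : A → A}
    (hF : Poly P F) : F v ∈ S := by
  induction hF with
  | const p hp => exact hPS hp
  | id => exact hv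
  | star_id => exact star_mem hv
  | add F G _ _ h1 h2 => exact add_mem h1 h2
  | mul F G _ _ h1 h2 => exact mul_mem h1 h2

lemma poly_smul {P : StarSubalgebra ℂ A} (c : ℂ) {F : A → A} (hF : Poly P F) :
    Poly P (fun u => c • F u) := by
  have := Poly.mul _ _ (H4.Gen.Poly.const (c • (1 : A)) (P.smul_mem P.one_mem c)) hF
  simpa only [smul_mul_assoc, one_mul] using this

lemma poly_star {P : StarSubalgebra ℂ A} {F : A → A} (hF : Poly P F) :
    Poly P (fun u => star (F u)) := by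
  induction hF with
  | const p hp => exact H4.Gen.Poly.const _ (star_mem hp)
  | id => exact Poly.star_id
  | star_id => simpa only [star_star] using Poly.id
  | add F G _ _ h1 h2 => simpa only [star_add] using Poly.add _ _ h1 h2
  | mul F G _ _ h1 h2 => simpa only [star_mul] using Poly.mul _ _ h2 h1

lemma poly_lip (T : TS A) {P : StarSubalgebra ℂ A} {F : A → A} (hF : Poly P F) :
    ∃ K : ℝ, 0 ≤ K ∧ (∀ u ∈ unitary A, ‖F u‖ ≤ K) ∧
      ∀ u ∈ unitary A, ∀ v ∈ unitary A, T.n2 (F u - F v) ≤ K * T.n2 (u - v) := by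
  induction hF with
  | const p hp =>
    exact ⟨‖p‖, norm_nonneg _, fun _ _ => le_rfl, fun u _ v _ => by
      simpa using mul_nonneg (norm_nonneg p) (T.n2_nonneg (u - v))⟩
  | id => exact ⟨1, zero_le_one, fun u hu => (T.norm_unitary hu).le, fun u _ v _ => by simp⟩
  | star_id =>
    refine ⟨1, zero_le_one, fun u hu => by rw [norm_star]; exact (T.norm_unitary hu).le,
      fun u _ v _ => ?_⟩
    rw [← star_sub, T.n2_star, one_mul]
  | add F G _ _ h1 h2 =>
    obtain ⟨K1, k1, a1, b1⟩ := h1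
    obtain ⟨K2, k2, a2, b2⟩ := h2
    refine ⟨K1 + K2, by positivity, fun u hu => (norm_add_le _ _).trans (add_le_add (a1 u hu) (a2 u hu)),
      fun u hu v hv => ?_⟩
    rw [add_sub_add_comm, add_mul]
    exact (T.n2_add_le _ _).trans (add_le_add (b1 u hu v hv) (b2 u hu v hv))
  | mul F G _ _ h1 h2 =>
    obtain ⟨K1, k1, a1, b1⟩ := h1
    obtain ⟨K2, k2, a2, b2⟩ := h2
    have hk : 0 ≤ K1 * K2 := mul_nonneg k1 k2
    refine ⟨2 * (K1 * K2), by positivity, fun u hu => ?_, fun u hu v hv => ?_⟩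
    · have := (norm_mul_le (F u) (G u)).trans (mul_le_mul (a1 u hu) (a2 u hu) (norm_nonneg _) k1)
      linarith
    · have e : F u * G u - F v * G v = F u * (G u - G v) + (F u - F v) * G v := by noncomm_ring
      rw [e]
      have n0 := T.n2_nonneg (u - v)
      have h1 : T.n2 (F u * (G u - G v)) ≤ K1 * (K2 * T.n2 (u - v)) :=
        (T.n2_mul_le _ _).trans (mul_le_mul (a1 u hu) (b2 u hu v hv) (T.n2_nonneg _) k1)
      have h2 : T.n2 ((F u - F v) * G v) ≤ (K1 * T.n2 (u - v)) * K2 :=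
        (T.n2_mul_le' _ _).trans (mul_le_mul (b1 u hu v hv) (a2 v hv) (norm_nonneg _)
          (mul_nonneg k1 n0))
      have := T.n2_add_le (F u * (G u - G v)) ((F u - F v) * G v)
      nlinarith

/-- One greedy step. -/
lemma step (T : TS A) {P : StarSubalgebra ℂ A} (hL : Local T P) (b : A) {d : ℝ} (hd : 0 < d)
    {u : A} (hu : u ∈ unitary A) {F : A → A} (hF : Poly P F) {L : ℝ} (hL0 : 0 < L)
    (hb : ∀ v ∈ unitary A, ‖b - F v‖ ≤ L) (hy : d ≤ T.n2 (b - F u)) {ε : ℝ} (hε : 0 < ε) :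
    ∃ u' ∈ unitary A, T.n2 (u' - u) < ε ∧ ∃ F', Poly P F' ∧
      (∀ v ∈ unitary A, ‖b - F' v‖ ≤ L + d ^ 2 / (64 * L)) ∧
      T.n2 (b - F' u') ^ 2 ≤ T.n2 (b - F u) ^ 2 - (d ^ 2 / (64 * L)) ^ 2 / 2 := by
  set β := d ^ 2 / (64 * L) with hβ
  have hβ0 : 0 < β := by positivity
  obtain ⟨K, hK0, -, hK⟩ := poly_lip T hF
  set y := b - F u with hy'
  set n := T.n2 y with hn
  have hn0 : 0 ≤ n := T.n2_nonneg _
  -- error η with 2 n η + η² ≤ β²/2
  set η := min 1 (β ^ 2 / (2 * (2 * n + 1))) with hη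
  have hη0 : 0 < η := lt_min one_pos (by positivity)
  have hη1 : η ≤ 1 := min_le_left _ _
  have hη2 : η * (2 * n + 1) ≤ β ^ 2 / 2 := by
    have : η ≤ β ^ 2 / (2 * (2 * n + 1)) := min_le_right _ _
    rw [le_div_iff₀ (by positivity)] at this
    linarith
  obtain ⟨u', hu', hd', G, hG, hGu, hc⟩ := hL u hu y L hL0 (hb u hu) (min ε (η / (K + 1)))
    (lt_min hε (by positivity))
  set w := T.τ (star y * G u') with hw
  have hwpos : β ≤ ‖w‖ := by
    refine le_trans ?_ hc
    rw [hβ]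
    apply div_le_div_of_nonneg_right _ (by positivity)
    exact pow_le_pow_left₀ hd.le hy 2
  have hw0 : w ≠ 0 := by
    intro h; rw [h, norm_zero] at hwpos; linarith
  set c : ℂ := (β : ℂ) * (conj w / ‖w‖) with hcdef
  have hwn : (‖w‖ : ℂ) ≠ 0 := by simpa using hw0
  have hcn : ‖c‖ = β := by
    rw [hcdef, norm_mul, norm_div, Complex.norm_conj, Complex.norm_real, Complex.norm_real,
      Real.norm_of_nonneg hβ0.le, Real.norm_of_nonneg (norm_nonneg _), div_self (by simpa using hw0),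
      mul_one]
  have hcw : (c * w).re = β * ‖w‖ := by
    have : c * w = ((β * ‖w‖ : ℝ) : ℂ) := by
      rw [hcdef, mul_assoc, div_mul_eq_mul_div, Complex.conj_mul']
      push_cast
      field_simp
    rw [this, Complex.ofReal_re]
  refine ⟨u', hu', hd'.trans_le (min_le_left _ _), fun v => F v + c • G v,
    Poly.add _ _ hF (poly_smul c hG), fun v hv => ?_, ?_⟩
  · have : b - (F v + c • G v) = (b - F v) - c • G v := by abel
    rw [this]
    refine (norm_sub_le _ _).trans (add_le_add (hb v hv) ?_)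
    rw [norm_smul, hcn, T.norm_unitary (hGu v hv), mul_one]
  · have e : b - (F u' + c • G u') = (y - c • G u') + (F u - F u') := by rw [hy']; abel
    have h1 : T.n2 (y - c • G u') ^ 2 ≤ n ^ 2 - β ^ 2 := by
      rw [T.n2_sub_sq, mul_smul_comm, map_smul, smul_eq_mul, ← hw, hcw, T.n2_smul, hcn,
        T.n2_unitary (hGu u' hu')]
      nlinarith
    have h2 : T.n2 (F u - F u') ≤ η := by
      refine (hK u hu u' hu').trans ?_
      rw [T.n2_sub_comm]
      have h3 : T.n2 (u' - u) ≤ η / (K + 1) := hd'.le.trans (min_le_right _ _)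
      rw [le_div_iff₀ (by positivity)] at h3
      nlinarith [T.n2_nonneg (u' - u)]
    have h3 := T.n2_add_le (y - c • G u') (F u - F u')
    rw [← e] at h3
    have a0 := T.n2_nonneg (y - c • G u')
    have a1 : T.n2 (y - c • G u') ≤ n := by
      apply (sq_le_sq₀ a0 hn0).1; nlinarith
    have a2 := T.n2_nonneg (b - (F u' + c • G u'))
    have h4 : T.n2 (b - (F u' + c • G u')) ^ 2 ≤ (T.n2 (y - c • G u') + η) ^ 2 :=
      pow_le_pow_left₀ a2 (by linarith) 2
    nlinarith

/-- Greedy approximation. -/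
lemma greedy (T : TS A) {P : StarSubalgebra ℂ A} (hL : Local T P) (b : A) {d : ℝ} (hd : 0 < d)
    {u : A} (hu : u ∈ unitary A) {ε : ℝ} (hε : 0 < ε) :
    ∃ u' ∈ unitary A, T.n2 (u' - u) < ε ∧ ∃ F, Poly P F ∧ T.n2 (b - F u') < d := by
  by_contra hcon
  push Not at hcon
  set lam := d ^ 2 / 128 with hlam
  have hlam0 : 0 < lam := by positivity
  set L0 := ‖b‖ + 1 with hL0
  have hL01 : 1 ≤ L0 := by have := norm_nonneg b; linarith
  set Φ := T.n2 b ^ 2 + lam * Real.log L0 with hΦ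
  set Lm := Real.exp (Φ / lam) with hLm
  have hLm0 : 0 < Lm := Real.exp_pos _
  set δ := (d ^ 2 / (64 * Lm)) ^ 2 / 2 with hδ
  have hδ0 : 0 < δ := by positivity
  have key : ∀ k : ℕ, ∃ u' ∈ unitary A, T.n2 (u' - u) < ε ∧ ∃ F, Poly P F ∧ ∃ L : ℝ, 0 < L ∧
      (∀ v ∈ unitary A, ‖b - F v‖ ≤ L) ∧ T.n2 (b - F u') ^ 2 + lam * Real.log L ≤ Φ ∧
      T.n2 (b - F u') ^ 2 ≤ T.n2 b ^ 2 - k * δ := by
    intro k
    induction k with
    | zero =>
      refine ⟨u, hu, by simpa using hε, fun _ => 0, H4.Gen.Poly.const 0 P.zero_mem, L0, by linarith,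
        fun v _ => by simp [hL0], by simp [hΦ], by simp⟩
    | succ k ih =>
      obtain ⟨u1, hu1, hd1, F, hF, L, hLpos, hb, hpot, hk⟩ := ih
      obtain ⟨u2, hu2, hd2, F', hF', hb', hdrop⟩ := step T hL b hd hu1 hF hLpos hb
        (hcon u1 hu1 hd1 F hF) (sub_pos.2 hd1)
      have hLle : L ≤ Lm := by
        have h1 : Real.log L ≤ Φ / lam := by
          rw [le_div_iff₀ hlam0]
          nlinarith [sq_nonneg (T.n2 (b - F u1))]
        rw [hLm, ← Real.exp_log hLpos]
        exact Real.exp_le_exp.2 h1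
      set β := d ^ 2 / (64 * L) with hβ
      have hβ0 : 0 < β := by positivity
      refine ⟨u2, hu2, ?_, F', hF', L + β, by positivity, hb', ?_, ?_⟩
      · have := T.n2_triangle u2 u1 u
        linarith
      · have h1 : Real.log (L + β) ≤ Real.log L + β / L := by
          have e : L + β = L * (1 + β / L) := by field_simp
          rw [e, Real.log_mul hLpos.ne' (by positivity)]
          have := Real.log_le_sub_one_of_pos (x := 1 + β / L) (by positivity)
          linarith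
        have h2 : lam * (β / L) = β ^ 2 / 2 := by
          rw [hlam, hβ]; field_simp; ring
        nlinarith
      · have h1 : δ ≤ β ^ 2 / 2 := by
          rw [hδ]
          have : d ^ 2 / (64 * Lm) ≤ β := by
            rw [hβ]
            exact div_le_div_of_nonneg_left (by positivity) (by positivity) (by linarith)
          have h0 : 0 ≤ d ^ 2 / (64 * Lm) := by positivity
          nlinarith
        push_cast
        nlinarith
  obtain ⟨k, hk⟩ := exists_nat_gt (T.n2 b ^ 2 / δ)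
  obtain ⟨u', -, -, F, -, L, -, -, -, h⟩ := key k
  rw [div_lt_iff₀ hδ0] at hk
  nlinarith [sq_nonneg (T.n2 (b - F u'))]

/-- The unitary group with the 2-seminorm distance. -/
abbrev UG (T : TS A) := {x : T.L2 // T.Λ.symm x ∈ unitary A}

lemma dist_UG (T : TS A) (x y : UG T) :
    dist x y = T.n2 (T.Λ.symm x.1 - T.Λ.symm y.1) := by
  rw [Subtype.dist_eq, T.n2_eq_dist]; simp

lemma conv_unitary {T : TS A} (hW : T.W) {x : ℕ → A} {a : A} (hx : ∀ n, x n ∈ unitary A)
    (h : T.Conv x a) : a ∈ unitary A := by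
  refine ⟨?_, ?_⟩
  · exact ((h.star.mul h).congr (fun n => (hx n).1)).unique hW (TS.Conv.const 1)
  · exact ((h.mul h.star).congr (fun n => (hx n).2)).unique hW (TS.Conv.const 1)

lemma complete_UG {T : TS A} (hW : T.W) : CompleteSpace (UG T) := by
  refine Metric.complete_of_cauchySeq_tendsto fun x hx => ?_
  have h1 : CauchySeq (fun n => T.Λ (T.Λ.symm (x n).1)) := by
    simp only [LinearEquiv.apply_symm_apply]
    exact uniformContinuous_subtype_val.comp_cauchySeq hx
  obtain ⟨a, -, ha⟩ := hW.conv (C := 1) (fun n => (T.norm_unitary (x n).2).le) h1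
  have hu := conv_unitary hW (fun n => (x n).2) ha
  refine ⟨⟨T.Λ a, by simpa using hu⟩, ?_⟩
  rw [tendsto_iff_dist_tendsto_zero]
  refine ha.lim.congr fun n => ?_
  rw [dist_UG]; simp

/-- the approximation condition is open -/
lemma open_cond (T : TS A) {P : StarSubalgebra ℂ A} {b u : A} (hu : u ∈ unitary A) {d : ℝ}
    {F : A → A} (hF : Poly P F) (h : T.n2 (b - F u) < d) :
    ∃ δ > 0, ∀ v ∈ unitary A, T.n2 (v - u) < δ → T.n2 (b - F v) < d := by
  obtain ⟨K, hK0, -, hK⟩ := poly_lip T hF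
  refine ⟨(d - T.n2 (b - F u)) / (K + 1), div_pos (sub_pos.2 h) (by positivity), fun v hv hvu => ?_⟩
  rw [lt_div_iff₀ (by positivity)] at hvu
  have h1 := T.n2_triangle b (F u) (F v)
  have h2 := hK u hu v hv
  rw [T.n2_sub_comm u v] at h2
  nlinarith [T.n2_nonneg (v - u)]

lemma dense2_of {T : TS A} {P : StarSubalgebra ℂ A} {v : A} {D : Set A}
    (hD : ∀ a, ∀ ε > 0, ∃ d ∈ D, T.n2 (a - d) < ε)
    (h : ∀ b ∈ D, ∀ m : ℕ, ∃ F, Poly P F ∧ T.n2 (b - F v) < 1 / ((m : ℝ) + 1)) : Dense2 T P v := by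
  intro b δ hδ
  obtain ⟨b', hb', h1⟩ := hD b (δ / 2) (by positivity)
  obtain ⟨m, hm⟩ := exists_nat_one_div_lt (show 0 < δ / 2 by positivity)
  obtain ⟨F, hF, h2⟩ := h b' hb' m
  refine ⟨F, hF, ?_⟩
  have := T.n2_triangle b b' (F v)
  linarith

theorem mainStmt : MainStmt := by
  intro A _ T P hW hS hL u hu ε hε
  obtain ⟨D, hDc, hD⟩ := hS
  haveI := complete_UG hW
  haveI := hDc.to_subtype
  let O : D × ℕ → Set (UG T) := fun k =>
    {x | ∃ F, Poly P F ∧ T.n2 (k.1.1 - F (T.Λ.symm x.1)) < 1 / ((k.2 : ℝ) + 1)}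
  have hO : ∀ k, IsOpen (O k) := by
    intro k
    rw [Metric.isOpen_iff]
    rintro x ⟨F, hF, hx⟩
    obtain ⟨δ, hδ, h⟩ := open_cond T x.2 hF hx
    refine ⟨δ, hδ, fun y hy => ⟨F, hF, h _ y.2 ?_⟩⟩
    rwa [Metric.mem_ball, dist_UG] at hy
  have hOd : ∀ k, Dense (O k) := by
    intro k
    rw [Metric.dense_iff]
    intro x r hr
    obtain ⟨u', hu', h1, F, hF, h2⟩ := greedy T hL k.1.1 (d := 1 / ((k.2 : ℝ) + 1)) (by positivity)
      x.2 hr
    refine ⟨⟨T.Λ u', by simpa using hu'⟩, ?_, F, hF, by simpa using h2⟩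
    rw [Metric.mem_ball, dist_UG]; simpa using h1
  have hden := dense_iInter_of_isOpen hO hOd
  rw [Metric.dense_iff] at hden
  obtain ⟨y, hy1, hy2⟩ := hden ⟨T.Λ u, by simpa using hu⟩ ε hε
  refine ⟨T.Λ.symm y.1, y.2, ?_, dense2_of hD fun b hb m => ?_⟩
  · rw [Metric.mem_ball, dist_UG] at hy1; simpa using hy1
  · exact Set.mem_iInter.1 hy2 (⟨b, hb⟩, m)

/-! ### The resolvent trick -/

lemma inv_mem_of_closed {S : StarSubalgebra ℂ A} (hS : IsClosed (S : Set A)) {x r : A}
    (hx : x ∈ S) (h1 : x * r = 1) (h2 : r * x = 1) : r ∈ S := by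
  haveI := hS
  have hu : IsUnit ((⟨x, hx⟩ : S) : A) := ⟨⟨x, r, h1, h2⟩, rfl⟩
  obtain ⟨w, hw⟩ := (StarSubalgebra.coe_isUnit S).1 hu
  have h3 : x * ((w⁻¹ : Sˣ) : S) = 1 := by
    have := congrArg (fun z : S => (z : A)) w.mul_inv
    simpa [hw] using this
  have : r = ((w⁻¹ : Sˣ) : S) := by
    rw [← mul_one r, ← h3, ← mul_assoc, h2, one_mul]
  rw [this]; exact Subtype.prop _

lemma exists_res {a : A} (ha : IsSelfAdjoint a) :
    ∃ r : A, (a + Complex.I • 1) * r = 1 ∧ r * (a + Complex.I • 1) = 1 ∧ ‖r‖ ≤ 1 := by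
  have hu : IsUnit (a + Complex.I • (1 : A)) := by
    by_contra h
    have : (-Complex.I) ∈ spectrum ℂ a := by
      rw [spectrum.mem_iff]
      intro h'
      apply h
      have e : a + Complex.I • (1 : A) = -(algebraMap ℂ A (-Complex.I) - a) := by
        rw [Algebra.algebraMap_eq_smul_one]; simp [add_comm]
      rw [e]; exact h'.neg
    have := ha.mem_spectrum_eq_re this
    have := congrArg Complex.im this
    simp at this
  obtain ⟨w, hw⟩ := hu
  refine ⟨(w⁻¹ : Aˣ), by rw [← hw]; simp, by rw [← hw]; simp, ?_⟩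
  set r : A := ((w⁻¹ : Aˣ) : A) with hr
  have h1 : (a + Complex.I • (1 : A)) * r = 1 := by rw [← hw, hr]; simp
  letI := CStarAlgebra.spectralOrder A
  haveI := CStarAlgebra.spectralOrderedRing A
  have h2 : star (a + Complex.I • (1 : A)) * (a + Complex.I • 1) = a * a + 1 := by
    rw [star_add, ha.star_eq, star_smul, star_one]
    simp only [add_mul, mul_add, smul_mul_assoc, mul_smul_comm, one_mul, mul_one, smul_smul,
      Complex.star_def, Complex.conj_I, neg_smul, mul_neg, Complex.I_mul_I, neg_neg, one_smul,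
      neg_mul, smul_neg, smul_add]
    abel
  have h3 : star r * r + star (a * r) * (a * r) = 1 := by
    have h4 : star ((a + Complex.I • (1 : A)) * r) * ((a + Complex.I • (1 : A)) * r) = 1 := by
      rw [h1]; simp
    rw [star_mul, mul_assoc, ← mul_assoc (star (a + _)), h2] at h4
    rw [← h4, star_mul, ha.star_eq]; noncomm_ring
  have h5 : star r * r ≤ 1 := by
    rw [← h3]; exact le_add_of_nonneg_right (star_mul_self_nonneg _)
  have h6 : ‖star r * r‖ ≤ 1 := (CStarAlgebra.norm_le_one_iff_of_nonneg _ (star_mul_self_nonneg _)).2 h5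
  rw [CStarRing.norm_star_mul_self] at h6
  nlinarith [norm_nonneg r]

lemma sa_mem {T : TS A} {S : StarSubalgebra ℂ A} (hS : T.Cl S) {b : A} (hb : IsSelfAdjoint b)
    (h : ∀ δ > 0, ∃ s ∈ S, T.n2 (b - s) < δ) : b ∈ S := by
  have h' : ∀ n : ℕ, ∃ s ∈ S, IsSelfAdjoint s ∧ T.n2 (b - s) ≤ 1 / ((n : ℝ) + 1) := by
    intro n
    obtain ⟨s, hs, h1⟩ := h (1 / ((n : ℝ) + 1)) (by positivity)
    refine ⟨(1 / 2 : ℂ) • (s + star s), S.smul_mem (add_mem hs (star_mem hs)) _, ?_, ?_⟩
    · rw [IsSelfAdjoint, star_smul, star_add, star_star, add_comm]; simp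
    · have e : b - (1 / 2 : ℂ) • (s + star s) = (1 / 2 : ℂ) • ((b - s) + star (b - s)) := by
        rw [star_sub, hb.star_eq]; module
      rw [e, T.n2_smul]
      have := T.n2_add_le (b - s) (star (b - s))
      rw [T.n2_star] at this
      have h2 : ‖(1 / 2 : ℂ)‖ = 1 / 2 := by norm_num
      rw [h2]
      linarith
  choose s hsS hsa hs using h'
  choose r hr1 hr2 hr3 using fun n => exists_res (hsa n)
  obtain ⟨R, hR1, hR2, hR3⟩ := exists_res hb
  have hI : Complex.I • (1 : A) ∈ S := S.smul_mem S.one_mem _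
  have hrS : ∀ n, r n ∈ S := fun n =>
    inv_mem_of_closed hS.isClosed (add_mem (hsS n) hI) (hr1 n) (hr2 n)
  have hc : T.Conv r R := by
    refine ⟨⟨1, hr3⟩, squeeze_zero (fun _ => T.n2_nonneg _) (fun n => ?_)
      tendsto_one_div_add_atTop_nhds_zero_nat⟩
    have e : r n - R = r n * (b - s n) * R := by
      have e1 : b - s n = (b + Complex.I • 1) - (s n + Complex.I • 1) := by abel
      rw [e1, mul_sub, sub_mul, hr2, mul_assoc, hR1, one_mul, mul_one]
    rw [e]
    refine (T.n2_mul3_le _ _ _).trans ?_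
    have h0 := T.n2_nonneg (b - s n)
    calc ‖r n‖ * T.n2 (b - s n) * ‖R‖ ≤ 1 * T.n2 (b - s n) * 1 := by
          gcongr
          exact hr3 n
      _ ≤ _ := by simpa using hs n
  have hRS := hS _ _ hrS hc
  have := inv_mem_of_closed hS.isClosed hRS hR2 hR1
  simpa using sub_mem this hI

theorem topStmt : TopStmt := by
  intro A _ T P S v hS hPS hv hD
  have h : ∀ b : A, IsSelfAdjoint b → b ∈ S := fun b hb => sa_mem hS hb fun δ hδ => by
    obtain ⟨F, hF, h⟩ := hD b δ hδ
    exact ⟨F v, poly_mem hPS hv hF, h⟩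
  rw [eq_top_iff]
  intro b _
  rw [← realPart_add_I_smul_imaginaryPart b]
  exact add_mem (h _ (realPart b).2) (S.smul_mem (h _ (imaginaryPart b).2) _)

end Crest.Agent.H7.Gen
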