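import Crest.Agent.H7.GenC1
import Crest.Agent.H9.VNa
import Crest.Prelude.Def_VNFactor

/-! Row 95, piece C (bridge): concrete von Neumann algebras with a vector trace. -/

set_option autoImplicit false
open scoped ComplexConjugate InnerProductSpace Topology ENNReal
open Filter

namespace Crest.Agent.H7.Gen

open Crest.Agent.H4.Gen Crest.Agent.H9.VN Crest.OpAlg

variable {H : Type*} [NormedAddCommGroup H] [InnerProductSpace ℂ H] [CompleteSpace H]

/-- `ℓ²(ℕ, H)` -/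
abbrev LH (H : Type*) [NormedAddCommGroup H] := lp (fun _ : ℕ => H) 2

/-- diagonal operator -/
noncomputable def dia (x : H →L[ℂ] H) : LH H →L[ℂ] LH H :=
  lp.mapCLM 2 (fun _ => x) (norm_nonneg x) (fun _ => le_rfl)

omit [CompleteSpace H] in
@[simp] lemma dia_apply (x : H →L[ℂ] H) (f : LH H) (n : ℕ) : dia x f n = x (f n) := rfl

omit [CompleteSpace H] in
lemma dia_mul (x y : H →L[ℂ] H) (f : LH H) : dia (x * y) f = dia x (dia y f) := rfl

omit [CompleteSpace H] in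
lemma dia_one (f : LH H) : dia 1 f = f := rfl

omit [CompleteSpace H] in
lemma dia_add (x y : H →L[ℂ] H) (f : LH H) : dia (x + y) f = dia x f + dia y f := rfl

omit [CompleteSpace H] in
lemma dia_sub (x y : H →L[ℂ] H) (f : LH H) : dia (x - y) f = dia x f - dia y f := rfl

omit [CompleteSpace H] in
lemma dia_smul (c : ℂ) (x : H →L[ℂ] H) (f : LH H) : dia (c • x) f = c • dia x f := rfl

lemma inner_dia (x : H →L[ℂ] H) (f g : LH H) : ⟪dia x f, g⟫_ℂ = ⟪f, dia (star x) g⟫_ℂ := by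
  rw [lp.inner_eq_tsum, lp.inner_eq_tsum]
  refine tsum_congr fun n => ?_
  rw [dia_apply, dia_apply, ContinuousLinearMap.star_eq_adjoint,
    ContinuousLinearMap.adjoint_inner_right]

lemma star_dia (x : H →L[ℂ] H) : star (dia x) = dia (star x) := by
  rw [ContinuousLinearMap.star_eq_adjoint, eq_comm, ContinuousLinearMap.eq_adjoint_iff]
  intro f g
  rw [inner_dia, star_star]

omit [InnerProductSpace ℂ H] [CompleteSpace H] in
lemma norm_sq_LH (f : LH H) : ‖f‖ ^ 2 = ∑' n, ‖f n‖ ^ 2 := by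
  have := lp.norm_rpow_eq_tsum (p := 2) (by norm_num) f
  simpa using this

instance isClosed_vN (M : VonNeumannAlgebra H) :
    IsClosed ((M.toStarSubalgebra : StarSubalgebra ℂ (H →L[ℂ] H)) : Set (H →L[ℂ] H)) := by
  rw [VonNeumannAlgebra.coe_toStarSubalgebra, ← M.centralizer_centralizer]
  exact Set.isClosed_centralizer _

section
variable {M : VonNeumannAlgebra H} {ξ : ℕ → H}

/-- the vector `ξ` in `ℓ²` -/
noncomputable def Xi (hξ : IsFaithfulTracialVectorState M ξ) : LH H :=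
  ⟨ξ, by
    apply memℓp_gen
    simpa using hξ.1.summable⟩

@[simp] lemma Xi_apply (hξ : IsFaithfulTracialVectorState M ξ) (n : ℕ) : Xi hξ n = ξ n := rfl

lemma vs_eq (hξ : IsFaithfulTracialVectorState M ξ) (x : H →L[ℂ] H) :
    vectorState ξ x = ⟪Xi hξ, dia x (Xi hξ)⟫_ℂ := by
  rw [lp.inner_eq_tsum]; rfl

lemma norm_Xi (hξ : IsFaithfulTracialVectorState M ξ) : ‖Xi hξ‖ ^ 2 = 1 := by
  rw [norm_sq_LH]; exact hξ.1.tsum_eq

/-- the tracial state -/
noncomputable def vts (hξ : IsFaithfulTracialVectorState M ξ) : TS M.toStarSubalgebra where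
  τ :=
    { toFun := fun x => ⟪Xi hξ, dia x.1 (Xi hξ)⟫_ℂ
      map_add' := fun x y => by
        rw [← inner_add_right, ← dia_add]; rfl
      map_smul' := fun c x => by
        rw [RingHom.id_apply, smul_eq_mul, ← inner_smul_right, ← dia_smul]; rfl }
  one := by
    change ⟪Xi hξ, dia 1 (Xi hξ)⟫_ℂ = 1
    rw [dia_one, inner_self_eq_norm_sq_to_K]
    have := congrArg (fun r : ℝ => (r : ℂ)) (norm_Xi hξ)
    simpa using this
  star' x := by
    change ⟪Xi hξ, dia (star x.1) (Xi hξ)⟫_ℂ = conj ⟪Xi hξ, dia x.1 (Xi hξ)⟫_ℂ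
    rw [inner_conj_symm, inner_dia]
  pos x := by
    change 0 ≤ (⟪Xi hξ, dia (star x.1 * x.1) (Xi hξ)⟫_ℂ).re
    rw [dia_mul, ← inner_dia]
    exact inner_self_nonneg (𝕜 := ℂ)
  tr x y := by
    change ⟪Xi hξ, dia (x.1 * y.1) (Xi hξ)⟫_ℂ = ⟪Xi hξ, dia (y.1 * x.1) (Xi hξ)⟫_ℂ
    rw [← vs_eq, ← vs_eq]
    exact hξ.2.1 _ x.2 _ y.2

lemma vts_n2 (hξ : IsFaithfulTracialVectorState M ξ) (x : M.toStarSubalgebra) :
    (vts hξ).n2 x = ‖dia x.1 (Xi hξ)‖ := by
  apply (sq_eq_sq₀ (TS.n2_nonneg _ _) (norm_nonneg _)).1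
  rw [TS.n2_sq]
  change (⟪Xi hξ, dia (star x.1 * x.1) (Xi hξ)⟫_ℂ).re = _
  rw [dia_mul, ← inner_dia, ← inner_self_eq_norm_sq (𝕜 := ℂ)]; rfl

lemma vts_n2_sq (hξ : IsFaithfulTracialVectorState M ξ) (x : M.toStarSubalgebra) :
    (vts hξ).n2 x ^ 2 = traceNormSq ξ x.1 := by
  rw [vts_n2, norm_sq_LH]; rfl

lemma apply_le_n2 (hξ : IsFaithfulTracialVectorState M ξ) (x : M.toStarSubalgebra) (k : ℕ) :
    ‖x.1 (ξ k)‖ ≤ (vts hξ).n2 x := by
  rw [vts_n2]
  exact lp.norm_apply_le_norm (by norm_num) (dia x.1 (Xi hξ)) k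

/-- bounded 2-norm null nets are strongly null -/
lemma sot_null (hξ : IsFaithfulTracialVectorState M ξ) {ι : Type*} {l : Filter ι}
    (z : ι → M.toStarSubalgebra) {C : ℝ} (hC : ∀ i, ‖(z i).1‖ ≤ C)
    (h : Tendsto (fun i => (vts hξ).n2 (z i)) l (𝓝 0)) (η : H) :
    Tendsto (fun i => (z i).1 η) l (𝓝 0) := by
  let S : Set H := {v | ∃ y ∈ M.commutant, ∃ k, v = y (ξ k)}
  have hp : prS S ∈ M := prS_mem M fun y hy v hv => by
    obtain ⟨y', hy', k, rfl⟩ := hv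
    exact mem_cs_of_mem ⟨y * y', mul_mem hy hy', k, rfl⟩
  have h1 : (1 : H →L[ℂ] H) - prS S = 0 := hξ.2.2 _ (sub_mem (one_mem _) hp) fun k => by
    have : prS S (ξ k) = ξ k := prS_apply_of_mem ⟨1, one_mem _, k, rfl⟩
    simp [this]
  have h2 : η ∈ cs S := by
    have : prS S η = η := by rw [← sub_eq_zero.1 h1]; rfl
    rw [← this]; exact prS_apply_mem_cs S η
  let U : Submodule ℂ H :=
    { carrier := {v | Tendsto (fun i => (z i).1 v) l (𝓝 0)}
      add_mem' := fun {a b} ha hb => by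
        simpa using Tendsto.add ha hb
      zero_mem' := by simpa using tendsto_const_nhds
      smul_mem' := fun c a ha => by
        simpa using Tendsto.const_smul ha c }
  have hU : IsClosed (U : Set H) := by
    refine isClosed_of_closure_subset fun v hv => ?_
    change Tendsto (fun i => (z i).1 v) l (𝓝 0)
    rw [NormedAddGroup.tendsto_nhds_zero]
    intro ε hε
    have hC' : 0 < |C| + 1 := by positivity
    obtain ⟨w, hw, hvw⟩ := Metric.mem_closure_iff.1 hv (ε / 2 / (|C| + 1)) (by positivity)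
    have hw' : Tendsto (fun i => (z i).1 w) l (𝓝 0) := hw
    rw [NormedAddGroup.tendsto_nhds_zero] at hw'
    filter_upwards [hw' (ε / 2) (by positivity)] with i hi
    have e : (z i).1 v = (z i).1 w + (z i).1 (v - w) := by simp
    rw [e]
    have h3 : ‖(z i).1 (v - w)‖ ≤ (|C| + 1) * ‖v - w‖ :=
      ((z i).1.le_opNorm _).trans (mul_le_mul_of_nonneg_right
        ((hC i).trans (by linarith [le_abs_self C])) (norm_nonneg _))
    rw [dist_eq_norm, lt_div_iff₀ hC'] at hvw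
    have := norm_add_le ((z i).1 w) ((z i).1 (v - w))
    linarith
  refine cs_le hU (fun v hv => ?_) h2
  obtain ⟨y, hy, k, rfl⟩ := hv
  change Tendsto (fun i => (z i).1 (y (ξ k))) l (𝓝 0)
  have h3 : Tendsto (fun i => (z i).1 (ξ k)) l (𝓝 0) :=
    squeeze_zero_norm (fun i => apply_le_n2 hξ (z i) k) h
  have h4 := (y.continuous.tendsto 0).comp h3
  rw [map_zero] at h4
  refine h4.congr fun i => ?_
  have := congrArg (fun t : H →L[ℂ] H => t (ξ k)) (commute_of_mem (P := M) (z i).2 hy).eq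
  simpa using this.symm

lemma conv_sot (hξ : IsFaithfulTracialVectorState M ξ) {x : ℕ → M.toStarSubalgebra}
    {a : M.toStarSubalgebra} (h : (vts hξ).Conv x a) (η : H) :
    Tendsto (fun n => (x n).1 η) atTop (𝓝 (a.1 η)) := by
  obtain ⟨C, hC⟩ := h.bdd
  have := sot_null hξ (fun n => x n - a) (C := C + ‖a‖)
    (fun n => (norm_sub_le (x n) a).trans (add_le_add (hC n) le_rfl)) h.lim η
  rw [tendsto_iff_norm_sub_tendsto_zero]
  rw [tendsto_zero_iff_norm_tendsto_zero] at this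
  exact this

lemma mem_of_sot (N : VonNeumannAlgebra H) {x : ℕ → H →L[ℂ] H} {a : H →L[ℂ] H}
    (hx : ∀ n, x n ∈ N) (h : ∀ η, Tendsto (fun n => x n η) atTop (𝓝 (a η))) : a ∈ N := by
  refine mem_of_commute N fun y hy => ?_
  ext η
  have h1 := h (y η)
  have h2 := (y.continuous.tendsto _).comp (h η)
  refine tendsto_nhds_unique h1 (h2.congr fun n => ?_)
  have := congrArg (fun t : H →L[ℂ] H => t η) (commute_of_mem (hx n) hy).eq
  simpa using this.symm

/-- `N ∩ M` as a subalgebra of `M` -/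
noncomputable def cap (M N : VonNeumannAlgebra H) : StarSubalgebra ℂ M.toStarSubalgebra :=
  N.toStarSubalgebra.comap M.toStarSubalgebra.subtype

lemma mem_cap {N : VonNeumannAlgebra H} {x : M.toStarSubalgebra} : x ∈ cap M N ↔ x.1 ∈ N :=
  Iff.rfl

lemma cl_cap (hξ : IsFaithfulTracialVectorState M ξ) (N : VonNeumannAlgebra H) :
    (vts hξ).Cl (cap M N) := fun _ _ hx h =>
  mem_of_sot N hx (conv_sot hξ h)

lemma vts_W (hξ : IsFaithfulTracialVectorState M ξ) : (vts hξ).W where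
  faithful x hx := Subtype.ext (hξ.2.2 _ x.2 fun k => by
    have := apply_le_n2 hξ x k
    rw [hx] at this
    exact norm_le_zero_iff.1 this)
  complete x C hC h := by
    have hC0 : 0 ≤ C := (norm_nonneg _).trans (hC 0)
    have h1 : Tendsto (fun p : ℕ × ℕ => (vts hξ).n2 (x p.1 - x p.2)) atTop (𝓝 0) := by
      simpa only [TS.n2_eq_dist] using cauchySeq_iff_tendsto_dist_atTop_0.1 h
    have h2 : ∀ η, CauchySeq (fun n => (x n).1 η) := fun η => by
      rw [cauchySeq_iff_tendsto_dist_atTop_0]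
      have := sot_null hξ (fun p : ℕ × ℕ => x p.1 - x p.2) (C := C + C)
        (fun p => (norm_sub_le (x p.1) (x p.2)).trans (add_le_add (hC _) (hC _))) h1 η
      rw [tendsto_zero_iff_norm_tendsto_zero] at this
      simp only [dist_eq_norm]
      exact this
    choose f hf using fun η => cauchySeq_tendsto_of_complete (h2 η)
    have hfn : ∀ η, ‖f η‖ ≤ C * ‖η‖ := fun η =>
      le_of_tendsto' (hf η).norm fun n => ((x n).1.le_opNorm η).trans
        (mul_le_mul_of_nonneg_right (hC n) (norm_nonneg _))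
    let a0 : H →ₗ[ℂ] H :=
      { toFun := f
        map_add' := fun v w => tendsto_nhds_unique (hf (v + w)) (by simpa using (hf v).add (hf w))
        map_smul' := fun c v =>
          tendsto_nhds_unique (hf (c • v)) (by simpa using (hf v).const_smul c) }
    let a : H →L[ℂ] H := a0.mkContinuous C hfn
    have ha : a ∈ M := mem_of_sot M (fun n => (x n).2) hf
    refine ⟨⟨a, ha⟩, LinearMap.mkContinuous_norm_le a0 hC0 hfn, ?_⟩
    have h3 : CauchySeq (fun n => dia (x n).1 (Xi hξ)) := by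
      rw [cauchySeq_iff_tendsto_dist_atTop_0]
      refine h1.congr fun p => ?_
      rw [vts_n2, dist_eq_norm, ← dia_sub]; rfl
    have h4 := lp.tendsto_lp_of_tendsto_pi h3 (f := dia a (Xi hξ))
      (tendsto_pi_nhds.2 fun k => hf (ξ k))
    rw [tendsto_iff_norm_sub_tendsto_zero] at h4
    refine h4.congr fun n => ?_
    rw [vts_n2, ← dia_sub]; rfl

end

omit [CompleteSpace H] in
lemma sep_LH [TopologicalSpace.SeparableSpace H] : TopologicalSpace.SeparableSpace (LH H) := by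
  rw [← TopologicalSpace.isSeparable_univ_iff]
  have h1 : TopologicalSpace.IsSeparable
      (⋃ k : ℕ, Set.range (lp.singleContinuousLinearMap ℂ (fun _ : ℕ => H) 2 k)) :=
    TopologicalSpace.IsSeparable.iUnion fun k =>
      TopologicalSpace.isSeparable_range (ContinuousLinearMap.continuous _)
  refine (h1.span (R := ℂ)).closure.mono fun f _ => ?_
  refine mem_closure_of_tendsto (lp.hasSum_single (by norm_num) f) (Eventually.of_forall fun s => ?_)
  exact Submodule.sum_mem _ fun k _ => Submodule.subset_span (Set.mem_iUnion.2 ⟨k, f k, rfl⟩)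

lemma vts_sep [TopologicalSpace.SeparableSpace H] {M : VonNeumannAlgebra H} {ξ : ℕ → H}
    (hξ : IsFaithfulTracialVectorState M ξ) : (vts hξ).Sep := by
  haveI := sep_LH (H := H)
  let g : (vts hξ).L2 → LH H := fun x => dia ((vts hξ).Λ.symm x).1 (Xi hξ)
  have hg : Isometry g := Isometry.of_dist_eq fun x y => by
    conv_rhs => rw [← (vts hξ).Λ.apply_symm_apply x, ← (vts hξ).Λ.apply_symm_apply y]
    rw [← TS.n2_eq_dist, vts_n2, dist_eq_norm, ← dia_sub]; rfl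
  haveI : SecondCountableTopology (vts hξ).L2 := hg.isUniformInducing.isInducing.secondCountableTopology
  obtain ⟨D, hD, hd⟩ := TopologicalSpace.exists_countable_dense (vts hξ).L2
  refine ⟨(vts hξ).Λ.symm '' D, hD.image _, fun a ε hε => ?_⟩
  obtain ⟨d, hd1, hd2⟩ := Metric.mem_closure_iff.1 (hd ((vts hξ).Λ a)) ε hε
  refine ⟨_, ⟨d, hd1, rfl⟩, ?_⟩
  rw [TS.n2_eq_dist]; simpa using hd2

/-! ### The bicommutant argument -/

/-- the commutant of a set, as a von Neumann algebra -/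
noncomputable def vn (S : Set (H →L[ℂ] H)) : VonNeumannAlgebra H where
  toStarSubalgebra := StarSubalgebra.centralizer ℂ S
  centralizer_centralizer' := by simp

lemma mem_vn {S : Set (H →L[ℂ] H)} {z : H →L[ℂ] H} :
    z ∈ vn S ↔ ∀ g ∈ S, g * z = z * g ∧ star g * z = z * star g :=
  StarSubalgebra.mem_centralizer_iff ℂ

lemma bicomm {S : Set (H →L[ℂ] H)} (h1 : (1 : H →L[ℂ] H) ∈ S) (hmul : ∀ x ∈ S, ∀ y ∈ S, x * y ∈ S)
    (hstar : ∀ x ∈ S, star x ∈ S) {b : H →L[ℂ] H} (hb : b ∈ (vn S).commutant) (f : LH H) :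
    dia b f ∈ cs ((fun s => dia s f) '' S) := by
  set R := (fun s => dia s f) '' S with hR
  have hinv : ∀ s ∈ S, ∀ v ∈ R, dia s v ∈ cs R := by
    rintro s hs _ ⟨t, ht, rfl⟩
    exact mem_cs_of_mem ⟨s * t, hmul s hs t ht, rfl⟩
  have hc : ∀ s ∈ S, Commute (prS R) (dia s) := fun s hs =>
    commute_prS _ (hinv s hs) (by rw [star_dia]; exact hinv _ (hstar s hs))
  let e : ℕ → ℕ → H →L[ℂ] H := fun i j =>
    (lp.evalCLM ℂ (fun _ : ℕ => H) 2 i).comp
      ((prS R).comp (lp.singleContinuousLinearMap ℂ (fun _ : ℕ => H) 2 j))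
  have hsing : ∀ (x : H →L[ℂ] H) (j : ℕ) (v : H),
      dia x (lp.single 2 j v) = lp.single 2 j (x v) := by
    intro x j v
    ext i
    rw [dia_apply, lp.single_apply, lp.single_apply]
    by_cases h : i = j
    · subst h; simp
    · simp [Pi.single_eq_of_ne h]
  have he : ∀ i j v, e i j v = prS R (lp.single 2 j v) i := fun _ _ _ => rfl
  have hcomm : ∀ s ∈ S, ∀ i j, s * e i j = e i j * s := by
    intro s hs i j
    ext v
    have := congrArg (fun t : LH H →L[ℂ] LH H => t (lp.single 2 j v) i) (hc s hs).eq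
    simp only [ContinuousLinearMap.mul_apply, dia_apply, hsing] at this
    simp only [ContinuousLinearMap.mul_apply, he]
    exact this.symm
  have hb' : ∀ i j, e i j * b = b * e i j := fun i j =>
    VonNeumannAlgebra.mem_commutant_iff.1 hb _
      (mem_vn.2 fun g hg => ⟨hcomm g hg i j, hcomm _ (hstar g hg) i j⟩)
  have hpb : prS R * dia b = dia b * prS R := by
    refine lp.ext_continuousLinearMap (by norm_num) fun j => ?_
    ext v i
    have := congrArg (fun t : H →L[ℂ] H => t v) (hb' i j)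
    simp only [ContinuousLinearMap.mul_apply, he] at this
    simpa [hsing] using this
  have hf : prS R f = f := prS_apply_of_mem ⟨1, h1, rfl⟩
  have : dia b f = prS R (dia b f) := by
    conv_lhs => rw [← hf]
    exact (congrArg (fun t : LH H →L[ℂ] LH H => t f) hpb).symm
  rw [this]; exact prS_apply_mem_cs _ _

variable {P M : VonNeumannAlgebra H} {ξ : ℕ → H}

lemma dense2_of_gen (hξ : IsFaithfulTracialVectorState M ξ) (hPM : P ≤ M) (u : M.toStarSubalgebra)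
    (h : ∀ N : VonNeumannAlgebra H, P ≤ N → u.1 ∈ N → M ≤ N) : Dense2 (vts hξ) (cap M P) u := by
  let S : Set (H →L[ℂ] H) := {x | ∃ F, H4.Gen.Poly (cap M P) F ∧ x = (F u).1}
  have h1 : (1 : H →L[ℂ] H) ∈ S := ⟨fun _ => 1, H4.Gen.Poly.const 1 (one_mem _), rfl⟩
  have hmul : ∀ x ∈ S, ∀ y ∈ S, x * y ∈ S := by
    rintro _ ⟨F, hF, rfl⟩ _ ⟨G, hG, rfl⟩
    exact ⟨_, H4.Gen.Poly.mul F G hF hG, rfl⟩
  have hstar : ∀ x ∈ S, star x ∈ S := by
    rintro _ ⟨F, hF, rfl⟩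
    exact ⟨_, poly_star hF, rfl⟩
  have hSN : ∀ x ∈ S, x ∈ (vn S).commutant := fun x hx =>
    VonNeumannAlgebra.mem_commutant_iff.2 fun g hg => ((mem_vn.1 hg) x hx).1.symm
  have hM := h (vn S).commutant
    (fun p hp => hSN p ⟨fun _ => ⟨p, hPM hp⟩, H4.Gen.Poly.const _ hp, rfl⟩)
    (hSN _ ⟨_, H4.Gen.Poly.id, rfl⟩)
  intro b δ hδ
  have hb := bicomm h1 hmul hstar (hM b.2) (Xi hξ)
  let U : Submodule ℂ (LH H) :=
    { carrier := (fun s => dia s (Xi hξ)) '' S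
      add_mem' := by
        rintro _ _ ⟨_, ⟨F, hF, rfl⟩, rfl⟩ ⟨_, ⟨G, hG, rfl⟩, rfl⟩
        exact ⟨_, ⟨_, H4.Gen.Poly.add F G hF hG, rfl⟩, rfl⟩
      zero_mem' := ⟨0, ⟨fun _ => 0, H4.Gen.Poly.const 0 (zero_mem _), rfl⟩, rfl⟩
      smul_mem' := by
        rintro c _ ⟨_, ⟨F, hF, rfl⟩, rfl⟩
        exact ⟨_, ⟨_, poly_smul c hF, rfl⟩, rfl⟩ }
  have hU : Submodule.span ℂ ((fun s => dia s (Xi hξ)) '' S) = U := Submodule.span_eq U
  have hb' : dia b.1 (Xi hξ) ∈ closure (U : Set (LH H)) := by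
    rw [← hU]; exact hb
  obtain ⟨_, ⟨_, ⟨F, hF, rfl⟩, rfl⟩, hd⟩ := Metric.mem_closure_iff.1 hb' δ hδ
  refine ⟨F, hF, ?_⟩
  rw [vts_n2]
  rw [dist_eq_norm, ← dia_sub] at hd
  exact hd

lemma le_of_cap_top {N : VonNeumannAlgebra H} (h : cap M N = ⊤) : M ≤ N := fun x hx => by
  have : (⟨x, hx⟩ : M.toStarSubalgebra) ∈ cap M N := by rw [h]; exact StarSubalgebra.mem_top
  exact this

lemma gen_of_dense2 (hξ : IsFaithfulTracialVectorState M ξ) (u : M.toStarSubalgebra)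
    (h : Dense2 (vts hξ) (cap M P) u) (N : VonNeumannAlgebra H) (hPN : P ≤ N) (hu : u.1 ∈ N) :
    M ≤ N :=
  le_of_cap_top (topStmt _ (vts hξ) (cap M P) (cap M N) u (cl_cap hξ N) (fun _ hx => hPN hx) hu h)

lemma unitary_coe {u : M.toStarSubalgebra} :
    u ∈ unitary M.toStarSubalgebra ↔ u.1 ∈ unitary (H →L[ℂ] H) :=
  ⟨fun h => ⟨congrArg Subtype.val h.1, congrArg Subtype.val h.2⟩,
    fun h => ⟨Subtype.ext h.1, Subtype.ext h.2⟩⟩

universe u

theorem s0125_of (hS : SingleStmt.{u})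
    (H : Type u) [NormedAddCommGroup H] [InnerProductSpace ℂ H] [CompleteSpace H]
    [TopologicalSpace.SeparableSpace H] (M : VonNeumannAlgebra H) (hM : IsTypeIIOneFactor M) :
    ∃ x ∈ M, ∀ N : VonNeumannAlgebra H, x ∈ N → M ≤ N := by
  obtain ⟨hF, hI, ξ, hξ⟩ := hM
  obtain ⟨x, hx⟩ := hS M.toStarSubalgebra (vts hξ) (vts_W hξ) (vts_sep hξ) (fun z hz => by
    obtain ⟨c, hc⟩ := hF z.1 z.2 fun y hy =>
      congrArg Subtype.val (hz ⟨y, hy⟩ StarSubalgebra.mem_top)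
    exact ⟨c, Subtype.ext hc⟩) hI
  exact ⟨x.1, x.2, fun N hN => le_of_cap_top (hx _ (cl_cap hξ N) hN)⟩

theorem s0126_of (hA : PopaStmt.{u}) (hB : LocalStmt.{u})
    (H : Type u) [NormedAddCommGroup H] [InnerProductSpace ℂ H] [CompleteSpace H]
    [TopologicalSpace.SeparableSpace H] (P M : VonNeumannAlgebra H) (hPM : P ≤ M)
    (hM : IsTypeIIOneFactor M)
    (hPM' : ∀ x ∈ M, (∀ y ∈ P, x * y = y * x) → ∃ c : ℂ, x = c • (1 : H →L[ℂ] H))
    (ξ : ℕ → H) (hξ : IsFaithfulTracialVectorState M ξ) :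
    (∃ O : ℕ → Set (H →L[ℂ] H),
      (∀ k : ℕ, ∀ u ∈ M, u ∈ unitary (H →L[ℂ] H) → u ∈ O k → ∃ δ : ℝ, 0 < δ ∧
        ∀ v ∈ M, v ∈ unitary (H →L[ℂ] H) → traceNormSq ξ (v - u) < δ → v ∈ O k) ∧
      (∀ u ∈ M, u ∈ unitary (H →L[ℂ] H) →
        ((∀ N : VonNeumannAlgebra H, P ≤ N → u ∈ N → M ≤ N) ↔ ∀ k : ℕ, u ∈ O k))) ∧
    (∀ u ∈ M, u ∈ unitary (H →L[ℂ] H) → ∀ ε : ℝ, 0 < ε →
      ∃ v ∈ M, v ∈ unitary (H →L[ℂ] H) ∧ (∀ N : VonNeumannAlgebra H, P ≤ N → v ∈ N → M ≤ N) ∧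
        traceNormSq ξ (v - u) < ε) := by
  refine ⟨?_, ?_⟩
  · obtain ⟨D, hDc, hD⟩ := vts_sep hξ
    obtain ⟨d0, hd0, -⟩ := hD 0 1 one_pos
    obtain ⟨f, hf⟩ := hDc.exists_eq_range ⟨d0, hd0⟩
    refine ⟨fun k => {x | ∃ hx : x ∈ M, ∃ F, H4.Gen.Poly (cap M P) F ∧
      (vts hξ).n2 (f k.unpair.1 - F ⟨x, hx⟩) < 1 / ((k.unpair.2 : ℝ) + 1)}, ?_, ?_⟩
    · rintro k u hu huu ⟨_, F, hF, h⟩
      obtain ⟨δ, hδ, h'⟩ := open_cond (vts hξ) (u := ⟨u, hu⟩) (unitary_coe.2 huu) hF h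
      refine ⟨δ ^ 2, by positivity, fun v hv hvu hd => ⟨hv, F, hF, h' _ (unitary_coe.2 hvu) ?_⟩⟩
      have : (vts hξ).n2 (⟨v, hv⟩ - ⟨u, hu⟩) ^ 2 < δ ^ 2 := by rw [vts_n2_sq]; exact hd
      exact lt_of_pow_lt_pow_left₀ 2 hδ.le this
    · intro u hu _
      refine ⟨fun h k => ?_, fun h => gen_of_dense2 hξ ⟨u, hu⟩ (dense2_of hD fun b hb m => ?_)⟩
      · exact ⟨hu, dense2_of_gen hξ hPM ⟨u, hu⟩ h _ _ (by positivity)⟩
      · rw [hf] at hb
        obtain ⟨i, rfl⟩ := hb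
        obtain ⟨_, F, hF, h'⟩ := h (Nat.pair i m)
        exact ⟨F, hF, by simpa using h'⟩
  · intro u hu huu ε hε
    have hI : Irr (cap M P) := fun z hz => by
      obtain ⟨c, hc⟩ := hPM' z.1 z.2 fun y hy => congrArg Subtype.val (hz ⟨y, hPM hy⟩ hy)
      exact ⟨c, Subtype.ext hc⟩
    have hL := hB _ (vts hξ) _ (hA _ (vts hξ) _ (vts_W hξ) (cl_cap hξ P) hI hM.2.1)
    obtain ⟨v, hv, h1, h2⟩ := mainStmt _ (vts hξ) _ (vts_W hξ) (vts_sep hξ) hL ⟨u, hu⟩
      (unitary_coe.2 huu) (√ε) (Real.sqrt_pos.2 hε)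
    refine ⟨v.1, v.2, unitary_coe.1 hv, gen_of_dense2 hξ v h2, ?_⟩
    have := vts_n2_sq hξ (v - ⟨u, hu⟩)
    change _ = traceNormSq ξ (v.1 - u) at this
    rw [← this]
    exact (Real.lt_sqrt (TS.n2_nonneg _ _)).1 h1

end Crest.Agent.H7.Gen
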