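import Crest.Agent.Lead.HcI

/-! Row 121: basic facts on row contractions, weak smallness, pinching and random phases. -/

set_option autoImplicit false
set_option linter.unusedSectionVars false

namespace Crest.Agent.H7.Hc

open scoped InnerProductSpace ComplexConjugate
open Finset Crest.Agent.H5.KS Crest.Agent.Lead.Hc

variable {H : Type*} [NormedAddCommGroup H] [InnerProductSpace ℂ H] [CompleteSpace H]
variable {M : VonNeumannAlgebra H} {z : H →L[ℂ] H} {k : ℕ} {ζ : Fin k → H}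

lemma le_of_sq {a b : ℝ} (h : a ^ 2 ≤ b ^ 2) (hb : 0 ≤ b) : a ≤ b :=
  le_trans (le_abs_self a) (abs_le_of_sq_le_sq h hb)

/-- the test functional -/
noncomputable def phi (ζ : Fin k → H) (a v : H →L[ℂ] H) : (H →L[ℂ] H) →ₗ[ℂ] ℂ where
  toFun y := tr ζ (a * y * v)
  map_add' y y' := by rw [mul_add, add_mul, tr_add]
  map_smul' c y := by
    simp only [tr, mul_smul_comm, smul_mul_assoc, smul_apply, inner_smul_right, RingHom.id_apply,
      smul_eq_mul, mul_sum]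

lemma phi_eq (a v y : H →L[ℂ] H) : tr ζ (a * y * v) = phi ζ a v y := rfl

lemma phi_inner (a v y : H →L[ℂ] H) :
    phi ζ a v y = ∑ j, ⟪star a (ζ j), y (v (ζ j))⟫_ℂ := by
  rw [← phi_eq, tr]
  exact sum_congr rfl fun j _ => by rw [inner_star_left]; rfl

lemma cs_sum {ι : Type*} (s : Finset ι) (u v : ι → H) :
    ‖∑ i ∈ s, ⟪u i, v i⟫_ℂ‖ ^ 2 ≤ (∑ i ∈ s, ‖u i‖ ^ 2) * ∑ i ∈ s, ‖v i‖ ^ 2 :=
  (pow_le_pow_left₀ (norm_nonneg _) ((norm_sum_le _ _).trans
    (sum_le_sum fun _ _ => norm_inner_le_norm _ _)) 2).trans (sum_mul_sq_le_sq_mul_sq _ _ _)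

lemma sum_normsq_op (ζ : Fin k → H) (a : H →L[ℂ] H) :
    ∑ j, ‖a (ζ j)‖ ^ 2 ≤ ‖a‖ ^ 2 * ∑ j, ‖ζ j‖ ^ 2 := by
  rw [mul_sum]
  exact sum_le_sum fun j _ => by
    rw [← mul_pow]; exact pow_le_pow_left₀ (norm_nonneg _) (a.le_opNorm _) 2

lemma sum_normsq_one (ζ : Fin k → H) {a : H →L[ℂ] H} (ha : ‖a‖ ≤ 1) :
    ∑ j, ‖a (ζ j)‖ ^ 2 ≤ ∑ j, ‖ζ j‖ ^ 2 :=
  sum_le_sum fun _ _ => pow_le_pow_left₀ (norm_nonneg _) (apply_le_of_le_one ha _) 2

lemma norm_phi_le (h1 : ∑ j, ‖ζ j‖ ^ 2 ≤ 1) {a v : H →L[ℂ] H} (ha : ‖a‖ ≤ 1) (hv : ‖v‖ ≤ 1)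
    (y : H →L[ℂ] H) : ‖phi ζ a v y‖ ≤ ‖y‖ := by
  refine le_of_sq ?_ (norm_nonneg _)
  rw [phi_inner]
  refine (cs_sum _ _ _).trans ?_
  have b1 := (sum_normsq_one ζ (a := star a) (by rwa [norm_star])).trans h1
  have b2 := sum_normsq_op (fun j => v (ζ j)) y
  have b3 := (sum_normsq_one ζ hv).trans h1
  have b4 : ∑ j, ‖y (v (ζ j))‖ ^ 2 ≤ ‖y‖ ^ 2 := b2.trans (by nlinarith [sq_nonneg ‖y‖])
  calc _ ≤ 1 * ‖y‖ ^ 2 := mul_le_mul b1 b4 (by positivity) zero_le_one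
    _ = _ := one_mul _

/-- the two-sided use of the approximate trace -/
lemma phi1 (h : CT M ζ) {a v W p : H →L[ℂ] H} (aM : a ∈ M) (vM : v ∈ M) (WM : W ∈ M) (pM : p ∈ M)
    (pp : IsStarProjection p) (ha : ‖a‖ ≤ 1) (hv : ‖v‖ ≤ 1) :
    ‖phi ζ a v (W * p)‖ ≤ 2 * ‖W‖ * ∑ j, ‖p (ζ j)‖ ^ 2 := by
  refine le_of_sq ?_ (by positivity)
  have e : phi ζ a v (W * p) = ∑ j, ⟪star (a * W * p) (ζ j), star (star v * p) (ζ j)⟫_ℂ := by
    rw [← phi_eq, tr]
    refine sum_congr rfl fun j _ => ?_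
    rw [inner_star_left, ← mul_apply_eq_comp, star_mul, star_star, pstar pp, mul_assoc (a * W),
      pmul' pp, mul_assoc, mul_assoc, mul_assoc]
  rw [e]
  refine (cs_sum _ _ _).trans ?_
  have b1 := h _ (mul_mem (mul_mem aM WM) pM)
  have b2 := h _ (mul_mem (star_mem vM) pM)
  have b3 := sum_normsq_op (fun j => p (ζ j)) (a * W)
  have b4 := sum_normsq_one (fun j => p (ζ j)) (a := star v) (by rwa [norm_star])
  have b5 : ‖a * W‖ ^ 2 ≤ ‖W‖ ^ 2 := pow_le_pow_left₀ (norm_nonneg _)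
    ((norm_mul_le _ _).trans (mul_le_of_le_one_left (norm_nonneg _) ha)) 2
  have s0 : 0 ≤ ∑ j, ‖p (ζ j)‖ ^ 2 := by positivity
  have b6 : ∑ j, ‖star (a * W * p) (ζ j)‖ ^ 2 ≤ 2 * (‖W‖ ^ 2 * ∑ j, ‖p (ζ j)‖ ^ 2) :=
    b1.trans (mul_le_mul_of_nonneg_left (b3.trans (mul_le_mul_of_nonneg_right b5 s0)) zero_le_two)
  have b7 : ∑ j, ‖star (star v * p) (ζ j)‖ ^ 2 ≤ 2 * ∑ j, ‖p (ζ j)‖ ^ 2 :=
    b2.trans (mul_le_mul_of_nonneg_left b4 zero_le_two)
  calc _ ≤ (2 * (‖W‖ ^ 2 * ∑ j, ‖p (ζ j)‖ ^ 2)) * (2 * ∑ j, ‖p (ζ j)‖ ^ 2) :=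
        mul_le_mul b6 b7 (by positivity) (by positivity)
    _ = _ := by ring

/-! ### weak smallness -/

section near
variable {S S' : (H →L[ℂ] H) → H →L[ℂ] H} {c c' : ℝ}

lemma near_congr (h : Near M ζ c S) (e : ∀ x ∈ M, S' x = S x) : Near M ζ c S' :=
  fun x hx a ha v hv n1 n2 n3 => by rw [e x hx]; exact h x hx a ha v hv n1 n2 n3

lemma near_mono (h : Near M ζ c S) (e : c ≤ c') : Near M ζ c' S :=
  fun x hx a ha v hv n1 n2 n3 => (h x hx a ha v hv n1 n2 n3).trans e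

lemma near_add (h : Near M ζ c S) (h' : Near M ζ c' S') :
    Near M ζ (c + c') fun x => S x + S' x := fun x hx a ha v hv n1 n2 n3 => by
  rw [phi_eq, map_add]
  exact (norm_add_le _ _).trans (add_le_add (h x hx a ha v hv n1 n2 n3) (h' x hx a ha v hv n1 n2 n3))

lemma near_neg (h : Near M ζ c S) : Near M ζ c fun x => - S x := fun x hx a ha v hv n1 n2 n3 => by
  rw [phi_eq, map_neg, norm_neg]; exact h x hx a ha v hv n1 n2 n3

lemma near_zero : Near M ζ 0 fun _ => 0 := fun x _ a _ v _ _ _ _ => by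
  rw [phi_eq, map_zero, norm_zero]

lemma phi_rsmul (a v y : H →L[ℂ] H) (t : ℝ) : phi ζ a v (t • y) = t * phi ζ a v y := by
  rw [← Complex.coe_smul, map_smul, smul_eq_mul]

lemma near_smul (h : Near M ζ c S) {t : ℝ} (ht : 0 ≤ t) : Near M ζ (t * c) fun x => t • S x :=
  fun x hx a ha v hv n1 n2 n3 => by
    rw [phi_eq, phi_rsmul, norm_mul, Complex.norm_real, Real.norm_of_nonneg ht]
    exact mul_le_mul_of_nonneg_left (h x hx a ha v hv n1 n2 n3) ht

lemma near_sum {ι : Type*} (s : Finset ι) {S : ι → (H →L[ℂ] H) → H →L[ℂ] H} {c : ι → ℝ}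
    (h : ∀ i ∈ s, Near M ζ (c i) (S i)) : Near M ζ (∑ i ∈ s, c i) fun x => ∑ i ∈ s, S i x :=
  fun x hx a ha v hv n1 n2 n3 => by
    rw [phi_eq, map_sum]
    exact (norm_sum_le _ _).trans (sum_le_sum fun i hi => h i hi x hx a ha v hv n1 n2 n3)

lemma near_av {Ω : Type*} [Fintype Ω] [Nonempty Ω] {S : Ω → (H →L[ℂ] H) → H →L[ℂ] H}
    (h : ∀ i, Near M ζ c (S i)) : Near M ζ c fun x => av fun i => S i x :=
  fun x hx a ha v hv n1 n2 n3 => by
    rw [phi_eq, av_lin]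
    exact (norm_av_le _).trans (av_le fun i => h i x hx a ha v hv n1 n2 n3)

lemma near_conj (h : Near M ζ c S) {u : H →L[ℂ] H} (uM : u ∈ M) (hu : ‖u‖ ≤ 1) :
    Near M ζ c fun x => S (x * u) * star u := fun x hx a ha v hv n1 n2 n3 => by
  have := h (x * u) (mul_mem hx uM) a ha (star u * v) (mul_mem (star_mem uM) hv)
    (mul_le_one' n1 hu) n2 (mul_le_one' (by rwa [norm_star]) n3)
  simpa only [mul_assoc] using this

lemma near_of_norm (h1 : ∑ j, ‖ζ j‖ ^ 2 ≤ 1) (h : ∀ x ∈ M, ‖x‖ ≤ 1 → ‖S x‖ ≤ c) :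
    Near M ζ c S := fun x hx a _ v _ n1 n2 n3 => by
  rw [phi_eq]; exact (norm_phi_le h1 n2 n3 _).trans (h x hx n1)

end near

/-! ### row contractions -/

section rb
variable {T : (H →L[ℂ] H) →ₗ[ℂ] (H →L[ℂ] H)}

lemma rb_rowS (h : RB M T) {α : Type} (s : Finset α) (y : α → H →L[ℂ] H) (c : ℝ)
    (hy : ∀ i ∈ s, y i ∈ M) (hr : ∀ ξ, ∑ i ∈ s, ‖star (y i) ξ‖ ^ 2 ≤ c ^ 2 * ‖ξ‖ ^ 2) (ξ : H) :
    ∑ i ∈ s, ‖star (T (y i)) ξ‖ ^ 2 ≤ c ^ 2 * ‖ξ‖ ^ 2 := by
  have := h.row s (fun i => y i) c (fun i => hy i i.2)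
    (fun ξ => by rw [sum_coe_sort s fun i => ‖star (y i) ξ‖ ^ 2]; exact hr ξ) ξ
  rwa [sum_coe_sort s fun i => ‖star (T (y i)) ξ‖ ^ 2] at this

lemma rb_norm (h : RB M T) {x : H →L[ℂ] H} (hx : x ∈ M) : ‖T x‖ ≤ ‖x‖ := by
  rw [← norm_star (T x)]
  refine opNorm_le_of_sq (norm_nonneg _) fun ξ => ?_
  have := h.row Unit (fun _ => x) ‖x‖ (fun _ => hx) (fun ξ => by
    rw [Fintype.sum_unique, ← mul_pow, ← norm_star x]
    exact pow_le_pow_left₀ (norm_nonneg _) ((star x).le_opNorm _) 2) ξ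
  rwa [Fintype.sum_unique] at this

lemma rb_near (h1 : ∑ j, ‖ζ j‖ ^ 2 ≤ 1) (h : RB M T) : Near M ζ 1 T :=
  near_of_norm h1 fun _ hx n1 => (rb_norm h hx).trans n1

/-- a contractive column is a contractive row -/
lemma row_le {ι : Type*} [Fintype ι] {y : ι → H →L[ℂ] H} (h : Row y 1) (η : ι → H) :
    ‖∑ i, y i (η i)‖ ^ 2 ≤ ∑ i, ‖η i‖ ^ 2 := by
  set w := ∑ i, y i (η i) with hw
  have e : ⟪w, w⟫_ℂ = ∑ i, ⟪star (y i) w, η i⟫_ℂ := by
    conv_lhs => rhs; rw [hw]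
    rw [inner_sum]
    exact sum_congr rfl fun i _ => (inner_star_left _ _ _).symm
  have b1 := cs_sum univ (fun i => star (y i) w) η
  rw [← e, inner_self_eq_norm_sq_to_K, norm_pow, RCLike.norm_ofReal, abs_norm] at b1
  have b2 := h w
  have s0 : 0 ≤ ∑ i, ‖η i‖ ^ 2 := by positivity
  rcases (sq_nonneg ‖w‖).eq_or_lt with h0 | h0
  · rw [← h0]; exact s0
  · have b3 : ‖w‖ ^ 2 * ‖w‖ ^ 2 ≤ ‖w‖ ^ 2 * ∑ i, ‖η i‖ ^ 2 := by nlinarith
    exact le_of_mul_le_mul_left b3 h0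

lemma rb_frame (h : RB M T) {ι : Type} [Fintype ι] {y : ι → H →L[ℂ] H} (hM : ∀ i, y i ∈ M)
    (hy : Row y 1) {S : (H →L[ℂ] H) →ₗ[ℂ] (H →L[ℂ] H)}
    (hS : ∀ x, S x = ∑ i, T (x * y i) * star (y i)) : RB M S := by
  refine ⟨fun x hx => ?_, fun I _ x c hx hr ξ => ?_⟩
  · rw [hS]; exact sum_mem fun i _ => mul_mem (h.mem _ (mul_mem hx (hM i))) (star_mem (hM i))
  · have b1 := h.row (I × ι) (fun p => x p.1 * y p.2) c (fun p => mul_mem (hx _) (hM _)) (fun ξ => by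
      rw [Fintype.sum_prod_type]
      refine le_trans (sum_le_sum fun j _ => ?_) (hr ξ)
      simpa only [star_mul, mul_apply_eq_comp, one_pow, one_mul] using hy (star (x j) ξ)) ξ
    rw [Fintype.sum_prod_type] at b1
    refine le_trans (sum_le_sum fun j _ => ?_) b1
    have := row_le hy fun i => star (T (x j * y i)) ξ
    beta_reduce
    rw [hS, sstar, _root_.sum_apply]
    simpa only [star_mul, star_star, mul_apply_eq_comp] using this

end rb

/-! ### partitions -/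

section part
variable {ι : Type} [Fintype ι] {p : ι → H →L[ℂ] H}

lemma part_sum_le (h : Lead.Hc.Part M z p) (s : Finset ι) (ξ : H) :
    ∑ l ∈ s, ‖p l ξ‖ ^ 2 ≤ ‖ξ‖ ^ 2 :=
  sum_proj_normsq s p (fun i _ => h.proj i) (fun i _ j _ hij => h.orth i j hij) ξ

lemma part_row (h : Lead.Hc.Part M z p) : Row p 1 := fun ξ => by
  simp only [pstar (h.proj _), one_pow, one_mul]; exact part_sum_le h _ ξ

lemma part_inner (h : Lead.Hc.Part M z p) {i j : ι} (hij : i ≠ j) (ξ η : H) :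
    ⟪p i ξ, p j η⟫_ℂ = 0 := by
  rw [← inner_star_right, pstar (h.proj i), ← mul_apply_eq_comp, h.orth i j hij]; simp

lemma part_normsq (h : Lead.Hc.Part M z p) (s : Finset ι) (ξ : H) :
    ‖(∑ l ∈ s, p l) ξ‖ ^ 2 = ∑ l ∈ s, ‖p l ξ‖ ^ 2 := by
  rw [_root_.sum_apply]
  exact normsq_sum_orth s _ fun i _ j _ hij => part_inner h hij _ _

lemma part_mul (h : Lead.Hc.Part M z p) [DecidableEq ι] (i j : ι) :
    p i * p j = if i = j then p i else 0 := by
  split_ifs with e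
  · rw [← e, pmul (h.proj i)]
  · exact h.orth i j e

lemma part_cut (h : Lead.Hc.Part M z p) (i : ι) : p i * z = p i := by
  classical
  rw [← h.sum, mul_sum]; simp [part_mul h]

lemma part_cut' (h : Lead.Hc.Part M z p) (i : ι) : z * p i = p i := by
  classical
  rw [← h.sum, sum_mul]; simp only [part_mul h, sum_ite_eq', mem_univ, if_true]

lemma norm_diag_le (h : Lead.Hc.Part M z p) (κ : ι → ℂ) {δ : ℝ} (hδ : 0 ≤ δ)
    (hκ : ∀ i, p i = 0 ∨ ‖κ i‖ ≤ δ) : ‖∑ i, κ i • p i‖ ≤ δ := by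
  refine opNorm_le_of_sq hδ fun ξ => ?_
  rw [_root_.sum_apply, normsq_sum_orth univ _ fun i _ j _ hij => by
    rw [smul_apply, smul_apply, inner_smul_left, inner_smul_right, part_inner h hij]; simp]
  refine le_trans (sum_le_sum fun i _ => ?_)
    ((mul_sum _ _ _).ge.trans (mul_le_mul_of_nonneg_left (part_sum_le h univ ξ) (sq_nonneg δ)))
  rw [smul_apply, norm_smul, mul_pow]
  rcases hκ i with h0 | h0
  · simp [h0]
  · exact mul_le_mul_of_nonneg_right (pow_le_pow_left₀ (norm_nonneg _) h0 2) (sq_nonneg _)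

lemma diag_mem (h : Lead.Hc.Part M z p) (κ : ι → ℂ) : ∑ i, κ i • p i ∈ M :=
  sum_mem fun i _ => vsmul_mem _ (h.mem i)

lemma diag_mul (h : Lead.Hc.Part M z p) (κ κ' : ι → ℂ) :
    (∑ i, κ i • p i) * ∑ i, κ' i • p i = ∑ i, (κ i * κ' i) • p i := by
  classical
  rw [sum_mul]
  refine sum_congr rfl fun i _ => ?_
  rw [mul_sum]
  simp only [smul_mul_smul_comm, part_mul h, smul_ite, smul_zero, sum_ite_eq, mem_univ, if_true]

lemma diag_star (h : Lead.Hc.Part M z p) (κ : ι → ℂ) :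
    star (∑ i, κ i • p i) = ∑ i, conj (κ i) • p i := by
  rw [sstar]
  exact sum_congr rfl fun i _ => by rw [star_smul, pstar (h.proj i)]; rfl

lemma diag_cu (h : Lead.Hc.Part M z p) {κ : ι → ℂ} (hκ : ∀ i, ‖κ i‖ = 1) :
    Batch.CU M z (∑ i, κ i • p i) := by
  refine ⟨diag_mem h κ, ?_, ?_⟩
  · rw [diag_star h, diag_mul h, ← h.sum]
    exact sum_congr rfl fun i _ => by rw [Kad.conj_mul_of_norm (hκ i), one_smul]
  · rw [diag_star h, diag_mul h, ← h.sum]
    exact sum_congr rfl fun i _ => by rw [mul_comm, Kad.conj_mul_of_norm (hκ i), one_smul]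

lemma rb_pin (h : Lead.Hc.Part M z p) {T : (H →L[ℂ] H) →ₗ[ℂ] (H →L[ℂ] H)} (hT : RB M T) :
    RB M (pin p T) :=
  rb_frame hT h.mem (part_row h) fun x => by simp only [pin_apply, pstar (h.proj _)]

end part

/-! ### phases -/

section ph
variable {N : ℕ} [NeZero N]

lemma ph_eq (j : ZMod N) : ph N j = ZMod.stdAddChar j := by
  rw [ZMod.stdAddChar_apply, ZMod.toCircle_apply]; rfl

lemma norm_ph (j : ZMod N) : ‖ph N j‖ = 1 := by
  rw [ph_eq, ZMod.stdAddChar_apply, Circle.norm_coe]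

lemma ph_add (i j : ZMod N) : ph N (i + j) = ph N i * ph N j := by
  simp only [ph_eq, AddChar.map_add_eq_mul]

lemma ph_zero : ph N 0 = 1 := by rw [ph_eq, AddChar.map_zero_eq_one]

lemma ph_neg (j : ZMod N) : ph N (-j) = conj (ph N j) := by
  have h1 : ph N (-j) * ph N j = 1 := by rw [← ph_add, neg_add_cancel, ph_zero]
  have h2 := Kad.conj_mul_of_norm (norm_ph j)
  have h0 : ph N j ≠ 0 := by
    intro h; rw [h, mul_zero] at h1; exact zero_ne_one h1
  exact mul_right_cancel₀ h0 (h1.trans h2.symm)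

lemma ph_pow_ne {c : ℕ} (h0 : 0 < c) (h1 : c < N) : ph N 1 ^ c ≠ 1 := by
  rw [ph_eq, ← AddChar.map_nsmul_eq_pow, ← AddChar.map_zero_eq_one (ZMod.stdAddChar (N := N))]
  intro h
  have := ZMod.injective_stdAddChar h
  rw [nsmul_eq_mul, mul_one, ZMod.natCast_eq_zero_iff] at this
  exact absurd (Nat.le_of_dvd h0 this) (by omega)

variable {σ : Type} [Fintype σ] [DecidableEq σ]

/-- the monomial of a word -/
noncomputable def mon (N : ℕ) (θ : σ → ZMod N) (A : List σ) : ℂ :=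
  (A.map fun s => ph N (θ s)).prod

lemma mon_nil (θ : σ → ZMod N) : mon N θ [] = 1 := rfl

lemma mon_cons (θ : σ → ZMod N) (s : σ) (A : List σ) :
    mon N θ (s :: A) = ph N (θ s) * mon N θ A := by simp [mon]

lemma norm_mon (θ : σ → ZMod N) (A : List σ) : ‖mon N θ A‖ = 1 := by
  induction A with
  | nil => simp [mon]
  | cons s A ih => rw [mon_cons, norm_mul, norm_ph, ih, one_mul]

lemma mon_shift (θ : σ → ZMod N) (s : σ) (A : List σ) :
    mon N (θ + Pi.single s 1) A = ph N 1 ^ A.count s * mon N θ A := by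
  induction A with
  | nil => simp [mon]
  | cons t A ih =>
    rw [mon_cons, mon_cons, ih, List.count_cons, Pi.add_apply, ph_add]
    by_cases h : t = s
    · subst h; simp only [Pi.single_eq_same, beq_self_eq_true, if_true]; ring
    · rw [Pi.single_eq_of_ne h, ph_zero, if_neg (by simpa using h)]; ring

/-- correlation of two monomials -/
noncomputable def chi (N : ℕ) [NeZero N] (A B : List σ) : ℂ :=
  av fun θ : σ → ZMod N => mon N θ A * conj (mon N θ B)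

lemma norm_chi (A B : List σ) : ‖chi N A B‖ ≤ 1 :=
  (norm_av_le _).trans (av_le fun θ => by
    rw [norm_mul, Complex.norm_conj, norm_mon, norm_mon, one_mul])

lemma chi_cons (s : σ) (A B : List σ) : chi N (s :: A) (s :: B) = chi N A B := by
  unfold chi
  congr 1
  ext θ
  have := Kad.conj_mul_of_norm (norm_ph (θ s))
  rw [mon_cons, mon_cons, map_mul]
  linear_combination (mon N θ A * conj (mon N θ B)) * this

lemma chi_nil : chi N ([] : List σ) [] = 1 := by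
  simp only [chi, mon_nil, map_one, mul_one, av_const]

lemma av_cmul {Ω : Type*} [Fintype Ω] (c : ℂ) (f : Ω → ℂ) : av (fun t => c * f t) = c * av f := by
  unfold av; rw [← mul_sum, mul_smul_comm]

lemma chi_conj (A B : List σ) : conj (chi N A B) = chi N B A := by
  have := av_map (Complex.conjAe.toLinearMap) fun θ : σ → ZMod N => mon N θ A * conj (mon N θ B)
  refine this.trans ?_
  unfold chi
  congr 1
  ext θ
  simp [mul_comm]

lemma chi_sub {A B : List σ} (hA : A.length < N) (h : chi N A B ≠ 0) : ∀ s ∈ A, s ∈ B := by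
  intro s hs
  by_contra hB
  apply h
  have e := av_equiv (Equiv.addRight (Pi.single s (1 : ZMod N) : σ → ZMod N))
    fun θ : σ → ZMod N => mon N θ A * conj (mon N θ B)
  simp only [Equiv.coe_addRight, mon_shift, List.count_eq_zero_of_not_mem hB, pow_zero, one_mul,
    mul_assoc, av_cmul] at e
  have h1 := ph_pow_ne (N := N) (List.count_pos_iff.2 hs) (List.count_le_length.trans_lt hA)
  have h2 : (ph N 1 ^ A.count s - 1) * chi N A B = 0 := by rw [sub_mul, one_mul, sub_eq_zero]; exact e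
  exact (mul_eq_zero.1 h2).resolve_left (sub_ne_zero.2 h1)

lemma chi_iff {A B : List σ} (hA : A.length < N) (hB : B.length < N) (h : chi N A B ≠ 0) (s : σ) :
    s ∈ A ↔ s ∈ B :=
  ⟨chi_sub hA h s, chi_sub hB (fun h' => h (by rw [← chi_conj, h', map_zero])) s⟩

lemma av_csmul {Ω : Type*} [Fintype Ω] (f : Ω → ℂ) (y : H →L[ℂ] H) :
    av (fun t => f t • y) = av f • y := by
  unfold av; rw [← sum_smul, smul_assoc]

/-- bilinear expansion of an average -/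
lemma av_expand {α : Type*} (s : Finset α) (g : α → List σ) (X : α → H →L[ℂ] H)
    (T : (H →L[ℂ] H) →ₗ[ℂ] (H →L[ℂ] H)) (x : H →L[ℂ] H) :
    av (fun θ : σ → ZMod N => T (x * ∑ A ∈ s, mon N θ (g A) • X A) *
      star (∑ A ∈ s, mon N θ (g A) • X A)) =
      ∑ A ∈ s, ∑ B ∈ s, chi N (g A) (g B) • (T (x * X A) * star (X B)) := by
  have e : ∀ θ : σ → ZMod N, T (x * ∑ A ∈ s, mon N θ (g A) • X A) *
      star (∑ A ∈ s, mon N θ (g A) • X A) = ∑ A ∈ s, ∑ B ∈ s,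
        (mon N θ (g A) * conj (mon N θ (g B))) • (T (x * X A) * star (X B)) := fun θ => by
    rw [mul_sum, map_sum, sstar, sum_mul_sum]
    refine sum_congr rfl fun A _ => sum_congr rfl fun B _ => ?_
    rw [mul_smul_comm, map_smul, star_smul, smul_mul_smul_comm]; rfl
  simp only [e]
  rw [av_sum]
  refine sum_congr rfl fun A _ => ?_
  rw [av_sum]
  exact sum_congr rfl fun B _ => av_csmul _ _

end ph

lemma near_pin {ι : Type} [Fintype ι] {p : ι → H →L[ℂ] H} (h : Lead.Hc.Part M z p) {c : ℝ}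
    {S : (H →L[ℂ] H) →ₗ[ℂ] (H →L[ℂ] H)} (hS : Near M ζ c S) : Near M ζ c (pin p S) := by
  classical
  refine near_congr (near_av (Ω := ι → ZMod 2) fun θ => near_conj hS
    (diag_mem h fun l => mon 2 θ [l]) (norm_diag_le h _ zero_le_one fun l =>
      Or.inr (norm_mon θ _).le)) fun x _ => ?_
  rw [av_expand univ (fun l => [l]) p S x, pin_apply]
  refine sum_congr rfl fun l _ => ?_
  rw [sum_eq_single l, chi_cons, chi_nil, one_smul, pstar (h.proj l)]
  · intro l' _ hl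
    have : chi 2 [l] [l'] = 0 := by
      by_contra h0
      have := chi_sub (by simp) h0 l (by simp)
      exact hl (List.mem_singleton.1 this).symm
    rw [this, zero_smul]
  · simp

section pinW
variable {κ ι : Type} [Fintype ι] {P : κ → ι → H →L[ℂ] H}

lemma pinW_nil (T : (H →L[ℂ] H) →ₗ[ℂ] (H →L[ℂ] H)) : pinW P [] T = T := rfl

lemma pinW_cons (j : κ) (w : List κ) (T : (H →L[ℂ] H) →ₗ[ℂ] (H →L[ℂ] H)) :
    pinW P (j :: w) T = pin (P j) (pinW P w T) := rfl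

lemma pin_sub (p : ι → H →L[ℂ] H) (S T : (H →L[ℂ] H) →ₗ[ℂ] (H →L[ℂ] H)) :
    pin p (S - T) = pin p S - pin p T := by
  refine LinearMap.ext fun x => ?_
  simp only [pin_apply, LinearMap.sub_apply, sub_mul, sum_sub_distrib]

end pinW

end Crest.Agent.H7.Hc
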