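import Mathlib

/-! Shared interface for the universal cb bound for commutators (S0165). -/

set_option autoImplicit false

universe u

namespace Crest.Agent.H7.Kad

/-- The cb-bound with constant `C` for the von Neumann algebra `P`. -/
def CBBound {K : Type u} [NormedAddCommGroup K] [InnerProductSpace ℂ K] [CompleteSpace K]
    (C : ℝ) (P : VonNeumannAlgebra K) : Prop :=
  ∀ (Y : K →L[ℂ] K) (g : ℝ), (∀ a ∈ P, ‖Y * a - a * Y‖ ≤ g * ‖a‖) →
    ∀ (h : ℕ), 1 ≤ h →
      ∀ (Yh X : PiLp 2 (fun _ : Fin h => K) →L[ℂ] PiLp 2 (fun _ : Fin h => K))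
        (x : Fin h → Fin h → (K →L[ℂ] K)),
        (∀ (v : PiLp 2 (fun _ : Fin h => K)) (i : Fin h), Yh v i = Y (v i)) →
        (∀ i j, x i j ∈ P) →
        (∀ (v : PiLp 2 (fun _ : Fin h => K)) (i : Fin h), X v i = ∑ j, x i j (v j)) →
        ‖Yh * X - X * Yh‖ ≤ C * g * ‖X‖

/-- `P` contains unital systems of matrix units of arbitrarily large size. -/
def Divisible {K : Type u} [NormedAddCommGroup K] [InnerProductSpace ℂ K] [CompleteSpace K]
    (P : VonNeumannAlgebra K) : Prop :=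
  ∀ n : ℕ, ∃ m : ℕ, n ≤ m ∧ ∃ F : Fin m → Fin m → (K →L[ℂ] K),
    (∀ i j, F i j ∈ P) ∧ (∀ i j, star (F i j) = F j i) ∧
    (∀ i j k l, F i j * F k l = if j = k then F i l else 0) ∧ ∑ i, F i i = 1

/-- The statement of S0165. -/
def CBAll : Prop :=
  ∃ C : ℝ, ∀ (K : Type u) [NormedAddCommGroup K] [InnerProductSpace ℂ K] [CompleteSpace K]
    (P : VonNeumannAlgebra K), CBBound C P

/-- The statement of S0165 for divisible algebras. -/
def CBDiv : Prop :=
  ∃ C : ℝ, ∀ (K : Type u) [NormedAddCommGroup K] [InnerProductSpace ℂ K] [CompleteSpace K]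
    (P : VonNeumannAlgebra K), Divisible P → CBBound C P

end Crest.Agent.H7.Kad
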