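import Mathlib

/-! Non-commutative little Grothendieck inequality, column bounds for bounded homomorphisms and
for commutators. -/

set_option autoImplicit false

namespace Crest.Agent.H7.Kad

open scoped InnerProductSpace ComplexStarModule
open Finset

section GT
variable {A : Type*} [CStarAlgebra A]
variable {H : Type*} [NormedAddCommGroup H] [InnerProductSpace ℂ H]

lemma norm_unitary_le {u : A} (hu : u ∈ unitary A) : ‖u‖ ≤ 1 := by
  obtain (_ | _) := subsingleton_or_nontrivial A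
  · simp [Subsingleton.elim u 0]
  · exact (CStarRing.norm_of_mem_unitary hu).le

lemma exists_near_opt (T : A →ₗ[ℂ] H) (K : ℝ) (hK : 0 ≤ K) (hT : ∀ a, ‖T a‖ ≤ K * ‖a‖)
    (η : ℝ) (hη : 0 < η) :
    ∃ u ∈ unitary A, ∀ v ∈ unitary A, ‖T v‖ ^ 2 ≤ ‖T u‖ ^ 2 + η := by
  set S : Set ℝ := (fun v : A => ‖T v‖ ^ 2) '' (unitary A : Set A) with hS
  have hne : S.Nonempty := ⟨_, 1, one_mem _, rfl⟩
  have hbd : BddAbove S := by
    refine ⟨K ^ 2, ?_⟩
    rintro _ ⟨v, hv, rfl⟩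
    have h1 := hT v
    have h2 := norm_unitary_le (A := A) hv
    have h3 : ‖T v‖ ≤ K := h1.trans (by nlinarith)
    exact pow_le_pow_left₀ (norm_nonneg _) h3 2
  obtain ⟨_, ⟨u, hu, rfl⟩, hlt⟩ := exists_lt_of_lt_csSup hne (show sSup S - η < sSup S by linarith)
  refine ⟨u, hu, fun v hv => ?_⟩
  have := le_csSup hbd (show ‖T v‖ ^ 2 ∈ S from ⟨v, hv, rfl⟩)
  simp only at hlt
  linarith

variable [PartialOrder A] [StarOrderedRing A]

lemma exists_cos (a : A) (ha : IsSelfAdjoint a) (h1 : ‖a‖ ≤ 1) :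
    ∃ c : A, IsSelfAdjoint c ∧ c * c + a * a = 1 ∧ a * c = c * a ∧ 0 ≤ 1 - c ∧ 1 - c ≤ a * a := by
  have hsp : ∀ x ∈ spectrum ℝ a, |x| ≤ 1 := by
    intro x hx
    obtain (_ | _) := subsingleton_or_nontrivial A
    · simp [spectrum.of_subsingleton] at hx
    · exact (spectrum.norm_le_norm_of_mem hx).trans h1
  have hsq : ∀ x ∈ spectrum ℝ a, 0 ≤ 1 - x ^ 2 := by
    intro x hx
    have := hsp x hx
    have : x ^ 2 ≤ 1 := by rw [← sq_abs]; nlinarith [abs_nonneg x]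
    linarith
  have haa : a * a = cfc (fun x : ℝ => x * x) a := by
    rw [cfc_mul _ _ a, cfc_id' ℝ a]
  refine ⟨cfc (fun x : ℝ => √(1 - x ^ 2)) a, cfc_predicate _ _, ?_, ?_, ?_, ?_⟩
  · rw [haa, ← cfc_mul _ _ a, ← cfc_add a _ _, ← cfc_one (R := ℝ) a]
    refine cfc_congr fun x hx => ?_
    simp only [Pi.one_apply]
    rw [Real.mul_self_sqrt (hsq x hx)]; ring
  · conv_lhs => rw [← cfc_id' ℝ a]
    conv_rhs => rw [← cfc_id' ℝ a]
    rw [cfc_id' ℝ a]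
    exact (Commute.cfc_real (Commute.refl a) _).symm.eq
  · rw [← cfc_one (R := ℝ) a, ← cfc_sub _ _ a]
    refine cfc_nonneg fun x hx => ?_
    have : √(1 - x ^ 2) ≤ 1 := Real.sqrt_le_one.2 (by nlinarith [sq_nonneg x])
    simpa using this
  · rw [haa, ← cfc_one (R := ℝ) a, ← cfc_sub _ _ a]
    refine cfc_mono fun x hx => ?_
    have h0 := hsq x hx
    have h2 : √(1 - x ^ 2) ≤ 1 := Real.sqrt_le_one.2 (by nlinarith [sq_nonneg x])
    have h3 := Real.mul_self_sqrt h0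
    have h4 := Real.sqrt_nonneg (1 - x ^ 2)
    simp only [Pi.one_apply]
    nlinarith

lemma cos_unitary {a c : A} (ha : IsSelfAdjoint a) (hc : IsSelfAdjoint c)
    (h1 : c * c + a * a = 1) (h2 : a * c = c * a) (z : ℂ) (hz : z = Complex.I ∨ z = -Complex.I) :
    c + z • a ∈ unitary A := by
  have hzz : star z = -z := by rcases hz with rfl | rfl <;> simp
  have hz2 : z * z = -1 := by rcases hz with rfl | rfl <;> simp
  have hs : star (c + z • a) = c - z • a := by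
    rw [star_add, star_smul, hc.star_eq, ha.star_eq, hzz, neg_smul, sub_eq_add_neg]
  rw [Unitary.mem_iff, hs]
  constructor
  · simp only [mul_add, sub_mul, smul_mul_assoc, mul_smul_comm, smul_smul, h2, hz2, smul_sub]
    rw [← h1]; module
  · simp only [mul_sub, add_mul, smul_mul_assoc, mul_smul_comm, smul_smul, h2, hz2, smul_add]
    rw [← h1]; module

/-- core estimate -/
lemma gt_core (T : A →ₗ[ℂ] H) (K : ℝ) (hK : 0 ≤ K) (hT : ∀ a, ‖T a‖ ≤ K * ‖a‖)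
    (η : ℝ) (u : A) (hu : u ∈ unitary A)
    (hopt : ∀ v ∈ unitary A, ‖T v‖ ^ 2 ≤ ‖T u‖ ^ 2 + η)
    {ι : Type*} (s : Finset ι) (a : ι → A) (ha : ∀ i ∈ s, IsSelfAdjoint (a i))
    (h1 : ∀ i ∈ s, ‖a i‖ ≤ 1) :
    ∑ i ∈ s, ‖T (u * a i)‖ ^ 2 ≤ s.card * η + 2 * K ^ 2 * ‖∑ i ∈ s, a i * a i‖ := by
  classical
  have hc : ∀ i, ∃ c : A, i ∈ s → (IsSelfAdjoint c ∧ c * c + a i * a i = 1 ∧ a i * c = c * a i ∧
      0 ≤ 1 - c ∧ 1 - c ≤ a i * a i) := by
    intro i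
    by_cases hi : i ∈ s
    · obtain ⟨c, hc⟩ := exists_cos (a i) (ha i hi) (h1 i hi)
      exact ⟨c, fun _ => hc⟩
    · exact ⟨0, fun h => absurd h hi⟩
  choose c hc using hc
  have step : ∀ i ∈ s, ‖T (u * a i)‖ ^ 2 ≤ η + 2 * (⟪T u, T (u * (1 - c i))⟫_ℂ).re := by
    intro i hi
    obtain ⟨hc1, hc2, hc3, -, -⟩ := hc i hi
    have hp := hopt _ (mul_mem hu (cos_unitary (ha i hi) hc1 hc2 hc3 _ (Or.inl rfl)))
    have hm := hopt _ (mul_mem hu (cos_unitary (ha i hi) hc1 hc2 hc3 _ (Or.inr rfl)))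
    rw [mul_add, mul_smul_comm, map_add, map_smul] at hp hm
    rw [neg_smul, ← sub_eq_add_neg] at hm
    have par := parallelogram_law_with_norm ℂ (T (u * c i)) (Complex.I • T (u * a i))
    rw [norm_smul, Complex.norm_I, one_mul] at par
    have e1 : T (u * c i) = T u - T (u * (1 - c i)) := by
      rw [← map_sub]; congr 1; noncomm_ring
    have e2 := norm_sub_sq (𝕜 := ℂ) (T u) (T (u * (1 - c i)))
    rw [← e1] at e2
    have : RCLike.re ⟪T u, T (u * (1 - c i))⟫_ℂ = (⟪T u, T (u * (1 - c i))⟫_ℂ).re := rfl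
    nlinarith [sq_nonneg ‖T (u * (1 - c i))‖]
  have hsum := Finset.sum_le_sum step
  rw [Finset.sum_add_distrib, Finset.sum_const, nsmul_eq_mul, ← Finset.mul_sum,
    ← Complex.re_sum, ← inner_sum, ← map_sum, ← Finset.mul_sum] at hsum
  have hn : ‖∑ i ∈ s, (1 - c i)‖ ≤ ‖∑ i ∈ s, a i * a i‖ :=
    CStarAlgebra.norm_le_norm_of_nonneg_of_le
      (Finset.sum_nonneg fun i hi => (hc i hi).2.2.2.1)
      (Finset.sum_le_sum fun i hi => (hc i hi).2.2.2.2)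
  have hTu : ‖T u‖ ≤ K := (hT u).trans (by nlinarith [norm_unitary_le hu])
  have hT2 : ‖T (u * ∑ i ∈ s, (1 - c i))‖ ≤ K * ‖∑ i ∈ s, a i * a i‖ := by
    refine (hT _).trans ?_
    rw [CStarRing.norm_mem_unitary_mul _ hu]
    exact mul_le_mul_of_nonneg_left hn hK
  have hre : (⟪T u, T (u * ∑ i ∈ s, (1 - c i))⟫_ℂ).re ≤ K * (K * ‖∑ i ∈ s, a i * a i‖) := by
    refine (Complex.re_le_norm _).trans ((norm_inner_le_norm _ _).trans ?_)
    exact mul_le_mul hTu hT2 (norm_nonneg _) hK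
  nlinarith

omit [PartialOrder A] [StarOrderedRing A] in
lemma re_im_sq (y : A) :
    (ℜ y : A) * (ℜ y : A) + (ℑ y : A) * (ℑ y : A) = (2⁻¹ : ℂ) • (star y * y + y * star y) := by
  have h1 := realPart_add_I_smul_imaginaryPart y
  have h2 : star y = (ℜ y : A) - Complex.I • (ℑ y : A) := by
    conv_lhs => rw [← h1]
    rw [star_add, star_smul, (ℜ y).2.star_eq, (ℑ y).2.star_eq]
    simp [sub_eq_add_neg]
  rw [h2]
  generalize (ℜ y : A) = p at *
  generalize (ℑ y : A) = q at *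
  rw [← h1]
  simp only [mul_add, sub_mul, mul_sub, add_mul, smul_mul_assoc, mul_smul_comm, smul_smul,
    Complex.I_mul_I, smul_sub, smul_add]
  module

/-- Non-commutative little Grothendieck inequality. -/
theorem gt (T : A →ₗ[ℂ] H) (K : ℝ) (hK : 0 ≤ K) (hT : ∀ a, ‖T a‖ ≤ K * ‖a‖)
    {ι : Type*} (s : Finset ι) (x : ι → A) :
    ∑ i ∈ s, ‖T (x i)‖ ^ 2 ≤
      2 * K ^ 2 * (‖∑ i ∈ s, star (x i) * x i‖ + ‖∑ i ∈ s, x i * star (x i)‖) := by
  classical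
  -- scale
  set M : ℝ := 1 + ∑ i ∈ s, ‖x i‖ with hM
  have hM0 : 0 < M := by
    have : 0 ≤ ∑ i ∈ s, ‖x i‖ := Finset.sum_nonneg fun i _ => norm_nonneg _
    linarith
  have hxM : ∀ i ∈ s, ‖x i‖ ≤ M := fun i hi => by
    have := Finset.single_le_sum (f := fun i => ‖x i‖) (fun i _ => norm_nonneg _) hi
    linarith
  clear_value M
  refine le_of_forall_pos_le_add fun ε hε => ?_
  set η : ℝ := ε / (4 * M ^ 2 * (s.card + 1)) with hη
  have hη0 : 0 < η := by positivity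
  obtain ⟨u, hu, hopt⟩ := exists_near_opt T K hK hT η hη0
  set y : ι → A := fun i => (M⁻¹ : ℂ) • (star u * x i) with hy
  have hyn : ∀ i ∈ s, ‖y i‖ ≤ 1 := fun i hi => by
    simp only [hy]
    rw [norm_smul, CStarRing.norm_mem_unitary_mul _ (Unitary.star_mem hu), norm_inv,
      Complex.norm_real, Real.norm_of_nonneg hM0.le, inv_mul_le_one₀ hM0]
    exact hxM i hi
  have core := gt_core T K hK hT η u hu hopt (s.disjSum s)
    (Sum.elim (fun i => (ℜ (y i) : A)) (fun i => (ℑ (y i) : A)))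
    (by rintro (i | i) _; exacts [(ℜ (y i)).2, (ℑ (y i)).2])
    (by
      rintro (i | i) hi
      · exact (realPart.norm_le _).trans (hyn i (by simpa using hi))
      · exact (imaginaryPart.norm_le _).trans (hyn i (by simpa using hi)))
  rw [Finset.sum_disjSum, Finset.sum_disjSum, Finset.card_disjSum] at core
  simp only [Sum.elim_inl, Sum.elim_inr] at core
  rw [← Finset.sum_add_distrib, ← Finset.sum_add_distrib] at core
  simp only [re_im_sq] at core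
  have huu : u * star u = 1 := Unitary.mul_star_self_of_mem hu
  have hMc : (M : ℂ) ≠ 0 := by exact_mod_cast hM0.ne'
  have hx : ∀ i, x i = (M : ℂ) • (u * y i) := fun i => by
    simp only [hy]
    rw [mul_smul_comm, smul_smul, mul_inv_cancel₀ hMc, one_smul, ← mul_assoc, huu, one_mul]
  have hTx : ∀ i, ‖T (x i)‖ ^ 2 ≤
      2 * M ^ 2 * (‖T (u * (ℜ (y i) : A))‖ ^ 2 + ‖T (u * (ℑ (y i) : A))‖ ^ 2) := fun i => by
    have e : T (x i) = (M : ℂ) • (T (u * (ℜ (y i) : A)) + Complex.I • T (u * (ℑ (y i) : A))) := by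
      rw [hx i, map_smul, ← map_smul T Complex.I, ← map_add, ← mul_smul_comm, ← mul_add,
        realPart_add_I_smul_imaginaryPart]
    rw [e, norm_smul, Complex.norm_real, Real.norm_of_nonneg hM0.le, mul_pow]
    have h := norm_add_le (T (u * (ℜ (y i) : A))) (Complex.I • T (u * (ℑ (y i) : A)))
    rw [norm_smul, Complex.norm_I, one_mul] at h
    have h2 := pow_le_pow_left₀ (norm_nonneg _) h 2
    have h3 : ‖T (u * (ℜ (y i) : A)) + Complex.I • T (u * (ℑ (y i) : A))‖ ^ 2 ≤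
        2 * (‖T (u * (ℜ (y i) : A))‖ ^ 2 + ‖T (u * (ℑ (y i) : A))‖ ^ 2) := by
      nlinarith [sq_nonneg (‖T (u * (ℜ (y i) : A))‖ - ‖T (u * (ℑ (y i) : A))‖)]
    nlinarith [sq_nonneg M]
  have hs1 : ∑ i ∈ s, (2⁻¹ : ℂ) • (star (y i) * y i + y i * star (y i)) =
      (2⁻¹ * ((M : ℂ)⁻¹ * (M : ℂ)⁻¹) : ℂ) • (∑ i ∈ s, star (x i) * x i +
        star u * (∑ i ∈ s, x i * star (x i)) * u) := by
    rw [Finset.mul_sum, Finset.sum_mul, ← Finset.sum_add_distrib, Finset.smul_sum]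
    refine Finset.sum_congr rfl fun i _ => ?_
    simp only [hy, star_smul, star_mul, star_star, smul_mul_assoc, mul_smul_comm, smul_smul,
      star_inv₀, Complex.star_def, Complex.conj_ofReal, ← smul_add]
    congr 2
    · rw [mul_assoc, ← mul_assoc u, huu, one_mul]
    · simp only [mul_assoc]
  have hn : ‖∑ i ∈ s, (2⁻¹ : ℂ) • (star (y i) * y i + y i * star (y i))‖ ≤
      2⁻¹ * (M⁻¹ * M⁻¹) * (‖∑ i ∈ s, star (x i) * x i‖ + ‖∑ i ∈ s, x i * star (x i)‖) := by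
    rw [hs1, norm_smul]
    have : ‖(2⁻¹ * ((M : ℂ)⁻¹ * (M : ℂ)⁻¹) : ℂ)‖ = 2⁻¹ * (M⁻¹ * M⁻¹) := by
      simp [abs_of_pos hM0]
    rw [this]
    refine mul_le_mul_of_nonneg_left ((norm_add_le _ _).trans ?_) (by positivity)
    rw [CStarRing.norm_mul_mem_unitary _ hu, CStarRing.norm_mem_unitary_mul _ (Unitary.star_mem hu)]
  have hsum := Finset.sum_le_sum (s := s) fun i _ => hTx i
  rw [← Finset.mul_sum] at hsum
  generalize ‖∑ i ∈ s, star (x i) * x i‖ + ‖∑ i ∈ s, x i * star (x i)‖ = N at *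
  have h5 : 2 * K ^ 2 * ‖∑ i ∈ s, (2⁻¹ : ℂ) • (star (y i) * y i + y i * star (y i))‖ ≤
      2 * K ^ 2 * (2⁻¹ * (M⁻¹ * M⁻¹) * N) := mul_le_mul_of_nonneg_left hn (by positivity)
  have h6 : 2 * M ^ 2 * (((s.card + s.card : ℕ) : ℝ) * η) ≤ ε := by
    rw [hη]; push_cast
    have h0 : (0 : ℝ) ≤ s.card := Nat.cast_nonneg _
    generalize (s.card : ℝ) = n at h0
    have hM1 := hM0.ne'
    have hn1 : n + 1 ≠ 0 := by positivity
    have e : 2 * M ^ 2 * ((n + n) * (ε / (4 * M ^ 2 * (n + 1)))) = ε * (n / (n + 1)) := by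
      rw [eq_comm, mul_div_assoc', mul_div_assoc', mul_div_assoc', div_eq_div_iff hn1 (by positivity)]
      ring
    rw [e]
    have : n / (n + 1) ≤ 1 := by rw [div_le_one (by positivity)]; linarith
    nlinarith
  have h7 : 2 * M ^ 2 * (2 * K ^ 2 * (2⁻¹ * (M⁻¹ * M⁻¹) * N)) = 2 * K ^ 2 * N := by
    field_simp
  have h8 := mul_le_mul_of_nonneg_left (core.trans (add_le_add_right h5 _))
    (show 0 ≤ 2 * M ^ 2 by positivity)
  rw [mul_add] at h8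
  linarith

/-- regularised square root with inverse -/
lemma exists_sqrt_inv (s : A) (hs : 0 ≤ s) (ε : ℝ) (hε : 0 < ε) :
    ∃ b b' : A, IsSelfAdjoint b ∧ IsSelfAdjoint b' ∧ b * b' = 1 ∧ b' * b = 1 ∧
      b * b = s + algebraMap ℝ A ε := by
  have hsa : IsSelfAdjoint s := hs.isSelfAdjoint
  have hsp : ∀ x ∈ spectrum ℝ s, 0 < x + ε := fun x hx => by
    have := spectrum_nonneg_of_nonneg hs hx
    linarith
  have c1 : ContinuousOn (fun x : ℝ => √(x + ε)) (spectrum ℝ s) := by fun_prop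
  have c2 : ContinuousOn (fun x : ℝ => (√(x + ε))⁻¹) (spectrum ℝ s) :=
    c1.inv₀ fun x hx => (Real.sqrt_pos.2 (hsp x hx)).ne'
  refine ⟨cfc (fun x : ℝ => √(x + ε)) s, cfc (fun x : ℝ => (√(x + ε))⁻¹) s, cfc_predicate _ _,
    cfc_predicate _ _, ?_, ?_, ?_⟩
  · rw [← cfc_mul _ _ s c1 c2, ← cfc_one (R := ℝ) s]
    exact cfc_congr fun x hx => mul_inv_cancel₀ (Real.sqrt_pos.2 (hsp x hx)).ne'
  · rw [← cfc_mul _ _ s c2 c1, ← cfc_one (R := ℝ) s]
    exact cfc_congr fun x hx => inv_mul_cancel₀ (Real.sqrt_pos.2 (hsp x hx)).ne'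
  · rw [← cfc_mul _ _ s c1 c1, ← cfc_const ε s]
    conv_rhs => rw [← cfc_id' ℝ s]
    rw [cfc_id' ℝ s]
    conv_rhs => lhs; rw [← cfc_id' ℝ s]
    rw [← cfc_add s _ _]
    exact cfc_congr fun x hx => Real.mul_self_sqrt (hsp x hx).le

lemma algebraMap_real_nonneg {ε : ℝ} (hε : 0 ≤ ε) : (0 : A) ≤ algebraMap ℝ A ε := by
  rw [Algebra.algebraMap_eq_smul_one]
  exact smul_nonneg hε zero_le_one

omit [PartialOrder A] [StarOrderedRing A] in
lemma norm_algebraMap_real_le {ε : ℝ} (hε : 0 ≤ ε) : ‖algebraMap ℝ A ε‖ ≤ ε := by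
  rw [Algebra.algebraMap_eq_smul_one, norm_smul, Real.norm_of_nonneg hε]
  have := norm_unitary_le (A := A) (one_mem _)
  nlinarith

/-- `0 ≤ s ≤ b²` gives `‖b⁻¹ s b⁻¹‖ ≤ 1`. -/
lemma norm_conj_le_one {s b b' : A} (hs : 0 ≤ s) (hb' : IsSelfAdjoint b')
    (h1 : b * b' = 1) (h2 : b' * b = 1) (hle : s ≤ b * b) : ‖b' * s * b'‖ ≤ 1 := by
  have h0 : 0 ≤ b' * s * b' := by
    have := star_left_conjugate_nonneg hs b'
    rwa [hb'.star_eq] at this
  have h3 : b' * s * b' ≤ 1 := by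
    have := star_left_conjugate_le_conjugate hle b'
    rw [hb'.star_eq] at this
    refine this.trans (le_of_eq ?_)
    rw [← mul_assoc, h2, one_mul, h1]
  exact (CStarAlgebra.norm_le_one_iff_of_nonneg _ h0).2 h3

/-- polar-type factorisation `x = v y`, `‖v‖ ≤ 1`, `y² = x* x + ε`. -/
lemma exists_polar (x : A) (ε : ℝ) (hε : 0 < ε) :
    ∃ v y : A, ‖v‖ ≤ 1 ∧ IsSelfAdjoint y ∧ x = v * y ∧ y * y = star x * x + algebraMap ℝ A ε := by
  obtain ⟨b, b', hb, hb', h1, h2, h3⟩ := exists_sqrt_inv (star x * x) (star_mul_self_nonneg x) ε hε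
  refine ⟨x * b', b, ?_, hb, by rw [mul_assoc, h2, mul_one], h3⟩
  have h := norm_conj_le_one (star_mul_self_nonneg x) hb' h1 h2
    (by rw [h3]; exact le_add_of_nonneg_right (algebraMap_real_nonneg hε.le))
  have e : b' * (star x * x) * b' = star (x * b') * (x * b') := by
    rw [star_mul, hb'.star_eq]; simp only [mul_assoc]
  rw [e, CStarRing.norm_star_mul_self] at h
  nlinarith [norm_nonneg (x * b')]

lemma exists_polar_family {ι : Type*} (s : Finset ι) (x : ι → A) (ε : ℝ) (hε : 0 < ε) :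
    ∃ v y : ι → A, (∀ i, ‖v i‖ ≤ 1) ∧ (∀ i, IsSelfAdjoint (y i)) ∧ (∀ i, x i = v i * y i) ∧
      ‖∑ i ∈ s, y i * y i‖ ≤ ‖∑ i ∈ s, star (x i) * x i‖ + ε := by
  have hpos : 0 < ε / (s.card + 1) := by positivity
  choose v y hv hy hx hyy using fun i => exists_polar (x i) _ hpos
  refine ⟨v, y, hv, hy, hx, ?_⟩
  simp only [hyy]
  rw [Finset.sum_add_distrib, Finset.sum_const]
  refine (norm_add_le _ _).trans (add_le_add_right ?_ _)
  refine (norm_nsmul_le).trans ?_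
  have h1 := norm_algebraMap_real_le (A := A) hpos.le
  have h0 : (0 : ℝ) ≤ s.card := Nat.cast_nonneg _
  have h2 : (s.card : ℝ) * (ε / (s.card + 1)) ≤ ε := by
    rw [mul_div_assoc', div_le_iff₀ (by positivity)]; nlinarith
  exact (mul_le_mul_of_nonneg_left h1 h0).trans h2

lemma gt_sa (T : A →ₗ[ℂ] H) (K : ℝ) (hK : 0 ≤ K) (hT : ∀ a, ‖T a‖ ≤ K * ‖a‖)
    {ι : Type*} (s : Finset ι) (y : ι → A) (hy : ∀ i, IsSelfAdjoint (y i)) :
    ∑ i ∈ s, ‖T (y i)‖ ^ 2 ≤ 4 * K ^ 2 * ‖∑ i ∈ s, y i * y i‖ := by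
  have := gt T K hK hT s y
  simp only [(hy _).star_eq] at this
  linarith

end GT

section Col
variable {A : Type*} [CStarAlgebra A]
variable {H : Type*} [NormedAddCommGroup H] [InnerProductSpace ℂ H] [CompleteSpace H]

/-- Column bound for a bounded homomorphism. -/
theorem hom_col (π : A →ₐ[ℂ] (H →L[ℂ] H)) (K : ℝ) (hK : 0 ≤ K) (hπ : ∀ a, ‖π a‖ ≤ K * ‖a‖)
    {ι : Type*} (s : Finset ι) (x : ι → A) (ξ : H) :
    ∑ i ∈ s, ‖π (x i) ξ‖ ^ 2 ≤ 4 * K ^ 4 * ‖∑ i ∈ s, star (x i) * x i‖ * ‖ξ‖ ^ 2 := by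
  letI := CStarAlgebra.spectralOrder A
  letI := CStarAlgebra.spectralOrderedRing A
  have key : ∀ ε : ℝ, 0 < ε → ∑ i ∈ s, ‖π (x i) ξ‖ ^ 2 ≤
      4 * K ^ 4 * ‖ξ‖ ^ 2 * (‖∑ i ∈ s, star (x i) * x i‖ + ε) := by
    intro ε hε
    obtain ⟨v, y, hv, hy, hx, hn⟩ := exists_polar_family s x ε hε
    let T : A →ₗ[ℂ] H :=
      { toFun := fun a => π a ξ
        map_add' := fun a b => by simp
        map_smul' := fun c a => by simp }
    have hT : ∀ a, ‖T a‖ ≤ (K * ‖ξ‖) * ‖a‖ := fun a => by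
      refine ((π a).le_opNorm ξ).trans ?_
      have := mul_le_mul_of_nonneg_right (hπ a) (norm_nonneg ξ)
      linarith
    have h1 := gt_sa T _ (by positivity) hT s y hy
    have h2 : ∀ i ∈ s, ‖π (x i) ξ‖ ^ 2 ≤ K ^ 2 * ‖T (y i)‖ ^ 2 := fun i _ => by
      rw [← mul_pow]
      refine pow_le_pow_left₀ (norm_nonneg _) ?_ 2
      rw [hx i, map_mul]
      refine ((π (v i)).le_opNorm _).trans (mul_le_mul_of_nonneg_right ?_ (norm_nonneg _))
      exact (hπ _).trans (by nlinarith [hv i])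
    refine (Finset.sum_le_sum h2).trans ?_
    rw [← Finset.mul_sum]
    have h3 := mul_le_mul_of_nonneg_left hn (show 0 ≤ 4 * (K * ‖ξ‖) ^ 2 by positivity)
    have h4 := mul_le_mul_of_nonneg_left (h1.trans h3) (sq_nonneg K)
    refine h4.trans (le_of_eq (by ring))
  have hc : 0 ≤ 4 * K ^ 4 * ‖ξ‖ ^ 2 := by positivity
  refine le_of_forall_pos_le_add fun ε hε => ?_
  have := key (ε / (4 * K ^ 4 * ‖ξ‖ ^ 2 + 1)) (by positivity)
  have h2 : 4 * K ^ 4 * ‖ξ‖ ^ 2 * (ε / (4 * K ^ 4 * ‖ξ‖ ^ 2 + 1)) ≤ ε := by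
    rw [mul_div_assoc', div_le_iff₀ (by positivity)]; nlinarith
  nlinarith

/-- The adjoint homomorphism `a ↦ (π (a*))*`. -/
noncomputable def adjHom (π : A →ₐ[ℂ] (H →L[ℂ] H)) : A →ₐ[ℂ] (H →L[ℂ] H) where
  toFun a := star (π (star a))
  map_one' := by simp
  map_mul' a b := by simp
  map_zero' := by simp
  map_add' a b := by simp
  commutes' c := by
    rw [← algebraMap_star_comm, AlgHom.commutes, ← algebraMap_star_comm, star_star]

lemma adjHom_apply (π : A →ₐ[ℂ] (H →L[ℂ] H)) (a : A) : adjHom π a = star (π (star a)) := rfl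

lemma adjHom_bound (π : A →ₐ[ℂ] (H →L[ℂ] H)) (K : ℝ) (hπ : ∀ a, ‖π a‖ ≤ K * ‖a‖) (a : A) :
    ‖adjHom π a‖ ≤ K * ‖a‖ := by
  rw [adjHom_apply, norm_star]; simpa using hπ (star a)

omit [CompleteSpace H] in
/-- duality between rows and columns -/
lemma row_of_col {ι : Type*} (s : Finset ι) (ξ : ι → H) (w : H) (f : ι → H) (C : ℝ) (hC : 0 ≤ C)
    (hw : ⟪w, w⟫_ℂ = ∑ i ∈ s, ⟪f i, ξ i⟫_ℂ) (hf : ∑ i ∈ s, ‖f i‖ ^ 2 ≤ C * ‖w‖ ^ 2) :
    ‖w‖ ^ 2 ≤ C * ∑ i ∈ s, ‖ξ i‖ ^ 2 := by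
  have h1 : ‖w‖ ^ 2 ≤ ∑ i ∈ s, ‖f i‖ * ‖ξ i‖ := by
    have : ‖w‖ ^ 2 = ‖⟪w, w⟫_ℂ‖ := by rw [inner_self_eq_norm_sq_to_K]; simp
    rw [this, hw]
    exact (norm_sum_le _ _).trans (Finset.sum_le_sum fun i _ => norm_inner_le_norm _ _)
  have h2 := Finset.sum_mul_sq_le_sq_mul_sq s (fun i => ‖f i‖) (fun i => ‖ξ i‖)
  have h3 : 0 ≤ ∑ i ∈ s, ‖ξ i‖ ^ 2 := Finset.sum_nonneg fun i _ => sq_nonneg _
  have h4 : (‖w‖ ^ 2) ^ 2 ≤ C * ‖w‖ ^ 2 * ∑ i ∈ s, ‖ξ i‖ ^ 2 :=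
    (pow_le_pow_left₀ (sq_nonneg _) h1 2).trans (h2.trans (mul_le_mul_of_nonneg_right hf h3))
  rcases (sq_nonneg ‖w‖).eq_or_lt with h | h
  · rw [← h]; positivity
  · nlinarith

/-- Row bound for a bounded homomorphism. -/
theorem hom_row (π : A →ₐ[ℂ] (H →L[ℂ] H)) (K : ℝ) (hK : 0 ≤ K) (hπ : ∀ a, ‖π a‖ ≤ K * ‖a‖)
    {ι : Type*} (s : Finset ι) (x : ι → A) (ξ : ι → H) :
    ‖∑ i ∈ s, π (x i) (ξ i)‖ ^ 2 ≤
      4 * K ^ 4 * ‖∑ i ∈ s, x i * star (x i)‖ * ∑ i ∈ s, ‖ξ i‖ ^ 2 := by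
  set w := ∑ i ∈ s, π (x i) (ξ i) with hw
  refine row_of_col s ξ w (fun i => adjHom π (star (x i)) w) _ (by positivity) ?_ ?_
  · conv_lhs => rw [hw, inner_sum]
    refine Finset.sum_congr rfl fun i _ => ?_
    rw [adjHom_apply, star_star, ContinuousLinearMap.star_eq_adjoint,
      ContinuousLinearMap.adjoint_inner_left]
  · have := hom_col (adjHom π) K hK (adjHom_bound π K hπ) s (fun i => star (x i)) w
    simpa using this

/-- column bound for a star homomorphism -/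
lemma starHom_col (ρ : A →⋆ₐ[ℂ] (H →L[ℂ] H)) {ι : Type*} (s : Finset ι) (x : ι → A) (ξ : H) :
    ∑ i ∈ s, ‖ρ (x i) ξ‖ ^ 2 ≤ ‖∑ i ∈ s, star (x i) * x i‖ * ‖ξ‖ ^ 2 := by
  have h1 : ∀ i, ((‖ρ (x i) ξ‖ ^ 2 : ℝ) : ℂ) = ⟪ξ, ρ (star (x i) * x i) ξ⟫_ℂ := fun i => by
    rw [map_mul, map_star, ContinuousLinearMap.mul_apply, ContinuousLinearMap.star_eq_adjoint,
      ContinuousLinearMap.adjoint_inner_right, inner_self_eq_norm_sq_to_K]
    simp
  have h2 : ((∑ i ∈ s, ‖ρ (x i) ξ‖ ^ 2 : ℝ) : ℂ) = ⟪ξ, ρ (∑ i ∈ s, star (x i) * x i) ξ⟫_ℂ := by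
    rw [Complex.ofReal_sum, map_sum, ContinuousLinearMap.sum_apply, inner_sum]
    exact Finset.sum_congr rfl fun i _ => h1 i
  have h3 : ∑ i ∈ s, ‖ρ (x i) ξ‖ ^ 2 ≤ ‖⟪ξ, ρ (∑ i ∈ s, star (x i) * x i) ξ⟫_ℂ‖ := by
    rw [← h2, Complex.norm_real]; exact le_abs_self _
  refine h3.trans ((norm_inner_le_norm _ _).trans ?_)
  have h4 := (ρ (∑ i ∈ s, star (x i) * x i)).le_opNorm ξ
  have h5 := NonUnitalStarAlgHom.norm_apply_le ρ (∑ i ∈ s, star (x i) * x i)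
  have h6 := mul_le_mul_of_nonneg_right h5 (norm_nonneg ξ)
  have h7 := mul_le_mul_of_nonneg_left (h4.trans h6) (norm_nonneg ξ)
  nlinarith

/-- Column bound for a commutator. -/
theorem comm_col (ρ : A →⋆ₐ[ℂ] (H →L[ℂ] H)) (Y : H →L[ℂ] H) (g : ℝ) (hg : 0 ≤ g)
    (hY : ∀ a, ‖Y * ρ a - ρ a * Y‖ ≤ g * ‖a‖) {ι : Type*} (s : Finset ι) (x : ι → A) (ξ : H) :
    ∑ i ∈ s, ‖(Y * ρ (x i) - ρ (x i) * Y) ξ‖ ^ 2 ≤
      10 * g ^ 2 * ‖∑ i ∈ s, star (x i) * x i‖ * ‖ξ‖ ^ 2 := by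
  letI := CStarAlgebra.spectralOrder A
  letI := CStarAlgebra.spectralOrderedRing A
  have key : ∀ ε : ℝ, 0 < ε → ∑ i ∈ s, ‖(Y * ρ (x i) - ρ (x i) * Y) ξ‖ ^ 2 ≤
      10 * g ^ 2 * ‖ξ‖ ^ 2 * (‖∑ i ∈ s, star (x i) * x i‖ + ε) := by
    intro ε hε
    obtain ⟨v, y, hv, hy, hx, hn⟩ := exists_polar_family s x ε hε
    let T : A →ₗ[ℂ] H :=
      { toFun := fun a => (Y * ρ a - ρ a * Y) ξ
        map_add' := fun a b => by
          simp only [map_add, mul_add, add_mul, ContinuousLinearMap.sub_apply,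
            ContinuousLinearMap.add_apply]; abel
        map_smul' := fun c a => by
          simp only [map_smul, mul_smul_comm, smul_mul_assoc, ContinuousLinearMap.sub_apply,
            ContinuousLinearMap.smul_apply, smul_sub, RingHom.id_apply] }
    have hT : ∀ a, ‖T a‖ ≤ (g * ‖ξ‖) * ‖a‖ := fun a => by
      refine ((Y * ρ a - ρ a * Y).le_opNorm ξ).trans ?_
      have := mul_le_mul_of_nonneg_right (hY a) (norm_nonneg ξ)
      linarith
    have h1 := gt_sa T _ (by positivity) hT s y hy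
    have h1' := starHom_col ρ s y ξ
    simp only [(hy _).star_eq] at h1'
    have h2 : ∀ i ∈ s, ‖(Y * ρ (x i) - ρ (x i) * Y) ξ‖ ^ 2 ≤
        2 * g ^ 2 * ‖ρ (y i) ξ‖ ^ 2 + 2 * ‖T (y i)‖ ^ 2 := fun i _ => by
      have e : (Y * ρ (x i) - ρ (x i) * Y) ξ =
          (Y * ρ (v i) - ρ (v i) * Y) (ρ (y i) ξ) + ρ (v i) (T (y i)) := by
        rw [hx i, map_mul]
        simp only [T, LinearMap.coe_mk, AddHom.coe_mk, ContinuousLinearMap.sub_apply,
          ContinuousLinearMap.mul_apply, map_sub]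
        abel
      have b1 : ‖(Y * ρ (v i) - ρ (v i) * Y) (ρ (y i) ξ)‖ ≤ g * ‖ρ (y i) ξ‖ := by
        refine (ContinuousLinearMap.le_opNorm _ _).trans
          (mul_le_mul_of_nonneg_right ?_ (norm_nonneg _))
        exact (hY _).trans (by nlinarith [hv i])
      have b2 : ‖ρ (v i) (T (y i))‖ ≤ ‖T (y i)‖ := by
        refine (ContinuousLinearMap.le_opNorm _ _).trans ?_
        have := (NonUnitalStarAlgHom.norm_apply_le ρ (v i)).trans (hv i)
        nlinarith [norm_nonneg (T (y i))]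
      have b3 := (norm_add_le _ _).trans (add_le_add b1 b2)
      rw [← e] at b3
      have b4 := pow_le_pow_left₀ (norm_nonneg _) b3 2
      nlinarith [sq_nonneg (g * ‖ρ (y i) ξ‖ - ‖T (y i)‖)]
    refine (Finset.sum_le_sum h2).trans ?_
    rw [Finset.sum_add_distrib, ← Finset.mul_sum, ← Finset.mul_sum]
    have h3 := mul_le_mul_of_nonneg_left hn (show 0 ≤ 4 * (g * ‖ξ‖) ^ 2 by positivity)
    have h4 := mul_le_mul_of_nonneg_right hn (sq_nonneg ‖ξ‖)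
    have h5 := mul_le_mul_of_nonneg_left (h1'.trans h4) (show 0 ≤ 2 * g ^ 2 by positivity)
    nlinarith
  have hc : 0 ≤ 10 * g ^ 2 * ‖ξ‖ ^ 2 := by positivity
  refine le_of_forall_pos_le_add fun ε hε => ?_
  have := key (ε / (10 * g ^ 2 * ‖ξ‖ ^ 2 + 1)) (by positivity)
  have h2 : 10 * g ^ 2 * ‖ξ‖ ^ 2 * (ε / (10 * g ^ 2 * ‖ξ‖ ^ 2 + 1)) ≤ ε := by
    rw [mul_div_assoc', div_le_iff₀ (by positivity)]; nlinarith
  nlinarith

lemma vN_isClosed (P : VonNeumannAlgebra H) : IsClosed (P.toStarSubalgebra : Set (H →L[ℂ] H)) := by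
  rw [VonNeumannAlgebra.coe_toStarSubalgebra, ← P.centralizer_centralizer]
  exact Set.isClosed_centralizer _

/-- Column bound for a commutator on a closed star subalgebra. -/
theorem comm_col_sub (S : StarSubalgebra ℂ (H →L[ℂ] H)) (hS : IsClosed (S : Set (H →L[ℂ] H)))
    (Y : H →L[ℂ] H) (g : ℝ) (hg : 0 ≤ g)
    (hY : ∀ a ∈ S, ‖Y * a - a * Y‖ ≤ g * ‖a‖) {ι : Type*} (s : Finset ι) (x : ι → H →L[ℂ] H)
    (hx : ∀ i ∈ s, x i ∈ S) (ξ : H) :
    ∑ i ∈ s, ‖(Y * x i - x i * Y) ξ‖ ^ 2 ≤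
      10 * g ^ 2 * ‖∑ i ∈ s, star (x i) * x i‖ * ‖ξ‖ ^ 2 := by
  classical
  haveI : IsClosed (S : Set (H →L[ℂ] H)) := hS
  let x' : ι → S := fun i => if h : x i ∈ S then ⟨x i, h⟩ else 0
  have hx' : ∀ i ∈ s, (x' i : H →L[ℂ] H) = x i := fun i hi => by simp [x', hx i hi]
  have := comm_col (A := S) S.subtype Y g hg (fun a => hY a a.2) s x' ξ
  have e1 : ∑ i ∈ s, ‖(Y * S.subtype (x' i) - S.subtype (x' i) * Y) ξ‖ ^ 2 =
      ∑ i ∈ s, ‖(Y * x i - x i * Y) ξ‖ ^ 2 :=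
    Finset.sum_congr rfl fun i hi => by rw [StarSubalgebra.subtype_apply, hx' i hi]
  have e2 : ‖∑ i ∈ s, star (x' i) * x' i‖ = ‖∑ i ∈ s, star (x i) * x i‖ := by
    change ‖((∑ i ∈ s, star (x' i) * x' i : S) : H →L[ℂ] H)‖ = _
    congr 1
    rw [AddSubmonoidClass.coe_finset_sum]
    exact Finset.sum_congr rfl fun i hi => by
      rw [MulMemClass.coe_mul, StarMemClass.coe_star, hx' i hi]
  rwa [e1, e2] at this

/-- Column bound for a commutator on a von Neumann algebra. -/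
theorem comm_col_vN (P : VonNeumannAlgebra H) (Y : H →L[ℂ] H) (g : ℝ) (hg : 0 ≤ g)
    (hY : ∀ a ∈ P, ‖Y * a - a * Y‖ ≤ g * ‖a‖) {ι : Type*} (s : Finset ι) (x : ι → H →L[ℂ] H)
    (hx : ∀ i ∈ s, x i ∈ P) (ξ : H) :
    ∑ i ∈ s, ‖(Y * x i - x i * Y) ξ‖ ^ 2 ≤
      10 * g ^ 2 * ‖∑ i ∈ s, star (x i) * x i‖ * ‖ξ‖ ^ 2 :=
  comm_col_sub P.toStarSubalgebra (vN_isClosed P) Y g hg hY s x hx ξ

end Col

end Crest.Agent.H7.Kad
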