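import Mathlib
import Crest.Agent.H7.KadGT
import Crest.Agent.H7.KadMO

/-! The cyclic case of the similarity problem (Haagerup). -/

set_option autoImplicit false

namespace Crest.Agent.H7.Kad

open scoped InnerProductSpace ComplexConjugate
open Finset

variable {A : Type*} [CStarAlgebra A]
variable {H : Type*} [NormedAddCommGroup H] [InnerProductSpace ℂ H] [CompleteSpace H]

theorem k1_key (π : A →ₐ[ℂ] (H →L[ℂ] H)) (K : ℝ) (hK : 0 ≤ K) (hπ : ∀ a, ‖π a‖ ≤ K * ‖a‖)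
    {ι : Type*} (s : Finset ι) (x y : ι → A) (ξ : H)
    (h : ∑ i ∈ s, star (x i) * x i = ∑ i ∈ s, star (y i) * y i) :
    ∑ i ∈ s, ‖π (x i) ξ‖ ^ 2 ≤ 16 * K ^ 8 * ∑ i ∈ s, ‖π (y i) ξ‖ ^ 2 := by
  letI := CStarAlgebra.spectralOrder A
  letI := CStarAlgebra.spectralOrderedRing A
  have key : ∀ ε : ℝ, 0 < ε → ∑ i ∈ s, ‖π (x i) ξ‖ ^ 2 ≤
      16 * K ^ 8 * (∑ i ∈ s, ‖π (y i) ξ‖ ^ 2 + ε * ‖ξ‖ ^ 2) := by
    intro ε hε
    set S := ∑ i ∈ s, star (y i) * y i with hS
    have hS0 : 0 ≤ S := Finset.sum_nonneg fun i _ => star_mul_self_nonneg _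
    obtain ⟨b, b', hb, hb', h1, h2, h3⟩ := exists_sqrt_inv S hS0 ε hε
    have hle : S ≤ b * b := by
      rw [h3]; exact le_add_of_nonneg_right (algebraMap_real_nonneg hε.le)
    have hC : 0 ≤ 4 * K ^ 4 := by positivity
    -- column step
    have c1 := hom_col π K hK hπ s (fun i => x i * b') (π b ξ)
    have e1 : ∀ i, π (x i * b') (π b ξ) = π (x i) ξ := fun i => by
      rw [← mul_apply_eq_comp, ← map_mul, mul_assoc, h2, mul_one]
    have e2 : ∑ i ∈ s, star (x i * b') * (x i * b') = b' * S * b' := by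
      rw [← h, Finset.mul_sum, Finset.sum_mul]
      refine Finset.sum_congr rfl fun i _ => ?_
      rw [star_mul, hb'.star_eq]; simp only [mul_assoc]
    simp only [e1] at c1
    rw [e2] at c1
    have n1 := norm_conj_le_one hS0 hb' h1 h2 hle
    -- row step
    set r : ℝ := √ε with hr
    have hrr : r * r = ε := Real.mul_self_sqrt hε.le
    let z : Option ι → A := fun o => o.elim ((r : ℂ) • b') fun i => b' * star (y i)
    let ζ : Option ι → H := fun o => o.elim ((r : ℂ) • ξ) fun i => π (y i) ξ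
    have c2 := hom_row π K hK hπ (insertNone s) z ζ
    rw [Finset.sum_insertNone, Finset.sum_insertNone, Finset.sum_insertNone] at c2
    simp only [z, ζ, Option.elim] at c2
    have hε' : algebraMap ℝ A ε = ((r : ℂ) * r) • (1 : A) := by
      rw [← Complex.ofReal_mul, hrr, Algebra.algebraMap_eq_smul_one, Complex.coe_smul]
    have e3 : π ((r : ℂ) • b') ((r : ℂ) • ξ) + ∑ i ∈ s, π (b' * star (y i)) (π (y i) ξ) =
        π b ξ := by
      have : b = ((r : ℂ) * r) • b' + ∑ i ∈ s, b' * star (y i) * y i := by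
        calc b = b' * (b * b) := by rw [← mul_assoc, h2, one_mul]
          _ = _ := by
            rw [h3, hε', mul_add, mul_smul_comm, mul_one, add_comm, hS, Finset.mul_sum]
            simp only [mul_assoc]
      conv_rhs => rw [this]
      rw [map_add, map_sum, add_apply, _root_.sum_apply]
      congr 1
      · simp only [map_smul, smul_apply, smul_smul]
      · refine Finset.sum_congr rfl fun i _ => ?_
        rw [map_mul π (b' * star (y i)), mul_apply_eq_comp]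
    have e4 : (r : ℂ) • b' * star ((r : ℂ) • b') +
        ∑ i ∈ s, b' * star (y i) * star (b' * star (y i)) = b' * (b * b) * b' := by
      rw [h3, hε', mul_add, add_mul, add_comm, hS, Finset.mul_sum, Finset.sum_mul]
      congr 1
      · refine Finset.sum_congr rfl fun i _ => ?_
        rw [star_mul, star_star, hb'.star_eq]; simp only [mul_assoc]
      · rw [star_smul, hb'.star_eq]
        simp only [smul_mul_assoc, mul_smul_comm, smul_smul, Complex.star_def,
          Complex.conj_ofReal, mul_one]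
    have n2 : ‖b' * (b * b) * b'‖ ≤ 1 :=
      norm_conj_le_one (hS0.trans hle) hb' h1 h2 le_rfl
    rw [e3, e4, norm_smul, Complex.norm_real, Real.norm_of_nonneg (Real.sqrt_nonneg _), mul_pow,
      sq r, hrr] at c2
    have hp : 0 ≤ ε * ‖ξ‖ ^ 2 + ∑ i ∈ s, ‖π (y i) ξ‖ ^ 2 :=
      add_nonneg (by positivity) (Finset.sum_nonneg fun i _ => sq_nonneg _)
    have c3 : ‖π b ξ‖ ^ 2 ≤ 4 * K ^ 4 * (ε * ‖ξ‖ ^ 2 + ∑ i ∈ s, ‖π (y i) ξ‖ ^ 2) :=
      c2.trans (mul_le_mul_of_nonneg_right (mul_le_of_le_one_right hC n2) hp)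
    have c4 : ∑ i ∈ s, ‖π (x i) ξ‖ ^ 2 ≤ 4 * K ^ 4 * ‖π b ξ‖ ^ 2 :=
      c1.trans (mul_le_mul_of_nonneg_right (mul_le_of_le_one_right hC n1) (sq_nonneg _))
    refine c4.trans ((mul_le_mul_of_nonneg_left c3 hC).trans (le_of_eq (by ring)))
  have hc : 0 ≤ 16 * K ^ 8 * ‖ξ‖ ^ 2 := by positivity
  refine le_of_forall_pos_le_add fun ε hε => ?_
  have := key (ε / (16 * K ^ 8 * ‖ξ‖ ^ 2 + 1)) (by positivity)
  have h2 : 16 * K ^ 8 * ‖ξ‖ ^ 2 * (ε / (16 * K ^ 8 * ‖ξ‖ ^ 2 + 1)) ≤ ε := by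
    rw [mul_div_assoc', div_le_iff₀ (by positivity)]; nlinarith
  nlinarith

/-- hermitian complexification of a real functional -/
lemma exists_herm (l : A →ₗ[ℝ] ℝ) :
    ∃ Ψ : A →ₗ[ℂ] ℂ, (∀ a, Ψ (star a) = conj (Ψ a)) ∧ ∀ a, star a = a → (Ψ a).re = l a := by
  let l' : A →ₗ[ℝ] ℝ :=
    { toFun := fun a => (l a + l (star a)) / 2
      map_add' := fun a b => by simp only [star_add, map_add]; ring
      map_smul' := fun c a => by
        simp only [star_smul, star_trivial, map_smul, smul_eq_mul, RingHom.id_apply]; ring }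
  have hl' : ∀ a, l' (star a) = l' a := fun a => by
    simp only [l', LinearMap.coe_mk, AddHom.coe_mk, star_star]; ring
  refine ⟨Module.Dual.extendRCLike (𝕜 := ℂ) l', fun a => ?_, fun a ha => ?_⟩
  · apply Complex.ext
    · have h1 := Module.Dual.re_extendRCLike_apply (𝕜 := ℂ) l' (star a)
      have h2 := Module.Dual.re_extendRCLike_apply (𝕜 := ℂ) l' a
      simp only [RCLike.re_to_complex] at h1 h2
      rw [Complex.conj_re, h1, h2, hl']
    · have h1 := Module.Dual.im_extendRCLike_apply (𝕜 := ℂ) l' (star a)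
      have h2 := Module.Dual.im_extendRCLike_apply (𝕜 := ℂ) l' a
      simp only [RCLike.im_to_complex, RCLike.I_to_complex] at h1 h2
      rw [Complex.conj_im, h1, h2, ← hl' (Complex.I • a), star_smul]
      simp
  · have h2 := Module.Dual.re_extendRCLike_apply (𝕜 := ℂ) l' a
    simp only [RCLike.re_to_complex] at h2
    rw [h2]
    simp only [l', LinearMap.coe_mk, AddHom.coe_mk, ha]; ring

theorem k1 (π : A →ₐ[ℂ] (H →L[ℂ] H)) (K : ℝ) (hK : 0 ≤ K) (hπ : ∀ a, ‖π a‖ ≤ K * ‖a‖) (ξ : H) :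
    ∃ Ψ : A →ₗ[ℂ] ℂ, (∀ a, Ψ (star a) = conj (Ψ a)) ∧
      (∀ a, ‖π a ξ‖ ^ 2 ≤ (Ψ (star a * a)).re) ∧
      ∀ a, (Ψ (star a * a)).re ≤ 16 * K ^ 8 * ‖π a ξ‖ ^ 2 := by
  let v : A ⊕ A → A := Sum.elim (fun y => star y * y) (fun x => -(star x * x))
  let r : A ⊕ A → ℝ := Sum.elim (fun y => 16 * K ^ 8 * ‖π y ξ‖ ^ 2) (fun x => -‖π x ξ‖ ^ 2)
  obtain ⟨l, hl⟩ := mazur_orlicz v r (by
      intro s c hc h
      let y : A ⊕ A → A := fun j => ((√(c j) : ℝ) : ℂ) • Sum.elim id (fun _ => 0) j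
      let x : A ⊕ A → A := fun j => ((√(c j) : ℝ) : ℂ) • Sum.elim (fun _ => 0) id j
      have hcc : ∀ j, ((√(c j) : ℝ) : ℂ) * ((√(c j) : ℝ) : ℂ) = (c j : ℂ) := fun j => by
        rw [← Complex.ofReal_mul, Real.mul_self_sqrt (hc j)]
      have e1 : ∀ j, c j • v j = star (y j) * y j - star (x j) * x j := by
        rintro (a | a) <;>
          simp [x, y, v, smul_smul, Real.mul_self_sqrt (hc _)]
      have e2 : ∀ j, c j * r j = 16 * K ^ 8 * ‖π (y j) ξ‖ ^ 2 - ‖π (x j) ξ‖ ^ 2 := by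
        rintro (a | a)
        · simp only [x, y, r, Sum.elim_inl, id, smul_zero, map_zero, map_smul, smul_apply,
            norm_smul, Complex.norm_real, Real.norm_eq_abs, mul_pow, sq_abs, Real.sq_sqrt (hc _),
            zero_apply, norm_zero]
          ring
        · simp only [x, y, r, Sum.elim_inr, id, smul_zero, map_zero, map_smul, smul_apply,
            norm_smul, Complex.norm_real, Real.norm_eq_abs, mul_pow, sq_abs, Real.sq_sqrt (hc _),
            zero_apply, norm_zero]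
          ring
      simp only [e1, Finset.sum_sub_distrib] at h
      simp only [e2, Finset.sum_sub_distrib, ← Finset.mul_sum]
      have := k1_key π K hK hπ s x y ξ (sub_eq_zero.1 h).symm
      linarith)
    (by
      rintro (a | a)
      · exact ⟨Sum.inr a, by simp [v]⟩
      · exact ⟨Sum.inl a, by simp [v]⟩)
  obtain ⟨Ψ, h1, h2⟩ := exists_herm l
  refine ⟨Ψ, h1, fun a => ?_, fun a => ?_⟩
  · rw [h2 _ (by simp)]
    have := hl (Sum.inr a)
    simp only [v, r, Sum.elim_inr, map_neg] at this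
    linarith
  · rw [h2 _ (by simp)]
    exact hl (Sum.inl a)

/-- evaluation at a vector -/
def ev (σ : A →ₐ[ℂ] (H →L[ℂ] H)) (η : H) : A →ₗ[ℂ] H where
  toFun a := σ a η
  map_add' a b := by simp
  map_smul' c a := by simp

lemma ev_apply (σ : A →ₐ[ℂ] (H →L[ℂ] H)) (η : H) (a : A) : ev σ η a = σ a η := rfl

/-- Radon–Nikodym operator -/
theorem op_of_state (σ : A →ₐ[ℂ] (H →L[ℂ] H)) (η : H) (Ψ : A →ₗ[ℂ] ℂ)
    (hΨ : ∀ a, Ψ (star a) = conj (Ψ a)) (C : ℝ) (hC : 0 ≤ C)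
    (hpos : ∀ a, 0 ≤ (Ψ (star a * a)).re) (hle : ∀ a, (Ψ (star a * a)).re ≤ C * ‖σ a η‖ ^ 2) :
    ∃ D : H →L[ℂ] H, ‖D‖ ≤ C ∧ (∀ a b, ⟪σ a η, D (σ b η)⟫_ℂ = Ψ (star a * b)) ∧
      rproj (ev σ η) * D = D ∧ D * rproj (ev σ η) = D ∧ 0 ≤ D ∧
      ∀ c, rproj (ev σ η) * star (σ (star c)) * D = D * σ c * rproj (ev σ η) := by
  let B : A →ₗ⋆[ℂ] A →ₗ[ℂ] ℂ := LinearMap.mk₂'ₛₗ (starRingEnd ℂ) (RingHom.id ℂ)
    (fun a b => Ψ (star a * b)) (fun a a' b => by simp [add_mul])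
    (fun c a b => by simp) (fun a b b' => by simp [mul_add]) (fun c a b => by simp)
  have hB : ∀ a b, B a b = Ψ (star a * b) := fun a b => rfl
  have hsym : ∀ a b, Ψ (star b * a) = conj (Ψ (star a * b)) := fun a b => by
    rw [← hΨ, star_mul, star_star]
  have hB2 : ∀ a b, (B a b).re ≤ C / 2 * (‖ev σ η a‖ ^ 2 + ‖ev σ η b‖ ^ 2) := fun a b => by
    have h1 := hpos (a - b)
    rw [star_sub, sub_mul, mul_sub, mul_sub, map_sub, map_sub, map_sub, hsym a b] at h1
    simp only [Complex.sub_re, Complex.conj_re] at h1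
    have h2 := hle a
    have h3 := hle b
    rw [hB, ev_apply, ev_apply]
    linarith
  obtain ⟨D, hD1, hD2, hD3, hD4⟩ := form_op (ev σ η) B C hC (form_norm_le _ B C hC hB2)
  have hD2' : ∀ a b, ⟪σ a η, D (σ b η)⟫_ℂ = Ψ (star a * b) := hD2
  have hsa : star D = D := by
    have := form_ext (ev σ η) (star D) D fun a b => by
      rw [ContinuousLinearMap.star_eq_adjoint, ContinuousLinearMap.adjoint_inner_right,
        ← inner_conj_symm, ev_apply, ev_apply, hD2', hD2', hsym b a]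
    rw [hD3, hD4] at this
    have h3 := congrArg star hD3
    have h4 := congrArg star hD4
    rw [star_mul, rproj_sa] at h3 h4
    rw [h4, h3] at this
    exact this
  refine ⟨D, hD1, hD2', hD3, hD4, ?_, fun c => ?_⟩
  · rw [ContinuousLinearMap.nonneg_iff_isPositive, ContinuousLinearMap.isPositive_def']
    refine ⟨hsa, fun z => ?_⟩
    have e : ⟪D z, z⟫_ℂ = ⟪D (rproj (ev σ η) z), rproj (ev σ η) z⟫_ℂ := by
      rw [inner_rproj, ← mul_apply_eq_comp, ← mul_apply_eq_comp, hD3, hD4]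
    rw [ContinuousLinearMap.reApplyInnerSelf_apply, e]
    refine rproj_induction (ev σ η) (p := fun w => 0 ≤ RCLike.re ⟪D w, w⟫_ℂ)
      (isClosed_le (by fun_prop) (by fun_prop)) (fun a => ?_) z
    rw [inner_re_symm, ev_apply, hD2']
    exact hpos a
  · have := form_ext (ev σ η) (star (σ (star c)) * D) (D * σ c) fun a b => by
      rw [mul_apply_eq_comp, mul_apply_eq_comp, ContinuousLinearMap.star_eq_adjoint,
        ContinuousLinearMap.adjoint_inner_right, ev_apply, ev_apply, ← mul_apply_eq_comp,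
        ← mul_apply_eq_comp (σ c), ← map_mul, ← map_mul, hD2', hD2', star_mul, star_star, mul_assoc]
    rw [mul_assoc, mul_assoc, hD4, ← mul_assoc, ← mul_assoc, hD3] at this
    exact this

/-- The similarity is bounded on the double commutant. -/
theorem kext (π : A →ₐ[ℂ] (H →L[ℂ] H)) (K : ℝ) (hK : 0 ≤ K) (hπ : ∀ a, ‖π a‖ ≤ K * ‖a‖)
    (ρ : A →⋆ₐ[ℂ] (H →L[ℂ] H)) (S S' : H →L[ℂ] H) (hS : S' * S = 1)
    (hρ : ∀ a, S * π a = ρ a * S) (x : H →L[ℂ] H)
    (hx : x ∈ Set.centralizer (Set.centralizer (Set.range ρ))) :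
    ‖S' * x * S‖ ≤ 4 * K ^ 4 * ‖x‖ := by
  refine ContinuousLinearMap.opNorm_le_bound _ (by positivity) fun ξ => ?_
  obtain ⟨Ψ, h1, h2, h3⟩ := k1 π K hK hπ ξ
  set η := S ξ with hη
  have hπ' : ∀ a, π a ξ = S' (ρ a η) := fun a => by
    rw [hη, ← mul_apply_eq_comp, ← mul_apply_eq_comp, mul_assoc, ← hρ, ← mul_assoc, hS, one_mul]
  let σ : A →ₐ[ℂ] (H →L[ℂ] H) := ρ
  have hσ : ∀ a, σ a = ρ a := fun a => rfl
  obtain ⟨D, -, hD2, hD3, hD4, hD5, hD6⟩ := op_of_state σ η Ψ h1 (16 * K ^ 8 * ‖S'‖ ^ 2)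
    (by positivity) (fun a => (sq_nonneg _).trans (h2 a)) (fun a => by
      refine (h3 a).trans ?_
      rw [hπ', mul_assoc _ (‖S'‖ ^ 2), ← mul_pow ‖S'‖]
      exact mul_le_mul_of_nonneg_left
        (pow_le_pow_left₀ (norm_nonneg _) (S'.le_opNorm _) 2) (by positivity))
  set P := rproj (ev σ η) with hP
  have hPc : ∀ c, ρ c * P = P * ρ c := fun c =>
    rproj_comm _ _ (fun a => ⟨c * a, by simp [ev_apply, hσ]⟩)
      (fun a => ⟨star c * a, by simp [ev_apply, hσ, map_star]⟩)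
  have hDc : ∀ c, ρ c * D = D * ρ c := fun c => by
    have := hD6 c
    rw [hσ, hσ, map_star, star_star, ← hPc, mul_assoc, hD3, mul_assoc, hPc, ← mul_assoc,
      hD4] at this
    exact this
  have hxP : P * x = x * P := hx P (by rintro _ ⟨c, rfl⟩; exact hPc c)
  have hxD : D * x = x * D := hx D (by rintro _ ⟨c, rfl⟩; exact hDc c)
  have hη1 : η = ev σ η 1 := by simp [ev_apply]
  have hxη : x η = P (x η) := by
    rw [← mul_apply_eq_comp P, hxP, mul_apply_eq_comp]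
    conv_rhs => rw [hη1, rproj_apply, ← hη1]
  have b1 : ‖S' (x η)‖ ^ 2 ≤ (⟪x η, D (x η)⟫_ℂ).re := by
    rw [hxη]
    refine rproj_induction (ev σ η) (p := fun w => ‖S' w‖ ^ 2 ≤ (⟪w, D w⟫_ℂ).re)
      (isClosed_le (by fun_prop) (by fun_prop)) (fun a => ?_) _
    rw [ev_apply, hD2, hσ, ← hπ']
    exact h2 a
  have hDsa : star D = D := hD5.isSelfAdjoint.star_eq
  have hxD' : D * star x = star x * D := by
    have := congrArg star hxD
    rw [star_mul, star_mul, hDsa] at this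
    exact this.symm
  have hq : 0 ≤ algebraMap ℝ (H →L[ℂ] H) (‖x‖ ^ 2) - star x * x := by
    rw [sub_nonneg]
    exact CStarAlgebra.star_mul_le_algebraMap_norm_sq
  have hcomm : Commute D (algebraMap ℝ (H →L[ℂ] H) (‖x‖ ^ 2) - star x * x) := by
    refine Commute.sub_right (Algebra.commutes _ _).symm ?_
    exact Commute.mul_right hxD' hxD
  have hq2 := hcomm.mul_nonneg hD5 hq
  rw [ContinuousLinearMap.nonneg_iff_isPositive] at hq2
  have b2 := hq2.re_inner_nonneg_right η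
  have e2 : ⟪η, (D * (algebraMap ℝ (H →L[ℂ] H) (‖x‖ ^ 2) - star x * x)) η⟫_ℂ =
      ((‖x‖ ^ 2 : ℝ) : ℂ) * ⟪η, D η⟫_ℂ - ⟪x η, D (x η)⟫_ℂ := by
    rw [mul_sub, ← mul_assoc, hxD', sub_apply, inner_sub_right, mul_assoc, mul_apply_eq_comp (star x),
      ContinuousLinearMap.star_eq_adjoint, ContinuousLinearMap.adjoint_inner_right,
      Algebra.algebraMap_eq_smul_one, mul_smul_comm, mul_one, smul_apply, ← Complex.coe_smul,
      inner_smul_right, mul_apply_eq_comp]
  rw [e2] at b2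
  have b3 : (⟪η, D η⟫_ℂ).re ≤ 16 * K ^ 8 * ‖ξ‖ ^ 2 := by
    have := hD2 1 1
    rw [map_one, one_apply_eq_self] at this
    rw [this]
    simpa using h3 1
  simp only [RCLike.re_to_complex, Complex.sub_re, Complex.re_ofReal_mul] at b2
  have b4 : ‖S' (x η)‖ ^ 2 ≤ (4 * K ^ 4 * ‖x‖ * ‖ξ‖) ^ 2 := by
    have := mul_le_mul_of_nonneg_left b3 (sq_nonneg ‖x‖)
    nlinarith
  exact (pow_le_pow_iff_left₀ (norm_nonneg _) (by positivity) two_ne_zero).1 b4

end Crest.Agent.H7.Kad
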