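import Mathlib
import Crest.Agent.H7.KadK1
import Crest.Agent.H7.KadDefs

/-! Operator matrices on `PiLp 2`, and Arveson's distance formula. -/

set_option autoImplicit false

namespace Crest.Agent.H7.Kad

open scoped InnerProductSpace ComplexConjugate
open Finset

section Mat
variable {H : Type*} [NormedAddCommGroup H] [InnerProductSpace ℂ H]
variable {ι : Type*} [Fintype ι] [DecidableEq ι]

/-- the `ℓ²`-power -/
abbrev Pw (ι : Type*) (H : Type*) := PiLp 2 (fun _ : ι => H)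

/-- coordinate inclusion -/
noncomputable def inj (i : ι) : H →L[ℂ] Pw ι H :=
  LinearMap.mkContinuous
    { toFun := fun a => PiLp.single 2 i a
      map_add' := fun a b => PiLp.single_add 2 i
      map_smul' := fun c a => by
        ext j
        by_cases h : j = i
        · subst h; simp
        · simp [h] } 1 fun a => by simp

lemma inj_apply (i : ι) (a : H) (j : ι) : (inj i a : Pw ι H) j = if j = i then a else 0 := by
  change (PiLp.single 2 i a : Pw ι H) j = _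
  by_cases h : j = i
  · subst h; simp
  · simp [h]

@[simp] lemma norm_inj (i : ι) (a : H) : ‖(inj i a : Pw ι H)‖ = ‖a‖ := PiLp.norm_single _ _ _ _

/-- coordinate projection -/
noncomputable def prj (i : ι) : Pw ι H →L[ℂ] H := PiLp.proj 2 (fun _ : ι => H) i

omit [DecidableEq ι] in
@[simp] lemma prj_apply (i : ι) (v : Pw ι H) : prj i v = v i := rfl

lemma inner_inj_left (i : ι) (a : H) (v : Pw ι H) : ⟪inj i a, v⟫_ℂ = ⟪a, v i⟫_ℂ := by
  rw [PiLp.inner_apply, Finset.sum_eq_single i]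
  · simp [inj_apply]
  · intro j _ hj; simp [inj_apply, hj]
  · simp

lemma inner_inj_right (i : ι) (a : H) (v : Pw ι H) : ⟪v, inj i a⟫_ℂ = ⟪v i, a⟫_ℂ := by
  rw [← inner_conj_symm, inner_inj_left, inner_conj_symm]

lemma sum_inj (v : Pw ι H) : ∑ i, inj i (v i) = v := by
  ext j
  rw [WithLp.ofLp_sum, Finset.sum_apply]
  simp [inj_apply]

/-- operator matrix -/
noncomputable def mat (x : ι → ι → H →L[ℂ] H) : Pw ι H →L[ℂ] Pw ι H :=
  ∑ i, ∑ j, inj i ∘L x i j ∘L prj j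

lemma mat_apply (x : ι → ι → H →L[ℂ] H) (v : Pw ι H) (i : ι) :
    mat x v i = ∑ j, x i j (v j) := by
  simp only [mat, _root_.sum_apply, WithLp.ofLp_sum, Finset.sum_apply,
    ContinuousLinearMap.comp_apply, prj_apply, inj_apply]
  rw [Finset.sum_eq_single i]
  · simp
  · intro j _ hj; simp [Ne.symm hj]
  · simp

lemma norm_mat_le (x : ι → ι → H →L[ℂ] H) : ‖mat x‖ ≤ ∑ i, ∑ j, ‖x i j‖ := by
  unfold mat
  refine (norm_sum_le (E := Pw ι H →L[ℂ] Pw ι H) _ _).trans (Finset.sum_le_sum fun i _ => ?_)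
  refine (norm_sum_le (E := Pw ι H →L[ℂ] Pw ι H) _ _).trans (Finset.sum_le_sum fun j _ => ?_)
  refine ContinuousLinearMap.opNorm_le_bound _ (norm_nonneg _) fun v => ?_
  simp only [ContinuousLinearMap.comp_apply, norm_inj, prj_apply]
  exact ((x i j).le_opNorm _).trans
    (mul_le_mul_of_nonneg_left (PiLp.norm_apply_le v j) (norm_nonneg _))

/-- matrix entry -/
noncomputable def ent (X : Pw ι H →L[ℂ] Pw ι H) (i j : ι) : H →L[ℂ] H := prj i ∘L X ∘L inj j

lemma ent_apply (X : Pw ι H →L[ℂ] Pw ι H) (i j : ι) (a : H) : ent X i j a = X (inj j a) i := rfl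

lemma apply_eq_sum_ent (X : Pw ι H →L[ℂ] Pw ι H) (v : Pw ι H) (i : ι) :
    X v i = ∑ j, ent X i j (v j) := by
  conv_lhs => rw [← sum_inj v, map_sum, WithLp.ofLp_sum, Finset.sum_apply]
  rfl

/-- diagonal operator -/
noncomputable def dg (T : H →L[ℂ] H) : Pw ι H →L[ℂ] Pw ι H := mat fun i j => if i = j then T else 0

@[simp] lemma dg_apply (T : H →L[ℂ] H) (v : Pw ι H) (i : ι) : dg T v i = T (v i) := by
  rw [dg, mat_apply, Finset.sum_eq_single i]
  · simp
  · intro j _ hj; simp [Ne.symm hj]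
  · simp

lemma dg_inj (T : H →L[ℂ] H) (j : ι) (a : H) : dg T (inj j a) = inj j (T a) := by
  ext i
  simp only [dg_apply, inj_apply]
  split_ifs <;> simp

lemma ent_comm (X : Pw ι H →L[ℂ] Pw ι H) (T : H →L[ℂ] H) (h : dg T * X = X * dg T) (i j : ι) :
    T * ent X i j = ent X i j * T := by
  ext a
  have := congrArg (fun Z : Pw ι H →L[ℂ] Pw ι H => Z (inj j a) i) h
  simp only [mul_apply_eq_comp, dg_apply, dg_inj] at this
  exact this

variable [CompleteSpace H]

lemma star_dg (T : H →L[ℂ] H) : star (dg T : Pw ι H →L[ℂ] Pw ι H) = dg (star T) := by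
  rw [ContinuousLinearMap.star_eq_adjoint, eq_comm, ContinuousLinearMap.eq_adjoint_iff]
  intro v w
  simp only [PiLp.inner_apply, dg_apply, ContinuousLinearMap.star_eq_adjoint,
    ContinuousLinearMap.adjoint_inner_left]

end Mat

section Arv
universe u
variable {H : Type u} [NormedAddCommGroup H] [InnerProductSpace ℂ H] [CompleteSpace H]

lemma arv_key (C : ℝ) (P : VonNeumannAlgebra H) (hP : CBBound C P) (L : H →L[ℂ] H) (g : ℝ)
    (hg : ∀ a ∈ P, ‖L * a - a * L‖ ≤ g * ‖a‖) (hCg : 0 ≤ C * g) (h : ℕ) (ξ η : Pw (Fin h) H)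
    (h0 : ∀ Z ∈ P.commutant, ⟪η, dg Z ξ⟫_ℂ = 0) : ‖⟪η, dg L ξ⟫_ℂ‖ ≤ C * g * ‖η‖ * ‖ξ‖ := by
  rcases Nat.eq_zero_or_pos h with rfl | hh
  · rw [Subsingleton.elim η 0]; simp
  let e : P.commutant.toStarSubalgebra →ₗ[ℂ] Pw (Fin h) H :=
    { toFun := fun Z => dg (Z : H →L[ℂ] H) ξ
      map_add' := fun a b => by ext i; simp
      map_smul' := fun c a => by ext i; simp }
  have he : ∀ Z, e Z = dg (Z : H →L[ℂ] H) ξ := fun Z => rfl
  set q := rproj e with hq
  have hmul : ∀ Z ∈ P.commutant, ∀ a, ∃ b, dg Z (e a) = e b := fun Z hZ a =>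
    ⟨⟨Z, hZ⟩ * a, by ext i; simp [he]⟩
  have hqc : ∀ Z ∈ P.commutant, dg Z * q = q * dg Z := fun Z hZ =>
    rproj_comm e _ (hmul Z hZ) (by rw [star_dg]; exact hmul _ (star_mem hZ))
  have hent : ∀ i j, ent q i j ∈ P := fun i j => by
    rw [← P.commutant_commutant, VonNeumannAlgebra.mem_commutant_iff]
    exact fun Z hZ => ent_comm q Z (hqc Z hZ) i j
  have hb := hP L g hg h hh (dg L) q (ent q) (fun v i => dg_apply L v i) hent (apply_eq_sum_ent q)
  have hq1 : ‖q‖ ≤ 1 := Submodule.starProjection_norm_le _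
  have hξ : q ξ = ξ := by
    have : ξ = e 1 := by ext i; simp [he]
    conv_lhs => rw [this, rproj_apply, ← this]
  have hη : ∀ w, ⟪η, q w⟫_ℂ = 0 := fun w =>
    rproj_induction e (p := fun z => ⟪η, z⟫_ℂ = 0) (isClosed_eq (by fun_prop) (by fun_prop))
      (fun a => h0 a a.2) w
  have e1 : ⟪η, dg L ξ⟫_ℂ = ⟪η, (dg L * q - q * dg L : Pw (Fin h) H →L[ℂ] Pw (Fin h) H) ξ⟫_ℂ := by
    rw [sub_apply, mul_apply_eq_comp, mul_apply_eq_comp, hξ, inner_sub_right, hη, sub_zero]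
  rw [e1]
  refine (norm_inner_le_norm _ _).trans ?_
  have h1 := (dg L * q - q * dg L).le_opNorm ξ
  have h2 : ‖dg L * q - q * dg L‖ ≤ C * g := hb.trans (mul_le_of_le_one_right hCg hq1)
  have h3 := mul_le_mul_of_nonneg_left (h1.trans (mul_le_mul_of_nonneg_right h2 (norm_nonneg ξ)))
    (norm_nonneg η)
  linarith

/-- Arveson's distance estimate. -/
theorem arveson (C : ℝ) (P : VonNeumannAlgebra H) (hP : CBBound C P) (L : H →L[ℂ] H) (g : ℝ)
    (hg : ∀ a ∈ P, ‖L * a - a * L‖ ≤ g * ‖a‖) (hCg : 0 ≤ C * g) :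
    ∃ Z : H →L[ℂ] H, (∀ a ∈ P, a * Z = Z * a) ∧ ‖L - Z‖ ≤ C * g := by
  set κ := C * g with hκ
  let V := {Z : H →L[ℂ] H // Z ∈ P.commutant} → ℂ
  let v : H × H → V := fun p Z => ⟪p.1, Z.1 p.2⟫_ℂ
  let r : H × H → ℝ := fun p => (⟪p.1, L p.2⟫_ℂ).re + κ / 2 * (‖p.1‖ ^ 2 + ‖p.2‖ ^ 2)
  obtain ⟨l, hl⟩ := mazur_orlicz v r (by
      intro s c hc hs
      let f := s.equivFin.symm
      let η : Pw (Fin s.card) H := WithLp.toLp 2 fun k => ((√(c (f k)) : ℝ) : ℂ) • (f k).1.1
      let ξ : Pw (Fin s.card) H := WithLp.toLp 2 fun k => ((√(c (f k)) : ℝ) : ℂ) • (f k).1.2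
      have hsum : ∀ {M : Type} [AddCommMonoid M] (F : H × H → M),
          ∑ k, F (f k) = ∑ j ∈ s, F j := fun F => by
        rw [← Finset.sum_coe_sort s F]
        exact Equiv.sum_comp f (fun j : s => F j)
      have hin : ∀ Z : H →L[ℂ] H, ⟪η, dg Z ξ⟫_ℂ = ∑ j ∈ s, (c j : ℂ) * ⟪j.1, Z j.2⟫_ℂ := fun Z => by
        rw [← hsum, PiLp.inner_apply]
        refine Finset.sum_congr rfl fun k _ => ?_
        simp only [η, ξ, dg_apply, map_smul, inner_smul_left, inner_smul_right, Complex.conj_ofReal]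
        rw [← mul_assoc, ← Complex.ofReal_mul, Real.mul_self_sqrt (hc _)]
      have hη : ‖η‖ ^ 2 = ∑ j ∈ s, c j * ‖j.1‖ ^ 2 := by
        rw [← hsum (fun j => c j * ‖j.1‖ ^ 2), PiLp.norm_sq_eq_of_L2]
        refine Finset.sum_congr rfl fun k _ => ?_
        simp only [η, norm_smul, Complex.norm_real, Real.norm_eq_abs, mul_pow, sq_abs,
          Real.sq_sqrt (hc _)]
      have hξ : ‖ξ‖ ^ 2 = ∑ j ∈ s, c j * ‖j.2‖ ^ 2 := by
        rw [← hsum (fun j => c j * ‖j.2‖ ^ 2), PiLp.norm_sq_eq_of_L2]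
        refine Finset.sum_congr rfl fun k _ => ?_
        simp only [ξ, norm_smul, Complex.norm_real, Real.norm_eq_abs, mul_pow, sq_abs,
          Real.sq_sqrt (hc _)]
      have hk := arv_key C P hP L g hg hCg _ ξ η fun Z hZ => by
        rw [hin]
        have := congrFun hs ⟨Z, hZ⟩
        rw [Finset.sum_apply] at this
        exact this
      have e1 : ∑ j ∈ s, c j * r j = (⟪η, dg L ξ⟫_ℂ).re + κ / 2 * (‖η‖ ^ 2 + ‖ξ‖ ^ 2) := by
        rw [hin, hη, hξ, Complex.re_sum, ← Finset.sum_add_distrib, Finset.mul_sum,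
          ← Finset.sum_add_distrib]
        refine Finset.sum_congr rfl fun j _ => ?_
        simp only [r, Complex.re_ofReal_mul]; ring
      rw [e1]
      have h1 := (Complex.abs_re_le_norm ⟪η, dg L ξ⟫_ℂ).trans hk
      have h2 := neg_abs_le (⟪η, dg L ξ⟫_ℂ).re
      nlinarith [mul_nonneg hCg (sq_nonneg (‖η‖ - ‖ξ‖))])
    (fun p => ⟨(-p.1, p.2), by ext Z; exact inner_neg_left _ _⟩)
  let lc : V →ₗ[ℂ] ℂ := Module.Dual.extendRCLike (𝕜 := ℂ) l
  have hlc : ∀ w, (lc w).re = l w := fun w => Module.Dual.re_extendRCLike_apply (𝕜 := ℂ) l w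
  let B : H →ₗ⋆[ℂ] H →ₗ[ℂ] ℂ := LinearMap.mk₂'ₛₗ (starRingEnd ℂ) (RingHom.id ℂ)
    (fun a b => lc (v (a, b)) - ⟪a, L b⟫_ℂ)
    (fun a a' b => by
      have : v (a + a', b) = v (a, b) + v (a', b) := by ext Z; exact inner_add_left _ _ _
      rw [this, map_add, inner_add_left]; ring)
    (fun c a b => by
      have : v (c • a, b) = conj c • v (a, b) := by ext Z; exact inner_smul_left _ _ _
      rw [this, map_smul, inner_smul_left, smul_sub]; rfl)
    (fun a b b' => by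
      have : v (a, b + b') = v (a, b) + v (a, b') := by
        ext Z
        change ⟪a, Z.1 (b + b')⟫_ℂ = ⟪a, Z.1 b⟫_ℂ + ⟪a, Z.1 b'⟫_ℂ
        rw [map_add, inner_add_right]
      rw [this, map_add, map_add, inner_add_right]; ring)
    (fun c a b => by
      have : v (a, c • b) = c • v (a, b) := by
        ext Z
        change ⟪a, Z.1 (c • b)⟫_ℂ = c * ⟪a, Z.1 b⟫_ℂ
        rw [map_smul, inner_smul_right]
      rw [this, map_smul, map_smul, inner_smul_right, RingHom.id_apply, smul_sub]; rfl)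
  have hB : ∀ a b, B a b = lc (v (a, b)) - ⟪a, L b⟫_ℂ := fun a b => rfl
  obtain ⟨T, hT1, hT2⟩ := form_dense (LinearMap.id : H →ₗ[ℂ] H) denseRange_id B κ hCg
    (form_norm_le _ B κ hCg fun a b => by
      have := hl (a, b)
      rw [hB, Complex.sub_re, hlc]
      simp only [r, LinearMap.id_apply] at this ⊢
      linarith)
  have hT3 : ∀ a b, ⟪a, (L + T) b⟫_ℂ = lc (v (a, b)) := fun a b => by
    have := hT2 a b
    simp only [LinearMap.id_apply, hB] at this
    rw [add_apply, inner_add_right, this]; ring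
  refine ⟨L + T, fun a ha => ?_, by simpa using hT1⟩
  ext w
  refine ext_inner_left ℂ fun z => ?_
  rw [mul_apply_eq_comp, mul_apply_eq_comp, hT3, ← ContinuousLinearMap.adjoint_inner_left, hT3]
  congr 1
  ext Z
  simp only [v]
  rw [ContinuousLinearMap.adjoint_inner_left, ← mul_apply_eq_comp,
    VonNeumannAlgebra.mem_commutant_iff.1 Z.2 a ha, mul_apply_eq_comp]

end Arv

end Crest.Agent.H7.Kad
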