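import Mathlib
import Crest.Agent.H7.KadMat

/-! Tracial functionals, matrix units, partitions: definitions and basic estimates. -/

set_option autoImplicit false

namespace Crest.Agent.H7.Kad

open scoped InnerProductSpace ComplexConjugate BigOperators
open Finset

instance vN_isClosed_inst {H : Type*} [NormedAddCommGroup H] [InnerProductSpace ℂ H]
    [CompleteSpace H] (P : VonNeumannAlgebra H) :
    IsClosed (P.toStarSubalgebra : Set (H →L[ℂ] H)) := vN_isClosed P

section Av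
variable {Ω Ω' : Type*} [Fintype Ω] [Fintype Ω'] {M M' : Type*} [AddCommGroup M] [Module ℝ M]
  [AddCommGroup M'] [Module ℝ M']

/-- uniform average -/
noncomputable def av (f : Ω → M) : M := (Fintype.card Ω : ℝ)⁻¹ • ∑ ω, f ω

lemma av_add (f g : Ω → M) : av (fun ω => f ω + g ω) = av f + av g := by
  simp [av, Finset.sum_add_distrib]

lemma av_sub (f g : Ω → M) : av (fun ω => f ω - g ω) = av f - av g := by
  simp [av, Finset.sum_sub_distrib, smul_sub]

lemma av_neg (f : Ω → M) : av (fun ω => -f ω) = -av f := by simp [av]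

lemma av_zero : av (fun _ : Ω => (0 : M)) = 0 := by simp [av]

lemma av_const [Nonempty Ω] (c : M) : av (fun _ : Ω => c) = c := by
  have : (Fintype.card Ω : ℝ) ≠ 0 := by exact_mod_cast Fintype.card_ne_zero
  rw [av, Finset.sum_const, Finset.card_univ, ← Nat.cast_smul_eq_nsmul ℝ, smul_smul,
    inv_mul_cancel₀ this, one_smul]

lemma av_sum {ι : Type*} (s : Finset ι) (f : ι → Ω → M) :
    av (fun ω => ∑ i ∈ s, f i ω) = ∑ i ∈ s, av (f i) := by
  simp only [av]
  rw [Finset.sum_comm, Finset.smul_sum]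

lemma av_comm (f : Ω → Ω' → M) :
    av (fun ω => av fun ω' => f ω ω') = av fun ω' => av fun ω => f ω ω' := by
  simp only [av, ← Finset.smul_sum]
  rw [Finset.sum_comm, smul_comm]

lemma av_prod (f : Ω × Ω' → M) : av f = av fun ω => av fun ω' => f (ω, ω') := by
  simp only [av, ← Finset.smul_sum, Fintype.sum_prod_type, Fintype.card_prod, Nat.cast_mul,
    mul_inv, mul_smul]

lemma av_equiv (e : Ω ≃ Ω') (f : Ω' → M) : av (fun ω => f (e ω)) = av f := by
  rw [av, av, Fintype.card_congr e, Equiv.sum_comp]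

lemma map_av (l : M →ₗ[ℝ] M') (f : Ω → M) : l (av f) = av fun ω => l (f ω) := by
  simp [av]

lemma av_smul {R : Type*} [Monoid R] [DistribMulAction R M] [SMulCommClass ℝ R M] (c : R)
    (f : Ω → M) : av (fun ω => c • f ω) = c • av f := by
  rw [av, av, ← Finset.smul_sum, smul_comm]

lemma av_mono {f g : Ω → ℝ} (h : ∀ ω, f ω ≤ g ω) : av f ≤ av g :=
  smul_le_smul_of_nonneg_left (Finset.sum_le_sum fun ω _ => h ω) (by positivity)

lemma av_nonneg {f : Ω → ℝ} (h : ∀ ω, 0 ≤ f ω) : 0 ≤ av f :=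
  smul_nonneg (by positivity) (Finset.sum_nonneg fun ω _ => h ω)

lemma av_const_mul (c : ℝ) (f : Ω → ℝ) : av (fun ω => c * f ω) = c * av f := av_smul c f

lemma av_mul_const (c : ℝ) (f : Ω → ℝ) : av (fun ω => f ω * c) = av f * c := by
  simp only [mul_comm _ c, av_const_mul]

lemma av_le_const [Nonempty Ω] {f : Ω → ℝ} {c : ℝ} (h : ∀ ω, f ω ≤ c) : av f ≤ c :=
  (av_mono h).trans (av_const c).le

lemma abs_av_le (f : Ω → ℝ) : |av f| ≤ av fun ω => |f ω| := by
  rw [abs_le, ← av_neg]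
  exact ⟨av_mono fun ω => neg_abs_le _, av_mono fun ω => le_abs_self _⟩

lemma exists_le_av [Nonempty Ω] (f : Ω → ℝ) : ∃ ω, f ω ≤ av f := by
  obtain ⟨ω, -, h⟩ := Finset.exists_min_image Finset.univ f Finset.univ_nonempty
  exact ⟨ω, (av_const (f ω)).ge.trans (av_mono fun ω' => h ω' (Finset.mem_univ _))⟩

lemma av_mul_sq_le (f g : Ω → ℝ) :
    av (fun ω => f ω * g ω) ^ 2 ≤ av (fun ω => f ω ^ 2) * av fun ω => g ω ^ 2 := by
  simp only [av, smul_eq_mul, mul_pow]
  have := Finset.sum_mul_sq_le_sq_mul_sq Finset.univ f g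
  have h0 : 0 ≤ ((Fintype.card Ω : ℝ)⁻¹) ^ 2 := by positivity
  nlinarith [mul_le_mul_of_nonneg_left this h0]

lemma av_re (f : Ω → ℂ) : (av f).re = av fun ω => (f ω).re := map_av Complex.reLm f

lemma norm_av_le {E : Type*} [SeminormedAddCommGroup E] [NormedSpace ℝ E] (f : Ω → E) :
    ‖av f‖ ≤ av fun ω => ‖f ω‖ := by
  rw [av, av, norm_smul, smul_eq_mul, Real.norm_of_nonneg (by positivity)]
  exact mul_le_mul_of_nonneg_left (norm_sum_le _ _) (by positivity)

/-- averages of products over a product space -/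
lemma av_pi_prod {ι κ : Type*} [Fintype ι] [DecidableEq ι] [Fintype κ] (f : ι → κ → ℂ) :
    av (fun t : ι → κ => ∏ a, f a (t a)) = ∏ a, av (f a) := by
  simp only [av, Complex.real_smul]
  rw [Finset.prod_mul_distrib, Finset.prod_univ_sum, Fintype.piFinset_univ, Fintype.card_fun]
  simp

lemma av_pi_prod_real {ι κ : Type*} [Fintype ι] [DecidableEq ι] [Fintype κ] (f : ι → κ → ℝ) :
    av (fun t : ι → κ => ∏ a, f a (t a)) = ∏ a, av (f a) := by
  simp only [av, smul_eq_mul]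
  rw [Finset.prod_mul_distrib, Finset.prod_univ_sum, Fintype.piFinset_univ, Fintype.card_fun]
  simp

end Av

variable {A : Type*} [CStarAlgebra A]

lemma av_mul_left {Ω : Type*} [Fintype Ω] (a : A) (f : Ω → A) :
    av (fun ω => a * f ω) = a * av f := by
  simp [av, Finset.mul_sum]

lemma av_mul_right {Ω : Type*} [Fintype Ω] (a : A) (f : Ω → A) :
    av (fun ω => f ω * a) = av f * a := by
  simp [av, Finset.sum_mul]

lemma star_av {Ω : Type*} [Fintype Ω] (f : Ω → A) : star (av f) = av fun ω => star (f ω) := by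
  simp [av, star_sum]

lemma lin_av {Ω : Type*} [Fintype Ω] {E F : Type*} [AddCommGroup E] [Module ℝ E] [Module ℂ E]
    [IsScalarTower ℝ ℂ E] [AddCommGroup F] [Module ℝ F] [Module ℂ F] [IsScalarTower ℝ ℂ F]
    (l : E →ₗ[ℂ] F) (f : Ω → E) : l (av f) = av fun ω => l (f ω) :=
  map_av (l.restrictScalars ℝ) f

/-- positive tracial hermitian functional -/
structure IsTr (τ : A →ₗ[ℂ] ℂ) : Prop where
  tr : ∀ x y, τ (x * y) = τ (y * x)
  herm : ∀ x, τ (star x) = conj (τ x)
  pos : ∀ x, 0 ≤ (τ (star x * x)).re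

/-- squared `2`-norm -/
noncomputable def n2 (τ : A →ₗ[ℂ] ℂ) (x : A) : ℝ := (τ (star x * x)).re

/-- `2`-norm -/
noncomputable def nr (τ : A →ₗ[ℂ] ℂ) (x : A) : ℝ := √(n2 τ x)

/-- unital system of matrix units -/
structure MU {ι : Type*} [Fintype ι] [DecidableEq ι] (G : ι → ι → A) : Prop where
  star : ∀ i j, star (G i j) = G j i
  mul : ∀ i j k l, G i j * G k l = if j = k then G i l else 0
  sum : ∑ i, G i i = 1

/-- partition of unity into projections -/
structure Part {ι : Type*} [Fintype ι] [DecidableEq ι] (p : ι → A) : Prop where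
  star : ∀ a, star (p a) = p a
  mul : ∀ a b, p a * p b = if a = b then p a else 0
  sum : ∑ a, p a = 1

/-- the overlap of two partitions -/
noncomputable def Theta (τ : A →ₗ[ℂ] ℂ) {ι κ : Type*} [Fintype ι] [Fintype κ] (p : ι → A)
    (q : κ → A) : ℝ := ∑ a, ∑ x, n2 τ (p a * q x * p a)

/-- conditional expectation onto the commutant of matrix units -/
noncomputable def condE {ι : Type*} [Fintype ι] (G : ι → ι → A) (z : A) : A :=
  (Fintype.card ι : ℂ)⁻¹ • ∑ a, ∑ b, G a b * z * G b a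

/-- the quadratic form `x ↦ ⟨Y x ξ, x ξ⟩` -/
noncomputable def qf {H : Type*} [NormedAddCommGroup H] [InnerProductSpace ℂ H] [CompleteSpace H]
    (ρ : A →⋆ₐ[ℂ] (H →L[ℂ] H)) (Y : H →L[ℂ] H) (ξ : H) (x : A) : ℝ :=
  (⟪ρ x ξ, Y (ρ x ξ)⟫_ℂ).re

section Part
variable {ι : Type*} [Fintype ι] [DecidableEq ι]

lemma MU.part {G : ι → ι → A} (hG : MU G) : Part fun a => G a a :=
  ⟨fun a => hG.star a a, fun a b => by
    rw [hG.mul]; split_ifs with h
    · subst h; rfl
    · rfl, hG.sum⟩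

lemma Part.conj {p : ι → A} (hp : Part p) {u : A} (hu : u ∈ unitary A) :
    Part fun a => Star.star u * p a * u := by
  have h1 : u * Star.star u = 1 := Unitary.mul_star_self_of_mem hu
  have h2 : Star.star u * u = 1 := Unitary.star_mul_self_of_mem hu
  refine ⟨fun a => ?_, fun a b => ?_, ?_⟩
  · rw [star_mul, star_mul, star_star, hp.star, mul_assoc]
  · calc _ = Star.star u * (p a * (u * Star.star u) * p b) * u := by simp only [mul_assoc]
      _ = _ := by rw [h1, mul_one, hp.mul]; split_ifs <;> simp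
  · rw [← Finset.sum_mul, ← Finset.mul_sum, hp.sum, mul_one, h2]

lemma MU.conj {G : ι → ι → A} (hG : MU G) {u : A} (hu : u ∈ unitary A) :
    MU fun a b => Star.star u * G a b * u := by
  have h1 : u * Star.star u = 1 := Unitary.mul_star_self_of_mem hu
  refine ⟨fun a b => ?_, fun a b c d => ?_, (hG.part.conj hu).sum⟩
  · rw [star_mul, star_mul, star_star, hG.star, mul_assoc]
  · calc _ = Star.star u * (G a b * (u * Star.star u) * G c d) * u := by simp only [mul_assoc]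
      _ = _ := by rw [h1, mul_one, hG.mul]; split_ifs <;> simp

lemma Part.idem {p : ι → A} (hp : Part p) (a : ι) : p a * p a = p a := by simp [hp.mul]

lemma Part.isStarProjection_sum {p : ι → A} (hp : Part p) (T : Finset ι) :
    IsStarProjection (∑ a ∈ T, p a) := by
  refine ⟨?_, ?_⟩
  · rw [IsIdempotentElem, Finset.sum_mul_sum]
    refine Finset.sum_congr rfl fun a ha => ?_
    simp [hp.mul, ha]
  · rw [IsSelfAdjoint, star_sum]
    exact Finset.sum_congr rfl fun a _ => hp.star a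

lemma Part.isStarProjection {p : ι → A} (hp : Part p) (a : ι) : IsStarProjection (p a) :=
  ⟨hp.idem a, hp.star a⟩

lemma Part.norm_le {p : ι → A} (hp : Part p) (a : ι) : ‖p a‖ ≤ 1 := (hp.isStarProjection a).norm_le

end Part

namespace IsTr
variable {τ : A →ₗ[ℂ] ℂ}

lemma n2_nonneg (h : IsTr τ) (x : A) : 0 ≤ n2 τ x := h.pos x

lemma n2_coe (h : IsTr τ) (x : A) : ((n2 τ x : ℝ) : ℂ) = τ (star x * x) := by
  have := h.herm (star x * x)
  rw [star_mul, star_star] at this
  exact Complex.conj_eq_iff_re.1 this.symm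

lemma nr_sq (h : IsTr τ) (x : A) : nr τ x ^ 2 = n2 τ x := Real.sq_sqrt (h.pos x)

lemma n2_star (h : IsTr τ) (x : A) : n2 τ (star x) = n2 τ x := by
  rw [n2, n2, star_star, h.tr]

lemma nr_star (h : IsTr τ) (x : A) : nr τ (star x) = nr τ x := by rw [nr, nr, h.n2_star]

lemma re_nonneg (h : IsTr τ) [PartialOrder A] [StarOrderedRing A] {a : A} (ha : 0 ≤ a) :
    0 ≤ (τ a).re := by
  obtain ⟨b, rfl⟩ := CStarAlgebra.nonneg_iff_eq_star_mul_self.1 ha
  exact h.pos b

lemma re_mono (h : IsTr τ) [PartialOrder A] [StarOrderedRing A] {a b : A} (hab : a ≤ b) :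
    (τ a).re ≤ (τ b).re := by
  have := h.re_nonneg (sub_nonneg.2 hab)
  rw [map_sub, Complex.sub_re] at this
  linarith

lemma re_mul_nonneg (h : IsTr τ) [PartialOrder A] [StarOrderedRing A] {a b : A} (ha : 0 ≤ a)
    (hb : 0 ≤ b) : 0 ≤ (τ (a * b)).re := by
  obtain ⟨c, rfl⟩ := CStarAlgebra.nonneg_iff_eq_star_mul_self.1 ha
  rw [mul_assoc, h.tr]
  exact h.re_nonneg (star_right_conjugate_nonneg hb c)

/-- the semi-inner product -/
@[reducible] noncomputable def core (h : IsTr τ) : PreInnerProductSpace.Core ℂ A where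
  inner x y := τ (star x * y)
  conj_inner_symm x y := by rw [← h.herm, star_mul, star_star]
  re_inner_nonneg x := h.pos x
  add_left x y z := by simp [add_mul]
  smul_left x y r := by simp

lemma cs (h : IsTr τ) (x y : A) : ‖τ (star x * y)‖ ≤ nr τ x * nr τ y := by
  letI := h.core
  have := InnerProductSpace.Core.inner_mul_inner_self_le (𝕜 := ℂ) x y
  have e : ‖τ (star y * x)‖ = ‖τ (star x * y)‖ := by
    rw [← RCLike.norm_conj, ← h.herm, star_mul, star_star]
  change ‖τ (star x * y)‖ * ‖τ (star y * x)‖ ≤ n2 τ x * n2 τ y at this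
  rw [e, ← h.nr_sq, ← h.nr_sq, ← mul_pow, ← sq] at this
  exact (pow_le_pow_iff_left₀ (norm_nonneg _) (mul_nonneg (Real.sqrt_nonneg _)
    (Real.sqrt_nonneg _)) two_ne_zero).1 this

lemma re_cs (h : IsTr τ) (x y : A) : (τ (star x * y)).re ≤ nr τ x * nr τ y :=
  (Complex.re_le_norm _).trans (h.cs x y)

lemma n2_add (h : IsTr τ) (x y : A) :
    n2 τ (x + y) = n2 τ x + 2 * (τ (star x * y)).re + n2 τ y := by
  have e : τ (star y * x) = conj (τ (star x * y)) := by rw [← h.herm, star_mul, star_star]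
  simp only [n2, star_add, add_mul, mul_add, map_add, Complex.add_re, e, Complex.conj_re]
  ring

end IsTr

lemma nr_nonneg (τ : A →ₗ[ℂ] ℂ) (x : A) : 0 ≤ nr τ x := Real.sqrt_nonneg _

lemma n2_smul (τ : A →ₗ[ℂ] ℂ) (c : ℂ) (x : A) : n2 τ (c • x) = ‖c‖ ^ 2 * n2 τ x := by
  rw [n2, n2, star_smul, smul_mul_smul_comm, map_smul, smul_eq_mul, Complex.star_def,
    Complex.conj_mul', ← Complex.ofReal_pow, Complex.re_ofReal_mul]

lemma nr_smul (τ : A →ₗ[ℂ] ℂ) (c : ℂ) (x : A) : nr τ (c • x) = ‖c‖ * nr τ x := by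
  rw [nr, nr, n2_smul, Real.sqrt_mul (sq_nonneg _), Real.sqrt_sq (norm_nonneg _)]

@[simp] lemma n2_zero (τ : A →ₗ[ℂ] ℂ) : n2 τ 0 = 0 := by simp [n2]
@[simp] lemma nr_zero (τ : A →ₗ[ℂ] ℂ) : nr τ 0 = 0 := by simp [nr]
lemma n2_neg (τ : A →ₗ[ℂ] ℂ) (x : A) : n2 τ (-x) = n2 τ x := by simp [n2]
lemma nr_neg (τ : A →ₗ[ℂ] ℂ) (x : A) : nr τ (-x) = nr τ x := by simp [nr, n2_neg]
lemma n2_one (τ : A →ₗ[ℂ] ℂ) : n2 τ 1 = (τ 1).re := by simp [n2]

namespace IsTr
variable {τ : A →ₗ[ℂ] ℂ}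

lemma nr_le_iff (h : IsTr τ) {x : A} {c : ℝ} (hc : 0 ≤ c) : nr τ x ≤ c ↔ n2 τ x ≤ c ^ 2 := by
  rw [← h.nr_sq, pow_le_pow_iff_left₀ (nr_nonneg _ _) hc two_ne_zero]

lemma nr_add_le (h : IsTr τ) (x y : A) : nr τ (x + y) ≤ nr τ x + nr τ y := by
  rw [h.nr_le_iff (add_nonneg (nr_nonneg _ _) (nr_nonneg _ _)), h.n2_add, ← h.nr_sq, ← h.nr_sq]
  nlinarith [h.re_cs x y]

lemma nr_sub_le (h : IsTr τ) (x y : A) : nr τ (x - y) ≤ nr τ x + nr τ y := by
  rw [sub_eq_add_neg, ← nr_neg τ y]; exact h.nr_add_le _ _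

lemma nr_sum_le (h : IsTr τ) {ι : Type*} (s : Finset ι) (f : ι → A) :
    nr τ (∑ i ∈ s, f i) ≤ ∑ i ∈ s, nr τ (f i) :=
  Finset.le_sum_of_subadditive _ (nr_zero τ).le h.nr_add_le s f

lemma nr_av_le (h : IsTr τ) {Ω : Type*} [Fintype Ω] (f : Ω → A) :
    nr τ (av f) ≤ av fun ω => nr τ (f ω) := by
  rw [av, av, ← Complex.coe_smul, nr_smul, smul_eq_mul, Complex.norm_real,
    Real.norm_of_nonneg (by positivity)]
  exact mul_le_mul_of_nonneg_left (h.nr_sum_le _ f) (by positivity)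

lemma n2_mul_le (h : IsTr τ) (a x : A) : n2 τ (a * x) ≤ ‖a‖ ^ 2 * n2 τ x := by
  letI := CStarAlgebra.spectralOrder A
  letI := CStarAlgebra.spectralOrderedRing A
  have h1 := star_left_conjugate_le_conjugate
    (CStarAlgebra.star_mul_le_algebraMap_norm_sq (a := a)) x
  have h2 := h.re_mono h1
  rw [Algebra.algebraMap_eq_smul_one, mul_smul_comm, mul_one, smul_mul_assoc, ← Complex.coe_smul,
    map_smul, smul_eq_mul, Complex.re_ofReal_mul] at h2
  rw [n2, star_mul]
  simpa only [mul_assoc, n2] using h2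

lemma nr_mul_le (h : IsTr τ) (a x : A) : nr τ (a * x) ≤ ‖a‖ * nr τ x := by
  rw [h.nr_le_iff (mul_nonneg (norm_nonneg _) (nr_nonneg _ _)), mul_pow, h.nr_sq]
  exact h.n2_mul_le a x

lemma n2_mul_le' (h : IsTr τ) (x a : A) : n2 τ (x * a) ≤ ‖a‖ ^ 2 * n2 τ x := by
  rw [← h.n2_star, star_mul, ← norm_star a, ← h.n2_star x]; exact h.n2_mul_le _ _

lemma nr_mul_le' (h : IsTr τ) (x a : A) : nr τ (x * a) ≤ ‖a‖ * nr τ x := by
  rw [← h.nr_star, star_mul, ← norm_star a, ← h.nr_star x]; exact h.nr_mul_le _ _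

lemma n2_le_norm (h : IsTr τ) (a : A) : n2 τ a ≤ ‖a‖ ^ 2 * (τ 1).re := by
  simpa [n2_one] using h.n2_mul_le a 1

lemma one_nonneg (h : IsTr τ) : 0 ≤ (τ 1).re := by simpa using h.pos 1

lemma n2_unitary_mul {u : A} (hu : u ∈ unitary A) (x : A) : n2 τ (u * x) = n2 τ x := by
  rw [n2, n2, star_mul, mul_assoc, ← mul_assoc (star u), Unitary.star_mul_self_of_mem hu, one_mul]

lemma n2_mul_unitary (h : IsTr τ) {u : A} (hu : u ∈ unitary A) (x : A) :
    n2 τ (x * u) = n2 τ x := by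
  rw [← h.n2_star, star_mul, n2_unitary_mul (Unitary.star_mem hu), h.n2_star]

lemma norm_le_nr (h : IsTr τ) (x : A) : ‖τ x‖ ≤ √(τ 1).re * nr τ x := by
  simpa [nr, n2_one] using h.cs 1 x

/-- `0 ≤ a ≤ b` gives `‖a‖₂ ≤ ‖b‖₂` -/
lemma n2_mono (h : IsTr τ) [PartialOrder A] [StarOrderedRing A] {a b : A} (ha : 0 ≤ a)
    (hab : a ≤ b) : n2 τ a ≤ n2 τ b := by
  have hb : 0 ≤ b := ha.trans hab
  have h1 := h.re_mul_nonneg ha (sub_nonneg.2 hab)
  have h2 := h.re_mul_nonneg hb (sub_nonneg.2 hab)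
  rw [mul_sub, map_sub, Complex.sub_re] at h1 h2
  rw [h.tr b a] at h2
  rw [n2, n2, ha.isSelfAdjoint.star_eq, hb.isSelfAdjoint.star_eq]
  linarith

section
variable {ι κ : Type*} [Fintype ι] [DecidableEq ι] [Fintype κ] [DecidableEq κ]

lemma sum_n2_left {p : ι → A} (hp : Part p) (z : A) : ∑ a, n2 τ (p a * z) = n2 τ z := by
  simp only [n2]
  rw [← Complex.re_sum, ← map_sum]
  congr 2
  have : ∀ a, star (p a * z) * (p a * z) = star z * p a * z := fun a => by
    rw [star_mul, hp.star, mul_assoc, ← mul_assoc (p a), hp.idem, mul_assoc]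
  simp only [this]
  rw [← Finset.sum_mul, ← Finset.mul_sum, hp.sum, mul_one]

lemma sum_n2_right (h : IsTr τ) {p : ι → A} (hp : Part p) (z : A) :
    ∑ a, n2 τ (z * p a) = n2 τ z := by
  rw [← h.n2_star z, ← sum_n2_left hp]
  exact Finset.sum_congr rfl fun a _ => by rw [← h.n2_star, star_mul, hp.star]

lemma sum_n2_pinch (h : IsTr τ) {p : ι → A} (hp : Part p) (z : A) :
    ∑ a, n2 τ (p a * z * p a) ≤ n2 τ z := by
  rw [← sum_n2_left hp z]
  refine Finset.sum_le_sum fun a _ => (h.n2_mul_le' _ _).trans ?_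
  have := pow_le_one₀ (n := 2) (norm_nonneg _) (hp.norm_le a)
  exact mul_le_of_le_one_left (h.n2_nonneg _) this

/-- orthogonal sums (left supports) -/
lemma n2_sum_left {p : ι → A} (hp : Part p) (s : Finset ι) (z : ι → A) :
    n2 τ (∑ a ∈ s, p a * z a) = ∑ a ∈ s, n2 τ (p a * z a) := by
  simp only [n2]
  rw [← Complex.re_sum, ← map_sum, star_sum, Finset.sum_mul_sum]
  congr 2
  refine Finset.sum_congr rfl fun a ha => ?_
  rw [Finset.sum_eq_single a]
  · intro b _ hb
    rw [star_mul, hp.star, mul_assoc, ← mul_assoc (p a), hp.mul, if_neg (Ne.symm hb)]; simp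
  · exact fun h => absurd ha h

/-- orthogonal sums (right supports) -/
lemma n2_sum_right (h : IsTr τ) {p : ι → A} (hp : Part p) (s : Finset ι) (z : ι → A) :
    n2 τ (∑ a ∈ s, z a * p a) = ∑ a ∈ s, n2 τ (z a * p a) := by
  rw [← h.n2_star, star_sum]
  simp only [star_mul, hp.star]
  rw [n2_sum_left hp]
  exact Finset.sum_congr rfl fun a _ => by rw [← h.n2_star, star_mul, star_star, hp.star]

lemma n2_pinch (h : IsTr τ) {p : ι → A} (hp : Part p) (z : A) :
    n2 τ (∑ a, p a * z * p a) = ∑ a, n2 τ (p a * z * p a) := h.n2_sum_right hp _ _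

lemma theta_comm (h : IsTr τ) {p : ι → A} (hp : Part p) {q : κ → A} (hq : Part q) :
    Theta τ p q = Theta τ q p := by
  rw [Theta, Theta, Finset.sum_comm]
  refine Finset.sum_congr rfl fun x _ => Finset.sum_congr rfl fun a _ => ?_
  have e : ∀ {p q : A}, star p = p → star q = q → p * p = p →
      n2 τ (p * q * p) = (τ (p * q * (p * q))).re := fun {p q} h1 h2 h3 => by
    rw [n2, star_mul, star_mul, h1, h2]
    congr 1
    calc τ (p * (q * p) * (p * q * p)) = τ ((p * q * (p * p) * q) * p) := by simp only [mul_assoc]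
      _ = τ ((p * p) * q * (p * q)) := by rw [h.tr, h3]; simp only [← mul_assoc, h3]
      _ = _ := by rw [h3]
  rw [e (hp.star a) (hq.star x) (hp.idem a), e (hq.star x) (hp.star a) (hq.idem x), mul_assoc,
    h.tr]
  simp only [mul_assoc]

end

end IsTr

end Crest.Agent.H7.Kad
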