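import Mathlib
import Crest.Agent.H7.KadTr

/-! Random phases and orthogonality relations. -/

set_option autoImplicit false

namespace Crest.Agent.H7.Kad

open scoped InnerProductSpace ComplexConjugate BigOperators
open Finset

/-- primitive root of unity -/
noncomputable def rt (M : ℕ) : ℂ := Complex.exp (2 * Real.pi * Complex.I / M)

lemma norm_rt (M : ℕ) : ‖rt M‖ = 1 := by
  have : (2 * Real.pi * Complex.I / M : ℂ) = ((2 * Real.pi / M : ℝ) : ℂ) * Complex.I := by
    push_cast; ring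
  rw [rt, this, Complex.norm_exp_ofReal_mul_I]

lemma rt_prim {M : ℕ} (hM : M ≠ 0) : IsPrimitiveRoot (rt M) M := Complex.isPrimitiveRoot_exp M hM

lemma conj_mul_of_norm {z : ℂ} (h : ‖z‖ = 1) : conj z * z = 1 := by
  rw [Complex.conj_mul', h]; simp

lemma orth1 {M : ℕ} {k k' : ℕ} (hk : k < M) (hk' : k' < M) :
    av (fun n : Fin M => conj ((rt M ^ (n : ℕ)) ^ k) * (rt M ^ (n : ℕ)) ^ k') =
      if k = k' then 1 else 0 := by
  have hM : M ≠ 0 := by omega
  haveI : Nonempty (Fin M) := ⟨⟨0, by omega⟩⟩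
  have hn : ∀ j : ℕ, ‖rt M ^ j‖ = 1 := fun j => by rw [norm_pow, norm_rt, one_pow]
  split_ifs with h
  · subst h
    have : ∀ n : Fin M, conj ((rt M ^ (n : ℕ)) ^ k) * (rt M ^ (n : ℕ)) ^ k = 1 := fun n =>
      conj_mul_of_norm (by rw [← pow_mul]; exact hn _)
    simp only [this, av_const]
  · set z : ℂ := conj (rt M ^ k) * rt M ^ k' with hz
    have e : ∀ n : Fin M, conj ((rt M ^ (n : ℕ)) ^ k) * (rt M ^ (n : ℕ)) ^ k' = z ^ (n : ℕ) :=
      fun n => by
        rw [hz, mul_pow, ← map_pow, ← pow_mul, ← pow_mul, ← pow_mul, ← pow_mul, mul_comm k,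
          mul_comm k']
    have hz1 : z ≠ 1 := by
      intro h1
      have h2 : rt M ^ k * z = rt M ^ k' := by
        rw [hz, ← mul_assoc, mul_comm (rt M ^ k), conj_mul_of_norm (hn k), one_mul]
      rw [h1, mul_one] at h2
      exact h ((rt_prim hM).pow_inj hk hk' h2)
    have hzM : z ^ M = 1 := by
      rw [hz, mul_pow, ← map_pow, ← pow_mul, ← pow_mul, mul_comm k, mul_comm k', pow_mul, pow_mul,
        (rt_prim hM).pow_eq_one]
      simp
    simp only [e]
    rw [av, Fin.sum_univ_eq_sum_range (fun n => z ^ n) M, geom_sum_eq hz1, hzM]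
    simp

variable {ι : Type*} [Fintype ι] [DecidableEq ι]

/-- random phases -/
noncomputable def ph {M : ℕ} (θ : ι → Fin M) (a : ι) : ℂ := rt M ^ (θ a : ℕ)

omit [Fintype ι] [DecidableEq ι] in
lemma norm_ph {M : ℕ} (θ : ι → Fin M) (a : ι) : ‖ph θ a‖ = 1 := by
  rw [ph, norm_pow, norm_rt, one_pow]

omit [Fintype ι] [DecidableEq ι] in
lemma conj_ph_mul {M : ℕ} (θ : ι → Fin M) (a : ι) : conj (ph θ a) * ph θ a = 1 :=
  conj_mul_of_norm (norm_ph θ a)

/-- monomials -/
noncomputable def mon (z : ι → ℂ) (k : ι → ℕ) : ℂ := ∏ a, z a ^ k a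

omit [DecidableEq ι] in
lemma mon_add (z : ι → ℂ) (k k' : ι → ℕ) : mon z (k + k') = mon z k * mon z k' := by
  simp [mon, pow_add, Finset.prod_mul_distrib]

omit [DecidableEq ι] in
lemma mon_mul (z z' : ι → ℂ) (k : ι → ℕ) : mon (z * z') k = mon z k * mon z' k := by
  simp [mon, mul_pow, Finset.prod_mul_distrib]

omit [DecidableEq ι] in
lemma mon_zero (z : ι → ℂ) : mon z 0 = 1 := by simp [mon]

lemma mon_single (z : ι → ℂ) (a : ι) : mon z (Pi.single a 1) = z a := by
  rw [mon, Finset.prod_eq_single a]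
  · simp
  · intro b _ hb; simp [hb]
  · simp

lemma orth {M : ℕ} {k k' : ι → ℕ} (hk : ∀ a, k a < M) (hk' : ∀ a, k' a < M) :
    av (fun θ : ι → Fin M => conj (mon (ph θ) k) * mon (ph θ) k') = if k = k' then 1 else 0 := by
  have e : ∀ θ : ι → Fin M, conj (mon (ph θ) k) * mon (ph θ) k' =
      ∏ a, (conj ((rt M ^ (θ a : ℕ)) ^ k a) * (rt M ^ (θ a : ℕ)) ^ k' a) := fun θ => by
    rw [mon, mon, map_prod, ← Finset.prod_mul_distrib]; rfl
  simp only [e]
  rw [av_pi_prod (fun a (n : Fin M) => conj ((rt M ^ (n : ℕ)) ^ k a) * (rt M ^ (n : ℕ)) ^ k' a)]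
  simp only [orth1 (hk _) (hk' _)]
  split_ifs with h
  · simp [h]
  · obtain ⟨a, ha⟩ := Function.ne_iff.1 h
    exact Finset.prod_eq_zero (Finset.mem_univ a) (if_neg ha)

/-- single phases are orthonormal -/
lemma orth_single {M : ℕ} (hM : 2 ≤ M) (a b : ι) :
    av (fun θ : ι → Fin M => conj (ph θ a) * ph θ b) = if a = b then 1 else 0 := by
  have h : ∀ a b : ι, (Pi.single a 1 : ι → ℕ) b < M := fun a b => by
    rw [Pi.single_apply]; split_ifs <;> omega
  have := orth (h a) (h b)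
  simp only [mon_single] at this
  rw [this]
  by_cases hab : a = b
  · simp [hab]
  · rw [if_neg hab, if_neg]
    intro h1
    have := congrFun h1 a
    simp [hab] at this

/-- the characters `conj θ_a * θ_b`, `a ≠ b`, are orthonormal -/
lemma orth_pair {M : ℕ} (hM : 3 ≤ M) {a b c d : ι} (hab : a ≠ b) :
    av (fun θ : ι → Fin M => conj (conj (ph θ a) * ph θ b) * (conj (ph θ c) * ph θ d)) =
      if (a, b) = (c, d) then 1 else 0 := by
  have h : ∀ a b c : ι, (Pi.single a 1 + Pi.single b 1 : ι → ℕ) c < M := fun a b c => by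
    rw [Pi.add_apply, Pi.single_apply, Pi.single_apply]; split_ifs <;> omega
  have := orth (h b c) (h a d)
  simp only [mon_add, mon_single] at this
  have e : ∀ θ : ι → Fin M, conj (conj (ph θ a) * ph θ b) * (conj (ph θ c) * ph θ d) =
      conj (ph θ b * ph θ c) * (ph θ a * ph θ d) := fun θ => by
    simp only [map_mul, Complex.conj_conj]; ring
  simp only [e]
  rw [this]
  by_cases h1 : (a, b) = (c, d)
  · obtain ⟨rfl, rfl⟩ := Prod.mk.inj h1
    simp [add_comm]
  · rw [if_neg h1, if_neg]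
    intro h2
    apply h1
    have ha := congrFun h2 a
    have hb := congrFun h2 b
    simp only [Pi.add_apply, Pi.single_apply, if_neg hab, if_neg hab.symm, if_true] at ha hb
    have hac : a = c := by by_contra h; rw [if_neg h] at ha; omega
    have hbd : b = d := by
      by_contra h
      subst hac
      simp [h, hab.symm] at hb
    rw [hac, hbd]

section Orth
variable {Ω : Type*} [Fintype Ω] {E E' F : Type*} [AddCommGroup E] [Module ℂ E]
  [AddCommGroup E'] [Module ℂ E'] [AddCommGroup F] [Module ℂ F] [Module ℝ F] [IsScalarTower ℝ ℂ F]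

lemma av_smul_const (f : Ω → ℂ) (v : F) : av (fun ω => f ω • v) = av f • v := by
  rw [av, av, ← Finset.sum_smul, smul_assoc]

/-- expansion of a sesquilinear map on random sums -/
lemma av_sesq {κ κ' : Type*} (B : E →ₗ⋆[ℂ] E' →ₗ[ℂ] F) (s : Finset κ) (s' : Finset κ')
    (χ : κ → Ω → ℂ) (χ' : κ' → Ω → ℂ) (x : κ → E) (y : κ' → E') :
    av (fun ω => B (∑ k ∈ s, χ k ω • x k) (∑ k ∈ s', χ' k ω • y k)) =
      ∑ k ∈ s, ∑ k' ∈ s', av (fun ω => conj (χ k ω) * χ' k' ω) • B (x k) (y k') := by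
  simp only [map_sum, LinearMap.sum_apply, LinearMap.map_smulₛₗ, LinearMap.smul_apply,
    RingHom.id_apply, smul_smul]
  rw [av_sum, Finset.sum_comm]
  refine Finset.sum_congr rfl fun k' _ => ?_
  simp only [Finset.smul_sum, smul_smul]
  rw [av_sum]
  refine Finset.sum_congr rfl fun k _ => ?_
  rw [av_smul_const]
  simp only [mul_comm]

/-- orthogonality relation for a sesquilinear map -/
lemma av_sesq_orth {κ : Type*} [DecidableEq κ] (B : E →ₗ⋆[ℂ] E' →ₗ[ℂ] F) (s : Finset κ)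
    (χ : κ → Ω → ℂ)
    (hχ : ∀ k ∈ s, ∀ k' ∈ s, av (fun ω => conj (χ k ω) * χ k' ω) = if k = k' then 1 else 0)
    (x : κ → E) (y : κ → E') :
    av (fun ω => B (∑ k ∈ s, χ k ω • x k) (∑ k ∈ s, χ k ω • y k)) = ∑ k ∈ s, B (x k) (y k) := by
  rw [av_sesq]
  refine Finset.sum_congr rfl fun k hk => ?_
  rw [Finset.sum_eq_single k]
  · rw [hχ k hk k hk]; simp
  · intro k' hk' h; rw [hχ k hk k' hk', if_neg (Ne.symm h), zero_smul]
  · exact fun h => absurd hk h

end Orth

section Forms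
variable {A : Type*} [CStarAlgebra A]

/-- `(x, y) ↦ x* y` -/
noncomputable def mulB : A →ₗ⋆[ℂ] A →ₗ[ℂ] A := LinearMap.mk₂'ₛₗ (starRingEnd ℂ) (RingHom.id ℂ)
  (fun a b => star a * b) (fun a a' b => by simp [add_mul]) (fun c a b => by simp)
  (fun a b b' => by simp [mul_add]) (fun c a b => by simp)

@[simp] lemma mulB_apply (a b : A) : mulB a b = star a * b := rfl

/-- `(x, y) ↦ τ (x* y)` -/
noncomputable def trB (τ : A →ₗ[ℂ] ℂ) : A →ₗ⋆[ℂ] A →ₗ[ℂ] ℂ := mulB.compr₂ₛₗ τ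

@[simp] lemma trB_apply (τ : A →ₗ[ℂ] ℂ) (a b : A) : trB τ a b = τ (star a * b) := rfl

lemma av_n2_orth {Ω κ : Type*} [Fintype Ω] [DecidableEq κ] (τ : A →ₗ[ℂ] ℂ) (s : Finset κ)
    (χ : κ → Ω → ℂ)
    (hχ : ∀ k ∈ s, ∀ k' ∈ s, av (fun ω => conj (χ k ω) * χ k' ω) = if k = k' then 1 else 0)
    (x : κ → A) : av (fun ω => n2 τ (∑ k ∈ s, χ k ω • x k)) = ∑ k ∈ s, n2 τ (x k) := by
  have := congrArg Complex.re (av_sesq_orth (trB τ) s χ hχ x x)
  rw [av_re, Complex.re_sum] at this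
  exact this

lemma av_normSq_orth {Ω κ : Type*} [Fintype Ω] [DecidableEq κ] {H : Type*} [NormedAddCommGroup H]
    [InnerProductSpace ℂ H] (s : Finset κ) (χ : κ → Ω → ℂ)
    (hχ : ∀ k ∈ s, ∀ k' ∈ s, av (fun ω => conj (χ k ω) * χ k' ω) = if k = k' then 1 else 0)
    (x : κ → H) : av (fun ω => ‖∑ k ∈ s, χ k ω • x k‖ ^ 2) = ∑ k ∈ s, ‖x k‖ ^ 2 := by
  have := congrArg Complex.re (av_sesq_orth (innerₛₗ ℂ) s χ hχ x x)
  rw [av_re, Complex.re_sum] at this
  simpa only [innerₛₗ_apply_apply, ← RCLike.re_to_complex, inner_self_eq_norm_sq] using this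

end Forms

end Crest.Agent.H7.Kad
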