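import Mathlib
import Crest.Agent.H7.KadMat

/-! Kirchberg's improvement step. -/

set_option autoImplicit false

namespace Crest.Agent.H7.Kad

open scoped InnerProductSpace ComplexConjugate
open Finset

universe u

/-- scalar function used instead of the logarithm -/
noncomputable def flog (m : ℕ) (s : ℝ) : ℝ := ∑ k ∈ range m, s / (s + 2 ^ k)

lemma flog_nonneg (m : ℕ) {s : ℝ} (hs : 0 ≤ s) : 0 ≤ flog m s :=
  Finset.sum_nonneg fun k _ => by positivity

lemma flog_le_m (m : ℕ) {s : ℝ} (hs : 0 ≤ s) : flog m s ≤ m := by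
  have : ∀ k ∈ range m, s / (s + 2 ^ k) ≤ 1 := fun k _ => by
    rw [div_le_one (by positivity)]
    have : (0 : ℝ) < 2 ^ k := by positivity
    linarith
  simpa [flog] using Finset.sum_le_card_nsmul _ _ _ this

lemma flog_le (m : ℕ) {s : ℝ} (hs : 0 ≤ s) : flog m s ≤ 2 * s := by
  have h1 : ∀ k ∈ range m, s / (s + 2 ^ k) ≤ s * (1 / 2) ^ k := fun k _ => by
    rw [one_div_pow, mul_one_div]
    exact div_le_div_of_nonneg_left hs (by positivity) (by linarith)
  refine (Finset.sum_le_sum h1).trans ?_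
  rw [← Finset.mul_sum]
  have := sum_geometric_two_le m
  nlinarith

lemma le_flog (m : ℕ) {s : ℝ} (hs : 2 ^ m ≤ s) : m / 2 ≤ flog m s := by
  have h0 : (0 : ℝ) < s := lt_of_lt_of_le (by positivity) hs
  have : ∀ k ∈ range m, (1 / 2 : ℝ) ≤ s / (s + 2 ^ k) := fun k hk => by
    have h2 : (2 : ℝ) ^ k ≤ 2 ^ m := pow_le_pow_right₀ one_le_two (Finset.mem_range.1 hk).le
    rw [div_le_div_iff₀ two_pos (by positivity)]
    linarith
  have h := Finset.card_nsmul_le_sum _ _ _ this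
  simp only [Finset.card_range, nsmul_eq_mul] at h
  rw [flog]; linarith

lemma gsum_le (m : ℕ) {s : ℝ} (hs : 0 ≤ s) :
    ∑ k ∈ range m, 2 ^ k * s / (s + 2 ^ k) ^ 2 ≤ 2 := by
  have h : ∑ k ∈ range m, 2 ^ k * s / (s + 2 ^ k) ^ 2 ≤ 2 * (s / (s + 1) - s / (s + 2 ^ m)) := by
    induction m with
    | zero => simp
    | succ m ih =>
      rw [Finset.sum_range_succ]
      have hp : (0 : ℝ) < 2 ^ m := by positivity
      have : 2 ^ m * s / (s + 2 ^ m) ^ 2 ≤ 2 * (s / (s + 2 ^ m) - s / (s + 2 ^ (m + 1))) := by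
        rw [pow_succ (2 : ℝ) m]
        generalize (2 : ℝ) ^ m = l at hp
        rw [div_sub_div _ _ (by positivity) (by positivity), mul_div_assoc',
          div_le_div_iff₀ (by positivity) (by positivity)]
        have := mul_nonneg (mul_nonneg (mul_nonneg hs hs) hp.le) (add_nonneg hs hp.le)
        nlinarith
      linarith
  have h1 : s / (s + 1) ≤ 1 := by rw [div_le_one (by positivity)]; linarith
  have h2 : 0 ≤ s / (s + 2 ^ m) := by positivity
  linarith

variable {A : Type*} [CStarAlgebra A]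
variable {H : Type u} [NormedAddCommGroup H] [InnerProductSpace ℂ H] [CompleteSpace H]

/-- invariant forms -/
def Inv (π : A →ₐ[ℂ] (H →L[ℂ] H)) (T : H →L[ℂ] H) : Prop :=
  ∀ a, T * π (star a) = star (π a) * T

lemma spec_ge_one {T : H →L[ℂ] H} (h1 : 1 ≤ T) : ∀ s ∈ spectrum ℝ T, 1 ≤ s := by
  have hT : IsSelfAdjoint T := (zero_le_one.trans h1).isSelfAdjoint
  rw [← algebraMap_le_iff_le_spectrum (a := T), map_one]
  exact h1

lemma exists_sqrt_T {T : H →L[ℂ] H} (h1 : 1 ≤ T) :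
    cfc (fun s : ℝ => √s) T * cfc (fun s : ℝ => √s) T = T ∧
    cfc (fun s : ℝ => √s) T * cfc (fun s : ℝ => (√s)⁻¹) T = 1 ∧
    cfc (fun s : ℝ => (√s)⁻¹) T * cfc (fun s : ℝ => √s) T = 1 := by
  have hT : IsSelfAdjoint T := (zero_le_one.trans h1).isSelfAdjoint
  have hsp := spec_ge_one h1
  have hne : ∀ s ∈ spectrum ℝ T, √s ≠ 0 := fun s hs =>
    (Real.sqrt_pos.2 (by linarith [hsp s hs])).ne'
  have c1 : ContinuousOn (fun x : ℝ => √x) (spectrum ℝ T) := by fun_prop
  have c2 : ContinuousOn (fun x : ℝ => (√x)⁻¹) (spectrum ℝ T) := c1.inv₀ hne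
  refine ⟨?_, ?_, ?_⟩
  · rw [← cfc_mul _ _ T c1 c1]
    conv_rhs => rw [← cfc_id' ℝ T]
    exact cfc_congr fun x hx => Real.mul_self_sqrt (by linarith [hsp x hx])
  · rw [← cfc_mul _ _ T c1 c2, ← cfc_one (R := ℝ) T]
    exact cfc_congr fun x hx => mul_inv_cancel₀ (hne x hx)
  · rw [← cfc_mul _ _ T c2 c1, ← cfc_one (R := ℝ) T]
    exact cfc_congr fun x hx => inv_mul_cancel₀ (hne x hx)

lemma norm_sum_conj_le {ι : Type*} (s : Finset ι) (G : ι → H →L[ℂ] H) (hG : ∀ i, star (G i) = G i)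
    (y : H →L[ℂ] H) (hn : ‖∑ i ∈ s, G i * G i‖ ≤ 2) : ‖∑ i ∈ s, G i * y * G i‖ ≤ 8 * ‖y‖ := by
  refine ContinuousLinearMap.opNorm_le_bound _ (by positivity) fun ξ => ?_
  have h1 := hom_row (AlgHom.id ℂ (H →L[ℂ] H)) 1 zero_le_one (by simp) s G (fun i => y (G i ξ))
  have h2 := hom_col (AlgHom.id ℂ (H →L[ℂ] H)) 1 zero_le_one (by simp) s G ξ
  simp only [AlgHom.id_apply, hG, one_pow, mul_one] at h1 h2
  have h3 : ∑ i ∈ s, ‖y (G i ξ)‖ ^ 2 ≤ ‖y‖ ^ 2 * ∑ i ∈ s, ‖G i ξ‖ ^ 2 := by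
    rw [Finset.mul_sum]
    refine Finset.sum_le_sum fun i _ => ?_
    rw [← mul_pow]
    exact pow_le_pow_left₀ (norm_nonneg _) (y.le_opNorm _) 2
  have h4 : ∑ i ∈ s, ‖G i ξ‖ ^ 2 ≤ 8 * ‖ξ‖ ^ 2 := h2.trans (by gcongr; linarith)
  have h5 : ∑ i ∈ s, ‖y (G i ξ)‖ ^ 2 ≤ ‖y‖ ^ 2 * (8 * ‖ξ‖ ^ 2) :=
    h3.trans (mul_le_mul_of_nonneg_left h4 (sq_nonneg _))
  have h6 : ‖∑ i ∈ s, G i (y (G i ξ))‖ ^ 2 ≤ 8 * (‖y‖ ^ 2 * (8 * ‖ξ‖ ^ 2)) :=
    h1.trans (mul_le_mul (by linarith) h5 (Finset.sum_nonneg fun i _ => sq_nonneg _) (by norm_num))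
  rw [_root_.sum_apply]
  refine (pow_le_pow_iff_left₀ (norm_nonneg _) (by positivity) two_ne_zero).1 ?_
  simp only [mul_apply_eq_comp]
  refine h6.trans (le_of_eq (by ring))

lemma comm_flog {T : H →L[ℂ] H} (h1 : 1 ≤ T) (m : ℕ) (x : H →L[ℂ] H) :
    ‖cfc (flog m) T * x - x * cfc (flog m) T‖ ≤
      8 * ‖cfc (fun s : ℝ => √s) T * x * cfc (fun s : ℝ => (√s)⁻¹) T -
        cfc (fun s : ℝ => (√s)⁻¹) T * x * cfc (fun s : ℝ => √s) T‖ := by
  have hT : IsSelfAdjoint T := (zero_le_one.trans h1).isSelfAdjoint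
  have hsp := spec_ge_one h1
  obtain ⟨hSS, hS1, hS2⟩ := exists_sqrt_T h1
  set S := cfc (fun s : ℝ => √s) T with hS
  set S' := cfc (fun s : ℝ => (√s)⁻¹) T with hS'
  have hne : ∀ (k : ℕ), ∀ s ∈ spectrum ℝ T, s + 2 ^ k ≠ 0 := fun k s hs => by
    have := hsp s hs
    positivity
  have cR : ∀ k : ℕ, ContinuousOn (fun s : ℝ => (s + 2 ^ k)⁻¹) (spectrum ℝ T) := fun k =>
    ContinuousOn.inv₀ (by fun_prop) (hne k)
  have cS : ContinuousOn (fun x : ℝ => √x) (spectrum ℝ T) := by fun_prop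
  set R : ℕ → H →L[ℂ] H := fun k => cfc (fun s : ℝ => (s + 2 ^ k)⁻¹) T with hR
  have hTl : ∀ k : ℕ, cfc (fun s : ℝ => s + 2 ^ k) T = T + (2 ^ k : ℝ) • 1 := fun k => by
    rw [cfc_add_const _ _ _, cfc_id' ℝ T, Algebra.algebraMap_eq_smul_one]
  have hR1 : ∀ k, R k * (T + (2 ^ k : ℝ) • 1) = 1 := fun k => by
    rw [← hTl, ← cfc_mul _ _ T (cR k), ← cfc_one (R := ℝ) T]
    exact cfc_congr fun x hx => inv_mul_cancel₀ (hne k x hx)
  have hR2 : ∀ k, (T + (2 ^ k : ℝ) • 1) * R k = 1 := fun k => by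
    rw [← hTl, ← cfc_mul _ _ T (by fun_prop) (cR k), ← cfc_one (R := ℝ) T]
    exact cfc_congr fun x hx => mul_inv_cancel₀ (hne k x hx)
  have hRS : ∀ k, R k * S = S * R k := fun k => cfc_commute_cfc _ _ T
  have hL : cfc (flog m) T = ∑ k ∈ range m, (1 - (2 ^ k : ℝ) • R k) := by
    have : ∀ k : ℕ, 1 - (2 ^ k : ℝ) • R k = cfc (fun s : ℝ => s / (s + 2 ^ k)) T := fun k => by
      have c3 : ContinuousOn (fun s : ℝ => (2 ^ k : ℝ) • (s + 2 ^ k)⁻¹) (spectrum ℝ T) :=
        continuousOn_const.mul (cR k)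
      rw [← cfc_one (R := ℝ) T, ← cfc_smul _ _ T (cR k), ← cfc_sub _ _ T (by fun_prop) c3]
      refine cfc_congr fun s hs => ?_
      have := hne k s hs
      simp only [Pi.one_apply, smul_eq_mul]
      field_simp
      ring
    simp only [this]
    rw [← cfc_sum (fun (k : ℕ) (s : ℝ) => s / (s + 2 ^ k)) _ _
      fun k _ => ContinuousOn.div (by fun_prop) (by fun_prop) (hne k)]
    congr 1
    ext s
    simp [flog]
  set G : ℕ → H →L[ℂ] H := fun k => (√(2 ^ k) : ℝ) • (S * R k) with hG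
  have hGc : ∀ k, G k = cfc (fun s : ℝ => √(2 ^ k) * (√s * (s + 2 ^ k)⁻¹)) T := fun k => by
    have c3 : ContinuousOn (fun s : ℝ => √s * (s + 2 ^ k)⁻¹) (spectrum ℝ T) := cS.mul (cR k)
    rw [cfc_const_mul _ _ T c3, cfc_mul _ _ T cS (cR k)]
  have hGsa : ∀ k, star (G k) = G k := fun k => by
    rw [hGc]; exact (cfc_predicate _ T : IsSelfAdjoint _).star_eq
  have cG : ∀ k : ℕ, ContinuousOn (fun s : ℝ => √(2 ^ k) * (√s * (s + 2 ^ k)⁻¹)) (spectrum ℝ T) :=
    fun k => continuousOn_const.mul (cS.mul (cR k))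
  have hGn : ‖∑ k ∈ range m, G k * G k‖ ≤ 2 := by
    simp only [hGc]
    simp only [← fun k => cfc_mul _ _ T (cG k) (cG k)]
    rw [← cfc_sum (fun (k : ℕ) (s : ℝ) => √(2 ^ k) * (√s * (s + 2 ^ k)⁻¹) *
        (√(2 ^ k) * (√s * (s + 2 ^ k)⁻¹))) _ _ fun k _ => (cG k).mul (cG k)]
    refine norm_cfc_le zero_le_two fun s hs => ?_
    have hs0 : 0 ≤ s := by linarith [hsp s hs]
    have e : (∑ k ∈ range m, fun s : ℝ => √(2 ^ k) * (√s * (s + 2 ^ k)⁻¹) *
        (√(2 ^ k) * (√s * (s + 2 ^ k)⁻¹))) s = ∑ k ∈ range m, 2 ^ k * s / (s + 2 ^ k) ^ 2 := by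
      rw [Finset.sum_apply]
      refine Finset.sum_congr rfl fun k _ => ?_
      have e1 := Real.mul_self_sqrt (show (0 : ℝ) ≤ 2 ^ k by positivity)
      have e2 := Real.mul_self_sqrt hs0
      calc _ = (√(2 ^ k) * √(2 ^ k)) * (√s * √s) * ((s + 2 ^ k)⁻¹ * (s + 2 ^ k)⁻¹) := by ring
        _ = _ := by rw [e1, e2, div_eq_mul_inv, sq, mul_inv]
    rw [e, Real.norm_of_nonneg (Finset.sum_nonneg fun k _ => by positivity)]
    exact gsum_le m hs0
  refine le_trans (le_of_eq ?_) (norm_sum_conj_le (range m) G hGsa _ hGn)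
  congr 1
  rw [hL, Finset.sum_mul, Finset.mul_sum, ← Finset.sum_sub_distrib]
  refine Finset.sum_congr rfl fun k _ => ?_
  have e1 : S * (S * x * S' - S' * x * S) * S = T * x - x * T := by
    have a1 : S * (S * x * S') * S = T * x := by
      rw [← hSS]; simp only [mul_assoc, hS2, mul_one]
    have a2 : S * (S' * x * S) * S = x * T := by
      rw [← hSS]; simp only [← mul_assoc, hS1, one_mul]
    rw [mul_sub, sub_mul, a1, a2]
  have e2 : R k * (T * x - x * T) * R k = x * R k - R k * x := by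
    have : T * x - x * T = (T + (2 ^ k : ℝ) • 1) * x - x * (T + (2 ^ k : ℝ) • 1) := by
      simp [add_mul, mul_add]
    rw [this, mul_sub, sub_mul, ← mul_assoc, hR1, one_mul, mul_assoc, mul_assoc, hR2, mul_one]
  have e3 : G k * (S * x * S' - S' * x * S) * G k =
      (2 ^ k : ℝ) • (R k * (S * (S * x * S' - S' * x * S) * S) * R k) := by
    simp only [hG, smul_mul_assoc, mul_smul_comm, smul_smul]
    rw [Real.mul_self_sqrt (by positivity)]
    congr 1
    nth_rewrite 1 [← hRS]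
    simp only [mul_assoc]
  rw [e3, e1, e2]
  simp only [sub_mul, mul_sub, smul_mul_assoc, mul_smul_comm, one_mul, mul_one, smul_sub]
  abel

/-- the star homomorphism obtained by conjugation -/
noncomputable def conjHom (π : A →ₐ[ℂ] (H →L[ℂ] H)) (S S' : H →L[ℂ] H) (hS : star S = S)
    (hS' : star S' = S') (h1 : S * S' = 1) (h2 : S' * S = 1) (hI : Inv π (S * S)) :
    A →⋆ₐ[ℂ] (H →L[ℂ] H) where
  toFun a := S * π a * S'
  map_one' := by simp [h1]
  map_mul' a b := by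
    rw [map_mul]
    calc S * (π a * π b) * S' = S * (π a * (S' * S) * π b) * S' := by rw [h2, mul_one]
      _ = _ := by simp only [mul_assoc]
  map_zero' := by simp
  map_add' a b := by simp [mul_add, add_mul]
  commutes' c := by
    rw [AlgHom.commutes, ← Algebra.commutes, mul_assoc, h1, mul_one]
  map_star' a := by
    rw [star_mul, star_mul, hS, hS']
    calc S * π (star a) * S' = (S' * S) * S * π (star a) * S' := by rw [h2, one_mul]
      _ = S' * (S * S * π (star a)) * S' := by simp only [mul_assoc]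
      _ = S' * (star (π a) * (S * S)) * S' := by rw [hI a]
      _ = S' * (star (π a) * S) * (S * S') := by simp only [mul_assoc]
      _ = _ := by rw [h1, mul_one]

/-- double commutant of the range of a star homomorphism -/
noncomputable def bicomm (ρ : A →⋆ₐ[ℂ] (H →L[ℂ] H)) : VonNeumannAlgebra H :=
  VonNeumannAlgebra.commutant
    { toStarSubalgebra := StarSubalgebra.centralizer ℂ (Set.range ρ)
      centralizer_centralizer' := by simp }

lemma mem_bicomm (ρ : A →⋆ₐ[ℂ] (H →L[ℂ] H)) (x : H →L[ℂ] H) :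
    x ∈ bicomm ρ ↔ x ∈ Set.centralizer (Set.centralizer (Set.range ρ)) := by
  have : Set.range ρ ∪ star (Set.range ρ) = Set.range ρ := by
    refine Set.union_eq_left.2 ?_
    rintro y ⟨a, ha⟩
    exact ⟨star a, by rw [map_star, ha, star_star]⟩
  rw [← SetLike.mem_coe, bicomm, VonNeumannAlgebra.coe_commutant, VonNeumannAlgebra.coe_mk,
    StarSubalgebra.coe_centralizer, this]

lemma sa_part {L Z : H →L[ℂ] H} (hL : star L = L) {κ : ℝ} (h : ‖L - Z‖ ≤ κ) :
    ‖L - (2⁻¹ : ℝ) • (Z + star Z)‖ ≤ κ := by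
  have e : L - (2⁻¹ : ℝ) • (Z + star Z) = (2⁻¹ : ℝ) • ((L - Z) + star (L - Z)) := by
    rw [star_sub, hL]; module
  rw [e, norm_smul]
  have := norm_add_le (L - Z) (star (L - Z))
  rw [norm_star] at this
  rw [Real.norm_of_nonneg (by norm_num)]
  linarith

theorem k2_step (C : ℝ) (hC : 0 ≤ C) (hcb : ∀ P : VonNeumannAlgebra H, CBBound C P)
    (π : A →ₐ[ℂ] (H →L[ℂ] H)) (K : ℝ) (hK : 0 ≤ K) (hπ : ∀ a, ‖π a‖ ≤ K * ‖a‖)
    (m : ℕ) (t : ℝ) (ht : 0 < t) (htm : t * (m + C * (64 * K ^ 4) + 4) ≤ 1 / 2)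
    (T : H →L[ℂ] H) (hI : Inv π T) (h1 : 1 ≤ T) (r : ℝ) (hr : T ≤ algebraMap ℝ _ r)
    (hrm : 2 ^ (m + 1) ≤ r) :
    ∃ T' : H →L[ℂ] H, Inv π T' ∧ 1 ≤ T' ∧ T' ≤ algebraMap ℝ _
      (r * ((1 - t * m / 2 + t * (C * (64 * K ^ 4))) / (1 - 4 * t - t * (C * (64 * K ^ 4))))) := by
  have hT : IsSelfAdjoint T := (zero_le_one.trans h1).isSelfAdjoint
  have hsp := spec_ge_one h1
  have hsp2 : ∀ s ∈ spectrum ℝ T, s ≤ r := by
    rwa [← le_algebraMap_iff_spectrum_le (a := T)]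
  obtain ⟨hSS, hS1, hS2⟩ := exists_sqrt_T h1
  have hcomm := comm_flog h1 m
  set S := cfc (fun s : ℝ => √s) T with hS
  set S' := cfc (fun s : ℝ => (√s)⁻¹) T with hS'
  have hSa : star S = S := (cfc_predicate _ T : IsSelfAdjoint _).star_eq
  have hSa' : star S' = S' := (cfc_predicate _ T : IsSelfAdjoint _).star_eq
  set ρ := conjHom π S S' hSa hSa' hS1 hS2 (by rw [hSS]; exact hI) with hρ
  have hρa : ∀ a, ρ a = S * π a * S' := fun a => rfl
  have hρS : ∀ a, S * π a = ρ a * S := fun a => by rw [hρa, mul_assoc, hS2, mul_one]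
  set L := cfc (flog m) T with hL
  have hLa : star L = L := (cfc_predicate _ T : IsSelfAdjoint _).star_eq
  set κ := C * (64 * K ^ 4) with hκ
  have hκ0 : 0 ≤ κ := by positivity
  obtain ⟨Z₀, hZ1, hZ2⟩ := arveson C (bicomm ρ) (hcb _) L (64 * K ^ 4) (fun x hx => by
    have b1 := kext π K hK hπ ρ S S' hS2 hρS x ((mem_bicomm ρ x).1 hx)
    have b2 := kext π K hK hπ ρ S S' hS2 hρS (star x) ((mem_bicomm ρ _).1 (star_mem hx))
    rw [← norm_star, star_mul, star_mul, hSa, hSa', star_star, ← mul_assoc, norm_star] at b2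
    have b3 := norm_sub_le (S * x * S') (S' * x * S)
    have := hcomm x
    linarith) hκ0
  set Z := (2⁻¹ : ℝ) • (Z₀ + star Z₀) with hZ
  have hρP : ∀ a, ρ a ∈ bicomm ρ := fun a =>
    (mem_bicomm ρ _).2 (Set.subset_centralizer_centralizer ⟨a, rfl⟩)
  have hZc : ∀ a, ρ a * Z = Z * ρ a := fun a => by
    have e1 := hZ1 _ (hρP a)
    have e2 := congrArg star (hZ1 _ (hρP (star a)))
    rw [star_mul, star_mul, map_star, star_star] at e2
    rw [hZ, mul_smul_comm, smul_mul_assoc, mul_add, add_mul, e1, e2]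
  have hB : ‖L - Z‖ ≤ κ := sa_part hLa hZ2
  have hBa : IsSelfAdjoint (L - Z) := by
    rw [IsSelfAdjoint, star_sub, hLa, hZ, star_smul, star_add, star_star, add_comm, star_trivial]
  have hB1 : L - Z ≤ algebraMap ℝ _ κ :=
    hBa.le_algebraMap_norm_self.trans (by
      rw [Algebra.algebraMap_eq_smul_one, Algebra.algebraMap_eq_smul_one]
      exact smul_le_smul_of_nonneg_right hB zero_le_one)
  have hB2 : -algebraMap ℝ _ κ ≤ L - Z := by
    refine le_trans ?_ hBa.neg_algebraMap_norm_le_self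
    rw [neg_le_neg_iff, Algebra.algebraMap_eq_smul_one, Algebra.algebraMap_eq_smul_one]
    exact smul_le_smul_of_nonneg_right hB zero_le_one
  have hSκ : S * algebraMap ℝ _ κ * S = κ • T := by
    rw [Algebra.algebraMap_eq_smul_one, mul_smul_comm, mul_one, smul_mul_assoc, hSS]
  have hB3 : S * (L - Z) * S ≤ κ • T := by
    have := star_left_conjugate_le_conjugate hB1 S
    rwa [hSa, hSκ] at this
  have hB4 : -(κ • T) ≤ S * (L - Z) * S := by
    have := star_left_conjugate_le_conjugate hB2 S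
    rwa [hSa, mul_neg, neg_mul, hSκ] at this
  have cf : ContinuousOn (flog m) (spectrum ℝ T) := by
    unfold flog
    refine continuousOn_finsetSum _ fun k _ => ContinuousOn.div (by fun_prop) (by fun_prop) ?_
    intro s hs
    have := hsp s hs
    positivity
  have hSLS : S * L * S = cfc (fun s => s * flog m s) T := by
    have : S * L = L * S := cfc_commute_cfc _ _ T
    rw [this, mul_assoc, hSS, cfc_mul _ _ T (by fun_prop) cf, cfc_id' ℝ T]
    exact (Commute.cfc_real (Commute.refl T) _).eq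
  have hF : ∀ c : ℝ, T - t • (S * L * S) + c • T =
      cfc (fun s => s - t * (s * flog m s) + c * s) T := fun c => by
    have c2 : ContinuousOn (fun s => s * flog m s) (spectrum ℝ T) := continuousOn_id.mul cf
    have c3 : ContinuousOn (fun s => t * (s * flog m s)) (spectrum ℝ T) :=
      continuousOn_const.mul c2
    have c4 : ContinuousOn (fun s => s - t * (s * flog m s)) (spectrum ℝ T) :=
      continuousOn_id.sub c3
    rw [cfc_add T _ _ c4 (by fun_prop),
      cfc_sub _ _ T (by fun_prop) c3, cfc_const_mul _ _ T c2,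
      cfc_const_mul _ _ T, cfc_id' ℝ T, hSLS]
  have cF : ∀ c : ℝ, ContinuousOn (fun s => s - t * (s * flog m s) + c * s) (spectrum ℝ T) :=
    fun c => (continuousOn_id.sub (continuousOn_const.mul (continuousOn_id.mul cf))).add
      (by fun_prop)
  set β := 1 - 4 * t - t * κ with hβ
  set α := 1 - t * m / 2 + t * κ with hα
  have hm0 : (0 : ℝ) ≤ m := Nat.cast_nonneg m
  have htm' : t * m + t * κ + 4 * t ≤ 1 / 2 := by linarith
  have htm0 : 0 ≤ t * m := by positivity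
  have htκ0 : 0 ≤ t * κ := by positivity
  have hβ0 : 0 < β := by linarith
  set T₁ := S * (1 - t • Z) * S with hT₁
  have hT₁e : T₁ = T - t • (S * L * S) + t • (S * (L - Z) * S) := by
    rw [hT₁, ← hSS]
    simp only [mul_sub, sub_mul, mul_one, mul_smul_comm, smul_mul_assoc, smul_sub]
    abel
  have up : T₁ ≤ algebraMap ℝ _ (r * α) := by
    have : T₁ ≤ T - t • (S * L * S) + (t * κ) • T := by
      rw [hT₁e, mul_smul]
      exact add_le_add_right (smul_le_smul_of_nonneg_left hB3 ht.le) _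
    refine this.trans ?_
    rw [hF]
    refine cfc_le_algebraMap _ _ _ (fun s hs => ?_) (cF _)
    have s1 := hsp s hs
    have s2 := hsp2 s hs
    have hf0 := flog_nonneg m (show 0 ≤ s by linarith)
    rcases le_total (2 ^ m) s with h | h
    · have hf := le_flog m h
      have : s * (1 - t * flog m s + t * κ) ≤ r * α :=
        (mul_le_mul_of_nonneg_left (show _ ≤ α by nlinarith) (by linarith)).trans
          (mul_le_mul_of_nonneg_right s2 (by linarith))
      linarith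
    · rw [pow_succ] at hrm
      have h3 : s ≤ r / 2 := by linarith
      have h4 : s * (1 + t * κ) ≤ r / 2 * (1 + t * κ) :=
        mul_le_mul_of_nonneg_right h3 (by linarith)
      have h5 : r / 2 * (1 + t * κ) ≤ r * α := by
        have : (1 + t * κ) / 2 ≤ α := by linarith
        have := mul_le_mul_of_nonneg_left this (show 0 ≤ r by linarith)
        linarith
      have h6 : 0 ≤ t * (s * flog m s) := by positivity
      linarith
  have low : algebraMap ℝ _ β ≤ T₁ := by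
    have : T - t • (S * L * S) + (-(t * κ)) • T ≤ T₁ := by
      rw [hT₁e, neg_smul, mul_smul, ← smul_neg]
      exact add_le_add_right (smul_le_smul_of_nonneg_left hB4 ht.le) _
    refine le_trans ?_ this
    rw [hF]
    refine algebraMap_le_cfc _ _ _ (fun s hs => ?_) (cF _)
    have s1 := hsp s hs
    rcases le_total s 2 with h | h
    · have hf := flog_le m (show 0 ≤ s by linarith)
      have : β ≤ s * (1 - t * flog m s - t * κ) :=
        (le_mul_of_one_le_left hβ0.le s1).trans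
          (mul_le_mul_of_nonneg_left (show β ≤ _ by nlinarith) (by linarith))
      linarith
    · have hf := flog_le_m m (show 0 ≤ s by linarith)
      have h2 : 1 / 2 ≤ 1 - t * flog m s - t * κ := by nlinarith
      have : 2 * (1 / 2) ≤ s * (1 - t * flog m s - t * κ) :=
        mul_le_mul h h2 (by norm_num) (by linarith)
      linarith
  refine ⟨β⁻¹ • T₁, fun a => ?_, ?_, ?_⟩
  · rw [smul_mul_assoc, mul_smul_comm]
    congr 1
    have e1 : star (π a) * S = S * ρ (star a) := by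
      rw [hρa, ← mul_assoc, ← mul_assoc, hSS, hI a, ← hSS, mul_assoc, mul_assoc, hS1, mul_one]
    have e2 : (1 - t • Z) * ρ (star a) = ρ (star a) * (1 - t • Z) := by
      rw [sub_mul, mul_sub, smul_mul_assoc, mul_smul_comm, hZc, one_mul, mul_one]
    rw [hT₁, mul_assoc, hρS, ← mul_assoc, mul_assoc S, e2, ← mul_assoc S, ← e1]
    simp only [mul_assoc]
  · have := smul_le_smul_of_nonneg_left low (inv_pos.2 hβ0).le
    rwa [Algebra.algebraMap_eq_smul_one, smul_smul, inv_mul_cancel₀ hβ0.ne', one_smul] at this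
  · have := smul_le_smul_of_nonneg_left up (inv_pos.2 hβ0).le
    rw [Algebra.algebraMap_eq_smul_one, smul_smul] at this
    rw [Algebra.algebraMap_eq_smul_one]
    convert this using 2
    ring

theorem k2 (C : ℝ) (hC : 0 ≤ C) (K : ℝ) (hK : 0 ≤ K) :
    ∃ R : ℝ, 0 ≤ R ∧ ∀ {A : Type*} [CStarAlgebra A] {H : Type u} [NormedAddCommGroup H]
      [InnerProductSpace ℂ H] [CompleteSpace H] (_ : ∀ P : VonNeumannAlgebra H, CBBound C P)
      (π : A →ₐ[ℂ] (H →L[ℂ] H)) (_ : ∀ a, ‖π a‖ ≤ K * ‖a‖),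
      (∃ T : H →L[ℂ] H, Inv π T ∧ 1 ≤ T) →
      ∃ T : H →L[ℂ] H, Inv π T ∧ 1 ≤ T ∧ T ≤ algebraMap ℝ _ R := by
  set κ := C * (64 * K ^ 4) with hκ
  have hκ0 : 0 ≤ κ := by positivity
  obtain ⟨m, hm⟩ := exists_nat_gt (4 * κ + 8)
  refine ⟨2 ^ (m + 1), by positivity, ?_⟩
  intro A _ H _ _ _ hcb π hπ ⟨T₀, hI₀, h1₀⟩
  have hm0 : (0 : ℝ) ≤ m := Nat.cast_nonneg m
  set t : ℝ := 1 / (2 * (m + κ + 4)) with ht
  have ht0 : 0 < t := by positivity
  have htm : t * (m + κ + 4) ≤ 1 / 2 := by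
    rw [ht]; apply le_of_eq; field_simp
  set θ := (1 - t * m / 2 + t * κ) / (1 - 4 * t - t * κ) with hθ
  have htm0 : 0 ≤ t * m := by positivity
  have htκ0 : 0 ≤ t * κ := by positivity
  have hβ0 : 0 < 1 - 4 * t - t * κ := by linarith
  have hθ0 : 0 < θ := div_pos (by linarith) hβ0
  have hθ1 : θ < 1 := by
    rw [hθ, div_lt_one hβ0]
    have := mul_lt_mul_of_pos_left hm ht0
    linarith
  by_contra hcon
  let 𝓡 : Set ℝ := {r | ∃ T : H →L[ℂ] H, Inv π T ∧ 1 ≤ T ∧ T ≤ algebraMap ℝ _ r}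
  have hne : 𝓡.Nonempty :=
    ⟨‖T₀‖, T₀, hI₀, h1₀, (zero_le_one.trans h1₀).isSelfAdjoint.le_algebraMap_norm_self⟩
  have hlb : ∀ r ∈ 𝓡, (2 : ℝ) ^ (m + 1) ≤ r := by
    rintro r ⟨T, h1, h2, h3⟩
    by_contra hlt
    refine hcon ⟨T, h1, h2, h3.trans ?_⟩
    rw [Algebra.algebraMap_eq_smul_one, Algebra.algebraMap_eq_smul_one]
    exact smul_le_smul_of_nonneg_right (not_le.1 hlt).le zero_le_one
  have hinf : 0 < sInf 𝓡 := lt_of_lt_of_le (by positivity) (le_csInf hne hlb)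
  have hlt : sInf 𝓡 < sInf 𝓡 / θ := by
    rw [lt_div_iff₀ hθ0]; nlinarith
  obtain ⟨r, ⟨T, h1, h2, h3⟩, hr⟩ := exists_lt_of_csInf_lt hne hlt
  have := k2_step C hC hcb π K hK hπ m t ht0 htm T h1 h2 r h3 (hlb r ⟨T, h1, h2, h3⟩)
  have h4 := csInf_le ⟨_, hlb⟩ (show r * θ ∈ 𝓡 from this)
  rw [lt_div_iff₀ hθ0] at hr
  linarith

end Crest.Agent.H7.Kad
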