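import Mathlib
import Crest.Agent.H7.KadK2

/-! Finitely cyclic case, the limit, and the reduction of the similarity problem. -/

set_option autoImplicit false

namespace Crest.Agent.H7.Kad

open scoped InnerProductSpace ComplexConjugate
open Finset Filter Topology

universe u

variable {A : Type*} [CStarAlgebra A]
variable {H : Type u} [NormedAddCommGroup H] [InnerProductSpace ℂ H] [CompleteSpace H]

lemma one_le_of_form {E : Type*} [AddCommGroup E] [Module ℂ E] (e : E →ₗ[ℂ] H)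
    (he : DenseRange e) (T : H →L[ℂ] H)
    (hs : ∀ a b, ⟪e b, T (e a)⟫_ℂ = conj ⟪e a, T (e b)⟫_ℂ)
    (hl : ∀ a, ‖e a‖ ^ 2 ≤ (⟪e a, T (e a)⟫_ℂ).re) : 1 ≤ T := by
  have hsa : IsSelfAdjoint T := by
    rw [ContinuousLinearMap.isSelfAdjoint_iff_isSymmetric]
    intro z w
    refine he.induction_on₂ (p := fun z w => ⟪T z, w⟫_ℂ = ⟪z, T w⟫_ℂ)
      (isClosed_eq (by fun_prop) (by fun_prop)) (fun a b => ?_) z w
    rw [hs b a, inner_conj_symm]
  rw [← sub_nonneg, ContinuousLinearMap.nonneg_iff_isPositive, ContinuousLinearMap.isPositive_def']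
  refine ⟨hsa.sub (IsSelfAdjoint.one _), fun z => ?_⟩
  rw [ContinuousLinearMap.reApplyInnerSelf_apply, inner_re_symm]
  refine he.induction_on (p := fun z => 0 ≤ RCLike.re ⟪z, (T - 1) z⟫_ℂ) z
    (isClosed_le (by fun_prop) (by fun_prop)) fun a => ?_
  rw [sub_apply, inner_sub_right, map_sub, one_apply_eq_self, inner_self_eq_norm_sq, sub_nonneg]
  exact hl a

section MatHom
variable {ι : Type} [Fintype ι] [DecidableEq ι] [PartialOrder A] [StarOrderedRing A]

/-- amplification of a homomorphism -/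
noncomputable def matHom (π : A →ₐ[ℂ] (H →L[ℂ] H)) :
    CStarMatrix ι ι A →ₐ[ℂ] (Pw ι H →L[ℂ] Pw ι H) where
  toFun X := mat fun i j => π (X i j)
  map_one' := by
    ext v i
    rw [mat_apply, Finset.sum_eq_single i]
    · simp
    · intro j _ hj; simp [Ne.symm hj]
    · simp
  map_mul' X Y := by
    ext v i
    simp only [mul_apply_eq_comp, mat_apply, CStarMatrix.mul_apply, map_sum, map_mul,
      _root_.sum_apply]
    exact Finset.sum_comm
  map_zero' := by ext v i; simp [mat_apply]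
  map_add' X Y := by ext v i; simp [mat_apply, Finset.sum_add_distrib]
  commutes' c := by
    ext v i
    rw [mat_apply, Finset.sum_eq_single i]
    · simp [CStarMatrix.algebraMap_apply, Algebra.algebraMap_eq_smul_one]
    · intro j _ hj; simp [CStarMatrix.algebraMap_apply, Ne.symm hj]
    · simp

lemma matHom_apply (π : A →ₐ[ℂ] (H →L[ℂ] H)) (X : CStarMatrix ι ι A) (v : Pw ι H) (i : ι) :
    matHom π X v i = ∑ j, π (X i j) (v j) := mat_apply _ _ _

lemma matHom_bound (π : A →ₐ[ℂ] (H →L[ℂ] H)) (K : ℝ) (hK : 0 ≤ K) (hπ : ∀ a, ‖π a‖ ≤ K * ‖a‖)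
    (X : CStarMatrix ι ι A) :
    ‖matHom π X‖ ≤ (Fintype.card ι * (Fintype.card ι * K)) * ‖X‖ := by
  refine (norm_mat_le _).trans ?_
  have : ∀ i j, ‖π (X i j)‖ ≤ K * ‖X‖ := fun i j =>
    (hπ _).trans (mul_le_mul_of_nonneg_left CStarMatrix.norm_entry_le_norm hK)
  refine (Finset.sum_le_sum fun i _ => Finset.sum_le_sum fun j _ => this i j).trans ?_
  simp only [Finset.sum_const, Finset.card_univ, nsmul_eq_mul]
  exact le_of_eq (by ring)

/-- a positive invariant form for finitely many vectors -/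
theorem fin_form (π : A →ₐ[ℂ] (H →L[ℂ] H)) (K : ℝ) (hK : 0 ≤ K) (hπ : ∀ a, ‖π a‖ ≤ K * ‖a‖)
    (i₀ : ι) (ξ : ι → H) :
    ∃ (B : (ι → A) →ₗ⋆[ℂ] (ι → A) →ₗ[ℂ] ℂ) (C : ℝ), 0 ≤ C ∧ (∀ x y, B y x = conj (B x y)) ∧
      (∀ x, ‖∑ i, π (x i) (ξ i)‖ ^ 2 ≤ (B x x).re) ∧
      (∀ x, (B x x).re ≤ C * ‖∑ i, π (x i) (ξ i)‖ ^ 2) ∧
      ∀ c x y, B x (fun i => star c * y i) = B (fun i => c * x i) y := by
  obtain ⟨Ψ, h1, h2, h3⟩ := k1 (matHom (ι := ι) π) _ (by positivity) (matHom_bound π K hK hπ)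
    (WithLp.toLp 2 ξ)
  let G : (ι → A) → (ι → A) → CStarMatrix ι ι A := fun x y =>
    CStarMatrix.ofMatrix (Matrix.of fun i j => star (x i) * y j)
  have hG : ∀ x y i j, G x y i j = star (x i) * y j := fun x y i j => rfl
  let row : (ι → A) → CStarMatrix ι ι A := fun x =>
    CStarMatrix.ofMatrix (Matrix.of fun i j => if i = i₀ then x j else 0)
  have hrow : ∀ x i j, row x i j = if i = i₀ then x j else 0 := fun x i j => rfl
  have e1 : ∀ x, star (row x) * row x = G x x := fun x => by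
    ext i j
    rw [CStarMatrix.mul_apply, Finset.sum_eq_single i₀]
    · simp [CStarMatrix.star_apply, hrow, hG]
    · intro k _ hk; simp [hrow, hk]
    · simp
  have e2 : ∀ x, ‖matHom π (row x) (WithLp.toLp 2 ξ)‖ = ‖∑ i, π (x i) (ξ i)‖ := fun x => by
    rw [← norm_inj i₀ (∑ i, π (x i) (ξ i))]
    congr 1
    ext i
    rw [matHom_apply, inj_apply]
    by_cases h : i = i₀ <;> simp [hrow, h]
  refine ⟨LinearMap.mk₂'ₛₗ (starRingEnd ℂ) (RingHom.id ℂ) (fun x y => Ψ (G x y))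
    (fun x x' y => ?_) (fun c x y => ?_) (fun x y y' => ?_) (fun c x y => ?_),
    16 * (Fintype.card ι * (Fintype.card ι * K)) ^ 8, by positivity,
    fun x y => ?_, fun x => ?_, fun x => ?_, fun c x y => ?_⟩
  · rw [← map_add]; congr 1; ext i j; simp [hG, add_mul]
  · rw [← map_smul]; congr 1; ext i j; simp [hG]
  · rw [← map_add]; congr 1; ext i j; simp [hG, mul_add]
  · rw [← map_smul]; congr 1; ext i j; simp [hG]
  · change Ψ (G y x) = conj (Ψ (G x y))
    rw [← h1]; congr 1; ext i j; simp [hG, CStarMatrix.star_apply]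
  · change _ ≤ (Ψ (G x x)).re
    rw [← e1, ← e2]; exact h2 _
  · change (Ψ (G x x)).re ≤ _
    rw [← e1, ← e2]; exact h3 _
  · change Ψ (G x _) = Ψ (G _ y)
    congr 1; ext i j; simp [hG, mul_assoc]

end MatHom

/-- restriction to an invariant subspace -/
noncomputable def resHom (π : A →ₐ[ℂ] (H →L[ℂ] H)) (M : Submodule ℂ H)
    (hM : ∀ a, ∀ z ∈ M, π a z ∈ M) : A →ₐ[ℂ] (M →L[ℂ] M) where
  toFun a := (π a).restrict (hM a)
  map_one' := by ext z; simp
  map_mul' a b := by ext z; simp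
  map_zero' := by ext z; simp
  map_add' a b := by ext z; simp
  commutes' c := by ext z; simp [Algebra.algebraMap_eq_smul_one]

omit [CompleteSpace H] in
lemma resHom_apply (π : A →ₐ[ℂ] (H →L[ℂ] H)) (M : Submodule ℂ H)
    (hM : ∀ a, ∀ z ∈ M, π a z ∈ M) (a : A) (z : M) : (resHom π M hM a z : H) = π a z := rfl

theorem fin_op (π : A →ₐ[ℂ] (H →L[ℂ] H)) (K : ℝ) (hK : 0 ≤ K) (hπ : ∀ a, ‖π a‖ ≤ K * ‖a‖)
    (R : ℝ) (hR0 : 0 ≤ R)
    (hR : ∀ (M : Submodule ℂ H) [CompleteSpace M] (σ : A →ₐ[ℂ] (M →L[ℂ] M)),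
      (∀ a, ‖σ a‖ ≤ K * ‖a‖) → (∃ T : M →L[ℂ] M, Inv σ T ∧ 1 ≤ T) →
      ∃ T : M →L[ℂ] M, Inv σ T ∧ 1 ≤ T ∧ T ≤ algebraMap ℝ _ R) (F : Finset H) :
    ∃ T : H →L[ℂ] H, ‖T‖ ≤ R ∧ (∀ z w, ⟪w, T z⟫_ℂ = conj ⟪z, T w⟫_ℂ) ∧
      (∀ z ∈ F, ‖z‖ ^ 2 ≤ (⟪z, T z⟫_ℂ).re) ∧
      ∀ z ∈ F, ∀ w ∈ F, ∀ a, ⟪w, T (π (star a) z)⟫_ℂ = ⟪π a w, T z⟫_ℂ := by
  classical
  letI := CStarAlgebra.spectralOrder A
  letI := CStarAlgebra.spectralOrderedRing A
  let ξ : Option (Fin F.card) → H := fun o => o.elim 0 fun k => (F.equivFin.symm k : H)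
  obtain ⟨B, C, hC, hB1, hB2, hB3, hB4⟩ := fin_form π K hK hπ none ξ
  let e : (Option (Fin F.card) → A) →ₗ[ℂ] H :=
    { toFun := fun x => ∑ i, π (x i) (ξ i)
      map_add' := fun x y => by simp [Finset.sum_add_distrib]
      map_smul' := fun c x => by simp [Finset.smul_sum] }
  have he : ∀ x, e x = ∑ i, π (x i) (ξ i) := fun x => rfl
  have hec : ∀ c x, π c (e x) = e fun i => c * x i := fun c x => by simp [he]
  set M := (LinearMap.range e).topologicalClosure with hM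
  have hMinv : ∀ a, ∀ z ∈ M, π a z ∈ M := fun a z hz => by
    refine closure_minimal (s := (LinearMap.range e : Set H)) (t := {z | π a z ∈ M}) ?_ ?_ hz
    · rintro _ ⟨x, rfl⟩
      exact Submodule.le_topologicalClosure _ ⟨_, (hec a x).symm⟩
    · exact (Submodule.isClosed_topologicalClosure _).preimage (π a).continuous
  have hF : ∀ z ∈ F, z ∈ M := fun z hz => by
    refine Submodule.le_topologicalClosure _ ⟨Pi.single (some (F.equivFin ⟨z, hz⟩)) 1, ?_⟩
    rw [he, Finset.sum_eq_single (some (F.equivFin ⟨z, hz⟩))]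
    · simp [ξ]
    · intro j _ hj; simp [hj]
    · simp
  let e' : (Option (Fin F.card) → A) →ₗ[ℂ] M := e.codRestrict M fun a =>
    Submodule.le_topologicalClosure _ (LinearMap.mem_range_self e a)
  have he' : DenseRange e' := by
    rw [DenseRange, Subtype.dense_iff]
    intro z hz
    refine closure_mono ?_ (show z ∈ closure (LinearMap.range e : Set H) from hz)
    rintro _ ⟨a, rfl⟩
    exact ⟨e' a, ⟨a, rfl⟩, rfl⟩
  have hn : ∀ x, ‖e' x‖ = ‖∑ i, π (x i) (ξ i)‖ := fun x => rfl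
  obtain ⟨T₀, -, hT₀⟩ := form_dense e' he' B C hC (form_norm_le e' B C hC fun a b => by
    have h1 := (sq_nonneg _).trans (hB2 (a - b))
    simp only [map_sub, LinearMap.sub_apply, Complex.sub_re] at h1
    rw [hB1 a b, Complex.conj_re] at h1
    have h2 := hB3 a
    have h3 := hB3 b
    rw [hn, hn]
    linarith)
  set σ := resHom π M hMinv with hσ
  have hσe : ∀ c x, σ c (e' x) = e' fun i => c * x i := fun c x => Subtype.ext (hec c x)
  obtain ⟨T, hT1, hT2, hT3⟩ := hR M σ (fun a => by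
      refine ContinuousLinearMap.opNorm_le_bound _ (by positivity) fun z => ?_
      exact ((π a).le_opNorm z).trans (mul_le_mul_of_nonneg_right (hπ a) (norm_nonneg _)))
    ⟨T₀, fun c => by
      refine ContinuousLinearMap.ext fun z => ext_inner_left ℂ fun w => ?_
      rw [mul_apply_eq_comp, mul_apply_eq_comp, ContinuousLinearMap.star_eq_adjoint,
        ContinuousLinearMap.adjoint_inner_right]
      refine he'.induction_on₂ (p := fun w z => ⟪w, T₀ (σ (star c) z)⟫_ℂ = ⟪σ c w, T₀ z⟫_ℂ)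
        (isClosed_eq (by fun_prop) (by fun_prop)) (fun x y => ?_) w z
      rw [hσe, hσe, hT₀, hT₀, hB4],
      one_le_of_form e' he' T₀ (fun a b => by rw [hT₀, hT₀, hB1])
        (fun a => by rw [hT₀, hn]; exact hB2 a)⟩
  have hT0 : 0 ≤ T := zero_le_one.trans hT2
  have hTn : ‖T‖ ≤ R := (CStarAlgebra.norm_le_iff_le_algebraMap T hR0 hT0).2 hT3
  have hin : ∀ z w, ⟪w, (M.subtypeL ∘L T ∘L M.orthogonalProjectionOnto) z⟫_ℂ =
      ⟪M.orthogonalProjectionOnto w, T (M.orthogonalProjectionOnto z)⟫_ℂ := fun z w => by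
    rw [Submodule.inner_orthogonalProjectionOnto_eq_of_mem_right]; rfl
  have hP : ∀ z (hz : z ∈ M), M.orthogonalProjectionOnto z = ⟨z, hz⟩ := fun z hz =>
    Subtype.ext (Submodule.starProjection_eq_self_iff.2 hz)
  refine ⟨M.subtypeL ∘L T ∘L M.orthogonalProjectionOnto, ?_, fun z w => ?_, fun z hz => ?_,
    fun z hz w hw a => ?_⟩
  · refine ContinuousLinearMap.opNorm_le_bound _ hR0 fun z => ?_
    change ‖T (M.orthogonalProjectionOnto z)‖ ≤ _
    refine (T.le_opNorm _).trans (mul_le_mul hTn ?_ (norm_nonneg _) hR0)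
    exact M.norm_starProjection_apply_le z
  · rw [hin, hin, inner_conj_symm]
    exact (hT0.isSelfAdjoint.isSymmetric _ _).symm
  · rw [hin, hP z (hF z hz)]
    have := ((ContinuousLinearMap.le_def _ _).1 hT2).re_inner_nonneg_right ⟨z, hF z hz⟩
    rw [sub_apply, inner_sub_right, map_sub, one_apply_eq_self, inner_self_eq_norm_sq,
      sub_nonneg] at this
    exact this
  · rw [hin, hin, hP z (hF z hz), hP w (hF w hw), hP _ (hMinv _ _ (hF z hz)),
      hP _ (hMinv _ _ (hF w hw))]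
    have := congrArg (fun X : M →L[ℂ] M => ⟪(⟨w, hF w hw⟩ : M), X ⟨z, hF z hz⟩⟫_ℂ) (hT1 a)
    simp only [mul_apply_eq_comp, ContinuousLinearMap.star_eq_adjoint,
      ContinuousLinearMap.adjoint_inner_right] at this
    exact this

/-- weak limits along ultrafilters -/
theorem exists_wot_lim {J : Type*} (U : Ultrafilter J) (T : J → H →L[ℂ] H) (R : ℝ) (hR : 0 ≤ R)
    (hT : ∀ j, ‖T j‖ ≤ R) :
    ∃ T' : H →L[ℂ] H, ‖T'‖ ≤ R ∧
      ∀ z w, Tendsto (fun j => ⟪w, T j z⟫_ℂ) U (𝓝 ⟪w, T' z⟫_ℂ) := by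
  have hb : ∀ w z j, ‖⟪w, T j z⟫_ℂ‖ ≤ R * ‖w‖ * ‖z‖ := fun w z j => by
    refine (norm_inner_le_norm _ _).trans ?_
    have := mul_le_mul_of_nonneg_left (((T j).le_opNorm z).trans
      (mul_le_mul_of_nonneg_right (hT j) (norm_nonneg z))) (norm_nonneg w)
    linarith
  have hex : ∀ w z, ∃ c : ℂ, Tendsto (fun j => ⟪w, T j z⟫_ℂ) U (𝓝 c) := fun w z => by
    obtain ⟨c, -, hc⟩ := (isCompact_closedBall (0 : ℂ) (R * ‖w‖ * ‖z‖)).ultrafilter_le_nhds
      (U.map fun j => ⟪w, T j z⟫_ℂ) (by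
        rw [le_principal_iff, Ultrafilter.coe_map, Filter.mem_map]
        exact univ_mem' fun j => by simpa using hb w z j)
    exact ⟨c, hc⟩
  choose β hβ using hex
  let B : H →ₗ⋆[ℂ] H →ₗ[ℂ] ℂ := LinearMap.mk₂'ₛₗ (starRingEnd ℂ) (RingHom.id ℂ) β
    (fun a a' b => tendsto_nhds_unique (hβ _ _) (by
      simpa only [inner_add_left] using (hβ a b).add (hβ a' b)))
    (fun c a b => tendsto_nhds_unique (hβ _ _) (by
      simpa only [inner_smul_left, smul_eq_mul] using (hβ a b).const_mul (conj c)))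
    (fun a b b' => tendsto_nhds_unique (hβ _ _) (by
      simpa only [map_add, inner_add_right] using (hβ a b).add (hβ a b')))
    (fun c a b => tendsto_nhds_unique (hβ _ _) (by
      simpa only [map_smul, inner_smul_right, smul_eq_mul, RingHom.id_apply] using (hβ a b).const_mul c))
  obtain ⟨T', h1, h2⟩ := form_dense (LinearMap.id : H →ₗ[ℂ] H) denseRange_id B R hR
    fun a b => le_of_tendsto' (hβ a b).norm (hb a b)
  refine ⟨T', h1, fun z w => ?_⟩
  have : ⟪w, T' z⟫_ℂ = β w z := h2 w z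
  rw [this]
  exact hβ w z

lemma CBBound.max {C : ℝ} {P : VonNeumannAlgebra H} (h : CBBound C P) : CBBound (max C 0) P := by
  intro Y g hg n hn Yh X x h1 h2 h3
  rcases le_or_gt 0 g with hg0 | hg0
  · exact (h Y g hg n hn Yh X x h1 h2 h3).trans
      (mul_le_mul_of_nonneg_right (mul_le_mul_of_nonneg_right (le_max_left _ _) hg0) (norm_nonneg _))
  · have h4 := hg 1 (one_mem P)
    rw [mul_one, one_mul, sub_self, norm_zero] at h4
    have h5 : (1 : H →L[ℂ] H) = 0 := norm_eq_zero.1 (by nlinarith [norm_nonneg (1 : H →L[ℂ] H)])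
    have h6 : X = 0 := by
      ext v i
      have : ∀ z : H, z = 0 := fun z => by simpa using congrArg (fun T : H →L[ℂ] H => T z) h5
      rw [this (X v i), this ((0 : Pw (Fin n) H →L[ℂ] Pw (Fin n) H) v i)]
    simp [h6]

theorem kadison_of_cb (hcb : CBAll.{u}) (π : A →ₐ[ℂ] (H →L[ℂ] H))
    (hπ : ∃ K : ℝ, ∀ a : A, ‖π a‖ ≤ K * ‖a‖) :
    ∃ S : (H →L[ℂ] H)ˣ, ∀ a : A,
      star ((S : H →L[ℂ] H) * π a * (↑S⁻¹ : H →L[ℂ] H)) =
        (S : H →L[ℂ] H) * π (star a) * (↑S⁻¹ : H →L[ℂ] H) := by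
  classical
  obtain ⟨C, hC⟩ := hcb
  obtain ⟨K₀, hK₀⟩ := hπ
  have hπ : ∀ a, ‖π a‖ ≤ max K₀ 0 * ‖a‖ := fun a =>
    (hK₀ a).trans (mul_le_mul_of_nonneg_right (le_max_left _ _) (norm_nonneg _))
  obtain ⟨R, hR0, hR⟩ := k2.{u} (max C 0) (le_max_right _ _) (max K₀ 0) (le_max_right _ _)
  choose T hT1 hT2 hT3 hT4 using fin_op π _ (le_max_right _ _) hπ R hR0
    fun M _ σ h1 h2 => hR (fun P => (hC M P).max) σ h1 h2
  let U : Ultrafilter (Finset H) := Ultrafilter.of atTop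
  have hU : ∀ z : H, ∀ᶠ F in (U : Filter (Finset H)), z ∈ F := fun z =>
    Ultrafilter.of_le _ ((eventually_ge_atTop {z}).mono fun F hF => by simpa using hF)
  obtain ⟨T', -, hT'⟩ := exists_wot_lim U T R hR0 hT1
  have h1 : 1 ≤ T' := one_le_of_form LinearMap.id denseRange_id T'
    (fun z w => tendsto_nhds_unique (hT' z w) (by
      simp only [hT2 _ z w]
      exact (Complex.continuous_conj.tendsto _).comp (hT' w z)))
    (fun z => ge_of_tendsto ((Complex.continuous_re.tendsto _).comp (hT' z z))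
      ((hU z).mono fun F hF => hT3 F z hF))
  have hI : Inv π T' := fun a => by
    refine ContinuousLinearMap.ext fun z => ext_inner_left ℂ fun w => ?_
    rw [mul_apply_eq_comp, mul_apply_eq_comp, ContinuousLinearMap.star_eq_adjoint,
      ContinuousLinearMap.adjoint_inner_right]
    refine tendsto_nhds_unique (hT' _ _) ((hT' z (π a w)).congr' ?_)
    exact ((hU z).and (hU w)).mono fun F hF => (hT4 F z hF.1 w hF.2 a).symm
  obtain ⟨hSS, hS1, hS2⟩ := exists_sqrt_T h1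
  have hSa : star (cfc (fun s : ℝ => √s) T') = _ := (cfc_predicate _ T' : IsSelfAdjoint _).star_eq
  have hSa' : star (cfc (fun s : ℝ => (√s)⁻¹) T') = _ :=
    (cfc_predicate _ T' : IsSelfAdjoint _).star_eq
  refine ⟨⟨_, _, hS1, hS2⟩, fun a => ?_⟩
  exact (map_star (conjHom π _ _ hSa hSa' hS1 hS2 (by rw [hSS]; exact hI)) a).symm

end Crest.Agent.H7.Kad
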