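import Crest.Agent.H7.BCI
import Crest.Prelude.Def_GorProjVanishing

/-! Row 186: symmetric algebras are self-injective; finite modules are Gorenstein projective. -/

set_option autoImplicit false

universe u v w

noncomputable section
namespace Crest.Agent.H7.BC
open CategoryTheory Crest.AlgebraR

variable {F : Type v} [Field F] {R : Type u} [Ring R] [Algebra F R]

lemma tower (F : Type v) [Field F] (R : Type u) [Ring R] [Algebra F R] (X : Type w)
    [AddCommGroup X] [Module R X] :
    letI := Module.compHom X (algebraMap F R); IsScalarTower F R X := by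
  letI := Module.compHom X (algebraMap F R)
  refine ⟨fun c r x => ?_⟩
  show (c • r) • x = algebraMap F R c • r • x
  rw [Algebra.smul_def, mul_smul]

/-- a linear form on a module gives a homomorphism to the symmetric algebra -/
lemma exists_hom (φ : R ≃ₗ[F] Module.Dual F R) (hφ : ∀ a x b y : R, φ (a * x * b) y = φ x (b * y * a))
    {Y : Type w} [AddCommGroup Y] [Module R Y] [Module F Y] [IsScalarTower F R Y] (μ : Y →ₗ[F] F) :
    ∃ h : Y →ₗ[R] R, ∀ y r, φ (h y) r = μ (r • y) := by
  let t : Y → Module.Dual F R := fun y => μ ∘ₗ (LinearMap.toSpanSingleton R Y y).restrictScalars F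
  have ht : ∀ y r, t y r = μ (r • y) := fun _ _ => rfl
  refine ⟨⟨⟨fun y => φ.symm (t y), fun a b => ?_⟩, fun a y => ?_⟩, fun y r => ?_⟩
  · rw [← map_add]; congr 1; ext r; simp [ht]
  · apply φ.injective
    ext r
    have := hφ a (φ.symm (t y)) 1 r
    simp only [mul_one, one_mul, LinearEquiv.apply_symm_apply] at this
    simp only [LinearEquiv.apply_symm_apply, RingHom.id_apply, smul_eq_mul, this, ht, mul_smul]
  · simp [ht]

lemma selfinj (h : IsSymmetricAlgebra F R) {X Y : Type w} [AddCommGroup X] [AddCommGroup Y]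
    [Module R X] [Module R Y] (f : X →ₗ[R] Y) (hf : Function.Injective f) (g : X →ₗ[R] R) :
    ∃ l : Y →ₗ[R] R, ∀ x, l (f x) = g x := by
  obtain ⟨φ, hφ⟩ := h
  letI := Module.compHom X (algebraMap F R)
  letI := Module.compHom Y (algebraMap F R)
  haveI := tower F R X
  haveI := tower F R Y
  obtain ⟨s, hs⟩ := (f.restrictScalars F).exists_leftInverse_of_injective
    (LinearMap.ker_eq_bot.2 hf)
  have hs' : ∀ x, s (f x) = x := fun x => LinearMap.congr_fun hs x
  obtain ⟨l, hl⟩ := exists_hom φ hφ (φ 1 ∘ₗ g.restrictScalars F ∘ₗ s)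
  refine ⟨l, fun x => φ.injective (LinearMap.ext fun r => ?_)⟩
  have := hφ (g x) 1 1 r
  simp only [mul_one, one_mul] at this
  rw [hl, ← map_smul, this]
  show φ 1 (g (s (f (r • x)))) = _
  rw [hs', map_smul, smul_eq_mul]

lemma embed [FiniteDimensional F R] (h : IsSymmetricAlgebra F R) (Y : Type w) [AddCommGroup Y]
    [Module R Y] [Module.Finite R Y] : ∃ (n : ℕ) (i : Y →ₗ[R] (Fin n → R)), Function.Injective i := by
  obtain ⟨φ, hφ⟩ := h
  letI := Module.compHom Y (algebraMap F R)
  haveI := tower F R Y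
  haveI : Module.Finite F Y := Module.Finite.trans R Y
  let b := Module.finBasis F Y
  choose l hl using fun j => exists_hom φ hφ (b.coord j)
  refine ⟨_, LinearMap.pi l, (injective_iff_map_eq_zero _).2 fun y hy => ?_⟩
  refine b.ext_elem fun j => ?_
  have := hl j y 1
  rw [show l j y = 0 from congrFun hy j, one_smul] at this
  simpa using this.symm

/-- finite modules -/
structure FM (R : Type u) [Ring R] where
  X : Type u
  [ab : AddCommGroup X]
  [md : Module R X]
  [fin : Module.Finite R X]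

attribute [instance] FM.ab FM.md FM.fin

/-- `0 → Y → R^n → X → 0` -/
structure Step (X Y : FM R) where
  n : ℕ
  i : Y.X →ₗ[R] (Fin n → R)
  p : (Fin n → R) →ₗ[R] X.X
  inj : Function.Injective i
  ex : Function.Exact i p
  surj : Function.Surjective p

lemma exists_syz [IsNoetherianRing R] (X : FM R) : ∃ Y, Nonempty (Step X Y) := by
  obtain ⟨n, p, hp⟩ := Module.Finite.exists_fin' R X.X
  exact ⟨⟨LinearMap.ker p⟩, ⟨n, (LinearMap.ker p).subtype, p, Subtype.val_injective,
    LinearMap.exact_subtype_ker_map p, hp⟩⟩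

lemma exists_cosyz [FiniteDimensional F R] (h : IsSymmetricAlgebra F R) (Y : FM R) :
    ∃ X, Nonempty (Step X Y) := by
  obtain ⟨n, i, hi⟩ := embed h Y.X
  exact ⟨⟨(Fin n → R) ⧸ LinearMap.range i⟩, ⟨n, i, (LinearMap.range i).mkQ, hi,
    LinearMap.exact_map_mkQ_range i, Submodule.mkQ_surjective _⟩⟩

lemma exists_nat [IsNoetherianRing R] (X : FM R) :
    ∃ Z : ℕ → FM R, Z 0 = X ∧ ∀ n, Nonempty (Step (Z n) (Z (n + 1))) := by
  choose s hs using exists_syz (R := R)
  exact ⟨fun n => Nat.rec X (fun _ Y => s Y) n, rfl, fun n => hs _⟩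

lemma exists_int [FiniteDimensional F R] (h : IsSymmetricAlgebra F R) (X : FM R) :
    ∃ Z : ℤ → FM R, Z 0 = X ∧ ∀ n, Nonempty (Step (Z n) (Z (n + 1))) := by
  haveI : IsNoetherianRing R := isNoetherian_of_tower F inferInstance
  choose s hs using exists_syz (R := R)
  choose c hc using exists_cosyz h
  let A : ℕ → FM R := fun n => Nat.rec X (fun _ Y => s Y) n
  let B : ℕ → FM R := fun n => Nat.rec X (fun _ Y => c Y) n
  refine ⟨fun n => Int.rec A (fun m => B (m + 1)) n, rfl, fun n => ?_⟩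
  rcases n with m | (_ | m)
  · exact hs (A m)
  · exact hc X
  · rw [show Int.negSucc (m + 1) + 1 = Int.negSucc m by omega]
    exact hc (B (m + 1))

lemma gproj [FiniteDimensional F R] (h : IsSymmetricAlgebra F R) (Z : Type u) [AddCommGroup Z]
    [Module R Z] [Module.Finite R Z] : IsGorensteinProjective R Z := by
  obtain ⟨Y, h0, hs⟩ := exists_int h (⟨Z⟩ : FM R)
  let s := fun n => (hs n).some
  have ex : ∀ n : ℤ, Function.Exact ((s (n + 1)).i ∘ₗ (s (n + 1 + 1)).p) ((s n).i ∘ₗ (s (n + 1)).p) := by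
    intro n x
    simp only [LinearMap.comp_apply, map_eq_zero_iff _ (s n).inj]
    rw [(s (n + 1)).ex x]
    constructor
    · rintro ⟨y, rfl⟩
      obtain ⟨z, rfl⟩ := (s (n + 1 + 1)).surj y
      exact ⟨z, rfl⟩
    · rintro ⟨z, rfl⟩
      exact ⟨_, rfl⟩
  refine ⟨fun n => Fin (s n).n → R, inferInstance, inferInstance,
    fun n => (s n).i ∘ₗ (s (n + 1)).p, fun n => ⟨inferInstance, inferInstance⟩, ex, fun n g => ?_, ?_⟩
  · constructor
    · intro hg
      have hk : LinearMap.ker (s (n + 1)).p ≤ LinearMap.ker g := by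
        intro x hx
        obtain ⟨y, rfl⟩ := ((s (n + 1)).ex x).1 hx
        obtain ⟨z, rfl⟩ := (s (n + 1 + 1)).surj y
        exact LinearMap.congr_fun hg z
      let g' := (LinearMap.ker (s (n + 1)).p).liftQ g hk ∘ₗ
        ((s (n + 1)).p.quotKerEquivOfSurjective (s (n + 1)).surj).symm.toLinearMap
      obtain ⟨l, hl⟩ := selfinj h (s n).i (s n).inj g'
      refine ⟨l, LinearMap.ext fun x => ?_⟩
      show l ((s n).i ((s (n + 1)).p x)) = g x
      rw [hl]
      simp [g']
    · rintro ⟨l, rfl⟩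
      refine LinearMap.ext fun x => ?_
      show l (((s n).i ∘ₗ (s (n + 1)).p) (((s (n + 1)).i ∘ₗ (s (n + 1 + 1)).p) x)) = 0
      rw [(ex n).apply_apply_eq_zero, map_zero]
  · have e1 : LinearMap.range ((s 0).i ∘ₗ (s (0 + 1)).p) = LinearMap.ker (s 0).p := by
      rw [LinearMap.range_comp_of_range_eq_top _ (LinearMap.range_eq_top.2 (s (0 + 1)).surj),
        (s 0).ex.linearMap_ker_eq]
    have e2 : Nonempty (Z ≃ₗ[R] (Y 0).X) := by rw [h0]; exact ⟨LinearEquiv.refl _ _⟩
    obtain ⟨e2⟩ := e2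
    exact ⟨e2 ≪≫ₗ ((s 0).p.quotKerEquivOfSurjective (s 0).surj).symm ≪≫ₗ
      Submodule.quotEquivOfEq _ _ e1.symm⟩

lemma jac_eq (π : R →ₐ[F] (Fin 8 → F)) (hs : Function.Surjective π)
    (hn : ∀ x, π x = 0 → IsNilpotent x) : Ring.jacobson R = RingHom.ker π := by
  apply le_antisymm
  · haveI : RingHomSurjective (π : R →+* (Fin 8 → F)) := ⟨hs⟩
    intro x hx
    have := Ring.le_comap_jacobson (π : R →+* (Fin 8 → F)) hx
    rw [IsSemisimpleRing.jacobson_eq_bot] at this
    exact this
  · intro x hx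
    rw [← Ideal.jacobson_bot, Ideal.mem_jacobson_iff]
    intro y
    have h1 : IsNilpotent (y * x) := hn _ (by rw [map_mul, show π x = 0 from hx, mul_zero])
    obtain ⟨z, hz⟩ := h1.isUnit_add_one.exists_left_inv
    exact ⟨z, by rw [Ideal.mem_bot, mul_assoc, ← hz, mul_add, mul_one, sub_self]⟩

theorem Core.gp {Z : Type u} [AddCommGroup Z] [Module R Z] (h : Core F R Z) :
    GorProjVanishingData F R Z := by
  haveI := h.fd
  haveI := h.fin
  obtain ⟨π, hs, hn, a, b, c, d, ha, hb, hc, hd, hne⟩ := h.pi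
  have hj := jac_eq π hs hn
  refine ⟨h.fd, ⟨(Ideal.quotientEquivAlgOfEq F hj).trans (Ideal.quotientKerAlgEquivOfSurjective hs)⟩,
    fun h0 => hne ?_, h.fin, h.nproj, gproj h.sym Z, h.ext, fun i hi => ?_⟩
  · have : a * b * c * d ∈ RingHom.ker π ^ 4 := by
      rw [Submodule.pow_succ, Submodule.pow_succ, Submodule.pow_succ, Submodule.pow_one]
      exact Ideal.mul_mem_mul (Ideal.mul_mem_mul (Ideal.mul_mem_mul ha hb) hc) hd
    rwa [← hj, h0, Ideal.mem_bot] at this
  · haveI : Module.Injective R R := ⟨fun X Y _ _ _ _ f hf g => selfinj h.sym f hf g⟩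
    haveI := Module.injective_object_of_injective_module R R
    obtain ⟨i, rfl⟩ : ∃ j, i = j + 1 := ⟨i - 1, by omega⟩
    exact ⟨fun x y => by rw [x.eq_zero_of_injective, y.eq_zero_of_injective]⟩

end Crest.Agent.H7.BC
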