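import Crest.Agent.H7.BCA

/-! Row 186: vanishing of `Ext` along a chain of syzygies. -/

set_option autoImplicit false

universe u

noncomputable section
namespace Crest.Agent.H7.BC
open CategoryTheory CategoryTheory.Abelian

variable {R : Type u} [Ring R] {X Y : FM R}

def Van (X N : FM R) (i : ℕ) : Prop :=
  ∀ e : Ext.{u} (ModuleCat.of R X.X) (ModuleCat.of R N.X) i, e = 0

def Step.Extd (s : Step X Y) (N : FM R) : Prop :=
  ∀ φ : Y.X →ₗ[R] N.X, ∃ ψ : (Fin s.n → R) →ₗ[R] N.X, ∀ y, ψ (s.i y) = φ y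

abbrev Step.cx (s : Step X Y) : ShortComplex (ModuleCat.{u} R) :=
  ShortComplex.mk (ModuleCat.ofHom s.i) (ModuleCat.ofHom s.p) (by
    ext x
    exact s.ex.apply_apply_eq_zero x)

lemma Step.se (s : Step X Y) : s.cx.ShortExact where
  exact := (ShortComplex.ShortExact.moduleCat_exact_iff_function_exact _).2 s.ex
  mono_f := (ModuleCat.mono_iff_injective _).2 s.inj
  epi_g := (ModuleCat.epi_iff_surjective _).2 s.surj

lemma Step.van_succ (s : Step X Y) (N : FM R) (j : ℕ) : Van Y N (j + 1) ↔ Van X N (j + 2) := by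
  constructor
  · intro h x₃
    obtain ⟨x₁, rfl⟩ := Ext.contravariant_sequence_exact₃ s.se _ x₃
      (Ext.eq_zero_of_projective _) (add_comm 1 (j + 1))
    rw [h x₁, Ext.comp_zero]
  · intro h x₁
    obtain ⟨x₂, rfl⟩ := Ext.contravariant_sequence_exact₁ s.se _ x₁ (add_comm 1 (j + 1)) (h _)
    rw [x₂.eq_zero_of_projective, Ext.comp_zero]

lemma Step.van_one (s : Step X Y) (N : FM R) : Van X N 1 ↔ s.Extd N := by
  constructor
  · intro h φ
    obtain ⟨x₂, hx⟩ := Ext.contravariant_sequence_exact₁ s.se _ (Ext.mk₀ (ModuleCat.ofHom φ))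
      (add_comm 1 0) (h _)
    obtain ⟨ψ, rfl⟩ := (Ext.mk₀_bijective _ _).2 x₂
    rw [Ext.mk₀_comp_mk₀] at hx
    have := (Ext.mk₀_bijective _ _).1 hx
    exact ⟨ψ.hom, fun y => LinearMap.congr_fun (congrArg ModuleCat.Hom.hom this) y⟩
  · intro hext x₃
    obtain ⟨x₁, rfl⟩ := Ext.contravariant_sequence_exact₃ s.se _ x₃
      (Ext.eq_zero_of_projective _) (add_comm 1 0)
    obtain ⟨φ, rfl⟩ := Ext.homEquiv₀.symm.surjective x₁
    obtain ⟨ψ, hψ⟩ := hext φ.hom
    have e : φ = s.cx.f ≫ ModuleCat.ofHom ψ := by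
      ext x
      exact (hψ x).symm
    rw [e, Ext.homEquiv₀_symm_apply, ← Ext.mk₀_comp_mk₀, s.se.extClass_comp_assoc]

lemma van_chain (Z : ℕ → FM R) (s : ∀ n, Step (Z n) (Z (n + 1))) (N : FM R) (n : ℕ) :
    ∀ j, Van (Z n) N (j + 1) ↔ Van (Z 0) N (n + j + 1) := by
  induction n with
  | zero => intro j; rw [zero_add]
  | succ n ih => intro j; rw [(s n).van_succ, ih (j + 1), show n + (j + 1) = n + 1 + j by omega]

lemma van_iff (Z : ℕ → FM R) (s : ∀ n, Step (Z n) (Z (n + 1))) (N : FM R) :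
    (∀ i : ℕ, 0 < i → Subsingleton (Ext.{u} (ModuleCat.of R (Z 0).X) (ModuleCat.of R N.X) i)) ↔
      ∀ n, (s n).Extd N := by
  constructor
  · intro h n
    rw [← Step.van_one, van_chain Z s N n 0]
    exact fun e => (h _ (by omega)).elim _ _
  · intro h i hi
    obtain ⟨n, rfl⟩ : ∃ n, i = n + 0 + 1 := ⟨i - 1, by omega⟩
    have := (van_chain Z s N n 0).1 (((s n).van_one N).2 (h n))
    exact ⟨fun x y => by rw [this x, this y]⟩

end Crest.Agent.H7.BC
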