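import Crest.Agent.H7.BCB

/-! Row 186: base change of modules. -/

set_option autoImplicit false
set_option linter.unusedSectionVars false

universe u

noncomputable section
namespace Crest.Agent.H7.BC
open CategoryTheory TensorProduct Crest.AlgebraR

variable (k : Type) [Field k] (E : Type u) [Field E] [Algebra k E] {A : Type} [Ring A] [Algebra k A]

section
variable (N : Type) [AddCommGroup N] [Module k N]

/-- contraction of the left factor with a linear form -/
def ctr (ρ : E →ₗ[k] k) : E ⊗[k] N →ₗ[k] N := (TensorProduct.lid k N).toLinearMap ∘ₗ ρ.rTensor N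

@[simp] lemma ctr_tmul (ρ : E →ₗ[k] k) (a : E) (z : N) : ctr k E N ρ (a ⊗ₜ z) = ρ a • z := by
  simp [ctr]

lemma eq_zero_of_ctr (x : E ⊗[k] N) (h : ∀ ρ, ctr k E N ρ x = 0) : x = 0 := by
  classical
  let b := Module.Free.chooseBasis k E
  apply (equivFinsuppOfBasisLeft b).injective
  ext i
  rw [equivFinsuppOfBasisLeft_apply, map_zero]
  exact h (b.coord i)

variable [Module A N] [IsScalarTower k A N]

def act : E ⊗[k] A →ₐ[k] Module.End k (E ⊗[k] N) :=
  (Module.endTensorEndAlgHom (R := k) (S := k) (A := k) (M := E) (N := N)).comp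
    (Algebra.TensorProduct.map (Algebra.lsmul k k E) (Algebra.lsmul k k N))

lemma act_tmul (a b : E) (r : A) (z : N) :
    act k E N (a ⊗ₜ[k] r) (b ⊗ₜ[k] z) = (a * b) ⊗ₜ[k] (r • z) := by
  simp [act, Module.endTensorEndAlgHom_apply]

/-- the module structure on the base change -/
@[reducible] def bcMod : Module (E ⊗[k] A) (E ⊗[k] N) :=
  Module.compHom (E ⊗[k] N) (act k E N (A := A)).toRingHom
end

/-- the `k`-structure of an `A`-module -/
@[reducible] def FM.km (X : FM A) : Module k X.X := Module.compHom X.X (algebraMap k A)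

attribute [local instance] FM.km

instance FM.tw (X : FM A) : IsScalarTower k A X.X := tower k A X.X

def BCT (X : FM A) : Type u := E ⊗[k] X.X

instance (X : FM A) : AddCommGroup (BCT k E X) := inferInstanceAs (AddCommGroup (E ⊗[k] X.X))
instance (X : FM A) : Module (E ⊗[k] A) (BCT k E X) := bcMod k E X.X

variable {k E}

def tm {X : FM A} (a : E) (z : X.X) : BCT k E X := a ⊗ₜ[k] z

lemma smul_tm {X : FM A} (a b : E) (r : A) (z : X.X) :
    (a ⊗ₜ[k] r : E ⊗[k] A) • (tm b z : BCT k E X) = tm (a * b) (r • z) := act_tmul k E X.X a b r z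

lemma tm_add {X : FM A} (a : E) (z w : X.X) : (tm a (z + w) : BCT k E X) = tm a z + tm a w :=
  tmul_add a z w

lemma tm_sum {X : FM A} {ι : Type} (s : Finset ι) (a : E) (z : ι → X.X) :
    (tm a (∑ i ∈ s, z i) : BCT k E X) = ∑ i ∈ s, tm a (z i) := tmul_sum a s z

@[elab_as_elim]
lemma BCT.ind {X : FM A} {q : BCT k E X → Prop} (h0 : q 0) (h1 : ∀ a z, q (tm a z))
    (h2 : ∀ x y, q x → q y → q (x + y)) (x : BCT k E X) : q x :=
  TensorProduct.induction_on (motive := q) x h0 h1 h2

lemma BCT.hom_ext {X : FM A} {W : Type u} [AddCommGroup W] [Module (E ⊗[k] A) W]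
    {f g : BCT k E X →ₗ[E ⊗[k] A] W} (h : ∀ z, f (tm 1 z) = g (tm 1 z)) : f = g := by
  refine LinearMap.ext fun x => ?_
  induction x using BCT.ind with
  | h0 => simp
  | h1 a z =>
    have : (tm a z : BCT k E X) = (a ⊗ₜ[k] 1 : E ⊗[k] A) • tm 1 z := by rw [smul_tm, mul_one, one_smul]
    rw [this, map_smul, map_smul, h]
  | h2 x y hx hy => rw [map_add, map_add, hx, hy]

/-- contraction as a map on `BCT` -/
def ct {X : FM A} (ρ : E →ₗ[k] k) : BCT k E X →+ X.X := (ctr k E X.X ρ).toAddMonoidHom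

lemma ct_tm {X : FM A} (ρ : E →ₗ[k] k) (a : E) (z : X.X) : ct ρ (tm a z : BCT k E X) = ρ a • z :=
  ctr_tmul k E X.X ρ a z

lemma ct_smul {X : FM A} (ρ : E →ₗ[k] k) (r : A) (x : BCT k E X) :
    ct ρ ((1 ⊗ₜ[k] r : E ⊗[k] A) • x) = r • ct ρ x := by
  induction x using BCT.ind with
  | h0 => simp
  | h1 a z => rw [smul_tm, ct_tm, ct_tm, one_mul, smul_comm]
  | h2 x y hx hy => rw [smul_add, map_add, map_add, hx, hy, smul_add]

lemma ctr_mul (ρ : E →ₗ[k] k) (r : A) (x : E ⊗[k] A) :
    ctr k E A ρ ((1 ⊗ₜ[k] r : E ⊗[k] A) * x) = r * ctr k E A ρ x := by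
  induction x using TensorProduct.induction_on with
  | zero => simp
  | tmul a z => simp
  | add x y hx hy => rw [mul_add, map_add, map_add, hx, hy, mul_add]

/-- base change of a map from a free module -/
def pE {n : ℕ} {X : FM A} (p : (Fin n → A) →ₗ[A] X.X) :
    (Fin n → E ⊗[k] A) →ₗ[E ⊗[k] A] BCT k E X :=
  Fintype.linearCombination (E ⊗[k] A) fun j => tm 1 (p (Pi.single j 1))

lemma apply_eq_sum {n : ℕ} {Y : Type} [AddCommGroup Y] [Module A Y] (p : (Fin n → A) →ₗ[A] Y)
    (v : Fin n → A) : p v = ∑ j, v j • p (Pi.single j 1) := by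
  conv_lhs => rw [← Finset.univ_sum_single v]
  rw [map_sum]
  refine Finset.sum_congr rfl fun j _ => ?_
  rw [← map_smul, ← Pi.single_smul', smul_eq_mul, mul_one]

lemma pE_tmul {n : ℕ} {X : FM A} (p : (Fin n → A) →ₗ[A] X.X) (a : E) (v : Fin n → A) :
    pE p (fun j => (a ⊗ₜ[k] v j : E ⊗[k] A)) = tm a (p v) := by
  rw [pE, Fintype.linearCombination_apply, apply_eq_sum p v, tm_sum]
  exact Finset.sum_congr rfl fun j _ => by rw [smul_tm, mul_one]

lemma pE_piRight {n : ℕ} {X : FM A} (p : (Fin n → A) →ₗ[A] X.X) (x : E ⊗[k] (Fin n → A)) :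
    pE p (piRight k k E (fun _ : Fin n => A) x) = (p.restrictScalars k).lTensor E x := by
  induction x using TensorProduct.induction_on with
  | zero => rw [map_zero, map_zero]; rfl
  | tmul a v => rw [piRight_apply, piRightHom_tmul]; exact pE_tmul p a v
  | add x y hx hy => rw [map_add, map_add, map_add, hx, hy]; rfl

lemma pE_surj {n : ℕ} {X : FM A} (p : (Fin n → A) →ₗ[A] X.X) (hp : Function.Surjective p) :
    Function.Surjective (pE (k := k) (E := E) p) := fun y => by
  obtain ⟨x, hx⟩ := LinearMap.lTensor_surjective E (g := p.restrictScalars k) hp y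
  exact ⟨_, (pE_piRight p x).trans hx⟩

def iE0 {n : ℕ} {Y : FM A} (i : Y.X →ₗ[A] (Fin n → A)) : BCT k E Y →+ (Fin n → E ⊗[k] A) :=
  ((piRight k k E (fun _ : Fin n => A)).toLinearMap ∘ₗ (i.restrictScalars k).lTensor E).toAddMonoidHom

lemma iE0_tm {n : ℕ} {Y : FM A} (i : Y.X →ₗ[A] (Fin n → A)) (a : E) (y : Y.X) :
    iE0 i (tm a y : BCT k E Y) = fun j => a ⊗ₜ[k] i y j := rfl

/-- base change of a map to a free module -/
def iE {n : ℕ} {Y : FM A} (i : Y.X →ₗ[A] (Fin n → A)) :
    BCT k E Y →ₗ[E ⊗[k] A] (Fin n → E ⊗[k] A) where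
  toFun := iE0 i
  map_add' := map_add _
  map_smul' c x := by
    rw [RingHom.id_apply]
    induction c using TensorProduct.induction_on with
    | zero => simp
    | add c d hc hd => rw [add_smul, map_add, hc, hd, add_smul]
    | tmul a r =>
      induction x using BCT.ind with
      | h0 => simp
      | h1 b z =>
        rw [smul_tm, iE0_tm, iE0_tm]
        funext j
        simp
      | h2 x y hx hy => rw [smul_add, map_add, map_add, hx, hy, smul_add]

variable (k E) in
def BCF (X : FM A) : FM (E ⊗[k] A) :=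
  haveI : Module.Finite (E ⊗[k] A) (BCT k E X) := by
    obtain ⟨n, p, hp⟩ := Module.Finite.exists_fin' A X.X
    exact Module.Finite.of_surjective _ (pE_surj p hp)
  ⟨BCT k E X⟩

def Step.bc {X Y : FM A} (s : Step X Y) : Step (BCF k E X) (BCF k E Y) where
  n := s.n
  i := iE s.i
  p := pE s.p
  inj := (piRight k k E (fun _ : Fin s.n => A)).injective.comp
    (Module.Flat.lTensor_preserves_injective_linearMap (M := E) (s.i.restrictScalars k) s.inj)
  ex v := by
    obtain ⟨x, rfl⟩ := (piRight k k E (fun _ : Fin s.n => A)).surjective v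
    have h := lTensor_exact E (f := s.i.restrictScalars k) (g := s.p.restrictScalars k) s.ex s.surj x
    refine Iff.trans (iff_of_eq (congrArg (· = 0) (pE_piRight s.p x))) (h.trans ⟨?_, ?_⟩)
    · rintro ⟨y, rfl⟩; exact ⟨y, rfl⟩
    · rintro ⟨y, hy⟩; exact ⟨y, (piRight k k E (fun _ : Fin s.n => A)).injective hy⟩
  surj := pE_surj s.p s.surj

/-- coordinate of a map into a base change -/
def coordHom {Y N : FM A} (φ : BCT k E Y →ₗ[E ⊗[k] A] BCT k E N) (ρ : E →ₗ[k] k) :
    Y.X →ₗ[A] N.X where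
  toFun y := ct ρ (φ (tm 1 y))
  map_add' y z := by rw [tm_add, map_add, map_add]
  map_smul' r y := by rw [RingHom.id_apply, ← ct_smul, ← map_smul, smul_tm, mul_one]

lemma Step.extd_bc {X Y : FM A} (s : Step X Y) (N : FM A) (h : s.Extd N) :
    (s.bc (k := k) (E := E)).Extd (BCF k E N) := by
  classical
  intro φ
  let b := Module.Free.chooseBasis k E
  let e := equivFinsuppOfBasisLeft (N := N.X) b
  have he : ∀ (x : BCT k E N) i, e x i = ct (b.coord i) x := fun x i =>
    equivFinsuppOfBasisLeft_apply b x i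
  obtain ⟨m, p, hp⟩ := Module.Finite.exists_fin' A Y.X
  let S := Finset.univ.biUnion fun j : Fin m => (e (φ (tm 1 (p (Pi.single j 1))))).support
  have hS : ∀ i, i ∉ S → ∀ y, coordHom φ (b.coord i) y = 0 := by
    intro i hi y
    obtain ⟨v, rfl⟩ := hp y
    rw [apply_eq_sum p v, map_sum]
    refine Finset.sum_eq_zero fun j _ => ?_
    have : e (φ (tm 1 (p (Pi.single j 1)))) i = 0 := by
      by_contra hne
      exact hi (Finset.mem_biUnion.2 ⟨j, Finset.mem_univ _, Finsupp.mem_support_iff.2 hne⟩)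
    rw [map_smul, show coordHom φ (b.coord i) (p (Pi.single j 1)) = 0 from (he _ i).symm.trans this,
      smul_zero]
  choose ψ hψ using fun i => h (coordHom φ (b.coord i))
  let Ψ : (Fin s.n → E ⊗[k] A) →ₗ[E ⊗[k] A] BCT k E N :=
    Fintype.linearCombination (E ⊗[k] A) fun j => ∑ i ∈ S, tm (b i) (ψ i (Pi.single j 1))
  have : Ψ ∘ₗ iE s.i = φ := by
    refine BCT.hom_ext fun y => ?_
    have h1 : Ψ (iE s.i (tm 1 y)) = ∑ i ∈ S, tm (b i) (coordHom φ (b.coord i) y) := by
      show Ψ (fun j => 1 ⊗ₜ[k] s.i y j) = _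
      rw [Fintype.linearCombination_apply]
      simp only [Finset.smul_sum, smul_tm, one_mul]
      rw [Finset.sum_comm]
      refine Finset.sum_congr rfl fun i _ => ?_
      rw [← hψ, apply_eq_sum (ψ i), tm_sum]
    refine h1.trans (e.injective (Finsupp.ext fun i => ?_))
    rw [he, he, map_sum]
    simp only [ct_tm, Module.Basis.coord_apply, Module.Basis.repr_self, Finsupp.single_apply, ite_smul,
      one_smul, zero_smul, Finset.sum_ite_eq']
    split_ifs with hi
    · rfl
    · exact (hS i hi y).symm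
  exact ⟨Ψ, fun y => LinearMap.congr_fun this y⟩

lemma proj_desc (X : FM A) (h : Module.Projective (E ⊗[k] A) (BCT k E X)) : Module.Projective A X.X := by
  obtain ⟨n, p, hp⟩ := Module.Finite.exists_fin' A X.X
  obtain ⟨t, ht⟩ := Module.projective_lifting_property (pE (k := k) (E := E) p) LinearMap.id (pE_surj p hp)
  obtain ⟨ρ, hρ⟩ := (Algebra.linearMap k E).exists_leftInverse_of_injective
    (LinearMap.ker_eq_bot.2 (algebraMap k E).injective)
  have hρ1 : ρ 1 = 1 := by simpa using LinearMap.congr_fun hρ 1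
  let t' : X.X →ₗ[A] (Fin n → A) :=
    { toFun := fun z j => ctr k E A ρ (t (tm 1 z) j)
      map_add' := fun y z => by funext j; rw [tm_add, map_add, Pi.add_apply, map_add]; rfl
      map_smul' := fun r z => by
        funext j
        rw [RingHom.id_apply, Pi.smul_apply, smul_eq_mul, ← ctr_mul, ← smul_eq_mul, ← Pi.smul_apply,
          ← map_smul, smul_tm, mul_one] }
  have key : ∀ v : Fin n → E ⊗[k] A, p (fun j => ctr k E A ρ (v j)) = ct ρ (pE p v) := by
    intro v
    obtain ⟨x, rfl⟩ := (piRight k k E (fun _ : Fin n => A)).surjective v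
    induction x using TensorProduct.induction_on with
    | zero => simp only [map_zero, Pi.zero_apply]; exact map_zero p
    | tmul a v =>
      rw [piRight_apply, piRightHom_tmul, pE_tmul, ct_tm]
      simp only [ctr_tmul]
      exact (p.restrictScalars k).map_smul (ρ a) v
    | add x y hx hy =>
      simp only [map_add, Pi.add_apply]
      rw [← hx, ← hy, ← map_add]; rfl
  refine Module.Projective.of_split t' p (LinearMap.ext fun z => ?_)
  refine (key _).trans ?_
  rw [show pE p (t (tm 1 z)) = tm 1 z from LinearMap.congr_fun ht _, ct_tm, hρ1, one_smul]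
  rfl

end Crest.Agent.H7.BC
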