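import Crest.Agent.H7.BCC
import Crest.Agent.H5.MuI

/-! Row 186: base change of the core data. -/

set_option autoImplicit false
set_option linter.unusedSectionVars false

universe u

noncomputable section
namespace Crest.Agent.H7.BC
open CategoryTheory TensorProduct Crest.AlgebraR

variable {k : Type} [Field k] (E : Type u) [Field E] [Algebra k E] {A : Type} [Ring A] [Algebra k A]

lemma sym_bc [FiniteDimensional k A] (h : IsSymmetricAlgebra k A) :
    IsSymmetricAlgebra E (E ⊗[k] A) := by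
  obtain ⟨φ, hφ⟩ := h
  have h1 : ∀ x y, φ x y = φ 1 (x * y) := fun x y => by simpa using hφ 1 1 x y
  have h2 : ∀ x y, φ 1 (x * y) = φ 1 (y * x) := fun x y => by
    rw [← h1]; simpa using hφ x 1 1 y
  let l : E ⊗[k] A →ₗ[E] E := (AlgebraTensorModule.rid k E E).toLinearMap ∘ₗ LinearMap.baseChange E (φ 1)
  have hl : ∀ a r, l (a ⊗ₜ r) = φ 1 r • a := fun a r => by simp [l]
  have hc : ∀ x y, l (x * y) = l (y * x) := by
    intro x y
    induction x using TensorProduct.induction_on with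
    | zero => simp
    | add x x' hx hx' => rw [add_mul, mul_add, map_add, map_add, hx, hx']
    | tmul a r =>
      induction y using TensorProduct.induction_on with
      | zero => simp
      | add y y' hy hy' => rw [add_mul, mul_add, map_add, map_add, hy, hy']
      | tmul b s => rw [Algebra.TensorProduct.tmul_mul_tmul, Algebra.TensorProduct.tmul_mul_tmul, hl, hl,
          h2, mul_comm a]
  let ψ : E ⊗[k] A →ₗ[E] Module.Dual E (E ⊗[k] A) := (LinearMap.mul E _).compr₂ l
  have hψ : ∀ x y, ψ x y = l (x * y) := fun _ _ => rfl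
  have hρ : ∀ (ρ : E →ₗ[k] k) x, φ 1 (ctr k E A ρ x) = ρ (l x) := by
    intro ρ x
    induction x using TensorProduct.induction_on with
    | zero => simp
    | add x x' hx hx' => simp only [map_add, hx, hx']
    | tmul a r => rw [ctr_tmul, hl, map_smul, map_smul, smul_eq_mul, smul_eq_mul, mul_comm]
  have hinj : Function.Injective ψ := (injective_iff_map_eq_zero _).2 fun x hx =>
    eq_zero_of_ctr k E A x fun ρ => φ.injective (LinearMap.ext fun y => by
      rw [h1, h2, ← ctr_mul, hρ, hc, ← hψ, hx]; simp)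
  refine ⟨LinearMap.linearEquivOfInjective ψ hinj Subspace.dual_finrank_eq.symm, fun a x b y => ?_⟩
  show l (a * x * b * y) = l (x * (b * y * a))
  rw [mul_assoc a, mul_assoc a, hc, mul_assoc x, mul_assoc x]

def piE (π : A →ₐ[k] (Fin 8 → k)) : E ⊗[k] A →ₐ[E] (Fin 8 → E) :=
  Algebra.TensorProduct.lift (Algebra.ofId E _)
    ((AlgHom.pi fun j => (Algebra.ofId k E).comp (Pi.evalAlgHom k _ j)).comp π)
    fun _ _ => Commute.all _ _

lemma piE_tmul (π : A →ₐ[k] (Fin 8 → k)) (a : E) (r : A) (j : Fin 8) :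
    piE E π (a ⊗ₜ r) j = π r j • a := by
  simp [piE, Algebra.ofId_apply, Algebra.smul_def, mul_comm]

lemma piE_ctr (π : A →ₐ[k] (Fin 8 → k)) (ρ : E →ₗ[k] k) (x : E ⊗[k] A) (j : Fin 8) :
    π (ctr k E A ρ x) j = ρ (piE E π x j) := by
  induction x using TensorProduct.induction_on with
  | zero => simp
  | add x x' hx hx' => simp only [map_add, Pi.add_apply, hx, hx']
  | tmul a r => rw [ctr_tmul, piE_tmul, map_smul, map_smul, Pi.smul_apply, smul_eq_mul, smul_eq_mul,
      mul_comm]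

/-- sums of pure tensors with right factor in `J` -/
def ext (J : Ideal A) : AddSubmonoid (E ⊗[k] A) :=
  AddSubmonoid.closure {x | ∃ a, ∃ r ∈ J, x = a ⊗ₜ[k] r}

lemma ext_mul {I J : Ideal A} {x y : E ⊗[k] A} (hx : x ∈ ext E I) (hy : y ∈ ext E J) :
    x * y ∈ ext E (I * J) := by
  induction hx using AddSubmonoid.closure_induction with
  | zero => rw [zero_mul]; exact zero_mem _
  | add x x' _ _ h h' => rw [add_mul]; exact add_mem h h'
  | mem x hx =>
    induction hy using AddSubmonoid.closure_induction with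
    | zero => rw [mul_zero]; exact zero_mem _
    | add y y' _ _ h h' => rw [mul_add]; exact add_mem h h'
    | mem y hy =>
      obtain ⟨a, r, hr, rfl⟩ := hx
      obtain ⟨b, s, hs, rfl⟩ := hy
      exact AddSubmonoid.subset_closure ⟨a * b, r * s, Ideal.mul_mem_mul hr hs, by simp⟩

lemma mem_ext (J : Ideal A) (x : E ⊗[k] A) (h : ∀ ρ, ctr k E A ρ x ∈ J) : x ∈ ext E J := by
  classical
  let b := Module.Free.chooseBasis k E
  rw [← (equivFinsuppOfBasisLeft b).symm_apply_apply x, equivFinsuppOfBasisLeft_symm_apply]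
  refine AddSubmonoid.sum_mem _ fun i _ => AddSubmonoid.subset_closure ⟨b i, _, ?_, rfl⟩
  rw [equivFinsuppOfBasisLeft_apply]
  exact h (b.coord i)

lemma nil_bc [FiniteDimensional k A] (π : A →ₐ[k] (Fin 8 → k)) (hs : Function.Surjective π)
    (hn : ∀ x, π x = 0 → IsNilpotent x) (x : E ⊗[k] A) (hx : piE E π x = 0) : IsNilpotent x := by
  haveI : IsArtinianRing A := isArtinian_of_tower k inferInstance
  obtain ⟨n, h⟩ := IsSemiprimaryRing.isNilpotent (R := A)
  rw [jac_eq π hs hn] at h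
  have h1 : x ∈ ext E (RingHom.ker π) := mem_ext E _ x fun ρ => by
    show π _ = 0
    funext j
    rw [piE_ctr, hx]; simp
  have h2 : ∀ m, x ^ m ∈ ext E (RingHom.ker π ^ m) := by
    intro m
    induction m with
    | zero =>
      rw [pow_zero, Submodule.pow_zero]
      exact AddSubmonoid.subset_closure ⟨1, 1, Submodule.one_le.1 le_rfl, rfl⟩
    | succ m ih => rw [pow_succ, Submodule.pow_succ]; exact ext_mul E ih h1
  refine ⟨n, ?_⟩
  have h3 := h2 n
  rw [h] at h3
  generalize x ^ n = y at h3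
  induction h3 using AddSubmonoid.closure_induction with
  | zero => rfl
  | add y y' _ _ h h' => rw [h, h', add_zero]
  | mem y hy =>
    obtain ⟨a, r, hr, rfl⟩ := hy
    rw [show r = 0 from hr, tmul_zero]

theorem Core.bc (X : FM A) (h : Core k A X.X) : Core E (E ⊗[k] A) (BCT k E X) := by
  haveI := h.fd
  haveI : IsNoetherianRing A := isNoetherian_of_tower k inferInstance
  obtain ⟨π, hs, hn, a, b, c, d, ha, hb, hc, hd, hne⟩ := h.pi
  obtain ⟨Z, h0, s⟩ := exists_nat X
  subst h0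
  let s' := fun n => (s n).some
  refine ⟨inferInstance, sym_bc E h.sym, (BCF k E (Z 0)).fin, fun hp => h.nproj (proj_desc _ hp),
    (van_iff (fun n => BCF k E (Z n)) (fun n => (s' n).bc) (BCF k E (Z 0))).2 fun n =>
      (s' n).extd_bc _ ((van_iff Z s' (Z 0)).1 h.ext n),
    piE E π, fun v => ?_, nil_bc E π hs hn, 1 ⊗ₜ a, 1 ⊗ₜ b, 1 ⊗ₜ c, 1 ⊗ₜ d, ?_, ?_, ?_, ?_, ?_⟩
  · choose r hr using fun i : Fin 8 => hs (Pi.single i 1)
    refine ⟨∑ i, v i ⊗ₜ r i, funext fun j => ?_⟩
    simp [map_sum, Finset.sum_apply, piE_tmul, hr, Pi.single_apply]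
  · funext j; simp [piE_tmul, ha]
  · funext j; simp [piE_tmul, hb]
  · funext j; simp [piE_tmul, hc]
  · funext j; simp [piE_tmul, hd]
  · intro h0
    obtain ⟨ρ, hρ⟩ := (Algebra.linearMap k E).exists_leftInverse_of_injective
      (LinearMap.ker_eq_bot.2 (algebraMap k E).injective)
    have hρ1 : ρ 1 = 1 := by simpa using LinearMap.congr_fun hρ 1
    have := congrArg (ctr k E A ρ) h0
    simp only [Algebra.TensorProduct.tmul_mul_tmul, mul_one, ctr_tmul, hρ1, one_smul, map_zero] at this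
    exact hne this

theorem tach_of (h : CoreStmt) (K : Type u) [Field K] [Algebra kk K] : H5.Mu.Tach K := by
  obtain ⟨A, _, _, M, _, _, h⟩ := h
  haveI := h.fin
  have := Core.bc K (⟨M⟩ : FM A) h
  exact ⟨K ⊗[kk] A, inferInstance, inferInstance, this.fd, this.sym,
    ModuleCat.of _ (BCT kk K (⟨M⟩ : FM A)), this.fin, this.nproj, this.ext⟩

theorem s0280_of (h : CoreStmt) :
    ∃ (A : Type) (_ : Ring A) (_ : Algebra (FractionRing (MvPolynomial (Fin 3) (ZMod 2))) A),
      FiniteDimensional (FractionRing (MvPolynomial (Fin 3) (ZMod 2))) A ∧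
      IsSymmetricAlgebra (FractionRing (MvPolynomial (Fin 3) (ZMod 2))) A ∧
      ∃ M : ModuleCat.{0} A, Module.Finite A M ∧ ¬ Module.Projective A M ∧
        ∀ i : ℕ, 0 < i → Subsingleton (CategoryTheory.Abelian.Ext M M i) := by
  obtain ⟨A, _, _, M, _, _, h⟩ := h
  exact ⟨A, inferInstance, inferInstance, h.fd, h.sym, ModuleCat.of A M, h.fin, h.nproj, h.ext⟩

theorem s0281_of (h : CoreStmt) :
    ∃ (Λ : Type) (_ : Ring Λ) (_ : Algebra (FractionRing (MvPolynomial (Fin 3) (ZMod 2))) Λ) (Z : Type) (_ : AddCommGroup Z)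
      (_ : Module Λ Z) (_ : Module (FractionRing (MvPolynomial (Fin 3) (ZMod 2))) Z) (_ : IsScalarTower (FractionRing (MvPolynomial (Fin 3) (ZMod 2))) Λ Z),
      GorProjVanishingData (FractionRing (MvPolynomial (Fin 3) (ZMod 2))) Λ Z ∧
      ∀ (E : Type u) [Field E] [Algebra (FractionRing (MvPolynomial (Fin 3) (ZMod 2))) E],
        ∃ (_ : Module (E ⊗[FractionRing (MvPolynomial (Fin 3) (ZMod 2))] Λ) (E ⊗[FractionRing (MvPolynomial (Fin 3) (ZMod 2))] Z)),
          (∀ (a b : E) (r : Λ) (z : Z),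
            (a ⊗ₜ[FractionRing (MvPolynomial (Fin 3) (ZMod 2))] r) • (b ⊗ₜ[FractionRing (MvPolynomial (Fin 3) (ZMod 2))] z) = (a * b) ⊗ₜ[FractionRing (MvPolynomial (Fin 3) (ZMod 2))] (r • z)) ∧
          GorProjVanishingData E (E ⊗[FractionRing (MvPolynomial (Fin 3) (ZMod 2))] Λ) (E ⊗[FractionRing (MvPolynomial (Fin 3) (ZMod 2))] Z) := by
  obtain ⟨A, _, _, M, _, _, h⟩ := h
  haveI := h.fin
  refine ⟨A, inferInstance, inferInstance, M, inferInstance, inferInstance, FM.km kk (⟨M⟩ : FM A),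
    FM.tw kk (⟨M⟩ : FM A), h.gp, fun E _ _ => ?_⟩
  exact ⟨inferInstanceAs (Module (E ⊗[kk] A) (BCT kk E (⟨M⟩ : FM A))),
    fun a b r z => smul_tm (X := ⟨M⟩) a b r z, (Core.bc E (⟨M⟩ : FM A) h).gp⟩

end Crest.Agent.H7.BC
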