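import Mathlib
import Crest.Prelude.Def_SymmetricAlgebra

/-! Row 186: interface for the base change step. -/

set_option autoImplicit false

universe u v

namespace Crest.Agent.H7.BC
open CategoryTheory Crest.AlgebraR

/-- a symmetric split basic algebra with eight simples and a non-projective self-orthogonal module -/
structure Core (F : Type v) [Field F] (R : Type u) [Ring R] [Algebra F R] (Z : Type u)
    [AddCommGroup Z] [Module R Z] : Prop where
  fd : FiniteDimensional F R
  sym : IsSymmetricAlgebra F R
  fin : Module.Finite R Z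
  nproj : ¬ Module.Projective R Z
  ext : ∀ i : ℕ, 0 < i → Subsingleton (Abelian.Ext (ModuleCat.of R Z) (ModuleCat.of R Z) i)
  pi : ∃ π : R →ₐ[F] (Fin 8 → F), Function.Surjective π ∧ (∀ x, π x = 0 → IsNilpotent x) ∧
    ∃ a b c d : R, π a = 0 ∧ π b = 0 ∧ π c = 0 ∧ π d = 0 ∧ a * b * c * d ≠ 0

/-- the ground field -/
abbrev kk : Type := FractionRing (MvPolynomial (Fin 3) (ZMod 2))

/-- what the core construction has to deliver -/
def CoreStmt : Prop :=
  ∃ (A : Type) (_ : Ring A) (_ : Algebra kk A) (M : Type) (_ : AddCommGroup M) (_ : Module A M),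
    Core kk A M

end Crest.Agent.H7.BC
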