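import Mathlib

set_option autoImplicit false

open MeasureTheory Set Filter Metric
open scoped ENNReal Topology

namespace Crest.Agent.H7.Cyl

abbrev E2 := EuclideanSpace ℝ (Fin 2)
abbrev E3 := EuclideanSpace ℝ (Fin 3)

section general
variable {V : Type*} [NormedAddCommGroup V] [InnerProductSpace ℝ V]

/-- area of the parallelogram spanned by two vectors -/
noncomputable def gr (a b : V) : ℝ := Real.sqrt (‖a‖ ^ 2 * ‖b‖ ^ 2 - inner ℝ a b ^ 2)

lemma gr_nonneg (a b : V) : 0 ≤ gr a b := Real.sqrt_nonneg _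

/-- planar parametrisation -/
def par (c a b : V) (S : Set (ℝ × ℝ)) : Set V := (fun x : ℝ × ℝ => c + x.1 • a + x.2 • b) '' S

lemma par_mono (c a b : V) {S T : Set (ℝ × ℝ)} (h : S ⊆ T) : par c a b S ⊆ par c a b T :=
  image_mono h

lemma isCompact_par (c a b : V) {S : Set (ℝ × ℝ)} (h : IsCompact S) : IsCompact (par c a b S) :=
  h.image (by fun_prop)

/-- the linear map `x ↦ x 0 • a + x 1 • b` -/
noncomputable def lin2 (a b : V) : E2 →ₗ[ℝ] V where
  toFun x := x 0 • a + x 1 • b
  map_add' x y := by simp [add_smul]; abel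
  map_smul' c x := by simp [mul_smul]

lemma normDet_lin2 (a b : V) : (lin2 a b).normDet = gr a b := by
  have h := (lin2 a b).normDet_sq_eq_det_gram (EuclideanSpace.basisFun (Fin 2) ℝ)
  rw [Matrix.det_fin_two] at h
  simp only [Matrix.gram_apply, EuclideanSpace.basisFun_apply] at h
  have h0 : lin2 a b (EuclideanSpace.single 0 1) = a := by simp [lin2]
  have h1 : lin2 a b (EuclideanSpace.single 1 1) = b := by simp [lin2]
  rw [h0, h1, real_inner_self_eq_norm_sq, real_inner_self_eq_norm_sq, real_inner_comm a b] at h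
  rw [gr, ← Real.sqrt_sq (lin2 a b).normDet_nonneg]
  congr 1
  simp only [RCLike.ofReal_real_eq_id, id] at h
  rw [h]; ring

lemma volume_preimage_E2 (S : Set (ℝ × ℝ)) :
    volume ((fun x : E2 => (x 0, x 1)) ⁻¹' S) = volume S := by
  have h1 := (EuclideanSpace.volume_preserving_symm_measurableEquiv_toLp (Fin 2)).trans
    (volume_preserving_finTwoArrow ℝ)
  rw [← h1.measure_preimage_equiv S]
  rfl

variable [MeasurableSpace V] [BorelSpace V]

lemma area_par (c a b : V) (S : Set (ℝ × ℝ)) :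
    μHE[2] (par c a b S) = ENNReal.ofReal (gr a b) * volume S := by
  have h := (lin2 a b).euclideanHausdorffMeasure_image_eq_normDet_mul_volume
    ((fun x : E2 => (x 0, x 1)) ⁻¹' S)
  rw [finrank_euclideanSpace_fin, normDet_lin2, volume_preimage_E2] at h
  rw [← h, ← (isometry_add_left c).euclideanHausdorffMeasure_image (lin2 a b '' _), image_image]
  congr 1
  ext z
  constructor
  · rintro ⟨x, hx, rfl⟩
    exact ⟨!₂[x.1, x.2], by simpa using hx, by simp [lin2, add_assoc]⟩
  · rintro ⟨x, hx, rfl⟩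
    exact ⟨(x 0, x 1), hx, by simp [lin2, add_assoc]⟩

end general

/-- the standard triangle -/
def tri0 : Set (ℝ × ℝ) := {x | 0 ≤ x.1 ∧ 0 ≤ x.2 ∧ x.1 + x.2 ≤ 1}

/-- the standard open triangle -/
def tri1 : Set (ℝ × ℝ) := {x | 0 < x.1 ∧ 0 < x.2 ∧ x.1 + x.2 < 1}

/-- the unit square -/
def sq0 : Set (ℝ × ℝ) := Icc 0 1 ×ˢ Icc 0 1

lemma isCompact_sq0 : IsCompact sq0 := isCompact_Icc.prod isCompact_Icc

lemma volume_sq0 : volume sq0 = 1 := by
  rw [sq0, Measure.volume_eq_prod, Measure.prod_prod]; simp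

lemma isCompact_tri0 : IsCompact tri0 := by
  refine isCompact_sq0.of_isClosed_subset ?_ ?_
  · exact (isClosed_le continuous_const continuous_fst).inter
      ((isClosed_le continuous_const continuous_snd).inter
        (isClosed_le (continuous_fst.add continuous_snd) continuous_const))
  · rintro x ⟨h1, h2, h3⟩
    exact ⟨⟨h1, by linarith⟩, ⟨h2, by linarith⟩⟩

lemma volume_tri1 : volume tri1 = ENNReal.ofReal (1 / 2) := by
  have h : tri1 = regionBetween (fun _ => 0) (fun x => 1 - x) (Ioo 0 1) := by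
    ext x
    simp only [tri1, regionBetween, mem_ofPred_eq, mem_Ioo]
    constructor
    · rintro ⟨h1, h2, h3⟩; exact ⟨⟨h1, by linarith⟩, h2, by linarith⟩
    · rintro ⟨⟨h1, -⟩, h2, h3⟩; exact ⟨h1, h2, by linarith⟩
  rw [h, Measure.volume_eq_prod, volume_regionBetween_eq_integral (integrableOn_const (by simp))
    (((by fun_prop : Continuous fun x : ℝ => 1 - x).integrableOn_Icc (a := 0) (b := 1)).mono_set
      Ioo_subset_Icc_self) measurableSet_Ioo (fun x hx => by linarith [hx.2])]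
  congr 1
  rw [← integral_Ioc_eq_integral_Ioo, ← intervalIntegral.integral_of_le zero_le_one]
  simp only [Pi.sub_apply, sub_zero]
  rw [intervalIntegral.integral_sub (by simp) (by simp)]
  simp
  norm_num

lemma volume_tri0 : volume tri0 = ENNReal.ofReal (1 / 2) := by
  have h : tri0 = {p : ℝ × ℝ | p.1 ∈ Icc (0:ℝ) 1 ∧ p.2 ∈ Icc ((fun _ => 0) p.1) ((fun x => 1 - x) p.1)} := by
    ext x
    simp only [tri0, mem_ofPred_eq, mem_Icc]
    constructor
    · rintro ⟨h1, h2, h3⟩; exact ⟨⟨h1, by linarith⟩, h2, by linarith⟩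
    · rintro ⟨⟨h1, -⟩, h2, h3⟩; exact ⟨h1, h2, by linarith⟩
  rw [h, Measure.volume_eq_prod, Measure.prod_apply (by
    rw [← h]; exact isCompact_tri0.measurableSet)]
  have : ∀ x : ℝ, volume (Prod.mk x ⁻¹' {p : ℝ × ℝ | p.1 ∈ Icc (0:ℝ) 1 ∧
      p.2 ∈ Icc ((fun _ => 0) p.1) ((fun x => 1 - x) p.1)}) =
      (Icc (0:ℝ) 1).indicator (fun x => ENNReal.ofReal (1 - x)) x := by
    intro x
    by_cases hx : x ∈ Icc (0:ℝ) 1
    · rw [indicator_of_mem hx]
      have : Prod.mk x ⁻¹' {p : ℝ × ℝ | p.1 ∈ Icc (0:ℝ) 1 ∧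
          p.2 ∈ Icc ((fun _ => 0) p.1) ((fun x => 1 - x) p.1)} = Icc 0 (1 - x) := by
        ext y; simp [hx.1, hx.2]
      rw [this]; simp
    · rw [indicator_of_notMem hx]
      have : Prod.mk x ⁻¹' {p : ℝ × ℝ | p.1 ∈ Icc (0:ℝ) 1 ∧
          p.2 ∈ Icc ((fun _ => 0) p.1) ((fun x => 1 - x) p.1)} = ∅ := by
        ext y; simp only [mem_preimage, mem_ofPred_eq, mem_empty_iff_false, iff_false, not_and]
        intro h; exact absurd h hx
      rw [this]; simp
  simp_rw [this]
  rw [lintegral_indicator measurableSet_Icc, ← ofReal_integral_eq_lintegral_ofReal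
    ((by fun_prop : Continuous fun x : ℝ => 1 - x).integrableOn_Icc (a := 0) (b := 1))
    ((ae_restrict_iff' measurableSet_Icc).2 (Eventually.of_forall fun x hx => by
      simp only [Pi.zero_apply]; linarith [hx.2]))]
  congr 1
  rw [integral_Icc_eq_integral_Ioc, ← intervalIntegral.integral_of_le zero_le_one,
    intervalIntegral.integral_sub (by simp) (by simp)]
  simp
  norm_num

section general2
variable {V : Type*} [NormedAddCommGroup V] [InnerProductSpace ℝ V]

lemma convexHull_triple (p q r : V) :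
    convexHull ℝ ({p, q, r} : Set V) = par p (q - p) (r - p) tri0 := by
  apply Subset.antisymm
  · refine convexHull_min ?_ ?_
    · rintro x (rfl | rfl | rfl)
      · exact ⟨(0, 0), by simp [tri0], by simp⟩
      · exact ⟨(1, 0), by simp [tri0], by simp⟩
      · exact ⟨(0, 1), by simp [tri0], by simp⟩
    · rintro _ ⟨x, ⟨h1, h2, h3⟩, rfl⟩ _ ⟨y, ⟨k1, k2, k3⟩, rfl⟩ s t hs ht hst
      refine ⟨(s * x.1 + t * y.1, s * x.2 + t * y.2), ⟨by positivity, by positivity, by
        nlinarith⟩, ?_⟩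
      obtain rfl : t = 1 - s := by linarith
      simp only
      module
  · rintro _ ⟨x, ⟨h1, h2, h3⟩, rfl⟩
    have hc := convex_convexHull ℝ ({p, q, r} : Set V)
    have := hc.sum_mem (t := Finset.univ) (w := ![1 - x.1 - x.2, x.1, x.2]) (z := ![p, q, r])
      (by intro i _; fin_cases i <;> simp <;> linarith) (by simp [Fin.sum_univ_succ])
      (by intro i _; fin_cases i <;> exact subset_convexHull ℝ _ (by simp))
    convert this using 1
    simp [Fin.sum_univ_succ]
    module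

variable [MeasurableSpace V] [BorelSpace V]

lemma area_triangle (p q r : V) :
    μHE[2] (convexHull ℝ ({p, q, r} : Set V)) = ENNReal.ofReal (gr (q - p) (r - p) / 2) := by
  rw [convexHull_triple, area_par, volume_tri0, ← ENNReal.ofReal_mul (gr_nonneg _ _)]
  congr 1; ring

lemma area_triangle_toReal (p q r : V) :
    (μHE[2] (convexHull ℝ ({p, q, r} : Set V))).toReal = gr (q - p) (r - p) / 2 := by
  rw [area_triangle, ENNReal.toReal_ofReal (by have := gr_nonneg (q - p) (r - p); positivity)]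

lemma area_sq (c a b : V) : μHE[2] (par c a b sq0) = ENNReal.ofReal (gr a b) := by
  rw [area_par, volume_sq0, mul_one]

end general2

/-- determinant of three vectors -/
def det3 (a b c : E3) : ℝ :=
  a 0 * (b 1 * c 2 - b 2 * c 1) - a 1 * (b 0 * c 2 - b 2 * c 0) + a 2 * (b 0 * c 1 - b 1 * c 0)

lemma inner3 (a b : E3) : inner ℝ a b = a 0 * b 0 + a 1 * b 1 + a 2 * b 2 := by
  simp [PiLp.inner_apply, Fin.sum_univ_three]; ring

lemma normsq3 (a : E3) : ‖a‖ ^ 2 = a 0 ^ 2 + a 1 ^ 2 + a 2 ^ 2 := by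
  rw [← real_inner_self_eq_norm_sq, inner3]; ring

lemma inner2 (a b : E2) : inner ℝ a b = a 0 * b 0 + a 1 * b 1 := by
  simp [PiLp.inner_apply, Fin.sum_univ_two]; ring

lemma normsq2 (a : E2) : ‖a‖ ^ 2 = a 0 ^ 2 + a 1 ^ 2 := by
  rw [← real_inner_self_eq_norm_sq, inner2]; ring

/-- projection along `d` onto `d^⊥` -/
noncomputable def proj (d y : E3) : E3 := y - (inner ℝ y d / ‖d‖ ^ 2) • d

lemma proj_unit {d : E3} (hd : ‖d‖ = 1) (y : E3) : proj d y = y - inner ℝ y d • d := by
  simp [proj, hd]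

lemma inner_proj {d : E3} (hd : d ≠ 0) (y : E3) : inner ℝ (proj d y) d = 0 := by
  have : ‖d‖ ^ 2 ≠ 0 := by simpa using hd
  rw [proj, inner_sub_left, inner_smul_left, real_inner_self_eq_norm_sq]
  simp only [conj_trivial]
  field_simp
  ring

lemma proj_add (d y z : E3) : proj d (y + z) = proj d y + proj d z := by
  simp only [proj, inner_add_left, add_div, add_smul]; abel

lemma proj_sub (d y z : E3) : proj d (y - z) = proj d y - proj d z := by
  simp only [proj, inner_sub_left, sub_div, sub_smul]; abel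

lemma proj_smul (d y : E3) (t : ℝ) : proj d (t • y) = t • proj d y := by
  simp only [proj, inner_smul_left, conj_trivial, smul_sub, smul_smul, mul_div_assoc]

lemma proj_self {d : E3} (hd : d ≠ 0) : proj d d = 0 := by
  have : ‖d‖ ^ 2 ≠ 0 := by simpa using hd
  rw [proj, real_inner_self_eq_norm_sq, div_self this, one_smul, sub_self]

lemma gr_of_perp {a b d : E3} (hd : d ≠ 0) (ha : inner ℝ a d = 0) (hb : inner ℝ b d = 0) :
    gr a b = |det3 a b d| / ‖d‖ := by
  have hn : 0 < ‖d‖ := norm_pos_iff.2 hd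
  rw [gr, eq_div_iff hn.ne', ← Real.sqrt_sq hn.le, ← Real.sqrt_mul' _ (sq_nonneg _),
    ← Real.sqrt_sq_eq_abs]
  congr 1
  rw [inner3] at ha hb
  rw [normsq3, normsq3, normsq3, inner3, det3]
  set A := a 0 * d 0 + a 1 * d 1 + a 2 * d 2 with hA
  set B := b 0 * d 0 + b 1 * d 1 + b 2 * d 2 with hB
  have : ((a 0 ^ 2 + a 1 ^ 2 + a 2 ^ 2) * (b 0 ^ 2 + b 1 ^ 2 + b 2 ^ 2)
      - (a 0 * b 0 + a 1 * b 1 + a 2 * b 2) ^ 2) * (d 0 ^ 2 + d 1 ^ 2 + d 2 ^ 2) =
      (a 0 * (b 1 * d 2 - b 2 * d 1) - a 1 * (b 0 * d 2 - b 2 * d 0)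
        + a 2 * (b 0 * d 1 - b 1 * d 0)) ^ 2 + (A ^ 2 * (b 0 ^ 2 + b 1 ^ 2 + b 2 ^ 2)
        - 2 * A * B * (a 0 * b 0 + a 1 * b 1 + a 2 * b 2) + B ^ 2 * (a 0 ^ 2 + a 1 ^ 2 + a 2 ^ 2)) := by
    rw [hA, hB]; ring
  rw [this, ha, hb]; ring

lemma gr_proj {d : E3} (hd : d ≠ 0) (a b : E3) :
    gr (proj d a) (proj d b) = |det3 a b d| / ‖d‖ := by
  rw [gr_of_perp hd (inner_proj hd a) (inner_proj hd b)]
  congr 2
  simp only [det3, proj, PiLp.sub_apply, PiLp.smul_apply, smul_eq_mul]
  ring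

/-- bounded subsets of a plane have finite area -/
lemma area_lt_top {u : E3} (hu : u ≠ 0) {B : Set E3} (hB : Bornology.IsBounded B)
    (hBu : ∀ x ∈ B, inner ℝ x u = 0) : μHE[2] B < ∞ := by
  set s : Submodule ℝ E3 := (ℝ ∙ u)ᗮ with hs
  have hr : Module.finrank ℝ s = 2 := by
    have := Submodule.finrank_add_finrank_orthogonal (ℝ ∙ u)
    rw [finrank_span_singleton hu, finrank_euclideanSpace_fin] at this
    rw [hs]; omega
  have h1 : B = Subtype.val '' (Subtype.val ⁻¹' B : Set s) := by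
    ext x
    constructor
    · intro hx
      exact ⟨⟨x, Submodule.mem_orthogonal_singleton_iff_inner_left.2 (hBu x hx)⟩, hx, rfl⟩
    · rintro ⟨y, hy, rfl⟩
      exact hy
  rw [h1, isometry_subtype_coe.euclideanHausdorffMeasure_image, ← hr,
    InnerProductSpace.euclideanHausdorffMeasure_eq_volume]
  exact (isometry_subtype_coe.antilipschitz.isBounded_preimage hB).measure_lt_top

/-- a compact planar set has a bounded relatively open neighbourhood of almost the same area -/
lemma openify {u : E3} (hu : u ≠ 0) {T : Set E3} (hT : IsCompact T)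
    (hTu : ∀ x ∈ T, inner ℝ x u = 0) {θ : ℝ} (hθ : 0 < θ) :
    ∃ B : Set E3, (Bornology.IsBounded B ∧ ∃ O : Set E3, IsOpen O ∧
      B = O ∩ {x | inner ℝ x u = 0}) ∧ T ⊆ B ∧ (μHE[2] B).toReal ≤ (μHE[2] T).toReal + θ := by
  set H : Set E3 := {x | inner ℝ x u = 0} with hH
  have hfin : ∀ r, μHE[2] (thickening r T ∩ H) < ∞ := fun r =>
    area_lt_top hu (hT.isBounded.thickening.subset inter_subset_left) (fun x hx => hx.2)
  have h1 := tendsto_measure_thickening_of_isClosed (μ := (μHE[2] : Measure E3).restrict H) (s := T)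
    ⟨1, one_pos, by rw [Measure.restrict_apply isOpen_thickening.measurableSet]; exact (hfin 1).ne⟩
    hT.isClosed
  simp only [Measure.restrict_apply isOpen_thickening.measurableSet,
    Measure.restrict_apply hT.measurableSet, inter_eq_left.2 (show T ⊆ H from hTu)] at h1
  have hTfin : μHE[2] T ≠ ∞ := (area_lt_top hu hT.isBounded hTu).ne
  have h2 := (ENNReal.tendsto_toReal hTfin).comp h1
  obtain ⟨r, hr, hr0⟩ := ((h2.eventually (eventually_le_nhds (lt_add_of_pos_right _ hθ))).and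
    self_mem_nhdsWithin).exists
  exact ⟨thickening r T ∩ H, ⟨hT.isBounded.thickening.subset inter_subset_left,
    _, isOpen_thickening, rfl⟩, fun x hx => ⟨self_subset_thickening hr0 T hx, hTu x hx⟩, hr⟩

end Crest.Agent.H7.Cyl
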