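import Mathlib
import Crest.Agent.H7.CylArea

set_option autoImplicit false

open MeasureTheory Set Filter Metric
open scoped ENNReal Topology

namespace Crest.Agent.H7.Cyl

lemma gr_smul_smul {V : Type*} [NormedAddCommGroup V] [InnerProductSpace ℝ V] (a b : V) (s t : ℝ) :
    gr (s • a) (t • b) = |s * t| * gr a b := by
  rw [gr, gr, ← Real.sqrt_sq_eq_abs, ← Real.sqrt_mul (sq_nonneg _)]
  congr 1
  simp only [norm_smul, inner_smul_left, inner_smul_right, conj_trivial, mul_pow, Real.norm_eq_abs,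
    sq_abs]
  ring

lemma eq_proj_add (d x : E3) : x = proj d x + (inner ℝ x d / ‖d‖ ^ 2) • d := by
  simp [proj]

lemma gr_fan {d : E3} (hd : d ≠ 0) (a b : E3) (D t₁ t₂ : ℝ) (ht : t₁ ≤ t₂) :
    gr (D • proj d (a + t₁ • b)) (D • proj d (a + t₂ • b)) =
      D ^ 2 * (t₂ - t₁) * (|det3 a b d| / ‖d‖) := by
  rw [gr_smul_smul, gr_proj hd, abs_mul_self]
  have : det3 (a + t₁ • b) (a + t₂ • b) d = (t₂ - t₁) * det3 a b d := by
    simp only [det3, PiLp.add_apply, PiLp.smul_apply, smul_eq_mul]; ring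
  rw [this, abs_mul, abs_of_nonneg (sub_nonneg.2 ht)]
  ring

lemma fan_piece (p₀ a b : E3) {d : E3} (hd : d ≠ 0) (t₁ t₂ U k : ℝ) (ht : t₁ < t₂)
    (hD : 0 < U + 2 * k / (t₂ - t₁)) :
    ∃ p q r : E3, (inner ℝ p d = 0 ∧ inner ℝ q d = 0 ∧ inner ℝ r d = 0) ∧
      gr (q - p) (r - p) = (U + 2 * k / (t₂ - t₁)) ^ 2 * (t₂ - t₁) * (|det3 a b d| / ‖d‖) ∧
      ∀ u v : ℝ, u ≤ U → u * t₁ - k ≤ v → v ≤ u * t₂ + k →
        proj d (p₀ + u • a + v • b) ∈ convexHull ℝ ({p, q, r} : Set E3) := by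
  have hδ : 0 < t₂ - t₁ := sub_pos.2 ht
  set u₀ := -(2 * k / (t₂ - t₁)) with hu₀
  set D := U + 2 * k / (t₂ - t₁) with hDdef
  have hk : u₀ * (t₂ - t₁) = -2 * k := by rw [hu₀]; field_simp
  have hDU : D = U - u₀ := by rw [hDdef, hu₀]; ring
  set p := proj d (p₀ + u₀ • a + (u₀ * t₁ - k) • b) with hp
  refine ⟨p, p + D • proj d (a + t₁ • b), p + D • proj d (a + t₂ • b), ⟨inner_proj hd _, ?_, ?_⟩,
    ?_, ?_⟩
  · rw [inner_add_left, inner_smul_left, inner_proj hd, inner_proj hd]; simp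
  · rw [inner_add_left, inner_smul_left, inner_proj hd, inner_proj hd]; simp
  · rw [add_sub_cancel_left, add_sub_cancel_left, gr_fan hd a b D t₁ t₂ ht.le]
  · intro u v h1 h2 h3
    rw [convexHull_triple, add_sub_cancel_left, add_sub_cancel_left]
    refine ⟨((u * t₂ + k - v) / (D * (t₂ - t₁)), (v - u * t₁ + k) / (D * (t₂ - t₁))),
      ⟨div_nonneg (by linarith) (by positivity), div_nonneg (by linarith) (by positivity), ?_⟩, ?_⟩
    · simp only
      rw [← add_div, div_le_one (by positivity), hDU]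
      nlinarith
    · simp only [hp, smul_smul, ← proj_smul, ← proj_add]
      congr 1
      have e1 : (u * t₂ + k - v) / (D * (t₂ - t₁)) * D = (u * t₂ + k - v) / (t₂ - t₁) := by
        field_simp
      have e2 : (v - u * t₁ + k) / (D * (t₂ - t₁)) * D = (v - u * t₁ + k) / (t₂ - t₁) := by
        field_simp
      rw [e1, e2]
      have e3 : u = u₀ + (u * t₂ + k - v) / (t₂ - t₁) + (v - u * t₁ + k) / (t₂ - t₁) := by
        field_simp
        linear_combination -hk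
      have e4 : v = (u₀ * t₁ - k) + (u * t₂ + k - v) / (t₂ - t₁) * t₁
          + (v - u * t₁ + k) / (t₂ - t₁) * t₂ := by
        field_simp
        linear_combination -t₁ * hk
      set x := (u * t₂ + k - v) / (t₂ - t₁)
      set y := (v - u * t₁ + k) / (t₂ - t₁)
      clear_value x y
      rw [e4]
      conv_rhs => rw [e3]
      module

lemma fan_lower (p₀ a b : E3) {d : E3} (hd : d ≠ 0) (t₁ t₂ m : ℝ) (ht : t₁ ≤ t₂) (hm : 0 ≤ m)
    {P : Set E3} (hP : ∀ τ ∈ Icc t₁ t₂, ∀ ρ ∈ Icc 0 m, proj d (p₀ + ρ • (a + τ • b)) ∈ P) :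
    ENNReal.ofReal (m ^ 2 * (t₂ - t₁) * (|det3 a b d| / ‖d‖) / 2) ≤ μHE[2] P := by
  rw [← gr_fan hd a b m t₁ t₂ ht]
  have h := area_par (proj d p₀) (m • proj d (a + t₁ • b)) (m • proj d (a + t₂ • b)) tri0
  rw [volume_tri0, ← ENNReal.ofReal_mul (gr_nonneg _ _), mul_one_div] at h
  rw [← h]
  refine measure_mono ?_
  rintro _ ⟨⟨x, y⟩, ⟨h1, h2, h3⟩, rfl⟩
  simp only at h1 h2 h3 ⊢
  rcases (add_nonneg h1 h2).eq_or_lt with h0 | h0
  · have hx : x = 0 := by linarith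
    have hy : y = 0 := by linarith
    have := hP t₁ ⟨le_rfl, ht⟩ 0 ⟨le_rfl, hm⟩
    simpa [hx, hy] using this
  · have := hP ((x * t₁ + y * t₂) / (x + y)) ⟨by rw [le_div_iff₀ h0]; nlinarith,
      by rw [div_le_iff₀ h0]; nlinarith⟩ ((x + y) * m) ⟨by positivity, by nlinarith⟩
    convert this using 1
    simp only [smul_smul, ← proj_smul, ← proj_add]
    congr 1
    have e : (x + y) * m * ((x * t₁ + y * t₂) / (x + y)) = m * (x * t₁ + y * t₂) := by
      field_simp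
    rw [smul_add ((x + y) * m), smul_smul, e]
    module

lemma affineIndependent_of_gr {p q r : E3} (h : gr (q - p) (r - p) ≠ 0) :
    AffineIndependent ℝ ![p, q, r] := by
  rw [affineIndependent_iff_not_collinear_set]
  intro hc
  obtain ⟨v, hv⟩ := (collinear_iff_of_mem (p₀ := p) (by simp)).1 hc
  obtain ⟨s, hs⟩ := hv q (by simp)
  obtain ⟨t, ht⟩ := hv r (by simp)
  apply h
  rw [hs, ht]
  simp only [vadd_eq_add, add_sub_cancel_right]
  rw [gr_smul_smul, gr, real_inner_self_eq_norm_sq]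
  ring_nf
  simp

lemma gr_pos_of_linearIndependent {a b : E3} (hab : LinearIndependent ℝ ![a, b]) :
    0 < gr a b := by
  rw [gr, Real.sqrt_pos]
  rw [LinearIndependent.pair_iff] at hab
  have ha : a ≠ 0 := fun h => by simpa [h] using hab 1 0
  have hn : 0 < ‖a‖ ^ 2 := by positivity
  have h1 : (-inner ℝ a b) • a + (‖a‖ ^ 2) • b ≠ 0 := fun h => hn.ne' (hab _ _ h).2
  have h2 : 0 < ‖(-inner ℝ a b) • a + (‖a‖ ^ 2) • b‖ ^ 2 := by positivity
  rw [norm_add_sq_real, norm_smul, norm_smul, inner_smul_left, inner_smul_right, mul_pow, mul_pow,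
    Real.norm_eq_abs, Real.norm_eq_abs, sq_abs, sq_abs] at h2
  simp only [conj_trivial] at h2
  by_contra h
  push Not at h
  nlinarith

lemma det3_eq_zero_of_perp {a b x e : E3} (he : e ≠ 0) (ha : inner ℝ a e = 0)
    (hb : inner ℝ b e = 0) (hx : inner ℝ x e = 0) : det3 a b x = 0 := by
  have hn : ‖e‖ ^ 2 ≠ 0 := by simpa using he
  rw [normsq3] at hn
  rw [inner3] at ha hb hx
  have : det3 a b x * (e 0 ^ 2 + e 1 ^ 2 + e 2 ^ 2) = 0 := by
    simp only [det3]
    linear_combination (e 0 * (b 1 * x 2 - b 2 * x 1) - e 1 * (b 0 * x 2 - b 2 * x 0)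
        + e 2 * (b 0 * x 1 - b 1 * x 0)) * ha
      - (e 0 * (a 1 * x 2 - a 2 * x 1) - e 1 * (a 0 * x 2 - a 2 * x 0)
        + e 2 * (a 0 * x 1 - a 1 * x 0)) * hb
      + (e 0 * (a 1 * b 2 - a 2 * b 1) - e 1 * (a 0 * b 2 - a 2 * b 0)
        + e 2 * (a 0 * b 1 - a 1 * b 0)) * hx
  exact (mul_eq_zero.1 this).resolve_right hn

lemma factor_eq {a b w e : E3} (he : ‖e‖ = 1) (ha : inner ℝ a e = 0)
    (hb : inner ℝ b e = 0) (hw : inner ℝ w e = 0) :
    e + w ≠ 0 ∧ |det3 a b (e + w)| / ‖e + w‖ = gr a b / Real.sqrt (1 + ‖w‖ ^ 2) := by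
  have he0 : e ≠ 0 := by intro h; simp [h] at he
  have h1 : ‖e + w‖ ^ 2 = 1 + ‖w‖ ^ 2 := by
    rw [norm_add_sq_real, he, real_inner_comm, hw]; ring
  constructor
  · intro h; rw [h] at h1; simp at h1; nlinarith [sq_nonneg ‖w‖]
  · rw [← h1, Real.sqrt_sq (norm_nonneg _), gr_of_perp he0 ha hb, he, div_one]
    have h2 : det3 a b (e + w) = det3 a b e + det3 a b w := by
      simp only [det3, PiLp.add_apply]; ring
    rw [h2, det3_eq_zero_of_perp he0 ha hb hw, add_zero]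

lemma exists_dual {a b e : E3} (he : ‖e‖ = 1) (ha : inner ℝ a e = 0) (hb : inner ℝ b e = 0)
    (hab : 0 < gr a b) : ∃ n₀ n₁ : E3, inner ℝ a n₀ = 1 ∧ inner ℝ b n₀ = 0 ∧ inner ℝ a n₁ = 0 ∧
      inner ℝ b n₁ = 1 ∧ ∀ x : E3, inner ℝ x e = 0 → x = inner ℝ x n₀ • a + inner ℝ x n₁ • b := by
  have he0 : e ≠ 0 := by intro h; simp [h] at he
  have hd : det3 a b e ≠ 0 := by
    rw [gr_of_perp he0 ha hb, he, div_one] at hab
    exact abs_pos.1 hab
  refine ⟨(det3 a b e)⁻¹ • !₂[b 1 * e 2 - b 2 * e 1, b 2 * e 0 - b 0 * e 2, b 0 * e 1 - b 1 * e 0],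
    (det3 a b e)⁻¹ • !₂[e 1 * a 2 - e 2 * a 1, e 2 * a 0 - e 0 * a 2, e 0 * a 1 - e 1 * a 0],
    ?_, ?_, ?_, ?_, ?_⟩
  · rw [inner_smul_right, inner3]; field_simp; simp [det3]; ring
  · rw [inner_smul_right, inner3]; simp; right; ring
  · rw [inner_smul_right, inner3]; simp; right; ring
  · rw [inner_smul_right, inner3]; field_simp; simp [det3]; ring
  · intro x hx
    have h0 := det3_eq_zero_of_perp he0 ha hb hx
    rw [inner_smul_right, inner_smul_right, inner3, inner3]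
    ext i
    simp only [PiLp.add_apply, PiLp.smul_apply, smul_eq_mul]
    field_simp
    simp only [det3] at h0 ⊢
    fin_cases i
    · simp; linear_combination (e 0) * h0
    · simp; linear_combination (e 1) * h0
    · simp; linear_combination (e 2) * h0

lemma exists_piece {N : ℕ} (t : Fin (N + 1) → ℝ) (hN : t 0 < t (Fin.last N)) {τ : ℝ}
    (h0 : t 0 ≤ τ) (h1 : τ ≤ t (Fin.last N)) :
    ∃ i : Fin N, t i.castSucc ≤ τ ∧ τ ≤ t i.succ := by
  by_contra hcon
  push Not at hcon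
  have key : ∀ k : ℕ, ∀ hk : k < N + 1, t ⟨k, hk⟩ ≤ τ ∧ (0 < k → t ⟨k, hk⟩ < τ) := by
    intro k
    induction k with
    | zero => intro hk; exact ⟨h0, fun h => absurd h (lt_irrefl 0)⟩
    | succ k ih =>
      intro hk
      have := hcon ⟨k, by omega⟩ (ih (by omega)).1
      exact ⟨this.le, fun _ => this⟩
  rcases Nat.eq_zero_or_pos N with rfl | hN0
  · simp at hN
  · exact absurd ((key N (by omega)).2 hN0) (not_lt.2 h1)

lemma sum_telescope {N : ℕ} (g : Fin (N + 1) → ℝ) :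
    ∑ i : Fin N, (g i.succ - g i.castSucc) = g (Fin.last N) - g 0 := by
  rw [Finset.sum_sub_distrib]
  have h1 := Fin.sum_univ_succ g
  have h2 := Fin.sum_univ_castSucc g
  linarith

lemma riemann_close {α β : ℝ} {f : ℝ → ℝ} (hf : ContinuousOn f (Icc α β)) {N : ℕ}
    (t : Fin (N + 1) → ℝ) (c : Fin N → ℝ) (ht : StrictMono t) (h0 : t 0 = α)
    (h1 : t (Fin.last N) = β) {ε K κ : ℝ} (hκ : 0 ≤ κ)
    (hε : ∀ i : Fin N, ∀ τ ∈ Icc (t i.castSucc) (t i.succ), |f τ - f (c i)| ≤ ε)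
    (x : Fin N → ℝ)
    (hx : ∀ i, |x i - κ * f (c i) * (t i.succ - t i.castSucc)| ≤ K * (t i.succ - t i.castSucc)) :
    |∑ i, x i - κ * ∫ τ in α..β, f τ| ≤ (K + κ * ε) * (β - α) := by
  have hmem : ∀ j, t j ∈ Icc α β := fun j =>
    ⟨h0 ▸ ht.monotone (Fin.zero_le j), h1 ▸ ht.monotone (Fin.le_last j)⟩
  have hint : ∀ u ∈ Icc α β, ∀ v ∈ Icc α β, IntervalIntegrable f volume u v := fun u hu v hv =>
    (hf.mono (uIcc_subset_Icc hu hv)).intervalIntegrable
  have hα : α ∈ Icc α β := h0 ▸ hmem 0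
  have e1 : ∫ τ in α..β, f τ = ∑ i : Fin N, ∫ τ in t i.castSucc..t i.succ, f τ := by
    have := sum_telescope (fun j => ∫ τ in α..t j, f τ)
    simp only [h0, h1, intervalIntegral.integral_same, sub_zero] at this
    rw [← this]
    refine Finset.sum_congr rfl fun i _ => ?_
    exact intervalIntegral.integral_interval_sub_left (hint _ hα _ (hmem _)) (hint _ hα _ (hmem _))
  have e2 : β - α = ∑ i : Fin N, (t i.succ - t i.castSucc) := by
    rw [sum_telescope, h0, h1]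
  rw [e1, e2, Finset.mul_sum, Finset.mul_sum, ← Finset.sum_sub_distrib]
  refine (Finset.abs_sum_le_sum_abs _ _).trans (Finset.sum_le_sum fun i _ => ?_)
  have hle : t i.castSucc ≤ t i.succ := ht.monotone (Fin.castSucc_lt_succ).le
  have h2 : |(∫ τ in t i.castSucc..t i.succ, f τ) - f (c i) * (t i.succ - t i.castSucc)| ≤
      ε * (t i.succ - t i.castSucc) := by
    have h3 := intervalIntegral.norm_integral_le_of_norm_le_const (a := t i.castSucc)
      (b := t i.succ) (f := fun τ => f τ - f (c i)) (C := ε) (fun τ hτ => by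
        rw [uIoc_of_le hle] at hτ
        exact hε i τ (Ioc_subset_Icc_self hτ))
    rw [intervalIntegral.integral_sub (hint _ (hmem _) _ (hmem _)) (by simp),
      intervalIntegral.integral_const, abs_of_nonneg (sub_nonneg.2 hle)] at h3
    simpa [mul_comm] using h3
  have h4 := hx i
  rw [abs_le] at h2 h4 ⊢
  constructor <;> nlinarith [h2.1, h2.2, h4.1, h4.2]

end Crest.Agent.H7.Cyl
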