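import Mathlib
import Crest.Agent.H7.CylFan

set_option autoImplicit false

open MeasureTheory Set Filter Metric
open scoped ENNReal Topology

namespace Crest.Agent.H7.Cyl

/-- the standard regular tetrahedron -/
def K0 : Set E3 :=
  convexHull ℝ {!₂[1, 0, 0], !₂[-1, 0, 0], !₂[0, 1, Real.sqrt 2], !₂[0, -1, Real.sqrt 2]}

lemma tri_le {P : Set E3} (hP : Convex ℝ P) {p q r : E3} (hp : p ∈ P) (hq : q ∈ P) (hr : r ∈ P) :
    ENNReal.ofReal (gr (q - p) (r - p) / 2) ≤ μHE[2] P := by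
  rw [← area_triangle]
  refine measure_mono (convexHull_min ?_ hP)
  rintro x (rfl | rfl | rfl) <;> assumption

lemma quad_le {P : Set E3} (hP : Convex ℝ P) {p q r s v : E3} (hv : ‖v‖ = 1) (hp : p ∈ P)
    (hq : q ∈ P) (hr : r ∈ P) (hs : s ∈ P) (hperp : ∀ x ∈ P, inner ℝ x v = 0) :
    ENNReal.ofReal (|det3 (r - p) (s - q) v| / 2) ≤ μHE[2] P := by
  have hv0 : v ≠ 0 := by intro h; simp [h] at hv
  have hsub : ∀ x ∈ P, ∀ y ∈ P, inner ℝ (x - y) v = 0 := fun x hx y hy => by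
    rw [inner_sub_left, hperp x hx, hperp y hy, sub_zero]
  set α := det3 (r - p) (q - p) v with hα
  set β := det3 (r - p) (s - p) v with hβ
  have e0 : det3 (r - p) (s - q) v = β - α := by
    simp only [hα, hβ, det3, PiLp.sub_apply]; ring
  have e1 : gr (r - p) (q - p) = |α| := by
    rw [gr_of_perp hv0 (hsub _ hr _ hp) (hsub _ hq _ hp), hv, div_one]
  have e2 : gr (r - p) (s - p) = |β| := by
    rw [gr_of_perp hv0 (hsub _ hr _ hp) (hsub _ hs _ hp), hv, div_one]
  have t1 := tri_le hP hp hr hq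
  have t2 := tri_le hP hp hr hs
  rw [e1] at t1
  rw [e2] at t2
  rw [e0]
  by_cases hαβ : 0 ≤ α * β
  · rcases le_total |α| |β| with h | h
    · refine le_trans (ENNReal.ofReal_le_ofReal ?_) t2
      have : |β - α| ≤ |β| := by
        rw [← sq_le_sq] at h ⊢; nlinarith [sq_nonneg (α - β), sq_abs α, sq_abs β, abs_nonneg α,
          abs_mul_abs_self α, abs_mul α β, abs_of_nonneg hαβ]
      linarith
    · refine le_trans (ENNReal.ofReal_le_ofReal ?_) t1
      have : |β - α| ≤ |α| := by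
        rw [← sq_le_sq] at h ⊢; nlinarith [sq_nonneg (α - β), sq_abs α, sq_abs β, abs_nonneg β,
          abs_mul_abs_self β, abs_mul α β, abs_of_nonneg hαβ]
      linarith
  · push Not at hαβ
    have hdisj : Disjoint (par p (r - p) (q - p) tri0) (par p (r - p) (s - p) tri1) := by
      rw [Set.disjoint_left]
      rintro _ ⟨x, hx, rfl⟩ ⟨y, hy, hxy⟩
      have h1 := congrArg (fun z => det3 (r - p) (z - p) v) hxy
      have h2 : y.2 * β = x.2 * α := by
        simp only [hα, hβ, det3, PiLp.sub_apply, PiLp.add_apply, PiLp.smul_apply,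
          smul_eq_mul] at h1 ⊢
        linear_combination h1
      have h3 : β ≠ 0 := by rintro h; simp [h] at hαβ
      have h4 : 0 < y.2 * (β * β) := mul_pos hy.2.1 (mul_self_pos.2 h3)
      have h5 : x.2 * (α * β) ≤ 0 := mul_nonpos_of_nonneg_of_nonpos hx.2.1 hαβ.le
      have h6 : y.2 * (β * β) = x.2 * (α * β) := by linear_combination β * h2
      linarith
    have hU : par p (r - p) (q - p) tri0 ∪ par p (r - p) (s - p) tri1 ⊆ P := by
      refine union_subset ?_ ((par_mono _ _ _ (show tri1 ⊆ tri0 from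
        fun x hx => ⟨hx.1.le, hx.2.1.le, hx.2.2.le⟩)).trans ?_)
      · rw [← convexHull_triple]
        refine convexHull_min ?_ hP
        rintro x (rfl | rfl | rfl) <;> assumption
      · rw [← convexHull_triple]
        refine convexHull_min ?_ hP
        rintro x (rfl | rfl | rfl) <;> assumption
    refine le_trans ?_ (measure_mono hU)
    rw [measure_union' hdisj (isCompact_par _ _ _ isCompact_tri0).measurableSet, area_par, area_par,
      volume_tri0, volume_tri1, e1, e2, ← ENNReal.ofReal_mul (abs_nonneg _),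
      ← ENNReal.ofReal_mul (abs_nonneg _), ← ENNReal.ofReal_add (by positivity) (by positivity)]
    refine ENNReal.ofReal_le_ofReal ?_
    linarith [abs_sub β α]

lemma arith_min {k₁ k₂ k₃ s : ℝ} (hs : s ^ 2 = 2) (hs0 : 0 < s) (h : k₁ ^ 2 + k₂ ^ 2 + k₃ ^ 2 = 1)
    (h1 : 2 * |k₁| < s) (h2 : 2 * |k₂| < s) (h3 : 2 * |k₃| < s) (h4 : |k₁ + k₂ + k₃| < s)
    (h5 : |k₁ + k₂ - k₃| < s) (h6 : |k₁ - k₂ + k₃| < s) (h7 : |k₁ - k₂ - k₃| < s) : False := by
  have a1 : k₁ ^ 2 ≤ s / 2 * |k₁| := by rw [← sq_abs]; nlinarith [abs_nonneg k₁]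
  have a2 : k₂ ^ 2 ≤ s / 2 * |k₂| := by rw [← sq_abs]; nlinarith [abs_nonneg k₂]
  have a3 : k₃ ^ 2 ≤ s / 2 * |k₃| := by rw [← sq_abs]; nlinarith [abs_nonneg k₃]
  have b : |k₁| + |k₂| + |k₃| < s := by
    rw [abs_lt] at h4 h5 h6 h7
    rcases abs_cases k₁ with c1 | c1 <;> rcases abs_cases k₂ with c2 | c2 <;>
      rcases abs_cases k₃ with c3 | c3 <;> linarith [c1.1, c2.1, c3.1]
  nlinarith

lemma proj_isLinear (v : E3) : IsLinearMap ℝ (fun y : E3 => y - inner ℝ y v • v) where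
  map_add x y := by simp only [inner_add_left, add_smul]; abel
  map_smul c x := by simp only [inner_smul_left, conj_trivial, smul_sub, smul_smul]

lemma proj_lower {v : E3} (hv : ‖v‖ = 1) :
    ENNReal.ofReal (Real.sqrt 2) ≤ μHE[2] ((fun y => y - inner ℝ y v • v) '' K0) := by
  have hv0 : v ≠ 0 := by intro h; simp [h] at hv
  set P := (fun y => y - inner ℝ y v • v) '' K0 with hPdef
  have hP : Convex ℝ P := (convex_convexHull ℝ _).is_linear_image (proj_isLinear v)
  have hmem : ∀ y ∈ K0, proj v y ∈ P := fun y hy => ⟨y, hy, (proj_unit hv y).symm⟩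
  have hperp : ∀ x ∈ P, inner ℝ x v = 0 := by
    rintro _ ⟨y, -, rfl⟩
    simp only [← proj_unit hv]
    exact inner_proj hv0 y
  set A : E3 := !₂[1, 0, 0] with hA
  set B : E3 := !₂[-1, 0, 0] with hB
  set C : E3 := !₂[0, 1, Real.sqrt 2] with hC
  set D : E3 := !₂[0, -1, Real.sqrt 2] with hD
  have mA := hmem A (subset_convexHull ℝ _ (by simp [hA]))
  have mB := hmem B (subset_convexHull ℝ _ (by simp [hB]))
  have mC := hmem C (subset_convexHull ℝ _ (by simp [hC]))
  have mD := hmem D (subset_convexHull ℝ _ (by simp [hD]))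
  have hdet : ∀ a b : E3, det3 (proj v a) (proj v b) v = det3 a b v := fun a b => by
    simp only [det3, proj, PiLp.sub_apply, PiLp.smul_apply, smul_eq_mul]; ring
  have hq : ∀ {p q r s : E3}, proj v p ∈ P → proj v q ∈ P → proj v r ∈ P → proj v s ∈ P →
      ENNReal.ofReal (|det3 (r - p) (s - q) v| / 2) ≤ μHE[2] P := fun hp hq hr hs => by
    have := quad_le hP hv hp hq hr hs hperp
    rwa [← proj_sub, ← proj_sub, hdet] at this
  by_contra hcon
  push Not at hcon
  have hlt : ∀ {x : ℝ}, ENNReal.ofReal x ≤ μHE[2] P → x < Real.sqrt 2 := fun hx =>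
    (ENNReal.ofReal_lt_ofReal_iff (by positivity)).1 (hx.trans_lt hcon)
  have hs : Real.sqrt 2 ^ 2 = 2 := Real.sq_sqrt (by norm_num)
  have hs0 : 0 < Real.sqrt 2 := by positivity
  have q1 := hlt (hq mA mC mB mD)
  have q2 := hlt (hq mA mB mC mD)
  have q3 := hlt (hq mA mB mD mC)
  have t1 := hlt (hq mA mA mB mC)
  have t2 := hlt (hq mA mA mB mD)
  have t3 := hlt (hq mA mA mC mD)
  have t4 := hlt (hq mB mB mC mD)
  have hn := normsq3 v
  rw [hv] at hn
  set s := Real.sqrt 2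
  refine arith_min (k₁ := s * (v 0 + v 1) / 2) (k₂ := s * (v 0 - v 1) / 2) (k₃ := v 2) hs hs0
    (by linear_combination (v 0 ^ 2 + v 1 ^ 2) / 2 * hs - hn) ?_ ?_ ?_ ?_ ?_ ?_ ?_
  · convert q2 using 1
    rw [show det3 (C - A) (D - B) v = 4 * (s * (v 0 + v 1) / 2) by
      simp [det3, hA, hB, hC, hD]; ring, abs_mul 4]; norm_num; ring
  · convert q3 using 1
    rw [show det3 (D - A) (C - B) v = (-4) * (s * (v 0 - v 1) / 2) by
      simp [det3, hA, hB, hC, hD]; ring, abs_mul (-4)]; norm_num; ring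
  · convert q1 using 1
    rw [show det3 (B - A) (D - C) v = 4 * (v 2) by
      simp [det3, hA, hB, hC, hD]; ring, abs_mul 4]; norm_num; ring
  · convert t3 using 1
    rw [show det3 (C - A) (D - A) v = 2 * (s * (v 0 + v 1) / 2 + s * (v 0 - v 1) / 2 + v 2) by
      simp [det3, hA, hC, hD]; ring, abs_mul 2]; norm_num
  · convert t4 using 1
    rw [show det3 (C - B) (D - B) v = 2 * (s * (v 0 + v 1) / 2 + s * (v 0 - v 1) / 2 - v 2) by
      simp [det3, hB, hC, hD]; ring, abs_mul 2]; norm_num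
  · convert t2 using 1
    rw [show det3 (B - A) (D - A) v = 2 * (s * (v 0 + v 1) / 2 - s * (v 0 - v 1) / 2 + v 2) by
      simp [det3, hA, hB, hD]; ring, abs_mul 2]; norm_num
  · convert t1 using 1
    rw [show det3 (B - A) (C - A) v = 2 * (s * (v 0 + v 1) / 2 - s * (v 0 - v 1) / 2 - v 2) by
      simp [det3, hA, hB, hC]; ring, abs_mul 2]; norm_num

lemma proj_attained : ∃ v : E3, ‖v‖ = 1 ∧
    μHE[2] ((fun y => y - inner ℝ y v • v) '' K0) = ENNReal.ofReal (Real.sqrt 2) := by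
  have hv : ‖(!₂[1, 0, 0] : E3)‖ = 1 := by
    have := normsq3 (!₂[1, 0, 0] : E3)
    simp only [Matrix.cons_val] at this
    nlinarith [norm_nonneg (!₂[1, 0, 0] : E3)]
  refine ⟨!₂[1, 0, 0], hv, le_antisymm ?_ (proj_lower hv)⟩
  have hs : Real.sqrt 2 ^ 2 = 2 := Real.sq_sqrt (by norm_num)
  have h1 := area_triangle (0 : E3) !₂[0, 1, Real.sqrt 2] !₂[0, -1, Real.sqrt 2]
  have h2 : gr ((!₂[0, 1, Real.sqrt 2] : E3) - 0) (!₂[0, -1, Real.sqrt 2] - 0) / 2 = Real.sqrt 2 := by
    rw [sub_zero, sub_zero, gr_of_perp (d := !₂[1, 0, 0]) (by intro h; simp [h] at hv)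
      (by simp [inner3]) (by simp [inner3]), hv]
    rw [show det3 !₂[0, 1, Real.sqrt 2] !₂[0, -1, Real.sqrt 2] !₂[1, 0, 0] = 2 * Real.sqrt 2 by
      simp [det3]; ring, abs_of_nonneg (by positivity)]; ring
  rw [h2] at h1
  rw [← h1]
  refine measure_mono ?_
  rw [image_subset_iff]
  refine convexHull_min ?_ ((convex_convexHull ℝ _).is_linear_preimage (proj_isLinear _))
  rintro x (rfl | rfl | rfl | rfl) <;> refine subset_convexHull ℝ _ ?_
  · left; ext i; fin_cases i <;> simp [hv]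
  · left; ext i; fin_cases i <;> simp [inner3]
  · right; left; ext i; fin_cases i <;> simp [inner3]
  · right; right; ext i; fin_cases i <;> simp [inner3]

lemma isCompact_K0 : IsCompact K0 := (Set.toFinite _).isCompact_convexHull ℝ

lemma mem_K0 {X : E3} (hX : X ∈ K0) :
    |X 1| ≤ X 2 / Real.sqrt 2 ∧ |X 0| ≤ 1 - X 2 / Real.sqrt 2 := by
  have hs0 : 0 < Real.sqrt 2 := by positivity
  have : K0 ⊆ {X : E3 | |X 1| ≤ X 2 / Real.sqrt 2 ∧ |X 0| ≤ 1 - X 2 / Real.sqrt 2} := by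
    refine convexHull_min ?_ ?_
    · rintro x (rfl | rfl | rfl | rfl) <;> simp
    · rintro x ⟨h1, h2⟩ y ⟨k1, k2⟩ a b ha hb hab
      simp only [mem_ofPred_eq, PiLp.add_apply, PiLp.smul_apply, smul_eq_mul, add_div,
        mul_div_assoc]
      rw [abs_le] at h1 h2 k1 k2
      rw [abs_le, abs_le]
      refine ⟨⟨?_, ?_⟩, ?_, ?_⟩ <;> nlinarith [h1.1, h1.2, h2.1, h2.2, k1.1, k1.2, k2.1, k2.2]
  exact this hX

end Crest.Agent.H7.Cyl
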