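import Mathlib
import Crest.Agent.H7.CylTetra

set_option autoImplicit false

open MeasureTheory Set Filter Metric
open scoped ENNReal Topology

namespace Crest.Agent.H7.Cyl

/-- radial profile correction -/
noncomputable def rr (t : ℝ) : ℝ := t ^ 2 / 4 + t ^ 4 / 4 + 1 / 200

/-- primitive of the second-order area density -/
noncomputable def QQ (t : ℝ) : ℝ := (1 / 200 - 1 / 32) * t - t ^ 3 / 48 + 7 * t ^ 5 / 160

set_option maxHeartbeats 2000000 in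
lemma key_ineq {x y ζ t t' ε : ℝ} (hε : ε = 1 / 500) (ht : t ∈ Icc (-1:ℝ) 1)
    (ht' : t' ∈ Icc (-1:ℝ) 1) (hx : |x| ≤ 1 - ζ) (hy : |y| ≤ ζ)
    (E1 : y = ε * x * (1 - t ^ 2) / 2 + ζ * t)
    (E2 : -x = ε * y * (1 - t' ^ 2) / 2 + (1 - ζ) * t')
    (H1 : 1 / 2 + ε ^ 2 * rr t < ζ - ε * x * t)
    (H2 : 1 / 2 + ε ^ 2 * rr t' < 1 - ζ - ε * y * t') : False := by
  have hε0 : 0 < ε := by rw [hε]; norm_num
  have at1 : |t| ≤ 1 := abs_le.2 ht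
  have at2 : |t'| ≤ 1 := abs_le.2 ht'
  have tsq : t ^ 2 ≤ 1 := by nlinarith [ht.1, ht.2]
  have tsq' : t' ^ 2 ≤ 1 := by nlinarith [ht'.1, ht'.2]
  have hr : 0 ≤ ε ^ 2 * rr t := by unfold rr; positivity
  have hr' : 0 ≤ ε ^ 2 * rr t' := by unfold rr; positivity
  have hζ0 : 0 ≤ ζ := (abs_nonneg _).trans hy
  have hζ1 : 0 ≤ 1 - ζ := (abs_nonneg _).trans hx
  have hxt : |x * t| ≤ 1 := by
    rw [abs_mul]; exact mul_le_one₀ (by linarith) (abs_nonneg _) at1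
  have hyt : |y * t'| ≤ 1 := by
    rw [abs_mul]; exact mul_le_one₀ (by linarith) (abs_nonneg _) at2
  obtain ⟨η, rfl⟩ : ∃ η, ζ = 1 / 2 + η := ⟨ζ - 1 / 2, by ring⟩
  have η1 : ε * (x * t) < η := by linarith
  have η2 : η < -(ε * (y * t')) := by linarith
  have aη : |η| ≤ ε := by
    rw [abs_le] at hxt hyt ⊢
    constructor <;> nlinarith [hxt.1, hxt.2, hyt.1, hyt.2]
  have ax : |x| ≤ 1 / 2 + ε := by linarith [(abs_le.1 aη).1]
  have ay : |y| ≤ 1 / 2 + ε := by linarith [(abs_le.1 aη).2]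
  obtain ⟨e₁, he₁⟩ : ∃ e₁, e₁ = y - t / 2 := ⟨_, rfl⟩
  obtain ⟨e₂, he₂⟩ : ∃ e₂, e₂ = x + t' / 2 := ⟨_, rfl⟩
  have hb : ∀ z s : ℝ, |z| ≤ 1 / 2 + ε → |s| ≤ 1 →
      |ε * z * (1 - s ^ 2) / 2 + η * s| ≤ 13 / 10 * ε := by
    intro z s hz hs
    have s2 : s ^ 2 ≤ 1 := by rw [← sq_abs]; nlinarith [abs_nonneg s]
    have h1 : |ε * z * (1 - s ^ 2) / 2| ≤ ε * (1 / 2 + ε) / 2 := by
      rw [abs_div, abs_mul, abs_mul, abs_of_pos hε0, abs_of_nonneg (sub_nonneg.2 s2), abs_two]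
      have : |z| * (1 - s ^ 2) ≤ (1 / 2 + ε) := by nlinarith [abs_nonneg z, sq_nonneg s]
      nlinarith
    have h2 : |η * s| ≤ ε := by
      rw [abs_mul]; nlinarith [abs_nonneg η, abs_nonneg s]
    have := abs_add_le (ε * z * (1 - s ^ 2) / 2) (η * s)
    rw [hε] at *
    linarith
  have ae₁ : |e₁| ≤ 13 / 10 * ε := by
    rw [show e₁ = ε * x * (1 - t ^ 2) / 2 + η * t by linear_combination he₁ + E1]
    exact hb x t ax at1
  have ae₂ : |e₂| ≤ 13 / 10 * ε := by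
    rw [show e₂ = ε * (-y) * (1 - t' ^ 2) / 2 + η * t' by linear_combination he₂ - E2]
    exact hb (-y) t' (by rwa [abs_neg]) at2
  have p1 : |e₂ * t| ≤ 13 / 10 * ε := by
    rw [abs_mul]; nlinarith [abs_nonneg e₂, abs_nonneg t]
  have p2 : |e₁ * t'| ≤ 13 / 10 * ε := by
    rw [abs_mul]; nlinarith [abs_nonneg e₁, abs_nonneg t']
  obtain ⟨E₃, hE₃⟩ : ∃ E₃, E₃ = η + ε * (t * t') / 2 := ⟨_, rfl⟩
  have aE : |E₃| ≤ 13 / 10 * ε ^ 2 := by
    have l1 : ε * (e₂ * t) < E₃ := by rw [hE₃, he₂]; linarith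
    have l2 : E₃ < -(ε * (e₁ * t')) := by rw [hE₃, he₁]; linarith
    have q1 := mul_le_mul_of_nonneg_left (abs_le.1 p1).1 hε0.le
    have q2 := mul_le_mul_of_nonneg_left (abs_le.1 p2).1 hε0.le
    rw [abs_le]
    constructor <;> linarith
  have S1 : x * t + y * t' = -ε * ((t ^ 2 + t' ^ 2) / 4 + t ^ 2 * t' ^ 2 / 2)
      - ε * (e₁ * t * (1 - t' ^ 2)) / 2 + ε * (e₂ * t' * (1 - t ^ 2)) / 2 + 2 * (E₃ * (t * t')) := by
    rw [hE₃, he₁, he₂]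
    linear_combination t' * E1 - t * E2
  have b1 : |e₁ * t * (1 - t' ^ 2)| ≤ 13 / 10 * ε := by
    rw [abs_mul, abs_mul, abs_of_nonneg (sub_nonneg.2 tsq')]
    have : |e₁| * |t| ≤ 13 / 10 * ε := by nlinarith [abs_nonneg e₁, abs_nonneg t]
    nlinarith [mul_nonneg (abs_nonneg e₁) (abs_nonneg t), sq_nonneg t']
  have b2 : |e₂ * t' * (1 - t ^ 2)| ≤ 13 / 10 * ε := by
    rw [abs_mul, abs_mul, abs_of_nonneg (sub_nonneg.2 tsq)]
    have : |e₂| * |t'| ≤ 13 / 10 * ε := by nlinarith [abs_nonneg e₂, abs_nonneg t']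
    nlinarith [mul_nonneg (abs_nonneg e₂) (abs_nonneg t'), sq_nonneg t]
  have b3 : |E₃ * (t * t')| ≤ 13 / 10 * ε ^ 2 := by
    rw [abs_mul, abs_mul]
    have : |t| * |t'| ≤ 1 := mul_le_one₀ at1 (abs_nonneg _) at2
    nlinarith [abs_nonneg E₃, mul_nonneg (abs_nonneg t) (abs_nonneg t')]
  have hrr : (t ^ 2 + t' ^ 2) / 4 + t ^ 2 * t' ^ 2 / 2 + 1 / 100 ≤ rr t + rr t' := by
    unfold rr; nlinarith [sq_nonneg (t ^ 2 - t' ^ 2)]
  have hsum : ε ^ 2 * (rr t + rr t') + ε * (x * t + y * t') < 0 := by linarith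
  rw [S1] at hsum
  have c1 := (abs_le.1 b1).2
  have c2 := (abs_le.1 b2).1
  have c3 := (abs_le.1 b3).1
  generalize e₁ * t * (1 - t' ^ 2) = A at *
  generalize e₂ * t' * (1 - t ^ 2) = B at *
  generalize E₃ * (t * t') = C at *
  generalize rr t + rr t' = D at *
  generalize (t ^ 2 + t' ^ 2) / 4 + t ^ 2 * t' ^ 2 / 2 = F at *
  subst hε
  linarith

lemma inv_sqrt_le {W : ℝ} (hW : 0 ≤ W) (hW1 : W ≤ 1) :
    1 / Real.sqrt (1 + W) ≤ 1 - W / 2 + 3 * W ^ 2 / 8 := by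
  have hj : 0 < 1 - W / 2 + 3 * W ^ 2 / 8 := by nlinarith
  rw [div_le_iff₀ (by positivity), ← div_le_iff₀' hj]
  refine Real.le_sqrt_of_sq_le ?_
  rw [div_pow, div_le_iff₀ (by positivity)]
  have : 0 ≤ W ^ 3 * (5 / 8 - 15 * W / 64 + 9 * W ^ 2 / 64) :=
    mul_nonneg (by positivity) (by nlinarith)
  nlinarith

lemma piece_bound {ε c δ W : ℝ} (hε : ε = 1 / 500) (hc : -1 ≤ c) (hδ : 0 < δ)
    (hδ1 : δ ≤ 1 / 10 ^ 6) (hcδ : c + δ ≤ 1) (hW : W = ε ^ 2 * ((c ^ 2 + 1) ^ 2 / 4 + 2 * c ^ 2)) :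
    (1 / 2 + ε ^ 2 * rr c + 3 * ε * δ) ^ 2 * δ * (1 / Real.sqrt (1 + W)) ≤
      (1 / 4 + 61 / 10 ^ 10) * δ + ε ^ 2 * (QQ (c + δ) - QQ c) := by
  have c2 : c ^ 2 ≤ 1 := by nlinarith
  have c4 : c ^ 4 ≤ 1 := by nlinarith [sq_nonneg c]
  have hm : (c ^ 2 + 1) ^ 2 / 4 + 2 * c ^ 2 ≤ 3 := by nlinarith
  have hW0 : 0 ≤ W := by rw [hW]; positivity
  have hW1 : W ≤ 12 / 10 ^ 6 := by rw [hW, hε]; nlinarith
  have hj := inv_sqrt_le hW0 (by linarith)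
  have hr0 : 0 ≤ rr c := by unfold rr; positivity
  have hr1 : rr c ≤ 505 / 1000 := by unfold rr; linarith
  obtain ⟨s, hs⟩ : ∃ s, s = ε ^ 2 * rr c + 3 * ε * δ := ⟨_, rfl⟩
  have hs0 : 0 ≤ s := by rw [hs, hε]; positivity
  have hs1 : s ≤ 203 / 10 ^ 8 := by rw [hs, hε]; linarith
  have h1 : (1 / 2 + s) ^ 2 * (1 - W / 2 + 3 * W ^ 2 / 8) ≤ 1 / 4 + s - W / 8 + 2 / 10 ^ 11 := by
    have a1 : s ^ 2 ≤ 42 / 10 ^ 13 := by nlinarith
    have a2 : W ^ 2 ≤ 144 / 10 ^ 12 := by nlinarith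
    have a3 : W ^ 2 * (1 / 2 + s) ^ 2 ≤ 144 / 10 ^ 12 * (26 / 100) :=
      mul_le_mul a2 (by nlinarith) (by positivity) (by positivity)
    nlinarith [mul_nonneg hs0 hW0, mul_nonneg (sq_nonneg s) hW0]
  have h2 : δ * (rr c - ((c ^ 2 + 1) ^ 2 / 4 + 2 * c ^ 2) / 8) ≤ QQ (c + δ) - QQ c + δ ^ 2 := by
    have e : QQ (c + δ) - QQ c + δ ^ 2 - δ * (rr c - ((c ^ 2 + 1) ^ 2 / 4 + 2 * c ^ 2) / 8) =
        δ ^ 2 * (1 - (3 * c + δ) / 48 + 7 * (10 * c ^ 3 + 10 * c ^ 2 * δ + 5 * c * δ ^ 2 + δ ^ 3) / 160) := by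
      unfold QQ rr; ring
    have c3 : -1 ≤ c ^ 3 := by nlinarith
    have d2 : δ ^ 2 ≤ 1 := by nlinarith
    have : 0 ≤ 1 - (3 * c + δ) / 48 + 7 * (10 * c ^ 3 + 10 * c ^ 2 * δ + 5 * c * δ ^ 2 + δ ^ 3) / 160 := by
      nlinarith [mul_nonneg (sq_nonneg c) hδ.le, pow_pos hδ 3, mul_nonneg (by linarith : 0 ≤ c + 1)
        (sq_nonneg δ)]
    nlinarith [mul_nonneg (sq_nonneg δ) this]
  calc (1 / 2 + ε ^ 2 * rr c + 3 * ε * δ) ^ 2 * δ * (1 / Real.sqrt (1 + W))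
      ≤ (1 / 2 + s) ^ 2 * δ * (1 - W / 2 + 3 * W ^ 2 / 8) := by
        rw [hs, add_assoc]; gcongr
    _ = δ * ((1 / 2 + s) ^ 2 * (1 - W / 2 + 3 * W ^ 2 / 8)) := by ring
    _ ≤ δ * (1 / 4 + s - W / 8 + 2 / 10 ^ 11) := by gcongr
    _ ≤ _ := by
      rw [hs, hW]
      subst hε
      nlinarith

lemma exists_piece' {N : ℕ} (hN : 0 < N) (t : Fin (N + 1) → ℝ) {τ : ℝ}
    (h0 : t 0 ≤ τ) (h1 : τ ≤ t (Fin.last N)) :
    ∃ i : Fin N, t i.castSucc ≤ τ ∧ τ ≤ t i.succ := by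
  by_contra hcon
  push Not at hcon
  have key : ∀ k : ℕ, ∀ hk : k < N + 1, t ⟨k, hk⟩ ≤ τ ∧ (0 < k → t ⟨k, hk⟩ < τ) := by
    intro k
    induction k with
    | zero => intro hk; exact ⟨h0, fun h => absurd h (lt_irrefl 0)⟩
    | succ k ih =>
      intro hk
      have := hcon ⟨k, by omega⟩ (ih (by omega)).1
      exact ⟨this.le, fun _ => this⟩
  exact absurd ((key N (by omega)).2 hN) (not_lt.2 h1)

set_option maxHeartbeats 2000000 in
lemma family (p₀ e a b : E3) (he : ‖e‖ = 1) (ha : inner ℝ a e = 0) (hb : inner ℝ b e = 0)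
    (haa : ‖a‖ ^ 2 = 2) (hbb : ‖b‖ ^ 2 = 1) (hab : inner ℝ a b = 0) {ε : ℝ} (hε : ε = 1 / 500)
    (N : ℕ) (hN : 2 * 10 ^ 6 ≤ N) :
    ∃ u p q r : Fin N → E3, (∀ i, ‖u i‖ = 1) ∧
      (∀ i, inner ℝ (p i) (u i) = 0 ∧ inner ℝ (q i) (u i) = 0 ∧ inner ℝ (r i) (u i) = 0) ∧
      ∑ i, (μHE[2] (convexHull ℝ ({p i, q i, r i} : Set E3))).toReal ≤
        Real.sqrt 2 * (1 / 2 - 1 / 10 ^ 8) / 2 ∧
      ∀ x y ζ : ℝ, |x| ≤ 1 → |y| ≤ ζ → ∃ t ∈ Icc (-1:ℝ) 1, y = ε * x * (1 - t ^ 2) / 2 + ζ * t ∧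
        (ζ - ε * x * t ≤ 1 / 2 + ε ^ 2 * rr t → ∃ i, ∃ z ∈ convexHull ℝ ({p i, q i, r i} : Set E3),
          ∃ σ : ℝ, p₀ + x • e + y • b + ζ • a = z + σ • u i) := by
  have hε0 : 0 < ε := by rw [hε]; norm_num
  have hN0 : 0 < N := by omega
  have hNr : (2 * 10 ^ 6 : ℝ) ≤ N := by exact_mod_cast hN
  obtain ⟨δ, hδdef⟩ : ∃ δ : ℝ, δ = 2 / N := ⟨_, rfl⟩
  have hδ : 0 < δ := by rw [hδdef]; positivity
  have hδN : δ * N = 2 := by rw [hδdef]; field_simp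
  have hδ1 : δ ≤ 1 / 10 ^ 6 := by rw [hδdef, div_le_iff₀ (by positivity)]; linarith
  set t : Fin (N + 1) → ℝ := fun j => -1 + (j : ℕ) * δ with ht
  have hts : ∀ i : Fin N, t i.succ = t i.castSucc + δ := fun i => by simp [ht]; ring
  have ht0 : t 0 = -1 := by simp [ht]
  have htl : t (Fin.last N) = 1 := by simp [ht]; linarith
  have htm : ∀ j, t j ∈ Icc (-1:ℝ) 1 := fun j => by
    have : ((j : ℕ) : ℝ) ≤ N := by exact_mod_cast Nat.lt_succ_iff.1 j.2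
    simp only [ht]
    constructor <;> nlinarith [Nat.cast_nonneg (α := ℝ) (j : ℕ)]
  set w : ℝ → E3 := fun c => (ε * ((c ^ 2 + 1) / 2)) • b + (ε * c) • a with hw
  have hwe : ∀ c, inner ℝ (w c) e = 0 := fun c => by
    simp only [hw, inner_add_left, inner_smul_left, ha, hb]; simp
  have hwn : ∀ c, ‖w c‖ ^ 2 = ε ^ 2 * ((c ^ 2 + 1) ^ 2 / 4 + 2 * c ^ 2) := fun c => by
    simp only [hw]
    rw [norm_add_sq_real, norm_smul, norm_smul, inner_smul_left, inner_smul_right,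
      real_inner_comm, hab, mul_pow, mul_pow, haa, hbb, Real.norm_eq_abs, Real.norm_eq_abs, sq_abs,
      sq_abs]
    simp; ring
  have hgr : gr a b = Real.sqrt 2 := by rw [gr, haa, hbb, hab]; norm_num
  have hfac := fun c => factor_eq he ha hb (hwe c)
  have hD : ∀ i : Fin N, (1 / 2 + ε ^ 2 * rr (t i.castSucc) + 2 * ε * δ) +
      2 * (ε * δ ^ 2 / 2) / (t i.succ - t i.castSucc) =
      1 / 2 + ε ^ 2 * rr (t i.castSucc) + 3 * ε * δ := fun i => by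
    rw [hts, add_sub_cancel_left]; field_simp; ring
  have hpiece := fun i : Fin N => fan_piece p₀ a b (hfac (t i.castSucc)).1 (t i.castSucc) (t i.succ)
    (1 / 2 + ε ^ 2 * rr (t i.castSucc) + 2 * ε * δ) (ε * δ ^ 2 / 2) (by rw [hts]; linarith)
    (by rw [hD]; unfold rr; positivity)
  choose p q r hperp hgr' hin using hpiece
  refine ⟨fun i => ‖e + w (t i.castSucc)‖⁻¹ • (e + w (t i.castSucc)), p, q, r,
    fun i => norm_smul_inv_norm (hfac _).1, fun i => ?_, ?_, ?_⟩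
  · simp only [inner_smul_right, (hperp i).1, (hperp i).2.1, (hperp i).2.2, mul_zero, and_self]
  · have h1 : ∀ i : Fin N, (μHE[2] (convexHull ℝ ({p i, q i, r i} : Set E3))).toReal ≤
        Real.sqrt 2 / 2 * ((1 / 4 + 61 / 10 ^ 10) * (t i.succ - t i.castSucc) +
          ε ^ 2 * (QQ (t i.succ) - QQ (t i.castSucc))) := by
      intro i
      have := piece_bound hε (htm i.castSucc).1 hδ hδ1 (by rw [← hts]; exact (htm _).2)
        (hwn (t i.castSucc))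
      rw [area_triangle_toReal, hgr' i, hD, (hfac _).2, hgr, hts, add_sub_cancel_left]
      have h2 : 0 < Real.sqrt 2 / 2 := by positivity
      refine le_trans (le_of_eq ?_) (mul_le_mul_of_nonneg_left this h2.le)
      ring
    refine (Finset.sum_le_sum fun i _ => h1 i).trans ?_
    rw [← Finset.mul_sum, Finset.sum_add_distrib, ← Finset.mul_sum, ← Finset.mul_sum,
      sum_telescope t, sum_telescope (fun j => QQ (t j)), ht0, htl]
    have h2 : 0 < Real.sqrt 2 := by positivity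
    have : (1 / 4 + 61 / 10 ^ 10) * (1 - -1) + ε ^ 2 * (QQ 1 - QQ (-1)) ≤ 1 / 2 - 1 / 10 ^ 8 := by
      rw [hε]; unfold QQ; norm_num
    nlinarith
  · intro x y ζ hx hy
    set g : ℝ → ℝ := fun τ => ε * x * (1 - τ ^ 2) / 2 + ζ * τ with hg
    obtain ⟨i, hi1, hi2⟩ := exists_piece' hN0 (fun j => g (t j)) (τ := y)
      (by simp only [ht0, hg]; linarith [(abs_le.1 hy).1])
      (by simp only [htl, hg]; linarith [(abs_le.1 hy).2])
    have hle : t i.castSucc ≤ t i.succ := by rw [hts]; linarith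
    obtain ⟨τ, hτ, hτy⟩ := intermediate_value_Icc hle
      (show ContinuousOn g _ from by simp only [hg]; fun_prop) ⟨hi1, hi2⟩
    have hτm : τ ∈ Icc (-1:ℝ) 1 := ⟨(htm _).1.trans hτ.1, hτ.2.trans (htm _).2⟩
    refine ⟨τ, hτm, hτy.symm, fun hρ => ⟨i, ?_⟩⟩
    have hc := htm i.castSucc
    rw [hts] at hτ
    simp only [hg, hts] at hi1 hi2
    have hin' := hin i (ζ - ε * x * t i.castSucc) (y - ε * x * (t i.castSucc ^ 2 + 1) / 2)
    rw [hts] at hin'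
    set c := t i.castSucc with hcdef
    have hx' := abs_le.1 hx
    have m1 : rr τ - rr c ≤ 3 / 2 * δ := by
      have e : rr τ - rr c = (τ - c) * ((τ + c) * (1 + τ ^ 2 + c ^ 2) / 4) := by unfold rr; ring
      have t2 : τ ^ 2 ≤ 1 := by nlinarith [hτm.1, hτm.2]
      have c2 : c ^ 2 ≤ 1 := by nlinarith [hc.1, hc.2]
      have b : (τ + c) * (1 + τ ^ 2 + c ^ 2) / 4 ≤ 3 / 2 := by
        nlinarith [hτm.2, hc.2, sq_nonneg τ, sq_nonneg c]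
      rw [e]
      nlinarith [hτ.1, hτ.2]
    have m2 : x * (τ - c) ≤ δ := by nlinarith [hτ.1, hτ.2]
    have m3 : ε ^ 2 * (3 / 2 * δ) ≤ ε * δ := by rw [hε]; nlinarith
    have m4 : -(ε * δ ^ 2) ≤ ε * δ ^ 2 * x := by
      have : 0 < ε * δ ^ 2 := by positivity
      nlinarith
    have m5 : 0 < ε * δ ^ 2 := by positivity
    have m6 := mul_le_mul_of_nonneg_left m1 (sq_nonneg ε)
    have m7 := mul_le_mul_of_nonneg_left m2 hε0.le
    have hmem := hin' (by linarith) (by linarith) (by linarith)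
    refine ⟨_, hmem, (x + inner ℝ (p₀ + (ζ - ε * x * c) • a + (y - ε * x * (c ^ 2 + 1) / 2) • b)
      (e + w c) / ‖e + w c‖ ^ 2) * ‖e + w c‖, ?_⟩
    beta_reduce
    rw [← hcdef, smul_smul, mul_assoc _ ‖e + w c‖, mul_inv_cancel₀ (norm_ne_zero_iff.2 (hfac c).1),
      mul_one, add_smul, add_comm (x • _), ← add_assoc, ← eq_proj_add]
    simp only [hw]
    module

/-- covering by cylinders with triangular bases of total area exactly `A` -/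
def TriCov (ι : Type) [Fintype ι] (K : Set E3) (A : ℝ) : Prop :=
  ∃ u p q r : ι → E3, (∀ i, ‖u i‖ = 1) ∧
    (∀ i, inner ℝ (p i) (u i) = 0 ∧ inner ℝ (q i) (u i) = 0 ∧ inner ℝ (r i) (u i) = 0) ∧
    K ⊆ ⋃ i, {x : E3 | ∃ b ∈ convexHull ℝ {p i, q i, r i}, ∃ t : ℝ, x = b + t • u i} ∧
    ∑ i, (μHE[2] (convexHull ℝ ({p i, q i, r i} : Set E3))).toReal = A

lemma TriCov.reindex {ι κ : Type} [Fintype ι] [Fintype κ] (e : κ ≃ ι) {K : Set E3} {A : ℝ}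
    (h : TriCov ι K A) : TriCov κ K A := by
  obtain ⟨u, p, q, r, h1, h2, h3, h4⟩ := h
  refine ⟨u ∘ e, p ∘ e, q ∘ e, r ∘ e, fun i => h1 _, fun i => h2 _, fun x hx => ?_, ?_⟩
  · obtain ⟨i, hi⟩ := mem_iUnion.1 (h3 hx)
    exact mem_iUnion.2 ⟨e.symm i, by simpa using hi⟩
  · rw [← h4]
    exact Equiv.sum_comp e (fun i => (μHE[2] (convexHull ℝ ({p i, q i, r i} : Set E3))).toReal)

lemma norm_of_sq {v : E3} (h : v 0 ^ 2 + v 1 ^ 2 + v 2 ^ 2 = 1) : ‖v‖ = 1 := by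
  have := normsq3 v
  nlinarith [norm_nonneg v]

lemma TriCov.pad {ι : Type} [Fintype ι] {K : Set E3} {A : ℝ} (h : TriCov ι K A) (k : ℕ) {A' : ℝ}
    (hA' : 0 ≤ A') : TriCov (ι ⊕ Fin (k + 1)) K (A + A') := by
  obtain ⟨u, p, q, r, h1, h2, h3, h4⟩ := h
  have hv : ‖(!₂[0, 0, 1] : E3)‖ = 1 := norm_of_sq (by simp)
  refine ⟨Sum.elim u (fun _ => !₂[0, 0, 1]), Sum.elim p (fun _ => 0),
    Sum.elim q (fun j => !₂[if j = 0 then 2 * A' else 0, 0, 0]), Sum.elim r (fun _ => !₂[0, 1, 0]),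
    ?_, ?_, fun x hx => ?_, ?_⟩
  · rintro (i | j)
    · exact h1 i
    · exact hv
  · rintro (i | j)
    · exact h2 i
    · simp [inner3]
  · obtain ⟨i, hi⟩ := mem_iUnion.1 (h3 hx)
    exact mem_iUnion.2 ⟨Sum.inl i, hi⟩
  · rw [Fintype.sum_sum_type]
    simp only [Sum.elim_inl, Sum.elim_inr, h4]
    congr 1
    have : ∀ j : Fin (k + 1), (μHE[2] (convexHull ℝ ({0, !₂[if j = 0 then 2 * A' else 0, 0, 0],
        !₂[0, 1, 0]} : Set E3))).toReal = if j = 0 then A' else 0 := by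
      intro j
      rw [area_triangle_toReal, sub_zero, sub_zero, gr_of_perp (d := !₂[0, 0, 1])
        (by intro h; simp [h] at hv) (by simp [inner3]) (by simp [inner3]), hv]
      split_ifs
      · simp [det3, abs_of_nonneg hA']
      · simp [det3]
    simp [this]

theorem exists_triCov (N : ℕ) (hN : 2 * 10 ^ 6 ≤ N) :
    ∃ A : ℝ, A ≤ Real.sqrt 2 * (1 / 2 - 1 / 10 ^ 8) ∧ TriCov (Fin N ⊕ Fin N) K0 A := by
  have hs : Real.sqrt 2 ^ 2 = 2 := Real.sq_sqrt (by norm_num)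
  have hs0 : 0 < Real.sqrt 2 := by positivity
  obtain ⟨u, p, q, r, h1, h2, h3, h4⟩ := family 0 !₂[1, 0, 0] !₂[0, 0, Real.sqrt 2] !₂[0, 1, 0]
    (norm_of_sq (by simp)) (by simp [inner3]) (by simp [inner3]) (by simp [normsq3])
    (by simp [normsq3]) (by simp [inner3]) rfl N hN
  obtain ⟨u', p', q', r', h1', h2', h3', h4'⟩ := family !₂[0, 0, Real.sqrt 2] !₂[0, 1, 0]
    !₂[0, 0, -Real.sqrt 2] !₂[-1, 0, 0]
    (norm_of_sq (by simp)) (by simp [inner3]) (by simp [inner3]) (by simp [normsq3])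
    (by simp [normsq3]) (by simp [inner3]) rfl N hN
  refine ⟨_, ?_, Sum.elim u u', Sum.elim p p', Sum.elim q q', Sum.elim r r', ?_, ?_,
    fun X hX => ?_, rfl⟩
  · rw [Fintype.sum_sum_type]
    simp only [Sum.elim_inl, Sum.elim_inr]
    linarith
  · rintro (i | j)
    · exact h1 i
    · exact h1' j
  · rintro (i | j)
    · exact h2 i
    · exact h2' j
  · obtain ⟨hy, hx⟩ := mem_K0 hX
    set ζ := X 2 / Real.sqrt 2 with hζ
    have hζ0 : 0 ≤ ζ := (abs_nonneg _).trans hy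
    have hζ1 : 0 ≤ 1 - ζ := (abs_nonneg _).trans hx
    have hX2 : X 2 = ζ * Real.sqrt 2 := by rw [hζ]; field_simp
    obtain ⟨t, ht, e1, c1⟩ := h4 (X 0) (X 1) ζ (by linarith) hy
    obtain ⟨t', ht', e2, c2⟩ := h4' (X 1) (-X 0) (1 - ζ) (by linarith) (by rwa [abs_neg])
    by_cases hc1 : ζ - 1 / 500 * X 0 * t ≤ 1 / 2 + (1 / 500) ^ 2 * rr t
    · obtain ⟨i, z, hz, σ, hσ⟩ := c1 hc1
      refine mem_iUnion.2 ⟨Sum.inl i, z, hz, σ, ?_⟩
      simp only [Sum.elim_inl]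
      rw [← hσ]
      ext j; fin_cases j <;> simp [hX2]
    by_cases hc2 : 1 - ζ - 1 / 500 * X 1 * t' ≤ 1 / 2 + (1 / 500) ^ 2 * rr t'
    · obtain ⟨i, z, hz, σ, hσ⟩ := c2 hc2
      refine mem_iUnion.2 ⟨Sum.inr i, z, hz, σ, ?_⟩
      simp only [Sum.elim_inr]
      rw [← hσ]
      ext j; fin_cases j <;> simp [hX2]
      ring
    exact (key_ineq rfl ht ht' hx hy e1 e2 (not_le.1 hc1) (not_le.1 hc2)).elim

end Crest.Agent.H7.Cyl
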