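import Mathlib
import Crest.Agent.H7.CylArea

set_option autoImplicit false

open MeasureTheory Set Filter Metric
open scoped ENNReal Topology

namespace Crest.Agent.H7.Cyl

lemma exists_cthick {D : Set E2} (hD : IsCompact D) {θ : ℝ} (hθ : 0 < θ) :
    ∃ r : ℝ, 0 < r ∧ volume.real (cthickening r D) ≤ volume.real D + θ := by
  have h1 := tendsto_measure_cthickening_of_isCompact (μ := volume) hD
  have h2 := (ENNReal.tendsto_toReal hD.measure_lt_top.ne).comp h1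
  have h3 : ∀ᶠ r in 𝓝 (0:ℝ), volume.real (cthickening r D) < volume.real D + θ :=
    h2.eventually (gt_mem_nhds (by simp only [measureReal_def]; linarith))
  obtain ⟨r, hr1, hr2⟩ := ((h3.filter_mono nhdsWithin_le_nhds).and
    (self_mem_nhdsWithin (a := (0:ℝ)) (s := Ioi 0))).exists
  exact ⟨r, hr2, hr1.le⟩

/-- grid index -/
noncomputable def idx (δ : ℝ) (x : E2) : ℤ × ℤ := (⌊x 0 / δ⌋, ⌊x 1 / δ⌋)

/-- grid corner -/
noncomputable def corner (δ : ℝ) (k : ℤ × ℤ) : E2 := !₂[k.1 * δ, k.2 * δ]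

lemma idx_eq_iff {δ : ℝ} (hδ : 0 < δ) {x : E2} {k : ℤ × ℤ} :
    idx δ x = k ↔ (x 0, x 1) ∈ Ico (k.1 * δ) (k.1 * δ + δ) ×ˢ Ico (k.2 * δ) (k.2 * δ + δ) := by
  simp only [idx, Prod.ext_iff, Int.floor_eq_iff, le_div_iff₀ hδ, div_lt_iff₀ hδ, mem_prod, mem_Ico,
    add_mul, one_mul]

lemma cell_eq {δ : ℝ} (hδ : 0 < δ) (k : ℤ × ℤ) : idx δ ⁻¹' {k} =
    (fun x : E2 => (x 0, x 1)) ⁻¹' (Ico (k.1 * δ) (k.1 * δ + δ) ×ˢ Ico (k.2 * δ) (k.2 * δ + δ)) := by
  ext x; exact idx_eq_iff hδ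

lemma measurableSet_cell {δ : ℝ} (hδ : 0 < δ) (k : ℤ × ℤ) : MeasurableSet (idx δ ⁻¹' {k}) := by
  rw [cell_eq hδ]
  exact (measurableSet_Ico.prod measurableSet_Ico).preimage (by fun_prop)

lemma volume_cell {δ : ℝ} (hδ : 0 < δ) (k : ℤ × ℤ) :
    volume (idx δ ⁻¹' {k}) = ENNReal.ofReal (δ ^ 2) := by
  rw [cell_eq hδ, volume_preimage_E2, Measure.volume_eq_prod, Measure.prod_prod]
  simp [sq, ENNReal.ofReal_mul hδ.le]

lemma dist_le_of_idx {δ : ℝ} (hδ : 0 < δ) {x y : E2} (h : idx δ x = idx δ y) : dist x y ≤ 2 * δ := by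
  obtain ⟨⟨a1, a2⟩, a3, a4⟩ := (idx_eq_iff hδ).1 h
  obtain ⟨⟨b1, b2⟩, b3, b4⟩ := (idx_eq_iff hδ).1 (rfl : idx δ y = idx δ y)
  simp only at a1 a2 a3 a4 b1 b2 b3 b4
  rw [dist_eq_norm]
  refine le_of_sq_le_sq ?_ (by positivity)
  rw [normsq2]
  simp only [PiLp.sub_apply]
  nlinarith

lemma idx_corner {δ : ℝ} (hδ : 0 < δ) (k : ℤ × ℤ) : idx δ (corner δ k) = k := by
  rw [idx_eq_iff hδ]; simp [corner, hδ]

lemma finite_idx {δ : ℝ} (hδ : 0 < δ) {D : Set E2} (hD : IsCompact D) : (idx δ '' D).Finite := by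
  obtain ⟨R, hR⟩ := hD.isBounded.exists_norm_le
  refine ((Set.finite_Icc ⌊-R / δ⌋ ⌊R / δ⌋).prod (Set.finite_Icc ⌊-R / δ⌋ ⌊R / δ⌋)).subset ?_
  rintro _ ⟨x, hx, rfl⟩
  have h : ∀ i, |x i| ≤ R := fun i => (PiLp.norm_apply_le x i).trans (hR x hx)
  refine ⟨⟨?_, ?_⟩, ?_, ?_⟩ <;> refine Int.floor_le_floor ?_ <;> gcongr
  exacts [(abs_le.1 (h 0)).1, (abs_le.1 (h 0)).2, (abs_le.1 (h 1)).1, (abs_le.1 (h 1)).2]

lemma grid {D : Set E2} (hD : IsCompact D) {θ : ℝ} (hθ : 0 < θ) :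
    ∃ δ₀ : ℝ, 0 < δ₀ ∧ ∀ δ : ℝ, 0 < δ → δ ≤ δ₀ → ∃ S : Finset (ℤ × ℤ), (S : Set (ℤ × ℤ)) = idx δ '' D ∧
      ∀ (f : E2 → ℝ) (φ : ℤ × ℤ → ℝ), IntegrableOn f D → (∀ k ∈ S, φ k ≤ 1) →
        (∀ p ∈ D, φ (idx δ p) ≤ f p) → ∑ k ∈ S, δ ^ 2 * φ k ≤ (∫ p in D, f p) + θ := by
  obtain ⟨r, hr, hrθ⟩ := exists_cthick hD hθ
  refine ⟨r / 2, by positivity, fun δ hδ hδr => ⟨(finite_idx hδ hD).toFinset, by simp, ?_⟩⟩
  intro f φ hf hφ1 hφ
  set S := (finite_idx hδ hD).toFinset with hS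
  have hm := measurableSet_cell hδ
  have hDm := hD.measurableSet
  have hfin : ∀ k, volume (idx δ ⁻¹' {k}) ≠ ∞ := fun k => by rw [volume_cell hδ]; simp
  have h1 : ∀ k ∈ S, δ ^ 2 * φ k ≤ (∫ p in idx δ ⁻¹' {k} ∩ D, f p) +
      volume.real (idx δ ⁻¹' {k} \ D) := by
    intro k hk
    have e : volume.real (idx δ ⁻¹' {k} ∩ D) + volume.real (idx δ ⁻¹' {k} \ D) = δ ^ 2 := by
      rw [measureReal_inter_add_sdiff hDm (hfin k), measureReal_def, volume_cell hδ,
        ENNReal.toReal_ofReal (by positivity)]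
    have l := setIntegral_ge_of_const_le_real (μ := volume) (f := f) (c := φ k) ((hm k).inter hDm)
      (measure_ne_top_of_subset inter_subset_left (hfin k))
      (fun x hx => by have := hφ x hx.2; rwa [show idx δ x = k from hx.1] at this)
      (hf.mono_set inter_subset_right)
    have := hφ1 k hk
    have : 0 ≤ volume.real (idx δ ⁻¹' {k} \ D) := measureReal_nonneg
    rw [← e]
    nlinarith
  refine (Finset.sum_le_sum h1).trans ?_
  have hdis : ∀ k l : ℤ × ℤ, k ≠ l → Disjoint (idx δ ⁻¹' {k}) (idx δ ⁻¹' {l}) := fun k l hkl =>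
    (disjoint_singleton.2 hkl).preimage _
  rw [Finset.sum_add_distrib, ← integral_biUnion_finset S (fun k _ => (hm k).inter hDm)
    (fun k _ l _ hkl => (hdis k l hkl).mono inter_subset_left inter_subset_left)
    (fun k _ => hf.mono_set inter_subset_right),
    ← measureReal_biUnion_finset (fun k _ l _ hkl => (hdis k l hkl).mono sdiff_subset sdiff_subset)
      (fun k _ => (hm k).diff hDm) (fun k _ => measure_ne_top_of_subset sdiff_subset (hfin k))]
  have e1 : ⋃ k ∈ S, idx δ ⁻¹' {k} ∩ D = D := by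
    ext x
    simp only [mem_iUnion, mem_inter_iff, mem_preimage, mem_singleton_iff, hS, Finite.mem_toFinset]
    exact ⟨fun ⟨_, _, _, h⟩ => h, fun h => ⟨_, ⟨x, h, rfl⟩, rfl, h⟩⟩
  have e2 : ⋃ k ∈ S, idx δ ⁻¹' {k} \ D ⊆ cthickening r D \ D := by
    intro x hx
    simp only [mem_iUnion, Set.mem_sdiff, mem_preimage, mem_singleton_iff, hS, Finite.mem_toFinset] at hx
    obtain ⟨k, ⟨y, hy, rfl⟩, h1, h2⟩ := hx
    exact ⟨mem_cthickening_of_dist_le x y r D hy ((dist_le_of_idx hδ h1).trans (by linarith)), h2⟩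
  have hc : volume (cthickening r D) ≠ ∞ := hD.cthickening.measure_lt_top.ne
  rw [e1]
  have := measureReal_mono (μ := volume) e2 (measure_ne_top_of_subset sdiff_subset hc)
  rw [measureReal_sdiff (self_subset_cthickening D) hDm hc] at this
  linarith

/-- closed slab -/
def slab (n : E2) (η : ℝ) (j : ℤ) : Set E2 := {x | j * η ≤ inner ℝ n x ∧ inner ℝ n x ≤ j * η + η}

lemma isClosed_slab (n : E2) (η : ℝ) (j : ℤ) : IsClosed (slab n η j) := by
  have : Continuous fun x : E2 => inner ℝ n x := by fun_prop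
  exact (isClosed_le continuous_const this).inter (isClosed_le this continuous_const)

lemma volume_line {n : E2} (hn : n ≠ 0) (c : ℝ) : volume {x : E2 | inner ℝ n x = c} = 0 := by
  let s : AffineSubspace ℝ E2 :=
    { carrier := {x : E2 | inner ℝ n x = c}
      smul_vsub_vadd_mem' := by
        intro t x y z hx hy hz
        simp only [mem_ofPred_eq] at hx hy hz ⊢
        simp [inner_add_right, inner_smul_right, inner_sub_right, hx, hy, hz] }
  refine Measure.addHaar_affineSubspace volume s fun h => ?_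
  have h0 : (0 : E2) ∈ s := by rw [h]; trivial
  have h1 : n ∈ s := by rw [h]; trivial
  have h0' : inner ℝ n (0 : E2) = c := h0
  have h1' : inner ℝ n n = c := h1
  rw [inner_zero_right] at h0'
  exact hn (inner_self_eq_zero.1 (h1'.trans h0'.symm))

lemma sum_slab_le {n : E2} (hn : n ≠ 0) {η : ℝ} (hη : 0 < η) (S : Finset ℤ) {W : Set E2}
    (hW : IsCompact W) : ∑ j ∈ S, volume.real (W ∩ slab n η j) ≤ volume.real W := by
  rw [← measureReal_biUnion_finset₀ ?_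
    (fun j _ => (hW.inter_right (isClosed_slab n η j)).measurableSet.nullMeasurableSet)
    (fun j _ => (hW.inter_right (isClosed_slab n η j)).measure_lt_top.ne)]
  · exact measureReal_mono (iUnion₂_subset fun j _ => inter_subset_left) hW.measure_lt_top.ne
  · have key : ∀ j k : ℤ, j < k → volume ((W ∩ slab n η j) ∩ (W ∩ slab n η k)) = 0 := by
      intro j k hjk
      refine measure_mono_null ?_ (volume_line hn (k * η))
      rintro x ⟨⟨-, -, h1⟩, -, h2, -⟩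
      have : (j : ℝ) + 1 ≤ k := by exact_mod_cast hjk
      show inner ℝ n x = k * η
      nlinarith
    intro j _ k _ hjk
    rcases lt_or_gt_of_ne hjk with h | h
    · exact key j k h
    · exact AEDisjoint.symm (key k j h)

lemma exists_slabs (n : E2) {η : ℝ} (hη : 0 < η) {Q : Set E2} (hQ : IsCompact Q) :
    ∃ S : Finset ℤ, ∀ p ∈ Q, ∃ j ∈ S, p ∈ slab n η j := by
  obtain ⟨R, hR⟩ := hQ.exists_bound_of_continuousOn (f := fun p => inner ℝ n p) (by fun_prop)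
  refine ⟨Finset.Icc ⌊-R / η⌋ ⌊R / η⌋, fun p hp => ⟨⌊inner ℝ n p / η⌋, ?_, ?_, ?_⟩⟩
  · have := abs_le.1 (hR p hp)
    rw [Finset.mem_Icc]
    constructor <;> refine Int.floor_le_floor ?_ <;> gcongr
    exacts [this.1, this.2]
  · rw [← le_div_iff₀ hη]; exact Int.floor_le _
  · have := Int.lt_floor_add_one (inner ℝ n p / η)
    rw [div_lt_iff₀ hη] at this
    linarith

end Crest.Agent.H7.Cyl
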