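import Mathlib
import Crest.Agent.H7.CylGrid

set_option autoImplicit false

open MeasureTheory Set Filter Metric
open scoped ENNReal Topology

namespace Crest.Agent.H7.Cyl

/-- covering by sheared cylinders with compact bases -/
def CCov (K : Set (ℝ × E2)) (A : ℝ) : Prop :=
  ∃ (ι : Type) (_ : Fintype ι) (T : ι → Set E2) (g : ι → E2), (∀ i, IsCompact (T i)) ∧
    (∀ z ∈ K, ∃ i, z.2 - z.1 • g i ∈ T i) ∧ ∑ i, volume.real (T i) ≤ A

lemma CCov.mono {K K' : Set (ℝ × E2)} {A A' : ℝ} (h : CCov K A) (hK : K' ⊆ K) (hA : A ≤ A') :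
    CCov K' A' := by
  obtain ⟨ι, _, T, g, h1, h2, h3⟩ := h
  exact ⟨ι, inferInstance, T, g, h1, fun z hz => h2 z (hK hz), h3.trans hA⟩

lemma CCov.shift {K : Set (ℝ × E2)} {A : ℝ} (h : CCov K A) (g₀ : E2) :
    CCov {z | (z.1, z.2 - z.1 • g₀) ∈ K} A := by
  obtain ⟨ι, _, T, g, h1, h2, h3⟩ := h
  refine ⟨ι, inferInstance, T, fun i => g₀ + g i, h1, fun z hz => ?_, h3⟩
  obtain ⟨i, hi⟩ := h2 _ hz
  exact ⟨i, by simpa [smul_add, sub_sub] using hi⟩

lemma CCov.biUnion {κ : Type} (S : Finset κ) {K : κ → Set (ℝ × E2)} {A : κ → ℝ}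
    (h : ∀ j, CCov (K j) (A j)) : CCov (⋃ j ∈ S, K j) (∑ j ∈ S, A j) := by
  choose ι inst T g h1 h2 h3 using h
  refine ⟨Σ j : S, ι j, inferInstance, fun x => T x.1 x.2, fun x => g x.1 x.2, fun x => h1 _ _,
    fun z hz => ?_, ?_⟩
  · obtain ⟨j, hj, hz⟩ := mem_iUnion₂.1 hz
    obtain ⟨i, hi⟩ := h2 j z hz
    exact ⟨⟨⟨j, hj⟩, i⟩, hi⟩
  · rw [Fintype.sum_sigma, ← Finset.sum_coe_sort S]
    exact Finset.sum_le_sum fun j _ => h3 j

/-- the ruled set -/
def ruled (L : ℝ) (A : E2 → E2) (Q : Set E2) : Set (ℝ × E2) :=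
  {z | ∃ p ∈ Q, |z.1| ≤ L ∧ z.2 = p + z.1 • A p}

/-- area-preserving coverability -/
def Good (L : ℝ) (A : E2 → E2) : Prop :=
  ∀ Q : Set E2, IsCompact Q → ∀ θ : ℝ, 0 < θ → CCov (ruled L A Q) (volume.real Q + θ)

lemma good_zero (L : ℝ) : Good L (fun _ => 0) := by
  intro Q hQ θ hθ
  refine ⟨Unit, inferInstance, fun _ => Q, fun _ => 0, fun _ => hQ, ?_, by simp [hθ.le]⟩
  rintro z ⟨p, hp, -, h⟩
  exact ⟨(), by simpa [h] using hp⟩

lemma Good.step {L : ℝ} {N A : E2 → E2} (hN : Good L N)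
    (hlin : ∀ (p v : E2) (σ : ℝ), N (p + σ • v) = N p + σ • N v) {n m : E2} (hn : n ≠ 0)
    (hA : ∀ p, A p = N p + inner ℝ n p • m) (v : ℝ → E2) (hv : Continuous v)
    (hv1 : ∀ s, |s| ≤ L → v s + s • N (v s) = s • m)
    (hv2 : ∀ s, |s| ≤ L → -1 ≤ inner ℝ n (v s) ∧ inner ℝ n (v s) ≤ 0) : Good L A := by
  intro Q hQ θ hθ
  obtain ⟨r, hr, hrθ⟩ := exists_cthick hQ (half_pos hθ)
  obtain ⟨C₀, hC₀⟩ := (isCompact_Icc (a := -L) (b := L)).exists_bound_of_continuousOn hv.continuousOn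
  obtain ⟨C, hC, hCv⟩ : ∃ C : ℝ, 0 < C ∧ ∀ s, |s| ≤ L → ‖v s‖ ≤ C :=
    ⟨max C₀ 1, by positivity, fun s hs => (hC₀ s (abs_le.1 hs)).trans (le_max_left _ _)⟩
  have hη : 0 < r / C := by positivity
  obtain ⟨S, hS⟩ := exists_slabs n hη hQ
  have hW : IsCompact (cthickening r Q) := hQ.cthickening
  have h1 := fun j : ℤ => (hN _ (hW.inter_right (isClosed_slab n (r / C) j)) (θ / 2 / (S.card + 1))
    (by positivity)).shift ((j * (r / C)) • m)
  refine (CCov.biUnion S h1).mono ?_ ?_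
  · rintro ⟨s, ξ⟩ ⟨p, hp, hs, hξ⟩
    simp only at hs hξ
    obtain ⟨j, hj, h1, h2⟩ := hS p hp
    obtain ⟨σ, hσ⟩ : ∃ σ, σ = inner ℝ n p - j * (r / C) := ⟨_, rfl⟩
    have hσ0 : 0 ≤ σ := by linarith
    have hσ1 : σ ≤ r / C := by linarith
    refine mem_iUnion₂.2 ⟨j, hj, p + σ • v s, ⟨?_, ?_, ?_⟩, hs, ?_⟩
    · refine mem_cthickening_of_dist_le _ p r Q hp ?_
      rw [dist_self_add_left, norm_smul, Real.norm_of_nonneg hσ0]
      calc σ * ‖v s‖ ≤ r / C * C := by have := hCv s hs; gcongr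
        _ = r := by field_simp
    · rw [inner_add_right, inner_smul_right]
      nlinarith [(hv2 s hs).1]
    · rw [inner_add_right, inner_smul_right]
      nlinarith [(hv2 s hs).2]
    · simp only [hξ, hA, hlin]
      have e : inner ℝ n p = σ + j * (r / C) := by linarith
      have e2 : σ • (v s + s • N (v s)) = σ • s • m := by rw [hv1 s hs]
      rw [e]
      linear_combination (norm := module) -e2
  · rw [Finset.sum_add_distrib]
    have := sum_slab_le hn hη S hW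
    have h2 : ∑ j ∈ S, θ / 2 / (S.card + 1) ≤ θ / 2 := by
      rw [Finset.sum_const, nsmul_eq_mul, mul_div_assoc', div_le_iff₀ (by positivity)]
      nlinarith
    linarith

/-- traceless matrix -/
def MM (a b c : ℝ) (p : E2) : E2 := !₂[a * p 0 + b * p 1, c * p 0 - a * p 1]

lemma MM_lin (a b c : ℝ) (p v : E2) (σ : ℝ) : MM a b c (p + σ • v) = MM a b c p + σ • MM a b c v := by
  ext i; fin_cases i <;> simp [MM] <;> ring

lemma good_nil (L : ℝ) {a b c : ℝ} (h : a ^ 2 + b * c = 0) : Good L (MM a b c) := by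
  by_cases hb : b = 0
  · have ha : a = 0 := by subst hb; simpa using h
    subst hb ha
    refine (good_zero L).step (by simp) (n := !₂[1, 0]) (m := !₂[0, c]) ?_ ?_
      (fun s => s • !₂[0, c]) (by fun_prop) (by simp) ?_
    · intro h; simpa using congrArg (fun x : E2 => x 0) h
    · intro p; ext i; fin_cases i <;> simp [MM, inner2, mul_comm]
    · intro s _; simp [inner2]
  · refine (good_zero L).step (by simp) (n := !₂[a, b]) (m := !₂[1, -a / b]) ?_ ?_
      (fun s => s • !₂[1, -a / b]) (by fun_prop) (by simp) ?_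
    · intro h; exact hb (by simpa using congrArg (fun x : E2 => x 1) h)
    · intro p; ext i; fin_cases i <;> simp [MM, inner2]
      field_simp
      linear_combination (p 0) * h
    · intro s _
      have : inner ℝ (!₂[a, b] : E2) (s • !₂[1, -a / b]) = 0 := by
        simp [inner2]; field_simp; ring
      rw [this]; norm_num

lemma good_MM {L : ℝ} {a b c : ℝ} (h0 : 0 ≤ a ^ 2 + b * c) (h1 : L ^ 2 * (a ^ 2 + b * c) ≤ 1) :
    Good L (MM a b c) := by
  obtain ⟨μ, hμ⟩ : ∃ μ, μ = a ^ 2 + b * c := ⟨_, rfl⟩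
  have key : ∀ s, |s| ≤ L → -1 ≤ -(s ^ 2 * μ) ∧ -(s ^ 2 * μ) ≤ 0 := by
    intro s hs
    have : s ^ 2 ≤ L ^ 2 := by rw [← sq_abs]; gcongr
    rw [hμ]
    constructor <;> nlinarith [sq_nonneg s]
  by_cases hc : c ≠ 0
  · refine (good_nil L (a := a) (b := b - μ / c) (c := c) (by field_simp; rw [hμ]; ring)).step
      (MM_lin _ _ _) (n := !₂[0, 1]) (m := !₂[μ / c, 0]) ?_ ?_
      (fun s => (s * (μ / c)) • (!₂[1, 0] - s • !₂[a, c])) (by fun_prop) ?_ ?_
    · intro h; simpa using congrArg (fun x : E2 => x 1) h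
    · intro p; ext i; fin_cases i <;> simp [MM, inner2]
      ring
    · intro s _; ext i; fin_cases i <;> simp [MM] <;> field_simp
      · rw [hμ]; ring
      · ring
    · intro s hs
      have : inner ℝ (!₂[0, 1] : E2) ((s * (μ / c)) • (!₂[1, 0] - s • !₂[a, c])) = -(s ^ 2 * μ) := by
        simp [inner2]; field_simp
      rw [this]; exact key s hs
  by_cases hb : b ≠ 0
  · refine (good_nil L (a := a) (b := b) (c := c - μ / b) (by field_simp; rw [hμ]; ring)).step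
      (MM_lin _ _ _) (n := !₂[1, 0]) (m := !₂[0, μ / b]) ?_ ?_
      (fun s => (s * (μ / b)) • (!₂[0, 1] - s • !₂[b, -a])) (by fun_prop) ?_ ?_
    · intro h; simpa using congrArg (fun x : E2 => x 0) h
    · intro p; ext i; fin_cases i <;> simp [MM, inner2]
      ring
    · intro s _; ext i; fin_cases i <;> simp [MM] <;> field_simp
      · ring
      · rw [hμ]; ring
    · intro s hs
      have : inner ℝ (!₂[1, 0] : E2) ((s * (μ / b)) • (!₂[0, 1] - s • !₂[b, -a])) = -(s ^ 2 * μ) := by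
        simp [inner2]; field_simp
      rw [this]; exact key s hs
  push Not at hb hc
  subst hb hc
  refine (good_nil L (a := a / 2) (b := a / 2) (c := -a / 2) (by ring)).step
    (MM_lin _ _ _) (n := !₂[1, -1]) (m := !₂[a / 2, a / 2]) ?_ ?_
    (fun s => (s * (a / 2)) • (!₂[1, 1] - s • !₂[a, -a])) (by fun_prop) ?_ ?_
  · intro h; simpa using congrArg (fun x : E2 => x 0) h
  · intro p; ext i; fin_cases i <;> simp [MM, inner2] <;> ring
  · intro s _; ext i; fin_cases i <;> simp [MM] <;> ring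
  · intro s hs
    have : inner ℝ (!₂[1, -1] : E2) ((s * (a / 2)) • (!₂[1, 1] - s • !₂[a, -a])) = -(s ^ 2 * μ) := by
      simp [inner2, hμ]; ring
    rw [this]; exact key s hs

/-- covering by sheared cylinders with square bases -/
lemma CCov.toSq {K : Set (ℝ × E2)} {A : ℝ} (h : CCov K A) {θ : ℝ} (hθ : 0 < θ) :
    ∃ (ι : Type) (_ : Fintype ι) (c : ι → E2) (l : ι → ℝ) (g : ι → E2), (∀ i, 0 < l i) ∧
      (∀ z ∈ K, ∃ i, ∃ x ∈ Icc (0:ℝ) 1, ∃ y ∈ Icc (0:ℝ) 1,
        z.2 = c i + x • !₂[l i, 0] + y • !₂[0, l i] + z.1 • g i) ∧ ∑ i, l i ^ 2 ≤ A + θ := by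
  obtain ⟨ι, _, T, g, h1, h2, h3⟩ := h
  have hθ' : 0 < θ / (Fintype.card ι + 1) := by positivity
  choose δ hδ hS using fun i => grid (h1 i) hθ'
  choose S hS1 hS2 using fun i => hS i (δ i) (hδ i) le_rfl
  refine ⟨Σ i, S i, inferInstance, fun x => corner (δ x.1) x.2, fun x => δ x.1, fun x => g x.1,
    fun x => hδ _, fun z hz => ?_, ?_⟩
  · obtain ⟨i, hi⟩ := h2 z hz
    have hk : idx (δ i) (z.2 - z.1 • g i) ∈ S i := by
      rw [← Finset.mem_coe, hS1]; exact ⟨_, hi, rfl⟩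
    obtain ⟨⟨a1, a2⟩, a3, a4⟩ := (idx_eq_iff (hδ i)).1 (rfl : idx (δ i) (z.2 - z.1 • g i) = _)
    set k := idx (δ i) (z.2 - z.1 • g i)
    simp only at a1 a2 a3 a4
    have := hδ i
    refine ⟨⟨i, k, hk⟩, ((z.2 - z.1 • g i) 0 - k.1 * δ i) / δ i, ⟨by rw [le_div_iff₀ this]; linarith,
      by rw [div_le_iff₀ this]; linarith⟩, ((z.2 - z.1 • g i) 1 - k.2 * δ i) / δ i,
      ⟨by rw [le_div_iff₀ this]; linarith, by rw [div_le_iff₀ this]; linarith⟩, ?_⟩
    ext j; fin_cases j <;> simp [corner] <;> field_simp <;> ring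
  · rw [Fintype.sum_sigma]
    have h4 : ∀ i, ∑ k : S i, δ i ^ 2 ≤ volume.real (T i) + θ / (Fintype.card ι + 1) := by
      intro i
      have := hS2 i (fun _ => 1) (fun _ => 1) (integrableOn_const (h1 i).measure_lt_top.ne)
        (fun _ _ => le_rfl) (fun _ _ => le_rfl)
      simpa using this
    refine (Finset.sum_le_sum fun i _ => h4 i).trans ?_
    rw [Finset.sum_add_distrib]
    have h5 : ∑ _i : ι, θ / (Fintype.card ι + 1) ≤ θ := by
      rw [Finset.sum_const, nsmul_eq_mul, Finset.card_univ, mul_div_assoc',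
        div_le_iff₀ (by positivity)]
      nlinarith
    linarith

end Crest.Agent.H7.Cyl
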