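import Mathlib
import Crest.Agent.H7.CylLin

set_option autoImplicit false

open MeasureTheory Set Filter Metric
open scoped ENNReal Topology

namespace Crest.Agent.H7.Cyl

/-- weighted covering by sheared cylinders with square bases -/
def WCov (w : E2 → ℝ) (K : Set (ℝ × E2)) (A : ℝ) : Prop :=
  ∃ (ι : Type) (_ : Fintype ι) (c : ι → E2) (l : ι → ℝ) (g : ι → E2), (∀ i, 0 < l i) ∧
    (∀ z ∈ K, ∃ i, ∃ x ∈ Icc (0:ℝ) 1, ∃ y ∈ Icc (0:ℝ) 1,
      z.2 = c i + x • !₂[l i, 0] + y • !₂[0, l i] + z.1 • g i) ∧ ∑ i, l i ^ 2 * w (g i) ≤ A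

lemma WCov.mono {w : E2 → ℝ} {K K' : Set (ℝ × E2)} {A A' : ℝ} (h : WCov w K A) (hK : K' ⊆ K)
    (hA : A ≤ A') : WCov w K' A' := by
  obtain ⟨ι, _, c, l, g, h1, h2, h3⟩ := h
  exact ⟨ι, inferInstance, c, l, g, h1, fun z hz => h2 z (hK hz), h3.trans hA⟩

lemma WCov.biUnion {w : E2 → ℝ} {κ : Type} (S : Finset κ) {K : κ → Set (ℝ × E2)} {A : κ → ℝ}
    (h : ∀ j ∈ S, WCov w (K j) (A j)) : WCov w (⋃ j ∈ S, K j) (∑ j ∈ S, A j) := by
  choose ι inst c l g h1 h2 h3 using h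
  refine ⟨Σ j : S, ι j j.2, @Sigma.instFintype _ _ (fun j => inst j j.2) _,
    fun x => c x.1 x.1.2 x.2, fun x => l x.1 x.1.2 x.2, fun x => g x.1 x.1.2 x.2,
    fun x => h1 _ _ _, fun z hz => ?_, ?_⟩
  · obtain ⟨j, hj, hz⟩ := mem_iUnion₂.1 hz
    obtain ⟨i, hi⟩ := h2 j hj z hz
    exact ⟨⟨⟨j, hj⟩, i⟩, hi⟩
  · let _ : ∀ j : S, Fintype (ι j j.2) := fun j => inst j j.2
    rw [Fintype.sum_sigma, ← Finset.sum_coe_sort S]
    exact Finset.sum_le_sum fun j _ => h3 j j.2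

lemma MM_MM (a b c : ℝ) (p : E2) : MM a b c (MM a b c p) = (a ^ 2 + b * c) • p := by
  ext i; fin_cases i <;> simp [MM] <;> ring

lemma model {L a b c : ℝ} (h0 : 0 ≤ a ^ 2 + b * c) (h1 : L ^ 2 * (a ^ 2 + b * c) ≤ 1) {t : ℝ}
    (ht : 0 < t) :
    ∃ (ι : Type) (_ : Fintype ι) (c' : ι → E2) (l : ι → ℝ) (g : ι → E2), (∀ i, 0 < l i) ∧
      (∀ (s : ℝ) (p : E2), |s| ≤ L → p 0 ∈ Icc (-t) (1 + t) → p 1 ∈ Icc (-t) (1 + t) →
        ∃ i, ∃ x ∈ Icc (0:ℝ) 1, ∃ y ∈ Icc (0:ℝ) 1,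
        p + s • MM a b c p = c' i + x • !₂[l i, 0] + y • !₂[0, l i] + s • g i) ∧
      ∑ i, l i ^ 2 ≤ (1 + 2 * t) ^ 2 + 2 * t := by
  set Q : Set E2 := (fun x : E2 => (x 0, x 1)) ⁻¹' (Icc (-t) (1 + t) ×ˢ Icc (-t) (1 + t)) with hQ
  have hQc : IsCompact Q := by
    have : Q = (fun x : ℝ × ℝ => (!₂[x.1, x.2] : E2)) '' (Icc (-t) (1 + t) ×ˢ Icc (-t) (1 + t)) := by
      ext x
      constructor
      · intro hx; exact ⟨(x 0, x 1), hx, by ext i; fin_cases i <;> simp⟩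
      · rintro ⟨y, hy, rfl⟩; simpa [hQ] using hy
    rw [this]
    exact (isCompact_Icc.prod isCompact_Icc).image (by fun_prop)
  have hv : volume.real Q = (1 + 2 * t) ^ 2 := by
    rw [measureReal_def, hQ, volume_preimage_E2, Measure.volume_eq_prod, Measure.prod_prod,
      Real.volume_Icc, ENNReal.toReal_mul, ENNReal.toReal_ofReal (by linarith)]
    ring
  obtain ⟨ι, _, c', l, g, k1, k2, k3⟩ := (good_MM h0 h1 Q hQc t ht).toSq ht
  refine ⟨ι, inferInstance, c', l, g, k1, fun s p hs hp0 hp1 => ?_, by linarith⟩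
  exact k2 (s, p + s • MM a b c p) ⟨p, ⟨hp0, hp1⟩, hs, rfl⟩

lemma local_cov {V : E2 → E2} {A : E2 →L[ℝ] E2} {p₀ : E2} (hV : HasStrictFDerivAt V A p₀)
    {L a b c : ℝ} (hL : 0 < L) (hA : ∀ p, A p = MM a b c p) (h0 : 0 ≤ a ^ 2 + b * c)
    (h1 : L ^ 2 * (a ^ 2 + b * c) < 1) {w : E2 → ℝ} (hw : Continuous w) (hw0 : ∀ g, 0 ≤ w g)
    (hw1 : ∀ g, w g ≤ 1) {κ : ℝ} (hκ : 0 < κ) :
    ∃ r : ℝ, 0 < r ∧ ∃ φ : ℝ, φ ≤ 1 ∧ (∀ p ∈ ball p₀ r, φ ≤ w (V p) + κ) ∧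
      ∀ (δ : ℝ) (k : ℤ × ℤ), 0 < δ → idx δ ⁻¹' {k} ⊆ ball p₀ r →
        WCov w (ruled L V (idx δ ⁻¹' {k})) ((1 + κ) * (δ ^ 2 * φ)) := by
  obtain ⟨μ, hμ⟩ : ∃ μ, μ = a ^ 2 + b * c := ⟨_, rfl⟩
  obtain ⟨t, ht, ht1⟩ : ∃ t : ℝ, 0 < t ∧ (1 + 2 * t) ^ 2 + 2 * t ≤ 1 + κ := by
    refine ⟨min 1 κ / 10, by positivity, ?_⟩
    have a1 := min_le_left 1 κ
    have a2 := min_le_right 1 κ
    have a3 : 0 < min 1 κ := by positivity
    nlinarith
  obtain ⟨ι, _, c', l, g, k1, k2, k3⟩ := model h0 h1.le ht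
  obtain ⟨R, hR0, hR⟩ := (Set.finite_range g).isBounded.exists_pos_norm_le
  obtain ⟨κ', hκ', hwκ⟩ := Metric.continuousAt_iff.1 (hw.continuousAt (x := V p₀)) (κ / 2)
    (by positivity)
  obtain ⟨r₂, hr₂, hVr⟩ := Metric.continuousAt_iff.1 hV.continuousAt (κ' / 2) (by positivity)
  have hD : 0 < 1 - L ^ 2 * μ := by rw [hμ]; linarith
  obtain ⟨ε, hε, hε1⟩ : ∃ ε : ℝ, 0 < ε ∧ 2 * ε * (L * (1 + L * ‖A‖)) ≤ t * (1 - L ^ 2 * μ) := by
    refine ⟨t * (1 - L ^ 2 * μ) / (2 * (L * (1 + L * ‖A‖))), by positivity, le_of_eq ?_⟩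
    field_simp
  obtain ⟨s₁, hs₁, happ⟩ := hV.approximates_deriv_on_nhds (c := ⟨ε, hε.le⟩) (Or.inr hε)
  obtain ⟨r₁, hr₁, hr₁s⟩ := Metric.mem_nhds_iff.1 hs₁
  obtain ⟨r, hr, hrr₁, hrr₂, hrR⟩ : ∃ r : ℝ, 0 < r ∧ r ≤ r₁ ∧ r ≤ r₂ ∧ 4 * r * R ≤ κ' / 2 := by
    refine ⟨min (min r₁ r₂) (κ' / (8 * R)), by positivity,
      (min_le_left _ _).trans (min_le_left _ _), (min_le_left _ _).trans (min_le_right _ _), ?_⟩
    calc 4 * min (min r₁ r₂) (κ' / (8 * R)) * R ≤ 4 * (κ' / (8 * R)) * R := by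
          gcongr; exact min_le_right _ _
      _ = κ' / 2 := by field_simp; ring
  refine ⟨r, hr, min 1 (w (V p₀) + κ / 2), min_le_left _ _, fun p hp => ?_, fun δ k hδ hk => ?_⟩
  · have := hwκ (x := V p) ((hVr (hp.trans_le hrr₂)).trans (by linarith))
    rw [Real.dist_eq, abs_lt] at this
    linarith [min_le_right 1 (w (V p₀) + κ / 2)]
  set q := corner δ k with hq
  have hqk : q ∈ idx δ ⁻¹' {k} := idx_corner hδ k
  have hδr : δ ≤ 4 * r := by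
    have m1 : q + !₂[δ / 2, 0] ∈ idx δ ⁻¹' {k} := by
      refine (idx_eq_iff hδ).2 ?_
      simp [hq, corner, hδ]
      positivity
    have d1 := hk hqk
    have d2 := hk m1
    have d3 := dist_triangle_right (q + !₂[δ / 2, 0]) q p₀
    have d4 : δ / 2 ≤ dist (q + !₂[δ / 2, 0]) q := by
      rw [dist_self_add_left]
      simpa [abs_of_pos hδ] using PiLp.norm_apply_le (!₂[δ / 2, 0] : E2) 0
    rw [mem_ball] at d1 d2
    linarith
  refine ⟨ι, inferInstance, fun i => q + δ • c' i, fun i => δ * l i, fun i => V q + δ • g i,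
    fun i => mul_pos hδ (k1 i), ?_, ?_⟩
  · rintro ⟨s, ξ⟩ ⟨p, hp, hs, hξ⟩
    simp only at hs hξ
    obtain ⟨e, he⟩ : ∃ e, e = V p - V q - A (p - q) := ⟨_, rfl⟩
    have hen : ‖e‖ ≤ ε * (2 * δ) := by
      have := happ p (hr₁s (ball_subset_ball hrr₁ (hk hp))) q (hr₁s (ball_subset_ball hrr₁ (hk hqk)))
      rw [← he, ← dist_eq_norm] at this
      refine this.trans ?_
      have := dist_le_of_idx hδ (show idx δ p = idx δ q from (hp.trans hqk.symm))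
      exact mul_le_mul_of_nonneg_left this hε.le
    have hs2 : s ^ 2 ≤ L ^ 2 := by rw [← sq_abs]; gcongr
    have hDs : 1 - L ^ 2 * μ ≤ 1 - s ^ 2 * μ := by rw [hμ]; nlinarith
    have hDs0 : 0 < 1 - s ^ 2 * μ := hD.trans_le hDs
    obtain ⟨x, hx⟩ : ∃ x, x = (s / (δ * (1 - s ^ 2 * μ))) • (e - s • A e) := ⟨_, rfl⟩
    have hxn : ‖x‖ ≤ t := by
      have a1 : ‖e - s • A e‖ ≤ (1 + L * ‖A‖) * ‖e‖ := by
        refine (norm_sub_le _ _).trans ?_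
        rw [norm_smul, Real.norm_eq_abs]
        have : |s| * ‖A e‖ ≤ L * (‖A‖ * ‖e‖) := by have := A.le_opNorm e; gcongr
        linarith
      rw [hx, norm_smul, Real.norm_eq_abs, abs_div, abs_of_pos (mul_pos hδ hDs0), div_mul_eq_mul_div,
        div_le_iff₀ (mul_pos hδ hDs0)]
      calc |s| * ‖e - s • A e‖ ≤ L * ((1 + L * ‖A‖) * (ε * (2 * δ))) := by
            refine mul_le_mul hs (a1.trans ?_) (norm_nonneg _) hL.le
            gcongr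
        _ = δ * (2 * ε * (L * (1 + L * ‖A‖))) := by ring
        _ ≤ δ * (t * (1 - s ^ 2 * μ)) := by
            refine mul_le_mul_of_nonneg_left (hε1.trans ?_) hδ.le
            gcongr
        _ = _ := by ring
    have hxe : δ • (x + s • A x) = s • e := by
      have : A (A e) = μ • e := by rw [hA, hA, MM_MM, hμ]
      have e3 : x + s • A x = (s / (δ * (1 - s ^ 2 * μ)) * (1 - s ^ 2 * μ)) • e := by
        rw [hx, map_smul, map_sub, map_smul, this]; module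
      rw [e3, smul_smul]
      congr 1
      field_simp
    have hxi : ∀ i, |x i| ≤ t := fun i => (PiLp.norm_apply_le x i).trans hxn
    obtain ⟨⟨a1, a2⟩, a3, a4⟩ := (idx_eq_iff hδ).1 hp
    simp only at a1 a2 a3 a4
    have b0 : (δ⁻¹ • (p - q)) 0 ∈ Icc (0:ℝ) 1 := by
      simp only [hq, corner, PiLp.smul_apply, PiLp.sub_apply, smul_eq_mul, Matrix.cons_val]
      rw [inv_mul_eq_div]
      exact ⟨by rw [le_div_iff₀ hδ]; linarith, by rw [div_le_iff₀ hδ]; linarith⟩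
    have b1 : (δ⁻¹ • (p - q)) 1 ∈ Icc (0:ℝ) 1 := by
      simp only [hq, corner, PiLp.smul_apply, PiLp.sub_apply, smul_eq_mul, Matrix.cons_val]
      rw [inv_mul_eq_div]
      exact ⟨by rw [le_div_iff₀ hδ]; linarith, by rw [div_le_iff₀ hδ]; linarith⟩
    obtain ⟨i, u, hu, v, hv, huv⟩ := k2 s (δ⁻¹ • (p - q) + x) hs
      (by rw [PiLp.add_apply]; have := abs_le.1 (hxi 0); constructor <;> linarith [b0.1, b0.2])
      (by rw [PiLp.add_apply]; have := abs_le.1 (hxi 1); constructor <;> linarith [b1.1, b1.2])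
    refine ⟨i, u, hu, v, hv, ?_⟩
    rw [← hA, map_add, map_smul] at huv
    have e1 : (!₂[δ * l i, 0] : E2) = δ • !₂[l i, 0] := by ext j; fin_cases j <;> simp
    have e2 : (!₂[0, δ * l i] : E2) = δ • !₂[0, l i] := by ext j; fin_cases j <;> simp
    have e4 : δ • δ⁻¹ • (p - q) = p - q := smul_inv_smul₀ hδ.ne' _
    have e5 : δ • δ⁻¹ • A (p - q) = A (p - q) := smul_inv_smul₀ hδ.ne' _
    simp only [hξ, e1, e2]
    have huv' := congrArg (fun y => δ • y) huv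
    linear_combination (norm := module) huv' - hxe - s • he - e4 - s • e5
  · have hφ : ∀ i, w (V q + δ • g i) ≤ min 1 (w (V p₀) + κ / 2) := by
      intro i
      refine le_min (hw1 _) ?_
      have d1 := hVr ((hk hqk).trans_le hrr₂)
      have d2 : dist (V q + δ • g i) (V q) ≤ κ' / 2 := by
        rw [dist_self_add_left, norm_smul, Real.norm_of_nonneg hδ.le]
        refine le_trans ?_ hrR
        have := hR _ ⟨i, rfl⟩
        gcongr
      have := hwκ (x := V q + δ • g i) ((dist_triangle _ (V q) _).trans_lt (by linarith))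
      rw [Real.dist_eq, abs_lt] at this
      linarith
    have hφ0 : 0 ≤ min 1 (w (V p₀) + κ / 2) := by have := hw0 (V p₀); positivity
    calc ∑ i, (δ * l i) ^ 2 * w (V q + δ • g i)
        ≤ ∑ i, l i ^ 2 * (δ ^ 2 * min 1 (w (V p₀) + κ / 2)) := Finset.sum_le_sum fun i _ => by
          rw [mul_pow, mul_comm (δ ^ 2), mul_assoc]
          have := hφ i
          gcongr
      _ ≤ _ := by
          rw [← Finset.sum_mul]
          exact mul_le_mul_of_nonneg_right (k3.trans ht1) (by positivity)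

lemma exists_MM (A : E2 →L[ℝ] E2) (htr : LinearMap.trace ℝ _ A.toLinearMap = 0) :
    ∃ a b c : ℝ, (∀ p, A p = MM a b c p) ∧ LinearMap.det A.toLinearMap = -(a ^ 2 + b * c) := by
  set B := (EuclideanSpace.basisFun (Fin 2) ℝ).toBasis
  rw [LinearMap.trace_eq_matrix_trace ℝ B, Matrix.trace_fin_two] at htr
  rw [← LinearMap.det_toMatrix B, Matrix.det_fin_two]
  set M := LinearMap.toMatrix B B A.toLinearMap with hM
  have h11 : M 1 1 = -M 0 0 := by linarith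
  refine ⟨M 0 0, M 0 1, M 1 0, fun p => ?_, by rw [h11]; ring⟩
  have := LinearMap.toMatrix_mulVec_repr B B A.toLinearMap p
  rw [← hM] at this
  ext i
  have h2 := congrFun this i
  simp only [B, OrthonormalBasis.coe_toBasis_repr_apply, EuclideanSpace.basisFun_repr,
    ContinuousLinearMap.coe_coe, Matrix.mulVec, dotProduct, Fin.sum_univ_two] at h2
  rw [← h2]
  fin_cases i <;> simp [MM, h11, sub_eq_add_neg]

theorem global_cov (D : Set E2) (hD : IsCompact D) (V : E2 → E2) (U : Set E2)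
    (hU : IsOpen U) (hDU : D ⊆ U) (hV : ContDiffOn ℝ 1 V U) (L : ℝ) (hL : 0 < L)
    (htr : ∀ p ∈ D, LinearMap.trace ℝ _ (fderiv ℝ V p).toLinearMap = 0)
    (hdet : ∀ p ∈ D, -(L ^ 2)⁻¹ < LinearMap.det (fderiv ℝ V p).toLinearMap ∧
      LinearMap.det (fderiv ℝ V p).toLinearMap ≤ 0)
    {w : E2 → ℝ} (hw : Continuous w) (hw0 : ∀ g, 0 ≤ w g) (hw1 : ∀ g, w g ≤ 1)
    (ε : ℝ) (hε : 0 < ε) : WCov w (ruled L V D) ((∫ p in D, w (V p)) + ε) := by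
  obtain ⟨κ, hκ, hκε⟩ : ∃ κ : ℝ, 0 < κ ∧
      (1 + κ) * ((∫ p in D, w (V p)) + volume.real D * κ + κ) < (∫ p in D, w (V p)) + ε := by
    have h1 : ContinuousAt (fun κ : ℝ => (1 + κ) * ((∫ p in D, w (V p)) + volume.real D * κ + κ)) 0 := by
      fun_prop
    have h3 := h1.eventually (gt_mem_nhds (a := (∫ p in D, w (V p)) + ε) (by simpa using hε))
    obtain ⟨r, hr1, hr2⟩ := ((h3.filter_mono nhdsWithin_le_nhds).and
      (self_mem_nhdsWithin (a := (0:ℝ)) (s := Ioi 0))).exists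
    exact ⟨r, hr2, hr1⟩
  have hloc : ∀ p₀ : D, ∃ r : ℝ, 0 < r ∧ ∃ φ : ℝ, φ ≤ 1 ∧ (∀ p ∈ ball (p₀ : E2) r, φ ≤ w (V p) + κ) ∧
      ∀ (δ : ℝ) (k : ℤ × ℤ), 0 < δ → idx δ ⁻¹' {k} ⊆ ball (p₀ : E2) r →
        WCov w (ruled L V (idx δ ⁻¹' {k})) ((1 + κ) * (δ ^ 2 * φ)) := by
    rintro ⟨p₀, hp₀⟩
    obtain ⟨a, b, c, hA, hd⟩ := exists_MM _ (htr p₀ hp₀)
    obtain ⟨d1, d2⟩ := hdet p₀ hp₀
    rw [hd] at d1 d2
    refine local_cov ((hV.contDiffAt (hU.mem_nhds (hDU hp₀))).hasStrictFDerivAt one_ne_zero) hL hA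
      (by linarith) ?_ hw hw0 hw1 hκ
    rw [neg_lt_neg_iff, ← one_div, lt_div_iff₀ (by positivity)] at d1
    linarith
  choose r hr φ hφ1 hφ2 hcov using hloc
  obtain ⟨ρ, hρ, hleb⟩ := lebesgue_number_lemma_of_metric (c := fun p₀ : D => ball (p₀ : E2) (r p₀))
    hD (fun _ => isOpen_ball) (fun x hx => mem_iUnion.2 ⟨⟨x, hx⟩, mem_ball_self (hr _)⟩)
  obtain ⟨δ₀, hδ₀, hgrid⟩ := grid hD hκ
  obtain ⟨δ, hδ, hδ1, hδ2⟩ : ∃ δ : ℝ, 0 < δ ∧ δ ≤ δ₀ ∧ 2 * δ < ρ :=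
    ⟨min δ₀ (ρ / 3), by positivity, min_le_left _ _, by linarith [min_le_right δ₀ (ρ / 3)]⟩
  obtain ⟨S, hS, hsum⟩ := hgrid δ hδ hδ1
  have H : ∀ k : ℤ × ℤ, ∃ ψ : ℝ, k ∈ S → ψ ≤ 1 ∧ (∀ p, idx δ p = k → ψ ≤ w (V p) + κ) ∧
      WCov w (ruled L V (idx δ ⁻¹' {k})) ((1 + κ) * (δ ^ 2 * ψ)) := by
    intro k
    by_cases hk : k ∈ S
    · rw [← Finset.mem_coe, hS] at hk
      obtain ⟨x, hx, rfl⟩ := hk
      obtain ⟨p₀, hp₀⟩ := hleb x hx
      have hsub : idx δ ⁻¹' {idx δ x} ⊆ ball (p₀ : E2) (r p₀) := fun y hy =>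
        hp₀ ((dist_le_of_idx hδ hy).trans_lt hδ2)
      exact ⟨φ p₀, fun _ => ⟨hφ1 _, fun p hp => hφ2 _ _ (hsub hp), hcov _ _ _ hδ hsub⟩⟩
    · exact ⟨0, fun h => absurd h hk⟩
  choose ψ hψ using H
  have hmem : ∀ p ∈ D, idx δ p ∈ S := fun p hp => by
    rw [← Finset.mem_coe, hS]; exact ⟨p, hp, rfl⟩
  have hint : IntegrableOn (fun p => w (V p)) D :=
    (hw.comp_continuousOn (hV.continuousOn.mono hDU)).integrableOn_compact hD
  have hc : IntegrableOn (fun _ : E2 => κ) D := integrableOn_const hD.measure_lt_top.ne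
  have h1 := hsum (fun p => w (V p) + κ) ψ (hint.add hc) (fun k hk => (hψ k hk).1)
    (fun p hp => (hψ _ (hmem p hp)).2.1 p rfl)
  rw [integral_add hint hc, setIntegral_const, smul_eq_mul] at h1
  refine (WCov.biUnion S fun k hk => (hψ k hk).2.2).mono ?_ ?_
  · rintro z ⟨p, hp, hz⟩
    exact mem_iUnion₂.2 ⟨idx δ p, hmem p hp, p, rfl, hz⟩
  · rw [← Finset.mul_sum]
    exact (mul_le_mul_of_nonneg_left h1 (by positivity)).trans hκε.le

end Crest.Agent.H7.Cyl
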