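import Mathlib
import Crest.Agent.H7.CylCover

set_option autoImplicit false

open MeasureTheory Set Filter Metric
open scoped ENNReal Topology Pointwise

namespace Crest.Agent.H7.Cyl

lemma proj_lt_top {K : Set E3} (hK : IsCompact K) {v : E3} (hv : ‖v‖ = 1) :
    μHE[2] ((fun y => y - inner ℝ y v • v) '' K) < ∞ := by
  have hv0 : v ≠ 0 := by intro h; simp [h] at hv
  refine area_lt_top hv0 (hK.image (by fun_prop)).isBounded ?_
  rintro _ ⟨y, -, rfl⟩
  show inner ℝ (y - inner ℝ y v • v) v = 0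
  rw [← proj_unit hv]
  exact inner_proj hv0 y

lemma proj_lower_toReal {v : E3} (hv : ‖v‖ = 1) :
    Real.sqrt 2 ≤ (μHE[2] ((fun y => y - inner ℝ y v • v) '' K0)).toReal :=
  (ENNReal.ofReal_le_iff_le_toReal (proj_lt_top isCompact_K0 hv).ne).1 (proj_lower hv)

/-- covering by cylinders with parallelogram bases of total area at most `A` -/
def ParCov (ι : Type) [Fintype ι] (K : Set E3) (A : ℝ) : Prop :=
  ∃ u c a b : ι → E3, (∀ i, ‖u i‖ = 1) ∧
    (∀ i, inner ℝ (c i) (u i) = 0 ∧ inner ℝ (a i) (u i) = 0 ∧ inner ℝ (b i) (u i) = 0) ∧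
    K ⊆ ⋃ i, {x : E3 | ∃ s ∈ Icc (0:ℝ) 1, ∃ t ∈ Icc (0:ℝ) 1, ∃ τ : ℝ,
      x = c i + s • a i + t • b i + τ • u i} ∧
    ∑ i, gr (a i) (b i) ≤ A

lemma ParCov.reindex {ι κ : Type} [Fintype ι] [Fintype κ] (e : κ ≃ ι) {K : Set E3} {A : ℝ}
    (h : ParCov ι K A) : ParCov κ K A := by
  obtain ⟨u, p, q, r, h1, h2, h3, h4⟩ := h
  refine ⟨u ∘ e, p ∘ e, q ∘ e, r ∘ e, fun i => h1 _, fun i => h2 _, fun x hx => ?_, ?_⟩
  · obtain ⟨i, hi⟩ := mem_iUnion.1 (h3 hx)
    exact mem_iUnion.2 ⟨e.symm i, by simpa using hi⟩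
  · exact (Equiv.sum_comp e (fun i => gr (q i) (r i))).le.trans h4

lemma sum_fin_cast (n : ℕ) : ∑ j : Fin n, ((j : ℕ) : ℝ) = n * (n - 1) / 2 := by
  induction n with
  | zero => simp
  | succ n ih => rw [Fin.sum_univ_castSucc]; simp only [Fin.val_castSucc, Fin.val_last, ih]; push_cast; ring

lemma TriCov.toPar {ι : Type} [Fintype ι] {K : Set E3} {A : ℝ} (h : TriCov ι K A) (n : ℕ)
    (hn : 0 < n) : ParCov (ι × Fin n) K (A * (1 + 1 / n)) := by
  obtain ⟨u, p, q, r, h1, h2, h3, h4⟩ := h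
  have hn' : (0 : ℝ) < n := by exact_mod_cast hn
  have hj : ∀ j : Fin n, 0 < 1 - ((j : ℕ) : ℝ) / n := fun j => by
    have : ((j : ℕ) : ℝ) < n := by exact_mod_cast j.2
    rw [sub_pos, div_lt_one hn']; exact this
  refine ⟨fun x => u x.1, fun x => p x.1 + (((x.2 : ℕ) : ℝ) / n) • (r x.1 - p x.1),
    fun x => (1 - ((x.2 : ℕ) : ℝ) / n) • (q x.1 - p x.1), fun x => (1 / n : ℝ) • (r x.1 - p x.1),
    fun x => h1 _, fun x => ?_, fun x hx => ?_, ?_⟩
  · simp [inner_add_left, inner_sub_left, inner_smul_left, (h2 x.1).1, (h2 x.1).2.1, (h2 x.1).2.2]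
  · obtain ⟨i, z, hz, τ, rfl⟩ := mem_iUnion.1 (h3 hx)
    rw [convexHull_triple] at hz
    obtain ⟨⟨s, t⟩, ⟨hs, ht, hst⟩, rfl⟩ := hz
    simp only at hs ht hst
    obtain ⟨j, hj1, hj2⟩ := exists_piece' hn (fun j => ((j : ℕ) : ℝ) / n) (τ := t) (by simpa using ht)
      (by simp only [Fin.val_last]; rw [div_self hn'.ne']; linarith)
    simp only [Fin.val_castSucc, Fin.val_succ, Nat.cast_add, Nat.cast_one] at hj1 hj2
    refine mem_iUnion.2 ⟨(i, j), s / (1 - ((j : ℕ) : ℝ) / n), ⟨div_nonneg hs (hj j).le, ?_⟩,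
      t * n - (j : ℕ), ⟨?_, ?_⟩, τ, ?_⟩
    · rw [div_le_one (hj j)]; linarith
    · rw [div_le_iff₀ hn'] at hj1; linarith
    · rw [le_div_iff₀ hn'] at hj2; linarith
    · simp only [smul_smul, div_mul_cancel₀ _ (hj j).ne']
      have : (t * n - (j : ℕ)) * (1 / n : ℝ) = t - ((j : ℕ) : ℝ) / n := by field_simp
      rw [this]
      module
  · rw [Fintype.sum_prod_type, ← h4, Finset.sum_mul]
    refine Finset.sum_le_sum fun i _ => le_of_eq ?_
    simp only [gr_smul_smul, area_triangle_toReal]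
    have : ∀ j : Fin n, |(1 - ((j : ℕ) : ℝ) / n) * (1 / n)| = 1 / n - ((j : ℕ) : ℝ) / n ^ 2 := fun j => by
      rw [abs_of_pos (mul_pos (hj j) (by positivity))]; field_simp
    simp only [this]
    rw [← Finset.sum_mul, Finset.sum_sub_distrib, ← Finset.sum_div, ← Finset.sum_div, sum_fin_cast]
    simp
    field_simp
    ring

lemma gr_isometry (Φ : E3 ≃ₗᵢ[ℝ] E3) (a b : E3) : gr (Φ a) (Φ b) = gr a b := by
  simp [gr]

lemma ParCov.sim {ι : Type} [Fintype ι] {K : Set E3} {A : ℝ} (h : ParCov ι K A)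
    (Φ : E3 ≃ₗᵢ[ℝ] E3) (m : E3) (l : ℝ) :
    ParCov ι ((fun x => m + l • Φ x) '' K) (l ^ 2 * A) := by
  obtain ⟨u, c, a, b, h1, h2, h3, h4⟩ := h
  have hu : ∀ i, Φ (u i) ≠ 0 := fun i h => by have := h1 i; simp_all
  refine ⟨fun i => Φ (u i), fun i => proj (Φ (u i)) m + l • Φ (c i), fun i => l • Φ (a i),
    fun i => l • Φ (b i), fun i => by simp [h1], fun i => ?_, ?_, ?_⟩
  · simp [inner_add_left, inner_smul_left, inner_proj (hu i), (h2 i).1, (h2 i).2.1, (h2 i).2.2]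
  · rintro _ ⟨x, hx, rfl⟩
    obtain ⟨i, s, hs, t, ht, τ, rfl⟩ := mem_iUnion.1 (h3 hx)
    refine mem_iUnion.2 ⟨i, s, hs, t, ht, l * τ + inner ℝ m (Φ (u i)) / ‖Φ (u i)‖ ^ 2, ?_⟩
    conv_lhs => rw [eq_proj_add (Φ (u i)) m]
    simp only [map_add, map_smul]
    module
  · simp only [gr_smul_smul, gr_isometry]
    rw [← Finset.mul_sum, abs_mul_self, ← sq]
    gcongr

lemma area_sim (Φ : E3 ≃ₗᵢ[ℝ] E3) (m : E3) {l : ℝ} (hl : 0 < l) (S : Set E3) :
    μHE[2] ((fun x => m + l • Φ x) '' S) = ENNReal.ofReal (l ^ 2) * μHE[2] S := by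
  have h1 : (fun x => m + l • Φ x) '' S = (fun x => m + Φ x) '' (l • S) := by
    ext y
    simp only [mem_image, mem_smul_set]
    constructor
    · rintro ⟨x, hx, rfl⟩; exact ⟨_, ⟨x, hx, rfl⟩, by simp⟩
    · rintro ⟨_, ⟨x, hx, rfl⟩, rfl⟩; exact ⟨x, hx, by simp⟩
  have h2 : Isometry (fun x => m + Φ x) := (isometry_add_left m).comp Φ.isometry
  rw [h1, h2.euclideanHausdorffMeasure_image, Measure.euclideanHausdorffMeasure_smul₀ 2 hl.ne',
    ENNReal.smul_def, smul_eq_mul]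
  congr 1
  rw [ENNReal.ofReal_pow hl.le, ENNReal.coe_pow, ← enorm_eq_nnnorm, Real.enorm_eq_ofReal hl.le]

lemma proj_sim (Φ : E3 ≃ₗᵢ[ℝ] E3) (m : E3) (l : ℝ) (K : Set E3) (v : E3) :
    (fun y => y - inner ℝ y v • v) '' ((fun x => m + l • Φ x) '' K) =
      (fun x => (m - inner ℝ m v • v) + l • Φ x) ''
        ((fun y => y - inner ℝ y (Φ.symm v) • Φ.symm v) '' K) := by
  rw [image_image, image_image]
  refine image_congr fun x _ => ?_
  have : inner ℝ x (Φ.symm v) = inner ℝ (Φ x) v := by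
    rw [← Φ.inner_map_map, Φ.apply_symm_apply]
  simp only [this, inner_add_left, inner_smul_left, map_sub, map_smul, Φ.apply_symm_apply,
    conj_trivial]
  module

lemma exists_sim (w : Fin 4 → E3) (ℓ : ℝ) (hℓ : 0 < ℓ)
    (hw : ∀ i j, i ≠ j → dist (w i) (w j) = ℓ) :
    ∃ (Φ : E3 ≃ₗᵢ[ℝ] E3) (m : E3),
      convexHull ℝ (range w) = (fun x => m + (ℓ / 2) • Φ x) '' K0 := by
  have hd : ∀ i j, i ≠ j →
      (w i 0 - w j 0) ^ 2 + (w i 1 - w j 1) ^ 2 + (w i 2 - w j 2) ^ 2 = ℓ ^ 2 := fun i j hij => by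
    rw [← hw i j hij, dist_eq_norm, normsq3]; simp
  have h01 := hd 0 1 (by decide)
  have h02 := hd 0 2 (by decide)
  have h03 := hd 0 3 (by decide)
  have h12 := hd 1 2 (by decide)
  have h13 := hd 1 3 (by decide)
  have h23 := hd 2 3 (by decide)
  have hs : Real.sqrt 2 ^ 2 = 2 := Real.sq_sqrt (by norm_num)
  have hs0 : 0 < Real.sqrt 2 := by positivity
  set g : Fin 3 → E3 := ![w 0 - w 1, w 2 - w 3, (Real.sqrt 2 / 2) • (w 2 + w 3 - w 0 - w 1)] with hg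
  have hgg : ∀ i j, inner ℝ (g i) (g j) = if i = j then ℓ ^ 2 else 0 := by
    have e22 : inner ℝ (w 2 + w 3 - w 0 - w 1) (w 2 + w 3 - w 0 - w 1) = 2 * ℓ ^ 2 := by
      simp only [inner3, PiLp.add_apply, PiLp.sub_apply]; linarith
    have e02 : inner ℝ (w 0 - w 1) (w 2 + w 3 - w 0 - w 1) = 0 := by
      simp only [inner3, PiLp.add_apply, PiLp.sub_apply]; linarith
    have e12 : inner ℝ (w 2 - w 3) (w 2 + w 3 - w 0 - w 1) = 0 := by
      simp only [inner3, PiLp.add_apply, PiLp.sub_apply]; linarith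
    have e01 : inner ℝ (w 0 - w 1) (w 2 - w 3) = 0 := by
      simp only [inner3, PiLp.sub_apply]; linarith
    have e00 : inner ℝ (w 0 - w 1) (w 0 - w 1) = ℓ ^ 2 := by
      simp only [inner3, PiLp.sub_apply]; linarith
    have e11 : inner ℝ (w 2 - w 3) (w 2 - w 3) = ℓ ^ 2 := by
      simp only [inner3, PiLp.sub_apply]; linarith
    have e10 := (real_inner_comm _ _).trans e01
    have e20 := (real_inner_comm _ _).trans e02
    have e21 := (real_inner_comm _ _).trans e12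
    intro i j
    fin_cases i <;> fin_cases j <;>
      simp only [Fin.zero_eta, Fin.mk_one, Fin.reduceFinMk, Matrix.cons_val, inner_smul_left,
        inner_smul_right, conj_trivial, Fin.isValue, Fin.reduceEq, if_true, if_false, *] <;>
      first | simp | skip
    all_goals nlinarith
  have hon : Orthonormal ℝ (fun i => ℓ⁻¹ • g i) := by
    rw [orthonormal_iff_ite]
    intro i j
    rw [inner_smul_left, inner_smul_right, hgg]
    split_ifs
    · simp; field_simp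
    · simp
  set B : OrthonormalBasis (Fin 3) ℝ E3 :=
    (basisOfOrthonormalOfCardEqFinrank hon (by simp)).toOrthonormalBasis (by simpa using hon)
    with hB
  have hBi : ∀ i, B i = ℓ⁻¹ • g i := fun i => by simp [hB]
  have hΦ : ∀ x : E3, (ℓ / 2) • B.repr.symm x = (x 0 / 2) • g 0 + (x 1 / 2) • g 1 + (x 2 / 2) • g 2 := by
    intro x
    rw [← B.sum_repr_symm, Fin.sum_univ_three, hBi, hBi, hBi]
    simp only [smul_add, smul_smul]
    congr 2 <;> [congr 1; skip; skip] <;> field_simp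
  refine ⟨B.repr.symm, (1 / 2 : ℝ) • (w 0 + w 1), ?_⟩
  let F : E3 →ᵃ[ℝ] E3 := AffineMap.const ℝ E3 ((1 / 2 : ℝ) • (w 0 + w 1)) +
    (ℓ / 2) • (B.repr.symm.toLinearEquiv.toLinearMap.toAffineMap)
  have hF : (fun x => (1 / 2 : ℝ) • (w 0 + w 1) + (ℓ / 2) • B.repr.symm x) = F := rfl
  rw [hF, K0, AffineMap.image_convexHull, ← hF]
  congr 1
  simp only [image_insert_eq, image_singleton, hΦ, hg]
  have a0 : (1 / 2 : ℝ) • (w 0 + w 1) + ((1 / 2 : ℝ) • (w 0 - w 1)) = w 0 := by module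
  have a1 : (1 / 2 : ℝ) • (w 0 + w 1) + ((-1 / 2 : ℝ) • (w 0 - w 1)) = w 1 := by module
  have hs' : Real.sqrt 2 / 2 * (Real.sqrt 2 / 2) = 1 / 2 := by nlinarith
  have a2 : (1 / 2 : ℝ) • (w 0 + w 1) + ((1 / 2 : ℝ) • (w 2 - w 3) +
      (Real.sqrt 2 / 2) • (Real.sqrt 2 / 2) • (w 2 + w 3 - w 0 - w 1)) = w 2 := by
    rw [smul_smul, hs']; module
  have a3 : (1 / 2 : ℝ) • (w 0 + w 1) + ((-1 / 2 : ℝ) • (w 2 - w 3) +
      (Real.sqrt 2 / 2) • (Real.sqrt 2 / 2) • (w 2 + w 3 - w 0 - w 1)) = w 3 := by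
    rw [smul_smul, hs']; module
  simp only [Matrix.cons_val, zero_div, zero_smul, add_zero, zero_add, a0, a1, a2, a3]
  ext x
  simp [Fin.exists_fin_succ, eq_comm]

end Crest.Agent.H7.Cyl
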