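import Crest.Agent.H9.FdI

/-! Row 178: PBW symbols for `U(gl₂)`. -/

set_option autoImplicit false

noncomputable section
namespace Crest.Agent.H7.FdSym
open Crest.Agent.H9.Fd MvPolynomial

abbrev hc (k : ℕ) : P →ₗ[ℂ] P := homogeneousComponent k

/-- `X a * ∂ b` -/
def xd (a b : Fin 4) : Module.End ℂ P := LinearMap.mulLeft ℂ (X a : P) ∘ₗ (pderiv b : Derivation ℂ P P).toLinearMap
def xx (a : Fin 4) : Module.End ℂ P := LinearMap.mulLeft ℂ (X a : P)

lemma xd_apply (a b : Fin 4) (p : P) : xd a b p = X a * pderiv b p := rfl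
lemma xx_apply (a : Fin 4) (p : P) : xx a p = X a * p := rfl

def op : Fin 4 → Module.End ℂ P :=
  ![xx 0 + (xd 0 0 + xd 1 1), xx 1 + (xd 0 2 + xd 1 3), xx 2 + (xd 2 0 + xd 3 1),
    xx 3 + (xd 2 2 + xd 3 3)]

lemma pd_comm (a b : Fin 4) (p : P) : pderiv a (pderiv b p) = pderiv b (pderiv a p) := by
  induction p using MvPolynomial.induction_on with
  | C c => simp
  | add p q hp hq => simp [hp, hq]
  | mul_X p i hp =>
    simp only [Derivation.leibniz, pderiv_X, smul_eq_mul, map_add, hp]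
    have h1 : ∀ c d : Fin 4, pderiv c (Pi.single (M := fun _ => P) d 1 i) = 0 := by
      intro c d; rw [Pi.single_apply]; split_ifs <;> simp
    rw [h1, h1]; ring

lemma op_comm (i j : Fin 4) : op i * op j = op j * op i + br op i j := by
  refine LinearMap.ext fun p => ?_
  have h10 := pd_comm 1 0 p
  have h20 := pd_comm 2 0 p
  have h30 := pd_comm 3 0 p
  have h21 := pd_comm 2 1 p
  have h31 := pd_comm 3 1 p
  have h32 := pd_comm 3 2 p
  fin_cases i <;> fin_cases j <;>
    simp [op, br, xd_apply, xx_apply, Derivation.leibniz, pderiv_X, h10, h20, h30, h21, h31, h32] <;>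
    ring

def ρ : U →ₐ[ℂ] Module.End ℂ P := liftU op op_comm

lemma hc_X_mul (k : ℕ) (a : Fin 4) (p : P) : hc (k + 1) (X a * p) = X a * hc k p := by
  ext d
  rw [coeff_homogeneousComponent, coeff_X_mul', coeff_X_mul', coeff_homogeneousComponent]
  by_cases h : a ∈ d.support
  · have : d.degree = (d - Finsupp.single a 1).degree + 1 := by
      have h1 : Finsupp.single a 1 ≤ d := by
        rw [Finsupp.single_le_iff]; exact Nat.one_le_iff_ne_zero.2 (Finsupp.mem_support_iff.1 h)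
      conv_lhs => rw [← tsub_add_cancel_of_le h1]
      rw [map_add, Finsupp.degree_single]
    simp only [if_pos h, this, Nat.add_right_cancel_iff]
  · simp only [if_neg h, ite_self]

lemma hc_pd (k : ℕ) (b : Fin 4) (p : P) : hc k (pderiv b p) = pderiv b (hc (k + 1) p) := by
  ext d
  rw [coeff_homogeneousComponent, coeff_pderiv, coeff_pderiv, coeff_homogeneousComponent, map_add,
    Finsupp.degree_single]
  simp only [Nat.add_right_cancel_iff]
  split_ifs <;> simp

lemma hc_xd (k : ℕ) (a b : Fin 4) (p : P) : hc (k + 1) (xd a b p) = xd a b (hc (k + 1) p) := by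
  rw [xd_apply, hc_X_mul, hc_pd, xd_apply]

lemma hc_op (k : ℕ) (i : Fin 4) (p : P) (h : hc (k + 1) p = 0) : hc (k + 1) (op i p) = X i * hc k p := by
  fin_cases i <;> simp [op, hc_xd, h, xx_apply, hc_X_mul]

def Lo (k : ℕ) (p : P) : Prop := ∀ n, k < n → hc n p = 0

def Good (m : ℕ) (u : U) (s : P) : Prop :=
  ∀ k p, Lo k p → Lo (m + k) (ρ u p) ∧ hc (m + k) (ρ u p) = s * hc k p

lemma Good.mul {m n : ℕ} {u v : U} {s t : P} (h : Good m u s) (h' : Good n v t) :
    Good (m + n) (u * v) (s * t) := by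
  intro k p hp
  obtain ⟨h1, h2⟩ := h' k p hp
  obtain ⟨h3, h4⟩ := h _ _ h1
  rw [map_mul, Module.End.mul_apply, add_assoc]
  exact ⟨h3, by rw [h4, h2, mul_assoc]⟩

lemma Good.add {m : ℕ} {u v : U} {s t : P} (h : Good m u s) (h' : Good m v t) :
    Good m (u + v) (s + t) := by
  intro k p hp
  obtain ⟨h1, h2⟩ := h' k p hp
  obtain ⟨h3, h4⟩ := h k p hp
  rw [map_add, LinearMap.add_apply]
  exact ⟨fun n hn => by rw [map_add, h1 n hn, h3 n hn, add_zero], by rw [map_add, h2, h4, add_mul]⟩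

lemma Good.smul {m : ℕ} {u : U} {s : P} (c : ℂ) (h : Good m u s) : Good m (c • u) (c • s) := by
  intro k p hp
  obtain ⟨h3, h4⟩ := h k p hp
  rw [map_smul, LinearMap.smul_apply]
  exact ⟨fun n hn => by rw [map_smul, h3 n hn, smul_zero], by rw [map_smul, h4, smul_mul_assoc]⟩

lemma good_zero (m : ℕ) : Good m 0 0 := fun k p _ => by
  rw [map_zero]; exact ⟨fun n _ => by simp, by simp⟩

lemma good_one : Good 0 1 1 := fun k p hp => by
  rw [map_one, zero_add, one_mul]; exact ⟨hp, rfl⟩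

lemma good_one' : Good 1 1 0 := fun k p hp => by
  rw [map_one, zero_mul]
  exact ⟨fun n hn => hp n (by omega), hp _ (by omega)⟩

lemma good_E (i : Fin 4) : Good 1 (E i) (X i) := fun k p hp => by
  have : ρ (E i) = op i := liftU_E _ _ i
  rw [this, add_comm 1 k]
  refine ⟨fun n hn => ?_, hc_op k i p (hp _ (by omega))⟩
  obtain ⟨n, rfl⟩ : ∃ n', n = n' + 1 := ⟨n - 1, by omega⟩
  rw [hc_op n i p (hp _ (by omega)), hp n (by omega), mul_zero]

def σ (m : ℕ) : U →ₗ[ℂ] P := hc m ∘ₗ LinearMap.applyₗ (1 : P) ∘ₗ ρ.toLinearMap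

lemma σ_apply (m : ℕ) (u : U) : σ m u = hc m (ρ u 1) := rfl

lemma lo_one : Lo 0 (1 : P) := fun n hn => by
  rw [homogeneousComponent_of_mem (m := n) (n := 0) (isHomogeneous_one _ _), if_neg (by omega)]

lemma Good.eq {m : ℕ} {u : U} {s : P} (h : Good m u s) : σ m u = s := by
  have := (h 0 1 lo_one).2
  rw [add_zero, homogeneousComponent_eq_self (isHomogeneous_one _ _), mul_one] at this
  exact this

lemma F_succ (m : ℕ) : F (m + 1) = F m * F 1 := by unfold F; rw [pow_succ, pow_one]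

@[elab_as_elim]
lemma F1_ind {q : U → Prop} (h1 : q 1) (hE : ∀ i, q (E i)) (h0 : q 0)
    (ha : ∀ a b, q a → q b → q (a + b)) (hs : ∀ (c : ℂ) a, q a → q (c • a)) {u : U} (hu : u ∈ F 1) :
    q u := by
  unfold F at hu
  rw [pow_one, Submodule.one_eq_span, ← Submodule.span_union] at hu
  induction hu using Submodule.span_induction with
  | mem x hx =>
    rcases hx with rfl | ⟨i, rfl⟩
    · exact h1
    · exact hE i
  | zero => exact h0
  | add a b _ _ h h' => exact ha _ _ h h'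
  | smul c a _ h => exact hs _ _ h

lemma mem_F0 {u : U} (hu : u ∈ F 0) : ∃ c : ℂ, u = c • 1 := by
  unfold F at hu
  rw [pow_zero, Submodule.mem_one] at hu
  obtain ⟨c, rfl⟩ := hu
  exact ⟨c, Algebra.algebraMap_eq_smul_one c⟩

lemma good1 {u : U} (hu : u ∈ F 1) : ∃ s, Good 1 u s := by
  refine F1_ind ⟨_, good_one'⟩ (fun i => ⟨_, good_E i⟩) ⟨_, good_zero 1⟩ ?_ ?_ hu
  · rintro a b ⟨s, h⟩ ⟨t, h'⟩; exact ⟨_, h.add h'⟩
  · rintro c a ⟨s, h⟩; exact ⟨_, h.smul c⟩

lemma good_ex (m : ℕ) : ∀ u ∈ F m, ∃ s, Good m u s := by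
  induction m with
  | zero => intro u hu; obtain ⟨c, rfl⟩ := mem_F0 hu; exact ⟨_, good_one.smul c⟩
  | succ m ih =>
    intro u hu
    rw [F_succ] at hu
    refine Submodule.mul_induction_on hu ?_ ?_
    · intro a ha b hb
      obtain ⟨s, h⟩ := ih a ha
      obtain ⟨t, h'⟩ := good1 hb
      exact ⟨_, h.mul h'⟩
    · rintro a b ⟨s, h⟩ ⟨t, h'⟩; exact ⟨_, h.add h'⟩

lemma good {m : ℕ} {u : U} (hu : u ∈ F m) : Good m u (σ m u) := by
  obtain ⟨s, h⟩ := good_ex m u hu
  rw [h.eq]; exact h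

lemma σ_mul {m n : ℕ} {u v : U} (hu : u ∈ F m) (hv : v ∈ F n) :
    σ (m + n) (u * v) = σ m u * σ n v := ((good hu).mul (good hv)).eq

lemma σ_low {m : ℕ} {u : U} (hu : u ∈ F m) : σ (m + 1) u = 0 := by
  have := σ_mul hu (one_mem_F 1)
  rwa [mul_one, good_one'.eq, mul_zero] at this

/-! ### ordered monomials -/

def om (a : Fin 4 →₀ ℕ) : U := E 0 ^ a 0 * E 1 ^ a 1 * E 2 ^ a 2 * E 3 ^ a 3

def ι : P →ₗ[ℂ] U := (basisMonomials (Fin 4) ℂ).constr ℂ om

lemma ι_mon (a : Fin 4 →₀ ℕ) : ι (monomial a 1) = om a := by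
  have := (basisMonomials (Fin 4) ℂ).constr_basis ℂ om a
  rwa [coe_basisMonomials] at this

lemma E_pow_mem (i : Fin 4) (n : ℕ) : E i ^ n ∈ F n := by
  induction n with
  | zero => rw [pow_zero]; exact one_mem_F 0
  | succ n ih => rw [pow_succ]; exact F_mul ih (E_mem_F i)

lemma good_pow (i : Fin 4) (n : ℕ) : Good n (E i ^ n) (X i ^ n) := by
  induction n with
  | zero => rw [pow_zero, pow_zero]; exact good_one
  | succ n ih => rw [pow_succ, pow_succ]; exact ih.mul (good_E i)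

lemma deg_eq (a : Fin 4 →₀ ℕ) : a.degree = a 0 + a 1 + a 2 + a 3 := by
  rw [Finsupp.degree_eq_sum, Fin.sum_univ_four]

lemma om_mem (a : Fin 4 →₀ ℕ) : om a ∈ F a.degree := by
  rw [deg_eq]
  exact F_mul (F_mul (F_mul (E_pow_mem _ _) (E_pow_mem _ _)) (E_pow_mem _ _)) (E_pow_mem _ _)

lemma σ_om (a : Fin 4 →₀ ℕ) : σ a.degree (om a) = monomial a 1 := by
  rw [deg_eq, om, ((((good_pow 0 _).mul (good_pow 1 _)).mul (good_pow 2 _)).mul (good_pow 3 _)).eq,
    monomial_eq, C_1, one_mul, Finsupp.prod_fintype _ _ (fun _ => pow_zero _), Fin.prod_univ_four]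

lemma br_mem (i j : Fin 4) : br E i j ∈ F 1 := by
  have h := E_mem_F
  fin_cases i <;> fin_cases j <;> simp [br, h, sub_mem]

lemma comm_mem (i : Fin 4) (m : ℕ) : ∀ u ∈ F m, u * E i - E i * u ∈ F m := by
  have h1 : ∀ u ∈ F 1, u * E i - E i * u ∈ F 1 := by
    intro u hu
    refine F1_ind (q := fun u => u * E i - E i * u ∈ F 1) (by simp) (fun j => ?_) (by simp) ?_ ?_ hu
    · rw [E_comm j i, add_sub_cancel_left]; exact br_mem j i
    · intro a b h h'
      have : (a + b) * E i - E i * (a + b) = (a * E i - E i * a) + (b * E i - E i * b) := by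
        noncomm_ring
      rw [this]; exact add_mem h h'
    · intro c a h
      rw [smul_mul_assoc, mul_smul_comm, ← smul_sub]; exact Submodule.smul_mem _ _ h
  induction m with
  | zero => intro u hu; obtain ⟨c, rfl⟩ := mem_F0 hu; simp
  | succ m ih =>
    intro u hu
    rw [F_succ] at hu
    refine Submodule.mul_induction_on (C := fun u => u * E i - E i * u ∈ F (m + 1)) hu ?_ ?_
    · intro a ha b hb
      have : a * b * E i - E i * (a * b) = a * (b * E i - E i * b) + (a * E i - E i * a) * b := by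
        noncomm_ring
      rw [this]; exact add_mem (F_mul ha (h1 b hb)) (F_mul (ih a ha) hb)
    · intro a b h h'
      have : (a + b) * E i - E i * (a + b) = (a * E i - E i * a) + (b * E i - E i * b) := by
        noncomm_ring
      rw [this]; exact add_mem h h'

lemma straight_aux (i : Fin 4) {p q : ℕ} {A B : U} (hA : A ∈ F p) (hB : B ∈ F q) :
    A * B * E i - A * E i * B ∈ F (p + q) := by
  have : A * B * E i - A * E i * B = A * (B * E i - E i * B) := by noncomm_ring
  rw [this]; exact F_mul hA (comm_mem i q B hB)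

lemma straight (i : Fin 4) (a : Fin 4 →₀ ℕ) :
    om a * E i - om (a + Finsupp.single i 1) ∈ F a.degree := by
  rw [deg_eq]
  have h := E_pow_mem
  fin_cases i
  · have := straight_aux 0 (h 0 (a 0)) (F_mul (F_mul (h 1 (a 1)) (h 2 (a 2))) (h 3 (a 3)))
    simpa [om, pow_succ, mul_assoc, add_assoc] using this
  · have := straight_aux 1 (F_mul (h 0 (a 0)) (h 1 (a 1))) (F_mul (h 2 (a 2)) (h 3 (a 3)))
    simpa [om, pow_succ, mul_assoc, add_assoc] using this
  · have := straight_aux 2 (F_mul (F_mul (h 0 (a 0)) (h 1 (a 1))) (h 2 (a 2))) (h 3 (a 3))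
    simpa [om, pow_succ, mul_assoc, add_assoc] using this
  · simp [om, pow_succ, mul_assoc]

@[elab_as_elim]
lemma hom_ind {m : ℕ} {q : P → Prop} (hm : ∀ a : Fin 4 →₀ ℕ, a.degree = m → q (monomial a 1))
    (h0 : q 0) (ha : ∀ a b, q a → q b → q (a + b)) (hs : ∀ (c : ℂ) a, q a → q (c • a)) {p : P}
    (hp : p.IsHomogeneous m) : q p := by
  rw [p.as_sum]
  refine Finset.sum_induction _ q ha h0 fun a h => ?_
  have : monomial a (coeff a p) = coeff a p • monomial a (1 : ℂ) := by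
    rw [smul_monomial, smul_eq_mul, mul_one]
  rw [this]
  refine hs _ _ (hm a ?_)
  by_contra hne
  exact (mem_support_iff.1 h) (hp.coeff_eq_zero hne)

lemma ι_spec {m : ℕ} {p : P} (hp : p.IsHomogeneous m) :
    ι p ∈ F m ∧ σ m (ι p) = p ∧ ∀ i, ι p * E i - ι (p * X i) ∈ F m := by
  refine hom_ind (q := fun p => ι p ∈ F m ∧ σ m (ι p) = p ∧ ∀ i, ι p * E i - ι (p * X i) ∈ F m)
    ?_ (by simp) ?_ ?_ hp
  · rintro a rfl
    refine ⟨by rw [ι_mon]; exact om_mem a, by rw [ι_mon, σ_om], fun i => ?_⟩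
    rw [X, monomial_mul, mul_one, ι_mon, ι_mon]; exact straight i a
  · rintro a b ⟨h1, h2, h3⟩ ⟨h4, h5, h6⟩
    refine ⟨by rw [map_add]; exact add_mem h1 h4, by rw [map_add, map_add, h2, h5], fun i => ?_⟩
    have : ι (a + b) * E i - ι ((a + b) * X i) =
        (ι a * E i - ι (a * X i)) + (ι b * E i - ι (b * X i)) := by
      rw [add_mul a, map_add, map_add, add_mul]; abel
    rw [this]; exact add_mem (h3 i) (h6 i)
  · rintro c a ⟨h1, h2, h3⟩
    refine ⟨by rw [map_smul]; exact Submodule.smul_mem _ _ h1, by rw [map_smul, map_smul, h2],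
      fun i => ?_⟩
    rw [smul_mul_assoc, map_smul, map_smul, smul_mul_assoc, ← smul_sub]
    exact Submodule.smul_mem _ _ (h3 i)

lemma σ_hom (m : ℕ) (u : U) : (σ m u).IsHomogeneous m := homogeneousComponent_isHomogeneous _ _

lemma ι_σ_zero {u : U} (hu : u ∈ F 0) : ι (σ 0 u) = u := by
  obtain ⟨c, rfl⟩ := mem_F0 hu
  rw [map_smul, good_one.eq, map_smul]
  congr 1
  have := ι_mon 0
  simpa [om] using this

lemma step {m : ℕ} (ih : ∀ a ∈ F m, ∀ i, (a - ι (σ m a)) * E i ∈ F m) :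
    ∀ u ∈ F (m + 1), u - ι (σ (m + 1) u) ∈ F m := by
  intro u hu
  rw [F_succ] at hu
  refine Submodule.mul_induction_on (C := fun u => u - ι (σ (m + 1) u) ∈ F m) hu ?_ ?_
  · intro a ha b hb
    refine F1_ind (q := fun b => a * b - ι (σ (m + 1) (a * b)) ∈ F m) ?_ (fun i => ?_) (by simp) ?_ ?_ hb
    · rw [mul_one, σ_low ha, map_zero, sub_zero]; exact ha
    · rw [σ_mul ha (E_mem_F i), (good_E i).eq]
      have : a * E i - ι (σ m a * X i) =
          (a - ι (σ m a)) * E i + (ι (σ m a) * E i - ι (σ m a * X i)) := by noncomm_ring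
      rw [this]; exact add_mem (ih a ha i) ((ι_spec (σ_hom m a)).2.2 i)
    · intro x y h h'
      have : a * (x + y) - ι (σ (m + 1) (a * (x + y))) =
          (a * x - ι (σ (m + 1) (a * x))) + (a * y - ι (σ (m + 1) (a * y))) := by
        rw [mul_add, map_add, map_add]; abel
      rw [this]; exact add_mem h h'
    · intro c x h
      rw [mul_smul_comm, map_smul, map_smul, ← smul_sub]; exact Submodule.smul_mem _ _ h
  · intro x y h h'
    have : x + y - ι (σ (m + 1) (x + y)) = (x - ι (σ (m + 1) x)) + (y - ι (σ (m + 1) y)) := by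
      rw [map_add, map_add]; abel
    rw [this]; exact add_mem h h'

lemma sub_mem_F (m : ℕ) : ∀ u ∈ F (m + 1), u - ι (σ (m + 1) u) ∈ F m := by
  induction m with
  | zero => exact step fun a ha i => by rw [ι_σ_zero ha, sub_self, zero_mul]; exact zero_mem _
  | succ m ih => exact step fun a ha i => F_mul (ih a ha) (E_mem_F i)

theorem symStmt : SymStmt := by
  refine ⟨σ, σ_hom, fun m p hp => ⟨ι p, (ι_spec hp).1, (ι_spec hp).2.1⟩, fun m u hu => ⟨fun h => ?_, σ_low⟩,
    fun u hu h => ?_, fun m u hu v hv => σ_mul hu hv⟩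
  · have := sub_mem_F m u hu
    rwa [h, map_zero, sub_zero] at this
  · rw [← ι_σ_zero hu, h, map_zero]

end Crest.Agent.H7.FdSym
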