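import Crest.Agent.H7.HcA

/-! Row 121: the abstract alternating-projection argument. -/

set_option autoImplicit false
set_option linter.unusedSectionVars false

namespace Crest.Agent.H7.Hc

open Finset

section lists
variable {κ : Type*}

/-- `n` copies of a word -/
def rep (n : ℕ) (l : List κ) : List κ := (List.replicate n l).flatten

lemma rep_zero (l : List κ) : rep 0 l = [] := rfl

lemma rep_succ (n : ℕ) (l : List κ) : rep (n + 1) l = l ++ rep n l := by
  simp [rep, List.replicate_succ]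

lemma len_rep (n : ℕ) (l : List κ) : (rep n l).length = n * l.length := by
  induction n with
  | zero => simp [rep_zero]
  | succ n ih => rw [rep_succ, List.length_append, ih]; ring

lemma prod_rep {G : Type*} [Monoid G] (f : κ → G) (n : ℕ) (l : List κ) :
    ((rep n l).map f).prod = (l.map f).prod ^ n := by
  induction n with
  | zero => simp [rep_zero]
  | succ n ih => rw [rep_succ, List.map_append, List.prod_append, ih, pow_succ']

lemma chain_rep {R : κ → κ → Prop} {l : List κ} (h : (l ++ l).IsChain R) (n : ℕ) :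
    (rep (n + 1) l).IsChain R := by
  induction n with
  | zero => rw [rep_succ, rep_zero, List.append_nil]; exact h.left_of_append
  | succ n ih =>
    rw [rep_succ]
    refine List.isChain_append.2 ⟨h.left_of_append, ih, fun x hx y hy => ?_⟩
    refine (List.isChain_append.1 h).2.2 x hx y ?_
    rw [rep_succ] at hy
    cases l with
    | nil => simp at hx
    | cons a l => simpa using hy

lemma chain_flat {α : Type*} (L : List α) :
    (L.flatMap fun i => [(i, false), (i, true)]).IsChain fun j j' => j.2 ≠ j'.2 := by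
  induction L with
  | nil => simp
  | cons i L ih =>
    rw [List.flatMap_cons]
    refine List.isChain_append.2 ⟨by simp, ih, fun x hx y hy => ?_⟩
    cases L with
    | nil => simp at hy
    | cons i' L =>
      simp only [List.getLast?_cons_cons, List.getLast?_singleton, Option.mem_def,
        Option.some.injEq] at hx
      simp only [List.flatMap_cons, List.cons_append, List.head?_cons, Option.mem_def,
        Option.some.injEq] at hy
      rw [← hx, ← hy]; simp

lemma chain_rot {α : Type*} (L : List α) {a b : List (α × Bool)} {j : α × Bool}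
    (h : (L.flatMap fun i => [(i, false), (i, true)]) = a ++ j :: b) :
    ((b ++ a ++ [j]) ++ (b ++ a ++ [j])).IsChain fun j j' => j.2 ≠ j'.2 := by
  have := chain_flat (L ++ L ++ L)
  rw [List.flatMap_append, List.flatMap_append, h] at this
  exact this.infix ⟨a ++ [j], b, by simp⟩

end lists

variable {V κ : Type*} [AddCommGroup V] [Module ℝ V]

/-- a system of contractive idempotents -/
structure Sy (Nr : ℝ → V → Prop) (Rb : V → Prop) (Q : κ → Module.End ℝ V) : Prop where
  add : ∀ {c c' : ℝ} {S S' : V}, Nr c S → Nr c' S' → Nr (c + c') (S + S')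
  neg : ∀ {c : ℝ} {S : V}, Nr c S → Nr c (-S)
  smul : ∀ {c t : ℝ} {S : V}, Nr c S → 0 ≤ t → Nr (t * c) (t • S)
  zero : Nr 0 0
  mono : ∀ {c c' : ℝ} {S : V}, Nr c S → c ≤ c' → Nr c' S
  pinN : ∀ {c : ℝ} {S : V} (j : κ), Nr c S → Nr c (Q j S)
  pinR : ∀ {S : V} (j : κ), Rb S → Rb (Q j S)
  idem : ∀ j, Q j * Q j = Q j
  one : ∀ {S : V}, Rb S → Nr 1 S

/-- composition along a word -/
def PW (Q : κ → Module.End ℝ V) (w : List κ) : Module.End ℝ V := (w.map Q).prod

variable {Nr : ℝ → V → Prop} {Rb : V → Prop} {Q : κ → Module.End ℝ V}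

lemma PW_nil : PW Q [] = 1 := rfl

lemma PW_cons (j : κ) (w : List κ) : PW Q (j :: w) = Q j * PW Q w := by simp [PW]

lemma PW_append (a b : List κ) : PW Q (a ++ b) = PW Q a * PW Q b := by simp [PW]

lemma PW_rep (n : ℕ) (l : List κ) : PW Q (rep n l) = PW Q l ^ n := prod_rep Q n l

namespace Sy

lemma nrW (h : Sy Nr Rb Q) (w : List κ) {c : ℝ} {S : V} (hS : Nr c S) : Nr c (PW Q w S) := by
  induction w with
  | nil => exact hS
  | cons j w ih => rw [PW_cons]; exact h.pinN j ih

lemma rbW (h : Sy Nr Rb Q) (w : List κ) {S : V} (hS : Rb S) : Rb (PW Q w S) := by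
  induction w with
  | nil => exact hS
  | cons j w ih => rw [PW_cons]; exact h.pinR j ih

lemma sum (h : Sy Nr Rb Q) {ι : Type*} (s : Finset ι) {c : ι → ℝ} {S : ι → V}
    (hS : ∀ i ∈ s, Nr (c i) (S i)) : Nr (∑ i ∈ s, c i) (∑ i ∈ s, S i) := by
  classical
  induction s using Finset.induction_on with
  | empty => simpa using h.zero
  | insert i s hi ih =>
    rw [sum_insert hi, sum_insert hi]
    exact h.add (hS i (mem_insert_self _ _)) (ih fun j hj => hS j (mem_insert_of_mem hj))

lemma fix_pow (h : Sy Nr Rb Q) {u : List κ} {γ : ℝ} {S : V} (hS : Nr γ (PW Q u S - S)) (n : ℕ) :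
    Nr (n * γ) ((PW Q u ^ n) S - S) := by
  induction n with
  | zero => simpa using h.zero
  | succ n ih =>
    have := h.add (h.nrW (rep n u) hS) ih
    rw [PW_rep, map_sub, ← Module.End.mul_apply, ← pow_succ, sub_add_sub_cancel] at this
    exact h.mono this (le_of_eq (by push_cast; ring))

lemma step (h : Sy Nr Rb Q) {K : ℕ} {w : ℕ → ℝ} (w0 : ∀ n, 0 ≤ w n) (w1 : ∑ n ∈ range K, w n = 1)
    {l : List κ} {j : κ} {γ δ : ℝ} (γ0 : 0 ≤ γ) {S : V} (hS : Nr γ (PW Q (l ++ [j]) S - S))
    (hr : Nr δ (∑ n ∈ range K, w n • ((PW Q (l ++ [j]) ^ (n + 1)) S -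
      (PW Q (l ++ [j]).reverse ^ (n + 1)) S))) : Nr (2 * (K * γ + δ)) (Q j S - S) := by
  set R := ∑ n ∈ range K, w n • (PW Q (l ++ [j]).reverse ^ (n + 1)) S with hR
  have e1 : Q j R = R := by
    rw [hR, map_sum]
    refine sum_congr rfl fun n _ => ?_
    rw [map_smul, ← Module.End.mul_apply, pow_succ', List.reverse_append, List.reverse_singleton,
      List.singleton_append, PW_cons, ← mul_assoc, ← mul_assoc, h.idem]
  have b1 : Nr (K * γ) (∑ n ∈ range K, w n • ((PW Q (l ++ [j]) ^ (n + 1)) S - S)) := by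
    refine h.mono (h.sum _ fun n _ => h.smul (h.fix_pow hS (n + 1)) (w0 n)) ?_
    calc _ ≤ ∑ n ∈ range K, w n * (K * γ) := sum_le_sum fun n hn =>
          mul_le_mul_of_nonneg_left (mul_le_mul_of_nonneg_right
            (by exact_mod_cast mem_range.1 hn) γ0) (w0 n)
      _ = _ := by rw [← sum_mul, w1, one_mul]
  have b2 := h.add (h.neg b1) hr
  have e2 : -(∑ n ∈ range K, w n • ((PW Q (l ++ [j]) ^ (n + 1)) S - S)) +
      ∑ n ∈ range K, w n • ((PW Q (l ++ [j]) ^ (n + 1)) S -
        (PW Q (l ++ [j]).reverse ^ (n + 1)) S) = S - R := by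
    simp only [smul_sub, sum_sub_distrib]
    rw [← sum_smul, w1, one_smul]; abel
  rw [e2] at b2
  have b3 := h.add (h.pinN j b2) (h.neg b2)
  rw [map_sub, e1] at b3
  refine h.mono (by convert b3 using 1; abel) (le_of_eq (two_mul _).symm)

theorem chain (h : Sy Nr Rb Q) {K : ℕ} {w : ℕ → ℝ} (w0 : ∀ n, 0 ≤ w n)
    (w1 : ∑ n ∈ range K, w n = 1) {u : List κ} {γ δ : ℝ} (γ0 : 0 ≤ γ) (δ0 : 0 ≤ δ)
    (hr : ∀ a b j, u = a ++ j :: b → ∀ S, Rb S →
      Nr δ (∑ n ∈ range K, w n • ((PW Q (b ++ a ++ [j]) ^ (n + 1)) S -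
        (PW Q (b ++ a ++ [j]).reverse ^ (n + 1)) S)))
    {E : V} (hE : Rb E) (hf : Nr γ (PW Q u E - E)) {j : κ} (hj : j ∈ u) :
    Nr (4 * u.length * (K * γ + δ)) (Q j E - E) := by
  have key : ∀ b a, u = a ++ b → Nr (2 * b.length * (K * γ + δ)) (PW Q b E - E) := by
    intro b
    induction b with
    | nil => intro a _; simpa [PW_nil] using h.zero
    | cons j b ih =>
      intro a ha
      have i1 := ih (a ++ [j]) (by simpa using ha)
      have i2 := h.nrW b hf
      have e : PW Q b (PW Q u E - E) = PW Q (b ++ a ++ [j]) (PW Q b E) - PW Q b E := by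
        rw [map_sub, ← Module.End.mul_apply, ← Module.End.mul_apply, ← PW_append, ← PW_append, ha]
        simp
      rw [e] at i2
      have i3 := h.add (h.step w0 w1 γ0 i2 (hr a b j ha _ (h.rbW b hE))) i1
      rw [sub_add_sub_cancel, ← Module.End.mul_apply, ← PW_cons] at i3
      exact h.mono i3 (le_of_eq (by rw [List.length_cons]; push_cast; ring))
  obtain ⟨a, b, hu⟩ := List.append_of_mem hj
  have i1 := key (j :: b) a hu
  have i2 := h.add (h.neg (h.pinN j i1)) i1
  rw [map_sub, ← Module.End.mul_apply, PW_cons, ← mul_assoc, h.idem] at i2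
  refine h.mono (by convert i2 using 1; abel) ?_
  have : ((j :: b).length : ℝ) ≤ u.length := by
    rw [hu, List.length_append]; push_cast; linarith [(Nat.cast_nonneg a.length : (0 : ℝ) ≤ _)]
  nlinarith [show 0 ≤ K * γ + δ by positivity]

lemma fix (h : Sy Nr Rb Q) (u : List κ) (N : ℕ) {T : V} (hT : Rb T) :
    Nr ((N : ℝ)⁻¹ * 2) (PW Q u ((N : ℝ)⁻¹ • ∑ i ∈ range N, (PW Q u ^ (i + 1)) T) -
      (N : ℝ)⁻¹ • ∑ i ∈ range N, (PW Q u ^ (i + 1)) T) := by
  have e : PW Q u ((N : ℝ)⁻¹ • ∑ i ∈ range N, (PW Q u ^ (i + 1)) T) -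
      (N : ℝ)⁻¹ • ∑ i ∈ range N, (PW Q u ^ (i + 1)) T =
      (N : ℝ)⁻¹ • ((PW Q u ^ (N + 1)) T + -(PW Q u ^ (0 + 1)) T) := by
    rw [map_smul, ← smul_sub, map_sum, ← sum_sub_distrib, ← sub_eq_add_neg,
      ← sum_range_sub (fun i => (PW Q u ^ (i + 1)) T)]
    congr 1
    exact sum_congr rfl fun i _ => by rw [← Module.End.mul_apply, ← pow_succ']
  rw [e]
  have b : ∀ n, Nr 1 ((PW Q u ^ n) T) := fun n => by
    rw [← PW_rep]; exact h.one (h.rbW _ hT)
  have := h.smul (h.add (b (N + 1)) (h.neg (b (0 + 1)))) (t := (N : ℝ)⁻¹) (by positivity)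
  rwa [one_add_one_eq_two] at this

end Sy

end Crest.Agent.H7.Hc
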