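import Crest.Agent.H7.HcA

/-! Row 121: words along a list of partitions, pair bound and row estimates. -/

set_option autoImplicit false
set_option linter.unusedSectionVars false

namespace Crest.Agent.H7.Hc

open scoped InnerProductSpace ComplexConjugate
open Finset Crest.Agent.H5.KS Crest.Agent.Lead.Hc

variable {H : Type*} [NormedAddCommGroup H] [InnerProductSpace ℂ H] [CompleteSpace H]
variable {M : VonNeumannAlgebra H} {z : H →L[ℂ] H} {k : ℕ} {ζ : Fin k → H}

lemma pair_bound {α K : Type*} [Fintype K] (S : Finset α) (c : α → α → ℂ) (u v : α → K → H)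
    (Rel : α → α → Prop) (SA SB : α → Prop) [DecidableRel Rel] [DecidablePred SA] [DecidablePred SB]
    (R : ℝ) (c1 : ∀ A B, ‖c A B‖ ≤ 1)
    (hc : ∀ A ∈ S, ∀ B ∈ S, c A B ≠ 0 → Rel A B ∧ SA A ∧ SB B)
    (hR : ∀ A ∈ S, ∑ B ∈ S, (if Rel A B then (1 : ℝ) else 0) ≤ R)
    (hR' : ∀ B ∈ S, ∑ A ∈ S, (if Rel A B then (1 : ℝ) else 0) ≤ R) :
    ‖∑ j, ∑ A ∈ S, ∑ B ∈ S, c A B * ⟪u A j, v B j⟫_ℂ‖ ^ 2 ≤
      (R * ∑ j, ∑ A ∈ S, if SA A then ‖u A j‖ ^ 2 else 0) *
        (R * ∑ j, ∑ B ∈ S, if SB B then ‖v B j‖ ^ 2 else 0) := by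
  let f : K × α × α → ℝ := fun q => if Rel q.2.1 q.2.2 ∧ SA q.2.1 then ‖u q.2.1 q.1‖ else 0
  let g : K × α × α → ℝ := fun q => if Rel q.2.1 q.2.2 ∧ SB q.2.2 then ‖v q.2.2 q.1‖ else 0
  have f0 : ∀ q, 0 ≤ f q := fun q => by simp only [f]; split_ifs <;> positivity
  have g0 : ∀ q, 0 ≤ g q := fun q => by simp only [g]; split_ifs <;> positivity
  have b1 : ‖∑ j, ∑ A ∈ S, ∑ B ∈ S, c A B * ⟪u A j, v B j⟫_ℂ‖ ≤
      ∑ q ∈ univ ×ˢ (S ×ˢ S), f q * g q := by
    rw [sum_product]
    refine (norm_sum_le _ _).trans (sum_le_sum fun j _ => ?_)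
    rw [sum_product]
    refine (norm_sum_le _ _).trans (sum_le_sum fun A hA => ?_)
    refine (norm_sum_le _ _).trans (sum_le_sum fun B hB => ?_)
    by_cases h0 : c A B = 0
    · rw [h0, zero_mul, norm_zero]; exact mul_nonneg (f0 _) (g0 _)
    · obtain ⟨h1, h2, h3⟩ := hc A hA B hB h0
      simp only [f, g, h1, h2, h3, and_self, if_true]
      rw [norm_mul]
      exact (mul_le_of_le_one_left (norm_nonneg _) (c1 A B)).trans (norm_inner_le_norm _ _)
  have b2 : ∑ q ∈ univ ×ˢ (S ×ˢ S), f q ^ 2 ≤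
      R * ∑ j, ∑ A ∈ S, if SA A then ‖u A j‖ ^ 2 else 0 := by
    rw [sum_product, mul_sum]
    refine sum_le_sum fun j _ => ?_
    rw [sum_product, mul_sum]
    refine sum_le_sum fun A hA => ?_
    refine le_trans (le_of_eq ?_) (mul_le_mul_of_nonneg_right (hR A hA)
      (by split_ifs <;> positivity))
    rw [sum_mul]
    refine sum_congr rfl fun B _ => ?_
    by_cases h1 : Rel A B <;> by_cases h2 : SA A <;> simp [f, h1, h2]
  have b3 : ∑ q ∈ univ ×ˢ (S ×ˢ S), g q ^ 2 ≤
      R * ∑ j, ∑ B ∈ S, if SB B then ‖v B j‖ ^ 2 else 0 := by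
    rw [sum_product, mul_sum]
    refine sum_le_sum fun j _ => ?_
    rw [sum_product_right, mul_sum]
    refine sum_le_sum fun B hB => ?_
    refine le_trans (le_of_eq ?_) (mul_le_mul_of_nonneg_right (hR' B hB)
      (by split_ifs <;> positivity))
    rw [sum_mul]
    refine sum_congr rfl fun A _ => ?_
    by_cases h1 : Rel A B <;> by_cases h2 : SB B <;> simp [g, h1, h2]
  refine (pow_le_pow_left₀ (norm_nonneg _) b1 2).trans ((sum_mul_sq_le_sq_mul_sq _ _ _).trans ?_)
  exact mul_le_mul b2 b3 (sum_nonneg fun _ _ => sq_nonneg _)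
    ((sum_nonneg fun _ _ => sq_nonneg _).trans b2)

variable {κ ι : Type} [Fintype κ] [DecidableEq κ] [Fintype ι] [DecidableEq ι]

/-- the words along a list of families -/
def words (ι : Type) [Fintype ι] [DecidableEq ι] : List κ → Finset (List (κ × ι))
  | [] => {[]}
  | j :: w => (univ ×ˢ words ι w).image fun p : ι × List (κ × ι) => (j, p.1) :: p.2

lemma words_nil : words ι ([] : List κ) = {[]} := rfl

lemma sum_words_cons {V : Type*} [AddCommMonoid V] (j : κ) (w : List κ) (f : List (κ × ι) → V) :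
    ∑ A ∈ words ι (j :: w), f A = ∑ l, ∑ A ∈ words ι w, f ((j, l) :: A) := by
  rw [words, sum_image, sum_product]
  rintro ⟨l, A⟩ _ ⟨l', A'⟩ _ h
  simpa using h

lemma mem_words_cons {j : κ} {w : List κ} {A : List (κ × ι)} (h : A ∈ words ι (j :: w)) :
    ∃ l, ∃ A' ∈ words ι w, A = (j, l) :: A' := by
  rw [words, mem_image] at h
  obtain ⟨⟨l, A'⟩, h1, h2⟩ := h
  exact ⟨l, A', (mem_product.1 h1).2, h2.symm⟩

lemma len_words {w : List κ} {A : List (κ × ι)} (h : A ∈ words ι w) : A.length = w.length := by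
  induction w generalizing A with
  | nil => rw [words_nil, mem_singleton] at h; rw [h]; rfl
  | cons j w ih =>
    obtain ⟨l, A', h1, rfl⟩ := mem_words_cons h
    simp [ih h1]

lemma count_words (S : Finset (κ × ι)) (w : List κ) :
    ∑ B ∈ words ι w, (if ∀ s ∈ B, s ∈ S then (1 : ℝ) else 0) ≤ (#S : ℝ) ^ w.length := by
  induction w with
  | nil => rw [words_nil, sum_singleton]; simp
  | cons j w ih =>
    rw [sum_words_cons, List.length_cons, pow_succ']
    have h1 : ∑ l : ι, (if (j, l) ∈ S then (1 : ℝ) else 0) ≤ #S := by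
      rw [sum_boole]
      exact_mod_cast card_le_card_of_injOn (fun l => (j, l)) (fun l hl => by simpa using hl)
        fun l _ l' _ h => by simpa using h
    refine le_trans ?_ (mul_le_mul_of_nonneg_right h1 (by positivity))
    rw [sum_mul]
    refine sum_le_sum fun l _ => ?_
    by_cases h : (j, l) ∈ S
    · simpa [h] using ih
    · simp [h]

lemma count_rel {n : ℕ} {w : List κ} (hw : w.length ≤ n) {A : List (κ × ι)} (hA : A ∈ words ι w)
    (Q : List (κ × ι) → Prop) [DecidablePred Q] (hQ : ∀ B, Q B → ∀ s ∈ B, s ∈ A) :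
    ∑ B ∈ words ι w, (if Q B then (1 : ℝ) else 0) ≤ ((n : ℝ) + 1) ^ n := by
  refine le_trans (sum_le_sum fun B _ => ?_) ((count_words A.toFinset w).trans ?_)
  · by_cases h : Q B
    · rw [if_pos h, if_pos fun s hs => List.mem_toFinset.2 (hQ B h s hs)]
    · rw [if_neg h]; split_ifs <;> norm_num
  · have h1 : (#A.toFinset : ℝ) ≤ n + 1 := by
      have := (List.toFinset_card_le A).trans ((len_words hA).le.trans hw)
      exact_mod_cast this.trans (Nat.le_succ n)
    exact (pow_le_pow_left₀ (by positivity) h1 _).trans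
      (pow_le_pow_right₀ (by linarith [(Nat.cast_nonneg n : (0 : ℝ) ≤ n)]) hw)

/-- the product of projections along a word -/
noncomputable def XW (P : κ → ι → H →L[ℂ] H) (A : List (κ × ι)) : H →L[ℂ] H :=
  (A.map fun s => P s.1 s.2).prod

variable {P : κ → ι → H →L[ℂ] H}

lemma XW_nil : XW P [] = 1 := rfl

lemma XW_cons (s : κ × ι) (A : List (κ × ι)) : XW P (s :: A) = P s.1 s.2 * XW P A := by
  simp [XW]

lemma XW_mem (hP : ∀ j, Lead.Hc.Part M z (P j)) (A : List (κ × ι)) : XW P A ∈ M := by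
  induction A with
  | nil => exact one_mem _
  | cons s A ih => rw [XW_cons]; exact mul_mem ((hP _).mem _) ih

lemma star_XW_cons (hP : ∀ j, Lead.Hc.Part M z (P j)) (j : κ) (l : ι) (A : List (κ × ι)) (ξ : H) :
    star (XW P ((j, l) :: A)) ξ = star (XW P A) (P j l ξ) := by
  rw [XW_cons, star_mul, pstar ((hP _).proj _)]; rfl

lemma wU_cons (N : ℕ) (θ : κ × ι → ZMod N) (j : κ) (w : List κ) :
    wU P N θ (j :: w) = dU P N θ j * wU P N θ w := by simp [wU]

lemma wU_eq (N : ℕ) [NeZero N] (θ : κ × ι → ZMod N) (w : List κ) :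
    wU P N θ w = ∑ A ∈ words ι w, mon N θ A • XW P A := by
  induction w with
  | nil => simp [wU, words_nil, mon_nil, XW_nil]
  | cons j w ih =>
    rw [wU_cons, ih, dU, sum_mul_sum, sum_words_cons]
    refine sum_congr rfl fun l _ => sum_congr rfl fun A _ => ?_
    rw [mon_cons, XW_cons, smul_mul_smul_comm]

lemma row_all (hP : ∀ j, Lead.Hc.Part M z (P j)) (w : List κ) (ξ : H) :
    ∑ A ∈ words ι w, ‖star (XW P A) ξ‖ ^ 2 ≤ ‖ξ‖ ^ 2 := by
  induction w generalizing ξ with
  | nil => simp [words_nil, XW_nil]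
  | cons j w ih =>
    rw [sum_words_cons]
    simp only [star_XW_cons hP]
    exact (sum_le_sum fun l _ => ih _).trans (part_sum_le (hP j) univ ξ)

/-- words without bad letters -/
def Good (bad : κ → Finset ι) (A : List (κ × ι)) : Prop := ∀ s ∈ A, s.2 ∉ bad s.1

instance (bad : κ → Finset ι) : DecidablePred (Good bad) := fun A => by
  unfold Good; infer_instance

lemma good_cons {bad : κ → Finset ι} {j : κ} {l : ι} {A : List (κ × ι)} :
    Good bad ((j, l) :: A) ↔ l ∉ bad j ∧ Good bad A := by simp [Good]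

lemma row_good (hP : ∀ j, Lead.Hc.Part M z (P j)) (bad : κ → Finset ι) {η : ℝ} (s' : κ × ι)
    (w : List κ) (j : κ) (ξ : H)
    (hc : (j :: w).IsChain fun j j' => ∀ l ∉ bad j, ∀ l' ∉ bad j', ‖P j l * P j' l'‖ ≤ η) :
    ∑ A ∈ words ι (j :: w), (if Good bad A ∧ s' ∈ A.tail then ‖star (XW P A) ξ‖ ^ 2 else 0) ≤
      w.length * η ^ 2 * ‖ξ‖ ^ 2 := by
  induction w generalizing j ξ with
  | nil => simp [sum_words_cons, words_nil]
  | cons j' w ih =>
    rw [List.isChain_cons_cons] at hc
    rw [sum_words_cons]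
    have key : ∀ l, ∑ A ∈ words ι (j' :: w), (if Good bad ((j, l) :: A) ∧ s' ∈ ((j, l) :: A).tail
        then ‖star (XW P ((j, l) :: A)) ξ‖ ^ 2 else 0) ≤
        ((w.length : ℝ) + 1) * η ^ 2 * ‖P j l ξ‖ ^ 2 := fun l => by
      have i1 := ih j' (P j l ξ) hc.2
      have i2 : ∑ m : ι, ∑ A ∈ words ι w, (if l ∉ bad j ∧ m ∉ bad j' ∧ s' = (j', m) then
          ‖star (XW P A) (P j' m (P j l ξ))‖ ^ 2 else 0) ≤ η ^ 2 * ‖P j l ξ‖ ^ 2 := by
        refine le_trans (sum_le_sum (g := fun m => if m = s'.2 then η ^ 2 * ‖P j l ξ‖ ^ 2 else 0)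
          fun m _ => ?_) (by simp)
        by_cases h : l ∉ bad j ∧ m ∉ bad j' ∧ s' = (j', m)
        · simp only [if_pos h]
          rw [if_pos (by rw [h.2.2])]
          refine (row_all hP w _).trans ?_
          have e : P j' m (P j l ξ) = star (P j l * P j' m) (P j l ξ) := by
            rw [star_mul, pstar ((hP _).proj _), pstar ((hP _).proj _), mul_apply_eq_comp,
              ← mul_apply_eq_comp (P j l) (P j l), pmul ((hP _).proj _)]
          rw [e, ← mul_pow]
          refine pow_le_pow_left₀ (norm_nonneg _) ((ContinuousLinearMap.le_opNorm _ _).trans ?_) 2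
          rw [norm_star]
          exact mul_le_mul_of_nonneg_right (hc.1 l h.1 m h.2.1) (norm_nonneg _)
        · simp only [if_neg h, sum_const_zero]
          split_ifs <;> positivity
      rw [sum_words_cons] at i1 ⊢
      rw [add_mul, add_mul, one_mul]
      refine le_trans ?_ (add_le_add i1 i2)
      rw [← sum_add_distrib]
      refine sum_le_sum fun m _ => ?_
      rw [← sum_add_distrib]
      refine sum_le_sum fun A _ => ?_
      simp only [List.tail_cons, List.mem_cons, good_cons, star_XW_cons hP]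
      have n0 := sq_nonneg ‖star (XW P A) (P j' m (P j l ξ))‖
      by_cases h1 : l ∉ bad j <;> by_cases h2 : m ∉ bad j' <;> by_cases h3 : Good bad A <;>
        by_cases h4 : s' = (j', m) <;> by_cases h5 : s' ∈ A <;>
        simp only [h1, h2, h3, h4, h5, and_true, true_and, and_false, false_and, true_or, or_true,
          or_false, if_true, if_false, not_false_eq_true, not_true_eq_false] <;>
        first | linarith | (split_ifs <;> linarith)
    refine (sum_le_sum fun l _ => key l).trans ?_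
    rw [← mul_sum, List.length_cons, Nat.cast_succ]
    exact mul_le_mul_of_nonneg_left (part_sum_le (hP j) univ ξ) (by positivity)

lemma row_bad (hP : ∀ j, Lead.Hc.Part M z (P j)) (bad : κ → Finset ι) {η : ℝ} (hct : CT M ζ)
    (hb : ∀ j, ∑ a, ‖(∑ l ∈ bad j, P j l) (ζ a)‖ ^ 2 ≤ η) (w : List κ) :
    ∀ (I : Type) [Fintype I] (v : I → H →L[ℂ] H), (∀ i, v i ∈ M) → Row v 1 →
      ∑ i, ∑ a, ∑ B ∈ words ι w, (if ¬ Good bad B then ‖star (XW P B) (v i (ζ a))‖ ^ 2 else 0) ≤
        2 * w.length * η := by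
  induction w with
  | nil => intro I _ v _ _; simp [words_nil, Good]
  | cons j w ih =>
    intro I _ v vM hv
    have i1 := ih (I × ι) (fun q => P j q.2 * v q.1) (fun q => mul_mem ((hP j).mem _) (vM _))
      (fun ξ => by
        rw [Fintype.sum_prod_type_right, one_pow, one_mul]
        refine le_trans (sum_le_sum fun l _ => ?_) (part_sum_le (hP j) univ ξ)
        simpa only [star_mul, pstar ((hP j).proj _), mul_apply_eq_comp, one_pow, one_mul]
          using hv (P j l ξ))
    have pb := (proj_sum (bad j) (P j) (fun i _ => (hP j).proj i)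
      fun i _ i' _ h => (hP j).orth i i' h).1
    have bM : ∑ l ∈ bad j, P j l ∈ M := sum_mem fun l _ => (hP j).mem l
    have i2 : ∑ i, ∑ a, ∑ l, ∑ B ∈ words ι w,
        (if l ∈ bad j then ‖star (XW P B) (P j l (v i (ζ a)))‖ ^ 2 else 0) ≤ 2 * η := by
      calc _ ≤ ∑ i, ∑ a, ‖star (star (v i) * ∑ l ∈ bad j, P j l) (ζ a)‖ ^ 2 := by
            refine sum_le_sum fun i _ => ?_
            refine sum_le_sum fun a _ => ?_
            rw [star_mul, star_star, pstar pb, mul_apply_eq_comp, part_normsq (hP j),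
              ← sum_ite_mem_eq (bad j)]
            refine sum_le_sum fun l _ => ?_
            split_ifs
            · exact row_all hP w _
            · simp
        _ ≤ ∑ i, 2 * ∑ a, ‖(star (v i) * ∑ l ∈ bad j, P j l) (ζ a)‖ ^ 2 :=
            sum_le_sum fun i _ => hct _ (mul_mem (star_mem (vM i)) bM)
        _ ≤ 2 * η := by
            rw [← mul_sum, sum_comm]
            refine mul_le_mul_of_nonneg_left (le_trans (sum_le_sum fun a _ => ?_) (hb j)) zero_le_two
            simpa only [mul_apply_eq_comp, one_pow, one_mul] using hv ((∑ l ∈ bad j, P j l) (ζ a))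
    rw [Fintype.sum_prod_type] at i1
    rw [List.length_cons, Nat.cast_succ, mul_add, add_mul, mul_one]
    refine le_trans ?_ (add_le_add i1 i2)
    rw [← sum_add_distrib]
    refine sum_le_sum fun i _ => ?_
    rw [sum_comm (s := (univ : Finset ι)), ← sum_add_distrib]
    refine sum_le_sum fun a _ => ?_
    rw [sum_words_cons, ← sum_add_distrib]
    refine sum_le_sum fun l _ => ?_
    rw [← sum_add_distrib]
    refine sum_le_sum fun B _ => ?_
    simp only [good_cons, star_XW_cons hP, mul_apply_eq_comp]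
    have n0 := sq_nonneg ‖star (XW P B) (P j l (v i (ζ a)))‖
    by_cases h1 : l ∈ bad j <;> by_cases h2 : Good bad B <;>
      simp only [h1, h2, and_true, true_and, and_false, false_and, if_true, if_false,
        not_false_eq_true, not_true_eq_false] <;> linarith

end Crest.Agent.H7.Hc
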