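import Crest.Agent.H7.HcC1
import Crest.Agent.H7.HcD1

/-! Row 121: the type II₁ core. -/

set_option autoImplicit false
set_option linter.unusedSectionVars false

universe u

namespace Crest.Agent.H7.Hc

open scoped InnerProductSpace ComplexConjugate
open Finset Crest.Agent.H5.KS Crest.Agent.Lead.Hc

variable {H : Type*} [NormedAddCommGroup H] [InnerProductSpace ℂ H] [CompleteSpace H]
variable {M : VonNeumannAlgebra H} {z : H →L[ℂ] H} {k : ℕ} {ζ : Fin k → H}

/-- linear maps on operators -/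
abbrev LL (H : Type*) [NormedAddCommGroup H] [InnerProductSpace ℂ H] :=
  (H →L[ℂ] H) →ₗ[ℂ] (H →L[ℂ] H)

/-- pinching as a real-linear operation -/
noncomputable def pinL {ι : Type} [Fintype ι] (p : ι → H →L[ℂ] H) : Module.End ℝ (LL H) where
  toFun := pin p
  map_add' S T := LinearMap.ext fun x => by
    simp only [pin_apply, LinearMap.add_apply, add_mul, sum_add_distrib]
  map_smul' t T := LinearMap.ext fun x => by
    simp only [pin_apply, LinearMap.smul_apply, smul_mul_assoc, RingHom.id_apply, smul_sum]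

lemma pinL_apply {ι : Type} [Fintype ι] (p : ι → H →L[ℂ] H) (T : LL H) : pinL p T = pin p T := rfl

lemma pin_pin {ι : Type} [Fintype ι] {p : ι → H →L[ℂ] H} (h : Lead.Hc.Part M z p) (T : LL H) :
    pin p (pin p T) = pin p T := by
  classical
  refine LinearMap.ext fun x => ?_
  simp only [pin_apply, sum_mul]
  refine sum_congr rfl fun l _ => ?_
  rw [sum_eq_single l]
  · simp only [mul_assoc, pmul (h.proj l)]
  · intro l' _ hl
    rw [mul_assoc, h.orth l' l hl, mul_zero]
  · simp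

section words
variable {κ ι : Type} [Fintype ι] {P : κ → ι → H →L[ℂ] H}

lemma sy (hP : ∀ j, Lead.Hc.Part M z (P j)) (h1 : ∑ j, ‖ζ j‖ ^ 2 ≤ 1) :
    Sy (fun c (S : LL H) => Near M ζ c ⇑S) (RB M) fun j => pinL (P j) where
  add h h' := near_add h h'
  neg h := near_neg h
  smul h ht := near_smul h ht
  zero := near_zero
  mono h e := near_mono h e
  pinN j h := near_pin (hP j) h
  pinR j h := rb_pin (hP j) h
  idem j := LinearMap.ext fun T => pin_pin (hP j) T
  one h := rb_near h1 h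

lemma PW_pin (w : List κ) (T : LL H) : PW (fun j => pinL (P j)) w T = pinW P w T := by
  induction w with
  | nil => rfl
  | cons j w ih => rw [PW_cons, Module.End.mul_apply, ih]; rfl

variable {N : ℕ} [NeZero N]

lemma wU_append (θ : κ × ι → ZMod N) (a b : List κ) :
    wU P N θ (a ++ b) = wU P N θ a * wU P N θ b := by simp [wU]

lemma wU_single (θ : κ × ι → ZMod N) (j : κ) : wU P N θ [j] = dU P N θ j := by simp [wU]

lemma wU_rep (θ : κ × ι → ZMod N) (n : ℕ) (l : List κ) :
    wU P N θ (rep n l) = wU P N θ l ^ n := prod_rep _ n l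

lemma wU_rev (hP : ∀ j, Lead.Hc.Part M z (P j)) (θ : κ × ι → ZMod N) (l : List κ) :
    wU P N (-θ) l.reverse = star (wU P N θ l) := by
  induction l with
  | nil => simp [wU]
  | cons j l ih =>
    rw [List.reverse_cons, wU_append, ih, wU_single, ← List.singleton_append, wU_append, wU_single,
      star_mul, dU, dU, diag_star (hP j)]
    simp only [Pi.neg_apply, ph_neg]

lemma wU_cu (hz : Cen M z) (hP : ∀ j, Lead.Hc.Part M z (P j)) (θ : κ × ι → ZMod N) (l : List κ)
    (j : κ) : Batch.CU M z (wU P N θ (l ++ [j])) := by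
  have h1 : ∀ j, Batch.CU M z (dU P N θ j) := fun j => diag_cu (hP j) fun _ => norm_ph _
  induction l with
  | nil => rw [List.nil_append, wU_single]; exact h1 j
  | cons i l ih =>
    rw [List.cons_append, ← List.singleton_append, wU_append, wU_single]
    exact (h1 i).mul ih hz.proj

end words

/-! ### frame operations -/

/-- operations given by a frame -/
def IsFr (M : VonNeumannAlgebra H) (z : H →L[ℂ] H) (Φ : LL H → LL H) : Prop :=
  ∃ (ι : Type) (_ : Fintype ι) (y : ι → H →L[ℂ] H), Frame M z y ∧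
    ∀ T x, Φ T x = ∑ i, T (x * y i) * star (y i)

lemma frame_row (hz : Cen M z) {ι : Type} [Fintype ι] {y : ι → H →L[ℂ] H} (h : Frame M z y) :
    Row y 1 := fun ξ => by
  rw [sum_normsq_star, h.sum, re_inner_proj hz.proj, one_pow, one_mul]
  exact pow_le_pow_left₀ (norm_nonneg _) (proj_apply_le hz.proj ξ) 2

lemma isFr_pin {ι : Type} [Fintype ι] {p : ι → H →L[ℂ] H} (h : Lead.Hc.Part M z p) :
    IsFr M z (pin p) :=
  ⟨ι, inferInstance, p, ⟨h.mem, part_cut h, by
    simp only [pstar (h.proj _), pmul (h.proj _), h.sum]⟩,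
    fun T x => by simp only [pin_apply, pstar (h.proj _)]⟩

lemma isFr_comp {Φ Ψ : LL H → LL H} (h : IsFr M z Φ) (h' : IsFr M z Ψ) :
    IsFr M z fun T => Φ (Ψ T) := by
  obtain ⟨ι, _, y, hy, e⟩ := h
  obtain ⟨ι', _, y', hy', e'⟩ := h'
  refine ⟨ι × ι', inferInstance, fun q => y q.1 * y' q.2, ⟨fun q => mul_mem (hy.mem _) (hy'.mem _),
    fun q => by rw [mul_assoc, hy'.cut], ?_⟩, fun T x => ?_⟩
  · rw [Fintype.sum_prod_type, ← hy.sum]
    refine sum_congr rfl fun i _ => ?_
    conv_rhs => lhs; rw [← hy.cut i, ← hy'.sum]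
    simp only [mul_sum, sum_mul, star_mul, mul_assoc]
  · rw [Fintype.sum_prod_type, e]
    refine sum_congr rfl fun i _ => ?_
    rw [e', sum_mul]
    simp only [star_mul, mul_assoc]

lemma isFr_avg {Φ : ℕ → LL H → LL H} (h : ∀ i, IsFr M z (Φ i)) {N : ℕ} (hN : 0 < N) :
    IsFr M z fun T => (N : ℝ)⁻¹ • ∑ i ∈ range N, Φ i T := by
  choose ι inst y hy e using h
  set t : ℝ := √(N : ℝ)⁻¹ with ht
  have t2 : t * t = (N : ℝ)⁻¹ := Real.mul_self_sqrt (by positivity)
  refine ⟨Σ i : Fin N, ι i, inferInstance, fun q => t • y q.1 q.2,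
    ⟨fun q => rsmul_mem _ ((hy _).mem _), fun q => by rw [smul_mul_assoc, (hy _).cut], ?_⟩,
    fun T x => ?_⟩
  · rw [Fintype.sum_sigma]
    simp only [star_smul, star_trivial, smul_mul_smul_comm, t2, ← smul_sum, (hy _).sum, sum_const,
      card_univ, Fintype.card_fin]
    rw [← Nat.cast_smul_eq_nsmul ℝ, smul_smul, inv_mul_cancel₀ (by positivity), one_smul]
  · rw [Fintype.sum_sigma, LinearMap.smul_apply, LinearMap.sum_apply, sum_range, smul_sum]
    refine sum_congr rfl fun i _ => ?_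
    rw [e, smul_sum]
    refine sum_congr rfl fun j _ => ?_
    rw [mul_smul_comm, LinearMap.map_smul_of_tower, star_smul, star_trivial t, smul_mul_smul_comm,
      t2]

lemma isFr_PW {κ ι : Type} [Fintype ι] {P : κ → ι → H →L[ℂ] H} (hP : ∀ j, Lead.Hc.Part M z (P j))
    {l : List κ} (hl : l ≠ []) : IsFr M z (PW (fun j => pinL (P j)) l) := by
  induction l with
  | nil => exact absurd rfl hl
  | cons j l ih =>
    rw [PW_cons]
    by_cases h : l = []
    · rw [h, PW_nil, mul_one]; exact isFr_pin (hP j)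
    · have := isFr_comp (isFr_pin (hP j)) (ih h)
      exact this

lemma av_rsmul {Ω V : Type*} [Fintype Ω] [AddCommGroup V] [Module ℝ V] (t : ℝ) (f : Ω → V) :
    av (fun ω => t • f ω) = t • av f := by
  unfold av; rw [← smul_sum, smul_comm]

lemma test_near {E D : LL H} (hE : RB M E) {p : H →L[ℂ] H} (pM : p ∈ M)
    (pp : IsStarProjection p) {c : ℝ} (hD : Near M ζ c ⇑(D - E)) (e : D p = D 1 * p) :
    ∑ a, ‖(E p - E 1 * p) (ζ a)‖ ^ 2 ≤ 4 * c := by
  set d := E p - E 1 * p with hd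
  have n1 : ‖(1 : H →L[ℂ] H)‖ ≤ 1 := (IsStarProjection.one _).norm_le
  have dM : d ∈ M := sub_mem (hE.mem _ pM) (mul_mem (hE.mem _ (one_mem _)) pM)
  have nd : ‖d‖ ≤ 2 := (norm_sub_le _ _).trans (by
    have := (rb_norm hE pM).trans pp.norm_le
    have := mul_le_one' ((rb_norm hE (one_mem _)).trans n1) pp.norm_le
    linarith)
  set a : H →L[ℂ] H := (2⁻¹ : ℝ) • star d with ha
  have aM : a ∈ M := rsmul_mem _ (star_mem dM)
  have na : ‖a‖ ≤ 1 := by
    rw [ha, norm_smul, norm_star, Real.norm_of_nonneg (by positivity)]; linarith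
  have b1 := hD p pM a aM 1 (one_mem _) pp.norm_le na n1
  have b2 := hD 1 (one_mem _) a aM p pM n1 na pp.norm_le
  have e1 : d = -(D - E) p + (D - E) 1 * p := by
    rw [LinearMap.sub_apply, LinearMap.sub_apply, sub_mul, e, hd]; abel
  have e2 : phi ζ a 1 d = - tr ζ (a * (D - E) p * 1) + tr ζ (a * (D - E) 1 * p) := by
    conv_lhs => rw [e1]
    rw [map_add, map_neg, ← phi_eq, ← phi_eq, mul_one (a * (_ * p)), ← mul_assoc]
  have e3 : ∑ a, ‖d (ζ a)‖ ^ 2 = 2 * (phi ζ a 1 d).re := by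
    rw [← phi_eq, mul_one, tr, Complex.re_sum, mul_sum]
    refine sum_congr rfl fun i _ => ?_
    rw [ha, smul_mul_assoc, re_inner_rsmul, ← norm_sq_eq_re]; ring
  have b3 : ‖phi ζ a 1 d‖ ≤ c + c := by
    rw [e2]; exact (norm_add_le _ _).trans (add_le_add (by rwa [norm_neg]) b2)
  have := Complex.re_le_norm (phi ζ a 1 d)
  linarith

lemma pin_mod {ι : Type} [Fintype ι] {q : ι → H →L[ℂ] H} (h : Lead.Hc.Part M z q) {p : H →L[ℂ] H}
    (pp : IsStarProjection p) (hp : ∀ l, p * q l = q l ∨ p * q l = 0) (E : LL H) :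
    pin q E p = pin q E 1 * p := by
  simp only [pin_apply, sum_mul, one_mul]
  refine sum_congr rfl fun l _ => ?_
  rcases hp l with e | e
  · rw [e, mul_assoc, flip_mul (pstar pp) (pstar (h.proj l)) (pstar (h.proj l)) e]
  · rw [e, mul_assoc, flip_mul (pstar pp) (pstar (h.proj l)) (star_zero _) e]; simp

theorem coreII (hD : DecStmt.{u}) (hA : Lead.Hc.ArcStmt.{u}) (hF : FlatStmt.{u}) :
    CoreIIStmt.{u} := by
  intro H _ _ _ M z k ζ hz hna hζ F hFm ε hε
  classical
  rcases F.eq_empty_or_nonempty with rfl | hne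
  · exact ⟨Unit, inferInstance, fun _ => z, ⟨fun _ => hz.mem, fun _ => hz.sq, by
      simp [hz.star_eq, hz.sq]⟩, fun T _ p hp => absurd hp (notMem_empty p)⟩
  set m := F.card with hm
  have m0 : 0 < m := card_pos.2 hne
  have m0' : (0 : ℝ) < m := by exact_mod_cast m0
  let π : Fin m → H →L[ℂ] H := fun i => F.equivFin.symm i
  set ε₁ : ℝ := ε / (192 * m) with hε₁
  have e0 : 0 < ε₁ := by positivity
  obtain ⟨K, w, w0, w1, hA⟩ := hA ε₁ e0
  obtain ⟨η, η0, hD⟩ := hD (K * (2 * m)) ε₁ e0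
  obtain ⟨ι, _, _, q, e, bad, hq, hπ, he, hfl, hbad⟩ :=
    hF H M z k ζ m π η hz hna hζ (fun i => hFm _ (F.equivFin.symm i).2) η0
  let P : Fin m × Bool → ι → H →L[ℂ] H := fun j => if j.2 then e else q j.1
  let bd : Fin m × Bool → Finset ι := fun j => if j.2 then bad else ∅
  have hP : ∀ j, Lead.Hc.Part M z (P j) := by
    rintro ⟨i, _ | _⟩
    · exact hq i
    · exact he
  have hbd : ∀ j, ∑ a, ‖(∑ l ∈ bd j, P j l) (ζ a)‖ ^ 2 ≤ η := by
    rintro ⟨i, _ | _⟩
    · simpa [bd] using η0.le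
    · exact hbad
  have hR : ∀ ⦃j j' : Fin m × Bool⦄, j.2 ≠ j'.2 → ∀ l ∉ bd j, ∀ l' ∉ bd j', ‖P j l * P j' l'‖ ≤ η := by
    rintro ⟨i, _ | _⟩ ⟨i', _ | _⟩ h l hl l' hl'
    · exact absurd rfl h
    · have := hfl l' hl' i l
      rwa [← norm_star, star_mul, pstar (he.proj _), pstar ((hq i).proj _)] at this
    · exact hfl l hl i' l'
    · exact absurd rfl h
  set u : List (Fin m × Bool) := (List.finRange m).flatMap fun i => [(i, false), (i, true)] with hu
  have ul : u.length = 2 * m := by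
    rw [hu, List.length_flatMap]; simp [mul_comm]
  have une : u ≠ [] := fun h => by rw [h] at ul; simp at ul; omega
  have S := sy hP hζ.norm
  set Q : Fin m × Bool → Module.End ℝ (LL H) := fun j => pinL (P j) with hQ
  have dec : ∀ l : List (Fin m × Bool), l.length = 2 * m → (l ++ l).IsChain (fun j j' => j.2 ≠ j'.2) →
      ∀ T, RB M T → ∀ n ∈ range K, Near M ζ ε₁ fun x =>
        av (fun θ : (Fin m × Bool) × ι → ZMod (K * (2 * m) + 1) =>
          T (x * wU P _ θ l ^ (n + 1)) * star (wU P _ θ l ^ (n + 1))) - (PW Q l ^ (n + 1)) T x := by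
    intro l hl hc T hT n hn
    have := hD H M z k ζ _ ι P bd (K * (2 * m) + 1) (rep (n + 1) l) hz hζ hP (Nat.lt_succ_self _)
      (by rw [len_rep, hl]; exact Nat.mul_le_mul_right _ (mem_range.1 hn))
      ((chain_rep hc n).imp hR) hbd T hT
    simpa only [wU_rep, ← PW_pin, PW_rep] using this
  have hr : ∀ a b j, u = a ++ j :: b → ∀ T, RB M T →
      Near M ζ (3 * ε₁) ⇑(∑ n ∈ range K, w n • ((PW Q (b ++ a ++ [j]) ^ (n + 1)) T -
        (PW Q (b ++ a ++ [j]).reverse ^ (n + 1)) T)) := by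
    intro a b j hab T hT
    set l := b ++ a ++ [j] with hl
    have ll : l.length = 2 * m := by rw [← ul, hab, hl]; simp; ring
    have hc := chain_rot _ hab
    have d1 := near_sum _ fun n hn => near_smul (near_neg (dec l ll hc T hT n hn)) (w0 n)
    have d2 := near_sum _ fun n hn => near_smul (dec l.reverse (by rwa [List.length_reverse])
      (by rw [← List.reverse_append, List.isChain_reverse]; exact hc.imp fun _ _ h => h.symm)
      T hT n hn) (w0 n)
    have d3 := near_av fun θ : (Fin m × Bool) × ι → ZMod (K * (2 * m) + 1) =>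
      hA H M z k ζ _ hz hζ (wU_cu hz hP θ (b ++ a) j) T hT
    rw [← sum_mul, w1, one_mul] at d1 d2
    have d4 := near_add (near_add d1 d2) d3
    refine near_mono (near_congr d4 fun x _ => ?_) (le_of_eq (by ring))
    rw [av_sum, LinearMap.sum_apply, ← sum_add_distrib, ← sum_add_distrib]
    refine sum_congr rfl fun n _ => ?_
    rw [av_rsmul, av_sub, LinearMap.smul_apply, LinearMap.sub_apply, ← smul_add, ← smul_add,
      ← av_equiv (Equiv.neg _) fun θ : (Fin m × Bool) × ι → ZMod (K * (2 * m) + 1) =>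
        T (x * wU P _ θ l.reverse ^ (n + 1)) * star (wU P _ θ l.reverse ^ (n + 1))]
    simp only [Equiv.neg_apply, wU_rev hP, star_pow, star_star]
    congr 1
    abel
  obtain ⟨N, hN⟩ := exists_nat_gt (128 * m * K / ε)
  have N0' : (0 : ℝ) < N := lt_of_le_of_lt (by positivity) hN
  have N0 : 0 < N := by exact_mod_cast N0'
  obtain ⟨I, _, y, hy, hE⟩ := isFr_avg (M := M) (z := z) (Φ := fun i => ⇑(PW Q u ^ (i + 1)))
    (fun i => by
      rw [← PW_rep]
      exact isFr_PW hP (by rw [rep_succ]; simp [une])) N0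
  refine ⟨I, inferInstance, y, hy, fun T hT p hp => ?_⟩
  obtain ⟨i, rfl⟩ : ∃ i, π i = p := ⟨F.equivFin ⟨p, hp⟩, by simp [π]⟩
  have hEr := rb_frame hT hy.mem (frame_row hz hy) (hE T)
  have c1 := S.chain w0 w1 (by positivity) (by positivity) hr hEr (S.fix u N hT)
    (j := (i, false)) (by rw [hu, List.mem_flatMap]; exact ⟨i, List.mem_finRange i, by simp⟩)
  have c2 := test_near hEr (hFm _ hp).1 (hFm _ hp).2.1 c1
    (pin_mod (hq i) (hFm _ hp).2.1 (hπ i) _)
  rw [hE, hE] at c2
  simp only [one_mul] at c2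
  refine c2.trans ?_
  rw [ul]
  push_cast
  have f1 : 96 * m * ε₁ = ε / 2 := by rw [hε₁]; field_simp; ring
  have f2 : 64 * m * K * (N : ℝ)⁻¹ ≤ ε / 2 := by
    rw [div_lt_iff₀ hε] at hN
    rw [← div_eq_mul_inv, div_le_iff₀ N0']
    linarith
  nlinarith

end Crest.Agent.H7.Hc
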