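import Crest.Agent.H7.HcD1

/-! Row 121: decoupling of repeated phases along a flat word. -/

set_option autoImplicit false
set_option linter.unusedSectionVars false

universe u

namespace Crest.Agent.H7.Hc

open scoped InnerProductSpace ComplexConjugate
open Finset Crest.Agent.H5.KS Crest.Agent.Lead.Hc

variable {H : Type*} [NormedAddCommGroup H] [InnerProductSpace ℂ H] [CompleteSpace H]
variable {M : VonNeumannAlgebra H} {z : H →L[ℂ] H} {k : ℕ} {ζ : Fin k → H}
variable {κ ι : Type} [Fintype κ] [DecidableEq κ] [Fintype ι] [DecidableEq ι]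
variable {P : κ → ι → H →L[ℂ] H} {T : (H →L[ℂ] H) →ₗ[ℂ] (H →L[ℂ] H)}

/-- bilinear sums over pairs of words -/
noncomputable def Sm (P : κ → ι → H →L[ℂ] H) (T : (H →L[ℂ] H) →ₗ[ℂ] (H →L[ℂ] H)) (w : List κ)
    (c : List (κ × ι) → List (κ × ι) → ℂ) (x : H →L[ℂ] H) : H →L[ℂ] H :=
  ∑ A ∈ words ι w, ∑ B ∈ words ι w, c A B • (T (x * XW P A) * star (XW P B))

lemma Sm_mem (hP : ∀ j, Lead.Hc.Part M z (P j)) (hT : RB M T) (w : List κ)
    (c : List (κ × ι) → List (κ × ι) → ℂ) {x : H →L[ℂ] H} (hx : x ∈ M) : Sm P T w c x ∈ M :=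
  sum_mem fun A _ => sum_mem fun B _ => vsmul_mem _
    (mul_mem (hT.mem _ (mul_mem hx (XW_mem hP A))) (star_mem (XW_mem hP B)))

lemma inner_Sm (w : List κ) (c : List (κ × ι) → List (κ × ι) → ℂ) (x : H →L[ℂ] H) (η ξ : H) :
    ⟪η, Sm P T w c x ξ⟫_ℂ = ∑ A ∈ words ι w, ∑ B ∈ words ι w,
      c A B * ⟪star (T (x * XW P A)) η, star (XW P B) ξ⟫_ℂ := by
  simp only [Sm, _root_.sum_apply, inner_sum, smul_apply, inner_smul_right, inner_star_left,
    mul_apply_eq_comp]

lemma rb_ite (hP : ∀ j, Lead.Hc.Part M z (P j)) (hT : RB M T) (w : List κ)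
    (SA : List (κ × ι) → Prop) [DecidablePred SA] {δ : ℝ} (hδ : 0 ≤ δ)
    (h : ∀ ξ, ∑ A ∈ words ι w, (if SA A then ‖star (XW P A) ξ‖ ^ 2 else 0) ≤ δ * ‖ξ‖ ^ 2)
    {x : H →L[ℂ] H} (hx : x ∈ M) (n1 : ‖x‖ ≤ 1) (η : H) :
    ∑ A ∈ words ι w, (if SA A then ‖star (T (x * XW P A)) η‖ ^ 2 else 0) ≤ δ * ‖η‖ ^ 2 := by
  rw [← sum_filter, ← Real.sq_sqrt hδ]
  refine rb_rowS hT _ (fun A => x * XW P A) _ (fun A _ => mul_mem hx (XW_mem hP A)) (fun ξ => ?_) η
  rw [sum_filter, Real.sq_sqrt hδ]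
  simp only [star_mul, mul_apply_eq_comp]
  refine (h _).trans (mul_le_mul_of_nonneg_left ?_ hδ)
  exact pow_le_pow_left₀ (norm_nonneg _) (apply_le_of_le_one (by rwa [norm_star]) _) 2

lemma Sm_bound {n : ℕ} {w : List κ} (hw : w.length ≤ n) (c : List (κ × ι) → List (κ × ι) → ℂ)
    (SA SB : List (κ × ι) → Prop) [DecidablePred SA] [DecidablePred SB] (c1 : ∀ A B, ‖c A B‖ ≤ 1)
    (hc : ∀ A ∈ words ι w, ∀ B ∈ words ι w, c A B ≠ 0 → (∀ s, s ∈ A ↔ s ∈ B) ∧ SA A ∧ SB B)
    {K : Type} [Fintype K] (η ξ : K → H) (x : H →L[ℂ] H) :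
    ‖∑ j, ⟪η j, Sm P T w c x (ξ j)⟫_ℂ‖ ^ 2 ≤
      (((n : ℝ) + 1) ^ n * ∑ j, ∑ A ∈ words ι w,
        if SA A then ‖star (T (x * XW P A)) (η j)‖ ^ 2 else 0) *
      (((n : ℝ) + 1) ^ n * ∑ j, ∑ B ∈ words ι w,
        if SB B then ‖star (XW P B) (ξ j)‖ ^ 2 else 0) := by
  classical
  simp only [inner_Sm]
  exact pair_bound (words ι w) c (fun A j => star (T (x * XW P A)) (η j))
    (fun B j => star (XW P B) (ξ j)) (fun A B => ∀ s, s ∈ A ↔ s ∈ B) SA SB _ c1 hc
    (fun A hA => count_rel hw hA _ fun B h s hs => (h s).2 hs)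
    (fun B hB => count_rel hw hB _ fun A h s hs => (h s).1 hs)

/-- the off-diagonal correlation -/
noncomputable def od (N : ℕ) [NeZero N] (A B : List (κ × ι)) : ℂ :=
  if A.head? = B.head? then 0 else chi N A B

lemma norm_od (N : ℕ) [NeZero N] (A B : List (κ × ι)) : ‖od N A B‖ ≤ 1 := by
  unfold od; split_ifs
  · simp
  · exact norm_chi A B

lemma od_ne {N : ℕ} [NeZero N] {A B : List (κ × ι)} (hA : A.length < N) (hB : B.length < N)
    (h : od N A B ≠ 0) : (∀ s, s ∈ A ↔ s ∈ B) ∧ A.head? ≠ B.head? := by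
  unfold od at h
  split_ifs at h with h1
  · exact absurd rfl h
  · exact ⟨chi_iff hA hB h, h1⟩

lemma good_iff {bad : κ → Finset ι} {A B : List (κ × ι)} (h : ∀ s, s ∈ A ↔ s ∈ B) :
    Good bad A ↔ Good bad B := by simp only [Good, h]

lemma near_od (hP : ∀ j, Lead.Hc.Part M z (P j)) (hT : RB M T) (hζ : Tr M z ζ)
    (bad : κ → Finset ι) {n N : ℕ} [NeZero N] (hN : n < N) {δ : ℝ} (d0 : 0 ≤ δ) (d1 : δ ≤ 1)
    (j : κ) (w : List κ) (hw : (j :: w).length ≤ n)
    (hc : (j :: w).IsChain fun j j' => ∀ l ∉ bad j, ∀ l' ∉ bad j', ‖P j l * P j' l'‖ ≤ δ ^ 2)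
    (hb : ∀ j, ∑ a, ‖(∑ l ∈ bad j, P j l) (ζ a)‖ ^ 2 ≤ δ ^ 2) :
    Near M ζ (4 * ((n : ℝ) + 1) ^ n * (n + 1) * δ) (Sm P T (j :: w) (od N)) := by
  intro x hx a ha v hv n1 n2 n3
  set R : ℝ := ((n : ℝ) + 1) ^ n with hR
  have R0 : 0 ≤ R := by positivity
  have n0 : (0 : ℝ) ≤ n := Nat.cast_nonneg n
  have hw' : ((j :: w).length : ℝ) ≤ n := by exact_mod_cast hw
  have hw'' : (w.length : ℝ) ≤ n := by
    rw [List.length_cons, Nat.cast_succ] at hw'; linarith
  have lt : ∀ A ∈ words ι (j :: w), A.length < N := fun A hA => by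
    rw [len_words hA]; exact hw.trans_lt hN
  let cb : List (κ × ι) → List (κ × ι) → ℂ := fun A B => if Good bad B then 0 else od N A B
  let cg : ι → List (κ × ι) → List (κ × ι) → ℂ := fun l A B =>
    if Good bad B ∧ B.head? = some (j, l) then od N A B else 0
  have split : Sm P T (j :: w) (od N) x =
      Sm P T (j :: w) cb x + ∑ l, Sm P T (j :: w) (cg l) x := by
    simp only [Sm]
    rw [sum_comm (s := (univ : Finset ι)), ← sum_add_distrib]
    refine sum_congr rfl fun A _ => ?_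
    rw [sum_comm (s := (univ : Finset ι)), ← sum_add_distrib]
    refine sum_congr rfl fun B hB => ?_
    rw [← sum_smul, ← add_smul]
    congr 1
    obtain ⟨l, B', -, rfl⟩ := mem_words_cons hB
    by_cases h : Good bad ((j, l) :: B') <;> simp [cb, cg, h]
  have hall : ∀ ξ, ∑ A ∈ words ι (j :: w), (if True then ‖star (XW P A) ξ‖ ^ 2 else 0) ≤
      1 * ‖ξ‖ ^ 2 := fun ξ => by simpa using row_all hP (j :: w) ξ
  have b1 : ‖phi ζ a v (Sm P T (j :: w) cb x)‖ ≤ 2 * R * (n + 1) * δ := by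
    refine le_of_sq ?_ (by positivity)
    rw [phi_inner]
    refine (Sm_bound hw cb (fun _ => True) (fun B => ¬ Good bad B) (fun A B => ?_)
      (fun A hA B hB h => ?_) _ _ x).trans ?_
    · simp only [cb]; split_ifs
      · simp
      · exact norm_od N A B
    · simp only [cb] at h
      split_ifs at h with h1
      · exact absurd rfl h
      · exact ⟨(od_ne (lt A hA) (lt B hB) h).1, trivial, h1⟩
    · have e1 : ∑ i, ∑ A ∈ words ι (j :: w),
          (if True then ‖star (T (x * XW P A)) (star a (ζ i))‖ ^ 2 else 0) ≤ 1 := by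
        refine (sum_le_sum fun i _ => rb_ite hP hT _ _ zero_le_one hall hx n1 _).trans ?_
        simp only [one_mul]
        exact (sum_normsq_one ζ (a := star a) (by rwa [norm_star])).trans hζ.norm
      have e2 := row_bad hP bad hζ.ct hb (j :: w) Unit (fun _ => v) (fun _ => hv) (fun ξ => by
        rw [Fintype.sum_unique, one_pow, one_mul]
        exact pow_le_pow_left₀ (norm_nonneg _) (apply_le_of_le_one (by rwa [norm_star]) _) 2)
      rw [Fintype.sum_unique] at e2
      have e3 : 2 * ((j :: w).length : ℝ) * δ ^ 2 ≤ (2 * (n + 1) * δ) ^ 2 := by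
        rw [mul_pow]
        exact mul_le_mul_of_nonneg_right (by nlinarith) (sq_nonneg _)
      calc _ ≤ (R * 1) * (R * (2 * (n + 1) * δ) ^ 2) :=
            mul_le_mul (mul_le_mul_of_nonneg_left e1 R0)
              (mul_le_mul_of_nonneg_left (e2.trans e3) R0)
              (mul_nonneg R0 (sum_nonneg fun _ _ => sum_nonneg fun _ _ => by
                split_ifs <;> positivity)) (by positivity)
        _ = _ := by ring
  have b2 : ∀ l, ‖Sm P T (j :: w) (cg l) x‖ ≤ R * (n + 1) * δ := fun l => by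
    refine opNorm_le_of_sq (by positivity) fun ξ => ?_
    set y := Sm P T (j :: w) (cg l) x ξ with hy
    have e0 := Sm_bound (P := P) (T := T) hw (cg l) (fun A => Good bad A ∧ (j, l) ∈ A.tail)
      (fun _ => True) (fun A B => by
        simp only [cg]; split_ifs
        · exact norm_od N A B
        · simp) (fun A hA B hB h => by
        simp only [cg] at h
        split_ifs at h with h1
        · obtain ⟨h2, h3⟩ := od_ne (lt A hA) (lt B hB) h
          refine ⟨h2, ⟨(good_iff h2).2 h1.1, ?_⟩, trivial⟩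
          have h4 := (h2 _).2 (List.mem_of_mem_head? h1.2)
          obtain ⟨m, A', -, rfl⟩ := mem_words_cons hA
          rw [h1.2] at h3
          rcases List.mem_cons.1 h4 with h5 | h5
          · exact absurd (by rw [← h5]; rfl) h3
          · exact h5
        · exact absurd rfl h) (K := Unit) (fun _ => y) (fun _ => ξ) x
    simp only [Fintype.sum_unique] at e0
    rw [← hy, inner_self_eq_norm_sq_to_K, norm_pow, RCLike.norm_ofReal, abs_norm] at e0
    have e1 := rb_ite hP hT (j :: w) (fun A => Good bad A ∧ (j, l) ∈ A.tail)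
      (δ := w.length * (δ ^ 2) ^ 2) (by positivity) (fun ξ => row_good hP bad (j, l) w j ξ hc) hx n1 y
    have e2 : (w.length : ℝ) * (δ ^ 2) ^ 2 ≤ ((n + 1) * δ) ^ 2 := by
      rw [mul_pow]
      have : δ ^ 2 ≤ 1 := pow_le_one₀ d0 d1
      exact mul_le_mul (by nlinarith) (by nlinarith [sq_nonneg δ]) (by positivity) (by positivity)
    have e3 : (‖y‖ ^ 2) ^ 2 ≤ ‖y‖ ^ 2 * ((R * (n + 1) * δ) ^ 2 * ‖ξ‖ ^ 2) :=
      calc _ ≤ (R * (((n + 1) * δ) ^ 2 * ‖y‖ ^ 2)) * (R * (1 * ‖ξ‖ ^ 2)) :=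
            e0.trans (mul_le_mul (mul_le_mul_of_nonneg_left
              (e1.trans (mul_le_mul_of_nonneg_right e2 (sq_nonneg _))) R0)
              (mul_le_mul_of_nonneg_left (hall ξ) R0)
              (mul_nonneg R0 (sum_nonneg fun _ _ => by split_ifs <;> positivity)) (by positivity))
        _ = _ := by ring
    rcases (sq_nonneg ‖y‖).eq_or_lt with h0 | h0
    · rw [← h0]; positivity
    · rw [sq (‖y‖ ^ 2)] at e3; exact le_of_mul_le_mul_left e3 h0
  have b3 : ∀ l, Sm P T (j :: w) (cg l) x = Sm P T (j :: w) (cg l) x * P j l := fun l => by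
    simp only [Sm, sum_mul]
    refine sum_congr rfl fun A _ => sum_congr rfl fun B hB => ?_
    simp only [cg]
    split_ifs with h
    · obtain ⟨m, B', -, rfl⟩ := mem_words_cons hB
      have : m = l := by simpa using h.2
      subst this
      rw [smul_mul_assoc, XW_cons, star_mul, pstar ((hP _).proj _), mul_assoc, mul_assoc,
        pmul ((hP _).proj _)]
    · simp
  have b4 : ∀ l, ‖phi ζ a v (Sm P T (j :: w) (cg l) x)‖ ≤
      2 * (R * (n + 1) * δ) * ∑ i, ‖P j l (ζ i)‖ ^ 2 := fun l => by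
    rw [b3]
    refine (phi1 hζ.ct ha hv (Sm_mem hP hT _ _ hx) ((hP j).mem l) ((hP j).proj l) n2 n3).trans ?_
    exact mul_le_mul_of_nonneg_right (mul_le_mul_of_nonneg_left (b2 l) zero_le_two) (by positivity)
  have b5 : ∑ l, ∑ i, ‖P j l (ζ i)‖ ^ 2 ≤ 1 := by
    rw [sum_comm]
    exact (sum_le_sum fun i _ => part_sum_le (hP j) univ _).trans hζ.norm
  rw [phi_eq, split, map_add, map_sum]
  refine (norm_add_le _ _).trans ?_
  have b6 := (norm_sum_le _ _).trans (sum_le_sum fun l (_ : l ∈ univ) => b4 l)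
  rw [← mul_sum] at b6
  have b7 := mul_le_mul_of_nonneg_left b5 (show 0 ≤ 2 * (R * (n + 1) * δ) by positivity)
  linarith

/-- the average over the random phases, as a linear map -/
noncomputable def gam (P : κ → ι → H →L[ℂ] H) (N : ℕ) [NeZero N] (w : List κ)
    (T : (H →L[ℂ] H) →ₗ[ℂ] (H →L[ℂ] H)) : (H →L[ℂ] H) →ₗ[ℂ] (H →L[ℂ] H) where
  toFun := Sm P T w (chi N)
  map_add' x y := by simp only [Sm, add_mul, map_add, smul_add, sum_add_distrib]
  map_smul' c x := by
    simp only [Sm, smul_mul_assoc, map_smul, RingHom.id_apply, smul_sum, smul_comm c]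

lemma gam_eq (N : ℕ) [NeZero N] (w : List κ) (x : H →L[ℂ] H) :
    av (fun θ : κ × ι → ZMod N => T (x * wU P N θ w) * star (wU P N θ w)) = gam P N w T x := by
  simp only [wU_eq]
  exact av_expand (words ι w) (fun A => A) (XW P) T x

lemma gam_cons (hP : ∀ j, Lead.Hc.Part M z (P j)) (N : ℕ) [NeZero N] (j : κ) (w : List κ)
    (x : H →L[ℂ] H) :
    gam P N (j :: w) T x = Sm P T (j :: w) (od N) x + pin (P j) (gam P N w T) x := by
  rw [pin_apply]
  change Sm P T (j :: w) (chi N) x = _ + ∑ l, Sm P T w (chi N) (x * P j l) * P j l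
  simp only [Sm, sum_words_cons, sum_mul]
  rw [← sum_add_distrib]
  refine sum_congr rfl fun l _ => ?_
  rw [← sum_add_distrib]
  refine sum_congr rfl fun A _ => ?_
  have e : ∑ B ∈ words ι w, chi N A B • (T (x * P j l * XW P A) * star (XW P B)) * P j l =
      ∑ l', ∑ B ∈ words ι w, (if l = l' then chi N ((j, l) :: A) ((j, l') :: B) else 0) •
        (T (x * XW P ((j, l) :: A)) * star (XW P ((j, l') :: B))) := by
    rw [sum_eq_single l]
    · refine sum_congr rfl fun B _ => ?_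
      rw [if_pos rfl, chi_cons, XW_cons, XW_cons, star_mul, pstar ((hP _).proj _), smul_mul_assoc]
      simp only [mul_assoc]
    · intro l' _ h
      simp [h.symm]
    · simp
  rw [e, ← sum_add_distrib]
  refine sum_congr rfl fun l' _ => ?_
  rw [← sum_add_distrib]
  refine sum_congr rfl fun B _ => ?_
  rw [← add_smul]
  congr 1
  by_cases h : l = l' <;> simp [od, h]

theorem decStmt : DecStmt.{u} := by
  intro n ε hε
  set C : ℝ := 4 * ((n : ℝ) + 1) ^ n * (n + 1) with hC
  have C0 : 0 < C := by positivity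
  set δ : ℝ := min 1 (ε / (C * (n + 1))) with hδ
  have d0 : 0 < δ := lt_min one_pos (by positivity)
  have d2 : C * (n + 1) * δ ≤ ε := by
    have := min_le_right 1 (ε / (C * (n + 1)))
    rwa [← hδ, le_div_iff₀' (by positivity)] at this
  refine ⟨δ ^ 2, by positivity, ?_⟩
  intro H _ _ _ M z k ζ κ ι _ _ _ _ P bad N _ w _ hζ hP hN hw hc hb T hT
  have key : Near M ζ (w.length * (C * δ)) ⇑(gam P N w T - pinW P w T) := by
    induction w with
    | nil =>
      refine near_mono (near_congr near_zero fun x _ => ?_) (by simp)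
      change Sm P T [] (chi N) x - T x = 0
      simp [Sm, words_nil, chi_nil, XW_nil]
    | cons j w ih =>
      have i1 := near_pin (hP j) (ih ((Nat.le_succ _).trans hw) hc.tail)
      have i2 := near_od hP hT hζ bad hN d0.le (min_le_left _ _) j w hw hc hb
      have i3 := near_add i2 i1
      refine near_mono (near_congr i3 fun x _ => ?_) (le_of_eq ?_)
      · rw [pin_sub, LinearMap.sub_apply, LinearMap.sub_apply, gam_cons hP, pinW_cons]; abel
      · rw [List.length_cons, Nat.cast_succ]; ring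
  refine near_mono (near_congr key fun x _ => by rw [gam_eq]; rfl) (le_trans ?_ d2)
  have : (w.length : ℝ) ≤ n + 1 := by exact_mod_cast hw.trans (Nat.le_succ n)
  nlinarith [mul_pos C0 d0]

end Crest.Agent.H7.Hc
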