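import Crest.Agent.H5.KS.Iface
import Crest.Agent.H7.KadPh

/-! Local Dixmier averaging. -/

set_option autoImplicit false

namespace Crest.Agent.H7.Batch

open scoped InnerProductSpace
open Finset Crest.Agent.H5.KS

variable {H : Type*} [NormedAddCommGroup H] [InnerProductSpace ℂ H] [CompleteSpace H]
variable {M : VonNeumannAlgebra H} {g : H →L[ℂ] H}

/-- unitary of the corner -/
def CU (M : VonNeumannAlgebra H) (g v : H →L[ℂ] H) : Prop :=
  v ∈ M ∧ star v * v = g ∧ v * star v = g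

lemma CU.pi {v : H →L[ℂ] H} (h : CU M g v) (pg : IsStarProjection g) : PI v :=
  PI.of_dom (by rw [h.2.1]; exact pg)

lemma CU.mul_g {v : H →L[ℂ] H} (h : CU M g v) (pg : IsStarProjection g) : v * g = v := by
  rw [← h.2.1]; exact (h.pi pg).eq'

lemma CU.g_mul {v : H →L[ℂ] H} (h : CU M g v) (pg : IsStarProjection g) : g * v = v := by
  rw [← h.2.2]; exact (h.pi pg).eq

lemma CU.star {v : H →L[ℂ] H} (h : CU M g v) : CU M g (star v) :=
  ⟨star_mem h.1, by rw [star_star]; exact h.2.2, by rw [star_star]; exact h.2.1⟩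

lemma CU.mul {v w : H →L[ℂ] H} (h : CU M g v) (h' : CU M g w) (pg : IsStarProjection g) :
    CU M g (v * w) := by
  refine ⟨mul_mem h.1 h'.1, ?_, ?_⟩
  · rw [star_mul, mul_assoc, ← mul_assoc (Star.star v), h.2.1, h'.g_mul pg, h'.2.1]
  · rw [star_mul, mul_assoc, ← mul_assoc w, h'.2.2, h.star.g_mul pg, h.2.2]

lemma CU.self (gM : g ∈ M) (pg : IsStarProjection g) : CU M g g :=
  ⟨gM, by rw [pstar pg, pmul pg], by rw [pstar pg, pmul pg]⟩

lemma CU.norm_le {v : H →L[ℂ] H} (h : CU M g v) (pg : IsStarProjection g) : ‖v‖ ≤ 1 :=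
  (h.pi pg).norm_le

section T
variable {Ω Ω' : Type*} [Fintype Ω] [Fintype Ω']

/-- averaging operator -/
noncomputable def TT (v : Ω → H →L[ℂ] H) (A : H →L[ℂ] H) : H →L[ℂ] H :=
  Kad.av fun t => star (v t) * A * v t

lemma TT_mem {v : Ω → H →L[ℂ] H} (hv : ∀ t, CU M g (v t)) {A : H →L[ℂ] H} (hA : A ∈ M) :
    TT v A ∈ M :=
  rsmul_mem _ (sum_mem fun t _ => mul_mem (mul_mem (star_mem (hv t).1) hA) (hv t).1)

lemma TT_star (v : Ω → H →L[ℂ] H) (A : H →L[ℂ] H) : star (TT v A) = TT v (star A) := by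
  rw [TT, Kad.star_av]
  simp only [star_mul, star_star, mul_assoc, TT]

lemma TT_add (v : Ω → H →L[ℂ] H) (A B : H →L[ℂ] H) : TT v (A + B) = TT v A + TT v B := by
  simp only [TT, mul_add, add_mul, Kad.av_add]

lemma TT_sub (v : Ω → H →L[ℂ] H) (A B : H →L[ℂ] H) : TT v (A - B) = TT v A - TT v B := by
  simp only [TT, mul_sub, sub_mul, Kad.av_sub]

lemma TT_smul (v : Ω → H →L[ℂ] H) (c : ℂ) (A : H →L[ℂ] H) : TT v (c • A) = c • TT v A := by
  simp only [TT, mul_smul_comm, smul_mul_assoc, Kad.av_smul]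

lemma TT_g [Nonempty Ω] {v : Ω → H →L[ℂ] H} (hv : ∀ t, CU M g (v t)) (pg : IsStarProjection g) :
    TT v g = g := by
  have : ∀ t, star (v t) * g * v t = g := fun t => by
    rw [mul_assoc, (hv t).g_mul pg, (hv t).2.1]
  simp only [TT, this, Kad.av_const]

lemma TT_cen {v : Ω → H →L[ℂ] H} (hv : ∀ t, CU M g (v t)) {z : H →L[ℂ] H} (hz : Cen M z)
    (A : H →L[ℂ] H) : TT v (A * z) = TT v A * z := by
  rw [TT, TT, ← Kad.av_mul_right]
  congr 1
  ext1 t
  simp only [mul_assoc, hz.comm _ (hv t).1]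

lemma norm_conj_le {v : H →L[ℂ] H} (hv : ‖v‖ ≤ 1) (A : H →L[ℂ] H) : ‖star v * A * v‖ ≤ ‖A‖ := by
  have h1 := norm_mul_le (star v * A) v
  have h2 := norm_mul_le (star v) A
  rw [nstar] at h2
  have h3 : ‖star v * A‖ ≤ ‖A‖ := h2.trans (mul_le_of_le_one_left (norm_nonneg _) hv)
  exact h1.trans ((mul_le_of_le_one_right (norm_nonneg _) hv).trans h3)

lemma norm_TT_le [Nonempty Ω] {v : Ω → H →L[ℂ] H} (hv : ∀ t, CU M g (v t))
    (pg : IsStarProjection g) (A : H →L[ℂ] H) : ‖TT v A‖ ≤ ‖A‖ :=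
  (Kad.norm_av_le _).trans (Kad.av_le_const fun t => norm_conj_le ((hv t).norm_le pg) A)

lemma TT_prod (v : Ω → H →L[ℂ] H) (w : Ω' → H →L[ℂ] H) (A : H →L[ℂ] H) :
    TT (fun t : Ω' × Ω => v t.2 * w t.1) A = TT w (TT v A) := by
  rw [TT, Kad.av_prod, TT]
  congr 1
  ext1 s
  rw [TT, ← Kad.av_mul_left, ← Kad.av_mul_right]
  simp only [star_mul, mul_assoc]

lemma TT_g_mul {v : Ω → H →L[ℂ] H} (hv : ∀ t, CU M g (v t)) (pg : IsStarProjection g)
    (A : H →L[ℂ] H) : g * TT v A = TT v A := by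
  rw [TT, ← Kad.av_mul_left]
  congr 1
  ext1 t
  rw [← mul_assoc, ← mul_assoc, (hv t).star.g_mul pg]

/-- approximate scalarity -/
def Good (g B z : H →L[ℂ] H) (ε : ℝ) : Prop := ∃ c : ℂ, ‖(B - c • g) * z‖ ≤ ε

lemma norm_cut {B z z' : H →L[ℂ] H} (hz : Cen M z) (hz' : Cen M z') (h : z' * z = z') :
    ‖B * z'‖ ≤ ‖B * z‖ := by
  have : B * z' = B * z * z' := by rw [mul_assoc, hz.comm _ hz'.mem, h]
  rw [this]
  exact (norm_mul_le _ _).trans (mul_le_of_le_one_right (norm_nonneg _) (hz'.proj.norm_le _))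

lemma Good.TT [Nonempty Ω] {v : Ω → H →L[ℂ] H} (hv : ∀ t, CU M g (v t))
    (pg : IsStarProjection g) {B z z' : H →L[ℂ] H} {ε : ℝ} (hz : Cen M z) (hz' : Cen M z')
    (h : z' * z = z') (hB : Good g B z ε) : Good g (TT v B) z' ε := by
  obtain ⟨c, hc⟩ := hB
  refine ⟨c, (norm_cut hz hz' h).trans ?_⟩
  have : (Batch.TT v B - c • g) * z = Batch.TT v ((B - c • g) * z) := by
    rw [TT_cen hv hz, TT_sub, TT_smul, TT_g hv pg]
  rw [this]
  exact (norm_TT_le hv pg _).trans hc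

end T

lemma norm_le_of_bounds {B e : H →L[ℂ] H} (hB : IsSelfAdjoint B) (pe : IsStarProjection e) {l : ℝ}
    (hl : 0 ≤ l) (h1 : B ≤ l • e) (h2 : -(l • e) ≤ B) : ‖B‖ ≤ l := by
  have he : l • e ≤ algebraMap ℝ _ l := by
    rw [Algebra.algebraMap_eq_smul_one]
    exact smul_le_smul_of_nonneg_left pe.le_one hl
  have h3 : B ≤ algebraMap ℝ _ l := h1.trans he
  have h4 : algebraMap ℝ _ (-l) ≤ B := by
    rw [map_neg]; exact (neg_le_neg he).trans h2
  rw [← cfc_id' ℝ B]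
  refine norm_cfc_le hl fun x hx => ?_
  rw [Real.norm_eq_abs, abs_le]
  exact ⟨(algebraMap_le_iff_le_spectrum (a := B)).1 h4 x hx,
    (le_algebraMap_iff_spectrum_le (a := B)).1 h3 x hx⟩

lemma le_smul_of_norm {B e : H →L[ℂ] H} (hB : IsSelfAdjoint B) (pe : IsStarProjection e) {l : ℝ}
    (h : ‖B‖ ≤ l) (he : e * B = B) : B ≤ l • e := by
  have h1 : B ≤ algebraMap ℝ _ l := hB.le_algebraMap_norm_self.trans (by
    rw [Algebra.algebraMap_eq_smul_one, Algebra.algebraMap_eq_smul_one]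
    exact smul_le_smul_of_nonneg_right h zero_le_one)
  have h2 := star_left_conjugate_le_conjugate h1 e
  have he' : B * e = B := flip_mul (pstar pe) hB.star_eq hB.star_eq he
  rwa [pstar pe, he, he', Algebra.algebraMap_eq_smul_one, mul_smul_comm, mul_one, smul_mul_assoc,
    pmul pe] at h2

/-- the swap step -/
lemma swap_step (gM : g ∈ M) (pg : IsStarProjection g) {b f z : H →L[ℂ] H} {l : ℝ} (hl : 0 ≤ l)
    (hb : IsSelfAdjoint b) (bM : b ∈ M) (gb : g * b = b) (hz : Cen M z) (hn : ‖b * z‖ ≤ l)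
    (fM : f ∈ M) (pf : IsStarProjection f) (gf : g * f = f) (hle : b * z ≤ l • (f * z))
    (hs : Sub M (f * z) (g - f)) :
    ∃ u, CU M g u ∧ ‖((2⁻¹ : ℝ) • (b + star u * b * u) + (l / 4) • g) * z‖ ≤ 3 / 4 * l := by
  obtain ⟨s, sM, hp, s1, s2⟩ := hs
  have fg : f * g = f := flip_mul (pstar pg) (pstar pf) (pstar pf) gf
  have pfz := hz.proj_mul fM pf
  have pgz := hz.proj_mul gM pg
  have sfz : s * (f * z) = s := by rw [← s1]; exact hp.eq'
  have fs : f * s = 0 := by rw [← s2, ← mul_assoc, mul_sub, fg, pmul pf, sub_self, zero_mul]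
  have gs : g * s = s := by
    have := s2; rw [sub_mul, fs, sub_zero] at this; exact this
  have sz : s * z = s := by rw [← sfz, mul_assoc, mul_assoc, hz.sq]
  have zs : z * s = s := by rw [hz.comm s sM, sz]
  have sf : s * f = s := by
    rw [← sfz, mul_assoc, mul_assoc, hz.comm f fM, ← mul_assoc f, pmul pf]
  have sg : s * g = s := by rw [← sf, mul_assoc, fg]
  have ss : s * s = 0 := by
    calc s * s = s * f * s := by rw [sf]
      _ = 0 := by rw [mul_assoc, fs, mul_zero]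
  have gs' : g * star s = star s := by simpa [pstar pg] using congrArg star sg
  have sg' : star s * g = star s := by simpa [pstar pg] using congrArg star gs
  have ss' : star s * star s = 0 := by simpa using congrArg star ss
  have e1 := hp.eq
  have e2 := hp.eq'
  have e3 := hp.seq
  have e4 := hp.seq'
  set u := s + star s + (g - star s * s - s * star s) with hu
  have us : star u = u := by
    simp only [hu, star_add, star_sub, star_mul, star_star, pstar pg]; abel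
  have u_s : u * s = star s * s := by
    simp only [hu, add_mul, sub_mul, ss, gs, mul_assoc, mul_zero, e2]; abel
  have u_s' : u * star s = s * star s := by
    simp only [hu, add_mul, sub_mul, ss', gs', mul_assoc, mul_zero, e4]; abel
  have u_g : u * g = u := by
    simp only [hu, add_mul, sub_mul, sg, sg', pmul pg, mul_assoc]
  have uu : u * u = g := by
    conv_lhs => rhs; rw [hu]
    rw [mul_add, mul_add, mul_sub, mul_sub, u_s, u_s', u_g, ← mul_assoc, ← mul_assoc, u_s, u_s',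
      e1, e3, hu]
    abel
  have uM : u ∈ M := add_mem (add_mem sM (star_mem sM))
    (sub_mem (sub_mem gM (mul_mem (star_mem sM) sM)) (mul_mem sM (star_mem sM)))
  refine ⟨u, ⟨uM, by rw [us, uu], by rw [us, uu]⟩, ?_⟩
  have bz : IsSelfAdjoint (b * z) := by
    rw [IsSelfAdjoint, star_mul, hz.star_eq, hb.star_eq, hz.comm b bM]
  have cz : star u * b * u * z = star u * (b * z) * u := by
    simp only [mul_assoc, hz.comm u uM]
  have ufu : star u * (f * z) * u = s * star s := by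
    have : s * u = s * star s := by simpa [us] using congrArg star u_s'
    rw [us, ← s1, ← mul_assoc, u_s', e1, this]
  have ugu : star u * (g * z) * u = g * z := by
    rw [us, ← mul_assoc, u_g, mul_assoc, hz.comm u uM, ← mul_assoc, uu]
  have up2 : star u * (b * z) * u ≤ l • (s * star s) := by
    have := star_left_conjugate_le_conjugate hle u
    rwa [mul_smul_comm, smul_mul_assoc, ufu] at this
  have low1 : -(l • (g * z)) ≤ b * z := by
    rw [neg_le]
    refine le_smul_of_norm bz.neg pgz (by rwa [norm_neg]) ?_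
    rw [mul_neg, mul_assoc, ← mul_assoc z, hz.comm b bM, mul_assoc b, hz.sq, ← mul_assoc, gb]
  have low2 : -(l • (g * z)) ≤ star u * (b * z) * u := by
    have := star_left_conjugate_le_conjugate low1 u
    rwa [mul_neg, neg_mul, mul_smul_comm, smul_mul_assoc, ugu] at this
  have hsum : f * z + s * star s ≤ g * z := by
    have o1 : f * z * (s * star s) = 0 := by rw [mul_assoc, ← mul_assoc z, zs, ← mul_assoc, fs, zero_mul]
    have p1 : IsStarProjection (f * z + s * star s) := pfz.add hp.ran o1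
    refine (p1.le_iff_mul_eq_right pgz).2 ?_
    rw [mul_add, mul_assoc, mul_assoc, ← mul_assoc z f, hz.comm f fM, mul_assoc f, hz.sq,
      ← mul_assoc g, gf, ← mul_assoc z, zs, ← mul_assoc, gs]
  have e : ((2⁻¹ : ℝ) • (b + star u * b * u) + (l / 4) • g) * z =
      (2⁻¹ : ℝ) • (b * z + star u * (b * z) * u) + (l / 4) • (g * z) := by
    rw [add_mul, smul_mul_assoc, smul_mul_assoc, add_mul, cz]
  rw [e]
  refine norm_le_of_bounds ?_ pgz (by positivity) ?_ ?_
  · refine IsSelfAdjoint.add (IsSelfAdjoint.smul (IsSelfAdjoint.all _) (bz.add (bz.conjugate' u)))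
      (IsSelfAdjoint.smul (IsSelfAdjoint.all _) pgz.isSelfAdjoint)
  · have h1 : b * z + star u * (b * z) * u ≤ l • (g * z) := by
      refine (add_le_add hle up2).trans ?_
      rw [← smul_add]
      exact smul_le_smul_of_nonneg_left hsum hl
    have h2 := smul_le_smul_of_nonneg_left h1 (show (0 : ℝ) ≤ 2⁻¹ by norm_num)
    refine (add_le_add_left h2 _).trans (le_of_eq ?_)
    module
  · have h2 := smul_le_smul_of_nonneg_left (add_le_add low1 low2) (show (0 : ℝ) ≤ 2⁻¹ by norm_num)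
    refine le_trans (le_of_eq ?_) (add_le_add_left h2 _)
    module

lemma step (gM : g ∈ M) (pg : IsStarProjection g) {b z : H →L[ℂ] H} {l : ℝ} (hl : 0 ≤ l)
    (hb : IsSelfAdjoint b) (bM : b ∈ M) (gb : g * b = b) (hz : Cen M z) (h0 : z ≠ 0)
    (hn : ‖b * z‖ ≤ l) :
    ∃ z', Cen M z' ∧ z' ≠ 0 ∧ z' * z = z' ∧ ∃ u, CU M g u ∧ ∃ c : ℝ,
      ‖((2⁻¹ : ℝ) • (b + star u * b * u) - c • g) * z'‖ ≤ 3 / 4 * l := by
  obtain ⟨f, pf, f1, f2, f3, f4, f5⟩ := exists_split b hb
  have fM : f ∈ M := mem_of_comm fun t ht =>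
    f4 t (comm_of_mem bM ht) (comm_of_mem bM (star_mem ht))
  have gf : g * f = f := by
    have := f5 (1 - g) (by rw [sub_mul, gb, one_mul, sub_self])
    rw [sub_mul, one_mul, sub_eq_zero] at this
    exact this.symm
  have fg : f * g = f := flip_mul (pstar pg) (pstar pf) (pstar pf) gf
  have bg : b * g = b := flip_mul (pstar pg) hb.star_eq hb.star_eq gb
  have pf' : IsStarProjection (g - f) := pf.sub_of_mul_eq_left pg fg
  have f'M : g - f ∈ M := sub_mem gM fM
  obtain ⟨z', hz', h0', hzz, hs⟩ := local_compare fM f'M pf pf' hz h0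
  have hn' : ‖b * z'‖ ≤ l := (norm_cut hz hz' hzz).trans hn
  have key : ∀ {b e : H →L[ℂ] H}, IsSelfAdjoint b → b ∈ M → e ∈ M → IsStarProjection e →
      b * e = e * b → ‖b * z'‖ ≤ l → b * (1 - e) ≤ 0 → b * z' ≤ l • (e * z') := by
    intro b e hb bM eM pe hc hn hneg
    have pez := hz'.proj_mul eM pe
    have c1 : b * (e * z') = e * z' * b := by
      rw [← mul_assoc, hc, mul_assoc, mul_assoc, hz'.comm b bM]
    have h1 : b * (e * z') ≤ l • (e * z') := by
      refine le_smul_of_norm ?_ pez ?_ ?_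
      · rw [IsSelfAdjoint, star_mul, pstar pez, hb.star_eq, c1]
      · rw [← hz'.comm e eM, ← mul_assoc]
        exact (norm_mul_le _ _).trans
          ((mul_le_of_le_one_right (norm_nonneg _) (pe.norm_le _)).trans hn)
      · rw [c1, ← mul_assoc, pmul pez]
    have h2 : b * (1 - e) * z' ≤ 0 := by
      have := conj_nonneg' (neg_nonneg.2 hneg) hz'.proj
        (hz'.comm _ (neg_mem (mul_mem bM (sub_mem (one_mem _) eM)))).symm
      rwa [neg_mul, neg_nonneg] at this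
    have e1 : b * z' = b * (e * z') + b * (1 - e) * z' := by noncomm_ring
    rw [e1]
    exact (add_le_add h1 h2).trans (by rw [add_zero])
  refine ⟨z', hz', h0', hzz, ?_⟩
  rcases hs with hs | hs
  · obtain ⟨u, hu, h⟩ := swap_step gM pg hl hb bM gb hz' hn' fM pf gf
      (key hb bM fM pf f3 hn' f2) hs
    exact ⟨u, hu, -(l / 4), by rwa [neg_smul, sub_neg_eq_add]⟩
  · obtain ⟨u, hu, h⟩ := swap_step gM pg hl hb.neg (neg_mem bM) (by rw [mul_neg, gb]) hz'
      (by rwa [neg_mul, norm_neg]) f'M pf' (by rw [mul_sub, pmul pg, gf])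
      (key hb.neg (neg_mem bM) f'M pf' (by
          simp only [neg_mul, mul_neg, mul_sub, sub_mul, bg, gb, f3]; abel)
        (by rwa [neg_mul, norm_neg]) (by
          have : -b * (1 - (g - f)) = -(b * f) := by
            simp only [neg_mul, mul_sub, mul_one, bg]; abel
          rw [this, neg_nonpos]; exact f1)) (by rwa [sub_sub_cancel])
    refine ⟨u, hu, l / 4, ?_⟩
    rw [← norm_neg, ← neg_mul]
    refine le_trans (le_of_eq ?_) h
    congr 2
    simp only [mul_neg, neg_mul]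
    module

lemma ld1 (gM : g ∈ M) (pg : IsStarProjection g) {a z : H →L[ℂ] H} (ha : IsSelfAdjoint a)
    (aM : a ∈ M) (hz : Cen M z) (h0 : z ≠ 0) (n : ℕ) :
    ∃ z', Cen M z' ∧ z' ≠ 0 ∧ z' * z = z' ∧ ∃ (Ω : Type) (_ : Fintype Ω) (_ : Nonempty Ω)
      (v : Ω → H →L[ℂ] H), (∀ t, CU M g (v t)) ∧
      ∃ c : ℝ, ‖(TT v a - c • g) * z'‖ ≤ (3 / 4) ^ n * ‖a‖ := by
  induction n with
  | zero =>
    refine ⟨z, hz, h0, hz.sq, Unit, inferInstance, inferInstance, fun _ => g,
      fun _ => CU.self gM pg, 0, ?_⟩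
    rw [zero_smul, sub_zero, pow_zero, one_mul]
    exact (norm_mul_le _ _).trans ((mul_le_of_le_one_right (norm_nonneg _) (hz.proj.norm_le _)).trans
      (norm_TT_le (fun _ => CU.self gM pg) pg a))
  | succ n ih =>
    obtain ⟨z₁, hz₁, h₁, hzz, Ω, _, _, v, hv, c, hc⟩ := ih
    have hb : IsSelfAdjoint (TT v a - c • g) := by
      rw [IsSelfAdjoint, star_sub, TT_star, ha.star_eq, star_smul, pstar pg, star_trivial]
    have gb : g * (TT v a - c • g) = TT v a - c • g := by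
      rw [mul_sub, TT_g_mul hv pg, mul_smul_comm, pmul pg]
    obtain ⟨z₂, hz₂, h₂, hzz₂, u, hu, c', hc'⟩ := step gM pg (by positivity) hb
      (sub_mem (TT_mem hv aM) (rsmul_mem _ gM)) gb hz₁ h₁ hc
    let w : Bool → H →L[ℂ] H := fun b => if b then u else g
    have hw : ∀ t, CU M g (w t) := by
      rintro (_ | _)
      · exact CU.self gM pg
      · exact hu
    refine ⟨z₂, hz₂, h₂, by rw [← hzz₂, mul_assoc, hzz], Bool × Ω, inferInstance, inferInstance,
      fun t => v t.2 * w t.1, fun t => (hv _).mul (hw _) pg, c + c', ?_⟩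
    rw [TT_prod, pow_succ', mul_assoc]
    convert hc' using 3
    have e1 : TT w (TT v a) = TT w (TT v a - c • g) + c • g := by
      rw [TT_sub, ← Complex.coe_smul, TT_smul, TT_g hw pg, sub_add_cancel]
    have bg := flip_mul (pstar pg) hb.star_eq hb.star_eq gb
    rw [e1]
    generalize TT v a - c • g = b at *
    have e2 : TT w b = (2⁻¹ : ℝ) • (b + star u * b * u) := by
      simp only [TT, Kad.av, Fintype.card_bool, Fintype.sum_bool, w, if_true, Bool.false_eq_true,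
        if_false, pstar pg, gb, bg, Nat.cast_ofNat]
      rw [add_comm]
    rw [e2]; module

lemma ld1' (gM : g ∈ M) (pg : IsStarProjection g) {a z : H →L[ℂ] H} (ha : IsSelfAdjoint a)
    (aM : a ∈ M) (hz : Cen M z) (h0 : z ≠ 0) {ε : ℝ} (hε : 0 < ε) :
    ∃ z', Cen M z' ∧ z' ≠ 0 ∧ z' * z = z' ∧ ∃ (Ω : Type) (_ : Fintype Ω) (_ : Nonempty Ω)
      (v : Ω → H →L[ℂ] H), (∀ t, CU M g (v t)) ∧ Good g (TT v a) z' ε := by
  obtain ⟨n, hn⟩ := exists_pow_lt_of_lt_one (show 0 < ε / (‖a‖ + 1) by positivity)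
    (show (3 / 4 : ℝ) < 1 by norm_num)
  obtain ⟨z', h1, h2, h3, Ω, _, _, v, hv, c, hc⟩ := ld1 gM pg ha aM hz h0 n
  refine ⟨z', h1, h2, h3, Ω, inferInstance, inferInstance, v, hv, c, ?_⟩
  rw [Complex.coe_smul]
  refine hc.trans ?_
  rw [lt_div_iff₀ (by positivity)] at hn
  have : 0 ≤ (3 / 4 : ℝ) ^ n := by positivity
  nlinarith

open scoped ComplexStarModule in
lemma ld2 (gM : g ∈ M) (pg : IsStarProjection g) {a z : H →L[ℂ] H}
    (aM : a ∈ M) (hz : Cen M z) (h0 : z ≠ 0) {ε : ℝ} (hε : 0 < ε) :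
    ∃ z', Cen M z' ∧ z' ≠ 0 ∧ z' * z = z' ∧ ∃ (Ω : Type) (_ : Fintype Ω) (_ : Nonempty Ω)
      (v : Ω → H →L[ℂ] H), (∀ t, CU M g (v t)) ∧ Good g (TT v a) z' ε := by
  have m1 : (ℜ a : H →L[ℂ] H) ∈ M := by
    rw [realPart_apply_coe]; exact rsmul_mem _ (add_mem aM (star_mem aM))
  have m2 : (ℑ a : H →L[ℂ] H) ∈ M := by
    rw [imaginaryPart_apply_coe]
    exact vsmul_mem _ (rsmul_mem _ (sub_mem aM (star_mem aM)))
  obtain ⟨z₁, hz₁, h₁, hzz₁, Ω, _, _, v, hv, hg⟩ := ld1' gM pg (ℜ a).2 m1 hz h0 (half_pos hε)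
  obtain ⟨z₂, hz₂, h₂, hzz₂, Ω', _, _, w, hw, c', hc'⟩ := ld1' gM pg
    (a := TT v (ℑ a : H →L[ℂ] H)) (by rw [IsSelfAdjoint, TT_star, (ℑ a).2.star_eq])
    (TT_mem hv m2) hz₁ h₁ (half_pos hε)
  obtain ⟨c, hc⟩ := hg.TT hw pg hz₁ hz₂ hzz₂
  refine ⟨z₂, hz₂, h₂, by rw [← hzz₂, mul_assoc, hzz₁], Ω' × Ω, inferInstance, inferInstance,
    fun t => v t.2 * w t.1, fun t => (hv _).mul (hw _) pg, c + Complex.I * c', ?_⟩
  rw [TT_prod]
  have e : (TT w (TT v a) - (c + Complex.I * c') • g) * z₂ =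
      (TT w (TT v (ℜ a : H →L[ℂ] H)) - c • g) * z₂ +
        Complex.I • ((TT w (TT v (ℑ a : H →L[ℂ] H)) - c' • g) * z₂) := by
    conv_lhs => rw [← realPart_add_I_smul_imaginaryPart a]
    rw [TT_add, TT_add, TT_smul, TT_smul, ← smul_mul_assoc, ← add_mul]
    congr 1
    module
  rw [e]
  refine (norm_add_le _ _).trans ?_
  rw [norm_smul, Complex.norm_I, one_mul]
  linarith

/-- local Dixmier property for finite sets -/
theorem ld (gM : g ∈ M) (pg : IsStarProjection g) {S : Set (H →L[ℂ] H)} (hS : S.Finite)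
    (SM : ∀ a ∈ S, a ∈ M) {z : H →L[ℂ] H} (hz : Cen M z) (h0 : z ≠ 0) {ε : ℝ} (hε : 0 < ε) :
    ∃ z', Cen M z' ∧ z' ≠ 0 ∧ z' * z = z' ∧ ∃ (Ω : Type) (_ : Fintype Ω) (_ : Nonempty Ω)
      (v : Ω → H →L[ℂ] H), (∀ t, CU M g (v t)) ∧ ∀ a ∈ S, Good g (TT v a) z' ε := by
  induction S, hS using Set.Finite.induction_on with
  | empty => exact ⟨z, hz, h0, hz.sq, Unit, inferInstance, inferInstance, fun _ => g,
      fun _ => CU.self gM pg, by simp⟩
  | @insert a S _ _ ih =>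
    obtain ⟨z₁, hz₁, h₁, hzz₁, Ω, _, _, v, hv, hg⟩ := ih fun b hb => SM b (Or.inr hb)
    obtain ⟨z₂, hz₂, h₂, hzz₂, Ω', _, _, w, hw, hg'⟩ := ld2 gM pg
      (TT_mem hv (SM a (Or.inl rfl))) hz₁ h₁ hε
    refine ⟨z₂, hz₂, h₂, by rw [← hzz₂, mul_assoc, hzz₁], Ω' × Ω, inferInstance, inferInstance,
      fun t => v t.2 * w t.1, fun t => (hv _).mul (hw _) pg, ?_⟩
    rintro b (rfl | hb)
    · rw [TT_prod]; exact hg'
    · rw [TT_prod]; exact (hg b hb).TT hw pg hz₁ hz₂ hzz₂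

end Crest.Agent.H7.Batch
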