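import Mathlib

/-! Hilbert-space lemmas for the Naimark counterexample: Schur's lemma, cyclicity, uniqueness of
cyclic representations, an approximate transitivity lemma, limits of decreasing projections. -/

set_option autoImplicit false
set_option linter.unusedSectionVars false

open scoped InnerProductSpace
open Filter Topology

namespace Crest.Agent.H7.Nai

section Hilbert

variable {N : Type*} [Ring N] [StarRing N] [Algebra ℂ N] [StarModule ℂ N]
variable {H : Type*} [NormedAddCommGroup H] [InnerProductSpace ℂ H] [CompleteSpace H]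

/-- Topological irreducibility of a unital star representation. -/
def Irr (ρ : N →⋆ₐ[ℂ] (H →L[ℂ] H)) : Prop :=
  ∀ V : Submodule ℂ H, IsClosed (V : Set H) → (∀ a : N, ∀ v ∈ V, ρ a v ∈ V) → V = ⊥ ∨ V = ⊤

theorem schur_sa {ρ : N →⋆ₐ[ℂ] (H →L[ℂ] H)} (hirr : Irr ρ) (T : H →L[ℂ] H)
    (hT : IsSelfAdjoint T) (hc : ∀ a, Commute T (ρ a)) : ∃ c : ℂ, T = c • (1 : H →L[ℂ] H) := by
  by_cases hs : (spectrum ℝ T).Subsingleton
  · rcases hs.eq_empty_or_singleton with h0 | ⟨r, hr⟩
    · refine ⟨0, ?_⟩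
      have := CFC.eq_algebraMap_of_spectrum_subset_singleton (R := ℝ) T 0 (by simp [h0]) hT
      simpa using this
    · refine ⟨r, ?_⟩
      have := CFC.eq_algebraMap_of_spectrum_subset_singleton (R := ℝ) T r (by simp [hr]) hT
      rw [this, Algebra.algebraMap_eq_smul_one]
      simp
  · exfalso
    rw [Set.not_subsingleton_iff] at hs
    obtain ⟨s, hs, t, ht, hst⟩ := hs
    wlog hlt : s < t generalizing s t
    · exact this t ht s hs hst.symm (lt_of_le_of_ne (not_lt.mp hlt) hst.symm)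
    set m := (s + t) / 2 with hm
    let f : ℝ → ℝ := fun x => max (m - x) 0
    let g : ℝ → ℝ := fun x => max (x - m) 0
    have hf : Continuous f := by fun_prop
    have hg : Continuous g := by fun_prop
    have hfg : cfc g T * cfc f T = 0 := by
      rw [← cfc_mul g f T, ← cfc_zero ℝ T]
      apply cfc_congr
      intro x _
      simp only [f, g, Pi.zero_apply]
      rcases le_total x m with h | h
      · rw [max_eq_right (by linarith : x - m ≤ 0)]; simp
      · rw [max_eq_right (by linarith : m - x ≤ 0)]; simp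
    have hf0 : cfc f T ≠ 0 := by
      intro h
      rw [← cfc_zero ℝ T, cfc_eq_cfc_iff_eqOn] at h
      have := h hs
      simp only [f, Pi.zero_apply] at this
      have h2 : 0 < m - s := by linarith
      rw [max_eq_left h2.le] at this
      linarith
    have hg0 : cfc g T ≠ 0 := by
      intro h
      rw [← cfc_zero ℝ T, cfc_eq_cfc_iff_eqOn] at h
      have := h ht
      simp only [g, Pi.zero_apply] at this
      have h2 : 0 < t - m := by linarith
      rw [max_eq_left h2.le] at this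
      linarith
    have hinv := hirr (LinearMap.ker (cfc g T : H →L[ℂ] H).toLinearMap)
      (ContinuousLinearMap.isClosed_ker _) (by
        intro a v hv
        have h1 : Commute (cfc g T) (ρ a) := (hc a).cfc_real g
        have h2 := congrArg (fun S : H →L[ℂ] H => S v) h1.eq
        simp only [mul_apply_eq_comp] at h2
        have hv' : cfc g T v = 0 := hv
        show cfc g T (ρ a v) = 0
        rw [h2, hv', map_zero])
    rcases hinv with h | h
    · apply hf0
      ext v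
      have : cfc f T v ∈ LinearMap.ker (cfc g T : H →L[ℂ] H).toLinearMap := by
        show cfc g T (cfc f T v) = 0
        have := congrArg (fun S : H →L[ℂ] H => S v) hfg
        simpa using this
      rw [h] at this
      simpa using this
    · apply hg0
      ext v
      have : v ∈ LinearMap.ker (cfc g T : H →L[ℂ] H).toLinearMap := by rw [h]; trivial
      simpa using this

theorem schur {ρ : N →⋆ₐ[ℂ] (H →L[ℂ] H)} (hirr : Irr ρ) (T : H →L[ℂ] H)
    (hc : ∀ a, Commute T (ρ a)) : ∃ c : ℂ, T = c • (1 : H →L[ℂ] H) := by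
  have hcs : ∀ a, Commute (star T) (ρ a) := fun a => by
    have := (hc (star a)).star_star
    rwa [map_star, star_star] at this
  obtain ⟨c₁, h₁⟩ := schur_sa hirr (T + star T) (IsSelfAdjoint.add_star_self T)
    (fun a => (hc a).add_left (hcs a))
  obtain ⟨c₂, h₂⟩ := schur_sa hirr (Complex.I • (T - star T))
    (by
      rw [IsSelfAdjoint, star_smul, star_sub, star_star]
      simp only [Complex.star_def, Complex.conj_I, neg_smul, ← smul_neg, neg_sub])
    (fun a => ((hc a).sub_left (hcs a)).smul_left _)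
  refine ⟨(c₁ - Complex.I * c₂) / 2, ?_⟩
  have : T = (1 / 2 : ℂ) • ((T + star T) - Complex.I • (Complex.I • (T - star T))) := by
    rw [smul_smul, Complex.I_mul_I]
    module
  rw [this, h₁, h₂]
  module

/-- The orbit map of a vector. -/
noncomputable def ev (ρ : N →⋆ₐ[ℂ] (H →L[ℂ] H)) (v : H) : N →ₗ[ℂ] H where
  toFun a := ρ a v
  map_add' a b := by simp
  map_smul' c a := by simp

@[simp] theorem ev_apply (ρ : N →⋆ₐ[ℂ] (H →L[ℂ] H)) (v : H) (a : N) : ev ρ v a = ρ a v := rfl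

theorem cyclic {ρ : N →⋆ₐ[ℂ] (H →L[ℂ] H)} (hirr : Irr ρ) {v : H} (hv : v ≠ 0) :
    DenseRange (ev ρ v) := by
  have h := hirr (LinearMap.range (ev ρ v)).topologicalClosure
    (Submodule.isClosed_topologicalClosure _) (by
      intro a w hw
      have hw' : w ∈ closure ((LinearMap.range (ev ρ v) : Submodule ℂ H) : Set H) := hw
      show ρ a w ∈ closure ((LinearMap.range (ev ρ v) : Submodule ℂ H) : Set H)
      refine map_mem_closure (ρ a).continuous hw' ?_
      rintro _ ⟨b, rfl⟩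
      exact ⟨a * b, by simp⟩)
  rcases h with h | h
  · exfalso
    apply hv
    have : v ∈ (LinearMap.range (ev ρ v)).topologicalClosure :=
      Submodule.le_topologicalClosure _ ⟨1, by simp⟩
    rw [h] at this
    simpa using this
  · rw [← Submodule.dense_iff_topologicalClosure_eq_top] at h
    exact h

theorem gns_unique {H₂ : Type*} [NormedAddCommGroup H₂] [InnerProductSpace ℂ H₂]
    [CompleteSpace H₂] (ρ₁ : N →⋆ₐ[ℂ] (H →L[ℂ] H)) (ρ₂ : N →⋆ₐ[ℂ] (H₂ →L[ℂ] H₂))
    (v₁ : H) (v₂ : H₂) (h₁ : DenseRange (ev ρ₁ v₁)) (h₂ : DenseRange (ev ρ₂ v₂))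
    (hn : ∀ a, ‖ρ₂ a v₂‖ = ‖ρ₁ a v₁‖) :
    ∃ U : H ≃ₗᵢ[ℂ] H₂, U v₁ = v₂ ∧ ∀ a v, U (ρ₁ a v) = ρ₂ a (U v) := by
  let U := (LinearEquiv.refl ℂ N).extendOfIsometry (ev ρ₁ v₁) (ev ρ₂ v₂) h₁ h₂ (by simpa using hn)
  have hU : ∀ a, U (ρ₁ a v₁) = ρ₂ a v₂ := fun a =>
    LinearEquiv.extendOfIsometry_eq (LinearEquiv.refl ℂ N) (ev ρ₁ v₁) (ev ρ₂ v₂) h₁ h₂ _ a
  refine ⟨U, by simpa using hU 1, fun a v => ?_⟩
  refine h₁.induction_on (p := fun v => U (ρ₁ a v) = ρ₂ a (U v)) v ?_ ?_
  · apply isClosed_eq <;> fun_prop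
  · intro b
    simp only [ev_apply]
    have := hU (a * b)
    simp only [map_mul, mul_apply_eq_comp] at this
    rw [this, hU]

theorem real_mul_of_orth {ρ : N →⋆ₐ[ℂ] (H →L[ℂ] H)} (hirr : Irr ρ) {ξ ζ : H} (hξ : ξ ≠ 0)
    (h : ∀ x : N, IsSelfAdjoint x → (⟪ζ, Complex.I • ρ x ξ⟫_ℂ).re = 0) :
    ∃ r : ℝ, ζ = (r : ℂ) • ξ := by
  have hn : ∀ a, ‖ρ a (ζ - Complex.I • ξ)‖ = ‖ρ a (ζ + Complex.I • ξ)‖ := by
    intro a
    have h1 := h (star a * a) (IsSelfAdjoint.star_mul_self a)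
    have h2 : ⟪ρ a ζ, Complex.I • ρ a ξ⟫_ℂ = ⟪ζ, Complex.I • ρ (star a * a) ξ⟫_ℂ := by
      rw [inner_smul_right, inner_smul_right, map_mul, map_star, mul_apply_eq_comp,
        ContinuousLinearMap.star_eq_adjoint, ContinuousLinearMap.adjoint_inner_right]
    rw [← sq_eq_sq₀ (norm_nonneg _) (norm_nonneg _), map_sub, map_add, map_smul,
      @norm_sub_sq ℂ, @norm_add_sq ℂ, h2]
    have h1' : RCLike.re ⟪ζ, Complex.I • ρ (star a * a) ξ⟫_ℂ = 0 := h1
    rw [h1']
    ring
  have key : ∃ c : ℂ, ζ = c • ξ := by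
    by_cases hp : ζ + Complex.I • ξ = 0
    · exact ⟨-Complex.I, by rw [neg_smul]; exact eq_neg_of_add_eq_zero_left hp⟩
    have hm : ζ - Complex.I • ξ ≠ 0 := by
      intro h0
      have := hn 1
      simp only [map_one, one_apply_eq_self, h0, norm_zero] at this
      exact hp (norm_eq_zero.mp this.symm)
    obtain ⟨U, hU1, hU2⟩ := gns_unique ρ ρ _ _ (cyclic hirr hp) (cyclic hirr hm) hn
    obtain ⟨μ, hμ⟩ := schur hirr (U.toContinuousLinearEquiv : H →L[ℂ] H) (fun a => by
      ext v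
      simp [hU2])
    have h3 : ζ - Complex.I • ξ = μ • (ζ + Complex.I • ξ) := by
      have := congrArg (fun S : H →L[ℂ] H => S (ζ + Complex.I • ξ)) hμ
      simp only [ContinuousLinearEquiv.coe_coe, LinearIsometryEquiv.coe_toContinuousLinearEquiv,
        smul_apply, one_apply_eq_self] at this
      rw [← this, hU1]
    have h4 : (1 - μ) • ζ = (Complex.I * (1 + μ)) • ξ := by
      have : (1 - μ) • ζ - (Complex.I * (1 + μ)) • ξ
          = (ζ - Complex.I • ξ) - μ • (ζ + Complex.I • ξ) := by module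
      rw [← sub_eq_zero, this, h3, sub_self]
    by_cases hμ1 : 1 - μ = 0
    · exfalso
      have hμ' : μ = 1 := by linear_combination -hμ1
      rw [hμ1, zero_smul, hμ'] at h4
      rcases smul_eq_zero.mp h4.symm with h5 | h5
      · simp at h5
      · exact hξ h5
    · refine ⟨(1 - μ)⁻¹ * (Complex.I * (1 + μ)), ?_⟩
      rw [mul_smul, ← h4, smul_smul, inv_mul_cancel₀ hμ1, one_smul]
  obtain ⟨c, rfl⟩ := key
  have h1 := h 1 (IsSelfAdjoint.one N)
  simp only [map_one, one_apply_eq_self, inner_smul_left, inner_smul_right,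
    inner_self_eq_norm_sq_to_K] at h1
  have hpos : (0 : ℝ) < ‖ξ‖ ^ 2 := by positivity
  have him : c.im = 0 := by
    have h2 : (Complex.I * ((starRingEnd ℂ) c * ((‖ξ‖ : ℂ)) ^ 2)).re = c.im * ‖ξ‖ ^ 2 := by
      rw [← Complex.ofReal_pow]
      simp [-Complex.ofReal_pow]
    have h3 : c.im * ‖ξ‖ ^ 2 = 0 := by rw [← h2]; exact h1
    rcases mul_eq_zero.mp h3 with h4 | h4
    · exact h4
    · exact absurd h4 hpos.ne'
  refine ⟨c.re, ?_⟩
  congr 1
  exact Complex.ext (by simp) (by simp [him])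

/-- Approximate transitivity. -/
theorem lemT {ρ : N →⋆ₐ[ℂ] (H →L[ℂ] H)} (hirr : Irr ρ) {ξ η : H} (hξ : ξ ≠ 0)
    (hη : (⟪ξ, η⟫_ℂ).re = 0) {δ : ℝ} (hδ : 0 < δ) :
    ∃ x : N, IsSelfAdjoint x ∧ ‖η + Complex.I • ρ x ξ‖ < δ := by
  let _ : InnerProductSpace ℝ H := InnerProductSpace.rclikeToReal ℂ H
  let W : Submodule ℝ H :=
    { carrier := {w | ∃ x : N, IsSelfAdjoint x ∧ w = Complex.I • ρ x ξ}
      add_mem' := by
        rintro _ _ ⟨x, hx, rfl⟩ ⟨y, hy, rfl⟩
        exact ⟨x + y, hx.add hy, by simp⟩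
      zero_mem' := ⟨0, IsSelfAdjoint.zero N, by simp⟩
      smul_mem' := by
        rintro r _ ⟨x, hx, rfl⟩
        refine ⟨(r : ℂ) • x, ?_, ?_⟩
        · rw [IsSelfAdjoint, star_smul, hx.star_eq]
          simp
        · rw [map_smul, smul_apply, smul_comm, Complex.coe_smul] }
  have hmem : -η ∈ Wᗮᗮ := by
    rw [Submodule.mem_orthogonal]
    intro ζ hζ
    rw [Submodule.mem_orthogonal'] at hζ
    obtain ⟨r, rfl⟩ := real_mul_of_orth hirr hξ (ζ := ζ) (fun x hx => hζ _ ⟨x, hx, rfl⟩)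
    show (⟪(r : ℂ) • ξ, -η⟫_ℂ).re = 0
    rw [inner_smul_left, inner_neg_right]
    simp [hη]
  rw [Submodule.orthogonal_orthogonal_eq_closure] at hmem
  have hmem' : -η ∈ closure (W : Set H) := hmem
  rw [Metric.mem_closure_iff] at hmem'
  obtain ⟨_, ⟨x, hx, rfl⟩, hd⟩ := hmem' δ hδ
  refine ⟨x, hx, ?_⟩
  rw [dist_eq_norm, ← norm_neg] at hd
  have : η + Complex.I • ρ x ξ = -(-η - Complex.I • ρ x ξ) := by abel
  rwa [this]

theorem proj_inner (P : H →L[ℂ] H) (hP : IsStarProjection P) (v w : H) :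
    ⟪P v, w⟫_ℂ = ⟪v, P w⟫_ℂ := by
  rw [← ContinuousLinearMap.adjoint_inner_right, ← ContinuousLinearMap.star_eq_adjoint,
    hP.isSelfAdjoint.star_eq]

theorem proj_pyth (P : H →L[ℂ] H) (hP : IsStarProjection P) (v : H) :
    ‖v - P v‖ ^ 2 = ‖v‖ ^ 2 - ‖P v‖ ^ 2 := by
  have h1 : ⟪P v, v - P v⟫_ℂ = 0 := by
    rw [proj_inner P hP, map_sub]
    have := congrArg (fun S : H →L[ℂ] H => S v) hP.isIdempotentElem.eq
    simp only [mul_apply_eq_comp] at this
    rw [this, sub_self, inner_zero_right]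
  have h2 := norm_add_sq_eq_norm_sq_add_norm_sq_of_inner_eq_zero _ _ h1
  have h3 : P v + (v - P v) = v := by abel
  rw [h3] at h2
  nlinarith

theorem dec_of_succ {R : Type*} [Monoid R] (P : ℕ → R) (hP : ∀ n, P n * P n = P n)
    (hs : ∀ n, P n * P (n + 1) = P (n + 1)) {m n : ℕ} (h : m ≤ n) : P m * P n = P n := by
  induction n, h using Nat.le_induction with
  | base => exact hP m
  | succ n _ ih => rw [← hs n, ← mul_assoc, ih]

theorem proj_limit (P : ℕ → H →L[ℂ] H) (hP : ∀ n, IsStarProjection (P n))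
    (hs : ∀ n, P n * P (n + 1) = P (n + 1)) (v : H) :
    ∃ w, Tendsto (fun n => P n v) atTop (𝓝 w) ∧ ∀ m, P m w = w := by
  have hle : ∀ {m n : ℕ}, m ≤ n → P m * P n = P n :=
    fun h => dec_of_succ P (fun n => (hP n).isIdempotentElem.eq) hs h
  have hle' : ∀ {m n : ℕ}, m ≤ n → P n * P m = P n := fun {m n} h => by
    have := congrArg star (hle h)
    rwa [star_mul, (hP n).isSelfAdjoint.star_eq, (hP m).isSelfAdjoint.star_eq] at this
  have hpy : ∀ {m n : ℕ}, m ≤ n → ‖P m v - P n v‖ ^ 2 = ‖P m v‖ ^ 2 - ‖P n v‖ ^ 2 := by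
    intro m n h
    have h1 := proj_pyth (P n) (hP n) (P m v)
    have h2 := congrArg (fun S : H →L[ℂ] H => S v) (hle' h)
    simp only [mul_apply_eq_comp] at h2
    rwa [h2] at h1
  have hanti : Antitone (fun n => ‖P n v‖ ^ 2) := fun m n h => by
    have := hpy h
    have h2 := sq_nonneg ‖P m v - P n v‖
    simp only
    linarith
  have hbdd : BddBelow (Set.range fun n => ‖P n v‖ ^ 2) :=
    ⟨0, by rintro _ ⟨n, rfl⟩; positivity⟩
  have hlim := tendsto_atTop_ciInf hanti hbdd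
  have hcau : CauchySeq (fun n => P n v) := by
    rw [Metric.cauchySeq_iff']
    intro ε hε
    have := (Metric.tendsto_atTop.mp hlim) (ε ^ 2) (by positivity)
    obtain ⟨n₀, hn₀⟩ := this
    refine ⟨n₀, fun n hn => ?_⟩
    rw [dist_comm, dist_eq_norm]
    have h1 := hpy hn
    have h2 := hn₀ n₀ le_rfl
    rw [Real.dist_eq, abs_lt] at h2
    have h3 : (⨅ i, ‖P i v‖ ^ 2) ≤ ‖P n v‖ ^ 2 := ciInf_le hbdd n
    have h4 : ‖P n₀ v - P n v‖ ^ 2 < ε ^ 2 := by linarith
    exact lt_of_pow_lt_pow_left₀ 2 hε.le h4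
  obtain ⟨w, hw⟩ := cauchySeq_tendsto_of_complete hcau
  refine ⟨w, hw, fun m => ?_⟩
  have h1 : Tendsto (fun n => P m (P n v)) atTop (𝓝 (P m w)) :=
    ((P m).continuous.tendsto w).comp hw
  have h2 : Tendsto (fun n => P m (P n v)) atTop (𝓝 w) := by
    refine hw.congr' ?_
    filter_upwards [eventually_ge_atTop m] with n hn
    have := congrArg (fun S : H →L[ℂ] H => S v) (hle hn)
    simpa using this.symm
  exact tendsto_nhds_unique h1 h2

end Hilbert

end Crest.Agent.H7.Nai
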