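import Mathlib
import Crest.Prelude.Def_CStarRep
import Crest.Agent.H7.NaiA

/-! Tracial states, GNS and tracial ultraproducts. -/

set_option autoImplicit false
set_option linter.unusedSectionVars false

open scoped InnerProductSpace ComplexOrder ENNReal
open Filter Topology Crest.OpAlg

namespace Crest.Agent.H7.Nai

/-- A (not necessarily faithful) tracial state. -/
structure IsTr {A : Type} [CStarAlgebra A] (τ : A →ₗ[ℂ] ℂ) : Prop where
  one : τ 1 = 1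
  pos : ∀ a, 0 ≤ τ (star a * a)
  tr : ∀ a b, τ (a * b) = τ (b * a)

theorem IsTr.of_faithful {A : Type} [CStarAlgebra A] {τ : A →ₗ[ℂ] ℂ}
    (h : IsFaithfulTracialState τ) : IsTr τ :=
  ⟨h.1, fun a => Complex.nonneg_iff.mpr ⟨(h.2.1 a).2, (h.2.1 a).1.symm⟩, h.2.2.2⟩

theorem gns_pack {A : Type} [CStarAlgebra A] (τ : A →ₗ[ℂ] ℂ) (hpos : ∀ a, 0 ≤ τ (star a * a)) :
    ∃ (H : Type) (_ : NormedAddCommGroup H) (_ : InnerProductSpace ℂ H) (_ : CompleteSpace H)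
      (π : A →⋆ₐ[ℂ] (H →L[ℂ] H)) (Ω : H), DenseRange (ev π Ω) ∧ ∀ a, ⟪Ω, π a Ω⟫_ℂ = τ a := by
  let _ := CStarAlgebra.spectralOrder A
  have _ := CStarAlgebra.spectralOrderedRing A
  let f : A →ₚ[ℂ] ℂ := PositiveLinearMap.mk₀ τ (fun x hx => by
    obtain ⟨y, rfl⟩ := CStarAlgebra.nonneg_iff_eq_star_mul_self.mp hx
    exact hpos y)
  have hf : ∀ a, f a = τ a := fun a => rfl
  have hap : ∀ a : A, f.gnsStarAlgHom a ((f.toPreGNS 1 : f.PreGNS) : f.GNS)
      = ((f.toPreGNS a : f.PreGNS) : f.GNS) := by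
    intro a
    show f.gnsNonUnitalStarAlgHom a _ = _
    rw [PositiveLinearMap.gnsNonUnitalStarAlgHom_apply_coe]
    simp
  refine ⟨f.GNS, inferInstance, inferInstance, inferInstance, f.gnsStarAlgHom,
    ((f.toPreGNS 1 : f.PreGNS) : f.GNS), ?_, ?_⟩
  · have hd : DenseRange ((↑) : f.PreGNS → f.GNS) := UniformSpace.Completion.denseRange_coe
    refine hd.mono ?_
    rintro _ ⟨x, rfl⟩
    exact ⟨f.ofPreGNS x, by rw [ev_apply, hap]; simp⟩
  · intro a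
    rw [hap, UniformSpace.Completion.inner_coe, PositiveLinearMap.preGNS_inner_def]
    simp [hf]

section vec
variable {A : Type} [CStarAlgebra A] {H : Type} [NormedAddCommGroup H] [InnerProductSpace ℂ H]
  [CompleteSpace H]

theorem inner_rep (π : A →⋆ₐ[ℂ] (H →L[ℂ] H)) (x : A) (v w : H) :
    ⟪v, π (star x) w⟫_ℂ = ⟪π x v, w⟫_ℂ := by
  rw [map_star, ContinuousLinearMap.star_eq_adjoint, ContinuousLinearMap.adjoint_inner_right]

theorem norm_rep_le (π : A →⋆ₐ[ℂ] (H →L[ℂ] H)) (x : A) (v : H) : ‖π x v‖ ≤ ‖x‖ * ‖v‖ :=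
  ((π x).le_opNorm v).trans
    (mul_le_mul_of_nonneg_right (NonUnitalStarAlgHom.norm_apply_le π x) (norm_nonneg _))

theorem norm_sq_rep (π : A →⋆ₐ[ℂ] (H →L[ℂ] H)) (x : A) (v : H) :
    ⟪v, π (star x * x) v⟫_ℂ = ((‖π x v‖ ^ 2 : ℝ) : ℂ) := by
  rw [map_mul, mul_apply_eq_comp, inner_rep, inner_self_eq_norm_sq_to_K]
  simp

end vec

theorem tr_bound {A : Type} [CStarAlgebra A] {τ : A →ₗ[ℂ] ℂ} (hpos : ∀ a, 0 ≤ τ (star a * a))
    (x z : A) : ‖τ (star x * z * x)‖ ≤ ‖z‖ * (τ (star x * x)).re := by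
  obtain ⟨H, _, _, _, π, Ω, -, hΩ⟩ := gns_pack τ hpos
  rw [← hΩ, ← hΩ, norm_sq_rep, Complex.ofReal_re, mul_assoc, map_mul, mul_apply_eq_comp,
    inner_rep, map_mul, mul_apply_eq_comp]
  calc _ ≤ ‖π x Ω‖ * ‖π z (π x Ω)‖ := norm_inner_le_norm _ _
    _ ≤ ‖π x Ω‖ * (‖z‖ * ‖π x Ω‖) :=
      mul_le_mul_of_nonneg_left (norm_rep_le π z _) (norm_nonneg _)
    _ = _ := by ring

theorem IsTr.norm_le {A : Type} [CStarAlgebra A] {τ : A →ₗ[ℂ] ℂ} (h : IsTr τ) (z : A) :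
    ‖τ z‖ ≤ ‖z‖ := by
  have := tr_bound h.pos 1 z
  simpa [h.one] using this

theorem faithful_quot {A : Type} [CStarAlgebra A] {τ : A →ₗ[ℂ] ℂ} (h : IsTr τ) :
    ∃ (M : Type) (_ : CStarAlgebra M) (σ : M →ₗ[ℂ] ℂ) (π : A →⋆ₐ[ℂ] M),
      IsFaithfulTracialState σ ∧ ∀ a, σ (π a) = τ a := by
  obtain ⟨H, _, _, _, π, Ω, hd, hΩ⟩ := gns_pack τ h.pos
  let S : StarSubalgebra ℂ (H →L[ℂ] H) := π.range.topologicalClosure
  have hS : IsClosed (S : Set (H →L[ℂ] H)) := StarSubalgebra.isClosed_topologicalClosure _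
  have hind : ∀ (P : (H →L[ℂ] H) → Prop), IsClosed {T | P T} → (∀ a, P (π a)) →
      ∀ T : S, P T := by
    intro P hc hP T
    have hT : (T : H →L[ℂ] H) ∈ closure (π.range : Set (H →L[ℂ] H)) := T.2
    refine closure_minimal ?_ hc hT
    rintro _ ⟨a, rfl⟩
    exact hP a
  let σ : S →ₗ[ℂ] ℂ :=
    { toFun := fun T => ⟪Ω, (T : H →L[ℂ] H) Ω⟫_ℂ
      map_add' := fun T₁ T₂ => by simp
      map_smul' := fun c T => by simp }
  have hσ : ∀ T : S, σ T = ⟪Ω, (T : H →L[ℂ] H) Ω⟫_ℂ := fun _ => rfl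
  have hsq : ∀ T : S, σ (star T * T) = ((‖(T : H →L[ℂ] H) Ω‖ ^ 2 : ℝ) : ℂ) := by
    intro T
    rw [hσ]
    show ⟪Ω, (star (T : H →L[ℂ] H) * (T : H →L[ℂ] H)) Ω⟫_ℂ = _
    rw [mul_apply_eq_comp, ContinuousLinearMap.star_eq_adjoint,
      ContinuousLinearMap.adjoint_inner_right, inner_self_eq_norm_sq_to_K]
    simp
  refine ⟨S, inferInstance, σ, π.codRestrict S (fun a =>
    StarSubalgebra.le_topologicalClosure _ ⟨a, rfl⟩), ⟨?_, ?_, ?_, ?_⟩, fun a => hΩ a⟩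
  · have := hΩ 1
    rw [map_one, h.one] at this
    exact this
  · intro T
    rw [hsq]
    exact ⟨Complex.ofReal_im _, by rw [Complex.ofReal_re]; positivity⟩
  · intro T hT
    rw [hsq] at hT
    have h0 : (T : H →L[ℂ] H) Ω = 0 := by
      have : ‖(T : H →L[ℂ] H) Ω‖ ^ 2 = 0 := by exact_mod_cast hT
      simpa using this
    have hb : ∀ b, ‖(T : H →L[ℂ] H) (π b Ω)‖ ≤ ‖b‖ * ‖(T : H →L[ℂ] H) Ω‖ := by
      intro b
      refine hind (fun T => ‖T (π b Ω)‖ ≤ ‖b‖ * ‖T Ω‖) ?_ ?_ T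
      · apply isClosed_le <;> fun_prop
      · intro a
        rw [← mul_apply_eq_comp, ← map_mul]
        have h1 := norm_sq_rep π (a * b) Ω
        have h2 := norm_sq_rep π a Ω
        rw [hΩ] at h1 h2
        have h3 := tr_bound h.pos (star a) (b * star b)
        rw [star_star, h.tr a (star a), h2, Complex.ofReal_re] at h3
        have h4 : τ (a * (b * star b) * star a) = τ (star (a * b) * (a * b)) := by
          rw [h.tr (star (a * b)), star_mul]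
          simp only [mul_assoc]
        rw [h4, h1, Complex.norm_real, Real.norm_eq_abs, abs_of_nonneg (by positivity),
          CStarRing.norm_self_mul_star] at h3
        refine (sq_le_sq₀ (by positivity) (by positivity)).mp ?_
        nlinarith
    apply Subtype.ext
    show (T : H →L[ℂ] H) = 0
    ext v
    refine hd.induction_on (p := fun v => (T : H →L[ℂ] H) v = (0 : H →L[ℂ] H) v) v ?_ ?_
    · apply isClosed_eq <;> fun_prop
    · intro b
      have := hb b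
      rw [h0, norm_zero, mul_zero] at this
      simpa using this
  · intro T₁ T₂
    rw [hσ, hσ]
    show ⟪Ω, ((T₁ : H →L[ℂ] H) * (T₂ : H →L[ℂ] H)) Ω⟫_ℂ
      = ⟪Ω, ((T₂ : H →L[ℂ] H) * (T₁ : H →L[ℂ] H)) Ω⟫_ℂ
    refine hind (fun T => ⟪Ω, ((T₁ : H →L[ℂ] H) * T) Ω⟫_ℂ = ⟪Ω, (T * (T₁ : H →L[ℂ] H)) Ω⟫_ℂ)
      ?_ ?_ T₂
    · apply isClosed_eq <;> fun_prop
    · intro b
      refine hind (fun T => ⟪Ω, (T * π b) Ω⟫_ℂ = ⟪Ω, (π b * T) Ω⟫_ℂ) ?_ ?_ T₁
      · apply isClosed_eq <;> fun_prop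
      · intro a
        rw [← map_mul, ← map_mul, hΩ, hΩ, h.tr]

section UP

variable {A : ℕ → Type} [∀ j, CStarAlgebra (A j)]

/-- Bounded sequences. -/
def Bdd (x : ∀ j, A j) : Prop := ∃ C : ℝ, ∀ j, ‖x j‖ ≤ C

theorem Bdd.mem {x : ∀ j, A j} (h : Bdd x) : Memℓp x ∞ := by
  obtain ⟨C, hC⟩ := h
  exact memℓp_infty ⟨C, by rintro _ ⟨j, rfl⟩; exact hC j⟩

theorem Bdd.of_mem {x : ∀ j, A j} (h : Memℓp x ∞) : Bdd x := by
  obtain ⟨C, hC⟩ := memℓp_infty_iff.mp h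
  exact ⟨C, fun j => hC ⟨j, rfl⟩⟩

/-- Interface of a tracial ultraproduct. -/
structure IsUP (τ : ∀ j, A j →ₗ[ℂ] ℂ) {M : Type} [CStarAlgebra M] (σ : M →ₗ[ℂ] ℂ)
    (Λ : (∀ j, A j) → M) : Prop where
  faithful : IsFaithfulTracialState σ
  one : Λ 1 = 1
  add : ∀ x y, Bdd x → Bdd y → Λ (x + y) = Λ x + Λ y
  mul : ∀ x y, Bdd x → Bdd y → Λ (x * y) = Λ x * Λ y
  smul : ∀ (c : ℂ) x, Bdd x → Λ (c • x) = c • Λ x
  star : ∀ x, Bdd x → Λ (star x) = star (Λ x)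
  tr : ∀ x c, Bdd x → (∀ᶠ j in atTop, τ j (x j) = c) → σ (Λ x) = c
  congr : ∀ x y, Bdd x → Bdd y → (∀ᶠ j in atTop, x j = y j) → Λ x = Λ y

theorem exists_UP (τ : ∀ j, A j →ₗ[ℂ] ℂ) (hτ : ∀ j, IsTr (τ j)) :
    ∃ (M : Type) (_ : CStarAlgebra M) (σ : M →ₗ[ℂ] ℂ) (Λ : (∀ j, A j) → M), IsUP τ σ Λ := by
  classical
  have hnt : ∀ j, Nontrivial (A j) := fun j => ⟨⟨1, 0, fun h => by
    have := (hτ j).one
    rw [h, map_zero] at this
    exact zero_ne_one this⟩⟩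
  let _ : CStarAlgebra (lp A ∞) := {}
  have hex : ∀ x : lp A ∞, ∃ c : ℂ,
      Tendsto (fun j => τ j (x j)) (hyperfilter ℕ : Filter ℕ) (𝓝 c) := by
    intro x
    have hc := isCompact_closedBall (0 : ℂ) ‖x‖
    obtain ⟨c, -, hc⟩ := hc.ultrafilter_le_nhds ((hyperfilter ℕ).map (fun j => τ j (x j))) (by
      rw [Ultrafilter.coe_map, le_principal_iff, mem_map]
      refine univ_mem' (fun j => ?_)
      simp only [Set.mem_preimage, Metric.mem_closedBall, dist_zero_right]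
      exact ((hτ j).norm_le _).trans (lp.norm_apply_le_norm (by simp) x j))
    exact ⟨c, hc⟩
  choose L hL using hex
  let τω : lp A ∞ →ₗ[ℂ] ℂ :=
    { toFun := L
      map_add' := fun x y => tendsto_nhds_unique (hL (x + y)) (by
        simpa using (hL x).add (hL y))
      map_smul' := fun c x => tendsto_nhds_unique (hL (c • x)) (by
        simpa using (hL x).const_mul c) }
  have hτω : ∀ (x : lp A ∞) c, (∀ᶠ j in atTop, τ j (x j) = c) → τω x = c := by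
    intro x c hc
    refine tendsto_nhds_unique (hL x) ?_
    have hc' : ∀ᶠ j in (hyperfilter ℕ : Filter ℕ), τ j (x j) = c := by
      refine Filter.Eventually.filter_mono ?_ hc
      rw [← Nat.cofinite_eq_atTop]
      exact hyperfilter_le_cofinite
    exact tendsto_const_nhds.congr' (hc'.mono fun j hj => hj.symm)
  have htr : IsTr τω := by
    refine ⟨hτω _ _ (Eventually.of_forall fun j => (hτ j).one), fun a => ?_, fun a b => ?_⟩
    · exact ge_of_tendsto' (hL (star a * a)) (fun j => (hτ j).pos (a j))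
    · refine tendsto_nhds_unique (hL (a * b)) ?_
      refine (hL (b * a)).congr (fun j => ?_)
      exact (hτ j).tr _ _
  obtain ⟨M, _, σ, π, hσ, hπ⟩ := faithful_quot htr
  let Λ : (∀ j, A j) → M := fun x => if h : Bdd x then π ⟨x, h.mem⟩ else 0
  have hΛ : ∀ x : lp A ∞, Λ x = π x := fun x => dif_pos (Bdd.of_mem x.2)
  refine ⟨M, inferInstance, σ, Λ, hσ, ?_, ?_, ?_, ?_, ?_, ?_, ?_⟩
  · rw [← map_one π, ← hΛ]; rfl
  · intro x y hx hy
    have := map_add π ⟨x, hx.mem⟩ ⟨y, hy.mem⟩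
    rw [← hΛ, ← hΛ, ← hΛ] at this
    exact this
  · intro x y hx hy
    have := map_mul π ⟨x, hx.mem⟩ ⟨y, hy.mem⟩
    rw [← hΛ, ← hΛ, ← hΛ] at this
    exact this
  · intro c x hx
    have := map_smul π c ⟨x, hx.mem⟩
    rw [← hΛ, ← hΛ] at this
    exact this
  · intro x hx
    have := map_star π ⟨x, hx.mem⟩
    rw [← hΛ, ← hΛ] at this
    exact this
  · intro x c hx hc
    have := hΛ ⟨x, hx.mem⟩
    rw [show Λ x = π ⟨x, hx.mem⟩ from this, hπ]
    exact hτω _ _ hc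
  · intro x y hx hy hxy
    rw [show Λ x = π ⟨x, hx.mem⟩ from hΛ ⟨x, hx.mem⟩, show Λ y = π ⟨y, hy.mem⟩ from hΛ ⟨y, hy.mem⟩,
      ← sub_eq_zero, ← map_sub]
    apply hσ.2.2.1
    rw [← map_star, ← map_mul, hπ]
    apply hτω
    filter_upwards [hxy] with j hj
    show τ j (star (x j - y j) * (x j - y j)) = 0
    rw [hj]; simp

theorem IsUP.hom {τ : ∀ j, A j →ₗ[ℂ] ℂ} {M : Type} [CStarAlgebra M] {σ : M →ₗ[ℂ] ℂ}
    {Λ : (∀ j, A j) → M} (h : IsUP τ σ Λ) {C : Type} [CStarAlgebra C] (k : ℕ)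
    (ψ : ∀ j, k ≤ j → (C →⋆ₐ[ℂ] A j)) :
    ∃ ι : C →⋆ₐ[ℂ] M, ∀ c (x : ∀ j, A j), Bdd x → (∀ᶠ j in atTop, ∃ hj : k ≤ j, x j = ψ j hj c) →
      ι c = Λ x := by
  classical
  let φ : C → ∀ j, A j := fun c j => if hj : k ≤ j then ψ j hj c else 0
  have hb : ∀ c, Bdd (φ c) := fun c => ⟨‖c‖, fun j => by
    simp only [φ]
    split_ifs with hj
    · exact NonUnitalStarAlgHom.norm_apply_le _ _
    · simp⟩
  have hφ : ∀ c (x : ∀ j, A j), Bdd x → (∀ j (hj : k ≤ j), x j = ψ j hj c) → Λ (φ c) = Λ x := by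
    intro c x hx hxc
    refine h.congr _ _ (hb c) hx ?_
    filter_upwards [eventually_ge_atTop k] with j hj
    simp only [φ, dif_pos hj, hxc j hj]
  have hφ' : ∀ c j (hj : k ≤ j), φ c j = ψ j hj c := fun c j hj => dif_pos hj
  have hone : Bdd (1 : ∀ j, A j) := ⟨1, fun j => IsStarProjection.norm_le _ (.one _)⟩
  have hsm : ∀ (r : ℂ) c, Λ (φ (r • c)) = r • Λ (φ c) := fun r c => by
    rw [← h.smul _ _ (hb c)]
    refine hφ _ _ (Bdd.of_mem ((hb c).mem.const_smul r)) (fun j hj => ?_)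
    simp [hφ' _ j hj]
  have h1 : Λ (φ 1) = 1 := by
    rw [← h.one]
    exact hφ _ _ hone (fun j hj => by simp)
  refine ⟨{ toFun := fun c => Λ (φ c)
            map_one' := h1
            map_mul' := fun c d => ?_
            map_zero' := by simpa using hsm 0 0
            map_add' := fun c d => ?_
            commutes' := fun r => ?_
            map_star' := fun c => ?_ }, ?_⟩
  · rw [← h.mul _ _ (hb c) (hb d)]
    refine hφ _ _ (Bdd.of_mem ((hb c).mem.infty_mul (hb d).mem)) (fun j hj => ?_)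
    simp [hφ' _ j hj]
  · rw [← h.add _ _ (hb c) (hb d)]
    refine hφ _ _ (Bdd.of_mem ((hb c).mem.add (hb d).mem)) (fun j hj => ?_)
    simp [hφ' _ j hj]
  · rw [Algebra.algebraMap_eq_smul_one, Algebra.algebraMap_eq_smul_one, hsm, h1]
  · rw [← h.star _ (hb c)]
    refine hφ _ _ (Bdd.of_mem ((hb c).mem.star_mem)) (fun j hj => ?_)
    simp [hφ' _ j hj, map_star]
  · intro c x hx hxc
    refine h.congr _ _ (hb c) hx ?_
    filter_upwards [hxc] with j ⟨hj, hj'⟩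
    rw [hφ' _ j hj, hj']

end UP

end Crest.Agent.H7.Nai
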