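import Mathlib
import Crest.Agent.H7.NaiB

/-! Matrix algebras `M_{2^k}`: projections, normalized traces and the standard embeddings. -/

set_option autoImplicit false
set_option linter.unusedSectionVars false

open scoped InnerProductSpace ComplexOrder ENNReal Kronecker Matrix.Norms.L2Operator
open Filter Topology Crest.OpAlg Matrix

namespace Crest.Agent.H7.Nai

section proj
variable {n : Type} [Fintype n] [DecidableEq n]

theorem proj_diag (P : Matrix n n ℂ) (hP : IsStarProjection P) :
    ∃ (W : Matrix n n ℂ) (s : Finset n), star W * W = 1 ∧ W * star W = 1 ∧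
      P = W * diagonal (fun i => if i ∈ s then (1 : ℂ) else 0) * star W := by
  have hH : P.IsHermitian := hP.isSelfAdjoint
  set W : Matrix n n ℂ := (hH.eigenvectorUnitary : Matrix n n ℂ) with hW
  have h1 : star W * W = 1 := Unitary.coe_star_mul_self _
  have h2 : W * star W = 1 := Unitary.coe_mul_star_self _
  set d : n → ℂ := RCLike.ofReal ∘ hH.eigenvalues with hd
  have h3 : P = W * diagonal d * star W := by
    have := hH.spectral_theorem
    rwa [Unitary.conjStarAlgAut_apply] at this
  have h4 : diagonal d = star W * P * W := by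
    rw [h3]
    calc diagonal d = (star W * W) * diagonal d * (star W * W) := by rw [h1]; simp
      _ = _ := by simp only [mul_assoc]
  have h5 : diagonal d * diagonal d = diagonal d := by
    rw [h4]
    calc star W * P * W * (star W * P * W) = star W * (P * (W * star W) * P) * W := by
          simp only [mul_assoc]
      _ = _ := by rw [h2, mul_one, hP.isIdempotentElem.eq]
  rw [diagonal_mul_diagonal] at h5
  have h6 : ∀ i, d i * d i = d i := fun i => congrFun (diagonal_injective h5) i
  refine ⟨W, Finset.univ.filter (fun i => d i = 1), h1, h2, ?_⟩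
  rw [h3]
  congr 3
  ext i
  simp only [Finset.mem_filter, Finset.mem_univ, true_and]
  split_ifs with h
  · exact h
  · have := h6 i
    have h7 : d i * (d i - 1) = 0 := by linear_combination this
    rcases mul_eq_zero.mp h7 with h8 | h8
    · exact h8
    · exact absurd (sub_eq_zero.mp h8) h

theorem trace_conj (W D : Matrix n n ℂ) (h : star W * W = 1) :
    (W * D * star W).trace = D.trace := by
  rw [trace_mul_comm, ← mul_assoc, h, one_mul]

theorem trace_ind (s : Finset n) :
    (diagonal (fun i => if i ∈ s then (1 : ℂ) else 0)).trace = s.card := by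
  simp [trace_diagonal]

theorem proj_trace (P : Matrix n n ℂ) (hP : IsStarProjection P) :
    ∃ r : ℕ, r ≤ Fintype.card n ∧ P.trace = r := by
  obtain ⟨W, s, h1, -, h3⟩ := proj_diag P hP
  exact ⟨s.card, Finset.card_le_univ s, by rw [h3, trace_conj _ _ h1, trace_ind]⟩

theorem proj_equiv (P Q : Matrix n n ℂ) (hP : IsStarProjection P) (hQ : IsStarProjection Q)
    (h : P.trace = Q.trace) : ∃ v : Matrix n n ℂ, star v * v = P ∧ v * star v = Q := by
  obtain ⟨W, s, h1, h2, h3⟩ := proj_diag P hP
  obtain ⟨V, t, g1, g2, g3⟩ := proj_diag Q hQ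
  rw [h3, g3, trace_conj _ _ h1, trace_conj _ _ g1, trace_ind, trace_ind] at h
  have hc : Fintype.card {x // x ∈ t} = Fintype.card {x // x ∈ s} := by
    simp only [Fintype.card_coe]
    exact_mod_cast h.symm
  let e := Fintype.equivOfCardEq hc
  let σ : Equiv.Perm n := e.extendSubtype
  have hσ : ∀ i, σ i ∈ s ↔ i ∈ t := fun i => by
    constructor
    · intro hi
      by_contra hi'
      exact Equiv.extendSubtype_not_mem e i hi' hi
    · exact Equiv.extendSubtype_mem e i
  set D : Matrix n n ℂ := diagonal (fun i => if i ∈ s then (1 : ℂ) else 0) with hD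
  set E : Matrix n n ℂ := diagonal (fun i => if i ∈ t then (1 : ℂ) else 0) with hE
  let R : Matrix n n ℂ := (1 : Matrix n n ℂ).submatrix σ (Equiv.refl n)
  have hRs : star R = (1 : Matrix n n ℂ).submatrix (Equiv.refl n) σ := by
    simp [R, star_eq_conjTranspose]
  have hR1 : star R * R = 1 := by
    rw [hRs, submatrix_mul_equiv]; simp
  have hR2 : R * D * star R = E := by
    rw [hRs, one_submatrix_mul, mul_submatrix_one]
    ext i j
    simp only [hD, hE, submatrix_apply, diagonal_apply, Function.comp_apply, Equiv.refl_symm,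
      Equiv.coe_refl, id_eq, EmbeddingLike.apply_eq_iff_eq, hσ]
  have hDD : D * D = D := by
    rw [hD, diagonal_mul_diagonal]; congr 1; ext i; split_ifs <;> simp
  have hDs : star D = D := by
    rw [hD, star_eq_conjTranspose, diagonal_conjTranspose]; congr 1; ext i
    simp only [Pi.star_apply]; split_ifs <;> simp
  refine ⟨V * R * D * star W, ?_, ?_⟩
  · simp only [star_mul, star_star, hDs]
    calc W * (D * (star R * star V)) * (V * R * D * star W)
        = W * (D * (star R * (star V * V) * R) * D) * star W := by simp only [mul_assoc]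
      _ = _ := by rw [g1, mul_one, hR1, mul_one, hDD, h3]
  · simp only [star_mul, star_star, hDs]
    calc V * R * D * star W * (W * (D * (star R * star V)))
        = V * (R * (D * (star W * W) * D) * star R) * star V := by simp only [mul_assoc]
      _ = _ := by rw [h1, mul_one, hDD, hR2, g3]

end proj

/-- The matrix algebra of size `2^k`. -/
abbrev Mk (k : ℕ) : Type := Matrix (Fin (2 ^ k)) (Fin (2 ^ k)) ℂ

/-- Index splitting. -/
def spl (k : ℕ) : Fin (2 ^ k) × Fin 2 ≃ Fin (2 ^ (k + 1)) :=
  finProdFinEquiv.trans (finCongr (pow_succ 2 k).symm)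

theorem spl_symm_fst (k : ℕ) (x : Fin (2 ^ (k + 1))) : (((spl k).symm x).1 : ℕ) = x / 2 := by
  simp [spl, finProdFinEquiv, Fin.divNat]

/-- The embedding `a ↦ a ⊗ 1`. -/
noncomputable def step (k : ℕ) : Mk k →⋆ₐ[ℂ] Mk (k + 1) where
  toFun a := (a ⊗ₖ (1 : Matrix (Fin 2) (Fin 2) ℂ)).submatrix (spl k).symm (spl k).symm
  map_one' := by simp
  map_mul' a b := by
    rw [submatrix_mul_equiv, ← mul_kronecker_mul, one_mul]
  map_zero' := by simp
  map_add' a b := by rw [add_kronecker]; rfl
  commutes' r := by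
    rw [Algebra.algebraMap_eq_smul_one, Algebra.algebraMap_eq_smul_one, smul_kronecker,
      one_kronecker_one]
    rw [show (r • (1 : Matrix (Fin (2 ^ k) × Fin 2) (Fin (2 ^ k) × Fin 2) ℂ)).submatrix
      (spl k).symm (spl k).symm = r • ((1 : Matrix (Fin (2 ^ k) × Fin 2) (Fin (2 ^ k) × Fin 2)
        ℂ).submatrix (spl k).symm (spl k).symm) from rfl, submatrix_one_equiv]
  map_star' a := by
    simp only [star_eq_conjTranspose, conjTranspose_submatrix, conjTranspose_kronecker,
      conjTranspose_one]

theorem step_apply (k : ℕ) (a : Mk k) : step k a =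
    (a ⊗ₖ (1 : Matrix (Fin 2) (Fin 2) ℂ)).submatrix (spl k).symm (spl k).symm := rfl

theorem step_trace (k : ℕ) (a : Mk k) : (step k a).trace = a.trace * 2 := by
  have : (step k a).trace = (a ⊗ₖ (1 : Matrix (Fin 2) (Fin 2) ℂ)).trace := by
    rw [step_apply]
    simp only [trace, diag_apply, submatrix_apply]
    exact Equiv.sum_comp (spl k).symm (fun x => (a ⊗ₖ (1 : Matrix (Fin 2) (Fin 2) ℂ)) x x)
  rw [this, trace_kronecker]
  simp

theorem step_diag (k : ℕ) (f : ℕ → ℂ) :
    step k (diagonal fun i => f i) = diagonal fun i : Fin (2 ^ (k + 1)) => f (i / 2) := by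
  rw [step_apply, ← diagonal_one, diagonal_kronecker_diagonal, submatrix_diagonal_equiv]
  congr 1
  ext i
  simp [spl_symm_fst]

/-- The normalized trace. -/
noncomputable def trk (k : ℕ) : Mk k →ₗ[ℂ] ℂ := ((2 : ℂ) ^ k)⁻¹ • traceLinearMap _ ℂ ℂ

theorem trk_apply (k : ℕ) (a : Mk k) : trk k a = ((2 : ℂ) ^ k)⁻¹ * a.trace := rfl

theorem trk_step (k : ℕ) (a : Mk k) : trk (k + 1) (step k a) = trk k a := by
  rw [trk_apply, trk_apply, step_trace, pow_succ]
  field_simp

theorem trk_isTr (k : ℕ) : IsTr (trk k) := by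
  refine ⟨?_, fun a => ?_, fun a b => ?_⟩
  · rw [trk_apply]; simp
  · rw [trk_apply]
    refine mul_nonneg ?_ (posSemidef_conjTranspose_mul_self a).trace_nonneg
    have : ((2 : ℂ) ^ k)⁻¹ = (((2 : ℝ) ^ k)⁻¹ : ℝ) := by push_cast; rfl
    rw [this]
    exact Complex.zero_le_real.mpr (by positivity)
  · rw [trk_apply, trk_apply, trace_mul_comm]

theorem trk_faithful (k : ℕ) (a : Mk k) (h : trk k (star a * a) = 0) : a = 0 := by
  rw [trk_apply] at h
  rcases mul_eq_zero.mp h with h | h
  · simp at h
  · exact trace_conjTranspose_mul_self_eq_zero_iff.mp h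

/-- Iterated embeddings. -/
noncomputable def up (k j : ℕ) (h : k ≤ j) : Mk k →⋆ₐ[ℂ] Mk j :=
  Nat.leRec (motive := fun j _ => Mk k →⋆ₐ[ℂ] Mk j) (StarAlgHom.id ℂ _)
    (fun j _ ih => (step j).comp ih) h

theorem up_self (k : ℕ) (a : Mk k) : up k k le_rfl a = a := by
  rw [up, Nat.leRec_self]; rfl

theorem up_succ (k j : ℕ) (h : k ≤ j) (h' : k ≤ j + 1) (a : Mk k) :
    up k (j + 1) h' a = step j (up k j h a) := by
  rw [up, Nat.leRec_succ _ _ h]; rfl

theorem up_step (k j : ℕ) (h : k + 1 ≤ j) (a : Mk k) :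
    up (k + 1) j h (step k a) = up k j (Nat.le_of_succ_le h) a := by
  induction j, h using Nat.le_induction with
  | base => rw [up_self, up_succ k k le_rfl, up_self]
  | succ j h ih => rw [up_succ _ _ h, ih, up_succ _ _ (Nat.le_of_succ_le h)]

theorem trk_up (k j : ℕ) (h : k ≤ j) (a : Mk k) : trk j (up k j h a) = trk k a := by
  induction j, h using Nat.le_induction with
  | base => rw [up_self]
  | succ j h ih => rw [up_succ _ _ h, trk_step, ih]

/-- A C⋆-algebra with a faithful trace containing a compatible system of matrix algebras. -/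
theorem exists_car : ∃ (M : Type) (_ : CStarAlgebra M) (σ : M →ₗ[ℂ] ℂ)
    (ι : ∀ k, Mk k →⋆ₐ[ℂ] M), IsFaithfulTracialState σ ∧ (∀ k a, ι (k + 1) (step k a) = ι k a) ∧
      ∀ k a, σ (ι k a) = trk k a := by
  classical
  obtain ⟨M, _, σ, Λ, h⟩ := exists_UP trk trk_isTr
  choose ι hι using fun k => h.hom (C := Mk k) k (up k)
  let φ : ∀ k, Mk k → ∀ j, Mk j := fun k c j => if hj : k ≤ j then up k j hj c else 0
  have hb : ∀ k c, Bdd (φ k c) := fun k c => ⟨‖c‖, fun j => by
    simp only [φ]
    split_ifs with hj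
    · exact NonUnitalStarAlgHom.norm_apply_le _ _
    · simp⟩
  have hφ : ∀ k c, ι k c = Λ (φ k c) := fun k c => hι k c _ (hb k c) (by
    filter_upwards [eventually_ge_atTop k] with j hj
    exact ⟨hj, dif_pos hj⟩)
  refine ⟨M, inferInstance, σ, ι, h.faithful, fun k a => ?_, fun k a => ?_⟩
  · rw [hφ k a]
    refine hι _ _ _ (hb k a) ?_
    filter_upwards [eventually_ge_atTop (k + 1)] with j hj
    refine ⟨hj, ?_⟩
    rw [up_step]
    exact dif_pos _
  · rw [hφ k a]
    refine h.tr _ _ (hb k a) ?_
    filter_upwards [eventually_ge_atTop k] with j hj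
    simp only [φ, dif_pos hj, trk_up]

end Crest.Agent.H7.Nai
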