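import Mathlib
import Crest.Agent.H7.NaiC

/-! The abstract setting (an algebraic CAR algebra inside a tracial ultrapower) and its existence. -/

set_option autoImplicit false
set_option linter.unusedSectionVars false

open scoped InnerProductSpace ComplexOrder ENNReal Kronecker Matrix.Norms.L2Operator
open Filter Topology Crest.OpAlg Matrix

namespace Crest.Agent.H7.Nai

/-- The data used by the construction. -/
structure Sys (N M : Type) [NormedRing N] [StarRing N] [CStarRing N] [NormedAlgebra ℂ N]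
    [StarModule ℂ N] [CStarAlgebra M] where
  j : N →⋆ₐ[ℂ] M
  j_norm : ∀ x, ‖j x‖ = ‖x‖
  τ : M →ₗ[ℂ] ℂ
  hτ : IsFaithfulTracialState τ
  fin : ∀ x, (spectrum ℝ (j x)).Finite
  cnt : ∃ s : Set N, s.Countable ∧ Submodule.span ℂ s = ⊤
  equiv : ∀ e f : N, IsStarProjection e → IsStarProjection f → τ (j e) = τ (j f) →
    ∃ v, star v * v = e ∧ v * star v = f
  trp : ∀ e : N, IsStarProjection e → ∃ k r : ℕ, r ≤ 2 ^ k ∧ τ (j e) = (r : ℂ) / 2 ^ k
  Dg : ℕ → (ℕ → ℂ) →⋆ₐ[ℂ] N
  Dg_succ : ∀ k f, Dg k f = Dg (k + 1) (fun i => f (i / 2))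
  Dg_congr : ∀ k f g, (∀ i < 2 ^ k, f i = g i) → Dg k f = Dg k g
  Dg_tr : ∀ k f, τ (j (Dg k f)) = (∑ i ∈ Finset.range (2 ^ k), f i) / 2 ^ k
  exc : ∀ a, ∃ k, ∀ i, ∃ c : ℂ,
    Dg k (Pi.single i 1) * a * Dg k (Pi.single i 1) = c • Dg k (Pi.single i 1)
  amb : ∀ W : ℕ → N, (∀ n, W n ∈ unitary N) → ∃ u ∈ unitary M, ∀ x y : N,
    (∀ᶠ n in atTop, W n * x = y) → u * j x = j y
  inf : ¬ Module.Finite ℂ N

/-- Diagonal matrices from functions on `ℕ`. -/
noncomputable def dgk (k : ℕ) : (ℕ → ℂ) →⋆ₐ[ℂ] Mk k where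
  toFun f := diagonal fun i => f i
  map_one' := by simp
  map_mul' f g := by simp [diagonal_mul_diagonal]
  map_zero' := by simp
  map_add' f g := by simp [diagonal_add]
  commutes' r := by
    rw [Algebra.algebraMap_eq_smul_one, Algebra.algebraMap_eq_smul_one, ← diagonal_one,
      ← diagonal_smul]
    rfl
  map_star' f := by
    rw [star_eq_conjTranspose, diagonal_conjTranspose]; rfl

theorem dgk_apply (k : ℕ) (f : ℕ → ℂ) : dgk k f = diagonal fun i : Fin (2 ^ k) => f i := rfl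

theorem exists_amb {M₀ : Type} [CStarAlgebra M₀] {σ₀ : M₀ →ₗ[ℂ] ℂ}
    (h₀ : IsFaithfulTracialState σ₀) :
    ∃ (M : Type) (_ : CStarAlgebra M) (σ : M →ₗ[ℂ] ℂ) (ι : M₀ →⋆ₐ[ℂ] M),
      IsFaithfulTracialState σ ∧ (∀ a, σ (ι a) = σ₀ a) ∧
      ∀ W : ℕ → M₀, (∀ n, W n ∈ unitary M₀) → ∃ u ∈ unitary M, ∀ x y : M₀,
        (∀ᶠ n in atTop, W n * x = y) → u * ι x = ι y := by
  obtain ⟨M, _, σ, Λ, h⟩ := exists_UP (A := fun _ => M₀) (fun _ => σ₀)
    (fun _ => IsTr.of_faithful h₀)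
  obtain ⟨ι, hι⟩ := h.hom (C := M₀) 0 (fun _ _ => StarAlgHom.id ℂ M₀)
  have hb : ∀ c : M₀, Bdd (A := fun _ => M₀) (fun _ => c) := fun c => ⟨‖c‖, fun _ => le_rfl⟩
  have hc : ∀ c, ι c = Λ (fun _ => c) := fun c => hι c _ (hb c)
    (Eventually.of_forall fun j => ⟨Nat.zero_le j, rfl⟩)
  refine ⟨M, inferInstance, σ, ι, h.faithful, fun a => ?_, fun W hW => ?_⟩
  · rw [hc]
    exact h.tr _ _ (hb a) (Eventually.of_forall fun _ => rfl)
  · have hWb : Bdd (A := fun _ => M₀) W := ⟨1, fun n => by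
      have h1 : ‖W n‖ * ‖W n‖ ≤ 1 := by
        rw [← CStarRing.norm_star_mul_self, (hW n).1]
        exact IsStarProjection.norm_le _ (.one _)
      nlinarith [norm_nonneg (W n)]⟩
    have hWs : Bdd (A := fun _ => M₀) (star W) := Bdd.of_mem hWb.mem.star_mem
    refine ⟨Λ W, ⟨?_, ?_⟩, fun x y hxy => ?_⟩
    · rw [← h.star _ hWb, ← h.mul _ _ hWs hWb, ← h.one]
      congr 1
      ext n
      exact (hW n).1
    · rw [← h.star _ hWb, ← h.mul _ _ hWb hWs, ← h.one]
      congr 1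
      ext n
      exact (hW n).2
    · rw [hc, hc, ← h.mul _ _ hWb (hb x)]
      exact h.congr _ _ (Bdd.of_mem (hWb.mem.infty_mul (hb x).mem)) (hb y) hxy

theorem inj_of_tr {C M : Type} [CStarAlgebra C] [CStarAlgebra M] {σ₀ : C →ₗ[ℂ] ℂ}
    {σ : M →ₗ[ℂ] ℂ} (ι : C →⋆ₐ[ℂ] M) (h₀ : ∀ a, σ₀ (star a * a) = 0 → a = 0)
    (h : ∀ a, σ (ι a) = σ₀ a) : Function.Injective ι := by
  rw [injective_iff_map_eq_zero]
  intro a ha
  apply h₀
  rw [← h, map_mul, ha, mul_zero, map_zero]

theorem exists_sys : ∃ (N M : Type) (_ : NormedRing N) (_ : StarRing N) (_ : CStarRing N)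
    (_ : NormedAlgebra ℂ N) (_ : StarModule ℂ N) (_ : CStarAlgebra M), Nonempty (Sys N M) := by
  classical
  obtain ⟨M₀, _, σ₀, ι, h₀, hstep, htr⟩ := exists_car
  obtain ⟨M, _, σ, κ, hσ, hκ, hamb⟩ := exists_amb h₀
  have hιinj : ∀ k, Function.Injective (ι k) := fun k => inj_of_tr (ι k) (trk_faithful k) (htr k)
  have hκinj : Function.Injective κ := inj_of_tr κ h₀.2.2.1 hκ
  have hup : ∀ k j (h : k ≤ j) a, ι j (up k j h a) = ι k a := by
    intro k j h a
    induction j, h using Nat.le_induction with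
    | base => rw [up_self]
    | succ j h ih => rw [up_succ _ _ h, hstep, ih]
  have hcom : ∀ x y : M₀, (∃ k a, ι k a = x) → (∃ k a, ι k a = y) →
      ∃ k a b, ι k a = x ∧ ι k b = y := by
    rintro _ _ ⟨k, a, rfl⟩ ⟨l, b, rfl⟩
    exact ⟨max k l, up k _ (le_max_left _ _) a, up l _ (le_max_right _ _) b, hup _ _ _ _,
      hup _ _ _ _⟩
  let N₀ : StarSubalgebra ℂ M₀ :=
    { carrier := {x | ∃ k a, ι k a = x}
      mul_mem' := fun hx hy => by
        obtain ⟨k, a, b, rfl, rfl⟩ := hcom _ _ hx hy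
        exact ⟨k, a * b, map_mul _ _ _⟩
      add_mem' := fun hx hy => by
        obtain ⟨k, a, b, rfl, rfl⟩ := hcom _ _ hx hy
        exact ⟨k, a + b, map_add _ _ _⟩
      algebraMap_mem' := fun r => ⟨0, algebraMap ℂ _ r, AlgHomClass.commutes _ _⟩
      star_mem' := by
        rintro _ ⟨k, a, rfl⟩
        exact ⟨k, star a, map_star _ _⟩ }
  let ι' : ∀ k, Mk k →⋆ₐ[ℂ] N₀ := fun k => (ι k).codRestrict N₀ (fun a => ⟨k, a, rfl⟩)
  have hι' : ∀ k a, (ι' k a : M₀) = ι k a := fun _ _ => rfl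
  have hι'inj : ∀ k, Function.Injective (ι' k) := fun k a b h =>
    hιinj k (by rw [← hι', ← hι', h])
  have hsurj : ∀ x : N₀, ∃ k a, ι' k a = x := fun x => by
    obtain ⟨k, a, h⟩ := x.2
    exact ⟨k, a, Subtype.ext h⟩
  have hsurj₂ : ∀ x y : N₀, ∃ k a b, ι' k a = x ∧ ι' k b = y := fun x y => by
    obtain ⟨k, a, b, h1, h2⟩ := hcom _ _ x.2 y.2
    exact ⟨k, a, b, Subtype.ext h1, Subtype.ext h2⟩
  have hproj : ∀ k a, IsStarProjection (ι' k a) → IsStarProjection a := fun k a h =>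
    ⟨hι'inj k (by rw [map_mul]; exact h.isIdempotentElem.eq),
      hι'inj k (by rw [map_star]; exact h.isSelfAdjoint.star_eq)⟩
  have htr' : ∀ k a, σ (κ (ι' k a : M₀)) = trk k a := fun k a => by rw [hκ, hι', htr]
  refine ⟨N₀, M, inferInstance, inferInstance, inferInstance, inferInstance, inferInstance,
    inferInstance, ⟨{
      j := κ.comp N₀.subtype
      j_norm := fun x => NonUnitalStarAlgHom.norm_map κ hκinj x
      τ := σ
      hτ := hσ
      fin := fun x => ?_
      cnt := ?_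
      equiv := fun e f he hf hef => ?_
      trp := fun e he => ?_
      Dg := fun k => (ι' k).comp (dgk k)
      Dg_succ := fun k f => ?_
      Dg_congr := fun k f g hfg => ?_
      Dg_tr := fun k f => ?_
      exc := fun x => ?_
      amb := fun W hW => ?_
      inf := ?_ }⟩⟩
  · obtain ⟨k, a, rfl⟩ := hsurj x
    refine (finite_real_spectrum (A := a)).subset ?_
    exact AlgHom.spectrum_apply_subset ((κ.comp (ι k)).restrictScalars ℝ) a
  · refine ⟨⋃ k, Set.range (fun p : Fin (2 ^ k) × Fin (2 ^ k) => ι' k (single p.1 p.2 1)),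
      Set.countable_iUnion (fun k => Set.countable_range _), ?_⟩
    rw [eq_top_iff]
    intro x _
    obtain ⟨k, a, rfl⟩ := hsurj x
    rw [matrix_eq_sum_single a, map_sum]
    refine Submodule.sum_mem _ (fun i _ => ?_)
    rw [map_sum]
    refine Submodule.sum_mem _ (fun l _ => ?_)
    have : single i l (a i l) = a i l • single i l (1 : ℂ) := by simp
    rw [this, map_smul]
    exact Submodule.smul_mem _ _ (Submodule.subset_span (Set.mem_iUnion.mpr ⟨k, (i, l), rfl⟩))
  · obtain ⟨k, a, b, rfl, rfl⟩ := hsurj₂ e f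
    have h1 : trk k a = trk k b := by rw [← htr', ← htr']; exact hef
    rw [trk_apply, trk_apply] at h1
    obtain ⟨v, hv1, hv2⟩ := proj_equiv a b (hproj k a he) (hproj k b hf)
      (mul_left_cancel₀ (by simp) h1)
    exact ⟨ι' k v, by rw [← map_star, ← map_mul, hv1], by rw [← map_star, ← map_mul, hv2]⟩
  · obtain ⟨k, a, rfl⟩ := hsurj e
    obtain ⟨r, hr, hr'⟩ := proj_trace a (hproj k a he)
    refine ⟨k, r, by simpa using hr, ?_⟩
    refine (htr' k a).trans ?_
    rw [trk_apply, hr']; field_simp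
  · apply Subtype.ext
    show ι k (dgk k f) = ι (k + 1) (dgk (k + 1) _)
    rw [← hstep, dgk_apply, step_diag, dgk_apply]
  · show ι' k (dgk k f) = ι' k (dgk k g)
    congr 1
    rw [dgk_apply, dgk_apply]
    congr 1
    ext i
    exact hfg i i.2
  · refine (htr' k (dgk k f)).trans ?_
    rw [trk_apply, dgk_apply, trace_diagonal, Fin.sum_univ_eq_sum_range]
    field_simp
  · obtain ⟨k, a, rfl⟩ := hsurj x
    refine ⟨k, fun i => ?_⟩
    by_cases hi : i < 2 ^ k
    · refine ⟨a ⟨i, hi⟩ ⟨i, hi⟩, ?_⟩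
      show ι' k (dgk k (Pi.single i 1)) * ι' k a * ι' k (dgk k (Pi.single i 1))
        = _ • ι' k (dgk k (Pi.single i 1))
      rw [← map_mul, ← map_mul, ← map_smul]
      congr 1
      ext p q
      simp only [dgk_apply, mul_diagonal, diagonal_mul, Matrix.smul_apply, diagonal_apply,
        Pi.single_apply, smul_eq_mul]
      by_cases hp : (p : ℕ) = i
      · by_cases hq : (q : ℕ) = i
        · have h1 : p = ⟨i, hi⟩ := Fin.ext hp
          have h2 : q = ⟨i, hi⟩ := Fin.ext hq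
          subst h1 h2
          simp
        · have : p ≠ q := fun h => hq (h ▸ hp)
          simp [hq, this]
      · simp [hp]
    · refine ⟨0, ?_⟩
      have : dgk k (Pi.single i 1) = 0 := by
        rw [dgk_apply, ← diagonal_zero]
        congr 1
        ext p
        have : (p : ℕ) ≠ i := fun h => hi (h ▸ p.2)
        simp [this]
      show ι' k (dgk k (Pi.single i 1)) * ι' k a * ι' k (dgk k (Pi.single i 1))
        = _ • ι' k (dgk k (Pi.single i 1))
      rw [this]; simp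
  · obtain ⟨u, hu, hu'⟩ := hamb (fun n => W n) (fun n =>
      ⟨congrArg Subtype.val (hW n).1, congrArg Subtype.val (hW n).2⟩)
    refine ⟨u, hu, fun x y hxy => hu' x y ?_⟩
    filter_upwards [hxy] with n hn
    exact congrArg Subtype.val hn
  · intro hfin
    have h1 := LinearMap.finrank_le_finrank_of_injective
      (f := (ι' (Module.finrank ℂ N₀)).toLinearMap) (hι'inj _)
    rw [Module.finrank_matrix] at h1
    simp only [Fintype.card_fin, Module.finrank_self, mul_one] at h1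
    have h2 := Nat.lt_two_pow_self (n := Module.finrank ℂ N₀)
    nlinarith

end Crest.Agent.H7.Nai
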