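import Mathlib
import Crest.Agent.H7.NaiD

/-! Excising sequences of projections and their existence in irreducible representations. -/

set_option autoImplicit false
set_option linter.unusedSectionVars false

open scoped InnerProductSpace ComplexOrder
open Filter Topology Crest.OpAlg

namespace Crest.Agent.H7.Nai

section Exc

variable {R : Type} [NormedRing R] [StarRing R] [CStarRing R] [NormedAlgebra ℂ R] [StarModule ℂ R]

/-- A decreasing sequence of projections. -/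
structure Dec (e : ℕ → R) : Prop where
  proj : ∀ n, IsStarProjection (e n)
  succ : ∀ n, e n * e (n + 1) = e (n + 1)

/-- The sequence `e` excises `a`. -/
def Exc (e : ℕ → R) (a : R) : Prop :=
  ∀ ε : ℝ, 0 < ε → ∃ (c : ℂ) (n : ℕ), ‖e n * a * e n - c • e n‖ ≤ ε

/-- A sequence of nonzero decreasing projections excising everything. -/
structure ExcSeq (e : ℕ → R) : Prop extends Dec e where
  ne : ∀ n, e n ≠ 0
  exc : ∀ a, Exc e a

theorem proj_le' {e f : R} (he : IsStarProjection e) (hf : IsStarProjection f) (h : f * e = e) :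
    e * f = e := by
  have := congrArg star h
  rwa [star_mul, he.isSelfAdjoint.star_eq, hf.isSelfAdjoint.star_eq] at this

theorem norm_mul_proj (x : R) {e : R} (he : IsStarProjection e) : ‖x * e‖ ≤ ‖x‖ :=
  (norm_mul_le _ _).trans (mul_le_of_le_one_right (norm_nonneg _) (he.norm_le e))

theorem norm_proj_mul (x : R) {e : R} (he : IsStarProjection e) : ‖e * x‖ ≤ ‖x‖ :=
  (norm_mul_le _ _).trans (mul_le_of_le_one_left (norm_nonneg _) (he.norm_le e))

theorem norm_proj_eq {e : R} (he : IsStarProjection e) (h0 : e ≠ 0) : ‖e‖ = 1 := by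
  have h1 : ‖e‖ * ‖e‖ = ‖e‖ := by
    rw [← CStarRing.norm_star_mul_self, he.isSelfAdjoint.star_eq, he.isIdempotentElem.eq]
  have h2 : ‖e‖ ≠ 0 := norm_ne_zero_iff.mpr h0
  exact mul_left_cancel₀ h2 (by rw [h1, mul_one])

theorem exc_cut {e f a : R} {c : ℂ} (he : IsStarProjection e) (hf : IsStarProjection f)
    (h : f * e = e) : ‖e * a * e - c • e‖ ≤ ‖f * a * f - c • f‖ := by
  have h' := proj_le' he hf h
  have : e * a * e - c • e = e * (f * a * f - c • f) * e := by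
    rw [mul_sub, sub_mul, mul_smul_comm, smul_mul_assoc, h', he.isIdempotentElem.eq]
    congr 1
    calc e * a * e = (e * f) * a * (f * e) := by rw [h, h']
      _ = _ := by simp only [mul_assoc]
  rw [this]
  exact (norm_mul_proj _ he).trans (norm_proj_mul _ he)

variable {e : ℕ → R}

theorem Dec.le (h : Dec e) {m n : ℕ} (hmn : m ≤ n) : e m * e n = e n :=
  dec_of_succ e (fun n => (h.proj n).isIdempotentElem.eq) h.succ hmn

theorem Dec.le' (h : Dec e) {m n : ℕ} (hmn : m ≤ n) : e n * e m = e n :=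
  proj_le' (h.proj n) (h.proj m) (h.le hmn)

theorem Dec.norm_mul (h : Dec e) (x : R) {m n : ℕ} (hmn : m ≤ n) : ‖x * e n‖ ≤ ‖x * e m‖ := by
  rw [← h.le hmn, ← mul_assoc]
  exact norm_mul_proj _ (h.proj n)

theorem Dec.norm_mul' (h : Dec e) (x : R) {m n : ℕ} (hmn : m ≤ n) : ‖e n * x‖ ≤ ‖e m * x‖ := by
  rw [← h.le' hmn, mul_assoc]
  exact norm_proj_mul _ (h.proj n)

theorem Dec.exc_mono (h : Dec e) (a : R) (c : ℂ) {m n : ℕ} (hmn : m ≤ n) :
    ‖e n * a * e n - c • e n‖ ≤ ‖e m * a * e m - c • e m‖ :=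
  exc_cut (h.proj n) (h.proj m) (h.le hmn)

theorem Exc.ev (h : Dec e) {a : R} (ha : Exc e a) {ε : ℝ} (hε : 0 < ε) :
    ∃ (c : ℂ) (n₀ : ℕ), ∀ n, n₀ ≤ n → ‖e n * a * e n - c • e n‖ ≤ ε := by
  obtain ⟨c, n₀, hc⟩ := ha ε hε
  exact ⟨c, n₀, fun n hn => (h.exc_mono a c hn).trans hc⟩

theorem Exc.zero : Exc e 0 := fun ε hε => ⟨0, 0, by simpa using hε.le⟩

theorem Exc.add (h : Dec e) {a b : R} (ha : Exc e a) (hb : Exc e b) : Exc e (a + b) := by
  intro ε hε
  obtain ⟨c, n, hc⟩ := ha.ev h (half_pos hε)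
  obtain ⟨d, m, hd⟩ := hb.ev h (half_pos hε)
  refine ⟨c + d, max n m, ?_⟩
  have h1 := hc _ (le_max_left n m)
  have h2 := hd _ (le_max_right n m)
  set E := e (max n m)
  have : E * (a + b) * E - (c + d) • E = (E * a * E - c • E) + (E * b * E - d • E) := by
    rw [mul_add, add_mul, add_smul]; abel
  rw [this]
  linarith [norm_add_le (E * a * E - c • E) (E * b * E - d • E)]

theorem Exc.smul {a : R} (ha : Exc e a) (r : ℂ) : Exc e (r • a) := by
  intro ε hε
  obtain ⟨c, n, hc⟩ := ha (ε / (‖r‖ + 1)) (by positivity)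
  refine ⟨r * c, n, ?_⟩
  have : e n * (r • a) * e n - (r * c) • e n = r • (e n * a * e n - c • e n) := by
    rw [mul_smul_comm, smul_mul_assoc, mul_smul, smul_sub]
  rw [this, norm_smul]
  calc _ ≤ (‖r‖ + 1) * (ε / (‖r‖ + 1)) := by gcongr; linarith
    _ = ε := by field_simp

theorem Exc.star (h : Dec e) {a : R} (ha : Exc e a) : Exc e (star a) := by
  intro ε hε
  obtain ⟨c, n, hc⟩ := ha ε hε
  refine ⟨Star.star c, n, ?_⟩
  rw [← norm_star, star_sub, star_smul, star_mul, star_mul, star_star, star_star,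
    (h.proj n).isSelfAdjoint.star_eq, ← mul_assoc]
  exact hc

/-- Spectral projections exist inside the algebra. -/
def SpecProp (R : Type) [NormedRing R] [StarRing R] : Prop :=
  ∀ (l : R) (s : ℝ), 0 < s → ∃ χ c : R, IsStarProjection χ ∧
    (∀ x, Commute (star l * l) x → Commute χ x) ∧ ‖l * χ‖ ≤ s ∧ 1 - χ = c * l ∧ ‖c‖ ≤ s⁻¹

end Exc

section K

variable {N : Type} [NormedRing N] [StarRing N] [CStarRing N] [NormedAlgebra ℂ N] [StarModule ℂ N]
variable {H : Type} [NormedAddCommGroup H] [InnerProductSpace ℂ H] [CompleteSpace H]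

theorem step_sa (hs : SpecProp N) {ρ : N →⋆ₐ[ℂ] (H →L[ℂ] H)} (hirr : Irr ρ)
    (hρ : ∀ x v, ‖ρ x v‖ ≤ ‖x‖ * ‖v‖) {q : N} (hq : IsStarProjection q) {ξ : H} (hξ : ξ ≠ 0)
    (hqξ : ρ q ξ = ξ) {a : N} (ha : IsSelfAdjoint a) {ε : ℝ} (hε : 0 < ε) :
    ∃ q' : N, IsStarProjection q' ∧ q * q' = q' ∧ (∃ c : ℂ, ‖q' * a * q' - c • q'‖ ≤ ε) ∧
      ‖ρ q' ξ - ξ‖ ≤ ε := by
  have hqq := hq.isIdempotentElem.eq
  have hqs := hq.isSelfAdjoint.star_eq
  have hnorm : (0 : ℝ) < ‖ξ‖ ^ 2 := by positivity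
  set r : ℝ := (⟪ξ, ρ a ξ⟫_ℂ).re / ‖ξ‖ ^ 2 with hr
  set a' : N := q * a * q - (r : ℂ) • q with ha'
  have ha's : star a' = a' := by
    rw [ha', star_sub, star_smul, star_mul, star_mul, hqs, ha.star_eq, ← mul_assoc]
    simp
  have hqa : q * a' = a' := by
    rw [ha', mul_sub, mul_smul_comm, ← mul_assoc, ← mul_assoc, hqq]
  have haq : a' * q = a' := by
    rw [ha', sub_mul, smul_mul_assoc, mul_assoc (q * a), hqq]
  have hre : (⟪ξ, ρ ((1 / 2 : ℂ) • a') ξ⟫_ℂ).re = 0 := by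
    have h1 : ⟪ξ, ρ (q * a * q) ξ⟫_ℂ = ⟪ξ, ρ a ξ⟫_ℂ := by
      rw [map_mul, map_mul, mul_apply_eq_comp, mul_apply_eq_comp, hqξ,
        ← proj_inner _ (hq.map ρ), hqξ]
    have h2 : (⟪ξ, ρ a' ξ⟫_ℂ).re = 0 := by
      rw [ha', map_sub, map_smul, sub_apply, smul_apply, inner_sub_right,
        h1, hqξ, inner_smul_right, inner_self_eq_norm_sq_to_K]
      have : ((r : ℂ) * ((‖ξ‖ : ℂ)) ^ 2).re = r * ‖ξ‖ ^ 2 := by
        rw [← Complex.ofReal_pow, ← Complex.ofReal_mul, Complex.ofReal_re]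
      rw [Complex.sub_re]
      erw [this]
      rw [hr]; field_simp; ring
    rw [map_smul, smul_apply, inner_smul_right]
    have : (1 / 2 : ℂ) = ((1 / 2 : ℝ) : ℂ) := by push_cast; rfl
    rw [this, Complex.re_ofReal_mul, h2, mul_zero]
  obtain ⟨x, hx, hxδ⟩ := lemT hirr hξ hre (δ := ε * (ε / 2)) (by positivity)
  set l : N := (1 / 2 : ℂ) • a' + Complex.I • (q * x * q) with hl
  have hls : star l = (1 / 2 : ℂ) • a' - Complex.I • (q * x * q) := by
    rw [hl, star_add, star_smul, star_smul, ha's, star_mul, star_mul, hqs, hx.star_eq,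
      ← mul_assoc]
    simp [sub_eq_add_neg]
  have hql : q * l = l := by
    rw [hl, mul_add, mul_smul_comm, mul_smul_comm, hqa, ← mul_assoc, ← mul_assoc, hqq]
  have hlq : l * q = l := by
    rw [hl, add_mul, smul_mul_assoc, smul_mul_assoc, haq, mul_assoc (q * x), hqq]
  have hsum : l + star l = a' := by
    rw [hls, hl]; module
  have hlξ : ‖ρ l ξ‖ ≤ ε * (ε / 2) := by
    have : ρ l ξ = ρ q (ρ ((1 / 2 : ℂ) • a') ξ + Complex.I • ρ x ξ) := by
      rw [map_add (ρ q), ← mul_apply_eq_comp, ← map_mul, mul_smul_comm, hqa, hl, map_add,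
        add_apply, map_smul ρ Complex.I, smul_apply, map_mul, map_mul,
        mul_apply_eq_comp, mul_apply_eq_comp, hqξ, map_smul (ρ q)]
    rw [this]
    refine (hρ _ _).trans ?_
    exact (mul_le_of_le_one_left (norm_nonneg _) (hq.norm_le q)).trans hxδ.le
  obtain ⟨χ, c, hχ, hcomm, hlχ, hc1, hc2⟩ := hs l (ε / 2) (by positivity)
  have hqls : q * star l = star l := by
    have := congrArg star hlq
    rwa [star_mul, hqs] at this
  have hcq : Commute χ q := hcomm q (by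
    show star l * l * q = q * (star l * l)
    rw [mul_assoc, hlq, ← mul_assoc, hqls])
  have hq' : IsStarProjection (q * χ) := hq.mul hχ hcq.symm
  refine ⟨q * χ, hq', by rw [← mul_assoc, hqq], ⟨r, ?_⟩, ?_⟩
  · have h1 : q * (q * χ) = q * χ := by rw [← mul_assoc, hqq]
    have h2 := proj_le' hq' hq h1
    have h3 : q * χ * a * (q * χ) - (r : ℂ) • (q * χ) = q * χ * a' * (q * χ) := by
      rw [ha', mul_sub, sub_mul, mul_smul_comm, smul_mul_assoc, h2, hq'.isIdempotentElem.eq]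
      congr 1
      calc q * χ * a * (q * χ) = (q * χ * q) * a * (q * (q * χ)) := by rw [h1, h2]
        _ = _ := by simp only [mul_assoc]
    have h4 : ‖l * (q * χ)‖ ≤ ε / 2 := by rw [← mul_assoc, hlq]; exact hlχ
    have h5 : q * χ * a' * (q * χ)
        = q * χ * (l * (q * χ)) + star (q * χ * (l * (q * χ))) := by
      rw [← hsum, star_mul (q * χ), star_mul l, hq'.isSelfAdjoint.star_eq, mul_add, add_mul]
      simp only [mul_assoc]
    rw [h3, h5]
    have h6 := (norm_proj_mul (l * (q * χ)) hq').trans h4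
    have h7 := norm_add_le (q * χ * (l * (q * χ))) (star (q * χ * (l * (q * χ))))
    rw [norm_star] at h7
    linarith
  · have h1 : ρ (q * χ) ξ - ξ = -(ρ c (ρ l ξ)) := by
      rw [← hcq.eq, map_mul, mul_apply_eq_comp, hqξ, ← mul_apply_eq_comp, ← map_mul, ← hc1,
        map_sub, map_one, sub_apply, one_apply_eq_self, neg_sub]
    rw [h1, norm_neg]
    calc _ ≤ ‖c‖ * ‖ρ l ξ‖ := hρ _ _
      _ ≤ (ε / 2)⁻¹ * (ε * (ε / 2)) := by gcongr
      _ = ε := by field_simp

theorem step_gen (hs : SpecProp N) {ρ : N →⋆ₐ[ℂ] (H →L[ℂ] H)} (hirr : Irr ρ)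
    (hρ : ∀ x v, ‖ρ x v‖ ≤ ‖x‖ * ‖v‖) (ξ : H) {q : N} (hq : IsStarProjection q)
    (hξ : 1 / 2 < ‖ρ q ξ‖) {a : N} (ha : IsSelfAdjoint a) {ε : ℝ} (hε : 0 < ε) :
    ∃ q' : N, IsStarProjection q' ∧ 1 / 2 < ‖ρ q' ξ‖ ∧ q * q' = q' ∧
      ∃ c : ℂ, ‖q' * a * q' - c • q'‖ ≤ ε := by
  have h0 : ρ q ξ ≠ 0 := by
    intro h; rw [h, norm_zero] at hξ; linarith
  obtain ⟨q', h1, h2, ⟨c, h3⟩, h4⟩ := step_sa hs hirr hρ hq h0
    (by rw [← mul_apply_eq_comp, ← map_mul, hq.isIdempotentElem.eq]) ha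
    (ε := min ε ((‖ρ q ξ‖ - 1 / 2) / 2)) (lt_min hε (by linarith))
  refine ⟨q', h1, ?_, h2, c, h3.trans (min_le_left _ _)⟩
  rw [← mul_apply_eq_comp, ← map_mul, proj_le' h1 hq h2] at h4
  have h5 := h4.trans (min_le_right _ _)
  have h6 := norm_sub_norm_le (ρ q ξ) (ρ q' ξ)
  rw [norm_sub_rev] at h6
  linarith

theorem exists_excSeq (hs : SpecProp N)
    (hcnt : ∃ s : Set N, s.Countable ∧ Submodule.span ℂ s = ⊤)
    {ρ : N →⋆ₐ[ℂ] (H →L[ℂ] H)} (hirr : Irr ρ) (hρ : ∀ x v, ‖ρ x v‖ ≤ ‖x‖ * ‖v‖)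
    [Nontrivial H] : ∃ e : ℕ → N, ExcSeq e ∧ ∃ w : H, w ≠ 0 ∧ ∀ n, ρ (e n) w = w := by
  obtain ⟨s, hsc, hspan⟩ := hcnt
  let t : Set N := insert 0 ((fun a => a + star a) '' s ∪
    (fun a => Complex.I • (a - star a)) '' s)
  have htc : t.Countable := ((hsc.image _).union (hsc.image _)).insert 0
  obtain ⟨g, hg⟩ := htc.exists_eq_range ⟨0, Set.mem_insert _ _⟩
  have hgs : ∀ n, IsSelfAdjoint (g n) := by
    intro n
    have : g n ∈ t := hg ▸ Set.mem_range_self n
    rcases this with h | ⟨a, -, h⟩ | ⟨a, -, h⟩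
    · rw [h]; exact IsSelfAdjoint.zero N
    · rw [← h]; exact IsSelfAdjoint.add_star_self a
    · rw [← h, IsSelfAdjoint, star_smul, star_sub, star_star]
      simp only [Complex.star_def, Complex.conj_I, neg_smul, ← smul_neg, neg_sub]
  obtain ⟨ξ, hξ⟩ := exists_norm_eq H (zero_le_one' ℝ)
  let X := {q : N // IsStarProjection q ∧ 1 / 2 < ‖ρ q ξ‖}
  have hstep : ∀ (n : ℕ) (x : X), ∃ y : X, x.1 * y.1 = y.1 ∧ ∃ c : ℂ,
      ‖y.1 * g (Nat.unpair n).1 * y.1 - c • y.1‖ ≤ 1 / (((Nat.unpair n).2 : ℝ) + 1) := by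
    intro n x
    obtain ⟨q', h1, h2, h3, h4⟩ := step_gen hs hirr hρ ξ x.2.1 x.2.2 (hgs (Nat.unpair n).1)
      (ε := 1 / (((Nat.unpair n).2 : ℝ) + 1)) (by positivity)
    exact ⟨⟨q', h1, h2⟩, h3, h4⟩
  choose F hF using hstep
  let x : ℕ → X := fun n => Nat.rec ⟨1, .one N, by simp [hξ]; norm_num⟩ F n
  have hx : ∀ n, x (n + 1) = F n (x n) := fun _ => rfl
  have hdec : Dec (fun n => (x n).1) := ⟨fun n => (x n).2.1, fun n => (hF n (x n)).1⟩
  have hexg : ∀ i, Exc (fun n => (x n).1) (g i) := by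
    intro i ε hε
    obtain ⟨m, hm⟩ := exists_nat_one_div_lt hε
    obtain ⟨c, hc⟩ := (hF (Nat.pair i m) (x (Nat.pair i m))).2
    rw [Nat.unpair_pair] at hc
    exact ⟨c, Nat.pair i m + 1, hc.trans hm.le⟩
  have hext : ∀ a ∈ t, Exc (fun n => (x n).1) a := by
    intro a ha
    rw [hg] at ha
    obtain ⟨i, rfl⟩ := ha
    exact hexg i
  obtain ⟨w, hw, hw'⟩ := proj_limit (fun n => ρ (x n).1) (fun n => (x n).2.1.map ρ)
    (fun n => by rw [← map_mul, hdec.succ n]) ξ
  refine ⟨fun n => (x n).1, ⟨hdec, fun n h => ?_, fun a => ?_⟩, w, ?_, hw'⟩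
  · have := (x n).2.2
    rw [h] at this
    simp at this
    linarith
  · have ha : a ∈ Submodule.span ℂ s := hspan ▸ Submodule.mem_top
    induction ha using Submodule.span_induction with
    | mem a ha =>
      have h1 := hext _ (Or.inr (Or.inl ⟨a, ha, rfl⟩))
      have h2 := hext _ (Or.inr (Or.inr ⟨a, ha, rfl⟩))
      have : a = (1 / 2 : ℂ) • (a + star a)
          + (-(1 / 2) * Complex.I) • (Complex.I • (a - star a)) := by
        rw [smul_smul, mul_assoc, Complex.I_mul_I]; module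
      rw [this]
      exact (h1.smul _).add hdec (h2.smul _)
    | zero => exact Exc.zero
    | add a b _ _ ha hb => exact ha.add hdec hb
    | smul r a _ ha => exact ha.smul r
  · have : 1 / 2 ≤ ‖w‖ := ge_of_tendsto' hw.norm (fun n => (x n).2.2.le)
    intro h
    rw [h, norm_zero] at this
    linarith

end K

section Spec

variable {N M : Type} [NormedRing N] [StarRing N] [CStarRing N] [NormedAlgebra ℂ N]
  [StarModule ℂ N] [CStarAlgebra M]

theorem Sys.j_inj (S : Sys N M) : Function.Injective S.j := by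
  rw [injective_iff_map_eq_zero]
  intro a ha
  rw [← norm_eq_zero, ← S.j_norm, ha, norm_zero]

theorem Sys.cfc_mem (S : Sys N M) (b : N) (hb : IsSelfAdjoint b) (f : ℝ → ℝ) :
    ∃ x : N, S.j x = cfc f (S.j b) := by
  classical
  let P : Polynomial ℝ := Lagrange.interpolate (S.fin b).toFinset id f
  have hP : cfc f (S.j b) = Polynomial.aeval (S.j b) P := by
    rw [← cfc_polynomial P (S.j b) (hb.map S.j)]
    apply cfc_congr
    intro t ht
    exact (Lagrange.eval_interpolate_at_node (s := (S.fin b).toFinset) (v := id) f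
      (Function.injective_id.injOn) (by simpa using ht)).symm
  refine ⟨Polynomial.aeval b (P.map (algebraMap ℝ ℂ)), ?_⟩
  rw [hP, ← Polynomial.aeval_map_algebraMap ℂ (S.j b) P]
  exact (Polynomial.aeval_algHom_apply S.j b _).symm

theorem Sys.spec (S : Sys N M) : SpecProp N := by
  intro l s hs
  set b : N := star l * l with hb
  have hbs : IsSelfAdjoint b := IsSelfAdjoint.star_mul_self l
  have hB : IsSelfAdjoint (S.j b) := hbs.map S.j
  have hcont : ∀ f : ℝ → ℝ, ContinuousOn f (spectrum ℝ (S.j b)) :=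
    fun f => (S.fin b).continuousOn f
  have hnn : ∀ t ∈ spectrum ℝ (S.j b), 0 ≤ t := by
    rw [hb, map_mul, map_star]; exact spectrum_star_mul_self_nonneg
  let f : ℝ → ℝ := fun t => if t ≤ s ^ 2 then 1 else 0
  let g : ℝ → ℝ := fun t => if t ≤ s ^ 2 then 0 else t⁻¹
  obtain ⟨χ, hχ⟩ := S.cfc_mem b hbs f
  obtain ⟨y, hy⟩ := S.cfc_mem b hbs g
  have hid : cfc (fun t : ℝ => t) (S.j b) = S.j b := cfc_id' ℝ _ hB
  have hconj : ∀ (h : ℝ → ℝ) (x : N), S.j x = cfc h (S.j b) →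
      IsSelfAdjoint x ∧ S.j (x * b * x) = cfc (fun t => h t * t * h t) (S.j b) := by
    intro h x hx
    refine ⟨S.j_inj (by rw [map_star, hx]; exact (cfc_predicate h (S.j b)).star_eq), ?_⟩
    rw [cfc_mul _ _ _ (hcont _) (hcont _), cfc_mul _ _ _ (hcont _) (hcont _), hid, ← hx, map_mul,
      map_mul]
  have hs2 : 0 < s ^ 2 := by positivity
  refine ⟨χ, y * star l, ⟨S.j_inj ?_, (hconj f χ hχ).1⟩, fun x hx => S.j_inj ?_, ?_, S.j_inj ?_, ?_⟩
  · rw [map_mul, hχ, ← cfc_mul _ _ _ (hcont _) (hcont _)]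
    apply cfc_congr
    intro t _
    simp only [f]; split_ifs <;> simp
  · rw [map_mul, map_mul, hχ]
    exact ((hx.map S.j).cfc_real f).eq
  · refine (sq_le_sq₀ (norm_nonneg _) hs.le).mp ?_
    rw [sq, ← CStarRing.norm_star_mul_self, star_mul, (hconj f χ hχ).1.star_eq, ← S.j_norm,
      show χ * star l * (l * χ) = χ * b * χ by rw [hb]; simp only [mul_assoc], (hconj f χ hχ).2]
    refine norm_cfc_le hs2.le (fun t ht => ?_)
    simp only [f]
    split_ifs with h
    · simpa [abs_of_nonneg (hnn t ht)] using h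
    · simpa using hs2.le
  · rw [mul_assoc, ← hb, map_sub, map_one, map_mul, hχ, hy]
    conv_rhs => rw [← hid]
    rw [hid]
    conv_rhs => enter [2]; rw [← hid]
    rw [← cfc_mul _ _ _ (hcont _) (hcont _), ← cfc_const_one ℝ (S.j b) hB,
      ← cfc_sub _ _ _ (hcont _) (hcont _)]
    apply cfc_congr
    intro t _
    simp only [f, g]
    split_ifs with h
    · simp
    · have : t ≠ 0 := by intro h0; rw [h0] at h; exact h hs2.le
      simp [this]
  · refine (sq_le_sq₀ (norm_nonneg _) (by positivity)).mp ?_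
    rw [sq, ← CStarRing.norm_self_mul_star, star_mul, star_star, (hconj g y hy).1.star_eq,
      ← S.j_norm, show y * star l * (l * y) = y * b * y by rw [hb]; simp only [mul_assoc],
      (hconj g y hy).2]
    refine norm_cfc_le (by positivity) (fun t ht => ?_)
    simp only [g]
    split_ifs with h
    · simp; positivity
    · push Not at h
      have ht0 : 0 < t := hs2.trans h
      rw [inv_mul_cancel₀ ht0.ne', one_mul, Real.norm_eq_abs, abs_of_pos (by positivity), inv_pow]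
      exact inv_anti₀ hs2 h.le

end Spec

end Crest.Agent.H7.Nai
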