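import Mathlib
import Crest.Agent.H7.NaiE

/-! Projections in the algebraic CAR algebra: standard chains, halving, excising sequences have
traces tending to zero. -/

set_option autoImplicit false
set_option linter.unusedSectionVars false

open scoped InnerProductSpace ComplexOrder
open Filter Topology Crest.OpAlg

namespace Crest.Agent.H7.Nai

section PI

variable {R : Type} [NormedRing R] [StarRing R] [CStarRing R] [NormedAlgebra ℂ R] [StarModule ℂ R]

theorem pi_right {v g : R} (hg : IsStarProjection g) (h : star v * v = g) : v * g = v := by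
  have h1 : star (v * (1 - g)) * (v * (1 - g)) = 0 := by
    rw [star_mul, hg.one_sub.isSelfAdjoint.star_eq, mul_assoc, ← mul_assoc (star v), h,
      hg.mul_one_sub_self, mul_zero]
  rw [CStarRing.star_mul_self_eq_zero_iff, mul_sub, mul_one, sub_eq_zero] at h1
  exact h1.symm

theorem pi_left {v g : R} (hg : IsStarProjection g) (h : v * star v = g) : g * v = v := by
  have := congrArg star (pi_right (v := star v) hg (by rw [star_star, h]))
  rwa [star_mul, star_star, hg.isSelfAdjoint.star_eq] at this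

theorem pi_add_aux {v w a' b' : R} (ha' : IsStarProjection a') (hb' : IsStarProjection b')
    (h2 : v * star v = a') (h4 : w * star w = b') (h : a' * b' = 0) : star v * w = 0 := by
  have e1 := pi_right (v := star v) ha' (by rw [star_star, h2])
  rw [← e1, ← pi_left hb' h4, mul_assoc, ← mul_assoc a', h, zero_mul, mul_zero]

theorem pi_add {v w a b a' b' : R} (ha : IsStarProjection a) (hb : IsStarProjection b)
    (ha' : IsStarProjection a') (hb' : IsStarProjection b')
    (h1 : star v * v = a) (h2 : v * star v = a') (h3 : star w * w = b) (h4 : w * star w = b')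
    (h : a * b = 0) (h' : a' * b' = 0) :
    star (v + w) * (v + w) = a + b ∧ (v + w) * star (v + w) = a' + b' := by
  have e1 := pi_add_aux ha' hb' h2 h4 h'
  have e2 : star w * v = 0 := by simpa using congrArg star e1
  have e3 : v * star w = 0 := by
    simpa using pi_add_aux (v := star v) (w := star w) ha hb (by rw [star_star, h1])
      (by rw [star_star, h3]) h
  have e4 : w * star v = 0 := by simpa using congrArg star e3
  constructor
  · rw [star_add, add_mul, mul_add, mul_add, h1, h3, e1, e2]; simp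
  · rw [star_add, add_mul, mul_add, mul_add, h2, h4, e3, e4]; simp

end PI

namespace Sys

variable {N M : Type} [NormedRing N] [StarRing N] [CStarRing N] [NormedAlgebra ℂ N]
  [StarModule ℂ N] [CStarAlgebra M] (S : Sys N M)

/-- The trace on `N`. -/
noncomputable def t : N →ₗ[ℂ] ℂ := S.τ ∘ₗ S.j.toLinearMap

theorem t_apply (x : N) : S.t x = S.τ (S.j x) := rfl

theorem isTr : IsTr S.τ := IsTr.of_faithful S.hτ

theorem t_comm (x y : N) : S.t (x * y) = S.t (y * x) := by
  rw [t_apply, t_apply, map_mul S.j, map_mul S.j, S.isTr.tr]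

theorem t_bound {e : N} (he : IsStarProjection e) (z : N) :
    ‖S.t (e * z * e)‖ ≤ ‖z‖ * (S.t e).re := by
  have := tr_bound S.isTr.pos (S.j e) (S.j z)
  rwa [← map_star, ← map_mul, ← map_mul, ← map_mul, he.isSelfAdjoint.star_eq,
    he.isIdempotentElem.eq, S.j_norm] at this

theorem t_nonneg {e : N} (he : IsStarProjection e) : 0 ≤ S.t e := by
  have := S.isTr.pos (S.j e)
  rwa [← map_star, ← map_mul, he.isSelfAdjoint.star_eq, he.isIdempotentElem.eq] at this

theorem t_re {e : N} (he : IsStarProjection e) : S.t e = ((S.t e).re : ℂ) :=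
  Complex.ext rfl (by simpa using (Complex.nonneg_iff.mp (S.t_nonneg he)).2.symm)

theorem t_re_nonneg {e : N} (he : IsStarProjection e) : 0 ≤ (S.t e).re :=
  (Complex.nonneg_iff.mp (S.t_nonneg he)).1

theorem t_re_pos {e : N} (he : IsStarProjection e) (h0 : e ≠ 0) : 0 < (S.t e).re := by
  refine lt_of_le_of_ne (S.t_re_nonneg he) (fun h => h0 ?_)
  apply S.j_inj
  rw [map_zero]
  apply S.hτ.2.2.1
  rw [← map_star, ← map_mul, he.isSelfAdjoint.star_eq, he.isIdempotentElem.eq, ← t_apply,
    S.t_re he, ← h, Complex.ofReal_zero]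

theorem t_mono {e f : N} (he : IsStarProjection e) (hf : IsStarProjection f) (h : f * e = e) :
    (S.t e).re ≤ (S.t f).re := by
  have := S.t_re_nonneg (he.sub_of_mul_eq_right hf h)
  rw [map_sub, Complex.sub_re] at this
  linarith

theorem Dg_proj (k : ℕ) (P : ℕ → Prop) [DecidablePred P] :
    IsStarProjection (S.Dg k (fun i => if P i then 1 else 0)) := by
  refine IsStarProjection.map ⟨?_, ?_⟩ (S.Dg k)
  · ext i; simp only [Pi.mul_apply]; split_ifs <;> simp
  · ext i; simp only [Pi.star_apply]; split_ifs <;> simp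

/-- Diagonal matrix units. -/
noncomputable def T (n i : ℕ) : N := S.Dg n (Pi.single i 1)

theorem T_eq (n i : ℕ) : S.T n i = S.Dg n (fun l => if l = i then 1 else 0) := by
  rw [T]; congr 1; ext l; simp [Pi.single_apply]

theorem T_proj (n i : ℕ) : IsStarProjection (S.T n i) := by
  rw [T_eq]; exact S.Dg_proj n _

theorem T_tr {n i : ℕ} (h : i < 2 ^ n) : S.t (S.T n i) = 1 / 2 ^ n := by
  rw [t_apply, T_eq, S.Dg_tr]
  simp [h]

theorem T_ne {n i : ℕ} (h : i < 2 ^ n) : S.T n i ≠ 0 := by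
  intro h0
  have := S.T_tr h
  rw [h0, map_zero] at this
  exact absurd this.symm (by positivity)

theorem T_split (n i : ℕ) : S.T n i = S.T (n + 1) (2 * i) + S.T (n + 1) (2 * i + 1) := by
  rw [T_eq, T_eq, T_eq, S.Dg_succ, ← map_add]
  congr 1
  ext l
  simp only [Pi.add_apply]
  split_ifs <;> first | omega | simp

theorem T_le (n i : ℕ) : S.T n (i / 2) * S.T (n + 1) i = S.T (n + 1) i := by
  rw [T_eq, T_eq, S.Dg_succ, ← map_mul]
  congr 1
  ext l
  simp only [Pi.mul_apply]
  split_ifs <;> first | omega | simp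

theorem T_zero : S.T 0 0 = 1 := by
  rw [T_eq, ← map_one (S.Dg 0)]
  refine S.Dg_congr _ _ _ (fun i hi => ?_)
  have : i = 0 := by omega
  simp [this]

theorem branch (s : ℕ → ℕ) (h1 : ∀ n, s (n + 1) / 2 = s n) (h2 : ∀ n, s n < 2 ^ n) :
    ExcSeq (fun n => S.T n (s n)) := by
  refine ⟨⟨fun n => S.T_proj _ _, fun n => ?_⟩, fun n => S.T_ne (h2 n), fun a ε hε => ?_⟩
  · rw [← h1 n]; exact S.T_le _ _
  · obtain ⟨k, hk⟩ := S.exc a
    obtain ⟨c, hc⟩ := hk (s k)
    refine ⟨c, k, ?_⟩
    rw [T, hc, sub_self, norm_zero]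
    exact hε.le

/-- The base sequence. -/
noncomputable def p (n : ℕ) : N := S.T n 0

theorem p_exc : ExcSeq S.p := S.branch (fun _ => 0) (fun _ => rfl) (fun _ => by positivity)

/-- Standard projections. -/
noncomputable def St (k : ℕ) (x : ℝ) : N := S.Dg k (fun i => if (i : ℝ) < x * 2 ^ k then 1 else 0)

theorem St_proj (k : ℕ) (x : ℝ) : IsStarProjection (S.St k x) := S.Dg_proj k _

theorem St_mono (k : ℕ) {x y : ℝ} (h : x ≤ y) : S.St k y * S.St k x = S.St k x := by
  rw [St, St, ← map_mul]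
  congr 1
  ext l
  simp only [Pi.mul_apply]
  have : x * 2 ^ k ≤ y * 2 ^ k := by gcongr
  split_ifs <;> first | linarith | simp

theorem St_succ {k r : ℕ} {x : ℝ} (h : x * 2 ^ k = r) : S.St (k + 1) x = S.St k x := by
  rw [St, St, S.Dg_succ k]
  congr 1
  ext l
  have h2 : x * 2 ^ (k + 1) = ((2 * r : ℕ) : ℝ) := by rw [pow_succ, ← mul_assoc, h]; push_cast; ring
  rw [h, h2]
  simp only [Nat.cast_lt]
  split_ifs <;> first | omega | simp

theorem St_tr {k r : ℕ} {x : ℝ} (h : x * 2 ^ k = r) (hr : r ≤ 2 ^ k) :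
    S.t (S.St k x) = (r : ℂ) / 2 ^ k := by
  rw [t_apply, St, S.Dg_tr, h]
  simp only [Nat.cast_lt]
  rw [Finset.sum_boole]
  congr 2
  rw [show (Finset.range (2 ^ k)).filter (fun i => i < r) = Finset.range r by
    ext i; simp only [Finset.mem_filter, Finset.mem_range]; omega]
  simp

/-- `d` is the standard projection of trace `x`. -/
def IsStd (d : N) (x : ℝ) : Prop := ∀ᶠ k in atTop, d = S.St k x

theorem isStd_St {k r : ℕ} {x : ℝ} (h : x * 2 ^ k = r) : S.IsStd (S.St k x) x := by
  have : ∀ m, k ≤ m → (∃ r : ℕ, x * 2 ^ m = r) ∧ S.St k x = S.St m x := by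
    intro m hm
    induction m, hm using Nat.le_induction with
    | base => exact ⟨⟨r, h⟩, rfl⟩
    | succ m _ ih =>
      obtain ⟨⟨r', hr'⟩, ih⟩ := ih
      exact ⟨⟨2 * r', by rw [pow_succ, ← mul_assoc, hr']; push_cast; ring⟩,
        by rw [S.St_succ hr', ih]⟩
  filter_upwards [eventually_ge_atTop k] with m hm
  exact (this m hm).2

variable {S} in
theorem IsStd.le {d d' : N} {x x' : ℝ} (h : S.IsStd d x) (h' : S.IsStd d' x') (hx : x ≤ x') :
    d' * d = d := by
  obtain ⟨k, h1, h2⟩ := (h.and h').exists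
  rw [h1, h2, S.St_mono k hx]

theorem p_std (n : ℕ) : S.IsStd (S.p n) (1 / 2 ^ n) := by
  have h : (1 / 2 ^ n : ℝ) * 2 ^ n = (1 : ℕ) := by field_simp; simp
  have : S.p n = S.St n (1 / 2 ^ n) := by
    rw [p, T_eq, St, h]
    congr 1
    ext l
    simp only [Nat.cast_lt]
    split_ifs <;> first | omega | simp
  rw [this]
  exact S.isStd_St h

theorem trp' {e : N} (he : IsStarProjection e) :
    ∃ k r : ℕ, r ≤ 2 ^ k ∧ S.t e = (r : ℂ) / 2 ^ k ∧ (S.t e).re * 2 ^ k = r := by
  obtain ⟨k, r, hr, h⟩ := S.trp e he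
  refine ⟨k, r, hr, h, ?_⟩
  rw [t_apply, h, show (r : ℂ) / 2 ^ k = (((r : ℝ) / 2 ^ k : ℝ) : ℂ) by push_cast; rfl,
    Complex.ofReal_re]
  field_simp

theorem exists_std {e : N} (he : IsStarProjection e) :
    ∃ d, IsStarProjection d ∧ S.t d = S.t e ∧ S.IsStd d (S.t e).re := by
  obtain ⟨k, r, hr, h, h'⟩ := S.trp' he
  exact ⟨S.St k (S.t e).re, S.St_proj _ _, by rw [S.St_tr h' hr, h], S.isStd_St h'⟩

theorem halve {e : N} (he : IsStarProjection e) :
    ∃ f, IsStarProjection f ∧ e * f = f ∧ S.t f = S.t e / 2 := by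
  obtain ⟨k, r, hr, h, h'⟩ := S.trp' he
  set x := (S.t e).re with hx
  have hx0 : 0 ≤ x := S.t_re_nonneg he
  have h2 : x / 2 * 2 ^ (k + 1) = r := by rw [← h', pow_succ]; ring
  have hle : S.St k x * S.St (k + 1) (x / 2) = S.St (k + 1) (x / 2) := by
    rw [← S.St_succ h']; exact S.St_mono _ (by linarith)
  have hd := S.St_proj k x
  have hd' := S.St_proj (k + 1) (x / 2)
  have hle' := proj_le' hd' hd hle
  obtain ⟨v, hv1, hv2⟩ := S.equiv _ _ hd he (by rw [← t_apply, ← t_apply, S.St_tr h' hr, h])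
  refine ⟨v * S.St (k + 1) (x / 2) * star v, ⟨?_, ?_⟩, ?_, ?_⟩
  · show _ * _ = _
    calc _ = v * (S.St (k + 1) (x / 2) * (star v * v) * S.St (k + 1) (x / 2)) * star v := by
          simp only [mul_assoc]
      _ = _ := by rw [hv1, hle', hd'.isIdempotentElem.eq]
  · show star _ = _
    rw [star_mul, star_mul, star_star, hd'.isSelfAdjoint.star_eq, mul_assoc]
  · rw [← mul_assoc, ← mul_assoc, pi_left he hv2]
  · rw [t_comm, ← mul_assoc, hv1, hle, S.St_tr h2 (by omega), h, pow_succ]
    field_simp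

theorem excSeq_small {e : ℕ → N} (he : ExcSeq e) {ε : ℝ} (hε : 0 < ε) :
    ∃ n, (S.t (e n)).re < ε := by
  by_contra hcon
  push Not at hcon
  have hbdd : BddBelow (Set.range fun n => (S.t (e n)).re) :=
    ⟨ε, by rintro _ ⟨n, rfl⟩; exact hcon n⟩
  obtain ⟨n, hn⟩ := exists_lt_of_ciInf_lt
    (show (⨅ n, (S.t (e n)).re) < (⨅ n, (S.t (e n)).re) + ε / 100 by linarith)
  obtain ⟨f, hf, hef, hft⟩ := S.halve (he.proj n)
  obtain ⟨c, m₀, hc⟩ := (he.exc f).ev he.toDec (show (0 : ℝ) < 1 / 100 by norm_num)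
  have hc := hc (max n m₀) (le_max_right _ _)
  have hinf : (⨅ n, (S.t (e n)).re) ≤ (S.t (e (max n m₀))).re := ciInf_le hbdd _
  have hεT := hcon (max n m₀)
  have hE := he.proj (max n m₀)
  have hle := he.toDec.le (le_max_left n m₀)
  set E := e (max n m₀) with hEdef
  set F := e n with hFdef
  have hF : IsStarProjection F := he.proj n
  have hg : IsStarProjection (F - E) := hE.sub_of_mul_eq_right hF hle
  set g := F - E with hgdef
  have hEE := hE.isIdempotentElem.eq
  have hgg := hg.isIdempotentElem.eq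
  have hff := hf.isIdempotentElem.eq
  have hfe := proj_le' hf hF hef
  set T := (S.t E).re with hT
  set d := (S.t g).re with hd
  have hd0 : 0 ≤ d := S.t_re_nonneg hg
  have hdT : d ≤ T / 100 := by
    rw [hd, hgdef, map_sub, Complex.sub_re]; linarith
  have hTpos : 0 < T := by linarith
  have hFt : S.t F = ((T + d : ℝ) : ℂ) := by
    rw [S.t_re hF, hd, hgdef, map_sub, Complex.sub_re]; congr 1; ring
  have hcyc : ∀ (x y : N), IsStarProjection x → S.t (x * y * x) = S.t (x * y) := by
    intro x y hx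
    rw [t_comm, ← mul_assoc, hx.isIdempotentElem.eq]
  -- (1)
  have h1 : ‖S.t (E * f * E) - c * T‖ ≤ 1 / 100 * T := by
    have : S.t (E * f * E) - c * T = S.t (E * (E * f * E - c • E) * E) := by
      rw [mul_sub, sub_mul, mul_smul_comm, smul_mul_assoc, hEE, hEE, ← mul_assoc, ← mul_assoc,
        hEE, mul_assoc (E * f), hEE, map_sub, map_smul, smul_eq_mul, hT, ← S.t_re hE]
    rw [this]
    exact (S.t_bound hE _).trans (mul_le_mul_of_nonneg_right hc hTpos.le)
  -- (2)
  have h2 : ‖S.t (E * f * E) - (((T + d) / 2 : ℝ) : ℂ)‖ ≤ d := by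
    have h21 : S.t f = S.t (E * f * E) + S.t (g * f * g) := by
      rw [hcyc _ _ hE, hcyc _ _ hg, ← map_add, ← add_mul, hgdef, add_sub_cancel, hef]
    have h22 : S.t (E * f * E) - (((T + d) / 2 : ℝ) : ℂ) = -S.t (g * f * g) := by
      rw [hft, hFt] at h21
      push_cast at h21 ⊢
      linear_combination -h21
    rw [h22, norm_neg]
    exact (S.t_bound hg f).trans (mul_le_of_le_one_left hd0 (hf.norm_le f))
  -- (3)
  have h3 : ‖S.t (E * f * E) - S.t (E * (E * f * E * (E * f * E)) * E)‖ ≤ d := by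
    have h31 : E * (E * f * E * (E * f * E)) * E = E * f * E * f * E := by
      calc _ = (E * E) * f * (E * E) * f * (E * E) := by simp only [mul_assoc]
        _ = _ := by rw [hEE]
    have h32 : E * f * E - E * f * E * f * E = (E * f * g) * (g * f * E) := by
      calc _ = E * (f * F * f) * E - E * f * E * f * E := by rw [hfe, hff]
        _ = E * f * g * f * E := by rw [hgdef]; noncomm_ring
        _ = E * f * (g * g) * f * E := by rw [hgg]
        _ = _ := by simp only [mul_assoc]
    have h33 : (g * f * E) * (E * f * g) = g * (f * E * f) * g := by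
      calc _ = g * f * (E * E) * f * g := by simp only [mul_assoc]
        _ = _ := by rw [hEE]; simp only [mul_assoc]
    rw [h31, ← map_sub, h32, t_comm, h33]
    refine (S.t_bound hg _).trans (mul_le_of_le_one_left hd0 ?_)
    exact (norm_mul_proj _ hf).trans ((norm_mul_proj _ hE).trans (hf.norm_le f))
  -- (4)
  have h4 : ‖E * f * E‖ ≤ ‖c‖ + 1 / 100 := by
    have h41 : ‖c • E‖ ≤ ‖c‖ := by
      rw [norm_smul]; exact mul_le_of_le_one_right (norm_nonneg _) (hE.norm_le E)
    have := norm_sub_norm_le (E * f * E) (c • E)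
    linarith
  have h5 : ‖S.t (E * (E * f * E * (E * f * E)) * E)‖ ≤ (‖c‖ + 1 / 100) ^ 2 * T := by
    refine (S.t_bound hE _).trans (mul_le_mul_of_nonneg_right ?_ hTpos.le)
    refine (norm_mul_le _ _).trans ?_
    rw [sq]
    exact mul_le_mul h4 h4 (norm_nonneg _) (by positivity)
  set X := S.t (E * f * E)
  set Y := S.t (E * (E * f * E * (E * f * E)) * E)
  have hn1 : ‖(((T + d) / 2 : ℝ) : ℂ)‖ = (T + d) / 2 := by
    rw [Complex.norm_real, Real.norm_eq_abs, abs_of_nonneg (by positivity)]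
  have hn2 : ‖c * T‖ = ‖c‖ * T := by
    rw [norm_mul, Complex.norm_real, Real.norm_eq_abs, abs_of_pos hTpos]
  have a1 := abs_norm_sub_norm_le X (((T + d) / 2 : ℝ) : ℂ)
  have a2 := abs_norm_sub_norm_le X (c * T)
  have a3 := norm_sub_norm_le X Y
  rw [hn1] at a1
  rw [hn2] at a2
  have b1 := abs_le.mp (a1.trans h2)
  have b2 := abs_le.mp (a2.trans h1)
  have hc1 : ‖c‖ * T ≤ 0.525 * T := by linarith [b1.2, b2.1]
  have hc2 : ‖c‖ ≤ 0.525 := le_of_mul_le_mul_right hc1 hTpos
  have hc3 : (‖c‖ + 1 / 100) ^ 2 ≤ 0.3 := by nlinarith [norm_nonneg c]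
  have hc4 : (‖c‖ + 1 / 100) ^ 2 * T ≤ 0.3 * T := by gcongr
  linarith [b1.1]

theorem unitary_ext {e g g' : N} (he : IsStarProjection e) (hg : IsStarProjection g)
    (hg' : IsStarProjection g') (h1 : e * g = g) (h2 : e * g' = g') (ht : S.t g = S.t g') :
    ∃ z ∈ unitary N, z * (1 - e) = 1 - e ∧ z * g * star z = g' := by
  have hb := hg.sub_of_mul_eq_right he h1
  have hb' := hg'.sub_of_mul_eq_right he h2
  obtain ⟨v, hv1, hv2⟩ := S.equiv _ _ hg hg' ht
  obtain ⟨w, hw1, hw2⟩ := S.equiv _ _ hb hb' (by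
    rw [← t_apply, ← t_apply, map_sub, map_sub, ht])
  have o1 : g * (e - g) = 0 := by
    rw [mul_sub, proj_le' hg he h1, hg.isIdempotentElem.eq, sub_self]
  have o1' : (e - g) * g = 0 := by rw [sub_mul, h1, hg.isIdempotentElem.eq, sub_self]
  have o2 : g' * (e - g') = 0 := by
    rw [mul_sub, proj_le' hg' he h2, hg'.isIdempotentElem.eq, sub_self]
  obtain ⟨k1, k2⟩ := pi_add hg hb hg' hb' hv1 hv2 hw1 hw2 o1 o2
  rw [add_sub_cancel] at k1 k2
  have hs := he.one_sub.isSelfAdjoint.star_eq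
  have hi := he.one_sub.isIdempotentElem.eq
  obtain ⟨k3, k4⟩ := pi_add (w := 1 - e) he he.one_sub he he.one_sub k1 k2 (by rw [hs, hi])
    (by rw [hs, hi]) he.mul_one_sub_self he.mul_one_sub_self
  rw [add_sub_cancel] at k3 k4
  have hzg : (v + w + (1 - e)) * g = v := by
    rw [add_mul, add_mul, pi_right hg hv1, ← pi_right hb hw1, mul_assoc, o1', sub_mul, h1]
    simp
  refine ⟨v + w + (1 - e), ⟨k3, k4⟩, ?_, ?_⟩
  · rw [add_mul, hi, ← pi_right he k1, mul_assoc, he.mul_one_sub_self]; simp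
  · have : (v + w + (1 - e)) * g * star (v + w + (1 - e))
        = ((v + w + (1 - e)) * g) * star ((v + w + (1 - e)) * g) := by
      rw [star_mul, hg.isSelfAdjoint.star_eq, mul_assoc, mul_assoc, ← mul_assoc g g,
        hg.isIdempotentElem.eq]
    rw [this, hzg, hv2]

end Sys

end Crest.Agent.H7.Nai
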