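import Mathlib
import Crest.Agent.H7.NaiF

/-! Shell unitaries, the maximal family, and auxiliary facts for simplicity. -/

set_option autoImplicit false
set_option linter.unusedSectionVars false

open scoped InnerProductSpace ComplexOrder
open Filter Topology Crest.OpAlg

namespace Crest.Agent.H7.Nai

theorem Dec.map {R R' : Type} [NormedRing R] [StarRing R] [NormedAlgebra ℂ R]
    [NormedRing R'] [StarRing R'] [NormedAlgebra ℂ R'] {e : ℕ → R} (h : Dec e)
    (φ : R →⋆ₐ[ℂ] R') : Dec (fun n => φ (e n)) :=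
  ⟨fun n => (h.proj n).map φ, fun n => by rw [← map_mul, h.succ]⟩

theorem norm_unitary_le {M : Type} [CStarAlgebra M] {u : M} (hu : u ∈ unitary M) : ‖u‖ ≤ 1 := by
  have h1 : ‖u‖ * ‖u‖ ≤ 1 := by
    rw [← CStarRing.norm_star_mul_self, hu.1]
    exact IsStarProjection.norm_le _ (.one _)
  nlinarith [norm_nonneg u]

namespace Sys

variable {N M : Type} [NormedRing N] [StarRing N] [CStarRing N] [NormedAlgebra ℂ N]
  [StarModule ℂ N] [CStarAlgebra M] (S : Sys N M)

/-- The base sequence in the ambient algebra. -/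
noncomputable def P (n : ℕ) : M := S.j (S.p n)

theorem P_dec : Dec S.P := S.p_exc.toDec.map S.j

/-- Shell unitaries. -/
def Cand (u : M) : Prop := u ∈ unitary M ∧ ∀ m, ∃ x, u * (1 - S.P m) = S.j x

theorem exists_cand {e : ℕ → N} (he : ExcSeq e) : ∃ u, S.Cand u ∧
    (∀ n, ∃ m, S.j (e n) * (u * S.P m) = u * S.P m) ∧
    (∀ m, ∃ n, S.P m * (star u * S.j (e n)) = star u * S.j (e n)) := by
  choose d hd hdt hds using fun n => S.exists_std (he.proj n)
  have hdec : Dec d := ⟨hd, fun n => (hds (n + 1)).le (hds n)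
    (S.t_mono (he.proj _) (he.proj _) (he.succ n))⟩
  let X : ℕ → Type := fun n => {W : N // W ∈ unitary N ∧ W * d n * star W = e n}
  have hstep : ∀ n (x : X n), ∃ y : X (n + 1), y.1 * (1 - d n) = x.1 * (1 - d n) := by
    rintro n ⟨W, hW, hWe⟩
    have hp : IsStarProjection (W * d (n + 1) * star W) := by
      refine ⟨?_, ?_⟩
      · show _ * _ = _
        calc _ = W * (d (n + 1) * (star W * W) * d (n + 1)) * star W := by simp only [mul_assoc]
          _ = _ := by rw [hW.1, mul_one, (hd _).isIdempotentElem.eq]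
      · show star _ = _
        rw [star_mul, star_mul, star_star, (hd _).isSelfAdjoint.star_eq, mul_assoc]
    obtain ⟨z, hz, hz1, hz2⟩ := S.unitary_ext (he.proj n) hp (he.proj (n + 1)) (by
      rw [← hWe]
      calc _ = W * (d n * (star W * W) * d (n + 1)) * star W := by simp only [mul_assoc]
        _ = _ := by rw [hW.1, mul_one, hdec.succ]) (he.succ n) (by
      rw [t_comm, ← mul_assoc, hW.1, one_mul, hdt])
    refine ⟨⟨z * W, mul_mem hz hW, ?_⟩, ?_⟩
    · rw [← hz2, star_mul]; simp only [mul_assoc]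
    · have : W * (1 - d n) = (1 - e n) * W := by
        rw [← hWe, mul_sub, sub_mul, mul_assoc _ (star W), hW.1]; simp
      show z * W * (1 - d n) = W * (1 - d n)
      rw [mul_assoc, this, ← mul_assoc, hz1]
  choose F hF using hstep
  obtain ⟨z₀, hz₀, -, hz₀'⟩ := S.unitary_ext (.one N) (hd 0) (he.proj 0) (one_mul _) (one_mul _)
    (hdt 0)
  let W : ∀ n, X n := fun n => Nat.rec (motive := X) ⟨z₀, hz₀, hz₀'⟩ F n
  have hWs : ∀ n, (W (n + 1)).1 * (1 - d n) = (W n).1 * (1 - d n) := fun n => hF n (W n)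
  have hWm : ∀ n m, n ≤ m → (W m).1 * (1 - d n) = (W n).1 * (1 - d n) := by
    intro n m h
    induction m, h using Nat.le_induction with
    | base => rfl
    | succ m h ih =>
      have : (1 - d m) * (1 - d n) = 1 - d n := by
        rw [sub_mul, one_mul, mul_sub, hdec.le' h]; simp
      rw [← ih, ← this, ← mul_assoc, hWs, mul_assoc]
  obtain ⟨u, hu, hu'⟩ := S.amb (fun n => (W n).1) (fun n => (W n).2.1)
  have h1 : ∀ n, u * (1 - S.j (d n)) = S.j ((W n).1 * (1 - d n)) := by
    intro n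
    have := hu' (1 - d n) ((W n).1 * (1 - d n)) (by
      filter_upwards [eventually_ge_atTop n] with m hm
      exact hWm n m hm)
    rwa [map_sub, map_one] at this
  have h2 : ∀ n, u * S.j (d n) * star u = S.j (e n) := by
    intro n
    have hp := ((hd n).map S.j).one_sub
    have h3 : (u * (1 - S.j (d n))) * star (u * (1 - S.j (d n)))
        = 1 - u * S.j (d n) * star u := by
      rw [star_mul, hp.isSelfAdjoint.star_eq, mul_assoc, ← mul_assoc (1 - S.j (d n)),
        hp.isIdempotentElem.eq, ← mul_assoc, mul_sub, sub_mul, mul_one, hu.2]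
    have h4 : ((W n).1 * (1 - d n)) * star ((W n).1 * (1 - d n)) = 1 - e n := by
      rw [star_mul, (hd n).one_sub.isSelfAdjoint.star_eq, mul_assoc, ← mul_assoc (1 - d n),
        (hd n).one_sub.isIdempotentElem.eq, ← mul_assoc, mul_sub, sub_mul, mul_one,
        (W n).2.1.2, (W n).2.2]
    rw [h1, ← map_star, ← map_mul, h4, map_sub, map_one] at h3
    exact (sub_right_injective h3).symm
  have h5 : ∀ n, S.j (e n) * u = u * S.j (d n) := fun n => by
    rw [← h2, mul_assoc, hu.1, mul_one]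
  have h6 : ∀ n, star u * S.j (e n) = S.j (d n) * star u := fun n => by
    rw [← h2, ← mul_assoc, ← mul_assoc, hu.1, one_mul]
  have h7 : ∀ m, ∃ n, S.p m * d n = d n := by
    intro m
    obtain ⟨n, hn⟩ := S.excSeq_small he (show (0 : ℝ) < 1 / 2 ^ m by positivity)
    exact ⟨n, (hds n).le (S.p_std m) hn.le⟩
  refine ⟨u, ⟨hu, fun m => ?_⟩, fun n => ?_, fun m => ?_⟩
  · obtain ⟨n, hn⟩ := h7 m
    have hn' := proj_le' (hd n) (S.p_exc.proj m) hn
    refine ⟨(W n).1 * (1 - d n) * (1 - S.p m), ?_⟩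
    rw [map_mul, ← h1, mul_assoc, P, ← map_one S.j, ← map_sub, ← map_sub, ← map_mul]
    congr 2
    rw [sub_mul, one_mul, mul_sub, hn']; simp
  · have hpos := S.t_re_pos (he.proj n) (he.ne n)
    obtain ⟨m, hm⟩ := exists_pow_lt_of_lt_one hpos (show (1 / 2 : ℝ) < 1 by norm_num)
    refine ⟨m, ?_⟩
    rw [← mul_assoc, h5, mul_assoc, P, ← map_mul,
      (S.p_std m).le (hds n) (by rw [one_div_pow] at hm; exact hm.le)]
  · obtain ⟨n, hn⟩ := h7 m
    exact ⟨n, by rw [h6, ← mul_assoc, P, ← map_mul, hn]⟩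

/-- Admissible families of shell unitaries. -/
def Adm (U : Set M) : Prop :=
  (∀ u ∈ U, S.Cand u) ∧ ∀ u ∈ U, ∀ u' ∈ U, ∀ a, Exc S.P (star u' * S.j a * u)

theorem exists_max : ∃ U : Set M, 1 ∈ U ∧ S.Adm U ∧ ∀ e, ExcSeq e → ∃ u ∈ U, ∃ a, ∃ δ : ℝ,
    0 < δ ∧ ∀ n, δ ≤ ‖S.P n * star u * S.j a * S.j (e n)‖ := by
  have h1 : S.Adm {1} := by
    refine ⟨?_, ?_⟩
    · rintro u rfl
      exact ⟨one_mem _, fun m => ⟨1 - S.p m, by simp [P]⟩⟩
    · rintro u rfl u' rfl a ε hε
      obtain ⟨c, n, hc⟩ := S.p_exc.exc a ε hε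
      refine ⟨c, n, ?_⟩
      rw [← S.j_norm] at hc
      simpa [P] using hc
  obtain ⟨U, hU1, hU⟩ := zorn_subset_nonempty {U | S.Adm U} (by
    intro c hc hchain _
    refine ⟨⋃₀ c, ⟨?_, ?_⟩, fun s hs => Set.subset_sUnion_of_mem hs⟩
    · rintro u ⟨s, hs, hu⟩
      exact (hc hs).1 u hu
    · rintro u ⟨s, hs, hu⟩ u' ⟨s', hs', hu'⟩
      rcases hchain.total hs hs' with h | h
      · exact (hc hs').2 u (h hu) u' hu'
      · exact (hc hs).2 u hu u' (h hu')) {1} h1
  refine ⟨U, hU1 rfl, hU.prop, fun e he => ?_⟩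
  by_contra hcon
  push Not at hcon
  obtain ⟨v, hv, hv1, hv2⟩ := S.exists_cand he
  have hE := he.toDec.map S.j
  have hP := S.P_dec
  have hv1' : ∀ n, ∃ m₀, ∀ m, m₀ ≤ m → S.j (e n) * (v * S.P m) = v * S.P m := by
    intro n
    obtain ⟨m₀, hm₀⟩ := hv1 n
    refine ⟨m₀, fun m hm => ?_⟩
    rw [← hP.le hm, ← mul_assoc v, ← mul_assoc, hm₀]
  have hvP : ∀ m, ‖v * S.P m‖ ≤ 1 := fun m =>
    (norm_mul_proj _ (hP.proj m)).trans (norm_unitary_le hv.1)
  have hcross : ∀ u ∈ U, ∀ a, Exc S.P (star u * S.j a * v) := by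
    intro u hu a ε hε
    obtain ⟨n, hn⟩ := hcon u hu a ε hε
    obtain ⟨m₀, hm₀⟩ := hv1' n
    refine ⟨0, max n m₀, ?_⟩
    have h2 : S.P (max n m₀) * (star u * S.j a * v) * S.P (max n m₀)
        = S.P (max n m₀) * (star u * S.j a * S.j (e n)) * (v * S.P (max n m₀)) := by
      simp only [mul_assoc]
      rw [hm₀ _ (le_max_right _ _)]
    rw [zero_smul, sub_zero, h2]
    refine (norm_mul_le _ _).trans ?_
    refine (mul_le_of_le_one_right (norm_nonneg _) (hvP _)).trans ?_
    refine (hP.norm_mul' _ (le_max_left _ _)).trans ?_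
    simpa only [mul_assoc] using hn.le
  have hself : ∀ a, Exc S.P (star v * S.j a * v) := by
    intro a ε hε
    obtain ⟨c, n, hc⟩ := he.exc a ε hε
    obtain ⟨m, hm⟩ := hv1 n
    refine ⟨c, m, ?_⟩
    have hm' : star (v * S.P m) * S.j (e n) = star (v * S.P m) := by
      have := congrArg star hm
      rwa [star_mul, (hE.proj n).isSelfAdjoint.star_eq] at this
    have h3 : star (v * S.P m) * (v * S.P m) = S.P m := by
      rw [star_mul, (hP.proj m).isSelfAdjoint.star_eq, mul_assoc, ← mul_assoc (star v), hv.1.1,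
        one_mul, (hP.proj m).isIdempotentElem.eq]
    have h2 : S.P m * (star v * S.j a * v) * S.P m - c • S.P m
        = star (v * S.P m) * S.j (e n * a * e n - c • e n) * (v * S.P m) := by
      rw [map_sub, map_smul, map_mul, map_mul, mul_sub, sub_mul, mul_smul_comm, smul_mul_assoc,
        hm', h3]
      congr 1
      calc _ = star (v * S.P m) * S.j a * (v * S.P m) := by
            rw [star_mul, (hP.proj m).isSelfAdjoint.star_eq]; simp only [mul_assoc]
        _ = (star (v * S.P m) * S.j (e n)) * S.j a * (S.j (e n) * (v * S.P m)) := by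
            rw [hm, hm']
        _ = _ := by simp only [mul_assoc]
    rw [h2]
    refine (norm_mul_le _ _).trans ?_
    refine (mul_le_of_le_one_right (norm_nonneg _) (hvP _)).trans ?_
    refine (norm_mul_le _ _).trans ?_
    rw [norm_star, S.j_norm]
    exact (mul_le_of_le_one_left (norm_nonneg _) (hvP _)).trans hc
  have hadm : S.Adm (insert v U) := by
    refine ⟨?_, ?_⟩
    · rintro u (rfl | hu)
      · exact hv
      · exact hU.prop.1 u hu
    · rintro u (rfl | hu) u' (rfl | hu') a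
      · exact hself a
      · exact hcross u' hu' a
      · have := (hcross u hu (star a)).star hP
        rwa [star_mul, star_mul, star_star, ← map_star, star_star, ← mul_assoc] at this
      · exact hU.prop.2 u hu u' hu' a
  have hvU : v ∈ U := hU.le_of_ge hadm (Set.subset_insert _ _) (Set.mem_insert _ _)
  obtain ⟨n, hn⟩ := hcon v hvU 1 1 one_pos
  obtain ⟨n', hn'⟩ := hv2 n
  have h4 : S.P n * (star v * S.j (e (max n n'))) = star v * S.j (e (max n n')) := by
    rw [← hE.le (le_max_right n n'), ← mul_assoc (star v), ← mul_assoc, hn']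
  have h5 : ‖S.P n * star v * S.j (e (max n n'))‖ < 1 := by
    refine lt_of_le_of_lt (hE.norm_mul _ (le_max_left n n')) ?_
    simpa using hn
  rw [mul_assoc, h4] at h5
  have h6 : S.j (e (max n n')) = v * (star v * S.j (e (max n n'))) := by
    rw [← mul_assoc, hv.1.2, one_mul]
  have h7 : ‖S.j (e (max n n'))‖ = 1 := by
    rw [S.j_norm, norm_proj_eq (he.proj _) (he.ne _)]
  rw [h6] at h7
  have h8 := (norm_mul_le v (star v * S.j (e (max n n')))).trans
    (mul_le_of_le_one_left (norm_nonneg _) (norm_unitary_le hv.1))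
  linarith

theorem greedy {y : M} (hy : y ≠ 0) :
    ∃ e, ExcSeq e ∧ ∃ δ : ℝ, 0 < δ ∧ ∀ n, δ ≤ ‖y * S.j (e n)‖ := by
  let ρ : ℕ → ℕ → ℝ := fun n i => (S.τ (star y * y * S.j (S.T n i))).re
  have hρ : ∀ n i, ρ n i = ρ (n + 1) (2 * i) + ρ (n + 1) (2 * i + 1) := by
    intro n i
    simp only [ρ]
    rw [S.T_split n i, map_add, mul_add, map_add, Complex.add_re]
  have h0 : 0 < ρ 0 0 := by
    simp only [ρ]
    rw [S.T_zero, map_one, mul_one]
    refine lt_of_le_of_ne (S.hτ.2.1 y).2 (fun h => hy (S.hτ.2.2.1 y ?_))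
    exact Complex.ext h.symm (S.hτ.2.1 y).1
  have hstep : ∀ n i, ∃ i', i' / 2 = i ∧ ρ n i / 2 ≤ ρ (n + 1) i' := by
    intro n i
    have := hρ n i
    rcases le_total (ρ (n + 1) (2 * i)) (ρ (n + 1) (2 * i + 1)) with h | h
    · exact ⟨2 * i + 1, by omega, by linarith⟩
    · exact ⟨2 * i, by omega, by linarith⟩
  choose F hF1 hF2 using hstep
  let s : ℕ → ℕ := fun n => Nat.rec 0 F n
  have hs : ∀ n, s (n + 1) = F n (s n) := fun _ => rfl
  have hs1 : ∀ n, s (n + 1) / 2 = s n := fun n => hF1 n (s n)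
  have hs2 : ∀ n, s n < 2 ^ n := by
    intro n
    induction n with
    | zero => exact Nat.one_pos
    | succ n ih => have := hs1 n; omega
  have hs3 : ∀ n, ρ 0 0 / 2 ^ n ≤ ρ n (s n) := by
    intro n
    induction n with
    | zero => simp [s]
    | succ n ih =>
      have := hF2 n (s n)
      rw [hs, pow_succ, ← div_div]
      linarith
  refine ⟨_, S.branch s hs1 hs2, √(ρ 0 0), Real.sqrt_pos.mpr h0, fun n => ?_⟩
  set E := S.j (S.T n (s n)) with hE
  have hEp : IsStarProjection E := (S.T_proj _ _).map S.j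
  have h1 := tr_bound S.isTr.pos E (star (y * E) * (y * E))
  have h2 : S.τ (star E * (star (y * E) * (y * E)) * E) = S.τ (star y * y * E) := by
    rw [star_mul, hEp.isSelfAdjoint.star_eq]
    calc _ = S.τ ((E * E) * (star y * y * (E * E))) := by simp only [mul_assoc]
      _ = _ := by
        rw [hEp.isIdempotentElem.eq, S.isTr.tr, mul_assoc _ E, hEp.isIdempotentElem.eq]
  have h3 : (S.τ (star E * E)).re = 1 / 2 ^ n := by
    rw [hEp.isSelfAdjoint.star_eq, hEp.isIdempotentElem.eq, hE, ← t_apply, S.T_tr (hs2 n),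
      show (1 / 2 ^ n : ℂ) = ((1 / 2 ^ n : ℝ) : ℂ) by push_cast; rfl, Complex.ofReal_re]
  rw [h2, h3, CStarRing.norm_star_mul_self] at h1
  have h4 : ρ n (s n) ≤ ‖S.τ (star y * y * E)‖ := Complex.re_le_norm _
  have h5 := (hs3 n).trans (h4.trans h1)
  rw [mul_one_div, div_le_div_iff_of_pos_right (by positivity)] at h5
  exact Real.sqrt_le_iff.mpr ⟨norm_nonneg _, by rw [sq]; exact h5⟩

theorem full (n : ℕ) : ∃ v : ℕ → N,
    ∑ i ∈ Finset.range (2 ^ n), v i * S.p n * star (v i) = 1 := by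
  have : ∀ i, ∃ v : N, i < 2 ^ n → v * S.p n * star v = S.T n i := by
    intro i
    by_cases hi : i < 2 ^ n
    · obtain ⟨v, h1, h2⟩ := S.equiv _ _ (S.T_proj n 0) (S.T_proj n i) (by
        rw [← t_apply, ← t_apply, S.T_tr hi, S.T_tr (by positivity)])
      exact ⟨v, fun _ => by rw [p, pi_right (S.T_proj n 0) h1, h2]⟩
    · exact ⟨0, fun h => absurd h hi⟩
  choose v hv using this
  refine ⟨v, ?_⟩
  rw [Finset.sum_congr rfl (fun i hi => hv i (Finset.mem_range.mp hi)), ← map_one (S.Dg n)]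
  simp only [T]
  rw [← map_sum]
  refine S.Dg_congr _ _ _ (fun i hi => ?_)
  simp [Finset.sum_apply, Pi.single_apply, hi]

end Sys

end Crest.Agent.H7.Nai
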