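import Mathlib
import Crest.Agent.H7.NaiG

/-! The algebra generated by the CAR algebra and a maximal family of shell unitaries: excision and
uniqueness of the irreducible representation. -/

set_option autoImplicit false
set_option linter.unusedSectionVars false

open scoped InnerProductSpace ComplexOrder
open Filter Topology Crest.OpAlg

namespace Crest.Agent.H7.Nai

/-- The data of the final algebra. -/
structure Fin2 (N A : Type) [NormedRing N] [StarRing N] [CStarRing N] [NormedAlgebra ℂ N]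
    [StarModule ℂ N] [CStarAlgebra A] where
  j : N →⋆ₐ[ℂ] A
  j_norm : ∀ x, ‖j x‖ = ‖x‖
  p : ℕ → N
  p_exc : ExcSeq p
  U : Set A
  one_mem : 1 ∈ U
  unit : ∀ u ∈ U, u ∈ unitary A
  sh : ∀ u ∈ U, ∀ m, ∃ x, u * (1 - j (p m)) = j x
  pair : ∀ u ∈ U, ∀ u' ∈ U, ∀ a, Exc (fun n => j (p n)) (star u' * j a * u)
  max : ∀ e : ℕ → N, ExcSeq e → ∃ u ∈ U, ∃ a, ∃ δ : ℝ,
    0 < δ ∧ ∀ n, δ ≤ ‖j (p n) * star u * j a * j (e n)‖
  gen : ∀ B : StarSubalgebra ℂ A, IsClosed (B : Set A) → (∀ a, j a ∈ B) → (∀ u ∈ U, u ∈ B) →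
    B = ⊤
  spec : SpecProp N
  cnt : ∃ s : Set N, s.Countable ∧ Submodule.span ℂ s = ⊤
  τ : A →ₗ[ℂ] ℂ
  hτ : IsFaithfulTracialState τ
  greedy : ∀ y : A, y ≠ 0 → ∃ e : ℕ → N, ExcSeq e ∧ ∃ δ : ℝ, 0 < δ ∧ ∀ n, δ ≤ ‖y * j (e n)‖
  full : ∀ n, ∃ v : ℕ → N, ∑ i ∈ Finset.range (2 ^ n), v i * p n * star (v i) = 1

namespace Fin2

variable {N A : Type} [NormedRing N] [StarRing N] [CStarRing N] [NormedAlgebra ℂ N]
  [StarModule ℂ N] [CStarAlgebra A] (S : Fin2 N A)

/-- The base sequence. -/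
noncomputable def P (n : ℕ) : A := S.j (S.p n)

theorem P_dec : Dec S.P := S.p_exc.toDec.map S.j

theorem sh' : ∀ u ∈ S.U, ∀ m, ∃ x, u * (1 - S.P m) = S.j x := S.sh

theorem pair' : ∀ u ∈ S.U, ∀ u' ∈ S.U, ∀ a, Exc S.P (star u' * S.j a * u) := S.pair

theorem max' : ∀ e : ℕ → N, ExcSeq e → ∃ u ∈ S.U, ∃ a, ∃ δ : ℝ,
    0 < δ ∧ ∀ n, δ ≤ ‖S.P n * star u * S.j a * S.j (e n)‖ := S.max

theorem gen_ind (Q : A → Prop) (hc : IsClosed {g | Q g}) (hadd : ∀ a b, Q a → Q b → Q (a + b))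
    (hmul : ∀ a b, Q a → Q b → Q (a * b)) (hN : ∀ a, Q (S.j a))
    (hU : ∀ u ∈ S.U, Q u ∧ Q (star u)) (g : A) : Q g := by
  let B : StarSubalgebra ℂ A :=
    { carrier := {g | Q g ∧ Q (star g)}
      mul_mem' := fun {a b} ha hb => ⟨hmul _ _ ha.1 hb.1, by
        rw [star_mul]; exact hmul _ _ hb.2 ha.2⟩
      add_mem' := fun {a b} ha hb => ⟨hadd _ _ ha.1 hb.1, by
        rw [star_add]; exact hadd _ _ ha.2 hb.2⟩
      algebraMap_mem' := fun r => by
        rw [← AlgHomClass.commutes S.j r]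
        exact ⟨hN _, by rw [← map_star]; exact hN _⟩
      star_mem' := fun {a} ha => ⟨ha.2, by rw [star_star]; exact ha.1⟩ }
  have := S.gen B (hc.inter (hc.preimage continuous_star))
    (fun a => ⟨hN a, by rw [← map_star]; exact hN _⟩) hU
  have hg : g ∈ B := this ▸ StarSubalgebra.mem_top
  exact hg.1

/-- The span of the elements `a u`. -/
noncomputable def D : Submodule ℂ A := Submodule.span ℂ {x | ∃ a, ∃ u ∈ S.U, x = S.j a * u}

/-- Approximable by `D` near the base sequence. -/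
def InS (y : A) : Prop := ∀ ε : ℝ, 0 < ε → ∃ d ∈ S.D, ∃ n, ‖(y - d) * S.P n‖ ≤ ε

theorem inS_of_mem {d : A} (hd : d ∈ S.D) : S.InS d :=
  fun ε hε => ⟨d, hd, 0, by simpa using hε.le⟩

theorem inS_of_approx {y : A}
    (h : ∀ ε : ℝ, 0 < ε → ∃ y', S.InS y' ∧ ∃ n, ‖(y - y') * S.P n‖ ≤ ε) : S.InS y := by
  intro ε hε
  obtain ⟨y', hy', n, hn⟩ := h _ (half_pos hε)
  obtain ⟨d, hd, m, hm⟩ := hy' _ (half_pos hε)
  refine ⟨d, hd, Max.max n m, ?_⟩
  have h1 := (S.P_dec.norm_mul _ (le_max_left n m)).trans hn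
  have h2 := (S.P_dec.norm_mul _ (le_max_right n m)).trans hm
  have : (y - d) * S.P (Max.max n m)
      = (y - y') * S.P (Max.max n m) + (y' - d) * S.P (Max.max n m) := by
    rw [← add_mul]; congr 1; abel
  rw [this]
  linarith [norm_add_le ((y - y') * S.P (Max.max n m)) ((y' - d) * S.P (Max.max n m))]

theorem inS_add {x y : A} (hx : S.InS x) (hy : S.InS y) : S.InS (x + y) := by
  refine S.inS_of_approx (fun ε hε => ?_)
  obtain ⟨d, hd, n, hn⟩ := hx ε hε
  refine ⟨d + y, fun ε' hε' => ?_, n, by simpa using hn⟩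
  obtain ⟨d', hd', m, hm⟩ := hy ε' hε'
  exact ⟨d + d', S.D.add_mem hd hd', m, by simpa using hm⟩

theorem inS_mul {g : A} (h : ∀ d ∈ S.D, S.InS (g * d)) {y : A} (hy : S.InS y) :
    S.InS (g * y) := by
  refine S.inS_of_approx (fun ε hε => ?_)
  obtain ⟨d, hd, n, hn⟩ := hy (ε / (‖g‖ + 1)) (by positivity)
  refine ⟨g * d, h d hd, n, ?_⟩
  rw [← mul_sub, mul_assoc]
  calc _ ≤ ‖g‖ * ‖(y - d) * S.P n‖ := norm_mul_le _ _
    _ ≤ (‖g‖ + 1) * (ε / (‖g‖ + 1)) := by gcongr; linarith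
    _ = ε := by field_simp

theorem inS_smul (r : ℂ) {y : A} (hy : S.InS y) : S.InS (r • y) := by
  have := S.inS_mul (g := r • (1 : A)) (fun d hd => S.inS_of_mem (by
    rw [smul_mul_assoc, one_mul]; exact S.D.smul_mem r hd)) hy
  rwa [smul_mul_assoc, one_mul] at this

theorem inS_mul' {g : A} (h : ∀ a, ∀ u ∈ S.U, S.InS (g * (S.j a * u))) {y : A} (hy : S.InS y) :
    S.InS (g * y) := by
  refine S.inS_mul (fun d hd => ?_) hy
  induction hd using Submodule.span_induction with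
  | mem x hx => obtain ⟨a, u, hu, rfl⟩ := hx; exact h a u hu
  | zero => rw [mul_zero]; exact S.inS_of_mem S.D.zero_mem
  | add x y _ _ hx hy => rw [mul_add]; exact S.inS_add hx hy
  | smul r x _ hx => rw [mul_smul_comm]; exact S.inS_smul r hx

theorem gen_mem (a : N) {u : A} (hu : u ∈ S.U) : S.j a * u ∈ S.D :=
  Submodule.subset_span ⟨a, u, hu, rfl⟩

theorem U_mem {u : A} (hu : u ∈ S.U) : u ∈ S.D := by simpa using S.gen_mem 1 hu

theorem inS_all (g : A) : S.InS g := by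
  suffices h : ∀ y, S.InS y → S.InS (g * y) by
    simpa using h 1 (S.inS_of_mem (S.U_mem S.one_mem))
  have hP := S.P_dec
  refine S.gen_ind (fun g => ∀ y, S.InS y → S.InS (g * y)) ?_ ?_ ?_ ?_ ?_ g
  · refine isClosed_of_closure_subset (fun g hg y hy => S.inS_of_approx (fun ε hε => ?_))
    obtain ⟨g', hg', hd⟩ := Metric.mem_closure_iff.mp hg (ε / (‖y‖ + 1)) (by positivity)
    refine ⟨g' * y, hg' y hy, 0, ?_⟩
    rw [← sub_mul]
    rw [dist_eq_norm] at hd
    calc _ ≤ ‖(g - g') * y‖ := norm_mul_proj _ (hP.proj 0)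
      _ ≤ ‖g - g'‖ * ‖y‖ := norm_mul_le _ _
      _ ≤ (ε / (‖y‖ + 1)) * (‖y‖ + 1) := by gcongr; linarith
      _ = ε := by field_simp
  · intro a b ha hb y hy
    rw [add_mul]; exact S.inS_add (ha y hy) (hb y hy)
  · intro a b ha hb y hy
    rw [mul_assoc]; exact ha _ (hb y hy)
  · intro b y hy
    refine S.inS_mul' (fun a u hu => S.inS_of_mem ?_) hy
    rw [← mul_assoc, ← map_mul]
    exact S.gen_mem _ hu
  · intro v hv
    constructor
    · intro y hy
      refine S.inS_mul' (fun a u hu ε hε => ?_) hy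
      obtain ⟨c, m, hc⟩ := S.pair' u hu 1 S.one_mem a ε hε
      obtain ⟨x, hx⟩ := S.sh' v hv m
      refine ⟨S.j (x * a) * u + c • v, S.D.add_mem (S.gen_mem _ hu)
        (S.D.smul_mem c (S.U_mem hv)), m, ?_⟩
      have : (v * (S.j a * u) - (S.j (x * a) * u + c • v)) * S.P m
          = v * (S.P m * (star 1 * S.j a * u) * S.P m - c • S.P m) := by
        rw [map_mul, ← hx, star_one, one_mul]
        simp only [mul_sub, sub_mul, add_mul, smul_mul_assoc, mul_smul_comm, mul_assoc, mul_one]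
        abel
      rw [this]
      exact (norm_mul_le _ _).trans
        ((mul_le_of_le_one_left (norm_nonneg _) (norm_unitary_le (S.unit v hv))).trans hc)
    · intro y hy
      refine S.inS_mul' (fun a u hu ε hε => ?_) hy
      obtain ⟨c, m, hc⟩ := S.pair' u hu v hv a ε hε
      obtain ⟨x, hx⟩ := S.sh' v hv m
      have hx' : S.j (star x) = (1 - S.P m) * star v := by
        rw [map_star, ← hx, star_mul, (hP.proj m).one_sub.isSelfAdjoint.star_eq]
      refine ⟨S.j (star x * a) * u + c • 1, S.D.add_mem (S.gen_mem _ hu)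
        (S.D.smul_mem c (S.U_mem S.one_mem)), m, ?_⟩
      have : (star v * (S.j a * u) - (S.j (star x * a) * u + c • 1)) * S.P m
          = S.P m * (star v * S.j a * u) * S.P m - c • S.P m := by
        rw [map_mul, hx']
        simp only [sub_mul, add_mul, smul_mul_assoc, mul_assoc, one_mul]
        abel
      rw [this]
      exact hc

theorem exc_all (y : A) : Exc S.P y := by
  have hP := S.P_dec
  have hD : ∀ d ∈ S.D, Exc S.P d := by
    intro d hd
    induction hd using Submodule.span_induction with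
    | mem x hx =>
      obtain ⟨a, u, hu, rfl⟩ := hx
      simpa using S.pair' u hu 1 S.one_mem a
    | zero => exact Exc.zero
    | add x y _ _ hx hy => exact hx.add hP hy
    | smul r x _ hx => exact hx.smul r
  intro ε hε
  obtain ⟨d, hd, n, hn⟩ := S.inS_all y _ (half_pos hε)
  obtain ⟨c, m, hm⟩ := (hD d hd).ev hP (half_pos hε)
  refine ⟨c, Max.max n m, ?_⟩
  have h1 := (hP.norm_mul _ (le_max_left n m)).trans hn
  have h2 := hm _ (le_max_right n m)
  set E := S.P (Max.max n m)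
  have h3 : ‖E * ((y - d) * E)‖ ≤ ε / 2 := (norm_proj_mul _ (hP.proj _)).trans h1
  have : E * y * E - c • E = E * ((y - d) * E) + (E * d * E - c • E) := by
    simp only [sub_mul, mul_sub, mul_assoc]; abel
  rw [this]
  linarith [norm_add_le (E * ((y - d) * E)) (E * d * E - c • E)]

end Fin2

section Rep

variable {A : Type} [CStarAlgebra A]
variable {H : Type} [NormedAddCommGroup H] [InnerProductSpace ℂ H] [CompleteSpace H]

theorem inner_exc (ρ : A →⋆ₐ[ℂ] (H →L[ℂ] H)) {E : A} (hE : IsStarProjection E) {w : H}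
    (hw : ‖w‖ = 1) (hEw : ρ E w = w) (y : A) (c : ℂ) :
    ‖⟪w, ρ y w⟫_ℂ - c‖ ≤ ‖E * y * E - c • E‖ := by
  have h1 : ⟪w, ρ (E * y * E - c • E) w⟫_ℂ = ⟪w, ρ y w⟫_ℂ - c := by
    rw [map_sub, map_smul, sub_apply, smul_apply, inner_sub_right, map_mul, map_mul,
      mul_apply_eq_comp, mul_apply_eq_comp, hEw, ← proj_inner _ (hE.map ρ), hEw,
      inner_smul_right, inner_self_eq_norm_sq_to_K, hw]
    simp
  rw [← h1]
  refine (norm_inner_le_norm _ _).trans ?_
  rw [hw, one_mul]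
  simpa [hw] using norm_rep_le ρ (E * y * E - c • E) w

theorem norm_sq_le_exc {E : A} (hE : IsStarProjection E) (x : A) (c : ℂ) :
    ‖x * E‖ ^ 2 ≤ ‖c‖ + ‖E * (star x * x) * E - c • E‖ := by
  have h1 : ‖x * E‖ ^ 2 = ‖E * (star x * x) * E‖ := by
    rw [sq, ← CStarRing.norm_star_mul_self, star_mul, hE.isSelfAdjoint.star_eq]
    simp only [mul_assoc]
  have h2 : ‖c • E‖ ≤ ‖c‖ := by
    rw [norm_smul]; exact mul_le_of_le_one_right (norm_nonneg _) (hE.norm_le E)
  have := norm_sub_norm_le (E * (star x * x) * E) (c • E)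
  linarith

theorem normalize_fixed (Q : ℕ → H →L[ℂ] H) {w : H} (hw : w ≠ 0) (h : ∀ n, Q n w = w) :
    ∃ w' : H, ‖w'‖ = 1 ∧ ∀ n, Q n w' = w' := by
  refine ⟨((‖w‖⁻¹ : ℝ) : ℂ) • w, ?_, fun n => by rw [map_smul, h]⟩
  rw [norm_smul, Complex.norm_real, norm_inv, norm_norm, inv_mul_cancel₀ (norm_ne_zero_iff.mpr hw)]

end Rep

namespace Fin2

variable {N A : Type} [NormedRing N] [StarRing N] [CStarRing N] [NormedAlgebra ℂ N]
  [StarModule ℂ N] [CStarAlgebra A] (S : Fin2 N A)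
variable {H : Type} [NormedAddCommGroup H] [InnerProductSpace ℂ H] [CompleteSpace H]

theorem range_key (u : A) (a : N) {g : A} (hg : IsStarProjection g)
    (h : ∃ x, u * g * star u = S.j x) :
    ∃ b, star (g * star u * S.j a) * (g * star u * S.j a) = S.j b := by
  obtain ⟨x, hx⟩ := h
  refine ⟨star a * x * a, ?_⟩
  rw [map_mul, map_mul, ← hx, star_mul, star_mul, star_star, hg.isSelfAdjoint.star_eq, map_star]
  calc _ = star (S.j a) * (u * (g * g) * star u) * S.j a := by simp only [mul_assoc]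
    _ = _ := by rw [hg.isIdempotentElem.eq]

theorem conj_P {u : A} (hu : u ∈ S.U) (m : ℕ) : ∃ x, u * S.P m * star u = S.j x := by
  obtain ⟨x, hx⟩ := S.sh' u hu m
  have hp := (S.P_dec.proj m).one_sub
  refine ⟨1 - x * star x, ?_⟩
  rw [map_sub, map_one, map_mul, map_star, ← hx]
  rw [star_mul, hp.isSelfAdjoint.star_eq, mul_assoc u (1 - S.P m), ← mul_assoc (1 - S.P m),
    hp.isIdempotentElem.eq, sub_mul, mul_sub, one_mul, (S.unit u hu).2, mul_assoc]
  simp

include S in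
theorem exists_fixed {ρ : A →⋆ₐ[ℂ] (H →L[ℂ] H)} (hirr : Irr ρ) [Nontrivial H] :
    ∃ w : H, ‖w‖ = 1 ∧ ∀ n, ρ (S.P n) w = w := by
  have hP := S.P_dec
  by_contra hcon
  have hlim : ∀ v, Tendsto (fun n => ρ (S.P n) v) atTop (𝓝 0) := by
    intro v
    obtain ⟨w, hw, hw'⟩ := proj_limit (fun n => ρ (S.P n)) (fun n => (hP.proj n).map ρ)
      (fun n => by rw [← map_mul, hP.succ n]) v
    by_cases h0 : w = 0
    · rwa [h0] at hw
    · exact absurd (normalize_fixed _ h0 hw') hcon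
  have hirr' : Irr (ρ.comp S.j) := by
    intro V hV hinv
    refine hirr V hV (fun g => ?_)
    refine S.gen_ind (fun g => ∀ v ∈ V, ρ g v ∈ V) ?_ ?_ ?_ hinv ?_ g
    · have : {g | ∀ v ∈ V, ρ g v ∈ V} = ⋂ v ∈ V, (fun g => ρ g v) ⁻¹' (V : Set H) := by
        ext g; simp
      rw [this]
      refine isClosed_biInter (fun v _ => hV.preimage ?_)
      have : Continuous ρ := AddMonoidHomClass.continuous_of_bound ρ 1
        (by simpa using NonUnitalStarAlgHom.norm_apply_le ρ)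
      fun_prop
    · intro a b ha hb v hv
      rw [map_add, add_apply]; exact V.add_mem (ha v hv) (hb v hv)
    · intro a b ha hb v hv
      rw [map_mul, mul_apply_eq_comp]; exact ha _ (hb v hv)
    · intro u hu
      constructor
      · intro v hv
        have h1 : Tendsto (fun n => ρ u (v - ρ (S.P n) v)) atTop (𝓝 (ρ u (v - 0))) :=
          ((ρ u).continuous.tendsto _).comp (tendsto_const_nhds.sub (hlim v))
        rw [sub_zero] at h1
        refine hV.mem_of_tendsto h1 (Eventually.of_forall fun n => ?_)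
        obtain ⟨x, hx⟩ := S.sh' u hu n
        have h2 := hinv x v hv
        rw [StarAlgHom.comp_apply, ← hx, map_mul, map_sub, map_one, mul_apply_eq_comp, sub_apply,
          one_apply_eq_self] at h2
        exact h2
      · intro v hv
        have h1 : Tendsto (fun n => ρ (star u) v - ρ (S.P n) (ρ (star u) v)) atTop
            (𝓝 (ρ (star u) v - 0)) := tendsto_const_nhds.sub (hlim _)
        rw [sub_zero] at h1
        refine hV.mem_of_tendsto h1 (Eventually.of_forall fun n => ?_)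
        obtain ⟨x, hx⟩ := S.sh' u hu n
        have h2 := hinv (star x) v hv
        rw [StarAlgHom.comp_apply, map_star S.j, ← hx, star_mul,
          (hP.proj n).one_sub.isSelfAdjoint.star_eq, map_mul, map_sub, map_one,
          mul_apply_eq_comp, sub_apply, one_apply_eq_self] at h2
        exact h2
  obtain ⟨e, he, w₀, hw₀, hew₀⟩ := exists_excSeq S.spec S.cnt hirr' (fun x v => by
    rw [← S.j_norm]; exact norm_rep_le ρ (S.j x) v)
  obtain ⟨w, hw, hew⟩ := normalize_fixed _ hw₀ hew₀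
  obtain ⟨u, hu, a, δ, hδ, hn⟩ := S.max' e he
  have hE := he.toDec.map S.j
  have hlow : ∀ m, δ ^ 2 / 2 ≤ ‖ρ (S.P m) (ρ (star u * S.j a) w)‖ ^ 2 := by
    intro m
    obtain ⟨b, hb⟩ := S.range_key u a (hP.proj m) (S.conj_P hu m)
    obtain ⟨c, n₀, hc⟩ := (he.exc b).ev he.toDec (show 0 < δ ^ 2 / 4 by positivity)
    have hc := hc _ (le_max_right m n₀)
    set n := Max.max m n₀
    rw [← S.j_norm, map_sub, map_smul, map_mul, map_mul, ← hb] at hc
    have h1 := inner_exc ρ (hE.proj n) hw (hew n) (star (S.P m * star u * S.j a)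
      * (S.P m * star u * S.j a)) c
    have h2 := norm_sq_le_exc (hE.proj n) (S.P m * star u * S.j a) c
    have h3 : δ ≤ ‖S.P m * star u * S.j a * S.j (e n)‖ := by
      refine (hn n).trans ?_
      have := hP.norm_mul' (star u * S.j a * S.j (e n)) (le_max_left m n₀)
      simpa only [mul_assoc] using this
    have h4 : δ ^ 2 ≤ ‖S.P m * star u * S.j a * S.j (e n)‖ ^ 2 := by gcongr
    rw [norm_sq_rep] at h1
    have h5 := norm_sub_norm_le c (((‖ρ (S.P m * star u * S.j a) w‖ ^ 2 : ℝ)) : ℂ)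
    rw [norm_sub_rev, Complex.norm_real, Real.norm_eq_abs, abs_of_nonneg (by positivity)] at h5
    rw [← mul_apply_eq_comp, ← map_mul, ← mul_assoc]
    linarith
  have h6 := ge_of_tendsto' ((hlim (ρ (star u * S.j a) w)).norm.pow 2) hlow
  simp at h6
  have : 0 < δ ^ 2 / 2 := by positivity
  linarith

include S in
theorem rep_equiv {H₂ : Type} [NormedAddCommGroup H₂] [InnerProductSpace ℂ H₂]
    [CompleteSpace H₂] {ρ₁ : A →⋆ₐ[ℂ] (H →L[ℂ] H)} {ρ₂ : A →⋆ₐ[ℂ] (H₂ →L[ℂ] H₂)}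
    (h₁ : Irr ρ₁) (h₂ : Irr ρ₂) [Nontrivial H] [Nontrivial H₂] :
    ∃ U : H ≃ₗᵢ[ℂ] H₂, ∀ a v, U (ρ₁ a v) = ρ₂ a (U v) := by
  obtain ⟨w₁, hw₁, hw₁'⟩ := S.exists_fixed h₁
  obtain ⟨w₂, hw₂, hw₂'⟩ := S.exists_fixed h₂
  have hst : ∀ y, ⟪w₂, ρ₂ y w₂⟫_ℂ = ⟪w₁, ρ₁ y w₁⟫_ℂ := by
    intro y
    rw [← sub_eq_zero, ← norm_le_zero_iff]
    refine le_of_forall_pos_le_add (fun ε hε => ?_)
    obtain ⟨c, n, hc⟩ := S.exc_all y _ (half_pos hε)
    have a1 := (inner_exc ρ₁ (S.P_dec.proj n) hw₁ (hw₁' n) y c).trans hc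
    have a2 := (inner_exc ρ₂ (S.P_dec.proj n) hw₂ (hw₂' n) y c).trans hc
    have := norm_sub_le (⟪w₂, ρ₂ y w₂⟫_ℂ - c) (⟪w₁, ρ₁ y w₁⟫_ℂ - c)
    rw [sub_sub_sub_cancel_right] at this
    linarith
  obtain ⟨U, -, hU⟩ := gns_unique ρ₁ ρ₂ w₁ w₂
    (cyclic h₁ (by intro h; rw [h] at hw₁; simp at hw₁))
    (cyclic h₂ (by intro h; rw [h] at hw₂; simp at hw₂)) (fun a => by
      have := hst (star a * a)
      rw [norm_sq_rep, norm_sq_rep] at this
      exact (sq_eq_sq₀ (norm_nonneg _) (norm_nonneg _)).mp (by exact_mod_cast this))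
  exact ⟨U, hU⟩

end Fin2

end Crest.Agent.H7.Nai
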