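import Mathlib
import Crest.Agent.H7.NaiH

/-! Simplicity of the final algebra and its existence. -/

set_option autoImplicit false
set_option linter.unusedSectionVars false

open scoped InnerProductSpace ComplexOrder
open Filter Topology Crest.OpAlg

namespace Crest.Agent.H7.Nai

section Tr

variable {A : Type} [CStarAlgebra A] {τ : A →ₗ[ℂ] ℂ}

theorem IsTr.re_eq (h : IsTr τ) (x : A) : τ (star x * x) = ((τ (star x * x)).re : ℂ) :=
  Complex.ext rfl (by simpa using (Complex.nonneg_iff.mp (h.pos x)).2.symm)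

theorem IsTr.re_nonneg (h : IsTr τ) (x : A) : 0 ≤ (τ (star x * x)).re :=
  (Complex.nonneg_iff.mp (h.pos x)).1

theorem cut_eq {E : A} (hE : IsStarProjection E) (x : A) :
    star (x * E) * (x * E) = E * (star x * x) * E := by
  rw [star_mul, hE.isSelfAdjoint.star_eq]; simp only [mul_assoc]

theorem IsTr.upper (h : IsTr τ) {E : A} (hE : IsStarProjection E) (x : A) :
    (τ (star (x * E) * (x * E))).re ≤ ‖x * E‖ ^ 2 * (τ E).re := by
  have h1 := tr_bound h.pos E (star (x * E) * (x * E))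
  rw [CStarRing.norm_star_mul_self, hE.isSelfAdjoint.star_eq, hE.isIdempotentElem.eq] at h1
  have h2 : E * (star (x * E) * (x * E)) * E = star (x * E) * (x * E) := by
    rw [cut_eq hE]
    calc _ = (E * E) * (star x * x) * (E * E) := by simp only [mul_assoc]
      _ = _ := by rw [hE.isIdempotentElem.eq]
  rw [h2] at h1
  rw [sq]
  exact (Complex.re_le_norm _).trans h1

theorem IsTr.lower (h : IsTr τ) {E : A} (hE : IsStarProjection E) (x : A) (c : ℂ) {η : ℝ}
    (hc : ‖E * (star x * x) * E - c • E‖ ≤ η) :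
    ‖x * E‖ ^ 2 * (τ E).re ≤ (τ (star (x * E) * (x * E))).re + 2 * η * (τ E).re := by
  have hEE := hE.isIdempotentElem.eq
  have hre : τ E = ((τ E).re : ℂ) := by
    have := h.re_eq E
    rwa [hE.isSelfAdjoint.star_eq, hEE] at this
  have hnn : 0 ≤ (τ E).re := by
    have := h.re_nonneg E
    rwa [hE.isSelfAdjoint.star_eq, hEE] at this
  have h1 := tr_bound h.pos E (E * (star x * x) * E - c • E)
  rw [hE.isSelfAdjoint.star_eq, hEE, mul_sub, sub_mul, mul_smul_comm, smul_mul_assoc, hEE, hEE,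
    ← mul_assoc, ← mul_assoc, hEE, mul_assoc (E * (star x * x)), hEE, map_sub, map_smul,
    ← cut_eq hE, smul_eq_mul] at h1
  have h2 := norm_sq_le_exc hE x c
  rw [← cut_eq hE] at hc h2
  have h3 := norm_sub_norm_le (c * τ E) (τ (star (x * E) * (x * E)))
  have h4 : ‖c * τ E‖ = ‖c‖ * (τ E).re := by
    rw [norm_mul]; congr 1
    conv_lhs => rw [hre]
    rw [Complex.norm_real, Real.norm_eq_abs, abs_of_nonneg hnn]
  have h5 : ‖τ (star (x * E) * (x * E))‖ = (τ (star (x * E) * (x * E))).re := by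
    conv_lhs => rw [h.re_eq]
    rw [Complex.norm_real, Real.norm_eq_abs, abs_of_nonneg (h.re_nonneg _)]
  rw [norm_sub_rev, h4, h5] at h3
  have h6 := mul_le_mul_of_nonneg_right hc hnn
  have h7 := mul_le_mul_of_nonneg_right (h2.trans (add_le_add le_rfl hc)) hnn
  nlinarith

end Tr

namespace Fin2

variable {N A : Type} [NormedRing N] [StarRing N] [CStarRing N] [NormedAlgebra ℂ N]
  [StarModule ℂ N] [CStarAlgebra A] (S : Fin2 N A)

theorem tail_small {e : ℕ → N} (he : ExcSeq e) {u : A} (hu : u ∈ S.U) (a : N) {η : ℝ}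
    (hη : 0 < η) : ∃ m, ∀ m', m ≤ m' → ∃ n₀, ∀ n, n₀ ≤ n →
      ‖(S.P m - S.P m') * star u * S.j a * S.j (e n)‖ ≤ η := by
  have hP := S.P_dec
  have hE := he.toDec.map S.j
  have hτ := IsTr.of_faithful S.hτ
  let γ : ℕ → ℝ := fun m => ⨅ n, ‖S.P m * star u * S.j a * S.j (e n)‖ ^ 2
  have hb : ∀ m, BddBelow (Set.range fun n => ‖S.P m * star u * S.j a * S.j (e n)‖ ^ 2) :=
    fun m => ⟨0, by rintro _ ⟨n, rfl⟩; positivity⟩
  have hγ0 : ∀ m, 0 ≤ γ m := fun m => le_ciInf (fun n => by positivity)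
  have hbγ : BddBelow (Set.range γ) := ⟨0, by rintro _ ⟨n, rfl⟩; exact hγ0 n⟩
  set θ := η ^ 2 / 6 with hθ
  have hθpos : 0 < θ := by positivity
  obtain ⟨m, hm⟩ := exists_lt_of_ciInf_lt (show (⨅ m, γ m) < (⨅ m, γ m) + θ by linarith)
  refine ⟨m, fun m' hm' => ?_⟩
  have h1 : γ m < γ m' + θ := by linarith [ciInf_le hbγ m']
  obtain ⟨n₁, hn₁⟩ := exists_lt_of_ciInf_lt (show γ m < γ m + θ by linarith)
  have hg : IsStarProjection (S.P m - S.P m') :=
    (hP.proj m').sub_of_mul_eq_right (hP.proj m) (hP.le hm')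
  obtain ⟨b₁, hb₁⟩ := S.range_key u a hg (by
    obtain ⟨x, hx⟩ := S.conj_P hu m
    obtain ⟨x', hx'⟩ := S.conj_P hu m'
    exact ⟨x - x', by rw [mul_sub, sub_mul, hx, hx', map_sub]⟩)
  obtain ⟨b₂, hb₂⟩ := S.range_key u a (hP.proj m') (S.conj_P hu m')
  obtain ⟨c₁, k₁, hc₁⟩ := (he.exc b₁).ev he.toDec hθpos
  obtain ⟨c₂, k₂, hc₂⟩ := (he.exc b₂).ev he.toDec hθpos
  refine ⟨Max.max n₁ (Max.max k₁ k₂), fun n hn => ?_⟩
  have hc₁ := hc₁ n (by omega)
  have hc₂ := hc₂ n (by omega)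
  rw [← S.j_norm, map_sub, map_smul, map_mul, map_mul, ← hb₁] at hc₁
  rw [← S.j_norm, map_sub, map_smul, map_mul, map_mul, ← hb₂] at hc₂
  have hEn := hE.proj n
  have l₁ := hτ.lower hEn _ c₁ hc₁
  have l₂ := hτ.lower hEn _ c₂ hc₂
  have l₃ := hτ.upper hEn (S.P m * star u * S.j a)
  have h2 : ‖S.P m * star u * S.j a * S.j (e n)‖ ^ 2 ≤ γ m + θ := by
    refine le_trans ?_ hn₁.le
    gcongr
    exact hE.norm_mul _ (by omega)
  have h3 : γ m' ≤ ‖S.P m' * star u * S.j a * S.j (e n)‖ ^ 2 := ciInf_le (hb m') n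
  have hadd : ∀ (Y : A), star (S.P m * Y) * (S.P m * Y)
      = star ((S.P m - S.P m') * Y) * ((S.P m - S.P m') * Y)
        + star (S.P m' * Y) * (S.P m' * Y) := by
    intro Y
    have k : ∀ g : A, IsStarProjection g → star (g * Y) * (g * Y) = star Y * g * Y := by
      intro g hg
      rw [star_mul, hg.isSelfAdjoint.star_eq, mul_assoc, ← mul_assoc g, hg.isIdempotentElem.eq,
        mul_assoc]
    rw [k _ (hP.proj m), k _ hg, k _ (hP.proj m'), mul_sub, sub_mul]
    abel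
  have h4 := congrArg (fun z => (S.τ z).re) (hadd (star u * S.j a * S.j (e n)))
  simp only [map_add, Complex.add_re, ← mul_assoc] at h4
  simp only [← mul_assoc] at l₁ l₂ l₃
  have ht : 0 < (S.τ (S.j (e n))).re := by
    have h5 := hτ.re_nonneg (S.j (e n))
    have h6 := hτ.re_eq (S.j (e n))
    have h7 := S.hτ.2.2.1 (S.j (e n))
    rw [hEn.isSelfAdjoint.star_eq, hEn.isIdempotentElem.eq] at h5 h6 h7
    refine lt_of_le_of_ne h5 (fun h => he.ne n ?_)
    rw [← norm_eq_zero, ← S.j_norm, h7 (by rw [h6, ← h]; simp), norm_zero]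
  set t := (S.τ (S.j (e n))).re
  set α := ‖(S.P m - S.P m') * star u * S.j a * S.j (e n)‖
  set β := ‖S.P m' * star u * S.j a * S.j (e n)‖
  set μ := ‖S.P m * star u * S.j a * S.j (e n)‖
  have h8 : (α ^ 2 + β ^ 2) * t ≤ (μ ^ 2 + 4 * θ) * t := by nlinarith
  have h9 := le_of_mul_le_mul_right h8 ht
  have h10 : α ^ 2 ≤ η ^ 2 := by linarith
  exact (sq_le_sq₀ (norm_nonneg _) hη.le).mp h10

theorem exists_big {y : A} (hy : y ≠ 0) :
    ∃ g : A, ∃ δ : ℝ, 0 < δ ∧ ∀ n, δ ≤ ‖y * g * S.P n‖ := by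
  by_contra hcon
  push Not at hcon
  have hP := S.P_dec
  obtain ⟨e, he, δ', hδ', hy'⟩ := S.greedy y hy
  obtain ⟨u, hu, a, δ, hδ, hn⟩ := S.max' e he
  have hE := he.toDec.map S.j
  set C : ℝ := δ' + ‖y‖ + ‖a‖ + ‖y‖ * ‖a‖ with hC
  have hCpos : 0 < C := by positivity
  set η : ℝ := δ ^ 2 * δ' / (2 * C) with hη
  have hηpos : 0 < η := by positivity
  obtain ⟨m, hm⟩ := S.tail_small he hu a hηpos
  obtain ⟨b, hb⟩ := S.range_key u a (hP.proj m) (S.conj_P hu m)
  obtain ⟨c, k₀, hc⟩ := (he.exc b).ev he.toDec hηpos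
  have hc := hc (Max.max m k₀) (le_max_right _ _)
  set k := Max.max m k₀ with hk
  rw [← S.j_norm, map_sub, map_smul, map_mul, map_mul, ← hb] at hc
  have h2 := norm_sq_le_exc (hE.proj k) (S.P m * star u * S.j a) c
  have h3 : δ ≤ ‖S.P m * star u * S.j a * S.j (e k)‖ := by
    refine (hn k).trans ?_
    have := hP.norm_mul' (star u * S.j a * S.j (e k)) (le_max_left m k₀)
    simpa only [mul_assoc] using this
  have h4 : δ ^ 2 ≤ ‖S.P m * star u * S.j a * S.j (e k)‖ ^ 2 := by gcongr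
  have hc0 : δ ^ 2 - η ≤ ‖c‖ := by linarith
  obtain ⟨m₁, hm₁⟩ := hcon (S.j (e k) * star (S.j a) * u) η hηpos
  have hm₁' := (hP.norm_mul _ (le_max_right m m₁)).trans hm₁.le
  set m' := Max.max m m₁ with hm'
  obtain ⟨n₀, hn₀⟩ := hm m' (le_max_left _ _)
  have hn₀ := hn₀ (Max.max k n₀) (le_max_right _ _)
  set n := Max.max k n₀ with hnn
  have hkn : S.j (e k) * S.j (e n) = S.j (e n) := hE.le (le_max_left _ _)
  set Ek := S.j (e k)
  set En := S.j (e n)
  set a' := S.j a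
  have ha' : ‖a'‖ = ‖a‖ := S.j_norm a
  have hEk : IsStarProjection Ek := hE.proj k
  have hEn : IsStarProjection En := hE.proj n
  have hPm := (hP.proj m).isIdempotentElem.eq
  have hPm' := (hP.proj m').isIdempotentElem.eq
  have hid : c • (y * En) = -(y * (Ek * (star (S.P m * star u * a') * (S.P m * star u * a')) * Ek
      - c • Ek) * En) + (y * (Ek * star a' * u) * S.P m') * (star u * a' * En)
      + (y * Ek * star a' * u) * ((S.P m - S.P m') * star u * a' * En) := by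
    rw [star_mul, star_mul, star_star, (hP.proj m).isSelfAdjoint.star_eq]
    simp only [mul_sub, sub_mul, mul_smul_comm, smul_mul_assoc, mul_assoc, hkn]
    rw [← mul_assoc (S.P m) (S.P m), hPm]
    abel
  have hu1 := norm_unitary_le (S.unit u hu)
  have t1 : ‖y * (Ek * (star (S.P m * star u * a') * (S.P m * star u * a')) * Ek
      - c • Ek) * En‖ ≤ ‖y‖ * η :=
    (norm_mul_proj _ hEn).trans ((norm_mul_le _ _).trans (by gcongr))
  have t2 : ‖(y * (Ek * star a' * u) * S.P m') * (star u * a' * En)‖ ≤ η * ‖a‖ := by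
    refine (norm_mul_le _ _).trans (mul_le_mul hm₁' ?_ (norm_nonneg _) hηpos.le)
    refine (norm_mul_proj _ hEn).trans ((norm_mul_le _ _).trans ?_)
    rw [norm_star, ha']
    exact mul_le_of_le_one_left (norm_nonneg _) hu1
  have t3 : ‖(y * Ek * star a' * u) * ((S.P m - S.P m') * star u * a' * En)‖
      ≤ ‖y‖ * ‖a‖ * η := by
    refine (norm_mul_le _ _).trans (mul_le_mul ?_ hn₀ (norm_nonneg _) (by positivity))
    refine (norm_mul_le _ _).trans ((mul_le_of_le_one_right (norm_nonneg _) hu1).trans ?_)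
    refine (norm_mul_le _ _).trans ?_
    rw [norm_star, ha']
    exact mul_le_mul_of_nonneg_right (norm_mul_proj _ hEk) (norm_nonneg _)
  have t4 : ‖c‖ * ‖y * En‖ ≤ ‖y‖ * η + η * ‖a‖ + ‖y‖ * ‖a‖ * η := by
    rw [← norm_smul, hid]
    refine (norm_add_le _ _).trans (add_le_add ((norm_add_le _ _).trans ?_) t3)
    rw [norm_neg]
    exact add_le_add t1 t2
  have t5 : δ' ≤ ‖y * En‖ := hy' n
  have t6 : (δ ^ 2 - η) * δ' ≤ ‖c‖ * ‖y * En‖ :=
    (mul_le_mul_of_nonneg_right hc0 hδ'.le).trans (by gcongr)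
  have t7 : η * C = δ ^ 2 * δ' / 2 := by rw [hη]; field_simp
  have t8 : 0 < δ ^ 2 * δ' := by positivity
  rw [hC] at t7
  nlinarith

include S in
theorem simple (I : TwoSidedIdeal A) : I = ⊥ ∨ I = ⊤ := by
  by_cases hI : I = ⊥
  · exact Or.inl hI
  right
  obtain ⟨y, hyI, hy⟩ : ∃ y ∈ I, y ≠ 0 := by
    by_contra h
    push Not at h
    exact hI (eq_bot_iff.mpr fun y hy => by rw [h y hy]; exact TwoSidedIdeal.zero_mem _)
  obtain ⟨g, δ, hδ, hg⟩ := S.exists_big hy
  obtain ⟨c, n, hc⟩ := S.exc_all (star (y * g) * (y * g)) (δ ^ 2 / 4) (by positivity)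
  have hE := S.P_dec.proj n
  have h2 := norm_sq_le_exc hE (y * g) c
  have h4 : δ ^ 2 ≤ ‖y * g * S.P n‖ ^ 2 := by have := hg n; gcongr
  have hδ2 : 0 < δ ^ 2 := by positivity
  have hcpos : 0 < ‖c‖ := by linarith
  have hc0 : c ≠ 0 := norm_pos_iff.mp hcpos
  set z := S.P n * (star (y * g) * (y * g)) * S.P n with hz
  have hzI : z ∈ I := I.mul_mem_right _ _ (I.mul_mem_left _ _ (I.mul_mem_left _ _
    (I.mul_mem_right _ _ hyI)))
  have hunit : IsUnit (1 - (-c⁻¹) • (z - c • S.P n)) := by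
    apply isUnit_one_sub_of_norm_lt_one
    rw [norm_smul, norm_neg, norm_inv, inv_mul_lt_iff₀ hcpos]
    linarith
  have hzE : z * S.P n = z := by rw [hz, mul_assoc, hE.isIdempotentElem.eq]
  have h5 : (1 - (-c⁻¹) • (z - c • S.P n)) * S.P n = (c⁻¹ • (1 : A)) * z := by
    rw [sub_mul, smul_mul_assoc, sub_mul, smul_mul_assoc, hzE, hE.isIdempotentElem.eq,
      smul_mul_assoc, one_mul, one_mul, smul_sub, smul_smul, neg_mul, inv_mul_cancel₀ hc0]
    module
  obtain ⟨w, hw⟩ := hunit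
  have hPI : S.P n ∈ I := by
    have : S.P n = (w⁻¹ : Aˣ) * ((c⁻¹ • (1 : A)) * z) := by
      rw [← h5, ← hw, ← mul_assoc, Units.inv_mul, one_mul]
    rw [this]
    exact I.mul_mem_left _ _ (I.mul_mem_left _ _ hzI)
  obtain ⟨v, hv⟩ := S.full n
  rw [← TwoSidedIdeal.one_mem_iff, ← map_one S.j, ← hv, map_sum]
  refine sum_mem (fun i _ => ?_)
  rw [map_mul, map_mul]
  exact I.mul_mem_right _ _ (I.mul_mem_left _ _ hPI)

end Fin2

theorem exists_fin2 : ∃ (N A : Type) (_ : NormedRing N) (_ : StarRing N) (_ : CStarRing N)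
    (_ : NormedAlgebra ℂ N) (_ : StarModule ℂ N) (_ : CStarAlgebra A),
    ¬ FiniteDimensional ℂ A ∧ Nonempty (Fin2 N A) := by
  obtain ⟨N, M, _, _, _, _, _, _, ⟨S⟩⟩ := exists_sys
  obtain ⟨U, hU1, hU, hmax⟩ := S.exists_max
  let B : StarSubalgebra ℂ M :=
    (StarAlgebra.adjoin ℂ (Set.range S.j ∪ U)).topologicalClosure
  have hB : IsClosed (B : Set M) := StarSubalgebra.isClosed_topologicalClosure _
  have hsub : ∀ x ∈ Set.range S.j ∪ U, x ∈ B := fun x hx =>
    StarSubalgebra.le_topologicalClosure _ (StarAlgebra.subset_adjoin ℂ _ hx)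
  let j : N →⋆ₐ[ℂ] B := S.j.codRestrict B (fun a => hsub _ (Or.inl ⟨a, rfl⟩))
  refine ⟨N, B, inferInstance, inferInstance, inferInstance, inferInstance, inferInstance,
    inferInstance, fun hfin => S.inf ?_, ⟨{
      j := j
      j_norm := S.j_norm
      p := S.p
      p_exc := S.p_exc
      U := {u | (u : M) ∈ U}
      one_mem := hU1
      unit := fun u hu => ⟨Subtype.ext (hU.1 u hu).1.1, Subtype.ext (hU.1 u hu).1.2⟩
      sh := fun u hu m => ?_
      pair := fun u hu u' hu' a => hU.2 u hu u' hu' a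
      max := fun e he => ?_
      gen := fun C hC hN hCU => ?_
      spec := S.spec
      cnt := S.cnt
      τ := S.τ ∘ₗ B.subtype.toLinearMap
      hτ := ⟨S.hτ.1, fun a => S.hτ.2.1 a, fun a ha => Subtype.ext (S.hτ.2.2.1 a ha),
        fun a b => S.hτ.2.2.2 a b⟩
      greedy := fun y hy => S.greedy (y := (y : M)) (fun h => hy (Subtype.ext h))
      full := S.full }⟩⟩
  · exact Module.Finite.of_injective j.toLinearMap
      (fun a b h => S.j_inj (congrArg Subtype.val h))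
  · obtain ⟨x, hx⟩ := (hU.1 u hu).2 m
    exact ⟨x, Subtype.ext hx⟩
  · obtain ⟨u, hu, a, δ, hδ, h⟩ := hmax e he
    exact ⟨⟨u, hsub _ (Or.inr hu)⟩, hu, a, δ, hδ, h⟩
  · have hcl : IsClosed ((C.map B.subtype : StarSubalgebra ℂ M) : Set M) :=
      (hB.isClosedEmbedding_subtypeVal.isClosedMap _ hC)
    have hle : B ≤ C.map B.subtype := by
      refine StarSubalgebra.topologicalClosure_minimal ?_ hcl
      refine StarAlgebra.adjoin_le ?_
      rintro x (⟨a, rfl⟩ | hx)
      · exact ⟨j a, hN a, rfl⟩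
      · exact ⟨⟨x, hsub _ (Or.inr hx)⟩, hCU _ hx, rfl⟩
    rw [eq_top_iff]
    intro x _
    obtain ⟨y, hy, hxy⟩ := hle x.2
    rwa [show x = y from (Subtype.ext hxy).symm]

theorem unitalize {A : Type} [CStarAlgebra A] {H : Type} [NormedAddCommGroup H]
    [InnerProductSpace ℂ H] [CompleteSpace H] (π : A →⋆ₙₐ[ℂ] (H →L[ℂ] H))
    (h : IsIrreducibleRep π) :
    Nontrivial H ∧ ∃ ρ : A →⋆ₐ[ℂ] (H →L[ℂ] H), Irr ρ ∧ ∀ a, ρ a = π a := by
  have hnt : Nontrivial H := by
    by_contra hs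
    rw [not_nontrivial_iff_subsingleton] at hs
    exact h.1 (by ext a v; exact Subsingleton.elim _ _)
  have h1 : π 1 = 1 := by
    rcases h.2 (LinearMap.ker (π 1).toLinearMap) (ContinuousLinearMap.isClosed_ker _) (by
      intro a v hv
      have hv' : π 1 v = 0 := hv
      show π 1 (π a v) = 0
      rw [← mul_apply_eq_comp, ← map_mul, one_mul, ← mul_one a, map_mul, mul_apply_eq_comp, hv',
        map_zero]) with h0 | h0
    · ext v
      have : π 1 v - v ∈ LinearMap.ker (π 1).toLinearMap := by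
        show π 1 (π 1 v - v) = 0
        rw [map_sub, ← mul_apply_eq_comp, ← map_mul, one_mul, sub_self]
      rw [h0] at this
      simpa [sub_eq_zero] using this
    · exfalso
      apply h.1
      ext a v
      have : v ∈ LinearMap.ker (π 1).toLinearMap := by rw [h0]; trivial
      have hv' : π 1 v = 0 := this
      show π a v = 0
      rw [← mul_one a, map_mul, mul_apply_eq_comp, hv', map_zero]
  refine ⟨hnt, { toFun := π
                 map_one' := h1
                 map_mul' := map_mul π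
                 map_zero' := map_zero π
                 map_add' := map_add π
                 commutes' := fun r => by
                   rw [Algebra.algebraMap_eq_smul_one, Algebra.algebraMap_eq_smul_one,
                     map_smul, h1]
                 map_star' := map_star π }, h.2, fun _ => rfl⟩

theorem naimark : ∃ (A : Type) (_ : CStarAlgebra A),
      ¬ FiniteDimensional ℂ A ∧
      (∀ I : TwoSidedIdeal A, IsClosed (I : Set A) → I = ⊥ ∨ I = ⊤) ∧
      (∃ τ : A →ₗ[ℂ] ℂ, IsFaithfulTracialState τ) ∧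
      ∀ (H₁ : Type) [NormedAddCommGroup H₁] [InnerProductSpace ℂ H₁] [CompleteSpace H₁]
        (H₂ : Type) [NormedAddCommGroup H₂] [InnerProductSpace ℂ H₂] [CompleteSpace H₂]
        (π₁ : A →⋆ₙₐ[ℂ] (H₁ →L[ℂ] H₁)) (π₂ : A →⋆ₙₐ[ℂ] (H₂ →L[ℂ] H₂)),
        IsIrreducibleRep π₁ → IsIrreducibleRep π₂ → AreUnitarilyEquivalent π₁ π₂ := by
  obtain ⟨N, A, _, _, _, _, _, _, hinf, ⟨S⟩⟩ := exists_fin2
  refine ⟨A, inferInstance, hinf, fun I _ => S.simple I, ⟨S.τ, S.hτ⟩, ?_⟩
  intro H₁ _ _ _ H₂ _ _ _ π₁ π₂ h₁ h₂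
  obtain ⟨_, ρ₁, k₁, e₁⟩ := unitalize π₁ h₁
  obtain ⟨_, ρ₂, k₂, e₂⟩ := unitalize π₂ h₂
  obtain ⟨U, hU⟩ := S.rep_equiv k₁ k₂
  exact ⟨U, fun a v => by rw [← e₁, ← e₂, hU]⟩

end Crest.Agent.H7.Nai
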