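import Mathlib

set_option autoImplicit false

open scoped ContDiff Topology
open Set Filter Metric

namespace Crest.Agent.H7

universe u

variable {X : Type*} [TopologicalSpace X] [CompactSpace X]

/-- The superposition operator. -/
noncomputable def nem {E F : Type*} [NormedAddCommGroup E] [NormedAddCommGroup F]
    (V : E → F) (hV : Continuous V) (γ : C(X, E)) : C(X, F) :=
  (⟨V, hV⟩ : C(E, F)).comp γ

omit [CompactSpace X] in
@[simp] lemma nem_apply {E F : Type*} [NormedAddCommGroup E] [NormedAddCommGroup F]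
    (V : E → F) (hV : Continuous V) (γ : C(X, E)) (x : X) : nem V hV γ x = V (γ x) := rfl

omit [CompactSpace X] in
lemma continuous_nem {E F : Type*} [NormedAddCommGroup E] [NormedAddCommGroup F]
    (V : E → F) (hV : Continuous V) : Continuous (nem (X := X) V hV) :=
  ContinuousMap.continuous_postcomp _

section
variable {E F G : Type*} [NormedAddCommGroup E] [NormedSpace ℝ E]
  [NormedAddCommGroup F] [NormedSpace ℝ F] [NormedAddCommGroup G] [NormedSpace ℝ G]

/-- pointwise application of a bilinear map -/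
noncomputable def ptApplyLin (B : G →L[ℝ] E →L[ℝ] F) : C(X, G) →ₗ[ℝ] C(X, E) →ₗ[ℝ] C(X, F) :=
  LinearMap.mk₂ ℝ (fun A h => ⟨fun x => B (A x) (h x), by fun_prop⟩)
    (fun A B h => by ext x; simp) (fun c A h => by ext x; simp)
    (fun A h k => by ext x; simp) (fun c A h => by ext x; simp)

/-- pointwise application of a bilinear map, as a continuous bilinear map -/
noncomputable def ptApply (B : G →L[ℝ] E →L[ℝ] F) : C(X, G) →L[ℝ] C(X, E) →L[ℝ] C(X, F) :=
  LinearMap.mkContinuous₂ (ptApplyLin (X := X) B) ‖B‖ (fun A h => by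
    refine (ContinuousMap.norm_le _ (by positivity)).2 fun x => ?_
    calc ‖B (A x) (h x)‖ ≤ ‖B‖ * ‖A x‖ * ‖h x‖ := B.le_opNorm₂ _ _
      _ ≤ ‖B‖ * ‖A‖ * ‖h‖ := by
        gcongr
        · exact A.norm_coe_le_norm x
        · exact h.norm_coe_le_norm x)

@[simp] lemma ptApply_apply (B : G →L[ℝ] E →L[ℝ] F) (A : C(X, G)) (h : C(X, E)) (x : X) :
    ptApply B A h x = B (A x) (h x) := rfl

lemma hasFDerivAt_nem (B : G →L[ℝ] E →L[ℝ] F) (V : E → F) (hV0 : Continuous V) (V' : E → G)
    (hV : ∀ p, HasFDerivAt V (B (V' p)) p) (hV' : Continuous V') (γ : C(X, E)) :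
    HasFDerivAt (nem (X := X) V hV0) (ptApply B (nem V' hV' γ)) γ := by
  rw [hasFDerivAt_iff_isLittleO_nhds_zero, Asymptotics.isLittleO_iff]
  intro ε hε
  have hc : ContinuousAt (nem (X := X) V' hV') γ := (continuous_nem _ _).continuousAt
  have hB : 0 < ‖B‖ + 1 := by positivity
  obtain ⟨δ, hδ, hδ'⟩ := Metric.continuousAt_iff.1 hc (ε / (‖B‖ + 1)) (by positivity)
  filter_upwards [Metric.ball_mem_nhds (0 : C(X, E)) hδ] with h hh
  rw [mem_ball_zero_iff] at hh
  refine (ContinuousMap.norm_le _ (by positivity)).2 fun x => ?_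
  have key : ∀ p ∈ ball (γ x) δ, ‖B (V' p) - B (V' (γ x))‖ ≤ ε := by
    intro p hp
    have h1 : dist (γ + ContinuousMap.const X (p - γ x)) γ < δ := by
      rw [dist_eq_norm, add_sub_cancel_left]
      refine lt_of_le_of_lt ((ContinuousMap.norm_le _ (norm_nonneg (p - γ x))).2 fun y => ?_) ?_
      · simp
      · rwa [mem_ball, dist_eq_norm] at hp
    have h2 := hδ' h1
    rw [dist_eq_norm] at h2
    have h3 := (ContinuousMap.norm_coe_le_norm _ x).trans h2.le
    have h4 : ‖V' p - V' (γ x)‖ ≤ ε / (‖B‖ + 1) := by simpa using h3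
    rw [← map_sub]
    calc ‖B (V' p - V' (γ x))‖ ≤ ‖B‖ * ‖V' p - V' (γ x)‖ := B.le_opNorm _
      _ ≤ (‖B‖ + 1) * (ε / (‖B‖ + 1)) := by gcongr; linarith
      _ = ε := by field_simp
  have hx : ‖h x‖ ≤ ‖h‖ := h.norm_coe_le_norm x
  have := (convex_ball (γ x) δ).norm_image_sub_le_of_norm_hasFDerivWithin_le'
    (f := V) (f' := fun p => B (V' p)) (φ := B (V' (γ x))) (x := γ x) (y := γ x + h x)
    (fun p _ => (hV p).hasFDerivWithinAt) key (mem_ball_self hδ)
    (by rw [mem_ball, dist_eq_norm, add_sub_cancel_left]; exact lt_of_le_of_lt hx hh)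
  simp only [add_sub_cancel_left] at this
  calc _ = ‖V (γ x + h x) - V (γ x) - (B (V' (γ x))) (h x)‖ := by simp
    _ ≤ ε * ‖h x‖ := this
    _ ≤ ε * ‖h‖ := by gcongr

end

lemma contDiff_nem_nat {E : Type u} [NormedAddCommGroup E] [NormedSpace ℝ E] (n : ℕ) :
    ∀ {F : Type u} [NormedAddCommGroup F] [NormedSpace ℝ F] (V : E → F) (hV : ContDiff ℝ n V),
      ContDiff ℝ n (nem (X := X) V hV.continuous) := by
  induction n with
  | zero =>
    intro F _ _ V hV
    exact contDiff_zero.2 (continuous_nem _ _)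
  | succ n ih =>
    intro F _ _ V hV
    have hV1 : ContDiff ℝ ((n : WithTop ℕ∞) + 1) V := by exact_mod_cast hV
    rw [contDiff_succ_iff_fderiv] at hV1
    obtain ⟨hd, -, hc⟩ := hV1
    have h1 := fun γ : C(X, E) => hasFDerivAt_nem (X := X) (G := E →L[ℝ] F)
      (ContinuousLinearMap.id ℝ (E →L[ℝ] F)) V hV.continuous (fderiv ℝ V)
      (fun p => (hd p).hasFDerivAt) hc.continuous γ
    have : ContDiff ℝ ((n : WithTop ℕ∞) + 1) (nem (X := X) V hV.continuous) := by
      rw [contDiff_succ_iff_fderiv]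
      refine ⟨fun γ => (h1 γ).differentiableAt, by simp, ?_⟩
      rw [show fderiv ℝ (nem (X := X) V hV.continuous) = _ from funext fun γ => (h1 γ).fderiv]
      exact (ptApply (X := X) (G := E →L[ℝ] F)
        (ContinuousLinearMap.id ℝ (E →L[ℝ] F))).contDiff.comp (ih _ hc)
    exact_mod_cast this

lemma contDiff_nem {E F : Type u} [NormedAddCommGroup E] [NormedSpace ℝ E]
    [NormedAddCommGroup F] [NormedSpace ℝ F] (V : E → F) (hV : ContDiff ℝ ∞ V) :
    ContDiff ℝ ∞ (nem (X := X) V hV.continuous) := by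
  rw [contDiff_infty]
  intro n
  exact contDiff_nem_nat n V (contDiff_infty.1 hV n)

end Crest.Agent.H7
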