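import Crest.Agent.Lead.P3I

/-! Row 40, tree argument: forests, reduced colour walks, chains and cocycles. -/

set_option autoImplicit false

namespace Crest.Agent.H7.P3
open Set Filter Topology Metric
open Crest.Agent.Lead.P3

lemma real_ind {ε : ℝ} (hε : 0 < ε) (a b : ℝ) (P : ℝ → Prop)
    (h : ∀ s ∈ uIcc a b, ∀ s' ∈ uIcc a b, |s - s'| ≤ ε → P s → P s') : P a → P b := by
  refine isPreconnected_uIcc.induction₂' (fun s s' => P s → P s') (fun s hs => ?_)
    (fun _ _ _ _ _ _ h1 h2 h3 => h2 (h1 h3)) left_mem_uIcc right_mem_uIcc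
  filter_upwards [self_mem_nhdsWithin, mem_nhdsWithin_of_mem_nhds (closedBall_mem_nhds s hε)]
    with s' h1 h2
  rw [mem_closedBall, Real.dist_eq] at h2
  exact ⟨h s hs s' h1 (by rwa [abs_sub_comm]), h s' h1 s hs h2⟩

/-! ### forests -/

lemma six : ∀ a b c d f x : Fin 5, [a, b, c, d, f].Nodup →
    x = a ∨ x = b ∨ x = c ∨ x = d ∨ x = f := by decide +kernel

lemma exists_leaf {H : Fin 5 → Fin 5 → Prop} (hn : NoCyc H) (S : Finset (Fin 5))
    (hS : S.Nonempty) : ∃ v ∈ S, ∃ u, ∀ w ∈ S, w ≠ v → H v w → w = u := by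
  by_contra hc
  push Not at hc
  have nx : ∀ v ∈ S, ∀ u, ∃ w ∈ S, w ≠ v ∧ H v w ∧ w ≠ u := hc
  obtain ⟨a, ha⟩ := hS
  obtain ⟨b, hb, ba, h1, -⟩ := nx a ha a
  obtain ⟨c, hc', cb, h2, ca⟩ := nx b hb a
  obtain ⟨d, hd, dc, h3, db⟩ := nx c hc' b
  by_cases da : d = a
  · exact hn.1 a b c (by simp [ba.symm, ca.symm, cb.symm]) h1 h2 (da ▸ h3)
  obtain ⟨f, hf, fd, h4, fc⟩ := nx d hd c
  by_cases fb : f = b
  · exact hn.1 b c d (by simp [cb.symm, db.symm, dc.symm]) h2 h3 (fb ▸ h4)
  by_cases fa : f = a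
  · exact hn.2.1 a b c d (by simp [ba.symm, ca.symm, cb.symm, db.symm, dc.symm, Ne.symm da])
      h1 h2 h3 (fa ▸ h4)
  have nd : [a, b, c, d, f].Nodup := by
    simp [ba.symm, ca.symm, cb.symm, db.symm, dc.symm, Ne.symm da, fd.symm, fc.symm, Ne.symm fb,
      Ne.symm fa]
  obtain ⟨x, -, xf, h5, xd⟩ := nx f hf d
  rcases six a b c d f x nd with e | e | e | e | e
  · exact hn.2.2 a b c d f nd h1 h2 h3 h4 (e ▸ h5)
  · exact hn.2.1 b c d f (List.Nodup.of_cons nd) h2 h3 h4 (e ▸ h5)
  · exact hn.1 c d f (List.Nodup.of_cons (List.Nodup.of_cons nd)) h3 h4 (e ▸ h5)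
  · exact xd e
  · exact xf e

lemma exists_pot {Γ : Type*} [Group Γ] (g : Fin 5 → Fin 5 → Γ) (g1 : ∀ i j, g j i = (g i j)⁻¹)
    {H : Fin 5 → Fin 5 → Prop} (hs : ∀ i j, H i j → H j i) (hn : NoCyc H) :
    ∃ ψ : Fin 5 → Γ, ∀ i j, i ≠ j → H i j → ψ j = g i j * ψ i := by
  have key : ∀ S : Finset (Fin 5), ∃ ψ : Fin 5 → Γ, ∀ i ∈ S, ∀ j ∈ S, i ≠ j → H i j →
      ψ j = g i j * ψ i := by
    intro S
    induction S using Finset.strongInduction with
    | H S ih =>
      rcases S.eq_empty_or_nonempty with rfl | hS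
      · exact ⟨fun _ => 1, by simp⟩
      obtain ⟨v, hv, u, hu⟩ := exists_leaf hn S hS
      obtain ⟨ψ, hψ⟩ := ih (S.erase v) (Finset.erase_ssubset hv)
      refine ⟨Function.update ψ v (g u v * ψ u), fun i hi j hj hij h => ?_⟩
      by_cases iv : i = v
      · subst iv
        have := hu j hj hij.symm h
        subst this
        rw [Function.update_self, Function.update_of_ne hij.symm, g1 i j, mul_inv_cancel_left]
      by_cases jv : j = v
      · subst jv
        have := hu i hi iv (hs _ _ h)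
        subst this
        rw [Function.update_self, Function.update_of_ne iv]
      rw [Function.update_of_ne iv, Function.update_of_ne jv]
      exact hψ i (Finset.mem_erase.2 ⟨iv, hi⟩) j (Finset.mem_erase.2 ⟨jv, hj⟩) hij h
  obtain ⟨ψ, hψ⟩ := key Finset.univ
  exact ⟨ψ, fun i j => hψ i (Finset.mem_univ _) j (Finset.mem_univ _)⟩

/-! ### reduced walks -/

/-- nonempty walks without backtracking -/
inductive Val : List (Fin 5) → Prop
  | one (a : Fin 5) : Val [a]
  | two {a b : Fin 5} : a ≠ b → Val [a, b]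
  | more {a b c : Fin 5} {L : List (Fin 5)} : a ≠ b → a ≠ c → Val (b :: c :: L) →
      Val (a :: b :: c :: L)

/-- move to colour `j` -/
def step : List (Fin 5) → Fin 5 → List (Fin 5)
  | [], _ => []
  | [a], j => if a = j then [a] else [j, a]
  | a :: b :: L, j => if a = j then a :: b :: L else if b = j then b :: L else j :: a :: b :: L

lemma Val.tail {a b : Fin 5} {L : List (Fin 5)} (h : Val (a :: b :: L)) : Val (b :: L) := by
  cases h with
  | two _ => exact .one b
  | more _ _ h => exact h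

lemma Val.ne {a b : Fin 5} {L : List (Fin 5)} (h : Val (a :: b :: L)) : a ≠ b := by
  cases h with
  | two h => exact h
  | more h _ _ => exact h

lemma Val.step {L : List (Fin 5)} (h : Val L) (j : Fin 5) : Val (step L j) := by
  match L, h with
  | [a], _ =>
    simp only [P3.step]; split_ifs with h1
    · exact .one a
    · exact .two (Ne.symm h1)
  | a :: b :: L, h =>
    simp only [P3.step]; split_ifs with h1 h2
    · exact h
    · exact h.tail
    · exact .more (Ne.symm h1) (Ne.symm h2) h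

lemma Val.head {L : List (Fin 5)} (h : Val L) (j : Fin 5) : (P3.step L j).head? = some j := by
  match L, h with
  | [a], _ => simp only [P3.step]; split_ifs with h1 <;> simp [h1]
  | a :: b :: L, h => simp only [P3.step]; split_ifs with h1 h2 <;> simp_all

lemma step_self {L : List (Fin 5)} {j : Fin 5} (h : L.head? = some j) : step L j = L := by
  match L, h with
  | [a], h => simp_all [step]
  | a :: b :: L, h => simp_all [step]

lemma Val.step_step {L : List (Fin 5)} (h : Val L) {i : Fin 5} (hi : L.head? = some i) (j : Fin 5) :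
    P3.step (P3.step L j) i = L := by
  match L, h with
  | [a], _ =>
    have : a = i := by simpa using hi
    subst this
    by_cases h1 : a = j
    · simp [P3.step, h1]
    · simp [P3.step, h1, Ne.symm h1]
  | a :: b :: L, h =>
    have : a = i := by simpa using hi
    subst this
    by_cases h1 : a = j
    · simp [P3.step, h1]
    by_cases h2 : b = j
    · subst h2
      cases h with
      | two h => simp [P3.step, h, Ne.symm h]
      | more h h' _ => simp [P3.step, h, Ne.symm h, Ne.symm h']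
    · simp [P3.step, h1, h2, Ne.symm h1]

lemma step_len (L : List (Fin 5)) (j : Fin 5) : (step L j).length ≤ L.length + 1 := by
  match L with
  | [] => simp [step]
  | [a] => simp only [step]; split_ifs <;> simp
  | a :: b :: L => simp only [step]; split_ifs <;> simp only [List.length_cons] <;> omega

/-- a suffix is lost only at the suffix itself, by going to its second entry -/
lemma suffix_step {M L : List (Fin 5)} {j : Fin 5} (h : M <:+ L) :
    M <:+ step L j ∨ (L = M ∧ M.tail.head? = some j) := by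
  match L, h with
  | [], h => left; simpa [step] using h
  | [a], h =>
    left; simp only [step]; split_ifs
    · exact h
    · exact h.trans (List.suffix_cons _ _)
  | a :: b :: L, h =>
    simp only [step]; split_ifs with h1 h2
    · exact Or.inl h
    · rcases List.suffix_cons_iff.1 h with e | e
      · right; subst e; simp [h2]
      · exact Or.inl e
    · exact Or.inl (h.trans (List.suffix_cons _ _))

/-- the involution of the tree attached to a pair of colours -/
def tau0 (i j : Fin 5) (L : {L // Val L}) : {L // Val L} :=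
  if L.1.head? = some i then ⟨step L.1 j, L.2.step j⟩
  else if L.1.head? = some j then ⟨step L.1 i, L.2.step i⟩ else L

lemma tau0_comm (i j : Fin 5) (L : {L // Val L}) : tau0 j i L = tau0 i j L := by
  unfold tau0
  by_cases h1 : L.1.head? = some i <;> by_cases h2 : L.1.head? = some j
  · have : i = j := by rw [h1] at h2; simpa using h2
    subst this; rfl
  · rw [if_neg h2, if_pos h1, if_pos h1]
  · rw [if_pos h2, if_neg h1, if_pos h2]
  · rw [if_neg h2, if_neg h1, if_neg h1, if_neg h2]

lemma tau0_of_head {i : Fin 5} (j : Fin 5) {L : {L // Val L}} (h : L.1.head? = some i) :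
    (tau0 i j L).1 = step L.1 j := by simp [tau0, h]

lemma tau0_inv (i j : Fin 5) : Function.Involutive (tau0 i j) := by
  have key : ∀ i j (L : {L // Val L}), L.1.head? = some i → tau0 i j (tau0 i j L) = L := by
    intro i j L h
    apply Subtype.ext
    rw [tau0_comm, tau0_of_head i (by rw [tau0_of_head j h]; exact L.2.head j), tau0_of_head j h,
      L.2.step_step h]
  intro L
  by_cases h1 : L.1.head? = some i
  · exact key i j L h1
  by_cases h2 : L.1.head? = some j
  · have := key j i L h2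
    rwa [tau0_comm, tau0_comm i j L] at this
  · simp [tau0, h1, h2]

/-- the same, as a permutation -/
def tau (i j : Fin 5) : Equiv.Perm {L // Val L} := (tau0_inv i j).toPerm

lemma tau_inv (i j : Fin 5) : tau j i = (tau i j)⁻¹ :=
  Equiv.ext fun L => tau0_comm i j L

/-! ### local cocycles on a disc are coboundaries -/

lemma cocycle {Γ : Type*} [Group Γ] (t : ℂ → ℂ → Γ) {δ : ℝ} (hδ : 0 < δ)
    (hc : ∀ p p' p'', ‖p‖ ≤ 9 → ‖p'‖ ≤ 9 → ‖p''‖ ≤ 9 → dist p p' ≤ 2 * δ → dist p' p'' ≤ 2 * δ →
      t p p' * t p' p'' = t p p'') :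
    ∃ k : ℂ → Γ, ∀ p p', ‖p‖ ≤ 9 → ‖p'‖ ≤ 9 → dist p p' ≤ δ → k p = t p p' * k p' := by
  obtain ⟨n, hn⟩ := exists_nat_gt (9 / δ)
  have n0 : (0 : ℝ) < n := lt_trans (by positivity) hn
  let s : ℕ → ℂ → ℂ := fun j p => ((j : ℝ) / n : ℝ) • p
  let k : ℂ → ℕ → Γ := fun p j => Nat.rec 1 (fun j x => t (s (j + 1) p) (s j p) * x) j
  have s1 : ∀ j ≤ n, ∀ p : ℂ, ‖s j p‖ ≤ ‖p‖ := fun j hj p => by
    rw [norm_smul, Real.norm_of_nonneg (by positivity)]
    exact mul_le_of_le_one_left (norm_nonneg _) ((div_le_one n0).2 (by exact_mod_cast hj))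
  have s2 : ∀ j ≤ n, ∀ p p' : ℂ, dist (s j p) (s j p') ≤ dist p p' := fun j hj p p' => by
    rw [dist_eq_norm, dist_eq_norm, ← smul_sub]; exact s1 j hj _
  have s3 : ∀ j, ∀ p : ℂ, ‖p‖ ≤ 9 → dist (s (j + 1) p) (s j p) ≤ δ := fun j p hp => by
    rw [dist_eq_norm, ← sub_smul, norm_smul]
    have : ((j + 1 : ℕ) : ℝ) / n - (j : ℝ) / n = 1 / n := by push_cast; ring
    rw [this, Real.norm_of_nonneg (by positivity), one_div, inv_mul_le_iff₀ n0]
    rw [div_lt_iff₀ hδ] at hn
    linarith
  have key : ∀ p p', ‖p‖ ≤ 9 → ‖p'‖ ≤ 9 → dist p p' ≤ δ → ∀ j ≤ n,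
      k p j = t (s j p) (s j p') * k p' j := by
    intro p p' hp hp' hd j
    induction j with
    | zero =>
      intro _
      have := hc 0 0 0 (by simp) (by simp) (by simp) (by simp; positivity) (by simp; positivity)
      simp only [s, k, Nat.cast_zero, zero_div, zero_smul, Nat.rec_zero, mul_one]
      exact (mul_eq_left.1 this).symm
    | succ j ih =>
      intro hj
      have hj' : j ≤ n := by omega
      change t (s (j + 1) p) (s j p) * k p j = _ * (t (s (j + 1) p') (s j p') * k p' j)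
      rw [ih hj', ← mul_assoc, ← mul_assoc,
        hc _ _ _ ((s1 _ hj _).trans hp) ((s1 _ hj' _).trans hp) ((s1 _ hj' _).trans hp')
          ((s3 j p hp).trans (by linarith)) ((s2 j hj' p p').trans (by linarith)),
        hc _ _ _ ((s1 _ hj _).trans hp) ((s1 _ hj _).trans hp') ((s1 _ hj' _).trans hp')
          ((s2 _ hj p p').trans (by linarith)) ((s3 j p' hp').trans (by linarith))]
  refine ⟨fun p => k p n, fun p p' hp hp' hd => ?_⟩
  have := key p p' hp hp' hd n le_rfl
  simpa only [s, div_self n0.ne', one_smul] using this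

/-! ### unit circles -/

lemma norm_e (t : ℝ) : ‖e t‖ = 1 := Complex.norm_exp_ofReal_mul_I t

lemma e_add (s t : ℝ) : e (s + t) = e s * e t := by
  simp only [e, Complex.ofReal_add, add_mul, Complex.exp_add]

lemma cont_e : Continuous e := by unfold e; fun_prop

lemma norm_e_sub (s t : ℝ) : ‖e s - e t‖ = ‖e (s - t) - 1‖ := by
  have : e s - e t = e t * (e (s - t) - 1) := by rw [mul_sub, ← e_add, mul_one]; congr 2; ring
  rw [this, norm_mul, norm_e, one_mul]

lemma e_lip (s t : ℝ) : ‖e s - e t‖ ≤ |s - t| := by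
  rw [norm_e_sub, e, mul_comm]; exact Real.norm_exp_I_mul_ofReal_sub_one_le

lemma e_low (t : ℝ) {θ : ℝ} (h0 : 0 ≤ θ) (h1 : θ ≤ 1) : θ / 2 ≤ ‖e (t + θ) - e t‖ := by
  rw [norm_e_sub, add_sub_cancel_left]
  have a1 := Complex.abs_im_le_norm (e θ - 1)
  have a2 : (e θ - 1).im = Real.sin θ := by simp [e, Complex.exp_ofReal_mul_I_im]
  have a3 := Real.mul_le_sin h0 (h1.trans (by linarith [Real.pi_gt_three]))
  have a4 : 1 / 2 ≤ 2 / Real.pi := by
    rw [div_le_div_iff₀ two_pos Real.pi_pos]; linarith [Real.pi_lt_four]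
  rw [a2] at a1
  nlinarith [le_abs_self (Real.sin θ)]

lemma exists_e {z : ℂ} (h : ‖z‖ = 1) : ∃ t, z = e t :=
  ⟨z.arg, by have := Complex.norm_mul_exp_arg_mul_I z; rw [h] at this; simpa [e] using this.symm⟩

lemma circles_meet {w w' : ℂ} (h : ‖w - w'‖ ≤ 2) : ∃ t t', w + e t = w' + e t' := by
  set d := w - w' with hd
  have hc : Continuous fun t => ‖d + e t‖ := (continuous_const.add cont_e).norm
  have e1 : d = ‖d‖ * e d.arg := (Complex.norm_mul_exp_arg_mul_I d).symm
  have e2 : e (d.arg + Real.pi) = - e d.arg := by rw [e_add, e]; simp [e]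
  have a1 : 1 ≤ ‖d + e d.arg‖ := by
    have : d + e d.arg = ((‖d‖ + 1 : ℝ) : ℂ) * e d.arg := by
      conv_lhs => lhs; rw [e1]
      push_cast; ring
    rw [this, norm_mul, norm_e, Complex.norm_real, Real.norm_of_nonneg (by positivity)]
    linarith [norm_nonneg d]
  have a2 : ‖d + e (d.arg + Real.pi)‖ ≤ 1 := by
    have : d + e (d.arg + Real.pi) = ((‖d‖ - 1 : ℝ) : ℂ) * e d.arg := by
      conv_lhs => lhs; rw [e1]
      rw [e2]; push_cast; ring
    rw [this, norm_mul, norm_e, Complex.norm_real, mul_one, Real.norm_eq_abs, abs_le]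
    constructor <;> linarith [norm_nonneg d]
  obtain ⟨t, -, ht⟩ := intermediate_value_uIcc (a := d.arg) (b := d.arg + Real.pi) hc.continuousOn
    (mem_uIcc.2 (Or.inr ⟨a2, a1⟩))
  obtain ⟨t', ht'⟩ := exists_e ht
  exact ⟨t, t', by rw [← ht', hd]; ring⟩

end Crest.Agent.H7.P3
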