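import Crest.Agent.H7.P3T1

/-! Row 40, tree argument: the global lift and the infinite reduced walk. -/

set_option autoImplicit false

namespace Crest.Agent.H7.P3
open Set Filter Topology Metric
open Crest.Agent.Lead.P3

lemma hit {f : ℝ → ℝ} (hf : Continuous f) {x x' r : ℝ} (h1 : |f x| ≤ 10) (h2 : |f x'| ≤ 10)
    (hr : r ≤ |f x' - f x|) {Q : ℝ → Prop} (hQ : ∀ a : ℝ, |a| ≤ 10 → ∃ a' ∈ Icc a (a + r), Q a') :
    ∃ s ∈ uIcc x x', Q (f s) := by
  have : ∃ a' ∈ uIcc (f x) (f x'), Q a' := by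
    rcases le_total (f x) (f x') with h | h
    · obtain ⟨a', ha, hq⟩ := hQ _ h1
      rw [abs_of_nonneg (sub_nonneg.2 h)] at hr
      exact ⟨a', mem_uIcc.2 (Or.inl ⟨ha.1, by linarith [ha.2]⟩), hq⟩
    · obtain ⟨a', ha, hq⟩ := hQ _ h2
      rw [abs_of_nonpos (sub_nonpos.2 h)] at hr
      exact ⟨a', mem_uIcc.2 (Or.inr ⟨ha.1, by linarith [ha.2]⟩), hq⟩
  obtain ⟨a', ha, hq⟩ := this
  obtain ⟨s, hs, rfl⟩ := intermediate_value_uIcc hf.continuousOn ha
  exact ⟨s, hs, hq⟩

lemma abs_between {s a b x r : ℝ} (hs : s ∈ uIcc a b) (ha : |a - x| ≤ r) (hb : |b - x| ≤ r) :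
    |s - x| ≤ r := by
  rw [abs_le] at *
  rcases mem_uIcc.1 hs with h | h <;> constructor <;> linarith [h.1, h.2, ha.1, ha.2, hb.1, hb.2]

lemma dist_le_co (z p : ℂ) : dist z p ≤ |z.re - p.re| + |z.im - p.im| := by
  rw [dist_eq_norm]; exact Complex.norm_le_abs_re_add_abs_im (z - p)

lemma re_le (z p : ℂ) : |z.re - p.re| ≤ dist z p := by
  rw [dist_eq_norm]; exact Complex.abs_re_le_norm (z - p)

lemma im_le (z p : ℂ) : |z.im - p.im| ≤ dist z p := by
  rw [dist_eq_norm]; exact Complex.abs_im_le_norm (z - p)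

theorem exists_lift {Γ : Type*} [Group Γ] (g : Fin 5 → Fin 5 → Γ) (g0 : ∀ i, g i i = 1)
    (g1 : ∀ i j, g j i = (g i j)⁻¹) (c : ℂ → Fin 5) (G : Set ℂ) (H : ℂ → Fin 5 → Fin 5 → Prop)
    {ε η : ℝ} (e0 : 0 < ε) (e1 : ε ≤ η / 100) (η1 : η ≤ 1) (hs : ∀ p i j, H p i j → H p j i)
    (hn : ∀ p, ‖p‖ ≤ 20 → NoCyc (H p))
    (hH : ∀ p y y', ‖p‖ ≤ 20 → y ∈ G → y' ∈ G → dist y p < η → dist y' p < η → dist y y' ≤ ε →
      c y ≠ c y' → H p (c y) (c y'))
    (hV : ∀ a : ℝ, |a| ≤ 10 → ∃ a' ∈ Icc a (a + η / 100), ∀ b : ℝ, |b| ≤ 11 →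
      (a' + b * Complex.I : ℂ) ∈ G)
    (hW : ∀ b : ℝ, |b| ≤ 10 → ∃ b' ∈ Icc b (b + η / 100), ∀ a : ℝ, |a| ≤ 11 →
      (a + b' * Complex.I : ℂ) ∈ G) :
    ∃ F : ℂ → Γ, ∀ y y', y ∈ G → y' ∈ G → ‖y‖ ≤ 9 → ‖y'‖ ≤ 9 → dist y y' ≤ ε →
      ((∀ a : ℝ, |a| ≤ 11 → (a + y'.im * Complex.I : ℂ) ∈ G) ∨
        ∃ w t, y' = w + e t ∧ ∀ s, w + e s ∈ G) → F y' = g (c y) (c y') * F y := by
  have η0 : 0 < η := by linarith
  choose! ψ hψ0 using fun p (hp : ‖p‖ ≤ 20) => exists_pot g g1 (hs p) (hn p hp)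
  have hψ : ∀ p y y', ‖p‖ ≤ 20 → y ∈ G → y' ∈ G → dist y p < η → dist y' p < η → dist y y' ≤ ε →
      ψ p (c y') = g (c y) (c y') * ψ p (c y) := fun p y y' hp h1 h2 h3 h4 h5 => by
    by_cases h : c y = c y'
    · rw [h, g0, one_mul]
    · exact hψ0 p hp _ _ h (hH p y y' hp h1 h2 h3 h4 h5 h)
  let Φ : ℂ → ℂ → ℂ → Γ := fun p p' y => (ψ p (c y))⁻¹ * ψ p' (c y)
  have path : ∀ p p' : ℂ, ‖p‖ ≤ 9 → ‖p'‖ ≤ 9 → dist p p' ≤ η / 5 → ∀ γ : ℝ → ℂ,
      (∀ s s', dist (γ s) (γ s') ≤ |s - s'|) → ∀ a b, (∀ s ∈ uIcc a b, γ s ∈ G ∧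
        dist (γ s) p ≤ η / 2) → Φ p p' (γ a) = Φ p p' (γ b) := by
    intro p p' hp hp' hd γ hγ a b h
    refine real_ind e0 a b (fun s => Φ p p' (γ a) = Φ p p' (γ s)) (fun s hs s' hs' hss e => ?_) rfl
    have d1 := dist_triangle (γ s) p p'
    have d2 := dist_triangle (γ s') p p'
    have a1 := h s hs
    have a2 := h s' hs'
    rw [e]
    simp only [Φ]
    rw [hψ p (γ s) (γ s') (by linarith) a1.1 a2.1 (by linarith [a1.2]) (by linarith [a2.2])
      ((hγ _ _).trans hss), hψ p' (γ s) (γ s') (by linarith) a1.1 a2.1 (by linarith [a1.2])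
      (by linarith [a2.2]) ((hγ _ _).trans hss)]
    group
  have bnd : ∀ {x u : ℝ}, |u| ≤ 9 → |x - u| ≤ η / 4 → |x| ≤ 11 := fun {x u} h1 h2 => by
    rw [abs_le] at *; constructor <;> linarith [h1.1, h1.2, h2.1, h2.2]
  have vert : ∀ p p' : ℂ, ‖p‖ ≤ 9 → ‖p'‖ ≤ 9 → dist p p' ≤ η / 5 → ∀ a b b' : ℝ,
      (∀ b : ℝ, |b| ≤ 11 → (a + b * Complex.I : ℂ) ∈ G) → |a - p.re| ≤ η / 4 → |b - p.im| ≤ η / 4 →
      |b' - p.im| ≤ η / 4 → Φ p p' (a + b * Complex.I) = Φ p p' (a + b' * Complex.I) := by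
    intro p p' hp hp' hd a b b' ha h1 h2 h3
    refine path p p' hp hp' hd (fun s => a + s * Complex.I) (fun s s' => ?_) b b' fun s hs => ?_
    · simpa using dist_le_co (a + s * Complex.I) (a + s' * Complex.I)
    · have := abs_between hs h2 h3
      refine ⟨ha s (bnd ((Complex.abs_im_le_norm p).trans hp) this), (dist_le_co _ _).trans ?_⟩
      simp only [Complex.add_re, Complex.ofReal_re, Complex.mul_re, Complex.I_re, mul_zero,
        Complex.ofReal_im, Complex.I_im, mul_one, sub_self, add_zero, Complex.add_im,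
        Complex.mul_im, zero_add]
      linarith
  have horiz : ∀ p p' : ℂ, ‖p‖ ≤ 9 → ‖p'‖ ≤ 9 → dist p p' ≤ η / 5 → ∀ b a a' : ℝ,
      (∀ a : ℝ, |a| ≤ 11 → (a + b * Complex.I : ℂ) ∈ G) → |b - p.im| ≤ η / 4 → |a - p.re| ≤ η / 4 →
      |a' - p.re| ≤ η / 4 → Φ p p' (a + b * Complex.I) = Φ p p' (a' + b * Complex.I) := by
    intro p p' hp hp' hd b a a' hb h1 h2 h3
    refine path p p' hp hp' hd (fun s => s + b * Complex.I) (fun s s' => ?_) a a' fun s hs => ?_
    · simpa using dist_le_co (s + b * Complex.I) (s' + b * Complex.I)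
    · have := abs_between hs h2 h3
      refine ⟨hb s (bnd ((Complex.abs_re_le_norm p).trans hp) this), (dist_le_co _ _).trans ?_⟩
      simp only [Complex.add_re, Complex.ofReal_re, Complex.mul_re, Complex.I_re, mul_zero,
        Complex.ofReal_im, Complex.I_im, mul_one, sub_self, add_zero, Complex.add_im,
        Complex.mul_im, zero_add]
      linarith
  choose! A hA1 hA2 using id hV
  choose! B hB1 hB2 using id hW
  have qA : ∀ p : ℂ, ‖p‖ ≤ 9 → |A p.re - p.re| ≤ η / 100 ∧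
      ∀ b : ℝ, |b| ≤ 11 → (A p.re + b * Complex.I : ℂ) ∈ G := fun p hp => by
    have h : |p.re| ≤ 10 := by linarith [Complex.abs_re_le_norm p]
    exact ⟨abs_le.2 ⟨by linarith [(hA1 _ h).1], by linarith [(hA1 _ h).2]⟩, hA2 _ h⟩
  have qB : ∀ p : ℂ, ‖p‖ ≤ 9 → |B p.im - p.im| ≤ η / 100 ∧
      ∀ a : ℝ, |a| ≤ 11 → (a + B p.im * Complex.I : ℂ) ∈ G := fun p hp => by
    have h : |p.im| ≤ 10 := by linarith [Complex.abs_im_le_norm p]
    exact ⟨abs_le.2 ⟨by linarith [(hB1 _ h).1], by linarith [(hB1 _ h).2]⟩, hB2 _ h⟩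
  let q : ℂ → ℂ := fun p => A p.re + B p.im * Complex.I
  have net : ∀ p p' : ℂ, ‖p‖ ≤ 9 → ‖p'‖ ≤ 9 → dist p p' ≤ η / 5 → ∀ a b : ℝ,
      ((∀ b : ℝ, |b| ≤ 11 → (a + b * Complex.I : ℂ) ∈ G) ∨
        ∀ a : ℝ, |a| ≤ 11 → (a + b * Complex.I : ℂ) ∈ G) → |a - p.re| ≤ η / 4 →
      |b - p.im| ≤ η / 4 → Φ p p' (a + b * Complex.I) = Φ p p' (q p) := by
    intro p p' hp hp' hd a b h h1 h2
    have a1 : |A p.re - p.re| ≤ η / 4 := by linarith [(qA p hp).1]
    have a2 : |B p.im - p.im| ≤ η / 4 := by linarith [(qB p hp).1]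
    rcases h with h | h
    · exact (vert p p' hp hp' hd a b _ h h1 h2 a2).trans
        (horiz p p' hp hp' hd _ a _ (qB p hp).2 a2 h1 a1)
    · exact (horiz p p' hp hp' hd b a _ h h2 h1 a1).trans
        (vert p p' hp hp' hd _ b _ (qA p hp).2 a1 h2 a2)
  obtain ⟨k, hk⟩ := cocycle (fun p p' => Φ p p' (q p)) (δ := η / 10) (by positivity)
    (fun p p' p'' hp hp' hp'' h1 h2 => by
      have a1 := re_le p p'
      have a2 := im_le p p'
      have a3 := abs_sub_le (A p.re) p.re p'.re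
      have a4 := abs_sub_le (B p.im) p.im p'.im
      rw [← net p' p'' hp' hp'' (by linarith) (A p.re) (B p.im) (Or.inl (qA p hp).2)
        (by linarith [(qA p hp).1]) (by linarith [(qB p hp).1])]
      simp only [Φ, q]
      group)
  refine ⟨fun y => ψ y (c y) * k y, fun y y' hy hy' n1 n2 hd hN => ?_⟩
  have hd' : dist y' y ≤ η / 10 := by rw [dist_comm]; linarith
  have key : Φ y' y y' = Φ y' y (q y') := by
    rcases hN with hN | ⟨w, t, rfl, hw⟩
    · have := net y' y n2 n1 (by linarith) y'.re y'.im (Or.inr hN) (by simp; positivity)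
        (by simp; positivity)
      rwa [Complex.re_add_im] at this
    · have lip : ∀ s s', dist (w + e s) (w + e s') ≤ |s - s'| := fun s s' => by
        rw [dist_add_left, dist_eq_norm]; exact e_lip s s'
      have near : ∀ s ∈ uIcc t (t + η / 10), dist (w + e s) (w + e t) ≤ η / 10 := fun s hs =>
        (lip s t).trans (abs_between hs (by simp; positivity)
          (by rw [add_sub_cancel_left, abs_of_pos (by positivity)]))
      have hc : Continuous fun s => w + e s := continuous_const.add cont_e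
      have n3 : ‖w + e (t + η / 10)‖ ≤ 10 := by
        have := near _ right_mem_uIcc
        rw [dist_eq_norm] at this
        linarith [norm_sub_norm_le (w + e (t + η / 10)) (w + e t)]
      have low : η / 10 / 2 ≤ dist (w + e (t + η / 10)) (w + e t) := by
        rw [dist_add_left, dist_eq_norm]; exact e_low t (by positivity) (by linarith)
      have : ∃ s ∈ uIcc t (t + η / 10),
          (∀ b : ℝ, |b| ≤ 11 → ((w + e s).re + b * Complex.I : ℂ) ∈ G) ∨
            ∀ a : ℝ, |a| ≤ 11 → (a + (w + e s).im * Complex.I : ℂ) ∈ G := by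
        have := dist_le_co (w + e (t + η / 10)) (w + e t)
        by_cases h : η / 100 ≤ |(w + e (t + η / 10)).re - (w + e t).re|
        · obtain ⟨s, h1, h2⟩ := hit (Complex.continuous_re.comp hc) (x := t) (x' := t + η / 10)
            ((Complex.abs_re_le_norm _).trans (n2.trans (by norm_num)))
            ((Complex.abs_re_le_norm _).trans n3) h hV
          exact ⟨s, h1, Or.inl h2⟩
        · obtain ⟨s, h1, h2⟩ := hit (Complex.continuous_im.comp hc) (x := t) (x' := t + η / 10)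
            (r := η / 100) ((Complex.abs_im_le_norm _).trans (n2.trans (by norm_num)))
            ((Complex.abs_im_le_norm _).trans n3) (by simp only [Function.comp]; linarith) hW
          exact ⟨s, h1, Or.inr h2⟩
      obtain ⟨s, h1, h2⟩ := this
      have a1 := net _ y n2 n1 (by linarith) _ _ h2 (by linarith [re_le (w + e s) (w + e t), near s h1])
        (by linarith [im_le (w + e s) (w + e t), near s h1])
      rw [Complex.re_add_im] at a1
      refine (path _ y n2 n1 (by linarith) (fun s => w + e s) lip t s fun u hu => ⟨hw u, ?_⟩).trans a1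
      linarith [near u (uIcc_subset_uIcc_left h1 hu)]
  have a1 := hψ y y y' (by linarith) hy hy' (by simpa using η0) (by linarith) hd
  beta_reduce
  rw [hk y' y n2 n1 hd', ← key]
  simp only [Φ]
  rw [a1]; group

lemma tau_self (i : Fin 5) : tau i i = 1 := Equiv.ext fun L => by
  change tau0 i i L = L
  by_cases h : L.1.head? = some i
  · exact Subtype.ext ((tau0_of_head i h).trans (step_self h))
  · simp [tau0, h]

theorem treeStmt : TreeStmt := by
  intro c G H ε η e0 e1 η1 hs hn hH hV hW hC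
  obtain ⟨F, hF⟩ := exists_lift tau tau_self tau_inv c G H e0 e1 η1 hs hn hH hV hW
  obtain ⟨b, hb, hbG⟩ := hW 0 (by simp)
  have b1 : |b| ≤ 1 / 100 := abs_le.2 ⟨by linarith [hb.1], by linarith [hb.2]⟩
  let v : ℝ → ℂ := fun x => x + b * Complex.I
  have vn : ∀ x, ‖v x‖ ≤ |x| + 1 / 100 := fun x => by
    have := Complex.norm_le_abs_re_add_abs_im (v x)
    simp only [v, Complex.add_re, Complex.ofReal_re, Complex.mul_re, Complex.I_re, mul_zero,
      Complex.ofReal_im, Complex.I_im, mul_one, sub_self, add_zero, Complex.add_im,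
      Complex.mul_im, zero_add] at this
    exact this.trans (by linarith)
  have vd : ∀ x x', dist (v x) (v x') = |x - x'| := fun x x' => by
    simp only [v, dist_add_right, Complex.dist_eq, ← Complex.ofReal_sub, Complex.norm_real,
      Real.norm_eq_abs]
  let L : ℂ → {L // Val L} := fun y => (F y * (F (v 0))⁻¹) ⟨[c (v 0)], .one _⟩
  have L0 : (L (v 0)).1 = [c (v 0)] := by simp [L]
  have hL : ∀ y y', y ∈ G → y' ∈ G → ‖y‖ ≤ 9 → ‖y'‖ ≤ 9 → dist y y' ≤ ε →
      ((∀ a : ℝ, |a| ≤ 11 → (a + y'.im * Complex.I : ℂ) ∈ G) ∨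
        ∃ w t, y' = w + e t ∧ ∀ s, w + e s ∈ G) → (L y).1.head? = some (c y) →
      (L y').1 = step (L y).1 (c y') := fun y y' h1 h2 h3 h4 h5 h6 h7 => by
    rw [← tau0_of_head (c y') h7]
    simp only [L]
    rw [hF y y' h1 h2 h3 h4 h5 h6, mul_assoc]
    rfl
  have line0 : ∀ x x', |x| ≤ 8 → |x'| ≤ 8 → |x - x'| ≤ ε → (L (v x)).1.head? = some (c (v x)) →
      (L (v x')).1 = step (L (v x)).1 (c (v x')) := fun x x' h1 h2 h3 =>
    hL _ _ (hbG x (by linarith)) (hbG x' (by linarith)) (by linarith [vn x]) (by linarith [vn x'])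
      (by rwa [vd]) (Or.inl (by simpa [v] using hbG))
  have bt : ∀ {s a b' : ℝ}, s ∈ uIcc a b' → |a| ≤ 8 → |b'| ≤ 8 → |s| ≤ 8 := fun hs h1 h2 => by
    simpa using abs_between (x := 0) hs (by simpa using h1) (by simpa using h2)
  have hd : ∀ x, |x| ≤ 8 → (L (v x)).1.head? = some (c (v x)) := fun x hx =>
    real_ind e0 0 x (fun s => (L (v s)).1.head? = some (c (v s))) (fun s h1 s' h2 h3 h4 => by
      rw [line0 s s' (bt h1 (by simp) hx) (bt h2 (by simp) hx) h3 h4]
      exact (L _).2.head _) (by rw [L0]; rfl)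
  have line : ∀ x x', |x| ≤ 8 → |x'| ≤ 8 → |x - x'| ≤ ε →
      (L (v x')).1 = step (L (v x)).1 (c (v x')) := fun x x' h1 h2 h3 => line0 x x' h1 h2 h3 (hd x h1)
  have len : ∀ n : ℕ, ∀ x, |x| ≤ 8 → |x| ≤ n * ε → (L (v x)).1.length ≤ n + 1 := by
    intro n
    induction n with
    | zero =>
      intro x _ h
      have : x = 0 := by simpa using h
      rw [this, L0]; simp
    | succ n ih =>
      intro x h1 h2
      have n0 : (0 : ℝ) < n + 1 := by positivity
      have a0 : |x * (n / (n + 1))| = |x| * (n / (n + 1)) := by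
        rw [abs_mul, abs_of_nonneg (show (0 : ℝ) ≤ n / (n + 1) by positivity)]
      have a1 : |x| * (n / (n + 1)) ≤ |x| :=
        mul_le_of_le_one_right (abs_nonneg _) ((div_le_one n0).2 (by linarith))
      push_cast at h2
      have a2 : |x| / (n + 1) ≤ ε := by rw [div_le_iff₀ n0]; linarith
      have a3 : |x * (n / (n + 1)) - x| ≤ ε := by
        have : x * (n / (n + 1)) - x = -(x / (n + 1)) := by field_simp; ring
        rw [this, abs_neg, abs_div, abs_of_pos n0]; exact a2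
      rw [line (x * (n / (n + 1))) x (by linarith) h1 a3]
      refine (step_len _ _).trans (Nat.succ_le_succ (ih _ (by linarith) ?_))
      rw [a0, ← mul_div_assoc, mul_div_right_comm, mul_comm]
      exact mul_le_mul_of_nonneg_left a2 (Nat.cast_nonneg n)
  choose! w hw1 hw2 using fun x (hx : |x| ≤ 3) => hC (v x) (by linarith [vn x])
  have wn : ∀ x, |x| ≤ 3 → ∀ t, ‖w x + e t‖ ≤ 9 := fun x hx t => by
    have h1 := hw1 x hx
    rw [dist_eq_norm] at h1
    linarith [norm_add_le (w x) (e t), norm_e t, norm_sub_norm_le (w x) (v x), vn x]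
  -- the circle of `x` meets the line
  have meet : ∀ x, |x| ≤ 3 → ∃ s t, |s| ≤ 3 ∧ |s - x| ≤ 11 / 10 ∧ v s = w x + e t := by
    intro x hx
    have hc : Continuous fun s => dist (v s) (w x) := by simp only [v]; fun_prop
    obtain ⟨x', h1, h2⟩ : ∃ x', |x'| ≤ 3 ∧ |x' - x| = 2 := by
      rw [abs_le] at hx
      rcases le_total 0 x with h | h
      · exact ⟨x - 2, abs_le.2 ⟨by linarith, by linarith⟩, by simp⟩
      · exact ⟨x + 2, abs_le.2 ⟨by linarith, by linarith⟩, by simp⟩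
    have h3 := hw1 x hx
    have h4 := dist_triangle (v x') (w x) (v x)
    rw [vd, h2] at h4
    obtain ⟨s, hs, h5⟩ := intermediate_value_uIcc (a := x) (b := x') hc.continuousOn
      (mem_uIcc.2 (Or.inl (show dist (v x) (w x) ≤ 1 ∧ 1 ≤ dist (v x') (w x) from
        ⟨by rw [dist_comm]; linarith, by linarith⟩)))
    have h6 := dist_triangle (v s) (w x) (v x)
    rw [vd] at h6
    simp only at h5
    obtain ⟨t, ht⟩ := exists_e (z := v s - w x) (by rwa [← dist_eq_norm])
    refine ⟨s, t, ?_, by linarith, by rw [← ht]; ring⟩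
    simpa using abs_between (x := 0) hs (by simpa using hx) (by simpa using h1)
  have circ0 : ∀ x, |x| ≤ 3 → ∀ t t', |t - t'| ≤ ε →
      (L (w x + e t)).1.head? = some (c (w x + e t)) →
      (L (w x + e t')).1 = step (L (w x + e t)).1 (c (w x + e t')) := fun x hx t t' h =>
    hL _ _ (hw2 x hx t).1 (hw2 x hx t').1 (wn x hx t) (wn x hx t')
      (by rw [dist_add_left, dist_eq_norm]; exact (e_lip _ _).trans h)
      (Or.inr ⟨w x, t', rfl, fun s => (hw2 x hx s).1⟩)
  have hd' : ∀ x, |x| ≤ 3 → ∀ t, (L (w x + e t)).1.head? = some (c (w x + e t)) := by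
    intro x hx t
    obtain ⟨s, t₀, h1, -, h2⟩ := meet x hx
    exact real_ind e0 t₀ t (fun t => (L (w x + e t)).1.head? = some (c (w x + e t)))
      (fun s _ s' _ h3 h4 => by rw [circ0 x hx s s' h3 h4]; exact (L _).2.head _)
      (h2 ▸ hd s (by linarith))
  have keep : ∀ x, |x| ≤ 3 → ∀ M : List (Fin 5),
      (M.head? = some (c (v x)) ∨ M.tail.head? = some (c (v x))) →
      (M.head? = some (c (v x)) ∨ ∀ j, M.tail.head? = some j → j = c (v x)) → ∀ t t',
      M <:+ (L (w x + e t)).1 → M <:+ (L (w x + e t')).1 := by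
    intro x hx M _ hM t t'
    refine real_ind e0 t t' (fun t => M <:+ (L (w x + e t)).1) fun s _ s' _ h3 h4 => ?_
    rw [circ0 x hx s s' h3 (hd' x hx s)]
    refine (suffix_step h4).resolve_right fun ⟨h5, h6⟩ => ?_
    rcases hM with hM | hM
    · rw [← h5, hd' x hx s] at hM
      exact (hw2 x hx s).2 (Option.some.inj hM)
    · exact (hw2 x hx s').2 (hM _ h6)
  have main : ∀ n : ℕ, ∃ x, |x| ≤ 3 ∧ n ≤ (L (v x)).1.length ∧
      ∀ t, (L (v x)).1 <:+ (L (w x + e t)).1 := by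
    intro n
    induction n with
    | zero =>
      refine ⟨0, by simp, Nat.zero_le _, fun t => ?_⟩
      obtain ⟨s, t₀, h1, -, h2⟩ := meet 0 (by simp)
      refine keep 0 (by simp) _ (Or.inl (hd 0 (by simp))) (Or.inl (hd 0 (by simp))) t₀ t ?_
      rw [← h2]
      refine real_ind e0 0 s (fun s => (L (v 0)).1 <:+ (L (v s)).1) (fun u h3 u' h4 h5 h6 => ?_)
        List.suffix_rfl
      rw [line u u' (bt h3 (by simp) (by linarith)) (bt h4 (by simp) (by linarith)) h5]
      refine (suffix_step h6).resolve_right fun ⟨_, h8⟩ => ?_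
      rw [L0] at h8; simp at h8
    | succ n ih =>
      obtain ⟨x, hx, hl, hD⟩ := ih
      obtain ⟨s, t₀, h1, h1', h2⟩ := meet x hx
      obtain ⟨j, hj⟩ : ∃ j, j :: (L (v x)).1 <:+ (L (v s)).1 := by
        obtain ⟨A, hA⟩ := h2 ▸ hD t₀
        rcases List.eq_nil_or_concat A with rfl | ⟨A', j, rfl⟩
        · have a1 := hd s (by linarith)
          rw [← hA, List.nil_append, hd x (by linarith), h2] at a1
          exact absurd (Option.some.inj a1).symm (hw2 x hx t₀).2
        · exact ⟨j, A', by simpa using hA⟩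
      obtain ⟨s₁, hs₁, e₁⟩ : ∃ s₁ ∈ uIcc s x, (L (v s₁)).1 = j :: (L (v x)).1 := by
        by_contra hc
        push Not at hc
        have := real_ind e0 s x (fun u => j :: (L (v x)).1 <:+ (L (v u)).1)
          (fun u h3 u' h4 h5 h6 => by
            rw [line u u' (bt h3 (by linarith) (by linarith)) (bt h4 (by linarith) (by linarith)) h5]
            exact (suffix_step h6).resolve_right fun h7 => hc u h3 h7.1) hj
        have := this.length_le
        simp at this
      have x1 : |s₁| ≤ 3 := by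
        simpa using abs_between (x := 0) hs₁ (by simpa using h1) (by simpa using hx)
      have x2 : |s₁ - x| ≤ 11 / 10 := abs_between hs₁ h1' (by norm_num)
      obtain ⟨t₁, t₂, ht⟩ := circles_meet (w := w x) (w' := w s₁) (by
        have a1 := dist_triangle4 (w x) (v x) (v s₁) (w s₁)
        rw [vd, abs_sub_comm, dist_comm (v s₁)] at a1
        rw [← dist_eq_norm]
        linarith [hw1 x hx, hw1 s₁ x1])
      have k1 : (j :: (L (v x)).1).tail.head? = some (c (v x)) := hd x (by linarith)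
      have k2 := keep x hx (j :: (L (v x)).1) (Or.inr k1)
        (Or.inr fun i hi => Option.some.inj (hi.symm.trans k1)) t₀ t₁ (h2 ▸ hj)
      refine ⟨s₁, x1, by rw [e₁, List.length_cons]; omega, fun t => ?_⟩
      refine keep s₁ x1 _ (Or.inl (hd s₁ (by linarith))) (Or.inl (hd s₁ (by linarith))) t₂ t ?_
      rw [e₁, ← ht]; exact k2
  obtain ⟨n, hn⟩ := exists_nat_ge (3 / ε)
  obtain ⟨x, hx, h1, -⟩ := main (n + 2)
  have := len n x (by linarith) (hx.trans ((div_le_iff₀ e0).1 hn))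
  omega

end Crest.Agent.H7.P3
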