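import Mathlib
import Crest.Prelude.Def_QuadricHamiltonian

set_option autoImplicit false

open scoped ContDiff Topology NNReal
open Set Filter Metric
open Crest.GeometryTopology.Quadric

namespace Crest.Agent.H7.Q3

abbrev E := Fin 5 → ℂ

/-- moment map entries -/
def mu (z : E) (j k : Fin 5) : ℝ := (z j).re * (z k).im - (z j).im * (z k).re

def dmu (z w : E) (j k : Fin 5) : ℝ :=
  ((w j).re * (z k).im + (z j).re * (w k).im) - ((w j).im * (z k).re + (z j).im * (w k).re)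

/-- self-dual and anti-self-dual parts -/
def mm (z : E) : Fin 6 → ℝ :=
  ![2 * (mu z 0 1 + mu z 2 3), 2 * (mu z 0 2 - mu z 1 3), 2 * (mu z 0 3 + mu z 1 2),
    2 * (mu z 0 1 - mu z 2 3), 2 * (mu z 0 2 + mu z 1 3), 2 * (mu z 0 3 - mu z 1 2)]

def dmm (z w : E) : Fin 6 → ℝ :=
  ![2 * (dmu z w 0 1 + dmu z w 2 3), 2 * (dmu z w 0 2 - dmu z w 1 3),
    2 * (dmu z w 0 3 + dmu z w 1 2),
    2 * (dmu z w 0 1 - dmu z w 2 3), 2 * (dmu z w 0 2 + dmu z w 1 3),
    2 * (dmu z w 0 3 - dmu z w 1 2)]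

/-- the function on `S² × S²` with three critical points -/
def FF (v : Fin 6 → ℝ) : ℝ := v 1 + v 4 - v 0 * v 4 - v 1 * v 3 + v 2 * v 5

def dF (v : Fin 6 → ℝ) : Fin 6 → ℝ := ![-v 4, 1 - v 3, v 5, -v 1, 1 - v 0, v 2]

/-- infinitesimal action of `so(4)` -/
noncomputable def act (c : Fin 6 → ℝ) (z : E) : E :=
  ![-((c 0 + c 3) • z 1 + (c 1 + c 4) • z 2 + (c 2 + c 5) • z 3),
    (c 0 + c 3) • z 0 - (c 2 - c 5) • z 2 - (c 4 - c 1) • z 3,
    (c 1 + c 4) • z 0 + (c 2 - c 5) • z 1 - (c 0 - c 3) • z 3,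
    (c 2 + c 5) • z 0 + (c 4 - c 1) • z 1 + (c 0 - c 3) • z 2,
    0]

/-- induced vector field on moment space -/
def GG (c v : Fin 6 → ℝ) : Fin 6 → ℝ :=
  ![2 * (c 1 * v 2 - c 2 * v 1), 2 * (c 2 * v 0 - c 0 * v 2), 2 * (c 0 * v 1 - c 1 * v 0),
    -2 * (c 4 * v 5 - c 5 * v 4), -2 * (c 5 * v 3 - c 3 * v 5), -2 * (c 3 * v 4 - c 4 * v 3)]

/-- rotation -/
noncomputable def rot (θ : ℝ) (z : E) : E :=
  ![Real.cos θ • z 0 - Real.sin θ • z 1, Real.sin θ • z 0 + Real.cos θ • z 1,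
    Real.cos θ • z 2 - Real.sin θ • z 3, Real.sin θ • z 2 + Real.cos θ • z 3, z 4]

lemma dmm_act (c : Fin 6 → ℝ) (z : E) : dmm z (act c z) = GG c (mm z) := by
  ext i
  fin_cases i <;> simp [dmm, dmu, act, GG, mm, mu] <;> ring

lemma ham_act (c : Fin 6 → ℝ) (z w : E) :
    2 * (herm (act c z) w).im = ∑ i, c i * dmm z w i := by
  simp [herm, Fin.sum_univ_succ, act, dmm, dmu]
  ring

lemma herm_act (c : Fin 6 → ℝ) (z : E) : herm (act c z) z + herm z (act c z) = 0 := by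
  simp [herm, Fin.sum_univ_succ, act]
  ring

lemma sq_act (c : Fin 6 → ℝ) (z : E) : ∑ j, z j * act c z j = 0 := by
  simp [Fin.sum_univ_succ, act]
  ring

lemma act_four (c : Fin 6 → ℝ) (z : E) : act c z 4 = 0 := by simp [act]

lemma act_smul_left (r : ℝ) (c : Fin 6 → ℝ) (z : E) : act (r • c) z = r • act c z := by
  ext i
  fin_cases i <;> simp [act] <;> ring

lemma act_smul_right (a : ℂ) (c : Fin 6 → ℝ) (z : E) : act c (a • z) = a • act c z := by
  ext i
  fin_cases i <;> simp [act] <;> ring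

lemma mu_smul (a : ℂ) (z : E) (j k : Fin 5) : mu (a • z) j k = ‖a‖ ^ 2 * mu z j k := by
  rw [Complex.sq_norm, Complex.normSq_apply]
  simp [mu]
  ring

lemma mm_smul (a : ℂ) (ha : ‖a‖ = 1) (z : E) : mm (a • z) = mm z := by
  simp [mm, mu_smul, ha]

lemma herm_rot (θ : ℝ) (u w : E) : herm (rot θ u) w = herm u (rot (-θ) w) := by
  simp [herm, Fin.sum_univ_succ, rot, -Complex.ofReal_cos, -Complex.ofReal_sin]
  ring

lemma rot_rot (θ : ℝ) (u : E) : rot (-θ) (rot θ u) = u := by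
  have h : (Real.cos θ : ℂ) ^ 2 + (Real.sin θ : ℂ) ^ 2 = 1 := by
    exact_mod_cast Real.cos_sq_add_sin_sq θ
  ext i
  fin_cases i <;> simp [rot, -Complex.ofReal_cos, -Complex.ofReal_sin]
  · linear_combination (u 0) * h
  · linear_combination (u 1) * h
  · linear_combination (u 2) * h
  · linear_combination (u 3) * h

lemma rot_smul (θ : ℝ) (a : ℂ) (u : E) : rot θ (a • u) = a • rot θ u := by
  ext i
  fin_cases i <;> simp [rot, -Complex.ofReal_cos, -Complex.ofReal_sin] <;> ring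

lemma rot_rsmul (θ : ℝ) (a : ℝ) (u : E) : rot θ (a • u) = a • rot θ u := by
  ext i
  fin_cases i <;> simp [rot, -Complex.ofReal_cos, -Complex.ofReal_sin] <;> ring

lemma rot_add (θ : ℝ) (u w : E) : rot θ (u + w) = rot θ u + rot θ w := by
  ext i
  fin_cases i <;> simp [rot, -Complex.ofReal_cos, -Complex.ofReal_sin] <;> ring

lemma rot_zero (u : E) : rot 0 u = u := by
  ext i
  fin_cases i <;> simp [rot]

lemma rot_pi (u : E) : rot Real.pi u = ![-u 0, -u 1, -u 2, -u 3, u 4] := by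
  ext i
  fin_cases i <;> simp [rot]

lemma rot_mem {z : E} (hz : z ∈ unitCone) (θ : ℝ) : rot θ z ∈ unitCone := by
  have h : (Real.cos θ : ℂ) ^ 2 + (Real.sin θ : ℂ) ^ 2 = 1 := by
    exact_mod_cast Real.cos_sq_add_sin_sq θ
  refine ⟨by rw [herm_rot, rot_rot, hz.1], ?_⟩
  have h2 := hz.2
  simp [Fin.sum_univ_succ, rot, -Complex.ofReal_cos, -Complex.ofReal_sin] at h2 ⊢
  linear_combination h2 + (z 0 ^ 2 + z 1 ^ 2 + z 2 ^ 2 + z 3 ^ 2) * h

lemma smul_mem {z : E} (hz : z ∈ unitCone) {a : ℂ} (ha : ‖a‖ = 1) : a • z ∈ unitCone := by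
  have h1 := hz.1
  have h2 := hz.2
  have h3 : (starRingEnd ℂ) a * a = 1 := by
    rw [Complex.conj_mul', ha]; simp
  constructor
  · simp [herm, Fin.sum_univ_succ] at h1 ⊢
    linear_combination ((starRingEnd ℂ) a * a) * h1 + h3
  · simp [Fin.sum_univ_succ] at h2 ⊢
    linear_combination a ^ 2 * h2

/-- real form of the cone equations -/
lemma cone_real {z : E} (hz : z ∈ unitCone) :
    (z 0).re ^ 2 + (z 1).re ^ 2 + (z 2).re ^ 2 + (z 3).re ^ 2 + (z 4).re ^ 2 = 1 / 2 ∧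
    (z 0).im ^ 2 + (z 1).im ^ 2 + (z 2).im ^ 2 + (z 3).im ^ 2 + (z 4).im ^ 2 = 1 / 2 ∧
    (z 0).re * (z 0).im + (z 1).re * (z 1).im + (z 2).re * (z 2).im + (z 3).re * (z 3).im
      + (z 4).re * (z 4).im = 0 := by
  have h1 := congrArg Complex.re hz.1
  have h2 := congrArg Complex.re hz.2
  have h3 := congrArg Complex.im hz.2
  simp [herm, Fin.sum_univ_succ, sq] at h1 h2 h3
  refine ⟨by nlinarith, by nlinarith, by nlinarith⟩

lemma norm_le_of_mem {z : E} (hz : z ∈ unitCone) : ‖z‖ ≤ 1 := by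
  obtain ⟨h1, h2, -⟩ := cone_real hz
  refine (pi_norm_le_iff_of_nonneg zero_le_one).2 fun i => ?_
  have : ‖z i‖ ^ 2 ≤ 1 := by
    rw [Complex.sq_norm, Complex.normSq_apply]
    fin_cases i <;> simp <;> nlinarith [sq_nonneg (z 0).re, sq_nonneg (z 1).re, sq_nonneg (z 2).re,
      sq_nonneg (z 3).re, sq_nonneg (z 4).re, sq_nonneg (z 0).im, sq_nonneg (z 1).im,
      sq_nonneg (z 2).im, sq_nonneg (z 3).im, sq_nonneg (z 4).im]
  nlinarith [norm_nonneg (z i)]

lemma mm_unit {z : E} (hz : z ∈ unitCone) (h4 : z 4 = 0) :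
    mm z 0 ^ 2 + mm z 1 ^ 2 + mm z 2 ^ 2 = 1 ∧ mm z 3 ^ 2 + mm z 4 ^ 2 + mm z 5 ^ 2 = 1 := by
  obtain ⟨h1, h2, h3⟩ := cone_real hz
  simp [h4] at h1 h2 h3
  simp [mm, mu]
  constructor
  · linear_combination (4 * ((z 0).im ^ 2 + (z 1).im ^ 2 + (z 2).im ^ 2 + (z 3).im ^ 2)) * h1
      + 2 * h2 - 4 * ((z 0).re * (z 0).im + (z 1).re * (z 1).im + (z 2).re * (z 2).im
        + (z 3).re * (z 3).im) * h3
  · linear_combination (4 * ((z 0).im ^ 2 + (z 1).im ^ 2 + (z 2).im ^ 2 + (z 3).im ^ 2)) * h1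
      + 2 * h2 - 4 * ((z 0).re * (z 0).im + (z 1).re * (z 1).im + (z 2).re * (z 2).im
        + (z 3).re * (z 3).im) * h3

/-- the critical points -/
lemma crit {v : Fin 6 → ℝ} (h1 : v 0 ^ 2 + v 1 ^ 2 + v 2 ^ 2 = 1)
    (h2 : v 3 ^ 2 + v 4 ^ 2 + v 5 ^ 2 = 1) (h : GG (dF v) v = 0) :
    v 2 = 0 ∧ v 5 = 0 ∧ v 3 = v 0 ∧ v 4 = v 1 ∧ (v 0 = 1 ∨ v 0 = -1 / 2) := by
  have e0 := congrFun h 0
  have e1 := congrFun h 1
  have e2 := congrFun h 2
  have e3 := congrFun h 3
  have e4 := congrFun h 4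
  have e5 := congrFun h 5
  simp only [GG, dF, Matrix.cons_val, Pi.zero_apply] at e0 e1 e2 e3 e4 e5
  set X1 := v 0
  set X2 := v 1
  set X3 := v 2
  set Y1 := v 3
  set Y2 := v 4
  set Y3 := v 5
  set a := -Y2 * X1 + (1 - Y1) * X2 + Y3 * X3 with ha
  set b := -X2 * Y1 + (1 - X1) * Y2 + X3 * Y3 with hb
  have p1 : -Y2 = a * X1 := by
    rw [ha]; linear_combination Y2 * h1 - (X3 / 2) * e1 + (X2 / 2) * e2
  have p2 : 1 - Y1 = a * X2 := by
    rw [ha]; linear_combination -(1 - Y1) * h1 - (X1 / 2) * e2 + (X3 / 2) * e0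
  have p3 : Y3 = a * X3 := by
    rw [ha]; linear_combination -Y3 * h1 - (X2 / 2) * e0 + (X1 / 2) * e1
  have q1 : -X2 = b * Y1 := by
    rw [hb]; linear_combination X2 * h2 + (Y3 / 2) * e4 - (Y2 / 2) * e5
  have q2 : 1 - X1 = b * Y2 := by
    rw [hb]; linear_combination -(1 - X1) * h2 + (Y1 / 2) * e5 - (Y3 / 2) * e3
  have q3 : X3 = b * Y3 := by
    rw [hb]; linear_combination -X3 * h2 + (Y2 / 2) * e3 - (Y1 / 2) * e4
  clear_value a b
  have r1 : X1 * (1 - a * b) = 1 := by linear_combination -q2 + b * p1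
  have r2 : Y1 * (1 - a * b) = 1 := by linear_combination -p2 + a * q1
  have hab : 1 - a * b ≠ 0 := by
    intro h0; rw [h0] at r1; simp at r1
  have hX3 : X3 = 0 := by
    have : X3 * (1 - a * b) = 0 := by linear_combination q3 + b * p3
    exact (mul_eq_zero.1 this).resolve_right hab
  have hY3 : Y3 = 0 := by rw [p3, hX3, mul_zero]
  have hXY : Y1 = X1 := mul_right_cancel₀ hab (r2.trans r1.symm)
  rw [hX3] at h1
  rw [hY3, hXY] at h2
  rw [hXY] at p2 q1
  have hsq : (Y2 - X2) * (Y2 + X2) = 0 := by linear_combination h2 - h1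
  have hX1 : X1 ≠ 0 := by
    intro h0; rw [h0] at r1; simp at r1
  have key : -Y2 * X2 = X1 * (1 - X1) := by linear_combination X2 * p1 - X1 * p2
  rcases mul_eq_zero.1 hsq with h0 | h0
  · have hY2 : Y2 = X2 := by linarith
    refine ⟨hX3, hY3, hXY, hY2, ?_⟩
    rw [hY2] at key
    have : (X1 - 1) * (2 * X1 + 1) = 0 := by linear_combination h1 + key
    rcases mul_eq_zero.1 this with h | h
    · left; linarith
    · right; linarith
  · have hY2 : Y2 = -X2 := by linarith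
    rw [hY2] at key
    have hx : X1 = 1 := by linear_combination h1 - key
    have hx2 : X2 = 0 := by
      rw [hx] at h1
      have : X2 ^ 2 = 0 := by linarith
      exact pow_eq_zero_iff (two_ne_zero) |>.1 this
    exact ⟨hX3, hY3, hXY, by rw [hY2, hx2]; simp, Or.inl hx⟩

/-- the model points -/
noncomputable def zp (c s : ℝ) : E :=
  ![⟨1 / 2, 1 / 2⟩, ⟨-c / 2, c / 2⟩, ⟨-s / 2, s / 2⟩, 0, 0]

lemma zp_mem {c s : ℝ} (h : c ^ 2 + s ^ 2 = 1) : zp c s ∈ unitCone := by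
  constructor
  · apply Complex.ext
    · simp [herm, Fin.sum_univ_succ, zp]
      linear_combination (1 / 2) * h
    · simp [herm, Fin.sum_univ_succ, zp]
      ring
  · apply Complex.ext
    · simp [Fin.sum_univ_succ, zp, sq]
      ring
    · simp [Fin.sum_univ_succ, zp, sq]
      linear_combination (-1 / 2) * h

lemma mm_zp (c s : ℝ) : mm (zp c s) = ![c, s, 0, c, s, 0] := by
  ext i
  fin_cases i <;> simp [mm, mu, zp] <;> ring

/-- reconstruction of the line from the moment -/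
lemma eq_zp {z : E} (hz : z ∈ unitCone) (h4 : z 4 = 0) {c s : ℝ}
    (hm : mm z = ![c, s, 0, c, s, 0]) : z = (z 0 * (1 - Complex.I)) • zp c s := by
  obtain ⟨h1, h2, h3⟩ := cone_real hz
  simp [h4] at h1 h2 h3
  have e0 := congrFun hm 0
  have e1 := congrFun hm 1
  have e2 := congrFun hm 2
  have e3 := congrFun hm 3
  have e4 := congrFun hm 4
  have e5 := congrFun hm 5
  simp only [mm, mu, Matrix.cons_val] at e0 e1 e2 e3 e4 e5
  have m01 : (z 0).re * (z 1).im - (z 0).im * (z 1).re = c / 2 := by linarith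
  have m23 : (z 2).re * (z 3).im - (z 2).im * (z 3).re = 0 := by linarith
  have m02 : (z 0).re * (z 2).im - (z 0).im * (z 2).re = s / 2 := by linarith
  have m13 : (z 1).re * (z 3).im - (z 1).im * (z 3).re = 0 := by linarith
  have m03 : (z 0).re * (z 3).im - (z 0).im * (z 3).re = 0 := by linarith
  have m12 : (z 1).re * (z 2).im - (z 1).im * (z 2).re = 0 := by linarith
  have a1 : (z 1).re = -c * (z 0).im := by
    linear_combination (-2 * (z 0).im) * m01 + 2 * (z 2).im * m12 + 2 * (z 3).im * m13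
      - 2 * (z 1).re * h2 + 2 * (z 1).im * h3
  have b1 : (z 1).im = c * (z 0).re := by
    linear_combination (2 * (z 0).re) * m01 - 2 * (z 2).re * m12 - 2 * (z 3).re * m13
      - 2 * (z 1).im * h1 + 2 * (z 1).re * h3
  have a2 : (z 2).re = -s * (z 0).im := by
    linear_combination (-2 * (z 0).im) * m02 - 2 * (z 1).im * m12 + 2 * (z 3).im * m23
      - 2 * (z 2).re * h2 + 2 * (z 2).im * h3
  have b2 : (z 2).im = s * (z 0).re := by
    linear_combination (2 * (z 0).re) * m02 + 2 * (z 1).re * m12 - 2 * (z 3).re * m23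
      - 2 * (z 2).im * h1 + 2 * (z 2).re * h3
  have a3 : (z 3).re = 0 := by
    linear_combination (-2 * (z 0).im) * m03 - 2 * (z 1).im * m13 - 2 * (z 2).im * m23
      - 2 * (z 3).re * h2 + 2 * (z 3).im * h3
  have b3 : (z 3).im = 0 := by
    linear_combination (2 * (z 0).re) * m03 + 2 * (z 1).re * m13 + 2 * (z 2).re * m23
      - 2 * (z 3).im * h1 + 2 * (z 3).re * h3
  ext i
  fin_cases i
  · apply Complex.ext <;> simp [zp] <;> ring
  · apply Complex.ext <;> simp [zp, a1, b1] <;> ring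
  · apply Complex.ext <;> simp [zp, a2, b2] <;> ring
  · apply Complex.ext <;> simp [zp, a3, b3]
  · simp [zp, h4]

/-- at the critical points the vector field is vertical -/
lemma act_zp {c s : ℝ} (h : c ^ 2 + s ^ 2 = 1) (hc : c = 1 ∨ c = -1 / 2) :
    ∃ l : ℝ, act (dF (mm (zp c s))) (zp c s) = ((l : ℂ) * Complex.I) • zp c s := by
  rw [mm_zp]
  rcases hc with rfl | rfl
  · have : s = 0 := by nlinarith
    subst this
    refine ⟨0, ?_⟩
    ext i
    fin_cases i <;> simp [act, dF]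
  · refine ⟨-4 * s, ?_⟩
    ext i
    fin_cases i <;> apply Complex.ext <;> simp [act, dF, zp] <;> nlinarith

/-! ### calculus -/

lemma hasDerivAt_re {u : ℝ → E} {u' : E} {t : ℝ} (h : HasDerivAt u u' t) (j : Fin 5) :
    HasDerivAt (fun s => (u s j).re) (u' j).re t :=
  Complex.reCLM.hasFDerivAt.comp_hasDerivAt t (hasDerivAt_pi.1 h j)

lemma hasDerivAt_im {u : ℝ → E} {u' : E} {t : ℝ} (h : HasDerivAt u u' t) (j : Fin 5) :
    HasDerivAt (fun s => (u s j).im) (u' j).im t :=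
  Complex.imCLM.hasFDerivAt.comp_hasDerivAt t (hasDerivAt_pi.1 h j)

lemma hasDerivAt_mu {u : ℝ → E} {u' : E} {t : ℝ} (h : HasDerivAt u u' t) (j k : Fin 5) :
    HasDerivAt (fun s => mu (u s) j k) (dmu (u t) u' j k) t :=
  ((hasDerivAt_re h j).mul (hasDerivAt_im h k)).sub ((hasDerivAt_im h j).mul (hasDerivAt_re h k))

lemma hasDerivAt_mm {u : ℝ → E} {u' : E} {t : ℝ} (h : HasDerivAt u u' t) :
    HasDerivAt (fun s => mm (u s)) (dmm (u t) u') t := by
  refine hasDerivAt_pi.2 fun i => ?_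
  fin_cases i
  · exact ((hasDerivAt_mu h 0 1).add (hasDerivAt_mu h 2 3)).const_mul 2
  · exact ((hasDerivAt_mu h 0 2).sub (hasDerivAt_mu h 1 3)).const_mul 2
  · exact ((hasDerivAt_mu h 0 3).add (hasDerivAt_mu h 1 2)).const_mul 2
  · exact ((hasDerivAt_mu h 0 1).sub (hasDerivAt_mu h 2 3)).const_mul 2
  · exact ((hasDerivAt_mu h 0 2).add (hasDerivAt_mu h 1 3)).const_mul 2
  · exact ((hasDerivAt_mu h 0 3).sub (hasDerivAt_mu h 1 2)).const_mul 2

lemma hasDerivAt_FF {v : ℝ → Fin 6 → ℝ} {v' : Fin 6 → ℝ} {t : ℝ} (h : HasDerivAt v v' t) :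
    HasDerivAt (fun s => FF (v s)) (∑ i, dF (v t) i * v' i) t := by
  have h' := hasDerivAt_pi.1 h
  have := ((((h' 1).add (h' 4)).sub ((h' 0).mul (h' 4))).sub ((h' 1).mul (h' 3))).add
    ((h' 2).mul (h' 5))
  refine HasDerivAt.congr_deriv this ?_
  simp [dF, Fin.sum_univ_succ]
  ring

lemma hasDerivAt_herm {u : ℝ → E} {u' : E} {t : ℝ} (h : HasDerivAt u u' t) :
    HasDerivAt (fun s => herm (u s) (u s)) (herm u' (u t) + herm (u t) u') t := by
  have h' := hasDerivAt_pi.1 h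
  have h'' : ∀ j, HasDerivAt (fun s => (starRingEnd ℂ) (u s j)) ((starRingEnd ℂ) (u' j)) t :=
    fun j => Complex.conjCLE.toContinuousLinearMap.hasFDerivAt.comp_hasDerivAt t (h' j)
  have := HasDerivAt.fun_sum (u := Finset.univ) (fun j _ => (h'' j).mul (h' j))
  refine HasDerivAt.congr_deriv this ?_
  simp [herm, Finset.sum_add_distrib]

lemma hasDerivAt_sq {u : ℝ → E} {u' : E} {t : ℝ} (h : HasDerivAt u u' t) :
    HasDerivAt (fun s => ∑ j, u s j ^ 2) (2 * ∑ j, u t j * u' j) t := by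
  have h' := hasDerivAt_pi.1 h
  have := HasDerivAt.fun_sum (u := Finset.univ) (fun j _ => (h' j).fun_mul (h' j))
  simp only [sq]
  refine HasDerivAt.congr_deriv this ?_
  rw [Finset.mul_sum]; refine Finset.sum_congr rfl fun j _ => by ring

lemma hasDerivAt_rot {θ : ℝ → ℝ} {θ' : ℝ} {u : ℝ → E} {u' : E} {t : ℝ} (hθ : HasDerivAt θ θ' t)
    (h : HasDerivAt u u' t) :
    HasDerivAt (fun s => rot (θ s) (u s))
      (act (θ' • ![1, 0, 0, 0, 0, 0]) (rot (θ t) (u t)) + rot (θ t) u') t := by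
  have h' := hasDerivAt_pi.1 h
  have hc := hθ.cos
  have hs := hθ.sin
  refine hasDerivAt_pi.2 fun i => ?_
  fin_cases i
  · refine HasDerivAt.congr_deriv ((hc.smul (h' 0)).sub (hs.smul (h' 1))) ?_
    simp [act, rot, -Complex.ofReal_cos, -Complex.ofReal_sin]; ring
  · refine HasDerivAt.congr_deriv ((hs.smul (h' 0)).add (hc.smul (h' 1))) ?_
    simp [act, rot, -Complex.ofReal_cos, -Complex.ofReal_sin]; ring
  · refine HasDerivAt.congr_deriv ((hc.smul (h' 2)).sub (hs.smul (h' 3))) ?_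
    simp [act, rot, -Complex.ofReal_cos, -Complex.ofReal_sin]; ring
  · refine HasDerivAt.congr_deriv ((hs.smul (h' 2)).add (hc.smul (h' 3))) ?_
    simp [act, rot, -Complex.ofReal_cos, -Complex.ofReal_sin]; ring
  · refine HasDerivAt.congr_deriv (h' 4) ?_
    simp [act, rot]

lemma contDiff_mu (j k : Fin 5) : ContDiff ℝ ∞ (fun z : E => mu z j k) := by
  have hre : ∀ j, ContDiff ℝ ∞ (fun z : E => (z j).re) := fun j =>
    Complex.reCLM.contDiff.comp (contDiff_apply ℝ ℂ j)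
  have him : ∀ j, ContDiff ℝ ∞ (fun z : E => (z j).im) := fun j =>
    Complex.imCLM.contDiff.comp (contDiff_apply ℝ ℂ j)
  exact ((hre j).mul (him k)).sub ((him j).mul (hre k))

lemma contDiff_mm : ContDiff ℝ ∞ mm := by
  refine contDiff_pi.2 fun i => ?_
  fin_cases i
  · exact contDiff_const.mul ((contDiff_mu 0 1).add (contDiff_mu 2 3))
  · exact contDiff_const.mul ((contDiff_mu 0 2).sub (contDiff_mu 1 3))
  · exact contDiff_const.mul ((contDiff_mu 0 3).add (contDiff_mu 1 2))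
  · exact contDiff_const.mul ((contDiff_mu 0 1).sub (contDiff_mu 2 3))
  · exact contDiff_const.mul ((contDiff_mu 0 2).add (contDiff_mu 1 3))
  · exact contDiff_const.mul ((contDiff_mu 0 3).sub (contDiff_mu 1 2))

lemma contDiff_FF : ContDiff ℝ ∞ FF := by
  unfold FF; fun_prop

lemma contDiff_dF : ContDiff ℝ ∞ dF := by
  refine contDiff_pi.2 fun i => ?_
  fin_cases i <;> simp [dF] <;> fun_prop

lemma contDiff_act : ContDiff ℝ ∞ (fun p : (Fin 6 → ℝ) × E => act p.1 p.2) := by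
  refine contDiff_pi.2 fun i => ?_
  fin_cases i <;> simp only [act, Matrix.cons_val, Fin.reduceFinMk] <;> fun_prop

lemma contDiff_GG : ContDiff ℝ ∞ (fun v : Fin 6 → ℝ => GG (dF v) v) := by
  refine contDiff_pi.2 fun i => ?_
  fin_cases i <;> simp [GG, dF] <;> fun_prop

lemma contDiff_rot : ContDiff ℝ ∞ (fun p : ℝ × E => rot p.1 p.2) := by
  refine contDiff_pi.2 fun i => ?_
  fin_cases i <;> simp only [rot, Matrix.cons_val, Fin.reduceFinMk] <;> fun_prop

end Crest.Agent.H7.Q3
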