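import Mathlib
import Crest.Agent.H7.Nemytskii

set_option autoImplicit false

open scoped ContDiff Topology NNReal
open Set Filter Metric MeasureTheory

namespace Crest.Agent.H7

variable {E : Type} [NormedAddCommGroup E] [NormedSpace ℝ E] [CompleteSpace E]

/-- extension of a path on `[0,1]` to the line -/
noncomputable def pext (γ : C(Icc (0:ℝ) 1, E)) (r : ℝ) : E := γ (projIcc 0 1 zero_le_one r)

omit [NormedSpace ℝ E] [CompleteSpace E] in
lemma continuous_pext (γ : C(Icc (0:ℝ) 1, E)) : Continuous (pext γ) :=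
  γ.continuous.comp continuous_projIcc

omit [NormedSpace ℝ E] [CompleteSpace E] in
lemma pext_of_mem (γ : C(Icc (0:ℝ) 1, E)) {r : ℝ} (hr : r ∈ Icc (0:ℝ) 1) :
    pext γ r = γ ⟨r, hr⟩ := by
  simp [pext, projIcc_of_mem _ hr]

omit [NormedSpace ℝ E] [CompleteSpace E] in
lemma norm_pext_le (γ : C(Icc (0:ℝ) 1, E)) (r : ℝ) : ‖pext γ r‖ ≤ ‖γ‖ :=
  γ.norm_coe_le_norm _

/-- the primitive, as a linear map -/
noncomputable def primLin : C(Icc (0:ℝ) 1, E) →ₗ[ℝ] C(Icc (0:ℝ) 1, E) where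
  toFun γ := ⟨fun s => ∫ r in (0:ℝ)..s, pext γ r,
    (intervalIntegral.continuous_primitive
      (fun a b => (continuous_pext γ).intervalIntegrable a b) 0).comp continuous_subtype_val⟩
  map_add' γ η := by
    ext s
    simp only [ContinuousMap.coe_mk, ContinuousMap.add_apply]
    rw [← intervalIntegral.integral_add ((continuous_pext γ).intervalIntegrable _ _)
      ((continuous_pext η).intervalIntegrable _ _)]
    rfl
  map_smul' c γ := by
    ext s
    simp only [ContinuousMap.coe_mk, ContinuousMap.smul_apply, RingHom.id_apply]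
    rw [← intervalIntegral.integral_smul]
    rfl

omit [CompleteSpace E] in
lemma norm_primLin_le (γ : C(Icc (0:ℝ) 1, E)) : ‖primLin γ‖ ≤ 1 * ‖γ‖ := by
  rw [one_mul]
  refine (ContinuousMap.norm_le _ (norm_nonneg _)).2 fun s => ?_
  have := intervalIntegral.norm_integral_le_of_norm_le_const (a := 0) (b := (s:ℝ))
    (f := pext γ) (C := ‖γ‖) (fun r _ => norm_pext_le γ r)
  refine this.trans ?_
  rw [sub_zero, abs_of_nonneg s.2.1]
  exact mul_le_of_le_one_right (norm_nonneg _) s.2.2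

/-- the primitive, as a continuous linear map -/
noncomputable def prim : C(Icc (0:ℝ) 1, E) →L[ℝ] C(Icc (0:ℝ) 1, E) :=
  LinearMap.mkContinuous primLin 1 norm_primLin_le

omit [CompleteSpace E] in
lemma prim_apply (γ : C(Icc (0:ℝ) 1, E)) (s : Icc (0:ℝ) 1) :
    prim γ s = ∫ r in (0:ℝ)..s, pext γ r := rfl

omit [CompleteSpace E] in
lemma norm_prim_apply_le (γ : C(Icc (0:ℝ) 1, E)) : ‖prim γ‖ ≤ ‖γ‖ := by
  have := norm_primLin_le γ
  rw [one_mul] at this
  exact this

omit [NormedSpace ℝ E] [CompleteSpace E] in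
lemma lipschitz_nem {W : E → E} {K : ℝ≥0} (hK : LipschitzWith K W) :
    LipschitzWith K (nem (X := Icc (0:ℝ) 1) W hK.continuous) := by
  refine LipschitzWith.of_dist_le_mul fun γ η => ?_
  refine (ContinuousMap.dist_le (by positivity)).2 fun x => ?_
  calc dist (W (γ x)) (W (η x)) ≤ K * dist (γ x) (η x) := hK.dist_le_mul _ _
    _ ≤ K * dist γ η := by gcongr; exact ContinuousMap.dist_apply_le_dist x

section abstract
variable {C : Type} [NormedAddCommGroup C] [NormedSpace ℝ C] [CompleteSpace C]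

theorem exists_smooth_fixedPoint {N : C → C} {K : ℝ≥0} (hK : LipschitzWith K N)
    (hNs : ContDiff ℝ ∞ N) (cst : E →L[ℝ] C) :
    ∃ g : ℝ × E → C, (∀ p : ℝ × E, |p.1| * K < 1 → ContDiffAt ℝ ∞ g p) ∧
      (∀ p : ℝ × E, |p.1| * K < 1 → g p = cst p.2 + p.1 • N (g p)) ∧
      (∀ p : ℝ × E, |p.1| * K < 1 → ∀ γ, γ = cst p.2 + p.1 • N γ → γ = g p) := by
  classical
  have hcon : ∀ p : ℝ × E, |p.1| * K < 1 →
      ContractingWith (‖p.1‖₊ * K) (fun γ => cst p.2 + p.1 • N γ) := by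
    intro p hp
    refine ⟨by exact_mod_cast hp, LipschitzWith.of_dist_le_mul fun γ η => ?_⟩
    simp only [dist_add_left]
    rw [dist_eq_norm, ← smul_sub, norm_smul, ← dist_eq_norm]
    have h1 := hK.dist_le_mul γ η
    push_cast
    rw [mul_assoc]
    gcongr
  let g : ℝ × E → C := fun p => if h : |p.1| * K < 1 then
    ContractingWith.fixedPoint _ (hcon p h) else 0
  have hfix : ∀ p : ℝ × E, |p.1| * K < 1 → g p = cst p.2 + p.1 • N (g p) := by
    intro p h
    simp only [g, dif_pos h]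
    exact (hcon p h).fixedPoint_isFixedPt.symm
  have huniq : ∀ p : ℝ × E, |p.1| * K < 1 → ∀ γ, γ = cst p.2 + p.1 • N γ → γ = g p := by
    intro p h γ hγ
    simp only [g, dif_pos h]
    exact (hcon p h).fixedPoint_unique hγ.symm
  refine ⟨g, fun p h => ?_, hfix, huniq⟩
  let f : (ℝ × E) × C → C := fun u => u.2 - (cst u.1.2 + u.1.1 • N u.2)
  have hf : ContDiff ℝ ∞ f := by
    have h1 : ContDiff ℝ ∞ (fun u : (ℝ × E) × C => N u.2) := hNs.comp contDiff_snd
    have h2 : ContDiff ℝ ∞ (fun u : (ℝ × E) × C => cst u.1.2) :=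
      cst.contDiff.comp (contDiff_snd.comp contDiff_fst)
    exact contDiff_snd.sub (h2.add ((contDiff_fst.comp contDiff_fst).smul h1))
  set u : (ℝ × E) × C := (p, g p) with hu
  have hfu : f u = 0 := sub_eq_zero.2 (hfix p h)
  set T : C →L[ℝ] C := p.1 • (fderiv ℝ N u.2) with hT
  have hTn : ‖T‖ < 1 := by
    refine lt_of_le_of_lt ?_ h
    rw [hT, norm_smul, Real.norm_eq_abs]
    gcongr
    exact norm_fderiv_le_of_lipschitz ℝ hK
  have hder : fderiv ℝ f u ∘L .inr ℝ (ℝ × E) C = 1 - T := by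
    have h1 : HasFDerivAt (fun γ => f (p, γ)) (fderiv ℝ f u ∘L .inr ℝ (ℝ × E) C) u.2 :=
      (hf.differentiable (by simp) u).hasFDerivAt.comp u.2 (hasFDerivAt_prodMk_right p u.2)
    have h2 : HasFDerivAt (fun γ => f (p, γ)) (1 - T) u.2 := by
      have h3 : HasFDerivAt N (fderiv ℝ N u.2) u.2 := (hNs.differentiable (by simp) u.2).hasFDerivAt
      have h4 := (h3.const_smul p.1).const_add (cst p.2)
      exact (hasFDerivAt_id u.2).sub h4
    exact h1.unique h2
  have hinv : (fderiv ℝ f u ∘L .inr ℝ (ℝ × E) C).IsInvertible := by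
    rw [hder]
    exact ⟨ContinuousLinearEquiv.unitsEquiv ℝ _ (Units.oneSub T hTn), rfl⟩
  have hcd : ContDiffAt ℝ ∞ f u := hf.contDiffAt
  have h1 := hcd.contDiffAt_implicitFunction (by simp) hinv
  have h2 := hcd.eventually_apply_implicitFunction (by simp) hinv
  refine h1.congr_of_eventuallyEq ?_
  have h3 : ∀ᶠ q : ℝ × E in 𝓝 p, |q.1| * K < 1 :=
    (by fun_prop : Continuous fun q : ℝ × E => |q.1| * (K:ℝ)).continuousAt.eventually_lt
      continuousAt_const h
  filter_upwards [h2, h3] with q hq hq'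
  rw [hfu] at hq
  exact (huniq q hq' _ (sub_eq_zero.1 hq)).symm

end abstract

omit [CompleteSpace E] in
lemma lipschitz_prim : LipschitzWith 1 (prim : C(Icc (0:ℝ) 1, E) → C(Icc (0:ℝ) 1, E)) := by
  refine LipschitzWith.of_dist_le_mul fun γ η => ?_
  rw [dist_eq_norm, dist_eq_norm, ← map_sub, NNReal.coe_one, one_mul]
  exact norm_prim_apply_le _

theorem exists_solPath {W : E → E} {K : ℝ≥0} (hK : LipschitzWith K W) (hW : ContDiff ℝ ∞ W) :
    ∃ g : ℝ × E → C(Icc (0:ℝ) 1, E), (∀ p : ℝ × E, |p.1| * K < 1 → ContDiffAt ℝ ∞ g p) ∧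
      (∀ p : ℝ × E, |p.1| * K < 1 → ∀ s : Icc (0:ℝ) 1,
        g p s = p.2 + p.1 • ∫ r in (0:ℝ)..s, W (pext (g p) r)) ∧
      (∀ p : ℝ × E, |p.1| * K < 1 → ∀ γ : C(Icc (0:ℝ) 1, E),
        (∀ s : Icc (0:ℝ) 1, γ s = p.2 + p.1 • ∫ r in (0:ℝ)..s, W (pext γ r)) → γ = g p) := by
  have h1 : LipschitzWith (1 * K) (fun γ => prim (nem (X := Icc (0:ℝ) 1) W hK.continuous γ)) :=
    lipschitz_prim.comp (lipschitz_nem hK)
  rw [one_mul] at h1
  have h2 : ContDiff ℝ ∞ (fun γ => prim (nem (X := Icc (0:ℝ) 1) W hK.continuous γ)) :=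
    prim.contDiff.comp (contDiff_nem W hW)
  obtain ⟨g, hg1, hg2, hg3⟩ := exists_smooth_fixedPoint (E := E) h1 h2
    (ContinuousLinearMap.const ℝ (Icc (0:ℝ) 1))
  refine ⟨g, hg1, fun p hp s => ?_, fun p hp γ hγ => hg3 p hp γ ?_⟩
  · conv_lhs => rw [hg2 p hp]
    rfl
  · ext s
    rw [hγ s]
    rfl

/-- Smooth local flow of a smooth globally Lipschitz vector field. -/
theorem exists_smooth_flow {W : E → E} {K : ℝ≥0} (hK : LipschitzWith K W) (hW : ContDiff ℝ ∞ W) :
    ∃ Φ : ℝ × E → E, (∀ p : ℝ × E, |p.1| * K < 1 → ContDiffAt ℝ ∞ Φ p) ∧ (∀ z, Φ (0, z) = z) ∧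
      ∀ (z : E) (t : ℝ), |t| * K < 1 → HasDerivAt (fun s => Φ (s, z)) (W (Φ (t, z))) t := by
  obtain ⟨g, hg1, hg2, hg3⟩ := exists_solPath hK hW
  have hscale : ∀ (t : ℝ) (z : E), |t| * K < 1 → ∀ θ ∈ Icc (0:ℝ) 1,
      pext (g (t, z)) θ = g (θ * t, z) ⟨1, by simp⟩ := by
    intro t z h θ hθ
    have h' : |θ * t| * K < 1 := by
      refine lt_of_le_of_lt ?_ h
      rw [abs_mul, abs_of_nonneg hθ.1]
      have : θ * |t| ≤ |t| := mul_le_of_le_one_left (abs_nonneg _) hθ.2
      gcongr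
    let η : C(Icc (0:ℝ) 1, E) := ⟨fun s => pext (g (t, z)) (θ * s),
      (continuous_pext _).comp (by fun_prop)⟩
    have hη : η = g (θ * t, z) := by
      refine hg3 (θ * t, z) h' η fun s => ?_
      have hs : θ * (s:ℝ) ∈ Icc (0:ℝ) 1 :=
        ⟨mul_nonneg hθ.1 s.2.1, mul_le_one₀ hθ.2 s.2.1 s.2.2⟩
      change pext (g (t, z)) (θ * s) = z + (θ * t) • ∫ r in (0:ℝ)..s, W (pext η r)
      rw [pext_of_mem _ hs, hg2 (t, z) h]
      congr 1
      have e1 : ∫ r in (0:ℝ)..s, W (pext η r) =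
          ∫ r in (0:ℝ)..s, W (pext (g (t, z)) (θ * r)) := by
        refine intervalIntegral.integral_congr fun r hr => ?_
        rw [uIcc_of_le s.2.1] at hr
        have hr' : r ∈ Icc (0:ℝ) 1 := ⟨hr.1, hr.2.trans s.2.2⟩
        simp only [pext_of_mem η hr']
        rfl
      rw [e1, mul_comm θ t, mul_smul,
        intervalIntegral.smul_integral_comp_mul_left (fun r => W (pext (g (t, z)) r)) θ]
      simp
    rw [← hη]
    simp [η]
  let Φ : ℝ × E → E := fun p => g p ⟨1, by simp⟩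
  have hΦ : ∀ p : ℝ × E, |p.1| * K < 1 → ContDiffAt ℝ ∞ Φ p := fun p hp =>
    (ContinuousMap.evalCLM (M := E) ℝ (⟨1, by simp⟩ : Icc (0:ℝ) 1)).contDiff.contDiffAt.comp p
      (hg1 p hp)
  have hint : ∀ (z : E) (t : ℝ), |t| * K < 1 →
      Φ (t, z) = z + ∫ r in (0:ℝ)..t, W (Φ (r, z)) := by
    intro z t ht
    change g (t, z) ⟨1, by simp⟩ = _
    rw [hg2 (t, z) ht]
    congr 1
    have e1 : ∫ r in (0:ℝ)..1, W (pext (g (t, z)) r) =
        ∫ r in (0:ℝ)..1, W (Φ (t * r, z)) := by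
      refine intervalIntegral.integral_congr fun r hr => ?_
      rw [uIcc_of_le zero_le_one] at hr
      simp only [hscale t z ht r hr, mul_comm r t]
      rfl
    change t • ∫ r in (0:ℝ)..1, W (pext (g (t, z)) r) = _
    rw [e1, intervalIntegral.smul_integral_comp_mul_left (fun r => W (Φ (r, z))) t]
    simp
  refine ⟨Φ, hΦ, fun z => ?_, fun z t ht => ?_⟩
  · rw [hint z 0 (by simp)]; simp
  · have hO : IsOpen {s : ℝ | |s| * K < 1} := isOpen_lt (by fun_prop) continuous_const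
    have hcont : ContinuousOn (fun r => W (Φ (r, z))) {s : ℝ | |s| * K < 1} := fun s hs =>
      (hK.continuous.continuousAt.comp ((hΦ (s, z) hs).continuousAt.comp
        (f := fun r : ℝ => (r, z)) (by fun_prop))).continuousWithinAt
    have hsub : uIcc 0 t ⊆ {s : ℝ | |s| * K < 1} := by
      intro s hs
      refine lt_of_le_of_lt ?_ ht
      have : |s| ≤ |t| := by simpa using abs_sub_left_of_mem_uIcc hs
      gcongr
    have h1 : HasDerivAt (fun u => ∫ r in (0:ℝ)..u, W (Φ (r, z))) (W (Φ (t, z))) t :=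
      intervalIntegral.integral_hasDerivAt_right ((hcont.mono hsub).intervalIntegrable)
        (hcont.stronglyMeasurableAtFilter hO t ht) (hcont.continuousAt (hO.mem_nhds ht))
    refine (h1.const_add z).congr_of_eventuallyEq ?_
    filter_upwards [hO.mem_nhds ht] with s hs using hint z s hs

end Crest.Agent.H7
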