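import Mathlib
import Crest.Prelude.Def_QuadricHamiltonian
import Crest.Agent.H7.SmoothFlow
import Crest.Agent.H7.Q3Alg

set_option autoImplicit false

open scoped ContDiff Topology NNReal
open Set Filter Metric
open Crest.GeometryTopology.Quadric

namespace Crest.Agent.H7.Q3

lemma short_period {F : Type*} [NormedAddCommGroup F] [NormedSpace ℝ F] {G : F → F} {S : Set F}
    {L : ℝ≥0} (hG : LipschitzOnWith L G S) {m : ℝ → F} {T : ℝ} (hT : 0 < T)
    (hm : ∀ t ∈ Icc 0 T, HasDerivAt m (G (m t)) t) (hS : ∀ t ∈ Icc 0 T, m t ∈ S)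
    (hLT : L * T < 1) (hper : m T = m 0) : G (m 0) = 0 := by
  have hmc : ContinuousOn m (Icc 0 T) := fun t ht => (hm t ht).continuousAt.continuousWithinAt
  have hgc : ContinuousOn (fun t => ‖G (m t)‖) (Icc 0 T) :=
    (hG.continuousOn.comp hmc hS).norm
  obtain ⟨t₀, ht₀, hmax⟩ := isCompact_Icc.exists_isMaxOn (nonempty_Icc.2 hT.le) hgc
  set M := ‖G (m t₀)‖ with hM
  have hM0 : 0 ≤ M := norm_nonneg _
  have h1 : ∀ t ∈ Icc 0 T, ‖m t - m t₀‖ ≤ M * T := by
    intro t ht
    have := (convex_Icc 0 T).norm_image_sub_le_of_norm_hasDerivWithin_le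
      (f := m) (f' := fun t => G (m t)) (C := M) (fun x hx => (hm x hx).hasDerivWithinAt)
      (fun x hx => hmax hx) ht₀ ht
    refine this.trans (mul_le_mul_of_nonneg_left ?_ hM0)
    rw [Real.norm_eq_abs, abs_le]
    constructor <;> linarith [ht.1, ht.2, ht₀.1, ht₀.2]
  have h2 := (convex_Icc 0 T).norm_image_sub_le_of_norm_hasDerivWithin_le
      (f := fun t => m t - t • G (m t₀)) (f' := fun t => G (m t) - G (m t₀)) (C := L * (M * T))
      (fun x hx => by
        have := (hm x hx).fun_sub ((hasDerivAt_id' x).smul_const (G (m t₀)))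
        simpa using this.hasDerivWithinAt)
      (fun x hx => by
        rw [← dist_eq_norm]
        refine (hG.dist_le_mul _ (hS x hx) _ (hS t₀ ht₀)).trans ?_
        rw [dist_eq_norm]
        exact mul_le_mul_of_nonneg_left (h1 x hx) L.2)
      (left_mem_Icc.2 hT.le) (right_mem_Icc.2 hT.le)
  simp only [hper, zero_smul, sub_zero, sub_sub_cancel_left, norm_neg, norm_smul,
    Real.norm_eq_abs, abs_of_pos hT] at h2
  rw [← hM] at h2
  have h3 : M * T * (1 - L * T) ≤ 0 := by nlinarith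
  have h4 : M ≤ 0 := by
    by_contra h
    push Not at h
    have : 0 < M * T * (1 - L * T) := by
      have : 0 < 1 - L * T := by linarith
      positivity
    linarith
  have h5 := hmax (left_mem_Icc.2 hT.le)
  exact norm_le_zero_iff.1 (le_trans h5 h4)

lemma const_of_hasDerivAt_zero {F : Type*} [NormedAddCommGroup F] [NormedSpace ℝ F] {f : ℝ → F}
    {a : ℝ} (h : ∀ t ∈ Ioo (-a) a, HasDerivAt f 0 t) {t : ℝ} (ht : t ∈ Ioo (-a) a) : f t = f 0 := by
  have h0 : (0:ℝ) ∈ Ioo (-a) a := by constructor <;> linarith [ht.1, ht.2]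
  exact isOpen_Ioo.is_const_of_deriv_eq_zero isPreconnected_Ioo
    (fun s hs => (h s hs).differentiableAt.differentiableWithinAt)
    (fun s hs => (h s hs).deriv) ht h0

/-- the Hamiltonian vector field -/
noncomputable def VV (z : E) : E := act (dF (mm z)) z

noncomputable def bump : ContDiffBump (0 : E) := ⟨2, 3, by norm_num, by norm_num⟩

/-- the cut-off field -/
noncomputable def WW (z : E) : E := bump z • VV z

lemma contDiff_VV : ContDiff ℝ ∞ VV := by
  have h1 : ContDiff ℝ ∞ (fun z : E => (dF (mm z), z)) :=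
    (contDiff_dF.comp contDiff_mm).prodMk contDiff_id
  exact ContDiff.comp (g := fun p : (Fin 6 → ℝ) × E => act p.1 p.2)
    (f := fun z : E => (dF (mm z), z)) contDiff_act h1

lemma contDiff_WW : ContDiff ℝ ∞ WW := bump.contDiff.smul contDiff_VV

lemma hasCompactSupport_WW : HasCompactSupport WW := bump.hasCompactSupport.smul_right

lemma WW_eq_act (z : E) : WW z = act (bump z • dF (mm z)) z := by
  rw [act_smul_left]; rfl

lemma WW_of_mem {z : E} (hz : z ∈ unitCone) : WW z = VV z := by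
  have : bump z = 1 := bump.one_of_mem_closedBall (by
    rw [mem_closedBall_zero_iff]
    exact (norm_le_of_mem hz).trans (by norm_num [bump]))
  rw [WW, this, one_smul]

lemma VV_smul {a : ℂ} (ha : ‖a‖ = 1) (z : E) : VV (a • z) = a • VV z := by
  rw [VV, mm_smul a ha, act_smul_right, VV]

/-- the degenerate direction -/
noncomputable def w0 : E := ![0, 0, 0, ⟨1 / 2, 1 / 2⟩, 0]

lemma VV_line (s : ℝ) : VV (zp 1 0 + s • w0) = s ^ 2 • ![0, 0, ⟨-1, -1⟩, 0, 0] := by
  have : mm (zp 1 0 + s • w0) = ![1, s, 0, 1, -s, 0] := by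
    ext i
    fin_cases i <;> simp [mm, mu, zp, w0] <;> ring
  rw [VV, this]
  ext i
  fin_cases i <;> apply Complex.ext <;> simp [act, dF, zp, w0, sq] <;> ring

structure FlowData where
  Φ : ℝ × E → E
  a : ℝ
  K : ℝ≥0
  ha : 0 < a
  hK : LipschitzWith K WW
  smooth : ∀ p : ℝ × E, p.1 ∈ Ioo (-a) a → ContDiffAt ℝ ∞ Φ p
  zero : ∀ z, Φ (0, z) = z
  deriv : ∀ z, ∀ t ∈ Ioo (-a) a, HasDerivAt (fun s => Φ (s, z)) (WW (Φ (t, z))) t

lemma nonempty_flowData : Nonempty FlowData := by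
  obtain ⟨K, hK⟩ := contDiff_WW.lipschitzWith_of_hasCompactSupport hasCompactSupport_WW (by simp)
  obtain ⟨Φ, h1, h2, h3⟩ := exists_smooth_flow hK contDiff_WW
  have hK1 : (0:ℝ) < K + 1 := by positivity
  have key : ∀ t ∈ Ioo (-(1 / ((K:ℝ) + 1))) (1 / ((K:ℝ) + 1)), |t| * K < 1 := by
    intro t ht
    have h4 : |t| < 1 / ((K:ℝ) + 1) := abs_lt.2 ht
    rw [lt_div_iff₀ hK1] at h4
    nlinarith [abs_nonneg t]
  exact ⟨⟨Φ, 1 / (K + 1), K, by positivity, hK, fun p hp => h1 p (key _ hp), h2,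
    fun z t ht => h3 z t (key t ht)⟩⟩

namespace FlowData
variable (D : FlowData)

lemma zero_mem : (0:ℝ) ∈ Ioo (-D.a) D.a := by constructor <;> linarith [D.ha]

lemma mem_cone {z : E} (hz : z ∈ unitCone) {t : ℝ} (ht : t ∈ Ioo (-D.a) D.a) :
    D.Φ (t, z) ∈ unitCone := by
  constructor
  · have := const_of_hasDerivAt_zero (f := fun s => herm (D.Φ (s, z)) (D.Φ (s, z))) (a := D.a)
      (fun s hs => by
        refine (hasDerivAt_herm (D.deriv z s hs)).congr_deriv ?_
        rw [WW_eq_act, herm_act]) ht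
    simp only [D.zero] at this
    rw [this, hz.1]
  · have := const_of_hasDerivAt_zero (f := fun s => ∑ j, D.Φ (s, z) j ^ 2) (a := D.a)
      (fun s hs => by
        refine (hasDerivAt_sq (D.deriv z s hs)).congr_deriv ?_
        rw [WW_eq_act, sq_act, mul_zero]) ht
    simp only [D.zero] at this
    rw [this, hz.2]

lemma four (z : E) {t : ℝ} (ht : t ∈ Ioo (-D.a) D.a) : D.Φ (t, z) 4 = z 4 := by
  have := const_of_hasDerivAt_zero (f := fun s => D.Φ (s, z) 4) (a := D.a)
    (fun s hs => by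
      refine (hasDerivAt_pi.1 (D.deriv z s hs) 4).congr_deriv ?_
      rw [WW_eq_act, act_four]) ht
  simpa only [D.zero] using this

lemma unique {z : E} {f : ℝ → E} (hf : ∀ t ∈ Ioo (-D.a) D.a, HasDerivAt f (WW (f t)) t)
    (h0 : f 0 = z) {t : ℝ} (ht : t ∈ Ioo (-D.a) D.a) : D.Φ (t, z) = f t :=
  ODE_solution_unique_of_mem_Ioo (v := fun _ => WW) (s := fun _ => univ) (K := D.K)
    (f := fun s => D.Φ (s, z)) (g := f)
    (fun _ _ => D.hK.lipschitzOnWith) D.zero_mem (fun s hs => ⟨D.deriv z s hs, trivial⟩)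
    (fun s hs => ⟨hf s hs, trivial⟩) (by simp [D.zero, h0]) ht

lemma equivariant {z : E} (hz : z ∈ unitCone) {c : ℂ} (hc : ‖c‖ = 1) {t : ℝ}
    (ht : t ∈ Ioo (-D.a) D.a) : D.Φ (t, c • z) = c • D.Φ (t, z) := by
  refine D.unique (f := fun s => c • D.Φ (s, z)) (fun s hs => ?_) (by simp [D.zero]) ht
  refine ((D.deriv z s hs).const_smul c).congr_deriv ?_
  rw [WW_of_mem (smul_mem (D.mem_cone hz hs) hc), WW_of_mem (D.mem_cone hz hs), VV_smul hc]

lemma vertical {z : E} (hz : z ∈ unitCone) {l : ℝ} (hl : VV z = ((l : ℂ) * Complex.I) • z) {t : ℝ}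
    (ht : t ∈ Ioo (-D.a) D.a) : D.Φ (t, z) = Complex.exp ((t * l : ℝ) * Complex.I) • z := by
  refine D.unique (f := fun s => Complex.exp ((s * l : ℝ) * Complex.I) • z) (fun s _ => ?_)
    (by simp) ht
  have hn : ‖Complex.exp ((s * l : ℝ) * Complex.I)‖ = 1 := Complex.norm_exp_ofReal_mul_I _
  have h1 : HasDerivAt (fun s : ℝ => ((s * l : ℝ) : ℂ) * Complex.I) ((l : ℂ) * Complex.I) s := by
    have := ((hasDerivAt_id s).mul_const l).ofReal_comp.mul_const Complex.I
    simpa using this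
  refine (h1.cexp.smul_const z).congr_deriv ?_
  rw [WW_of_mem (smul_mem hz hn), VV_smul hn, hl, smul_smul]

lemma displacement {C : ℝ} (hC : ∀ x, ‖WW x‖ ≤ C) (z : E) {t : ℝ} (ht : t ∈ Ioo (-D.a) D.a) :
    ‖D.Φ (t, z) - z‖ ≤ C * |t| := by
  have := (convex_Ioo (-D.a) D.a).norm_image_sub_le_of_norm_hasDerivWithin_le
    (f := fun s => D.Φ (s, z)) (f' := fun s => WW (D.Φ (s, z))) (C := C)
    (fun x hx => (D.deriv z x hx).hasDerivWithinAt) (fun x _ => hC _) D.zero_mem ht
  simpa [D.zero] using this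

lemma degenerate {t : ℝ} (ht0 : 0 ≤ t) (ht : t < D.a) :
    HasDerivAt (fun s : ℝ => D.Φ (t, zp 1 0 + s • w0)) w0 0 := by
  have hK1 : (D.K : ℝ) + 1 ≠ 0 := by positivity
  set N := ‖(![0, 0, ⟨-1, -1⟩, 0, 0] : E)‖ with hN
  have hb : ∀ s : ℝ, ‖D.Φ (t, zp 1 0 + s • w0) - (zp 1 0 + s • w0)‖ ≤
      (N / (D.K + 1) * (Real.exp ((D.K + 1) * t) - 1)) * s ^ 2 := by
    intro s
    set c := zp 1 0 + s • w0 with hc
    have hW : ‖WW c‖ ≤ N * s ^ 2 := by
      rw [WW, norm_smul, hc, VV_line, norm_smul, ← hN, Real.norm_eq_abs, Real.norm_eq_abs,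
        abs_of_nonneg bump.nonneg, abs_of_nonneg (sq_nonneg s), mul_comm N]
      exact mul_le_of_le_one_left (by positivity) bump.le_one
    have hsub : ∀ x ∈ Icc 0 t, x ∈ Ioo (-D.a) D.a := fun x hx =>
      ⟨by linarith [hx.1, D.ha], by linarith [hx.2]⟩
    have := norm_le_gronwallBound_of_norm_deriv_right_le (f := fun x => D.Φ (x, c) - c)
      (f' := fun x => WW (D.Φ (x, c))) (δ := 0) (K := D.K + 1) (ε := N * s ^ 2) (a := 0) (b := t)
      (fun x hx => ((D.deriv c x (hsub x hx)).sub_const c).continuousAt.continuousWithinAt)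
      (fun x hx => ((D.deriv c x (hsub x (Ico_subset_Icc_self hx))).sub_const c).hasDerivWithinAt)
      (by simp [D.zero])
      (fun x _ => by
        have h1 := D.hK.dist_le_mul (D.Φ (x, c)) c
        rw [dist_eq_norm, dist_eq_norm] at h1
        have h2 := norm_le_norm_add_norm_sub' (WW (D.Φ (x, c))) (WW c)
        nlinarith [norm_nonneg (D.Φ (x, c) - c)])
      t (right_mem_Icc.2 ht0)
    rw [gronwallBound_of_K_ne_0 hK1] at this
    refine this.trans (le_of_eq ?_)
    simp only [sub_zero]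
    ring
  have h1 : HasDerivAt (fun s : ℝ => D.Φ (t, zp 1 0 + s • w0) - (zp 1 0 + s • w0)) 0 0 := by
    rw [hasDerivAt_iff_isLittleO]
    have h0 : D.Φ (t, zp 1 0 + (0:ℝ) • w0) - (zp 1 0 + (0:ℝ) • w0) = 0 := by
      have := hb 0
      simpa using this
    simp only [h0, sub_zero, smul_zero]
    refine Asymptotics.IsBigO.trans_isLittleO (g := fun s : ℝ => s ^ 2) ?_
      (Asymptotics.isLittleO_pow_id (by norm_num))
    refine Asymptotics.IsBigO.of_bound
      (N / (D.K + 1) * (Real.exp ((D.K + 1) * t) - 1)) (Eventually.of_forall fun s => ?_)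
    rw [Real.norm_eq_abs, abs_of_nonneg (sq_nonneg s)]
    exact hb s
  have h2 : HasDerivAt (fun s : ℝ => zp 1 0 + s • w0) w0 0 := by
    simpa using ((hasDerivAt_id (0:ℝ)).smul_const w0).const_add (zp 1 0)
  have h3 := h1.add h2
  simp only [zero_add] at h3
  refine h3.congr_of_eventuallyEq (Eventually.of_forall fun s => ?_)
  simp

end FlowData

end Crest.Agent.H7.Q3
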