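import Mathlib
import Crest.Prelude.Def_QuadricHamiltonian
import Crest.Agent.H7.Q3Flow

set_option autoImplicit false

open scoped ContDiff Topology NNReal
open Set Filter Metric
open Crest.GeometryTopology.Quadric

namespace Crest.Agent.H7.Q3

namespace FlowData
variable (D : FlowData)

lemma sin_mem {δ : ℝ} (hδ : 0 < δ) (hδa : δ < D.a) (t : ℝ) :
    δ * Real.sin t ∈ Ioo (-D.a) D.a := by
  constructor <;> nlinarith [Real.sin_le_one t, Real.neg_one_le_sin t]

lemma contDiff_Psi {δ : ℝ} (hδ : 0 < δ) (hδa : δ < D.a) :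
    ContDiff ℝ ∞ (fun p : ℝ × E => rot (Real.pi * p.1) (D.Φ (δ * Real.sin p.1, p.2))) := by
  have h1 : ContDiff ℝ ∞ (fun p : ℝ × E => D.Φ (δ * Real.sin p.1, p.2)) := by
    rw [contDiff_iff_contDiffAt]
    intro p
    exact ContDiffAt.comp (g := D.Φ) (f := fun p : ℝ × E => (δ * Real.sin p.1, p.2)) p
      (D.smooth _ (D.sin_mem hδ hδa p.1)) (by fun_prop)
  exact ContDiff.comp (g := fun p : ℝ × E => rot p.1 p.2)
    (f := fun p : ℝ × E => (Real.pi * p.1, D.Φ (δ * Real.sin p.1, p.2))) contDiff_rot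
    (ContDiff.prodMk (by fun_prop) h1)

end FlowData

lemma contDiff_H (δ : ℝ) : ContDiff ℝ ∞ (fun p : ℝ × E => Real.pi * mm p.2 0 +
    δ * Real.cos p.1 * FF (mm (rot (-(Real.pi * p.1)) p.2))) := by
  have h1 : ContDiff ℝ ∞ (fun p : ℝ × E => mm p.2 0) :=
    (contDiff_apply ℝ ℝ 0).comp (contDiff_mm.comp contDiff_snd)
  have h2 : ContDiff ℝ ∞ (fun p : ℝ × E => rot (-(Real.pi * p.1)) p.2) :=
    ContDiff.comp (g := fun p : ℝ × E => rot p.1 p.2)
      (f := fun p : ℝ × E => (-(Real.pi * p.1), p.2)) contDiff_rot (by fun_prop)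
  have h3 : ContDiff ℝ ∞ (fun p : ℝ × E => FF (mm (rot (-(Real.pi * p.1)) p.2))) :=
    contDiff_FF.comp (contDiff_mm.comp h2)
  exact (contDiff_const.mul h1).add (ContDiff.mul (by fun_prop) h3)

lemma fderiv_apply_of_line {F : Type*} [NormedAddCommGroup F] [NormedSpace ℝ F] {f : E → F}
    {y w : E} {f' : F} (hf : DifferentiableAt ℝ f y)
    (h : HasDerivAt (fun s : ℝ => f (y + s • w)) f' 0) : fderiv ℝ f y w = f' := by
  have h2 : HasDerivAt (fun s : ℝ => y + s • w) w 0 := by
    simpa using ((hasDerivAt_id (0:ℝ)).smul_const w).const_add y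
  have h3 : HasFDerivAt f (fderiv ℝ f y) (y + (0:ℝ) • w) := by simpa using hf.hasFDerivAt
  exact (h3.comp_hasDerivAt (0:ℝ) h2).unique h

lemma act_zero_smul (c : Fin 6 → ℝ) (z : E) : act ((0:ℝ) • c) z = 0 := by
  rw [act_smul_left, zero_smul]

lemma act_zero (z : E) : act 0 z = 0 := by
  simpa using act_zero_smul 0 z

lemma herm_add_left (u v w : E) : herm (u + v) w = herm u w + herm v w := by
  simp [herm, Finset.sum_add_distrib, add_mul]

/-- the Hamiltonian isotopy -/
noncomputable def lift (D : FlowData) {δ : ℝ} (hδ : 0 < δ) (hδa : δ < D.a) :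
    HamiltonianConeLift where
  Ψ p := rot (Real.pi * p.1) (D.Φ (δ * Real.sin p.1, p.2))
  H p := Real.pi * mm p.2 0 + δ * Real.cos p.1 * FF (mm (rot (-(Real.pi * p.1)) p.2))
  smooth_Ψ := D.contDiff_Psi hδ hδa
  smooth_H := contDiff_H δ
  mapsTo_cone t z hz := rot_mem (D.mem_cone hz (D.sin_mem hδ hδa t)) _
  compatible t z hz c hc := ⟨c, by
    simp only [D.equivariant hz hc (D.sin_mem hδ hδa t), rot_smul]⟩
  start z _ := ⟨1, by simp [D.zero, rot_zero]⟩
  invariant t z _ c hc := by simp only [rot_smul, mm_smul c hc]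
  hamilton t _ z hz w _ := by
    set u := D.Φ (δ * Real.sin t, z) with hu
    have huc : u ∈ unitCone := D.mem_cone hz (D.sin_mem hδ hδa t)
    have h1 : HasDerivAt (fun s : ℝ => D.Φ (δ * Real.sin s, z)) ((δ * Real.cos t) • WW u) t :=
      HasDerivAt.scomp (g₁ := fun s => D.Φ (s, z)) (h := fun s => δ * Real.sin s) t
        (D.deriv z _ (D.sin_mem hδ hδa t)) ((Real.hasDerivAt_sin t).const_mul δ)
    have h2 : HasDerivAt (fun s : ℝ => Real.pi * s) Real.pi t := by
      simpa using (hasDerivAt_id t).const_mul Real.pi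
    have h3 := (hasDerivAt_rot h2 h1).deriv
    simp only at h3 ⊢
    rw [h3, ← hu]
    set y := rot (Real.pi * t) u with hy
    have hl : HasDerivAt (fun s : ℝ => y + s • w) w 0 := by
      simpa using ((hasDerivAt_id (0:ℝ)).smul_const w).const_add y
    have h4 := hasDerivAt_pi.1 (hasDerivAt_mm hl) 0
    have h5 := hasDerivAt_FF (hasDerivAt_mm (hasDerivAt_rot (hasDerivAt_const (0:ℝ)
      (-(Real.pi * t))) hl))
    have h6 := (h4.const_mul Real.pi).fun_add (h5.const_mul (δ * Real.cos t))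
    have hd : DifferentiableAt ℝ (fun x : E => Real.pi * mm x 0 +
        δ * Real.cos t * FF (mm (rot (-(Real.pi * t)) x))) y :=
      (((contDiff_H δ).comp (contDiff_prodMk_right t)).differentiable (by simp)) y
    rw [fderiv_apply_of_line hd h6]
    simp only [zero_smul, add_zero, act_zero, zero_add]
    rw [herm_add_left, Complex.add_im, mul_add, ham_act, herm_rot, WW_of_mem huc, VV,
      ← act_smul_left, ham_act, hy, rot_rot]
    simp [Fin.sum_univ_succ]
    ring

lemma span_zp_inj {c s c' s' : ℝ}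
    (h : Submodule.span ℂ {zp c s} = Submodule.span ℂ {zp c' s'}) : c = c' ∧ s = s' := by
  have : zp c s ∈ Submodule.span ℂ {zp c' s'} := h ▸ Submodule.mem_span_singleton_self _
  obtain ⟨a, ha⟩ := Submodule.mem_span_singleton.1 this
  have h0 := congrFun ha 0
  have h1 := congrFun ha 1
  have h2 := congrFun ha 2
  simp only [zp, Pi.smul_apply, smul_eq_mul, Matrix.cons_val] at h0 h1 h2
  have h01 := congrArg Complex.re h0
  have h02 := congrArg Complex.im h0
  simp at h01 h02
  have ha1 : a.re = 1 := by linarith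
  have ha2 : a.im = 0 := by linarith
  have h11 := congrArg Complex.im h1
  have h21 := congrArg Complex.im h2
  simp [ha1, ha2] at h11 h21
  exact ⟨h11.symm, h21.symm⟩

lemma no_flip {z u : E} (hz : z ∈ unitCone) (hd' : ‖u - z‖ < 1 / 2) (e0 : u 0 = -z 0)
    (e1 : u 1 = -z 1) (e2 : u 2 = -z 2) (e3 : u 3 = -z 3) : False := by
  have hj : ∀ j, u j = -z j → (z j).re ^ 2 + (z j).im ^ 2 < 1 / 16 := by
    intro j hj
    have h1 := (norm_le_pi_norm (u - z) j).trans_lt hd'
    rw [Pi.sub_apply, hj, show -z j - z j = (-2 : ℂ) * z j by ring, norm_mul] at h1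
    simp only [norm_neg, Complex.norm_ofNat] at h1
    have h2 : ‖z j‖ ^ 2 < 1 / 16 := by nlinarith [norm_nonneg (z j)]
    rw [Complex.sq_norm, Complex.normSq_apply] at h2
    nlinarith
  have f0 := hj 0 e0
  have f1 := hj 1 e1
  have f2 := hj 2 e2
  have f3 := hj 3 e3
  obtain ⟨g1, g2, g3⟩ := cone_real hz
  set A := (z 0).re ^ 2 + (z 1).re ^ 2 + (z 2).re ^ 2 + (z 3).re ^ 2 with hA
  set B := (z 0).im ^ 2 + (z 1).im ^ 2 + (z 2).im ^ 2 + (z 3).im ^ 2 with hB
  set P := (z 0).re * (z 0).im + (z 1).re * (z 1).im + (z 2).re * (z 2).im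
    + (z 3).re * (z 3).im with hP
  have hAB : A + B < 1 / 4 := by rw [hA, hB]; linarith
  have hA0 : 0 ≤ A := by positivity
  have hB0 : 0 ≤ B := by positivity
  have hP2 : 2 * |P| ≤ A + B := by
    rw [hA, hB, hP]
    have : ∀ x y : ℝ, 2 * (x * y) ≤ x ^ 2 + y ^ 2 ∧ -(x ^ 2 + y ^ 2) ≤ 2 * (x * y) :=
      fun x y => ⟨by nlinarith [sq_nonneg (x - y)], by nlinarith [sq_nonneg (x + y)]⟩
    have t0 := this (z 0).re (z 0).im
    have t1 := this (z 1).re (z 1).im
    have t2 := this (z 2).re (z 2).im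
    have t3 := this (z 3).re (z 3).im
    rcases abs_cases ((z 0).re * (z 0).im + (z 1).re * (z 1).im + (z 2).re * (z 2).im
      + (z 3).re * (z 3).im) with h | h <;> rw [h.1] <;> linarith
  have hP3 : P ^ 2 = (1 / 2 - A) * (1 / 2 - B) := by
    have : P = -((z 4).re * (z 4).im) := by linarith
    rw [this, show 1 / 2 - A = (z 4).re ^ 2 by linarith,
      show 1 / 2 - B = (z 4).im ^ 2 by linarith]
    ring
  have hP4 : |P| ^ 2 = P ^ 2 := sq_abs P
  clear_value A B P
  nlinarith [abs_nonneg P]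

lemma span_cases {z : E} (hz : z ∈ unitCone) (hz4 : z 4 = 0) (hG : GG (dF (mm z)) (mm z) = 0) :
    Submodule.span ℂ {z} = Submodule.span ℂ {zp 1 0} ∨
    Submodule.span ℂ {z} = Submodule.span ℂ {zp (-1 / 2) (√3 / 2)} ∨
    Submodule.span ℂ {z} = Submodule.span ℂ {zp (-1 / 2) (-(√3 / 2))} := by
  have h3 : (√3 / 2) ^ 2 = (3 / 4 : ℝ) := by
    rw [div_pow, Real.sq_sqrt (by norm_num)]; norm_num
  obtain ⟨u1, u2⟩ := mm_unit hz hz4
  obtain ⟨c1, c2, c3, c4, c5⟩ := crit u1 u2 hG
  have hm : mm z = ![mm z 0, mm z 1, 0, mm z 0, mm z 1, 0] := by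
    ext i
    fin_cases i <;> simp [c1, c2, c3, c4]
  have hzp := eq_zp hz hz4 hm
  have hne : z 0 * (1 - Complex.I) ≠ 0 := by
    intro h0
    rw [h0, zero_smul] at hzp
    have := hz.1
    rw [hzp] at this
    simp [herm] at this
  have hspan : Submodule.span ℂ {z} = Submodule.span ℂ {zp (mm z 0) (mm z 1)} := by
    conv_lhs => rw [hzp]
    exact Submodule.span_singleton_smul_eq (IsUnit.mk0 _ hne) _
  rw [hspan]
  rw [c1] at u1
  generalize mm z 0 = x at *
  generalize mm z 1 = y at *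
  rcases c5 with h | h
  · left
    have : y = 0 := by rw [h] at u1; nlinarith
    rw [h, this]
  · right
    have : (y - √3 / 2) * (y + √3 / 2) = 0 := by
      rw [h] at u1; linear_combination u1 - h3
    rcases mul_eq_zero.1 this with h' | h'
    · left; rw [h, show y = √3 / 2 by linarith]
    · right; rw [h, show y = -(√3 / 2) by linarith]

theorem main : ∃ L : HamiltonianConeLift, (fixedLines L).ncard = 3 ∧ HasDegenerateFixedPoint L := by
  obtain ⟨D⟩ := nonempty_flowData
  obtain ⟨C, hC⟩ := contDiff_WW.continuous.bounded_above_of_compact_support hasCompactSupport_WW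
  have hC0 : 0 ≤ C := (norm_nonneg _).trans (hC 0)
  obtain ⟨R, hR⟩ : ∃ R, ∀ z ∈ unitCone, mm z ∈ closedBall (0 : Fin 6 → ℝ) R := by
    obtain ⟨R, hR⟩ := ((isCompact_closedBall (0 : E) 1).image
      contDiff_mm.continuous).isBounded.subset_closedBall 0
    exact ⟨R, fun z hz => hR ⟨z, mem_closedBall_zero_iff.2 (norm_le_of_mem hz), rfl⟩⟩
  obtain ⟨L, hL⟩ := (contDiff_GG.contDiffOn (s := closedBall 0 R)).exists_lipschitzOnWith
    (by simp) (convex_closedBall 0 R) (isCompact_closedBall 0 R)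
  obtain ⟨δ, hδ, hδa, hδC, hδL⟩ : ∃ δ : ℝ, 0 < δ ∧ δ < D.a ∧ C * δ < 1 / 2 ∧ (L:ℝ) * δ < 1 := by
    have h1 : ∀ᶠ δ in 𝓝 (0:ℝ), δ < D.a := eventually_lt_nhds D.ha
    have h2 : ∀ᶠ δ in 𝓝 (0:ℝ), C * δ < 1 / 2 :=
      (by fun_prop : Continuous fun δ : ℝ => C * δ).continuousAt.eventually_lt continuousAt_const
        (by simp)
    have h3 : ∀ᶠ δ : ℝ in 𝓝 (0:ℝ), (L:ℝ) * δ < 1 :=
      (by fun_prop : Continuous fun δ : ℝ => (L:ℝ) * δ).continuousAt.eventually_lt continuousAt_const
        (by simp)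
    obtain ⟨δ, h4, h5⟩ := (((h1.and (h2.and h3)).filter_mono nhdsWithin_le_nhds).and
      (self_mem_nhdsWithin : Ioi (0:ℝ) ∈ 𝓝[>] 0)).exists
    exact ⟨δ, h5, h4.1, h4.2.1, h4.2.2⟩
  set τ := δ * Real.sin 1 with hτ
  have hτ0 : 0 < τ := mul_pos hδ (Real.sin_pos_of_pos_of_lt_pi one_pos (by linarith [Real.pi_gt_three]))
  have hτδ : τ ≤ δ := mul_le_of_le_one_right hδ.le (Real.sin_le_one 1)
  have hτm : τ ∈ Ioo (-D.a) D.a := D.sin_mem hδ hδa 1
  have hΨ : ∀ z, (lift D hδ hδa).Ψ (1, z) = rot Real.pi (D.Φ (τ, z)) := fun z => by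
    simp [lift, hτ]
  have hfix : ∀ c s : ℝ, c ^ 2 + s ^ 2 = 1 → (c = 1 ∨ c = -1 / 2) →
      Submodule.span ℂ {zp c s} ∈ fixedLines (lift D hδ hδa) := by
    intro c s h hc
    refine ⟨zp c s, zp_mem h, rfl, ?_⟩
    obtain ⟨l, hl⟩ := act_zp h hc
    rw [hΨ, D.vertical (zp_mem h) hl hτm, rot_smul]
    refine Submodule.smul_mem _ _ (Submodule.mem_span_singleton.2 ⟨-1, ?_⟩)
    rw [rot_pi]
    ext i
    fin_cases i <;> simp [zp]
  have h3 : (√3 / 2) ^ 2 = (3 / 4 : ℝ) := by
    rw [div_pow, Real.sq_sqrt (by norm_num)]; norm_num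
  have h3' : (0:ℝ) < √3 / 2 := by positivity
  refine ⟨lift D hδ hδa, ?_, ?_⟩
  · rw [Set.ncard_eq_three]
    refine ⟨Submodule.span ℂ {zp 1 0}, Submodule.span ℂ {zp (-1 / 2) (√3 / 2)},
      Submodule.span ℂ {zp (-1 / 2) (-(√3 / 2))}, ?_, ?_, ?_, ?_⟩
    · intro h; have := (span_zp_inj h).1; norm_num at this
    · intro h; have := (span_zp_inj h).1; norm_num at this
    · intro h; have := (span_zp_inj h).2; linarith
    · apply Subset.antisymm
      · rintro ℓ ⟨z, hz, rfl, hmem⟩
        obtain ⟨c, hc⟩ := Submodule.mem_span_singleton.1 hmem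
        rw [hΨ] at hc
        set u := D.Φ (τ, z) with hu
        have huc : u ∈ unitCone := D.mem_cone hz hτm
        have hcn : ‖c‖ = 1 := by
          have h1 := (rot_mem huc Real.pi).1
          rw [← hc] at h1
          have h2 := hz.1
          have h4 : (starRingEnd ℂ) c * c = 1 := by
            simp only [herm, Fin.sum_univ_succ, Pi.smul_apply, smul_eq_mul, map_mul] at h1 h2
            linear_combination h1 - ((starRingEnd ℂ) c * c) * h2
          rw [Complex.conj_mul'] at h4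
          have h5 : ‖c‖ ^ 2 = 1 := by exact_mod_cast h4
          nlinarith [norm_nonneg c]
        rw [rot_pi] at hc
        have e0 := congrFun hc 0
        have e1 := congrFun hc 1
        have e2 := congrFun hc 2
        have e3 := congrFun hc 3
        have e4 := congrFun hc 4
        simp only [Pi.smul_apply, smul_eq_mul, Matrix.cons_val] at e0 e1 e2 e3 e4
        have hu4 : u 4 = z 4 := D.four z hτm
        have hz4 : z 4 = 0 := by
          by_contra hne
          have hc1 : c = 1 := by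
            rw [hu4] at e4
            exact mul_right_cancel₀ hne (by rw [e4, one_mul])
          have hd := D.displacement hC z hτm
          rw [← hu, abs_of_pos hτ0] at hd
          have hd' : ‖u - z‖ < 1 / 2 := by nlinarith
          rw [hc1, one_mul] at e0 e1 e2 e3
          exact no_flip hz hd' (by rw [e0]; simp) (by rw [e1]; simp) (by rw [e2]; simp)
            (by rw [e3]; simp)
        have huz : u = (-c) • z := by
          ext i
          fin_cases i
          · simp [e0]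
          · simp [e1]
          · simp [e2]
          · simp [e3]
          · simp [hu4, hz4]
        have hper : mm (D.Φ (τ, z)) = mm (D.Φ (0, z)) := by
          rw [← hu, huz, D.zero, mm_smul _ (by rw [norm_neg, hcn])]
        have hsub : ∀ x ∈ Icc 0 τ, x ∈ Ioo (-D.a) D.a := fun x hx =>
          ⟨by linarith [hx.1, D.ha], by linarith [hx.2, hτm.2]⟩
        have hG := short_period hL (m := fun t => mm (D.Φ (t, z))) hτ0
          (fun t ht => by
            refine (hasDerivAt_mm (D.deriv z t (hsub t ht))).congr_deriv ?_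
            rw [WW_of_mem (D.mem_cone hz (hsub t ht)), VV, dmm_act])
          (fun t ht => hR _ (D.mem_cone hz (hsub t ht)))
          (by nlinarith [L.2]) hper
        simp only [D.zero] at hG
        exact span_cases hz hz4 hG
      · rintro ℓ (rfl | rfl | rfl)
        · exact hfix 1 0 (by norm_num) (Or.inl rfl)
        · exact hfix _ _ (by rw [h3]; norm_num) (Or.inr rfl)
        · exact hfix _ _ (by rw [neg_sq, h3]; norm_num) (Or.inr rfl)
  · have hz : zp 1 0 ∈ unitCone := zp_mem (by norm_num)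
    have hV : VV (zp 1 0) = (((0:ℝ) : ℂ) * Complex.I) • zp 1 0 := by
      have := VV_line 0
      simpa using this
    have hfx : D.Φ (τ, zp 1 0) = zp 1 0 := by
      rw [D.vertical hz hV hτm]; simp
    refine ⟨zp 1 0, hz, -1, ?_, w0, ?_, ?_, 0, ?_⟩
    · rw [hΨ, hfx, rot_pi]
      ext i
      fin_cases i <;> simp [zp]
    · constructor <;> simp [herm, Fin.sum_univ_succ, zp, w0]
    · intro r h
      have := congrArg Complex.re (congrFun h 3)
      simp [w0, zp] at this
    · have hd : DifferentiableAt ℝ (fun x : E => (lift D hδ hδa).Ψ (1, x)) (zp 1 0) :=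
        (((lift D hδ hδa).smooth_Ψ.comp (contDiff_prodMk_right 1)).differentiable (by simp)) _
      have h1 := hasDerivAt_rot (hasDerivAt_const (0:ℝ) Real.pi) (D.degenerate hτ0.le hτm.2)
      simp only [← hΨ] at h1
      rw [fderiv_apply_of_line hd h1, act_zero_smul, rot_pi]
      ext i
      fin_cases i <;> simp [w0]

end Crest.Agent.H7.Q3
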