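import Mathlib

set_option autoImplicit false

open Finset

namespace Crest.Agent.H7.Sw

/-- real functions on a finite type with the counting inner product -/
abbrev EE (A : Type*) := EuclideanSpace ℝ A

section spectral
variable {E : Type*} [NormedAddCommGroup E] [InnerProductSpace ℝ E] [FiniteDimensional ℝ E]

lemma spec_sq {T : E →ₗ[ℝ] E} (hT : T.IsSymmetric) {γ : ℝ} (hγ : 0 ≤ γ)
    (h : ∀ (μ : ℝ) (v : E), T v = μ • v → μ < γ → T v = 0) (f : E) :
    γ * inner ℝ f (T f) ≤ ‖T f‖ ^ 2 := by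
  set B := hT.eigenvectorBasis rfl
  rw [← B.sum_inner_mul_inner f (T f), ← B.sum_sq_inner_right, mul_sum]
  refine sum_le_sum fun i _ => ?_
  have e : inner ℝ (B i) (T f) = hT.eigenvalues rfl i * inner ℝ (B i) f := by
    rw [← hT, hT.apply_eigenvectorBasis, inner_smul_left]; simp [B]
  rw [e, real_inner_comm (B i) f]
  by_cases hl : hT.eigenvalues rfl i < γ
  · have h0 := h _ _ (hT.apply_eigenvectorBasis rfl i) hl
    have : inner ℝ (B i) (T f) = 0 := by rw [← hT, h0, inner_zero_left]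
    rw [e] at this
    rw [this]; simp
  · push Not at hl
    have := mul_nonneg (sub_nonneg.2 hl) (mul_nonneg (hγ.trans hl) (sq_nonneg (inner ℝ (B i) f)))
    nlinarith

lemma spec_gap {T : E →ₗ[ℝ] E} (hT : T.IsSymmetric) {γ : ℝ}
    (h : ∀ (μ : ℝ) (v : E), T v = μ • v → μ < γ → T v = 0) (f : E)
    (hf : ∀ v, T v = 0 → inner ℝ v f = 0) : γ * ‖f‖ ^ 2 ≤ inner ℝ f (T f) := by
  set B := hT.eigenvectorBasis rfl
  rw [← B.sum_inner_mul_inner f (T f), ← B.sum_sq_inner_right, mul_sum]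
  refine sum_le_sum fun i _ => ?_
  have e : inner ℝ (B i) (T f) = hT.eigenvalues rfl i * inner ℝ (B i) f := by
    rw [← hT, hT.apply_eigenvectorBasis, inner_smul_left]; simp [B]
  rw [e, real_inner_comm (B i) f]
  by_cases hl : hT.eigenvalues rfl i < γ
  · have h0 := hf _ (h _ _ (hT.apply_eigenvectorBasis rfl i) hl)
    rw [show inner ℝ (B i) f = 0 from h0]; simp
  · push Not at hl
    have := mul_nonneg (sub_nonneg.2 hl) (sq_nonneg (inner ℝ (B i) f))
    nlinarith

lemma gap_of_sq {T : E →ₗ[ℝ] E} (hT : T.IsSymmetric) {γ : ℝ}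
    (h0 : ∀ f, 0 ≤ inner ℝ f (T f)) (h : ∀ f, γ * inner ℝ f (T f) ≤ ‖T f‖ ^ 2) (f : E)
    (hf : ∀ v, T v = 0 → inner ℝ v f = 0) : γ * ‖f‖ ^ 2 ≤ inner ℝ f (T f) := by
  refine spec_gap hT (fun μ v hv hμ => ?_) f hf
  have a := h0 v
  have b := h v
  rw [hv, inner_smul_right, real_inner_self_eq_norm_sq] at a b
  rw [norm_smul, mul_pow, Real.norm_eq_abs, sq_abs] at b
  have : μ * ‖v‖ ^ 2 = 0 := by nlinarith
  rw [hv]
  rcases mul_eq_zero.1 this with h1 | h1
  · simp [h1]
  · simp [norm_eq_zero.1 (pow_eq_zero_iff two_ne_zero |>.1 h1)]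

end spectral

variable {A : Type*} [Fintype A]

open Classical in
/-- fibre of a relation -/
noncomputable def fib (r : A → A → Prop) (x : A) : Finset A := univ.filter (r x)

@[simp] lemma mem_fib {r : A → A → Prop} {x y : A} : y ∈ fib r x ↔ r x y := by simp [fib]

lemma fib_eq {r : A → A → Prop} (hr : Equivalence r) {x y : A} (h : r x y) : fib r x = fib r y := by
  ext z; simp only [mem_fib]; exact ⟨fun h' => hr.trans (hr.symm h) h', fun h' => hr.trans h h'⟩

lemma card_fib_pos {r : A → A → Prop} (hr : Equivalence r) (x : A) : (0:ℝ) < (fib r x).card := by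
  exact_mod_cast card_pos.2 ⟨x, mem_fib.2 (hr.refl x)⟩

/-- average over the fibre -/
noncomputable def cE (r : A → A → Prop) : EE A →ₗ[ℝ] EE A where
  toFun f := WithLp.toLp 2 fun x => (∑ y ∈ fib r x, f y) / (fib r x).card
  map_add' f g := by ext x; simp [sum_add_distrib, add_div]
  map_smul' c f := by ext x; simp [← mul_sum, mul_div_assoc]

lemma cE_apply (r : A → A → Prop) (f : EE A) (x : A) :
    cE r f x = (∑ y ∈ fib r x, f y) / (fib r x).card := rfl

variable {r s : A → A → Prop}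

lemma cE_inv (hr : Equivalence r) (f : EE A) {x y : A} (h : r x y) : cE r f x = cE r f y := by
  rw [cE_apply, cE_apply, fib_eq hr h]

lemma cE_of_inv (hr : Equivalence r) {g : EE A} (h : ∀ x y, r x y → g x = g y) : cE r g = g := by
  ext x
  rw [cE_apply, sum_congr rfl fun y hy => (h x y (mem_fib.1 hy)).symm, sum_const, nsmul_eq_mul,
    mul_div_cancel_left₀ _ (card_fib_pos hr x).ne']

lemma sum_avg (hr : Equivalence r) (F : A → ℝ) :
    ∑ x, (∑ y ∈ fib r x, F y) / (fib r x).card = ∑ y, F y := by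
  classical
  have : ∀ x, (∑ y ∈ fib r x, F y) / (fib r x).card =
      ∑ y, if r y x then F y / (fib r y).card else 0 := by
    intro x
    rw [sum_div, ← sum_filter]
    refine sum_congr (by ext y; simp only [mem_fib, mem_filter, mem_univ, true_and]; exact ⟨hr.symm, hr.symm⟩) ?_
    intro y hy
    rw [fib_eq hr (mem_filter.1 hy).2]
  rw [sum_congr rfl fun x _ => this x, sum_comm]
  refine sum_congr rfl fun y _ => ?_
  rw [← sum_filter, sum_const, nsmul_eq_mul]
  have e : univ.filter (r y) = fib r y := by ext; simp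
  rw [e, mul_div_cancel₀ _ (card_fib_pos hr y).ne']

lemma sum_nonneg_of_fib (hr : Equivalence r) {F : A → ℝ} (h : ∀ x, 0 ≤ ∑ y ∈ fib r x, F y) :
    0 ≤ ∑ y, F y := by
  rw [← sum_avg hr]
  exact sum_nonneg fun x _ => div_nonneg (h x) (Nat.cast_nonneg _)

lemma inner_eq (f g : EE A) : inner ℝ f g = ∑ x, f x * g x := by
  simp [PiLp.inner_apply, mul_comm]

lemma normsq_eq (f : EE A) : ‖f‖ ^ 2 = ∑ x, f x ^ 2 := by
  rw [← real_inner_self_eq_norm_sq, inner_eq]; simp [sq]

lemma inner_cE_cE (hr : Equivalence r) (f g : EE A) :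
    inner ℝ (cE r f) g = inner ℝ (cE r f) (cE r g) := by
  rw [inner_eq, inner_eq, ← sum_avg hr]
  refine sum_congr rfl fun x _ => ?_
  rw [cE_apply r g, ← mul_div_assoc, mul_sum]
  congr 1
  exact sum_congr rfl fun y hy => by rw [cE_inv hr f (mem_fib.1 hy)]

lemma cE_symm (hr : Equivalence r) : (cE r).IsSymmetric := by
  intro f g
  rw [inner_cE_cE hr, real_inner_comm, ← inner_cE_cE hr, real_inner_comm]

lemma cE_tower' (hr : Equivalence r) (hs : Equivalence s) (h : ∀ x y, s x y → r x y) (f : EE A) :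
    cE s (cE r f) = cE r f := cE_of_inv hs fun x y hxy => cE_inv hr f (h x y hxy)

lemma cE_idem (hr : Equivalence r) (f : EE A) : cE r (cE r f) = cE r f :=
  cE_tower' hr hr (fun _ _ h => h) f

lemma cE_tower (hr : Equivalence r) (hs : Equivalence s) (h : ∀ x y, s x y → r x y) (f : EE A) :
    cE r (cE s f) = cE r f := by
  refine ext_inner_left ℝ fun g => ?_
  rw [← cE_symm hr, ← cE_symm hs, cE_tower' hr hs h, cE_symm hr]

lemma inner_cE_self (hr : Equivalence r) (f : EE A) : inner ℝ f (cE r f) = ‖cE r f‖ ^ 2 := by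
  rw [real_inner_comm, inner_cE_cE hr, real_inner_self_eq_norm_sq]

lemma inner_sub_cE (hr : Equivalence r) (f : EE A) : inner ℝ f (f - cE r f) = ‖f - cE r f‖ ^ 2 := by
  rw [norm_sub_sq_real, inner_sub_right, inner_cE_self hr, real_inner_self_eq_norm_sq]; ring

lemma norm_cE_le (hr : Equivalence r) (f : EE A) : ‖cE r f‖ ^ 2 ≤ ‖f‖ ^ 2 := by
  have := inner_sub_cE hr f
  rw [inner_sub_right, inner_cE_self hr, real_inner_self_eq_norm_sq] at this
  nlinarith [sq_nonneg ‖f - cE r f‖]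

lemma avg_eq_of_inj {x x' : A} (β β' : A → A)
    (h1 : ∀ y, r x y → r x' (β y)) (h2 : Set.InjOn β {y | r x y})
    (h3 : ∀ y, r x' y → r x (β' y)) (h4 : Set.InjOn β' {y | r x' y}) (F : A → ℝ) :
    (∑ y ∈ fib r x', F y) / (fib r x').card = (∑ y ∈ fib r x, F (β y)) / (fib r x).card := by
  classical
  have c1 : (fib r x).card ≤ (fib r x').card :=
    card_le_card_of_injOn β (fun y hy => mem_fib.2 (h1 y (mem_fib.1 hy)))
      (fun y hy z hz => h2 (mem_fib.1 hy) (mem_fib.1 hz))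
  have c2 : (fib r x').card ≤ (fib r x).card :=
    card_le_card_of_injOn β' (fun y hy => mem_fib.2 (h3 y (mem_fib.1 hy)))
      (fun y hy z hz => h4 (mem_fib.1 hy) (mem_fib.1 hz))
  have hinj : Set.InjOn β (fib r x) := fun y hy z hz => h2 (mem_fib.1 hy) (mem_fib.1 hz)
  have e : (fib r x).image β = fib r x' := by
    refine eq_of_subset_of_card_le (fun z hz => ?_) (by rw [card_image_of_injOn hinj]; exact c2)
    obtain ⟨y, hy, rfl⟩ := mem_image.1 hz
    exact mem_fib.2 (h1 y (mem_fib.1 hy))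
  rw [le_antisymm c2 c1, ← e, sum_image hinj]

lemma cE_comm (hr : Equivalence r) (hs : Equivalence s)
    (h : ∀ x x', s x x' → ∃ β : A → A, (∀ y, r x y → r x' (β y) ∧ s y (β y)) ∧
      Set.InjOn β {y | r x y}) (f : EE A) : cE r (cE s f) = cE s (cE r f) := by
  have k : ∀ g, cE s (cE r (cE s g)) = cE r (cE s g) := by
    intro g
    refine cE_of_inv hs fun x x' hx => ?_
    obtain ⟨β, h1, h2⟩ := h x x' hx
    obtain ⟨β', h3, h4⟩ := h x' x (hs.symm hx)
    rw [cE_apply r _ x', avg_eq_of_inj β β' (fun y hy => (h1 y hy).1) h2 (fun y hy => (h3 y hy).1) h4,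
      cE_apply r _ x]
    congr 1
    exact sum_congr rfl fun y hy => cE_inv hs g (h1 y (mem_fib.1 hy)).2
  refine ext_inner_left ℝ fun g => ?_
  rw [← k f, ← cE_symm hs, ← cE_symm hr, ← cE_symm hs, k g, cE_symm hr, cE_symm hs]

open Classical in
lemma sum_mask_cE_le (hs : Equivalence s) {D : A → Prop} (hD : ∀ x y, s x y → D x → D y) (g : EE A) :
    ∑ x, (if D x then cE s g x ^ 2 else 0) ≤ ∑ x, (if D x then g x ^ 2 else 0) := by
  have := norm_cE_le hs (WithLp.toLp 2 fun x => if D x then g x else 0)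
  rw [normsq_eq, normsq_eq] at this
  refine le_trans (le_of_eq (sum_congr rfl fun x _ => ?_)) (this.trans (le_of_eq (sum_congr rfl fun x _ => ?_)))
  · rw [cE_apply, cE_apply]
    split_ifs with h
    · congr 2
      exact sum_congr rfl fun y hy => by simp [hD x y (mem_fib.1 hy) h]
    · rw [sum_eq_zero]
      · simp
      · intro y hy
        have : ¬ D y := fun h' => h (hD y x (hs.symm (mem_fib.1 hy)) h')
        simp [this]
  · split_ifs with h <;> simp [h]

open Classical in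
lemma quad {p q p' q' : A → A → Prop} (hp : Equivalence p) (hq : Equivalence q)
    (hp' : Equivalence p') (hq' : Equivalence q') (lp : ∀ x y, p' x y → p x y)
    (lq : ∀ x y, q' x y → q x y) (c1 : ∀ f, cE p (cE q' f) = cE q' (cE p f))
    (c2 : ∀ f, cE q (cE p' f) = cE p' (cE q f)) (c3 : ∀ f, cE p' (cE q' f) = cE q' (cE p' f))
    (τ : A → A) (hτ : Function.Involutive τ) (t1 : ∀ x, p' x (τ x)) (t2 : ∀ x, q' x (τ x))
    (D₁ D₂ : A → Prop) (d1 : ∀ x y, ¬ D₁ x → p x y → p' x y) (d2 : ∀ x y, ¬ D₂ x → q x y → q' x y)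
    (e1 : ∀ x y, p' x y → D₁ x ∧ D₂ x → D₁ y ∧ D₂ y) (e2 : ∀ x y, q' x y → D₁ x ∧ D₂ x → D₁ y ∧ D₂ y)
    (f : EE A) :
    (∑ x, (f x - f (τ x)) ^ 2) / 2 - ∑ x, (if D₁ x ∧ D₂ x then (cE p' f x - cE p f x) ^ 2 else 0)
      - ∑ x, (if D₁ x ∧ D₂ x then (cE q' f x - cE q f x) ^ 2 else 0) ≤
      2 * inner ℝ (f - cE p f) (f - cE q f) := by
  obtain ⟨ψ, hψ⟩ : ∃ ψ, ψ = cE p' (cE q' f) := ⟨_, rfl⟩
  obtain ⟨G, hG⟩ : ∃ G, G = f - ψ := ⟨_, rfl⟩
  obtain ⟨m, hm⟩ : ∃ m : EE A, m = WithLp.toLp 2 fun x => (f x - f (τ x)) / 2 := ⟨_, rfl⟩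
  -- orthogonality of `m` to `τ`-invariant functions
  have hm0 : ∀ g : EE A, (∀ x, g (τ x) = g x) → inner ℝ m g = 0 := by
    intro g hg
    rw [inner_eq, hm]
    simp only [sub_div, sub_mul, sum_sub_distrib]
    rw [← Equiv.sum_comp hτ.toPerm (fun x => f (τ x) / 2 * g x)]
    simp [hτ _, hg]
  have hmp : ∀ g, inner ℝ m (cE p g) = 0 := fun g => hm0 _ fun x => (cE_inv hp g (lp _ _ (t1 x))).symm
  have hmq : ∀ g, inner ℝ m (cE q g) = 0 := fun g => hm0 _ fun x => (cE_inv hq g (lq _ _ (t2 x))).symm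
  have hmψ : inner ℝ m ψ = 0 := by rw [hψ]; exact hm0 _ fun x => (cE_inv hp' _ (t1 x)).symm
  have hmf : inner ℝ m f = ‖m‖ ^ 2 := by
    have : inner ℝ m (f - m) = 0 := hm0 _ fun x => by simp [hm, hτ x]; ring
    rw [inner_sub_right, real_inner_self_eq_norm_sq] at this
    linarith
  have hmn : ‖m‖ ^ 2 = (∑ x, (f x - f (τ x)) ^ 2) / 4 := by
    rw [normsq_eq, sum_div]; exact sum_congr rfl fun x _ => by simp [hm]; ring
  -- the projection `C`
  set C : EE A →ₗ[ℝ] EE A := cE p' ∘ₗ cE q' with hC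
  have hCa : ∀ g, C g = cE p' (cE q' g) := fun g => rfl
  have hCs : ∀ g g', inner ℝ (C g) g' = inner ℝ g (C g') := fun g g' => by
    rw [hCa, hCa, cE_symm hp', cE_symm hq', c3]
  have hCp : ∀ g, C (cE p g) = cE p (C g) := fun g => by
    rw [hCa, hCa, ← c1, cE_tower' hp hp' lp, cE_tower hp hp' lp]
  have hCq : ∀ g, C (cE q g) = cE q (C g) := fun g => by
    rw [hCa, hCa, cE_tower' hq hq' lq, c3, cE_tower hq hq' lq, c2]
  have hCC : ∀ g, C (C g) = C g := fun g => by
    rw [hCa, hCa, ← c3, cE_idem hq', cE_idem hp']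
  have hCG : C G = 0 := by rw [hG, hψ, map_sub, ← hCa, hCC, sub_self]
  have hCψ : C ψ = ψ := by rw [hψ, ← hCa, hCC]
  have hpq : inner ℝ (cE p G) (cE q G) = 0 := by
    rw [← cE_tower' hp hp' lp, ← cE_tower' hq hq' lq, cE_symm hp', ← hCa, hCq, hCG]; simp
  have x1 : inner ℝ (G - cE p G) (ψ - cE q ψ) = 0 := by
    have : ψ - cE q ψ = C (ψ - cE q ψ) := by rw [map_sub, hCq, hCψ]
    rw [this, ← hCs, map_sub, hCp, hCG]; simp
  have x2 : inner ℝ (ψ - cE p ψ) (G - cE q G) = 0 := by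
    have : ψ - cE p ψ = C (ψ - cE p ψ) := by rw [map_sub, hCp, hCψ]
    rw [this, hCs, map_sub, hCq, hCG]; simp
  have hf : f = G + ψ := by rw [hG]; abel
  have split : inner ℝ (f - cE p f) (f - cE q f) =
      inner ℝ (G - cE p G) (G - cE q G) + inner ℝ (ψ - cE p ψ) (ψ - cE q ψ) := by
    have a1 : f - cE p f = (G - cE p G) + (ψ - cE p ψ) := by rw [hf, map_add]; abel
    have a2 : f - cE q f = (G - cE q G) + (ψ - cE q ψ) := by rw [hf, map_add]; abel
    rw [a1, a2, inner_add_left, inner_add_right, inner_add_right, x1, x2]; ring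
  have b1 : ‖m‖ ^ 2 ≤ inner ℝ (G - cE p G) (G - cE q G) := by
    have hmG : inner ℝ m G = ‖m‖ ^ 2 := by rw [hG, inner_sub_right, hmψ, hmf, sub_zero]
    have h0 := sq_nonneg ‖G - cE p G - cE q G - m‖
    rw [← real_inner_self_eq_norm_sq] at h0
    have i1 := inner_cE_self hp G
    have i2 := inner_cE_self hq G
    have i3 := hmp G
    have i4 := hmq G
    simp only [inner_sub_left, inner_sub_right, real_inner_self_eq_norm_sq,
      real_inner_comm G (cE p G), real_inner_comm G (cE q G), real_inner_comm G m,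
      real_inner_comm (cE p G) (cE q G), real_inner_comm (cE p G) m, real_inner_comm (cE q G) m]
      at h0 hpq i1 i2 i3 i4 hmG ⊢
    linarith
  have hψp : cE p' ψ = ψ := by rw [hψ, cE_idem hp']
  have hψq : cE q' ψ = ψ := by rw [hψ, c3, cE_idem hq']
  have y1 : ψ - cE p ψ = cE q' (cE p' f - cE p f) := by
    rw [map_sub, hψ, cE_tower hp hp' lp, c1, c3]
  have y2 : ψ - cE q ψ = cE p' (cE q' f - cE q f) := by
    rw [map_sub, hψ, c2, cE_tower hq hq' lq]
  have b2 : -(∑ x, (if D₁ x ∧ D₂ x then (ψ - cE p ψ) x ^ 2 else 0))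
      - ∑ x, (if D₁ x ∧ D₂ x then (ψ - cE q ψ) x ^ 2 else 0) ≤
      2 * inner ℝ (ψ - cE p ψ) (ψ - cE q ψ) := by
    rw [inner_eq, mul_sum, ← sum_neg_distrib, ← sum_sub_distrib]
    refine sum_le_sum fun x _ => ?_
    split_ifs with h
    · nlinarith [sq_nonneg ((ψ - cE p ψ) x + (ψ - cE q ψ) x)]
    · rcases not_and_or.1 h with h | h
      · have : (ψ - cE p ψ) x = 0 := by
          have e : fib p x = fib p' x := by
            ext y; simp only [mem_fib]; exact ⟨d1 x y h, lp x y⟩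
          rw [PiLp.sub_apply, cE_apply, e, ← cE_apply, hψp, sub_self]
        simp [this]
      · have : (ψ - cE q ψ) x = 0 := by
          have e : fib q x = fib q' x := by
            ext y; simp only [mem_fib]; exact ⟨d2 x y h, lq x y⟩
          rw [PiLp.sub_apply, cE_apply, e, ← cE_apply, hψq, sub_self]
        simp [this]
  have j1 := sum_mask_cE_le hq' e2 (cE p' f - cE p f)
  have j2 := sum_mask_cE_le hp' e1 (cE q' f - cE q f)
  rw [← y1] at j1
  rw [← y2] at j2
  simp only [PiLp.sub_apply] at j1 j2 b2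
  rw [split]
  linarith

end Crest.Agent.H7.Sw
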