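import Mathlib
import Crest.Agent.H7.SwBase

set_option autoImplicit false

open Finset

namespace Crest.Agent.H7.Sw

variable {V : Type*} [DecidableEq V]

/-- exchange two points in a finite set -/
def sw (k l : V) (S : Finset V) : Finset V := S.map (Equiv.swap k l).toEmbedding

lemma mem_sw {k l x : V} {S : Finset V} : x ∈ sw k l S ↔ Equiv.swap k l x ∈ S := by
  simp [sw, mem_map_equiv]

@[simp] lemma card_sw (k l : V) (S : Finset V) : (sw k l S).card = S.card := card_map _

@[simp] lemma sw_sw (k l : V) (S : Finset V) : sw k l (sw k l S) = S := by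
  ext x; simp [mem_sw]

lemma sw_comm (k l : V) (S : Finset V) : sw k l S = sw l k S := by
  ext x; simp [mem_sw, Equiv.swap_comm]

lemma sw_eq_self {k l : V} {S : Finset V} (h : k ∈ S ↔ l ∈ S) : sw k l S = S := by
  ext x; rw [mem_sw, Equiv.swap_apply_def]; split_ifs with h1 h2 <;> simp_all

lemma sw_subset {k l : V} {S D : Finset V} (hk : k ∈ D) (hl : l ∈ D) (h : S ⊆ D) : sw k l S ⊆ D := by
  intro x hx
  have := h (mem_sw.1 hx)
  rw [Equiv.swap_apply_def] at this
  split_ifs at this with h1 h2 <;> simp_all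

lemma sw_mono {k l : V} {S T : Finset V} : sw k l S ⊆ sw k l T ↔ S ⊆ T := map_subset_map

lemma sw_inter (k l : V) (S T : Finset V) : sw k l (S ∩ T) = sw k l S ∩ sw k l T := by
  ext x; simp [mem_sw]

lemma sw_mem_pc {k l : V} {S D : Finset V} {a : ℕ} (hk : k ∈ D) (hl : l ∈ D)
    (h : S ∈ powersetCard a D) : sw k l S ∈ powersetCard a D := by
  rw [mem_powersetCard] at h ⊢
  exact ⟨sw_subset hk hl h.1, by simp [h.2]⟩

lemma sw_sdiff {k l : V} {S T : Finset V} (h1 : k ∈ S) (h3 : l ∈ T) (h4 : l ∉ S) :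
    sw k l S \ T = (S \ T).erase k := by
  ext x
  simp only [mem_sdiff, mem_sw, mem_erase, Equiv.swap_apply_def]
  split_ifs with a b <;> simp_all

lemma swap_conn {β : Type*} (g : Finset V → β) (D : Finset V) (a : ℕ)
    (h : ∀ S ∈ powersetCard a D, ∀ k ∈ D, ∀ l ∈ D, g (sw k l S) = g S)
    {S T : Finset V} (hS : S ∈ powersetCard a D) (hT : T ∈ powersetCard a D) : g S = g T := by
  induction' hn : (S \ T).card with n ih generalizing S
  · rw [mem_powersetCard] at hS hT
    rw [eq_of_subset_of_card_le (sdiff_eq_empty_iff_subset.1 (card_eq_zero.1 hn)) (by omega)]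
  · obtain ⟨k, hk⟩ := card_pos.1 (by omega : 0 < (S \ T).card)
    have hS' := mem_powersetCard.1 hS
    have hT' := mem_powersetCard.1 hT
    have : (T \ S).card = (S \ T).card := card_sdiff_comm (by omega)
    obtain ⟨l, hl⟩ := card_pos.1 (by omega : 0 < (T \ S).card)
    have hk' := mem_sdiff.1 hk
    rw [mem_sdiff] at hl
    rw [← h S hS k (hS'.1 hk'.1) l (hT'.1 hl.1)]
    refine ih (sw_mem_pc (hS'.1 hk'.1) (hT'.1 hl.1) hS) ?_
    rw [sw_sdiff hk'.1 hl.1 hl.2, card_erase_of_mem hk]; omega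

lemma sum_sw {k l : V} {P : Finset (Finset V)} (hP : ∀ S ∈ P, sw k l S ∈ P) (F : Finset V → ℝ) :
    ∑ S ∈ P, F (sw k l S) = ∑ S ∈ P, F S :=
  sum_nbij' (sw k l) (sw k l) hP hP (by simp) (by simp) (by simp)

lemma couple (D : Finset V) (α : ℕ) (hα : α ≤ D.card) (P : Finset (Finset V)) (hP0 : P.Nonempty)
    (hP : ∀ k ∈ D, ∀ l ∈ D, ∀ S ∈ P, sw k l S ∈ P) (F G : Finset V → ℝ) (K : ℝ)
    (h : ∀ S ∈ P, ∀ T ∈ powersetCard α D, (S ∩ D ⊆ T ∨ T ⊆ S) → F S - G T ≤ K) :
    (∑ S ∈ P, F S) / P.card - (∑ T ∈ powersetCard α D, G T) / (powersetCard α D).card ≤ K := by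
  set Q := powersetCard α D with hQ
  set deg : Finset V → ℝ := fun S => ∑ T ∈ Q, if S ∩ D ⊆ T ∨ T ⊆ S then 1 else 0 with hdeg
  have hpos : ∀ S, 0 < deg S := by
    intro S
    obtain ⟨T, hT, hT'⟩ : ∃ T ∈ Q, S ∩ D ⊆ T ∨ T ⊆ S := by
      rcases le_total (S ∩ D).card α with h1 | h1
      · obtain ⟨T, a, b, c⟩ := exists_subsuperset_card_eq inter_subset_right h1 hα
        exact ⟨T, mem_powersetCard.2 ⟨b, c⟩, Or.inl a⟩
      · obtain ⟨T, a, b⟩ := exists_subset_card_eq h1
        exact ⟨T, mem_powersetCard.2 ⟨a.trans inter_subset_right, b⟩, Or.inr (a.trans inter_subset_left)⟩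
    refine lt_of_lt_of_le one_pos ?_
    have := single_le_sum (f := fun T => if S ∩ D ⊆ T ∨ T ⊆ S then (1:ℝ) else 0)
      (fun T _ => by split_ifs <;> norm_num) hT
    rwa [if_pos hT'] at this
  have hN : ∀ k ∈ D, ∀ l ∈ D, ∀ S T : Finset V,
      (sw k l S ∩ D ⊆ sw k l T ∨ sw k l T ⊆ sw k l S) ↔ (S ∩ D ⊆ T ∨ T ⊆ S) := by
    intro k hk l hl S T
    conv_lhs => rw [← sw_eq_self (S := D) (k := k) (l := l) (by simp [hk, hl]), ← sw_inter]
    rw [sw_mono, sw_mono]
  have hdsw : ∀ k ∈ D, ∀ l ∈ D, ∀ S, deg (sw k l S) = deg S := by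
    intro k hk l hl S
    simp only [hdeg]
    rw [← sum_sw (P := Q) (fun T hT => sw_mem_pc hk hl hT)]
    simp only [hN k hk l hl]
  set c : Finset V → ℝ := fun T => ∑ S ∈ P, (if S ∩ D ⊆ T ∨ T ⊆ S then 1 else 0) / deg S with hc
  have hcc : ∀ T ∈ Q, ∀ T' ∈ Q, c T = c T' := by
    intro T hT T' hT'
    refine swap_conn c D α (fun T _ k hk l hl => ?_) hT hT'
    simp only [hc]
    rw [← sum_sw (hP k hk l hl)]
    simp only [hN k hk l hl, hdsw k hk l hl]
  have hrow : ∀ S, ∑ T ∈ Q, (if S ∩ D ⊆ T ∨ T ⊆ S then (1:ℝ) else 0) / deg S = 1 := fun S => by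
    rw [← sum_div]; exact div_self (hpos S).ne'
  have hQ0 : (0:ℝ) < Q.card := by exact_mod_cast card_pos.2 (powersetCard_nonempty.2 hα)
  have hP1 : (0:ℝ) < P.card := by exact_mod_cast card_pos.2 hP0
  have hc1 : ∀ T ∈ Q, c T = P.card / Q.card := by
    intro T hT
    have : ∑ T' ∈ Q, c T' = P.card := by
      simp only [hc]; rw [sum_comm]; simp only [hrow]; simp
    rw [sum_congr rfl fun T' hT' => hcc T' hT' T hT, sum_const, nsmul_eq_mul] at this
    rw [← this]; field_simp
  have key : ∑ S ∈ P, F S - P.card / Q.card * ∑ T ∈ Q, G T ≤ P.card * K := by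
    calc _ = ∑ S ∈ P, ∑ T ∈ Q, (if S ∩ D ⊆ T ∨ T ⊆ S then (1:ℝ) else 0) / deg S * (F S - G T) := by
          simp only [mul_sub, sum_sub_distrib, ← sum_mul, hrow, one_mul]
          rw [sum_comm, mul_sum]
          congr 1
          exact sum_congr rfl fun T hT => by rw [← sum_mul, ← hc1 T hT]
      _ ≤ ∑ S ∈ P, ∑ T ∈ Q, (if S ∩ D ⊆ T ∨ T ⊆ S then (1:ℝ) else 0) / deg S * K := by
          refine sum_le_sum fun S hS => sum_le_sum fun T hT => ?_
          split_ifs with h1
          · exact mul_le_mul_of_nonneg_left (h S hS T hT h1) (div_nonneg one_pos.le (hpos S).le)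
          · simp
      _ = _ := by simp only [← sum_mul, hrow]; simp
  rw [div_sub_div _ _ hP1.ne' hQ0.ne', div_le_iff₀ (by positivity)]
  have := mul_le_mul_of_nonneg_right key hQ0.le
  rw [sub_mul, mul_comm (_ / _), mul_assoc, div_mul_cancel₀ _ hQ0.ne'] at this
  linarith

variable [Fintype V]

/-- Bernoulli-Laplace generator -/
noncomputable def blOp (D : Finset V) : EE (Finset V) →ₗ[ℝ] EE (Finset V) where
  toFun f := WithLp.toLp 2 fun S => ∑ k ∈ D, ∑ l ∈ D, (f S - f (sw k l S))
  map_add' f g := by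
    ext x
    simp only [PiLp.add_apply, ← sum_add_distrib]
    exact sum_congr rfl fun k _ => sum_congr rfl fun l _ => by ring
  map_smul' c f := by
    ext x
    simp only [PiLp.smul_apply, smul_eq_mul, RingHom.id_apply, mul_sum, mul_sub]

omit [Fintype V] in
lemma blOp_apply (D : Finset V) (f : EE (Finset V)) (S : Finset V) :
    blOp D f S = ∑ k ∈ D, ∑ l ∈ D, (f S - f (sw k l S)) := rfl

lemma inner_blOp (D : Finset V) (f g : EE (Finset V)) :
    inner ℝ f (blOp D g) =
      (∑ k ∈ D, ∑ l ∈ D, ∑ S, (f S - f (sw k l S)) * (g S - g (sw k l S))) / 2 := by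
  rw [inner_eq]
  simp only [blOp_apply, mul_sum, sum_div]
  rw [sum_comm]
  refine sum_congr rfl fun k _ => ?_
  rw [sum_comm]
  refine sum_congr rfl fun l _ => ?_
  have := sum_sw (k := k) (l := l) (P := univ) (by simp) (fun S => f S * (g S - g (sw k l S)))
  simp only [sw_sw] at this
  rw [← sum_div, eq_div_iff two_ne_zero, mul_two]
  nth_rewrite 2 [← this]
  rw [← sum_add_distrib]
  exact sum_congr rfl fun S _ => by ring

lemma blOp_symm (D : Finset V) : (blOp D).IsSymmetric := by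
  intro f g
  rw [real_inner_comm, inner_blOp, inner_blOp]
  simp only [mul_comm]

lemma blOp_eig (D : Finset V) (μ : ℝ) (v : EE (Finset V)) (hv : blOp D v = μ • v)
    (hμ : μ < 2 * D.card) : ∀ S, ∀ x ∈ D, ∀ y ∈ D, v (sw x y S) = v S := by
  rcases D.eq_empty_or_nonempty with rfl | ⟨x₀, hx₀⟩
  · simp
  obtain ⟨⟨S, x, y⟩, hm, hmax⟩ := exists_max_image (univ ×ˢ D ×ˢ D)
    (fun z : Finset V × V × V => v z.1 - v (sw z.2.1 z.2.2 z.1)) ⟨(∅, x₀, x₀), by simp [hx₀]⟩
  simp only [mem_product, mem_univ, true_and, Prod.forall, and_imp] at hm hmax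
  suffices h : v S - v (sw x y S) ≤ 0 by
    intro T k hk l hl
    have a := hmax T k l hk hl
    have b := hmax (sw k l T) k l hk hl
    rw [sw_sw] at b
    linarith
  have main : ∀ x ∈ D, ∀ y ∈ D, x ∈ S → y ∉ S →
      (∀ T, v T - v (sw x y T) ≤ v S - v (sw x y S)) → v S - v (sw x y S) ≤ 0 := by
    intro x hx y hy hxS hyS hmx
    set ψ : Finset V → ℝ := fun T => v T - v (sw x y T) with hψ
    have hne : x ≠ y := fun h => hyS (h ▸ hxS)
    have e1 : μ * ψ S = ∑ k ∈ D, ∑ l ∈ D, (ψ S - ψ (sw k l S)) := by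
      have a1 := congrArg (fun w : EE (Finset V) => w S) hv
      have a2 := congrArg (fun w : EE (Finset V) => w (sw x y S)) hv
      simp only [blOp_apply, PiLp.smul_apply, smul_eq_mul] at a1 a2
      have hD : ∀ z, z ∈ D ↔ Equiv.swap x y z ∈ D := fun z => by
        rw [← mem_sw, sw_eq_self (by simp [hx, hy])]
      have a3 : ∑ k ∈ D, ∑ l ∈ D, (v (sw x y S) - v (sw k l (sw x y S))) =
          ∑ k ∈ D, ∑ l ∈ D, (v (sw x y S) - v (sw x y (sw k l S))) := by
        symm
        refine sum_equiv (Equiv.swap x y) hD fun k _ => sum_equiv (Equiv.swap x y) hD fun l _ => ?_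
        have : sw x y (sw k l S) = sw (Equiv.swap x y k) (Equiv.swap x y l) (sw x y S) := by
          ext z
          simp only [mem_sw]
          rw [Equiv.swap_apply_apply]
          simp
        rw [this]
      simp only [hψ]
      rw [mul_sub, ← a1, ← a2, a3, ← sum_sub_distrib]
      refine sum_congr rfl fun k _ => ?_
      rw [← sum_sub_distrib]
      exact sum_congr rfl fun l _ => by ring
    have z0 : ∀ T, (x ∈ T ↔ y ∈ T) → ψ T = 0 := fun T h => by simp [hψ, sw_eq_self h]
    have z1 : ψ (sw x y S) = -ψ S := by simp [hψ]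
    have h0 : 0 ≤ ψ S := by have := hmx (sw x y S); simp only [hψ] at z1 ⊢; linarith
    have e2 : ∀ k ∈ D, ∀ l ∈ D, ((if k = x then (if l ∈ S then 0 else ψ S) else 0) +
        (if l = x then (if k ∈ S then 0 else ψ S) else 0) +
        (if k = y then (if l ∈ S then ψ S else 0) else 0) +
        (if l = y then (if k ∈ S then ψ S else 0) else 0)) ≤ ψ S - ψ (sw k l S) := by
      have sub : ∀ k l, ¬ (l = x) → ¬ (k = y) → ((if k = x then (if l ∈ S then 0 else ψ S) else 0) +
          (if l = y then (if k ∈ S then ψ S else 0) else 0)) ≤ ψ S - ψ (sw k l S) := by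
        intro k l h1 h2
        have hb : 0 ≤ ψ S - ψ (sw k l S) := sub_nonneg.2 (hmx _)
        by_cases hk : k = x
        · subst hk
          by_cases hl : l = y
          · subst hl; simp [hxS, hyS, z1]
          · by_cases hlS : l ∈ S
            · simpa [hl, hlS] using hb
            · rw [z0 (sw k l S) (by simp [mem_sw, hlS, Equiv.swap_apply_def, hne.symm, Ne.symm hl, hyS])]
              simp [hl, hlS]
        · by_cases hl : l = y
          · subst hl
            by_cases hkS : k ∈ S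
            · rw [z0 (sw k l S) (by simp [mem_sw, hkS, Equiv.swap_apply_def, hne, Ne.symm hk, hxS])]
              simp [hk, hkS]
            · simpa [hk, hkS] using hb
          · simpa [hk, hl] using hb
      intro k _ l _
      have hb : 0 ≤ ψ S - ψ (sw k l S) := sub_nonneg.2 (hmx _)
      by_cases h1 : l = x ∨ k = y
      · by_cases h2 : k = x ∨ l = y
        · have : k = l := by
            rcases h1 with h1 | h1 <;> rcases h2 with h2 | h2 <;> simp_all
          subst this
          rw [sw_eq_self Iff.rfl]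
          rcases h1 with rfl | rfl
          · simp [hxS, hne]
          · simp [hyS, hne.symm]
        · push Not at h2
          have := sub l k h2.1 h2.2
          rw [sw_comm] at this
          simpa [h2.1, h2.2] using this
      · push Not at h1
        have := sub k l h1.1 h1.2
        simpa [h1.1, h1.2] using this
    have e3 := sum_le_sum fun k hk => sum_le_sum fun l hl => e2 k hk l hl
    rw [← e1] at e3
    have s1 : ∀ (z : V) (φ : V → ℝ), z ∈ D →
        ∑ k ∈ D, ∑ l ∈ D, (if k = z then φ l else 0) = ∑ l ∈ D, φ l := fun z φ hz => by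
      rw [sum_comm]; simp [hz]
    have s2 : ∀ (z : V) (φ : V → ℝ), z ∈ D →
        ∑ k ∈ D, ∑ l ∈ D, (if l = z then φ k else 0) = ∑ l ∈ D, φ l := fun z φ hz => by
      simp [hz]
    simp only [sum_add_distrib] at e3
    rw [s1 x _ hx, s2 x _ hx, s1 y _ hy, s2 y _ hy] at e3
    have s3 : ∑ l ∈ D, (if l ∈ S then 0 else ψ S) + ∑ l ∈ D, (if l ∈ S then ψ S else 0) =
        D.card * ψ S := by
      rw [← sum_add_distrib, ← nsmul_eq_mul, ← sum_const]
      exact sum_congr rfl fun l _ => by split_ifs <;> simp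
    show ψ S ≤ 0
    nlinarith
  by_cases hxS : x ∈ S <;> by_cases hyS : y ∈ S
  · rw [sw_eq_self (by simp [hxS, hyS])]; simp
  · exact main x hm.1 y hm.2 hxS hyS fun T => hmax T x y hm.1 hm.2
  · rw [sw_comm]
    exact main y hm.2 x hm.1 hyS hxS fun T => by
      rw [sw_comm y x, sw_comm y x]; exact hmax T x y hm.1 hm.2
  · rw [sw_eq_self (by simp [hxS, hyS])]; simp

lemma bl_gap (D : Finset V) (a : ℕ) (g : Finset V → ℝ) (hg : ∑ S ∈ powersetCard a D, g S = 0) :
    4 * D.card * ∑ S ∈ powersetCard a D, g S ^ 2 ≤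
      ∑ k ∈ D, ∑ l ∈ D, ∑ S ∈ powersetCard a D, (g S - g (sw k l S)) ^ 2 := by
  set P := powersetCard a D with hP
  set f : EE (Finset V) := WithLp.toLp 2 fun S => if S ∈ P then g S else 0 with hf
  have h1 := spec_gap (blOp_symm D) (γ := 2 * D.card) (fun μ v hv hμ => by
    ext S
    rw [blOp_apply]
    exact sum_eq_zero fun k hk => sum_eq_zero fun l hl => by
      rw [blOp_eig D μ v hv hμ S k hk l hl, sub_self]) f (fun v hv => by
    rcases P.eq_empty_or_nonempty with h | ⟨T, hT⟩
    · simp [inner_eq, hf, h]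
    have hD : ∀ S, ∀ x ∈ D, ∀ y ∈ D, v (sw x y S) = v S := by
      intro S x hx y hy
      refine blOp_eig D 0 v (by simp [hv]) ?_ S x hx y hy
      have : 0 < D.card := card_pos.2 ⟨x, hx⟩
      positivity
    rw [inner_eq]
    simp only [hf, mul_ite, mul_zero, sum_ite_mem, univ_inter]
    rw [sum_congr rfl fun S hS => by
      rw [swap_conn (fun S => v S) D a (fun S _ k hk l hl => hD S k hk l hl) hS hT], ← mul_sum, hg,
      mul_zero])
  rw [inner_blOp, normsq_eq] at h1
  have e1 : ∑ S, f S ^ 2 = ∑ S ∈ P, g S ^ 2 := by simp [hf]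
  have e2 : ∀ k ∈ D, ∀ l ∈ D, ∑ S, (f S - f (sw k l S)) * (f S - f (sw k l S)) =
      ∑ S ∈ P, (g S - g (sw k l S)) ^ 2 := by
    intro k hk l hl
    rw [← sum_subset (subset_univ P)]
    · exact sum_congr rfl fun S hS => by
        have : sw k l S ∈ P := sw_mem_pc hk hl hS
        simp [hf, hS, this, sq]
    · intro S _ hS
      have : sw k l S ∉ P := fun h => hS (by have := sw_mem_pc hk hl h; rwa [sw_sw] at this)
      simp [hf, hS, this]
  rw [e1, sum_congr rfl fun k hk => sum_congr rfl fun l hl => e2 k hk l hl] at h1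
  linarith

end Crest.Agent.H7.Sw
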