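import Mathlib
import Crest.Agent.H7.SwBL

set_option autoImplicit false

open Finset

namespace Crest.Agent.H7.Sw

variable {V : Type*} [DecidableEq V]

/-- indicator -/
def io (S : Finset V) (k : V) : ℝ := if k ∈ S then 1 else 0

lemma exists_cnt (D : Finset V) (a j : ℕ) : ∃ C : ℝ, ∀ T ∈ powersetCard j D,
    ∑ S ∈ powersetCard a D, (if T ⊆ S then (1:ℝ) else 0) = C := by
  rcases (powersetCard j D).eq_empty_or_nonempty with h | ⟨T₀, h₀⟩
  · exact ⟨0, by simp [h]⟩
  refine ⟨_, fun T hT => swap_conn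
    (fun T => ∑ S ∈ powersetCard a D, (if T ⊆ S then (1:ℝ) else 0)) D j (fun T _ k hk l hl => ?_) hT h₀⟩
  rw [← sum_sw (fun S hS => sw_mem_pc hk hl hS)]
  simp only [sw_mono]

lemma sum_io {D S : Finset V} {a : ℕ} (hS : S ∈ powersetCard a D) : ∑ k ∈ D, io S k = a := by
  rw [mem_powersetCard] at hS
  simp [io, inter_eq_right.2 hS.1, hS.2]

lemma io_sq (S : Finset V) (k : V) : io S k * io S k = io S k := by unfold io; split_ifs <;> simp

lemma exists_cnts (D : Finset V) (a : ℕ) : ∃ C₁ C₂ C₃ C₄ : ℝ,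
    (∀ k ∈ D, ∑ S ∈ powersetCard a D, io S k = C₁) ∧
    (∀ k ∈ D, ∀ l ∈ D, k ≠ l → ∑ S ∈ powersetCard a D, io S k * io S l = C₂) ∧
    (∀ k ∈ D, ∀ l ∈ D, ∀ m ∈ D, k ≠ l → k ≠ m → l ≠ m →
      ∑ S ∈ powersetCard a D, io S k * io S l * io S m = C₃) ∧
    (∀ k ∈ D, ∀ l ∈ D, ∀ m ∈ D, ∀ n ∈ D, k ≠ l → k ≠ m → l ≠ m → k ≠ n → l ≠ n → m ≠ n →
      ∑ S ∈ powersetCard a D, io S k * io S l * io S m * io S n = C₄) ∧
    (0 ≤ C₁ - C₂ → 2 * (C₂ - 2 * C₃ + C₄) ≤ C₁ - C₂) := by
  obtain ⟨C₁, h1⟩ := exists_cnt D a 1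
  obtain ⟨C₂, h2⟩ := exists_cnt D a 2
  obtain ⟨C₃, h3⟩ := exists_cnt D a 3
  obtain ⟨C₄, h4⟩ := exists_cnt D a 4
  have k1 : ∀ k ∈ D, ∑ S ∈ powersetCard a D, io S k = C₁ := fun k hk => by
    rw [← h1 {k} (by simp [hk])]; simp [io]
  have k2 : ∀ k ∈ D, ∀ l ∈ D, k ≠ l → ∑ S ∈ powersetCard a D, io S k * io S l = C₂ := by
    intro k hk l hl hkl
    rw [← h2 {k, l} (by simp [insert_subset_iff, hk, hl, hkl])]
    refine sum_congr rfl fun S _ => ?_
    by_cases a : k ∈ S <;> by_cases b : l ∈ S <;> simp [io, insert_subset_iff, a, b]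
  have k3 : ∀ k ∈ D, ∀ l ∈ D, ∀ m ∈ D, k ≠ l → k ≠ m → l ≠ m →
      ∑ S ∈ powersetCard a D, io S k * io S l * io S m = C₃ := by
    intro k hk l hl m hm hkl hkm hlm
    rw [← h3 {k, l, m} (by simp [insert_subset_iff, *])]
    refine sum_congr rfl fun S _ => ?_
    by_cases a : k ∈ S <;> by_cases b : l ∈ S <;> by_cases c : m ∈ S <;>
      simp [io, insert_subset_iff, a, b, c]
  have k4 : ∀ k ∈ D, ∀ l ∈ D, ∀ m ∈ D, ∀ n ∈ D, k ≠ l → k ≠ m → l ≠ m → k ≠ n → l ≠ n → m ≠ n →
      ∑ S ∈ powersetCard a D, io S k * io S l * io S m * io S n = C₄ := by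
    intro k hk l hl m hm n hn hkl hkm hlm hkn hln hmn
    rw [← h4 {k, l, m, n} (by simp [insert_subset_iff, *])]
    refine sum_congr rfl fun S _ => ?_
    by_cases a : k ∈ S <;> by_cases b : l ∈ S <;> by_cases c : m ∈ S <;> by_cases d : n ∈ S <;>
      simp [io, insert_subset_iff, a, b, c, d]
  by_cases hq : ∃ k ∈ D, ∃ l ∈ D, ∃ m ∈ D, ∃ n ∈ D, k ≠ l ∧ k ≠ m ∧ l ≠ m ∧ k ≠ n ∧ l ≠ n ∧ m ≠ n
  · refine ⟨C₁, C₂, C₃, C₄, k1, k2, k3, k4, fun _ => ?_⟩
    obtain ⟨k, hk, l, hl, m, hm, n, hn, hkl, hkm, hlm, hkn, hln, hmn⟩ := hq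
    have : ∑ S ∈ powersetCard a D, (io S k * io S m - io S k * io S l * io S m - io S k * io S m * io S n
        + io S k * io S l * io S m * io S n + (io S k * io S n - io S k * io S l * io S n
        - io S k * io S m * io S n + io S k * io S l * io S m * io S n)) ≤
        ∑ S ∈ powersetCard a D, (io S k - io S k * io S l) := by
      refine sum_le_sum fun S _ => ?_
      unfold io
      split_ifs <;> norm_num
    simp only [sum_add_distrib, sum_sub_distrib] at this
    rw [k1 k hk, k2 k hk l hl hkl, k2 k hk m hm hkm, k2 k hk n hn hkn, k3 k hk l hl m hm hkl hkm hlm,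
      k3 k hk m hm n hn hkm hkn hmn, k3 k hk l hl n hn hkl hkn hln,
      k4 k hk l hl m hm n hn hkl hkm hlm hkn hln hmn] at this
    linarith
  · refine ⟨C₁, C₂, C₃, 2 * C₃ - C₂, k1, k2, k3, fun k hk l hl m hm n hn a b c d e f => ?_,
      fun h => by linarith⟩
    exact absurd ⟨k, hk, l, hl, m, hm, n, hn, a, b, c, d, e, f⟩ hq

lemma quartic_sum (D : Finset V) (v : V → V → ℝ) (hs : ∀ k l, v k l = v l k) (hd : ∀ k, v k k = 0)
    (hr : ∀ k ∈ D, ∑ l ∈ D, v k l = 0) (N : V → V → V → V → ℝ) (A B C : ℝ)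
    (hN : ∀ k ∈ D, ∀ l ∈ D, ∀ m ∈ D, ∀ n ∈ D, k ≠ l → m ≠ n → N k l m n =
      A + B * ((if k = m then 1 else 0) + (if k = n then 1 else 0) + (if l = m then 1 else 0) +
        (if l = n then 1 else 0)) +
      C * ((if k = m then (if l = n then 1 else 0) else 0) + (if k = n then (if l = m then 1 else 0) else 0))) :
    ∑ k ∈ D, ∑ l ∈ D, ∑ m ∈ D, ∑ n ∈ D, v k l * v m n * N k l m n =
      2 * C * ∑ k ∈ D, ∑ l ∈ D, v k l ^ 2 := by
  have hc : ∀ l ∈ D, ∑ k ∈ D, v k l = 0 := fun l hl => by simp only [hs _ l]; exact hr l hl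
  have inner : ∀ k ∈ D, ∀ l ∈ D, ∑ m ∈ D, ∑ n ∈ D, v k l * v m n * N k l m n =
      2 * C * v k l ^ 2 := by
    intro k hk l hl
    by_cases hkl : k = l
    · simp [hkl, hd]
    have : ∀ m ∈ D, ∀ n ∈ D, v k l * v m n * N k l m n =
        v k l * A * v m n + v k l * B * ((if k = m then v m n else 0) + (if k = n then v m n else 0) +
          (if l = m then v m n else 0) + (if l = n then v m n else 0)) +
        v k l * C * ((if k = m then (if l = n then v m n else 0) else 0) +
          (if k = n then (if l = m then v m n else 0) else 0)) := by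
      intro m hm n hn
      by_cases hmn : m = n
      · simp [hmn, hd]
      rw [hN k hk l hl m hm n hn hkl hmn]
      split_ifs <;> ring
    rw [sum_congr rfl fun m hm => sum_congr rfl fun n hn => this m hm n hn]
    simp only [sum_add_distrib, ← mul_sum]
    have a0 : ∑ m ∈ D, ∑ n ∈ D, v m n = 0 := sum_eq_zero hr
    have a1 : ∀ z ∈ D, ∑ m ∈ D, ∑ n ∈ D, (if z = m then v m n else 0) = 0 := fun z hz => by
      rw [sum_comm]; simp [hz, hr z hz]
    have a2 : ∀ z ∈ D, ∑ m ∈ D, ∑ n ∈ D, (if z = n then v m n else 0) = 0 := fun z hz => by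
      simp [hz, hc z hz]
    have a3 : ∑ m ∈ D, ∑ n ∈ D, (if k = m then (if l = n then v m n else 0) else 0) = v k l := by
      rw [sum_comm]; simp [hk, hl]
    have a4 : ∑ m ∈ D, ∑ n ∈ D, (if k = n then (if l = m then v m n else 0) else 0) = v k l := by
      simp [hk, hl, hs l k]
    rw [a0, a1 k hk, a1 l hl, a2 k hk, a2 l hl, a3, a4]
    ring
  rw [sum_congr rfl fun k hk => sum_congr rfl fun l hl => inner k hk l hl]
  simp only [mul_sum]

lemma N_bound [Fintype V] (D : Finset V) (a : ℕ) (g : Finset V → ℝ)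
    (hg : ∑ S ∈ powersetCard a D, g S = 0) :
    ∑ k ∈ D, ∑ l ∈ D, (∑ S ∈ (powersetCard a D).filter (fun S => ¬ (k ∈ S ↔ l ∈ S)), g S) ^ 2 /
        ((powersetCard a D).filter (fun S => ¬ (k ∈ S ↔ l ∈ S))).card ≤
      (∑ k ∈ D, ∑ l ∈ D, ∑ S ∈ powersetCard a D, (g S - g (sw k l S)) ^ 2) / 4 := by
  have hgap := bl_gap D a g hg
  obtain ⟨C₁, C₂, C₃, C₄, k1, k2, k3, k4, hπ⟩ := exists_cnts D a
  set P := powersetCard a D with hP
  set L := ∑ k ∈ D, ∑ l ∈ D, ∑ S ∈ P, (g S - g (sw k l S)) ^ 2 with hL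
  have hL0 : 0 ≤ L := by positivity
  by_cases hex : ¬ ∃ k ∈ D, ∃ l ∈ D, ∃ S ∈ P, k ∈ S ∧ l ∉ S
  · push Not at hex
    rw [sum_eq_zero]
    · positivity
    intro k hk
    refine sum_eq_zero fun l hl => ?_
    rw [filter_eq_empty_iff.2 fun S hS => not_not.2 ⟨hex k hk l hl S hS, hex l hl k hk S hS⟩]
    simp
  obtain ⟨k₀, hk₀, l₀, hl₀, S₀, hS₀, a1, a2⟩ := not_not.1 hex
  have hne₀ : k₀ ≠ l₀ := fun h => a2 (h ▸ a1)
  have hS₀' := mem_powersetCard.1 hS₀
  have ha1 : 1 ≤ a := by rw [← hS₀'.2]; exact card_pos.2 ⟨k₀, a1⟩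
  have ha2 : a + 1 ≤ D.card := by
    rw [← hS₀'.2]; exact card_lt_card ⟨hS₀'.1, fun h => a2 (h hl₀)⟩
  obtain ⟨M, hM⟩ : ∃ M : ℝ, M = D.card := ⟨_, rfl⟩
  have ha1' : (1:ℝ) ≤ a := by exact_mod_cast ha1
  have ha2' : (a:ℝ) + 1 ≤ M := by rw [hM]; exact_mod_cast ha2
  obtain ⟨c, hc⟩ : ∃ c, c = C₁ - C₂ := ⟨_, rfl⟩
  have hc0 : 0 < c := by
    rw [hc, ← k1 k₀ hk₀, ← k2 k₀ hk₀ l₀ hl₀ hne₀, ← sum_sub_distrib]
    refine sum_pos' (fun S _ => by unfold io; split_ifs <;> norm_num) ⟨S₀, hS₀, by simp [io, a1, a2]⟩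
  obtain ⟨κ, hκ0, hκ1, hκ⟩ : ∃ κ : ℝ, 0 ≤ κ ∧ κ ≤ 1 ∧ κ * (M - 2) = a - 1 := by
    rcases eq_or_lt_of_le (show 2 ≤ M by linarith) with h | h
    · exact ⟨0, le_rfl, one_pos.le, by linarith⟩
    · have : 0 < M - 2 := by linarith
      exact ⟨(a - 1) / (M - 2), div_nonneg (by linarith) this.le, (div_le_one this).2 (by linarith),
        div_mul_cancel₀ _ this.ne'⟩
  set θ : V → ℝ := fun k => ∑ S ∈ P, g S * io S k with hθ
  set η : V → V → ℝ := fun k l => ∑ S ∈ P, g S * (io S k * io S l) with hη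
  have hθ0 : ∑ k ∈ D, θ k = 0 := by
    simp only [hθ]
    rw [sum_comm, sum_congr rfl fun S hS => by rw [← mul_sum, sum_io hS], ← sum_mul, hg, zero_mul]
  have hηr : ∀ k, ∑ l ∈ D, η k l = a * θ k := fun k => by
    simp only [hθ, hη]
    rw [sum_comm, mul_sum]
    exact sum_congr rfl fun S hS => by rw [← mul_sum, ← mul_sum, sum_io hS]; ring
  have hηd : ∀ k, η k k = θ k := fun k => by simp only [hθ, hη, io_sq]
  have hηs : ∀ k l, η k l = η l k := fun k l => by simp only [hη, mul_comm]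
  set v : V → V → ℝ := fun k l => if k = l then 0 else 2 * κ * (θ k + θ l) - 2 * η k l with hv
  have hvs : ∀ k l, v k l = v l k := fun k l => by simp only [hv, eq_comm, add_comm, hηs k l]
  have hvd : ∀ k, v k k = 0 := fun k => by simp [hv]
  have hvr : ∀ k ∈ D, ∑ l ∈ D, v k l = 0 := by
    intro k hk
    have : ∀ l, v k l = (2 * κ * (θ k + θ l) - 2 * η k l) -
        (if k = l then 4 * κ * θ k - 2 * θ k else 0) := fun l => by
      simp only [hv]; split_ifs with h
      · subst h; rw [hηd]; ring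
      · ring
    simp only [this, sum_sub_distrib, ← mul_sum, sum_add_distrib, hθ0, hηr, sum_ite_eq, hk, if_true,
      sum_const, nsmul_eq_mul, ← hM]
    linear_combination 2 * θ k * hκ
  have hvc : ∀ l ∈ D, ∑ k ∈ D, v k l = 0 := fun l hl => by simp only [hvs _ l]; exact hvr l hl
  have hvθ : ∑ k ∈ D, ∑ l ∈ D, v k l * (θ k + θ l) = 0 := by
    simp only [mul_add, sum_add_distrib]
    rw [sum_comm (f := fun k l => v k l * θ l)]
    simp only [← sum_mul]
    rw [sum_eq_zero fun k hk => by rw [hvr k hk, zero_mul],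
      sum_eq_zero fun k hk => by rw [hvc k hk, zero_mul], add_zero]
  obtain ⟨Θ, hΘ⟩ : ∃ Θ, Θ = ∑ k ∈ D, θ k ^ 2 := ⟨_, rfl⟩
  obtain ⟨W, hW⟩ : ∃ W, W = ∑ k ∈ D, ∑ l ∈ D, v k l ^ 2 := ⟨_, rfl⟩
  obtain ⟨G, hG⟩ : ∃ G, G = ∑ S ∈ P, g S ^ 2 := ⟨_, rfl⟩
  have hΘ0 : 0 ≤ Θ := by rw [hΘ]; positivity
  have hW0 : 0 ≤ W := by rw [hW]; positivity
  have hG0 : 0 ≤ G := by rw [hG]; positivity
  -- rewriting of the left side
  have hlhs : ∀ k ∈ D, ∀ l ∈ D, (∑ S ∈ P.filter (fun S => ¬ (k ∈ S ↔ l ∈ S)), g S) ^ 2 /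
      (P.filter (fun S => ¬ (k ∈ S ↔ l ∈ S))).card =
      ((1 - 2 * κ) ^ 2 * ((θ k + θ l) ^ 2 - if k = l then 4 * θ k ^ 2 else 0) +
        2 * (1 - 2 * κ) * (v k l * (θ k + θ l)) + v k l ^ 2) / (2 * c) := by
    intro k hk l hl
    by_cases hkl : k = l
    · subst hkl; simp [hvd]; ring
    have e1 : ∑ S ∈ P.filter (fun S => ¬ (k ∈ S ↔ l ∈ S)), g S = θ k + θ l - 2 * η k l := by
      simp only [hθ, hη, sum_filter, mul_sum, ← sum_add_distrib, ← sum_sub_distrib]
      refine sum_congr rfl fun S _ => ?_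
      by_cases a : k ∈ S <;> by_cases b : l ∈ S <;> simp [io, a, b]
      ring
    have e2 : ((P.filter (fun S => ¬ (k ∈ S ↔ l ∈ S))).card : ℝ) = 2 * c := by
      rw [card_filter, Nat.cast_sum, show 2 * c = C₁ + C₁ - 2 * C₂ by rw [hc]; ring]
      nth_rewrite 1 [← k1 k hk]
      rw [← k1 l hl, ← k2 k hk l hl hkl, mul_sum, ← sum_add_distrib, ← sum_sub_distrib]
      refine sum_congr rfl fun S _ => ?_
      by_cases a : k ∈ S <;> by_cases b : l ∈ S <;> simp [io, a, b]
      norm_num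
    rw [e1, e2]
    simp only [hv, hkl, if_false]
    ring
  rw [sum_congr rfl fun k hk => sum_congr rfl fun l hl => hlhs k hk l hl]
  have hsq : ∀ t : ℝ, ∑ k ∈ D, ∑ l ∈ D, (θ k + t * θ l) ^ 2 = (1 + t ^ 2) * M * Θ := fun t => by
    have : ∀ k l, (θ k + t * θ l) ^ 2 = θ k ^ 2 + 2 * t * (θ k * θ l) + t ^ 2 * θ l ^ 2 :=
      fun k l => by ring
    simp only [this, sum_add_distrib, ← mul_sum, ← sum_mul, hθ0, sum_const, nsmul_eq_mul, ← hM, ← hΘ]
    ring
  have hsq1 := hsq 1
  have hsq2 := hsq (-1)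
  simp only [one_mul] at hsq1
  have hdiag : ∑ k ∈ D, ∑ l ∈ D, (if k = l then 4 * θ k ^ 2 else 0) = 4 * Θ := by
    rw [hΘ, mul_sum]; exact sum_congr rfl fun k hk => by simp [hk]
  simp only [← sum_div, sum_add_distrib, ← mul_sum, sum_sub_distrib, hsq1, hdiag, hvθ, ← hW]
  -- bound on Θ
  have bΘ : 4 * M * Θ ≤ c * L := by
    have : ∀ k ∈ D, ∀ l ∈ D, (θ k + -1 * θ l) ^ 2 ≤ c / 2 * ∑ S ∈ P, (g S - g (sw k l S)) ^ 2 := by
      intro k hk l hl
      by_cases hkl : k = l
      · subst hkl; simp; positivity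
      have e1 : 2 * (θ k + -1 * θ l) = ∑ S ∈ P, (io S k - io S l) * (g S - g (sw k l S)) := by
        have := sum_sw (P := P) (fun S hS => sw_mem_pc hk hl hS) (fun S => g S * (io S l - io S k))
        have e : ∀ S, io (sw k l S) l - io (sw k l S) k = io S k - io S l := fun S => by
          simp [io, mem_sw]
        simp only [e] at this
        simp only [mul_sub (_ - _), sum_sub_distrib, mul_comm (_ - _), this]
        simp only [hθ, mul_sub, sum_sub_distrib]
        ring
      have e2 : ∑ S ∈ P, (io S k - io S l) ^ 2 = 2 * c := by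
        rw [show 2 * c = C₁ + C₁ - 2 * C₂ by rw [hc]; ring]
        nth_rewrite 1 [← k1 k hk]
        rw [← k1 l hl, ← k2 k hk l hl hkl, mul_sum, ← sum_add_distrib, ← sum_sub_distrib]
        refine sum_congr rfl fun S _ => ?_
        unfold io; split_ifs <;> norm_num
      have := sum_mul_sq_le_sq_mul_sq P (fun S => io S k - io S l) (fun S => g S - g (sw k l S))
      rw [← e1, e2] at this
      linarith
    have := sum_le_sum fun k hk => sum_le_sum fun l hl => this k hk l hl
    simp only [hsq2, ← mul_sum] at this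
    linarith
  -- bound on W
  have bW : W ≤ 4 * c * G := by
    set F : Finset V → ℝ := fun S => ∑ k ∈ D, ∑ l ∈ D, v k l * (io S k * io S l) with hF
    have e1 : W = -2 * ∑ S ∈ P, g S * F S := by
      have : ∀ k l, v k l ^ 2 = 2 * κ * (v k l * (θ k + θ l)) - 2 * (v k l * η k l) := fun k l => by
        simp only [hv]; split_ifs <;> ring
      rw [hW]
      simp only [this, sum_sub_distrib, ← mul_sum, hvθ]
      simp only [hF, hη, mul_sum]
      rw [sum_comm (s := P)]
      simp only [mul_zero, zero_sub, ← sum_neg_distrib]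
      refine sum_congr rfl fun k _ => ?_
      rw [sum_comm (s := P)]
      exact sum_congr rfl fun l _ => sum_congr rfl fun S _ => by ring
    have e2 : ∑ S ∈ P, F S ^ 2 = 2 * (C₂ - 2 * C₃ + C₄) * W := by
      rw [hW, ← quartic_sum D v hvs hvd hvr
        (fun k l m n => ∑ S ∈ P, io S k * io S l * io S m * io S n) C₄ (C₃ - C₄)]
      · have : ∀ S, F S ^ 2 = ∑ k ∈ D, ∑ l ∈ D, ∑ m ∈ D, ∑ n ∈ D,
            v k l * v m n * (io S k * io S l * io S m * io S n) := by
          intro S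
          simp only [hF]
          rw [sq, sum_mul]
          refine sum_congr rfl fun k _ => ?_
          rw [sum_mul]
          refine sum_congr rfl fun l _ => ?_
          rw [mul_sum]
          refine sum_congr rfl fun m _ => ?_
          rw [mul_sum]
          exact sum_congr rfl fun n _ => by ring
        simp only [this]
        rw [sum_comm]
        refine sum_congr rfl fun k _ => ?_
        rw [sum_comm]
        refine sum_congr rfl fun l _ => ?_
        rw [sum_comm]
        refine sum_congr rfl fun m _ => ?_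
        rw [sum_comm]
        exact sum_congr rfl fun n _ => by rw [mul_sum]
      · intro k hk l hl m hm n hn hkl hmn
        by_cases h1 : k = m
        · subst h1
          by_cases h2 : l = n
          · subst h2
            simp only [hkl, Ne.symm hkl, if_true, if_false]
            rw [sum_congr rfl fun S _ => show io S k * io S l * io S k * io S l = io S k * io S l by
              unfold io; split_ifs <;> simp, k2 k hk l hl hkl]
            ring
          · simp only [hmn, Ne.symm hkl, h2, if_true, if_false]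
            rw [sum_congr rfl fun S _ => show io S k * io S l * io S k * io S n = io S k * io S l * io S n by
              unfold io; split_ifs <;> simp, k3 k hk l hl n hn hkl hmn h2]
            ring
        · by_cases h2 : k = n
          · subst h2
            by_cases h3 : l = m
            · subst h3
              simp only [hkl, Ne.symm hkl, if_true, if_false]
              rw [sum_congr rfl fun S _ => show io S k * io S l * io S l * io S k = io S k * io S l by
                unfold io; split_ifs <;> simp, k2 k hk l hl hkl]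
              ring
            · simp only [h1, Ne.symm hkl, h3, if_true, if_false]
              rw [sum_congr rfl fun S _ => show io S k * io S l * io S m * io S k = io S k * io S l * io S m by
                unfold io; split_ifs <;> simp, k3 k hk l hl m hm hkl h1 h3]
              ring
          · by_cases h3 : l = m
            · subst h3
              simp only [h1, h2, hmn, if_true, if_false]
              rw [sum_congr rfl fun S _ => show io S k * io S l * io S l * io S n = io S k * io S l * io S n by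
                unfold io; split_ifs <;> simp, k3 k hk l hl n hn hkl h2 hmn]
              ring
            · by_cases h4 : l = n
              · subst h4
                simp only [h1, h2, h3, if_true, if_false]
                rw [sum_congr rfl fun S _ => show io S k * io S l * io S m * io S l = io S k * io S l * io S m by
                  unfold io; split_ifs <;> simp, k3 k hk l hl m hm hkl h1 h3]
                ring
              · simp only [h1, h2, h3, h4, if_false]
                rw [k4 k hk l hl m hm n hn hkl h1 h3 h2 h4 hmn]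
                ring
    have cs := sum_mul_sq_le_sq_mul_sq P g F
    rw [← hG, e2] at cs
    have hπ' := hπ (hc ▸ hc0.le)
    rw [← hc] at hπ'
    have : W * W ≤ 4 * c * G * W := by
      have : G * (2 * (C₂ - 2 * C₃ + C₄) * W) ≤ G * (c * W) := by gcongr
      nlinarith
    rcases hW0.eq_or_lt with h | h
    · rw [← h]; positivity
    · exact le_of_mul_le_mul_right this h
  rw [← hM, ← hG] at hgap
  have hM0 : 0 < M := by linarith
  rw [div_le_div_iff₀ (by positivity) (by norm_num)]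
  have t1 : (1 - 2 * κ) ^ 2 ≤ 1 := by nlinarith
  have t2 : (1 - 2 * κ) ^ 2 * ((M - 2) * Θ) ≤ (M - 2) * Θ :=
    mul_le_of_le_one_left (mul_nonneg (by linarith) hΘ0) t1
  refine le_of_mul_le_mul_left ?_ hM0
  have t3 := mul_le_mul_of_nonneg_left bΘ (show 0 ≤ M - 2 by linarith)
  have t4 := mul_le_mul_of_nonneg_left hgap hc0.le
  have t5 := mul_le_mul_of_nonneg_left bW hM0.le
  have t6 := mul_le_mul_of_nonneg_left t2 hM0.le
  nlinarith

end Crest.Agent.H7.Sw
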