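import Mathlib
import Crest.Agent.H7.SwN

set_option autoImplicit false

open Finset

namespace Crest.Agent.H7.Sw

variable {A : Type*} [Fintype A] {V : Type*} [DecidableEq V]

lemma two_row {r ρ : A → A → Prop} (hρ : Equivalence ρ) (a b : A → Finset V)
    (hr : ∀ x y, r x y ↔ ρ x y ∧ a x ∩ b x = a y ∩ b y ∧ a x ∪ b x = a y ∪ b y ∧
      (a x).card = (a y).card)
    (inj : ∀ x y, ρ x y → a x = a y → b x = b y → x = y)
    (ex : ∀ x a' b', a' ⊆ a x ∪ b x → b' ⊆ a x ∪ b x → ∃ y, ρ x y ∧ a y = a' ∧ b y = b') (x : A) :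
    ∃ B : Finset V → A,
      (∀ S ∈ powersetCard (a x \ b x).card ((a x ∪ b x) \ (a x ∩ b x)), r x (B S) ∧
        a (B S) = a x ∩ b x ∪ S ∧ b (B S) = a x ∩ b x ∪ (((a x ∪ b x) \ (a x ∩ b x)) \ S)) ∧
      (∀ y, r x y → ∃ S ∈ powersetCard (a x \ b x).card ((a x ∪ b x) \ (a x ∩ b x)), B S = y) ∧
      (∀ F : A → ℝ, ∑ y ∈ fib r x, F y =
        ∑ S ∈ powersetCard (a x \ b x).card ((a x ∪ b x) \ (a x ∩ b x)), F (B S)) ∧
      (fib r x).card = (powersetCard (a x \ b x).card ((a x ∪ b x) \ (a x ∩ b x))).card := by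
  set I := a x ∩ b x with hI
  set D := (a x ∪ b x) \ I with hD
  have hIU : I ⊆ a x ∪ b x := inter_subset_union
  have hDU : D ⊆ a x ∪ b x := sdiff_subset
  choose B hB using fun S => ex x (I ∪ S ∩ D) (I ∪ D \ S)
    (union_subset hIU (inter_subset_right.trans hDU)) (union_subset hIU (sdiff_subset.trans hDU))
  have hcard : (a x).card = I.card + (a x \ b x).card := by
    rw [hI, card_inter_add_card_sdiff]
  have h1 : ∀ S ∈ powersetCard (a x \ b x).card D, r x (B S) ∧ a (B S) = I ∪ S ∧ b (B S) = I ∪ D \ S := by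
    intro S hS
    rw [mem_powersetCard] at hS
    have e : a (B S) = I ∪ S := by rw [(hB S).2.1, inter_eq_left.2 hS.1]
    refine ⟨(hr _ _).2 ⟨(hB S).1, ?_, ?_, ?_⟩, e, (hB S).2.2⟩
    · rw [e, (hB S).2.2, ← union_inter_distrib_left, inter_sdiff_self, union_empty]
    · rw [e, (hB S).2.2, union_union_union_comm, union_idempotent, union_sdiff_of_subset hS.1, hD,
        union_sdiff_of_subset hIU]
    · rw [e, card_union_of_disjoint, hS.2, hcard]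
      exact (disjoint_sdiff.mono_right hS.1)
  have h2 : ∀ y, r x y → a y \ b y ∈ powersetCard (a x \ b x).card D ∧ B (a y \ b y) = y := by
    intro y hy
    obtain ⟨k1, k2', k3, k4⟩ := (hr _ _).1 hy
    have k2 : I = a y ∩ b y := k2'
    have hm : a y \ b y ∈ powersetCard (a x \ b x).card D := by
      rw [mem_powersetCard, hD, k2, k3]
      refine ⟨fun z hz => by simp at hz ⊢; tauto, ?_⟩
      have := card_inter_add_card_sdiff (a y) (b y)
      rw [← k2] at this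
      omega
    refine ⟨hm, inj _ _ (hρ.trans (hρ.symm (hB _).1) k1) ?_ ?_⟩
    · rw [(h1 _ hm).2.1, k2]; ext z; simp; tauto
    · rw [(h1 _ hm).2.2, hD, k2, k3]; ext z; simp; tauto
  have h3 : ∀ S ∈ powersetCard (a x \ b x).card D, a (B S) \ b (B S) = S := by
    intro S hS
    rw [(h1 S hS).2.1, (h1 S hS).2.2]
    have := (mem_powersetCard.1 hS).1
    ext z
    have h4 : z ∈ S → z ∈ D := fun h => this h
    have h5 : z ∈ D → z ∉ I := fun h => (mem_sdiff.1 h).2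
    simp only [mem_sdiff, mem_union]
    tauto
  refine ⟨B, h1, fun y hy => ⟨_, (h2 y hy).1, (h2 y hy).2⟩, fun F => ?_, ?_⟩
  · exact sum_nbij' (fun y => a y \ b y) B (fun y hy => (h2 y (mem_fib.1 hy)).1)
      (fun S hS => mem_fib.2 (h1 S hS).1) (fun y hy => (h2 y (mem_fib.1 hy)).2) h3
      (fun y hy => by rw [(h2 y (mem_fib.1 hy)).2])
  · exact card_nbij' (fun y => a y \ b y) B (fun y hy => (h2 y (mem_fib.1 hy)).1)
      (fun S hS => mem_fib.2 (h1 S hS).1) (fun y hy => (h2 y (mem_fib.1 hy)).2) h3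

lemma exchange {S T : Finset V} (hc : S.card = T.card) (h : (S \ T).card ≤ 1) :
    S = T ∨ ∃ x y, x ∉ S ∧ y ∈ S ∧ x ∈ T ∧ y ∉ T ∧ T = sw x y S ∧
      ∀ κ : V → ℕ, ∑ c ∈ T, κ c + κ y = ∑ c ∈ S, κ c + κ x := by
  rcases Nat.le_one_iff_eq_zero_or_eq_one.1 h with h | h
  · exact Or.inl (eq_of_subset_of_card_le (sdiff_eq_empty_iff_subset.1 (card_eq_zero.1 h)) hc.ge)
  right
  obtain ⟨y, hy⟩ := card_eq_one.1 h
  obtain ⟨x, hx⟩ := card_eq_one.1 ((card_sdiff_comm hc.symm).trans h)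
  have hy' : ∀ z, z ∈ S ∧ z ∉ T ↔ z = y := fun z => by rw [← mem_sdiff, hy, mem_singleton]
  have hx' : ∀ z, z ∈ T ∧ z ∉ S ↔ z = x := fun z => by rw [← mem_sdiff, hx, mem_singleton]
  have a := (hy' y).2 rfl
  have b := (hx' x).2 rfl
  refine ⟨x, y, b.2, a.1, b.1, a.2, ?_, fun κ => ?_⟩
  · ext z
    rw [mem_sw, Equiv.swap_apply_def]
    split_ifs with h1 h2
    · simp [h1, a.1, b.1]
    · simp [h2, a.2, b.2]
    · have := hy' z; have := hx' z; tauto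
  · rw [← sum_sdiff (inter_subset_left (s₁ := T) (s₂ := S)), ← sum_sdiff (inter_subset_left (s₁ := S) (s₂ := T)),
      sdiff_inter_self_left, sdiff_inter_self_left, hx, hy, inter_comm T S]
    simp; ring

lemma card_sdiff_sw_le (k l : V) (S : Finset V) : (S \ sw k l S).card ≤ 1 := by
  rw [card_le_one]
  intro a ha b hb
  simp only [mem_sdiff, mem_sw, Equiv.swap_apply_def] at ha hb
  split_ifs at ha hb <;> simp_all

/-- column sum -/
def cs (R : Fin 3 → A → Finset V) (x : A) (c : V) : ℕ := ∑ t, if c ∈ R t x then 1 else 0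

lemma sum3 {M : Type*} [AddCommMonoid M] (F : Fin 3 → M) (u : Fin 3) :
    ∑ t, F t = F u + F (u + 1) + F (u + 2) := by
  fin_cases u <;> simp [Fin.sum_univ_three] <;> abel

omit [Fintype A] in
lemma cs_eq (R : Fin 3 → A → Finset V) (x : A) (c : V) (u : Fin 3) : cs R x c =
    (if c ∈ R u x then 1 else 0) + (if c ∈ R (u + 1) x then 1 else 0) +
      (if c ∈ R (u + 2) x then 1 else 0) :=
  sum3 (fun t => if c ∈ R t x then 1 else 0) u

lemma ind_iff {r a b a' b' : Finset V} :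
    (∀ c, ((if c ∈ r then 1 else 0) + (if c ∈ a then 1 else 0) + (if c ∈ b then 1 else 0) : ℕ) =
      (if c ∈ r then 1 else 0) + (if c ∈ a' then 1 else 0) + (if c ∈ b' then 1 else 0)) ↔
    a ∩ b = a' ∩ b' ∧ a ∪ b = a' ∪ b' := by
  simp only [Finset.ext_iff, mem_inter, mem_union, ← forall_and]
  refine forall_congr' fun c => ?_
  by_cases h1 : c ∈ a <;> by_cases h2 : c ∈ b <;> by_cases h3 : c ∈ a' <;> by_cases h4 : c ∈ b' <;>
    simp [h1, h2, h3, h4] <;> omega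

lemma ind_split {p q p1 q1 p2 q2 : Prop} [Decidable p] [Decidable q] [Decidable p1] [Decidable q1]
    [Decidable p2] [Decidable q2]
    (h : ((if p then 1 else 0) + (if p1 then 1 else 0) + (if p2 then 1 else 0) : ℕ) =
      (if q then 1 else 0) + (if q1 then 1 else 0) + (if q2 then 1 else 0)) (hu : ¬ (p ↔ q)) :
    (p1 ↔ q1) ∨ (p2 ↔ q2) := by
  split_ifs at h <;> first | omega | tauto

lemma ind_m1 {p q p1 q1 p2 q2 : Prop} [Decidable p] [Decidable q] [Decidable p1] [Decidable q1]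
    [Decidable p2] [Decidable q2]
    (h : ((if p then 1 else 0) + (if p1 then 1 else 0) + (if p2 then 1 else 0) : ℕ) =
      (if q then 1 else 0) + (if q1 then 1 else 0) + (if q2 then 1 else 0)) (hu : q ↔ p) :
    (p1 ∧ p2 ↔ q1 ∧ q2) ∧ ((p1 ∨ p2) ∧ ¬ (p1 ∧ p2) ↔ (q1 ∨ q2) ∧ ¬ (q1 ∧ q2)) := by
  split_ifs at h <;> first | omega | tauto

lemma ind_m2 {p q p1 q1 p2 q2 : Prop} [Decidable p] [Decidable q] [Decidable p1] [Decidable q1]
    [Decidable p2] [Decidable q2]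
    (h : ((if p then 1 else 0) + (if p1 then 1 else 0) + (if p2 then 1 else 0) : ℕ) = 1)
    (h' : ((if q then 1 else 0) + (if q1 then 1 else 0) + (if q2 then 1 else 0) : ℕ) = 1)
    (hp : ¬ p) (hq : q) :
    ((p1 ∨ p2) ∧ ¬ (p1 ∧ p2)) ∧ ¬ ((q1 ∨ q2) ∧ ¬ (q1 ∧ q2)) ∧ ¬ (q1 ∧ q2) := by
  split_ifs at h h' <;> first | omega | tauto

lemma ind_m3 {p q p1 q1 p2 q2 : Prop} [Decidable p] [Decidable q] [Decidable p1] [Decidable q1]
    [Decidable p2] [Decidable q2]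
    (h : ((if p then 1 else 0) + (if p1 then 1 else 0) + (if p2 then 1 else 0) : ℕ) = 2)
    (h' : ((if q then 1 else 0) + (if q1 then 1 else 0) + (if q2 then 1 else 0) : ℕ) = 2)
    (hp : p) (hq : ¬ q) :
    ((p1 ∨ p2) ∧ ¬ (p1 ∧ p2)) ∧ ¬ ((q1 ∨ q2) ∧ ¬ (q1 ∧ q2)) ∧ (q1 ∧ q2) := by
  split_ifs at h h' <;> first | omega | tauto

lemma close_card {I I' D D' S T : Finset V} {k l : V}
    (m1 : ∀ c, c ≠ k → c ≠ l → (c ∈ I ↔ c ∈ I') ∧ (c ∈ D ↔ c ∈ D'))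
    (m2 : k ∈ D ∧ k ∉ D' ∧ k ∉ I') (m3 : l ∈ D ∧ l ∉ D' ∧ l ∈ I') (hDI : ∀ c, c ∈ D → c ∉ I)
    (hSD : S ⊆ D) (hTD : T ⊆ D') :
    (S ∩ D' ⊆ T → ((I ∪ S) \ (I' ∪ T)).card ≤ 1 ∧ ((I' ∪ D' \ T) \ (I ∪ D \ S)).card ≤ 1) ∧
    (T ⊆ S → ((I' ∪ T) \ (I ∪ S)).card ≤ 1 ∧ ((I ∪ D \ S) \ (I' ∪ D' \ T)).card ≤ 1) := by
  refine ⟨fun hST => ⟨?_, ?_⟩, fun hST => ⟨?_, ?_⟩⟩
  · refine (card_le_card (t := {k}) fun c hc => ?_).trans (by simp)
    have := m1 c; have := @hSD c; have := hDI c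
    have : c ∈ S → c ∈ D' → c ∈ T := fun a b => hST (mem_inter.2 ⟨a, b⟩)
    simp only [mem_sdiff, mem_union, mem_singleton] at hc ⊢
    grind
  · refine (card_le_card (t := {l}) fun c hc => ?_).trans (by simp)
    have := m1 c; have := @hSD c; have := hDI c
    have : c ∈ S → c ∈ D' → c ∈ T := fun a b => hST (mem_inter.2 ⟨a, b⟩)
    simp only [mem_sdiff, mem_union, mem_singleton] at hc ⊢
    grind
  · refine (card_le_card (t := {l}) fun c hc => ?_).trans (by simp)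
    have := m1 c; have := @hTD c
    have : c ∈ T → c ∈ S := fun a => hST a
    simp only [mem_sdiff, mem_union, mem_singleton] at hc ⊢
    grind
  · refine (card_le_card (t := {k}) fun c hc => ?_).trans (by simp)
    have := m1 c; have := @hTD c; have := hDI c
    have : c ∈ T → c ∈ S := fun a => hST a
    simp only [mem_sdiff, mem_union, mem_singleton] at hc ⊢
    grind

lemma sub_a (I S T : Finset V) : (I ∪ S) \ (I ∪ T) ⊆ S \ T := fun c hc => by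
  simp only [mem_sdiff, mem_union] at hc ⊢; tauto

lemma sub_b (I D S T : Finset V) : (I ∪ D \ T) \ (I ∪ D \ S) ⊆ S \ T := fun c hc => by
  simp only [mem_sdiff, mem_union] at hc ⊢; tauto

lemma sub_c (a b : Finset V) : a \ b ⊆ (a ∪ b) \ (a ∩ b) := fun c hc => by
  simp only [mem_sdiff, mem_union, mem_inter] at hc ⊢; tauto

/-- three-row systems -/
structure TS (ρ : A → A → Prop) (rel : Fin 3 → A → A → Prop) (R : Fin 3 → A → Finset V)
    (C : Finset V) : Prop where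
  hρ : Equivalence ρ
  hC : ∀ t x, R t x ⊆ C
  hrel : ∀ u x y, rel u x y ↔ (ρ x y ∧ R u x = R u y) ∧
      R (u + 1) x ∩ R (u + 2) x = R (u + 1) y ∩ R (u + 2) y ∧
      R (u + 1) x ∪ R (u + 2) x = R (u + 1) y ∪ R (u + 2) y ∧ (R (u + 1) x).card = (R (u + 1) y).card
  inj : ∀ x y, ρ x y → (∀ t, R t x = R t y) → x = y
  ex : ∀ x (R' : Fin 3 → Finset V), (∀ t, R' t ⊆ C) → ∃ y, ρ x y ∧ ∀ t, R t y = R' t

/-- blocks -/
def blk (ρ : A → A → Prop) (R : Fin 3 → A → Finset V) (x y : A) : Prop :=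
  ρ x y ∧ (∀ c, cs R x c = cs R y c) ∧ ∀ t, (R t x).card = (R t y).card

lemma t3 : ∀ u t : Fin 3, t = u ∨ t = u + 1 ∨ t = u + 2 := by decide
lemma t4 : ∀ u : Fin 3, u + 1 ≠ u ∧ u + 2 ≠ u ∧ u + 2 ≠ u + 1 := by decide

namespace TS

variable {ρ : A → A → Prop} {rel : Fin 3 → A → A → Prop} {R : Fin 3 → A → Finset V}
  {C : Finset V} (H : TS ρ rel R C)
include H

omit [Fintype A] in
lemma hb : Equivalence (blk ρ R) := ⟨fun x => ⟨H.hρ.refl x, fun _ => rfl, fun _ => rfl⟩,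
    fun h => ⟨H.hρ.symm h.1, fun c => (h.2.1 c).symm, fun t => (h.2.2 t).symm⟩,
    fun h h' => ⟨H.hρ.trans h.1 h'.1, fun c => (h.2.1 c).trans (h'.2.1 c),
      fun t => (h.2.2 t).trans (h'.2.2 t)⟩⟩

omit [Fintype A] in
lemma rel_iff (u : Fin 3) (x y : A) : rel u x y ↔ blk ρ R x y ∧ R u x = R u y := by
  rw [H.hrel]
  constructor
  · rintro ⟨⟨h1, h2⟩, h3, h4, h5⟩
    refine ⟨⟨h1, fun c => ?_, fun t => ?_⟩, h2⟩
    · rw [cs_eq R x c u, cs_eq R y c u, h2]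
      exact ind_iff.2 ⟨h3, h4⟩ c
    · have a := card_union_add_card_inter (R (u + 1) x) (R (u + 2) x)
      have b := card_union_add_card_inter (R (u + 1) y) (R (u + 2) y)
      rw [h3, h4] at a
      rcases t3 u t with rfl | rfl | rfl
      · rw [h2]
      · exact h5
      · omega
  · rintro ⟨⟨h1, h2, h3⟩, h4⟩
    have := (ind_iff (r := R u y) (a := R (u + 1) x) (b := R (u + 2) x) (a' := R (u + 1) y)
      (b' := R (u + 2) y)).1 (fun c => by
      have := h2 c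
      rwa [cs_eq R x c u, cs_eq R y c u, h4] at this)
    exact ⟨⟨h1, h4⟩, this.1, this.2, h3 _⟩

omit [Fintype A] in
lemma hr (u : Fin 3) : Equivalence (rel u) :=
  ⟨fun x => (H.rel_iff u _ _).2 ⟨H.hb.refl x, rfl⟩,
    fun h => (H.rel_iff u _ _).2 ⟨H.hb.symm ((H.rel_iff u _ _).1 h).1, ((H.rel_iff u _ _).1 h).2.symm⟩,
    fun h h' => (H.rel_iff u _ _).2 ⟨H.hb.trans ((H.rel_iff u _ _).1 h).1 ((H.rel_iff u _ _).1 h').1,
      ((H.rel_iff u _ _).1 h).2.trans ((H.rel_iff u _ _).1 h').2⟩⟩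

lemma par (u : Fin 3) (x : A) : ∃ B : Finset V → A,
      (∀ S ∈ powersetCard (R (u + 1) x \ R (u + 2) x).card
        ((R (u + 1) x ∪ R (u + 2) x) \ (R (u + 1) x ∩ R (u + 2) x)), rel u x (B S) ∧
        R (u + 1) (B S) = R (u + 1) x ∩ R (u + 2) x ∪ S ∧ R (u + 2) (B S) = R (u + 1) x ∩ R (u + 2) x ∪
          (((R (u + 1) x ∪ R (u + 2) x) \ (R (u + 1) x ∩ R (u + 2) x)) \ S)) ∧
      (∀ y, rel u x y → ∃ S ∈ powersetCard (R (u + 1) x \ R (u + 2) x).card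
        ((R (u + 1) x ∪ R (u + 2) x) \ (R (u + 1) x ∩ R (u + 2) x)), B S = y) ∧
      (∀ F : A → ℝ, ∑ y ∈ fib (rel u) x, F y =
        ∑ S ∈ powersetCard (R (u + 1) x \ R (u + 2) x).card
          ((R (u + 1) x ∪ R (u + 2) x) \ (R (u + 1) x ∩ R (u + 2) x)), F (B S)) ∧
      (fib (rel u) x).card = (powersetCard (R (u + 1) x \ R (u + 2) x).card
        ((R (u + 1) x ∪ R (u + 2) x) \ (R (u + 1) x ∩ R (u + 2) x))).card :=
  two_row (r := rel u) (ρ := fun x y => ρ x y ∧ R u x = R u y)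
    ⟨fun x => ⟨H.hρ.refl x, rfl⟩, fun h => ⟨H.hρ.symm h.1, h.2.symm⟩,
      fun h h' => ⟨H.hρ.trans h.1 h'.1, h.2.trans h'.2⟩⟩ (R (u + 1)) (R (u + 2)) (H.hrel u)
    (fun x y h h1 h2 => H.inj x y h.1 fun t => by
      rcases t3 u t with rfl | rfl | rfl
      exacts [h.2, h1, h2])
    (fun x a' b' ha hb' => by
      have hU : R (u + 1) x ∪ R (u + 2) x ⊆ C := union_subset (H.hC _ _) (H.hC _ _)
      obtain ⟨y, hy, hy'⟩ := H.ex x (fun t => if t = u then R u x else if t = u + 1 then a' else b')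
        (fun t => by
          split_ifs
          exacts [H.hC _ _, ha.trans hU, hb'.trans hU])
      refine ⟨y, ⟨hy, ?_⟩, ?_, ?_⟩ <;> rw [hy'] <;> simp [t4 u]) x

omit [Fintype A] in
lemma sigma : ∃ σ : V → V → A → A, ∀ k ∈ C, ∀ l ∈ C,
    (∀ x, ρ x (σ k l x) ∧ ∀ t, R t (σ k l x) = sw k l (R t x)) ∧ (∀ x, σ k l (σ k l x) = x) ∧
    (∀ x, cs R x k = cs R x l → blk ρ R x (σ k l x)) ∧
    (∀ u x y, rel u x y → rel u (σ k l x) (σ k l y)) := by
  have hρ := H.hρ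
  have hσ : ∀ k l, ∃ σ : A → A, k ∈ C → l ∈ C → ∀ x, ρ x (σ x) ∧ ∀ t, R t (σ x) = sw k l (R t x) := by
    intro k l
    by_cases h : k ∈ C ∧ l ∈ C
    · choose σ hσ using fun x => H.ex x (fun t => sw k l (R t x)) fun t => sw_subset h.1 h.2 (H.hC t x)
      exact ⟨σ, fun _ _ => hσ⟩
    · exact ⟨id, fun a b => absurd ⟨a, b⟩ h⟩
  choose σ hσ using hσ
  have σcs : ∀ k ∈ C, ∀ l ∈ C, ∀ x c, cs R (σ k l x) c = cs R x (Equiv.swap k l c) :=
    fun k hk l hl x c => by simp only [cs, (hσ k l hk hl x).2, mem_sw]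
  refine ⟨σ, fun k hk l hl => ⟨hσ k l hk hl, fun x => ?_, fun x h => ?_, fun u x y h => ?_⟩⟩
  · exact H.inj _ _ (hρ.symm (hρ.trans (hσ k l hk hl x).1 (hσ k l hk hl _).1)) fun t => by
      rw [(hσ k l hk hl _).2, (hσ k l hk hl _).2, sw_sw]
  · refine ⟨(hσ k l hk hl x).1, fun c => ?_, fun t => by rw [(hσ k l hk hl x).2, card_sw]⟩
    rw [σcs k hk l hl, Equiv.swap_apply_def]
    split_ifs with h1 h2
    · rw [h1, h]
    · rw [h2, h]
    · rfl
  · rw [H.rel_iff] at h ⊢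
    refine ⟨⟨hρ.trans (hρ.symm (hσ k l hk hl x).1) (hρ.trans h.1.1 (hσ k l hk hl y).1),
      fun c => ?_, fun t => ?_⟩, ?_⟩
    · rw [σcs k hk l hl, σcs k hk l hl, h.1.2.1]
    · rw [(hσ k l hk hl x).2, (hσ k l hk hl y).2, card_sw, card_sw, h.1.2.2]
    · rw [(hσ k l hk hl x).2, (hσ k l hk hl y).2, h.2]

omit [Fintype A] in
lemma hwt (x y : A) (h : blk ρ R x y) :
    ∑ t, ∑ c ∈ R t x, cs R x c = ∑ t, ∑ c ∈ R t y, cs R x c := by
  have : ∀ x y, ∑ t, ∑ c ∈ R t y, cs R x c = ∑ c ∈ C, cs R y c * cs R x c := by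
    intro x y
    have e : ∀ c, cs R y c * cs R x c = ∑ t, if c ∈ R t y then cs R x c else 0 := fun c => by
      rw [cs, sum_mul]
      simp only [ite_mul, one_mul, zero_mul]
    simp only [e]
    rw [sum_comm (s := C)]
    refine sum_congr rfl fun t _ => ?_
    rw [sum_ite_mem, inter_eq_right.2 (H.hC t y)]
  rw [this, this]
  simp only [h.2.1]

variable {μ : ℝ} {φ : Fin 3 → A → ℝ} (hμ : μ < 1)
  (heq : ∀ u x, (2 - μ) * φ u x =
      (∑ y ∈ fib (rel u) x, (φ (u + 1) y + φ (u + 2) y)) / (fib (rel u) x).card)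
  (hφi : ∀ u x y, blk ρ R x y → R u x = R u y → φ u x = φ u y)
include hμ heq hφi

lemma step1 {σ : V → V → A → A} (hσ : ∀ k ∈ C, ∀ l ∈ C,
    (∀ x, ρ x (σ k l x) ∧ ∀ t, R t (σ k l x) = sw k l (R t x)) ∧ (∀ x, σ k l (σ k l x) = x) ∧
    (∀ x, cs R x k = cs R x l → blk ρ R x (σ k l x)) ∧
    (∀ u x y, rel u x y → rel u (σ k l x) (σ k l y))) :
    ∀ u x, ∀ k ∈ C, ∀ l ∈ C, cs R x k = cs R x l → φ u x = φ u (σ k l x) := by
  classical
  suffices h : ∀ u x, ∀ k ∈ C, ∀ l ∈ C, cs R x k = cs R x l → φ u x - φ u (σ k l x) ≤ 0 by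
    intro u x k hk l hl hc
    have a := h u x k hk l hl hc
    have e := ((hσ k hk l hl).2.2.1 x hc).2.1
    have b := h u (σ k l x) k hk l hl (by rw [← e, ← e, hc])
    rw [(hσ k hk l hl).2.1] at b
    linarith
  by_contra hcon
  push Not at hcon
  obtain ⟨u₀, x₀, k₀, hk₀, l₀, hl₀, hc₀, hpos⟩ := hcon
  obtain ⟨⟨⟨u, x⟩, k, l⟩, hm, hmax⟩ := exists_max_image
    ((univ ×ˢ C ×ˢ C).filter fun z : (Fin 3 × A) × V × V => cs R z.1.2 z.2.1 = cs R z.1.2 z.2.2)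
    (fun z => φ z.1.1 z.1.2 - φ z.1.1 (σ z.2.1 z.2.2 z.1.2)) ⟨((u₀, x₀), k₀, l₀), by
      simp only [mem_filter, mem_product, mem_univ, true_and]; exact ⟨⟨hk₀, hl₀⟩, hc₀⟩⟩
  simp only [mem_filter, mem_product, mem_univ, true_and, Prod.forall, and_imp] at hm hmax
  obtain ⟨⟨hk, hl⟩, hc⟩ := hm
  obtain ⟨s1, σσ, σblk, σrel⟩ := hσ k hk l hl
  obtain ⟨K, hK⟩ : ∃ K, K = φ u x - φ u (σ k l x) := ⟨_, rfl⟩
  rw [← hK] at hmax
  have hK0 : 0 < K := hpos.trans_le (hmax u₀ x₀ k₀ l₀ hk₀ hl₀ hc₀)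
  have hz : ∀ t y, cs R y k = cs R y l → (k ∈ R t y ↔ l ∈ R t y) → φ t y - φ t (σ k l y) = 0 := by
    intro t y h1 h2
    rw [hφi t y _ (σblk y h1) (by rw [(s1 y).2, sw_eq_self h2]), sub_self]
  have hu : ¬ (k ∈ R u x ↔ l ∈ R u x) := fun h => hK0.ne' (hK.trans (hz u x hc h))
  have e1 := heq u x
  have e2 := heq u (σ k l x)
  rw [avg_eq_of_inj (x := x) (σ k l) (σ k l) (fun y hy => σrel u _ _ hy)
    (fun y _ z _ h => by rw [← σσ y, h, σσ])
    (fun y hy => by have := σrel u _ _ hy; rwa [σσ] at this)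
    (fun y _ z _ h => by rw [← σσ y, h, σσ])] at e2
  have e3 : (2 - μ) * K ≤ K := by
    conv_lhs => rw [hK]
    rw [mul_sub, e1, e2, ← sub_div, ← sum_sub_distrib, div_le_iff₀ (card_fib_pos (H.hr u) x),
      mul_comm, ← nsmul_eq_mul, ← sum_const]
    refine sum_le_sum fun y hy => ?_
    obtain ⟨h1, h2⟩ := (H.rel_iff u x y).1 (mem_fib.1 hy)
    have hc' : cs R y k = cs R y l := by rw [← h1.2.1, ← h1.2.1, hc]
    have a := hmax (u + 1) y k l hk hl hc'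
    have b := hmax (u + 2) y k l hk hl hc'
    have : (k ∈ R (u + 1) y ↔ l ∈ R (u + 1) y) ∨ (k ∈ R (u + 2) y ↔ l ∈ R (u + 2) y) := by
      rw [cs_eq R y k u, cs_eq R y l u] at hc'
      rw [h2] at hu
      exact ind_split hc' hu
    rcases this with h | h
    · have := hz _ y hc' h; linarith
    · have := hz _ y hc' h; linarith
  nlinarith

lemma hX (t : Fin 3) (x y : A) (h : blk ρ R x y) (h1 : (R t x \ R t y).card ≤ 1) :
      (φ t x = φ t y ∧ ∑ c ∈ R t y, cs R x c = ∑ c ∈ R t x, cs R x c) ∨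
      ∃ k l, k ∉ R t x ∧ l ∈ R t x ∧ k ∈ R t y ∧ l ∉ R t y ∧ R t y = sw k l (R t x) ∧
        ((cs R x k = 1 ∧ cs R x l = 2 ∧ ∑ c ∈ R t y, cs R x c + 1 = ∑ c ∈ R t x, cs R x c) ∨
         (cs R x k = 2 ∧ cs R x l = 1 ∧ ∑ c ∈ R t y, cs R x c = ∑ c ∈ R t x, cs R x c + 1)) := by
  obtain ⟨σ, hσ⟩ := H.sigma
  rcases exchange (h.2.2 t) h1 with h2 | ⟨k, l, a1, a2, a3, a4, a5, a6⟩
  · exact Or.inl ⟨hφi t x y h h2, by rw [h2]⟩
  have b := a6 (cs R x)
  have c1 := cs_eq R x k t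
  have c2 := cs_eq R x l t
  have c3 := cs_eq R y k t
  have c4 := cs_eq R y l t
  rw [← h.2.1] at c3 c4
  simp only [a1, a2, a3, a4, if_true, if_false] at c1 c2 c3 c4
  have d1 : cs R x k = 1 ∨ cs R x k = 2 := by split_ifs at c1 c3 <;> omega
  have d2 : cs R x l = 1 ∨ cs R x l = 2 := by split_ifs at c2 c4 <;> omega
  by_cases hc : cs R x k = cs R x l
  · have hk := H.hC t y a3
    have hl := H.hC t x a2
    refine Or.inl ⟨?_, by omega⟩
    rw [H.step1 hμ heq hφi hσ t x k hk l hl hc]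
    exact hφi t _ _ (H.hb.trans (H.hb.symm ((hσ k hk l hl).2.2.1 x hc)) h)
      (by rw [((hσ k hk l hl).1 x).2, a5])
  · exact Or.inr ⟨k, l, a1, a2, a3, a4, a5, by omega⟩

lemma main {K : ℝ} (hmax : ∀ t x y, blk ρ R x y → (R t x \ R t y).card ≤ 1 → |φ t x - φ t y| ≤ K)
    {u : Fin 3} {x y : A} {k l : V} (h : blk ρ R x y) (a1 : k ∉ R u x) (a2 : l ∈ R u x)
    (a3 : k ∈ R u y) (a4 : l ∉ R u y) (a5 : R u y = sw k l (R u x)) (b1 : cs R x k = 1)
    (b2 : cs R x l = 2) (b3 : ∑ c ∈ R u y, cs R x c + 1 = ∑ c ∈ R u x, cs R x c) :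
    (2 - μ) * |φ u x - φ u y| ≤ K := by
  obtain ⟨B, B1, -, B3, B4⟩ := H.par u x
  obtain ⟨B', B1', -, B3', B4'⟩ := H.par u y
  rw [← abs_of_pos (show 0 < 2 - μ by linarith), ← abs_mul, mul_sub, heq, heq, B3, B3', B4, B4']
  have hα := card_le_card (sub_c (R (u + 1) y) (R (u + 2) y))
  have hP0 := powersetCard_nonempty.2 (card_le_card (sub_c (R (u + 1) x) (R (u + 2) x)))
  obtain ⟨I, hI⟩ : ∃ I, I = R (u + 1) x ∩ R (u + 2) x := ⟨_, rfl⟩
  obtain ⟨I', hI'⟩ : ∃ I', I' = R (u + 1) y ∩ R (u + 2) y := ⟨_, rfl⟩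
  obtain ⟨D, hD⟩ : ∃ D, D = (R (u + 1) x ∪ R (u + 2) x) \ (R (u + 1) x ∩ R (u + 2) x) := ⟨_, rfl⟩
  obtain ⟨D', hD'⟩ : ∃ D', D' = (R (u + 1) y ∪ R (u + 2) y) \ (R (u + 1) y ∩ R (u + 2) y) := ⟨_, rfl⟩
  have m1 : ∀ c, c ≠ k → c ≠ l → (c ∈ I ↔ c ∈ I') ∧ (c ∈ D ↔ c ∈ D') := by
    intro c h1 h2
    have e := h.2.1 c
    have e' : c ∈ R u y ↔ c ∈ R u x := by rw [a5, mem_sw, Equiv.swap_apply_of_ne_of_ne h1 h2]
    rw [cs_eq R x c u, cs_eq R y c u] at e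
    simp only [hI, hI', hD, hD', mem_sdiff, mem_inter, mem_union]
    exact ind_m1 e e'
  have m2 : k ∈ D ∧ k ∉ D' ∧ k ∉ I' := by
    have e := (h.2.1 k).symm.trans b1
    rw [cs_eq R x k u] at b1
    rw [cs_eq R y k u] at e
    simp only [hI', hD, hD', mem_sdiff, mem_inter, mem_union]
    exact ind_m2 b1 e a1 a3
  have m3 : l ∈ D ∧ l ∉ D' ∧ l ∈ I' := by
    have e := (h.2.1 l).symm.trans b2
    rw [cs_eq R x l u] at b2
    rw [cs_eq R y l u] at e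
    simp only [hI', hD, hD', mem_sdiff, mem_inter, mem_union]
    exact ind_m3 b2 e a2 a4
  have hDI : ∀ c, c ∈ D → c ∉ I := fun c hc => by
    rw [hD] at hc; rw [hI]; exact (mem_sdiff.1 hc).2
  have hDD : D' ⊆ D := fun c hc =>
    ((m1 c (fun e => m2.2.1 (e ▸ hc)) (fun e => m3.2.1 (e ▸ hc))).2).2 hc
  rw [← hD] at B1 hP0
  rw [← hD'] at B1' hα
  rw [← hI] at B1
  rw [← hI'] at B1'
  rw [← hD, ← hD']
  generalize (R (u + 1) x \ R (u + 2) x).card = α at *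
  generalize (R (u + 1) y \ R (u + 2) y).card = α' at *
  have close : ∀ S ∈ powersetCard α D, ∀ T ∈ powersetCard α' D', (S ∩ D' ⊆ T ∨ T ⊆ S) →
      |(φ (u + 1) (B S) + φ (u + 2) (B S)) - (φ (u + 1) (B' T) + φ (u + 2) (B' T))| ≤ K := by
    intro S hS T hT hST
    obtain ⟨p1, p2, p3⟩ := B1 S hS
    obtain ⟨q1, q2, q3⟩ := B1' T hT
    rw [H.rel_iff] at p1 q1
    have hbl : blk ρ R (B S) (B' T) := H.hb.trans (H.hb.symm p1.1) (H.hb.trans h q1.1)
    have cc := close_card m1 m2 m3 hDI (mem_powersetCard.1 hS).1 (mem_powersetCard.1 hT).1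
    have n1 : (R (u + 1) (B S) \ R (u + 1) (B' T)).card ≤ 1 ∧
        (R (u + 2) (B S) \ R (u + 2) (B' T)).card ≤ 1 := by
      rcases hST with hST | hST
      · rw [card_sdiff_comm (hbl.2.2 (u + 2)), p2, p3, q2, q3]
        exact cc.1 hST
      · rw [card_sdiff_comm (hbl.2.2 (u + 1)), p2, p3, q2, q3]
        exact cc.2 hST
    have w := H.hwt _ _ hbl
    rw [sum3 _ u, sum3 _ u, ← p1.2, ← q1.2] at w
    have hcs : cs R (B S) = cs R x := funext fun c => (p1.1.2.1 c).symm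
    have g1 := hmax (u + 1) _ _ hbl n1.1
    have g2 := hmax (u + 2) _ _ hbl n1.2
    have X1 := H.hX hμ heq hφi (u + 1) _ _ hbl n1.1
    have X2 := H.hX hμ heq hφi (u + 2) _ _ hbl n1.2
    rw [hcs] at w X1 X2
    rcases X1 with ⟨X1, -⟩ | ⟨_, _, -, -, -, -, -, X1⟩
    · rw [X1, add_sub_add_left_eq_sub]; exact g2
    rcases X2 with ⟨X2, -⟩ | ⟨_, _, -, -, -, -, -, X2⟩
    · rw [X2, add_sub_add_right_eq_sub]; exact g1
    omega
  have r1 := couple D' _ hα _ hP0 (fun k hk l hl S hS => sw_mem_pc (hDD hk) (hDD hl) hS)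
    (fun S => φ (u + 1) (B S) + φ (u + 2) (B S)) (fun T => φ (u + 1) (B' T) + φ (u + 2) (B' T)) K
    (fun S hS T hT hST => (abs_le.1 (close S hS T hT hST)).2)
  have r2 := couple D' _ hα _ hP0 (fun k hk l hl S hS => sw_mem_pc (hDD hk) (hDD hl) hS)
    (fun S => -(φ (u + 1) (B S) + φ (u + 2) (B S))) (fun T => -(φ (u + 1) (B' T) + φ (u + 2) (B' T))) K
    (fun S hS T hT hST => by linarith [(abs_le.1 (close S hS T hT hST)).1])
  simp only [sum_neg_distrib, neg_div] at r2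
  rw [abs_le]
  constructor <;> linarith

lemma step2 : ∀ u x y, blk ρ R x y → (R u x \ R u y).card ≤ 1 → φ u x = φ u y := by
  classical
  by_contra hcon
  push Not at hcon
  obtain ⟨u₀, x₀, y₀, h₀, h₁, hne⟩ := hcon
  obtain ⟨⟨u, x, y⟩, hm, hmax⟩ := exists_max_image
    (univ.filter fun z : Fin 3 × A × A => blk ρ R z.2.1 z.2.2 ∧ (R z.1 z.2.1 \ R z.1 z.2.2).card ≤ 1)
    (fun z => |φ z.1 z.2.1 - φ z.1 z.2.2|) ⟨(u₀, x₀, y₀), by
      simp only [mem_filter, mem_univ, true_and]; exact ⟨h₀, h₁⟩⟩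
  simp only [mem_filter, mem_univ, true_and, Prod.forall, and_imp] at hm hmax
  obtain ⟨K, hK⟩ : ∃ K, K = |φ u x - φ u y| := ⟨_, rfl⟩
  rw [← hK] at hmax
  have hK0 : 0 < K := (abs_pos.2 (sub_ne_zero.2 hne)).trans_le (hmax u₀ x₀ y₀ h₀ h₁)
  have fin : (2 - μ) * K ≤ K := by
    conv_lhs => rw [hK]
    rcases H.hX hμ heq hφi u x y hm.1 hm.2 with ⟨X, -⟩ | ⟨k, l, a1, a2, a3, a4, a5, X | X⟩
    · exact absurd (by rw [hK, X, sub_self, abs_zero]) hK0.ne'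
    · exact H.main hμ heq hφi hmax hm.1 a1 a2 a3 a4 a5 X.1 X.2.1 X.2.2
    · have hcs : cs R y = cs R x := funext fun c => (hm.1.2.1 c).symm
      rw [abs_sub_comm]
      exact H.main hμ heq hφi hmax (H.hb.symm hm.1) a4 a3 a2 a1 (by rw [a5, sw_comm, sw_sw])
        (by rw [hcs]; exact X.2.1) (by rw [hcs]; exact X.1) (by rw [hcs]; exact X.2.2.symm)
  nlinarith

lemma step3 {Φ : A → ℝ} (hsum : ∀ x, ∑ u, φ u x = (3 - μ) * Φ x) :
    ∀ u x y, rel u x y → Φ x = Φ y := by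
  intro u x y hxy
  obtain ⟨B, B1, B2, -, -⟩ := H.par u x
  obtain ⟨S, hS, rfl⟩ := B2 y hxy
  obtain ⟨S₀, hS₀, e₀⟩ := B2 x ((H.hr u).refl x)
  have key := swap_conn (fun S => Φ (B S)) _ _ (fun S hS k hk l hl => ?_) hS₀ hS
  · rw [← key, e₀]
  obtain ⟨p1, p2, p3⟩ := B1 S hS
  obtain ⟨q1, q2, q3⟩ := B1 _ (sw_mem_pc hk hl hS)
  rw [H.rel_iff] at p1 q1
  have hbl : blk ρ R (B S) (B (sw k l S)) := H.hb.trans (H.hb.symm p1.1) q1.1
  have e0 := hφi u _ _ hbl (p1.2.symm.trans q1.2)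
  have e1 := H.step2 hμ heq hφi (u + 1) _ _ hbl (by
    rw [p2, q2]
    exact (card_le_card (sub_a _ _ _)).trans (card_sdiff_sw_le k l S))
  have e2 := H.step2 hμ heq hφi (u + 2) _ _ hbl (by
    rw [card_sdiff_comm (hbl.2.2 (u + 2)), p3, q3]
    exact (card_le_card (sub_b _ _ _ _)).trans (card_sdiff_sw_le k l S))
  have s1 := hsum (B S)
  have s2 := hsum (B (sw k l S))
  rw [sum3 _ u] at s1 s2
  have : (3 - μ) * Φ (B (sw k l S)) = (3 - μ) * Φ (B S) := by linarith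
  exact mul_left_cancel₀ (by linarith) this

end TS

theorem triple {ρ : A → A → Prop} {rel : Fin 3 → A → A → Prop}
    {R : Fin 3 → A → Finset V} {C : Finset V} (H : TS ρ rel R C)
    (f : EE A) : ∑ u, ‖f - cE (rel u) f‖ ^ 2 ≤ ‖∑ u, (f - cE (rel u) f)‖ ^ 2 := by
  classical
  have hr := H.hr
  set T : EE A →ₗ[ℝ] EE A := ∑ u, (LinearMap.id - cE (rel u)) with hT
  have hTa : ∀ g, T g = ∑ u, (g - cE (rel u) g) := fun g => by simp [hT, LinearMap.sum_apply]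
  have hTs : T.IsSymmetric := fun g g' => by
    rw [hTa, hTa, sum_inner, inner_sum]
    exact sum_congr rfl fun u _ => by rw [inner_sub_left, inner_sub_right, cE_symm (hr u)]
  suffices H' : ∀ (μ : ℝ) (v : EE A), T v = μ • v → μ < 1 → T v = 0 by
    have := spec_sq hTs one_pos.le H' f
    rw [hTa, inner_sum, one_mul] at this
    rwa [sum_congr rfl fun u _ => inner_sub_cE (hr u) f] at this
  intro μ Φ hΦ hμ
  set φ : Fin 3 → EE A := fun u => cE (rel u) Φ with hφ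
  have hsum : ∑ u, φ u = (3 - μ) • Φ := by
    rw [hTa, sum_sub_distrib] at hΦ
    simp only [sum_const, card_univ, Fintype.card_fin] at hΦ
    rw [sub_smul, ← hΦ, ← Nat.cast_smul_eq_nsmul ℝ]
    simp [hφ]
  have heq : ∀ u x, (2 - μ) * φ u x =
      (∑ y ∈ fib (rel u) x, (φ (u + 1) y + φ (u + 2) y)) / (fib (rel u) x).card := by
    intro u x
    have := congrArg (fun g => cE (rel u) g x) hsum
    simp only [sum3 φ u, map_add, map_smul, PiLp.add_apply, PiLp.smul_apply, smul_eq_mul] at this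
    rw [show cE (rel u) (φ u) = φ u from cE_idem (hr u) Φ, show cE (rel u) Φ = φ u from rfl,
      cE_apply _ (φ (u + 1)), cE_apply _ (φ (u + 2))] at this
    rw [sum_add_distrib, add_div]
    linarith
  have hφi : ∀ u x y, blk ρ R x y → R u x = R u y → φ u x = φ u y := fun u x y h h' =>
    cE_inv (hr u) Φ ((H.rel_iff u x y).2 ⟨h, h'⟩)
  have step3 := H.step3 (φ := fun u x => φ u x) (Φ := fun x => Φ x) hμ heq hφi (fun x => by
    have s1 := congrArg (fun g : EE A => g x) hsum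
    simp only [sum3 φ 0, PiLp.add_apply, PiLp.smul_apply, smul_eq_mul] at s1
    rw [sum3 _ 0]; exact s1)
  rw [hTa]
  exact sum_eq_zero fun u _ => by rw [cE_of_inv (hr u) (step3 u), sub_self]

end Crest.Agent.H7.Sw
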