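import Mathlib
import Crest.Prelude.Def_SwitchChain
import Crest.Agent.H7.SwTriple

set_option autoImplicit false

open Finset

namespace Crest.Agent.H7.Sw

open Crest.SwitchChain

/-- graphs -/
abbrev Gr (n : ℕ) := Finset (Edge n)

variable {n : ℕ}

/-- adjacency -/
def adj (G : Gr n) (u w : Fin n) : Prop := ∃ e ∈ G, e.1 = s(u, w)

instance (G : Gr n) (u w : Fin n) : Decidable (adj G u w) := by unfold adj; infer_instance

lemma adj_comm {G : Gr n} {u w : Fin n} : adj G u w ↔ adj G w u := by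
  unfold adj; rw [Sym2.eq_swap]

lemma adj_irrefl (G : Gr n) (u : Fin n) : ¬ adj G u u := by
  rintro ⟨e, -, he⟩
  exact e.2 (by rw [he]; simp)

lemma adj_ne {G : Gr n} {u w : Fin n} (h : adj G u w) : u ≠ w := by
  rintro rfl; exact adj_irrefl G u h

lemma mem_iff_adj {G : Gr n} {e : Edge n} {u w : Fin n} (he : e.1 = s(u, w)) : e ∈ G ↔ adj G u w :=
  ⟨fun h => ⟨e, h, he⟩, fun ⟨e', h, he'⟩ => by rwa [show e = e' from Subtype.ext (he.trans he'.symm)]⟩

lemma gr_ext {G G' : Gr n} (h : ∀ u w, u ≠ w → (adj G u w ↔ adj G' u w)) : G = G' := by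
  ext ⟨e, he⟩
  induction e using Sym2.ind with
  | _ u w => rw [mem_iff_adj (u := u) (w := w) rfl, mem_iff_adj (u := u) (w := w) rfl]
             exact h u w (by simpa using he)

open Classical in
/-- graph from a relation -/
noncomputable def mk (r : Fin n → Fin n → Prop) : Gr n :=
  univ.filter fun e => ∃ u w, e.1 = s(u, w) ∧ r u w

lemma adj_mk {r : Fin n → Fin n → Prop} (hr : ∀ u w, r u w → r w u) {u w : Fin n} (h : u ≠ w) :
    adj (mk r) u w ↔ r u w := by
  constructor
  · rintro ⟨e, he, he'⟩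
    simp only [mk, mem_filter, mem_univ, true_and] at he
    obtain ⟨a, b, h1, h2⟩ := he
    rw [he', Sym2.eq_iff] at h1
    rcases h1 with ⟨rfl, rfl⟩ | ⟨rfl, rfl⟩
    exacts [h2, hr _ _ h2]
  · intro h'
    exact ⟨⟨s(u, w), by simpa using h⟩, by simp only [mk, mem_filter, mem_univ, true_and]; exact ⟨u, w, rfl, h'⟩, rfl⟩

/-- neighbours -/
def nb (G : Gr n) (v : Fin n) : Finset (Fin n) := univ.filter (adj G v)

@[simp] lemma mem_nb {G : Gr n} {v c : Fin n} : c ∈ nb G v ↔ adj G v c := by simp [nb]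

lemma deg_eq (G : Gr n) (v : Fin n) : deg G v = (nb G v).card := by
  symm
  refine card_bij (fun w hw => ⟨s(v, w), by simpa using adj_ne (mem_nb.1 hw)⟩) ?_ ?_ ?_
  · intro w hw
    rw [mem_filter, mem_iff_adj (u := v) (w := w) rfl]
    exact ⟨mem_nb.1 hw, by simp⟩
  · intro a _ b _ h
    exact Sym2.congr_right.1 (congrArg Subtype.val h)
  · intro e he
    rw [mem_filter] at he
    obtain ⟨w, hw⟩ := Sym2.mem_iff_exists.1 he.2
    exact ⟨w, mem_nb.2 ⟨e, he.1, hw⟩, Subtype.ext hw.symm⟩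

/-- row of `i` away from `i, j` -/
def row (i j : Fin n) (G : Gr n) : Finset (Fin n) := univ.filter fun c => c ≠ i ∧ c ≠ j ∧ adj G i c

@[simp] lemma mem_row {i j c : Fin n} {G : Gr n} : c ∈ row i j G ↔ c ≠ i ∧ c ≠ j ∧ adj G i c := by
  simp [row]

/-- agreement away from the rows `i, j` -/
def rest (i j : Fin n) (G G' : Gr n) : Prop :=
  (∀ u w, u ≠ i → u ≠ j → w ≠ i → w ≠ j → (adj G u w ↔ adj G' u w)) ∧ (adj G i j ↔ adj G' i j)

/-- the pair relation -/
def Rel (i j : Fin n) (G G' : Gr n) : Prop :=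
  rest i j G G' ∧ row i j G ∩ row j i G = row i j G' ∩ row j i G' ∧
    row i j G ∪ row j i G = row i j G' ∪ row j i G' ∧ (row i j G).card = (row i j G').card

lemma rest_equiv (i j : Fin n) : Equivalence (rest i j) :=
  ⟨fun _ => ⟨fun _ _ _ _ _ _ => Iff.rfl, Iff.rfl⟩,
    fun h => ⟨fun u w a b c d => (h.1 u w a b c d).symm, h.2.symm⟩,
    fun h h' => ⟨fun u w a b c d => (h.1 u w a b c d).trans (h'.1 u w a b c d), h.2.trans h'.2⟩⟩

lemma rel_equiv (i j : Fin n) : Equivalence (Rel i j) :=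
  ⟨fun x => ⟨(rest_equiv i j).refl x, rfl, rfl, rfl⟩,
    fun h => ⟨(rest_equiv i j).symm h.1, h.2.1.symm, h.2.2.1.symm, h.2.2.2.symm⟩,
    fun h h' => ⟨(rest_equiv i j).trans h.1 h'.1, h.2.1.trans h'.2.1, h.2.2.1.trans h'.2.2.1,
      h.2.2.2.trans h'.2.2.2⟩⟩

lemma rel_iff {i j : Fin n} {G G' : Gr n} : Rel i j G G' ↔
    (∀ u w, u ≠ i → u ≠ j → w ≠ i → w ≠ j → (adj G u w ↔ adj G' u w)) ∧ (adj G i j ↔ adj G' i j) ∧
    (∀ c, c ≠ i → c ≠ j → (adj G i c ∧ adj G j c ↔ adj G' i c ∧ adj G' j c) ∧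
      (adj G i c ∨ adj G j c ↔ adj G' i c ∨ adj G' j c)) ∧ (row i j G).card = (row i j G').card := by
  have : (row i j G ∩ row j i G = row i j G' ∩ row j i G' ∧
      row i j G ∪ row j i G = row i j G' ∪ row j i G') ↔
      (∀ c, c ≠ i → c ≠ j → (adj G i c ∧ adj G j c ↔ adj G' i c ∧ adj G' j c) ∧
        (adj G i c ∨ adj G j c ↔ adj G' i c ∨ adj G' j c)) := by
    simp only [Finset.ext_iff, mem_inter, mem_union, mem_row, ← forall_and]
    refine forall_congr' fun c => ?_
    by_cases h1 : c = i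
    · simp [h1]
    by_cases h2 : c = j
    · simp [h2]
    simp [h1, h2]
  rw [← this, Rel, rest]
  simp only [and_assoc]

lemma rel_swap {i j : Fin n} {G G' : Gr n} (h : Rel i j G G') : Rel j i G G' := by
  obtain ⟨⟨h1, h2⟩, h3, h4, h5⟩ := h
  refine ⟨⟨fun u w a b c d => h1 u w b a d c, by rw [adj_comm, h2, adj_comm]⟩,
    by rw [inter_comm, h3, inter_comm], by rw [union_comm, h4, union_comm], ?_⟩
  have a := card_union_add_card_inter (row i j G) (row j i G)
  have b := card_union_add_card_inter (row i j G') (row j i G')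
  rw [h3, h4] at a
  omega

lemma rel_comm (i j : Fin n) : Rel i j = Rel j i := by
  ext G G'; exact ⟨rel_swap, rel_swap⟩

lemma card_split {V : Type*} [DecidableEq V] (A : Finset V) (k : V) :
    A.card = (A.erase k).card + if k ∈ A then 1 else 0 := by
  split_ifs with h
  · exact (card_erase_add_one h).symm
  · rw [erase_eq_of_notMem h, add_zero]

lemma card_two {V : Type*} [DecidableEq V] {A B : Finset V} {k l : V} (hkl : k ≠ l)
    (h : ∀ c, c ≠ k → c ≠ l → (c ∈ A ↔ c ∈ B)) (h1 : k ∈ A ∧ l ∈ A ↔ k ∈ B ∧ l ∈ B)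
    (h2 : k ∈ A ∨ l ∈ A ↔ k ∈ B ∨ l ∈ B) : A.card = B.card := by
  have e : (A.erase k).erase l = (B.erase k).erase l := by
    ext c
    simp only [mem_erase]
    have := h c
    tauto
  rw [card_split A k, card_split B k, card_split (A.erase k) l, card_split (B.erase k) l, e]
  simp only [mem_erase, ne_eq, hkl.symm, not_false_eq_true, true_and]
  split_ifs <;> first | omega | tauto

lemma nb_card_row {i j : Fin n} (G : Gr n) :
    (nb G i).card = (row i j G).card + if adj G i j then 1 else 0 := by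
  rw [card_split (nb G i) j]
  have : (nb G i).erase j = row i j G := by
    ext c
    simp only [mem_erase, mem_nb, mem_row]
    exact ⟨fun h => ⟨(adj_ne h.2).symm, h⟩, fun h => h.2⟩
  simp only [this, mem_nb]

lemma deg_of_rel {i j : Fin n} (hij : i ≠ j) {G G' : Gr n} (h : Rel i j G G') (v : Fin n) :
    (nb G v).card = (nb G' v).card := by
  by_cases h1 : v = i
  · subst h1
    rw [nb_card_row (j := j), nb_card_row (j := j), h.2.2.2]
    simp only [h.1.2]
  by_cases h2 : v = j
  · subst h2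
    have h' := rel_swap h
    rw [nb_card_row (j := i), nb_card_row (j := i), h'.2.2.2]
    simp only [h'.1.2]
  obtain ⟨a, -, b, -⟩ := rel_iff.1 h
  refine card_two hij (fun c c1 c2 => by simpa using a v c h1 h2 c1 c2) ?_ ?_
  · simpa [adj_comm (u := v)] using (b v h1 h2).1
  · simpa [adj_comm (u := v)] using (b v h1 h2).2

/-! ### two-row parametrisation of the fibres -/

lemma rel_par {i j : Fin n} (hij : i ≠ j) (x : Gr n) :
    ∃ B : Finset (Fin n) → Gr n,
      (∀ S ∈ powersetCard (row i j x \ row j i x).card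
        ((row i j x ∪ row j i x) \ (row i j x ∩ row j i x)), Rel i j x (B S) ∧
        row i j (B S) = row i j x ∩ row j i x ∪ S ∧ row j i (B S) = row i j x ∩ row j i x ∪
          (((row i j x ∪ row j i x) \ (row i j x ∩ row j i x)) \ S)) ∧
      (∀ y, Rel i j x y → ∃ S ∈ powersetCard (row i j x \ row j i x).card
        ((row i j x ∪ row j i x) \ (row i j x ∩ row j i x)), B S = y) ∧
      (∀ F : Gr n → ℝ, ∑ y ∈ fib (Rel i j) x, F y =
        ∑ S ∈ powersetCard (row i j x \ row j i x).card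
          ((row i j x ∪ row j i x) \ (row i j x ∩ row j i x)), F (B S)) ∧
      (fib (Rel i j) x).card = (powersetCard (row i j x \ row j i x).card
        ((row i j x ∪ row j i x) \ (row i j x ∩ row j i x))).card := by
  refine two_row (rest_equiv i j) (row i j) (row j i) (fun _ _ => Iff.rfl) ?_ ?_ x
  · intro x y h h1 h2
    have a : ∀ c, c ≠ i → c ≠ j → (adj x i c ↔ adj y i c) := fun c c1 c2 => by
      simpa [c1, c2] using Finset.ext_iff.1 h1 c
    have b : ∀ c, c ≠ i → c ≠ j → (adj x j c ↔ adj y j c) := fun c c1 c2 => by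
      simpa [c1, c2] using Finset.ext_iff.1 h2 c
    refine gr_ext fun u w huw => ?_
    have := h.1 u w
    have := h.2
    have := a u; have := a w; have := b u; have := b w
    have := @adj_comm _ x u w; have := @adj_comm _ y u w
    grind
  · intro x a' b' ha hb
    have ha' : ∀ c ∈ a', c ≠ i ∧ c ≠ j := fun c hc => by
      have := ha hc; simp only [mem_union, mem_row] at this; tauto
    have hb' : ∀ c ∈ b', c ≠ i ∧ c ≠ j := fun c hc => by
      have := hb hc; simp only [mem_union, mem_row] at this; tauto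
    have hs : ∀ u w, ((u = i ∧ w ∈ a' ∨ u = j ∧ w ∈ b') ∨ (w = i ∧ u ∈ a' ∨ w = j ∧ u ∈ b') ∨
        ((u = i ∨ u = j ↔ w = i ∨ w = j) ∧ adj x u w)) →
        ((w = i ∧ u ∈ a' ∨ w = j ∧ u ∈ b') ∨ (u = i ∧ w ∈ a' ∨ u = j ∧ w ∈ b') ∨
        ((w = i ∨ w = j ↔ u = i ∨ u = j) ∧ adj x w u)) := fun u w h => by
      have := @adj_comm _ x u w
      tauto
    refine ⟨mk fun u w => (u = i ∧ w ∈ a' ∨ u = j ∧ w ∈ b') ∨ (w = i ∧ u ∈ a' ∨ w = j ∧ u ∈ b') ∨
        ((u = i ∨ u = j ↔ w = i ∨ w = j) ∧ adj x u w), ⟨fun u w h1 h2 h3 h4 => ?_, ?_⟩, ?_, ?_⟩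
    · by_cases huw : u = w
      · simp [huw, adj_irrefl]
      rw [adj_mk hs huw]; simp [h1, h2, h3, h4]
    · rw [adj_mk hs hij]
      have := ha' i; have := ha' j; have := hb' i; have := hb' j
      grind
    · ext c
      rw [mem_row]
      by_cases h1 : c = i
      · have := ha' c; grind
      rw [adj_mk hs (Ne.symm h1)]
      have := ha' i; have := ha' c; have := hb' i
      grind
    · ext c
      rw [mem_row]
      by_cases h1 : c = j
      · have := hb' c; grind
      rw [adj_mk hs (Ne.symm h1)]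
      have := ha' j; have := hb' c; have := hb' j
      grind

/-! ### triples -/

/-- row with a virtual column `o` -/
def rw3 (a b c o : Fin n) (G : Gr n) : Finset (Fin n) :=
  univ.filter fun z => (z ≠ a ∧ z ≠ b ∧ z ≠ c ∧ adj G a z) ∨ (z = o ∧ ¬ adj G b c)

lemma mem_rw3 {a b c o z : Fin n} {G : Gr n} : z ∈ rw3 a b c o G ↔
    (z ≠ a ∧ z ≠ b ∧ z ≠ c ∧ adj G a z) ∨ (z = o ∧ ¬ adj G b c) := by simp [rw3]

lemma rel3 {a b c o : Fin n} (hab : a ≠ b) (hac : a ≠ c) (_hbc : b ≠ c) (ho : o = a ∨ o = b ∨ o = c)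
    (x y : Gr n) : Rel b c x y ↔
    ((∀ u w, u ≠ a → u ≠ b → u ≠ c → w ≠ a → w ≠ b → w ≠ c → (adj x u w ↔ adj y u w)) ∧
      rw3 a b c o x = rw3 a b c o y) ∧
    rw3 b c a o x ∩ rw3 c a b o x = rw3 b c a o y ∩ rw3 c a b o y ∧
    rw3 b c a o x ∪ rw3 c a b o x = rw3 b c a o y ∪ rw3 c a b o y ∧
    (rw3 b c a o x).card = (rw3 b c a o y).card := by
  have cd : ∀ G : Gr n, (rw3 b c a o G).card + (if adj G b a then 1 else 0) +
      (if adj G c a then 1 else 0) = (row b c G).card + 1 := by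
    intro G
    rw [card_split (rw3 b c a o G) o, card_split (row b c G) a]
    have : (rw3 b c a o G).erase o = (row b c G).erase a := by
      ext z
      simp only [mem_erase, mem_rw3, mem_row]
      grind
    rw [this]
    simp only [mem_rw3, mem_row]
    grind
  have cx := cd x
  have cy := cd y
  rw [rel_iff]
  simp only [Finset.ext_iff, mem_inter, mem_union, mem_rw3]
  constructor
  · rintro ⟨h1, h2, h3, h4⟩
    have h5 := h3 a hab hac
    refine ⟨⟨fun u w _ p1 p2 _ p3 p4 => h1 u w p1 p2 p3 p4, fun z => ?_⟩, fun z => ?_, fun z => ?_, ?_⟩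
    · have := h1 a z hab hac
      grind
    · have := h3 z
      have := @adj_comm _ x a b; have := @adj_comm _ y a b
      grind
    · have := h3 z
      have := @adj_comm _ x a b; have := @adj_comm _ y a b
      grind
    · grind
  · rintro ⟨⟨h1, h2⟩, h3, h4, h5⟩
    have g2 := h2 o
    have g3 := h3 o
    have g4 := h4 o
    have := @adj_comm _ x a b; have := @adj_comm _ y a b
    refine ⟨fun u w p1 p2 p3 p4 => ?_, by grind, fun z p1 p2 => ?_, by grind⟩
    · have := h1 u w
      have := h2 u; have := h2 w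
      have := @adj_comm _ x u w; have := @adj_comm _ y u w
      have := adj_irrefl x a; have := adj_irrefl y a
      grind
    · have := h3 z; have := h4 z
      grind

lemma triple_gr {i j k : Fin n} (hij : i ≠ j) (hik : i ≠ k) (hjk : j ≠ k) (f : EE (Gr n)) :
    0 ≤ inner ℝ (f - cE (Rel i j) f) (f - cE (Rel i k) f) +
      inner ℝ (f - cE (Rel j k) f) (f - cE (Rel j i) f) +
      inner ℝ (f - cE (Rel k i) f) (f - cE (Rel k j) f) := by
  have H : TS (fun x y : Gr n => ∀ u w, u ≠ i → u ≠ j → u ≠ k → w ≠ i → w ≠ j → w ≠ k →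
      (adj x u w ↔ adj y u w)) ![Rel j k, Rel k i, Rel i j]
      ![rw3 i j k i, rw3 j k i i, rw3 k i j i] ((univ.erase j).erase k) := by
    refine ⟨⟨fun _ _ _ _ _ _ _ _ _ => Iff.rfl, fun h u w a b c d e f => (h u w a b c d e f).symm,
      fun h h' u w a b c d e f => (h u w a b c d e f).trans (h' u w a b c d e f)⟩, ?_, ?_, ?_, ?_⟩
    · intro t x z hz
      fin_cases t <;> simp [mem_rw3] at hz ⊢ <;> grind
    · intro u x y
      fin_cases u
      · exact rel3 hij hik hjk (Or.inl rfl) x y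
      · refine (rel3 hjk hij.symm hik.symm (Or.inr (Or.inr rfl)) x y).trans ?_
        refine and_congr (and_congr ?_ Iff.rfl) Iff.rfl
        exact ⟨fun h u w a b c d e f => h u w b c a e f d, fun h u w a b c d e f => h u w c a b f d e⟩
      · refine (rel3 hik.symm hjk.symm hij (Or.inr (Or.inl rfl)) x y).trans ?_
        refine and_congr (and_congr ?_ Iff.rfl) Iff.rfl
        exact ⟨fun h u w a b c d e f => h u w c a b f d e, fun h u w a b c d e f => h u w b c a e f d⟩
    · intro x y h h'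
      have h0 : ∀ z, z ∈ rw3 i j k i x ↔ z ∈ rw3 i j k i y := Finset.ext_iff.1 (h' 0)
      have h1 : ∀ z, z ∈ rw3 j k i i x ↔ z ∈ rw3 j k i i y := Finset.ext_iff.1 (h' 1)
      have h2 : ∀ z, z ∈ rw3 k i j i x ↔ z ∈ rw3 k i j i y := Finset.ext_iff.1 (h' 2)
      simp only [mem_rw3] at h0 h1 h2
      have g0 : adj x j k ↔ adj y j k := by have := h0 i; grind
      have g1 : adj x k i ↔ adj y k i := by have := h1 i; grind
      have g2 : adj x i j ↔ adj y i j := by have := h2 i; grind
      have k0 : ∀ z, z ≠ i → z ≠ j → z ≠ k → (adj x i z ↔ adj y i z) := fun z => by have := h0 z; grind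
      have k1 : ∀ z, z ≠ i → z ≠ j → z ≠ k → (adj x j z ↔ adj y j z) := fun z => by have := h1 z; grind
      have k2 : ∀ z, z ≠ i → z ≠ j → z ≠ k → (adj x k z ↔ adj y k z) := fun z => by have := h2 z; grind
      clear h0 h1 h2 h'
      refine gr_ext fun u w huw => ?_
      have := h u w
      have := k0 u; have := k1 u; have := k2 u; have := k0 w; have := k1 w; have := k2 w
      have := @adj_comm _ x u w; have := @adj_comm _ y u w
      grind
    · intro x R' hR
      have hR' : ∀ t, j ∉ R' t ∧ k ∉ R' t := fun t =>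
        ⟨fun h => by simpa using hR t h, fun h => by simpa using hR t h⟩
      set r : Fin n → Fin n → Prop := fun u w =>
        (w ≠ i ∧ (u = i ∧ w ∈ R' 0 ∨ u = j ∧ w ∈ R' 1 ∨ u = k ∧ w ∈ R' 2)) ∨
        (u = j ∧ w = k ∧ i ∉ R' 0) ∨ (u = k ∧ w = i ∧ i ∉ R' 1) ∨ (u = i ∧ w = j ∧ i ∉ R' 2) ∨
        (u ≠ i ∧ u ≠ j ∧ u ≠ k ∧ w ≠ i ∧ w ≠ j ∧ w ≠ k ∧ adj x u w) with hr
      have hs : ∀ u w, (r u w ∨ r w u) → (r w u ∨ r u w) := fun u w h => h.symm
      have a0 := hR' 0; have a1 := hR' 1; have a2 := hR' 2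
      refine ⟨mk fun u w => r u w ∨ r w u, fun u w h1 h2 h3 h4 h5 h6 => ?_, fun t => ?_⟩
      · by_cases huw : u = w
        · simp [huw, adj_irrefl]
        rw [adj_mk hs huw]; simp [hr, h1, h2, h3, h4, h5, h6, adj_comm (u := w)]
      · fin_cases t
        · ext z
          change z ∈ rw3 i j k i _ ↔ z ∈ R' 0
          rw [mem_rw3, adj_mk hs hjk]
          by_cases hz : z = i
          · simp only [hr]; grind
          · rw [adj_mk hs (Ne.symm hz)]; simp only [hr]; grind
        · ext z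
          change z ∈ rw3 j k i i _ ↔ z ∈ R' 1
          rw [mem_rw3, adj_mk hs hik.symm]
          by_cases hz : z = j
          · simp only [hr]; grind
          · rw [adj_mk hs (Ne.symm hz)]; simp only [hr]; grind
        · ext z
          change z ∈ rw3 k i j i _ ↔ z ∈ R' 2
          rw [mem_rw3, adj_mk hs hij]
          by_cases hz : z = k
          · simp only [hr]; grind
          · rw [adj_mk hs (Ne.symm hz)]; simp only [hr]; grind
  have := triple H f
  simp only [Fin.sum_univ_three, Matrix.cons_val_zero, Matrix.cons_val_one, Matrix.cons_val] at this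
  rw [rel_comm j i, rel_comm k j, rel_comm i k]
  rw [norm_add_sq_real, norm_add_sq_real, inner_add_left] at this
  rw [real_inner_comm (f - cE (Rel k i) f), real_inner_comm (f - cE (Rel j k) f) (f - cE (Rel k i) f)]
  linarith

end Crest.Agent.H7.Sw
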