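import Mathlib
import Crest.Agent.H7.SwGraph

set_option autoImplicit false

open Finset

namespace Crest.Agent.H7.Sw

open Crest.SwitchChain

variable {n : ℕ}

/-- four distinct vertices -/
def dist4 (i j k l : Fin n) : Prop := i ≠ j ∧ i ≠ k ∧ i ≠ l ∧ j ≠ k ∧ j ≠ l ∧ k ≠ l

instance (i j k l : Fin n) : Decidable (dist4 i j k l) := by unfold dist4; infer_instance

lemma dist4.symm {i j k l : Fin n} (h : dist4 i j k l) : dist4 k l i j := by
  unfold dist4 at *; grind

/-- both columns `k, l` are free for the rows `i, j` -/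
def DD (i j k l : Fin n) (G : Gr n) : Prop :=
  (adj G i k ↔ ¬ adj G j k) ∧ (adj G i l ↔ ¬ adj G j l)

/-- refined relation -/
def RelP (i j k l : Fin n) (x y : Gr n) : Prop := Rel i j x y ∧ (DD k l i j x ↔ DD k l i j y)

lemma relP_equiv (i j k l : Fin n) : Equivalence (RelP i j k l) :=
  ⟨fun x => ⟨(rel_equiv i j).refl x, Iff.rfl⟩, fun h => ⟨(rel_equiv i j).symm h.1, h.2.symm⟩,
    fun h h' => ⟨(rel_equiv i j).trans h.1 h'.1, h.2.trans h'.2⟩⟩

/-- the four slots -/
def slot (i j k l u w : Fin n) : Prop :=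
  ((u = i ∨ u = j) ∧ (w = k ∨ w = l)) ∨ ((w = i ∨ w = j) ∧ (u = k ∨ u = l))

open Classical in
/-- the switch -/
noncomputable def tau (i j k l : Fin n) (G : Gr n) : Gr n :=
  if DD i j k l G ∧ DD k l i j G then mk fun u w => (slot i j k l u w ↔ ¬ adj G u w) else G

lemma adj_tau {i j k l : Fin n} {G : Gr n} (h : DD i j k l G ∧ DD k l i j G) {u w : Fin n}
    (huw : u ≠ w) : adj (tau i j k l G) u w ↔ (slot i j k l u w ↔ ¬ adj G u w) := by
  rw [tau, if_pos h, adj_mk _ huw]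
  intro u w h
  rw [adj_comm, ← h, slot, slot, or_comm]

lemma tau_of_not {i j k l : Fin n} {G : Gr n} (h : ¬ (DD i j k l G ∧ DD k l i j G)) :
    tau i j k l G = G := by rw [tau, if_neg h]

lemma tau_symm (i j k l : Fin n) : tau i j k l = tau k l i j := by
  ext1 G
  by_cases h : DD i j k l G ∧ DD k l i j G
  · refine gr_ext fun u w huw => ?_
    rw [adj_tau h huw, adj_tau h.symm huw, slot, slot]
    grind
  · rw [tau_of_not h, tau_of_not fun h' => h h'.symm]

lemma DD_tau {i j k l : Fin n} (hd : dist4 i j k l) {G : Gr n} (h : DD i j k l G ∧ DD k l i j G) :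
    DD i j k l (tau i j k l G) := by
  obtain ⟨d1, d2, d3, d4, d5, d6⟩ := hd
  rw [DD, adj_tau h d2, adj_tau h d3, adj_tau h d4, adj_tau h d5]
  simp only [DD, slot] at h ⊢
  grind

lemma DD_tau' {i j k l : Fin n} (hd : dist4 i j k l) {G : Gr n} (h : DD i j k l G ∧ DD k l i j G) :
    DD i j k l (tau i j k l G) ∧ DD k l i j (tau i j k l G) :=
  ⟨DD_tau hd h, by rw [tau_symm]; exact DD_tau hd.symm h.symm⟩

lemma tau_invol {i j k l : Fin n} (hd : dist4 i j k l) : Function.Involutive (tau i j k l) := by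
  intro G
  by_cases h : DD i j k l G ∧ DD k l i j G
  · refine gr_ext fun u w huw => ?_
    rw [adj_tau (DD_tau' hd h) huw, adj_tau h huw]
    grind
  · rw [tau_of_not h, tau_of_not h]

lemma row_tau {i j k l : Fin n} (hd : dist4 i j k l) {G : Gr n} (h : DD i j k l G ∧ DD k l i j G) :
    row i j (tau i j k l G) = sw k l (row i j G) ∧ row j i (tau i j k l G) = sw k l (row j i G) := by
  obtain ⟨d1, d2, d3, d4, d5, d6⟩ := hd
  have h' := h
  simp only [DD, adj_comm (u := k), adj_comm (u := l)] at h'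
  constructor <;> ext c <;> rw [mem_sw, mem_row, mem_row, Equiv.swap_apply_def]
  · by_cases hc : c = i
    · grind
    rw [adj_tau h (Ne.symm hc), slot]
    grind
  · by_cases hc : c = j
    · grind
    rw [adj_tau h (Ne.symm hc), slot]
    grind

lemma rel_tau {i j k l : Fin n} (hd : dist4 i j k l) (G : Gr n) : Rel i j G (tau i j k l G) := by
  by_cases h : DD i j k l G ∧ DD k l i j G
  · have e := row_tau hd h
    obtain ⟨d1, d2, d3, d4, d5, d6⟩ := hd
    have h' := h
    simp only [DD, adj_comm (u := k), adj_comm (u := l)] at h'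
    rw [rel_iff]
    refine ⟨fun u w p1 p2 p3 p4 => ?_, ?_, fun c p1 p2 => ?_, by rw [e.1, card_sw]⟩
    · by_cases huw : u = w
      · simp [huw, adj_irrefl]
      rw [adj_tau h huw, slot]; grind
    · rw [adj_tau h d1, slot]; grind
    · rw [adj_tau h p1.symm, adj_tau h p2.symm, slot, slot]; grind
  · rw [tau_of_not h]; exact (rel_equiv i j).refl G

lemma relP_tau {i j k l : Fin n} (hd : dist4 i j k l) (G : Gr n) :
    RelP i j k l G (tau i j k l G) := by
  refine ⟨rel_tau hd G, ?_⟩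
  by_cases h : DD i j k l G ∧ DD k l i j G
  · exact iff_of_true h.2 (DD_tau' hd h).2
  · rw [tau_of_not h]

lemma DD_rel {i j k l : Fin n} (hd : dist4 i j k l) {x y : Gr n} (h : Rel i j x y) :
    DD i j k l x ↔ DD i j k l y := by
  obtain ⟨d1, d2, d3, d4, d5, d6⟩ := hd
  obtain ⟨-, -, h, -⟩ := rel_iff.1 h
  have := h k d2.symm d4.symm
  have := h l d3.symm d5.symm
  simp only [DD]
  grind

lemma relP_of_not {i j k l : Fin n} (hd : dist4 i j k l) {x y : Gr n} (hx : ¬ DD i j k l x)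
    (h : Rel i j x y) : RelP i j k l x y := by
  refine ⟨h, ?_⟩
  obtain ⟨d1, d2, d3, d4, d5, d6⟩ := hd
  obtain ⟨-, -, h, -⟩ := rel_iff.1 h
  have := h k d2.symm d4.symm
  have := h l d3.symm d5.symm
  simp only [DD, adj_comm (u := k), adj_comm (u := l)] at hx ⊢
  grind

lemma beta {i j k l : Fin n} (hd : dist4 i j k l) {x x' : Gr n} (hx : RelP k l i j x x') :
    ∃ β : Gr n → Gr n, (∀ y, Rel i j x y → Rel i j x' (β y) ∧ RelP k l i j y (β y)) ∧
      Set.InjOn β {y | Rel i j x y} := by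
  obtain ⟨d1, d2, d3, d4, d5, d6⟩ := hd
  obtain ⟨hx, hD⟩ := hx
  obtain ⟨q1, q2, q3, q4⟩ := rel_iff.1 hx
  have qi := q3 i d2 d3
  have qj := q3 j d4 d5
  simp only [DD, adj_comm (u := k), adj_comm (u := l)] at hD qi qj
  obtain ⟨σ, s1, s2, s3⟩ : ∃ σ : Fin n ≃ Fin n, (∀ c, c ≠ k → c ≠ l → σ c = c) ∧
      ((σ k = k ∧ σ l = l) ∨ (σ k = l ∧ σ l = k)) ∧
      ∀ c, c = k ∨ c = l → (adj x' i c ∧ adj x' j c ↔ adj x i (σ c) ∧ adj x j (σ c)) ∧
        (adj x' i c ∨ adj x' j c ↔ adj x i (σ c) ∨ adj x j (σ c)) := by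
    by_cases hc : (adj x' i k ∧ adj x' j k ↔ adj x i k ∧ adj x j k) ∧
        (adj x' i k ∨ adj x' j k ↔ adj x i k ∨ adj x j k)
    · refine ⟨Equiv.refl _, fun _ _ _ => rfl, Or.inl ⟨rfl, rfl⟩, ?_⟩
      rintro c (rfl | rfl) <;> simp only [Equiv.refl_apply] <;> grind
    · refine ⟨Equiv.swap k l, fun c => Equiv.swap_apply_of_ne_of_ne, Or.inr (by simp), ?_⟩
      rintro c (rfl | rfl) <;> simp only [Equiv.swap_apply_left, Equiv.swap_apply_right] <;> grind
  have si := s1 i d2 d3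
  have sj := s1 j d4 d5
  set P : Fin n → Fin n → Prop := fun u w =>
    ((u = k ∨ u = l) ∧ w ≠ i ∧ w ≠ j) ∨ ((w = k ∨ w = l) ∧ u ≠ i ∧ u ≠ j) with hP
  have hβ : ∀ y u w, adj (mk fun u w => (P u w ∧ adj x' u w) ∨ (¬ P u w ∧ adj y (σ u) (σ w))) u w ↔
      (P u w ∧ adj x' u w) ∨ (¬ P u w ∧ adj y (σ u) (σ w)) := by
    intro y u w
    by_cases huw : u = w
    · simp [huw, adj_irrefl]
    refine adj_mk (fun u w h => ?_) huw
    rw [adj_comm, adj_comm (u := σ w), show P w u ↔ P u w from or_comm]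
    exact h
  generalize hb : (fun y => mk fun u w => (P u w ∧ adj x' u w) ∨ (¬ P u w ∧ adj y (σ u) (σ w))) = β
  replace hβ : ∀ y u w, adj (β y) u w ↔ (P u w ∧ adj x' u w) ∨ (¬ P u w ∧ adj y (σ u) (σ w)) := by
    rw [← hb]; exact hβ
  clear hb
  have bi : ∀ y c, adj (β y) i c ↔ adj y i (σ c) := fun y c => by
    rw [hβ, si]; simp only [hP]; grind
  have bj : ∀ y c, adj (β y) j c ↔ adj y j (σ c) := fun y c => by
    rw [hβ, sj]; simp only [hP]; grind
  have bk : ∀ y c, c ≠ i → c ≠ j → (adj (β y) k c ↔ adj x' k c) := fun y c => by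
    rw [hβ]; simp only [hP]; grind
  have bl : ∀ y c, c ≠ i → c ≠ j → (adj (β y) l c ↔ adj x' l c) := fun y c => by
    rw [hβ]; simp only [hP]; grind
  have bo : ∀ y u w, u ≠ k → u ≠ l → w ≠ k → w ≠ l → (adj (β y) u w ↔ adj y u w) :=
    fun y u w a b c d => by
      rw [hβ, s1 u a b, s1 w c d]; simp only [hP]; grind
  clear hβ hP
  clear_value P
  clear P
  have sk := s3 k (Or.inl rfl)
  have sl := s3 l (Or.inr rfl)
  refine ⟨β, fun y hy => ?_, fun y hy y' hy' e => ?_⟩
  · obtain ⟨p1, p2, p3, p4⟩ := rel_iff.1 hy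
    have pk := p3 k d2.symm d4.symm
    have pl := p3 l d3.symm d5.symm
    have bb : ((adj (β y) i k ↔ adj y i k) ∧ (adj (β y) i l ↔ adj y i l) ∧
        (adj (β y) j k ↔ adj y j k) ∧ (adj (β y) j l ↔ adj y j l)) ∨
        ((adj (β y) i k ↔ adj y i l) ∧ (adj (β y) i l ↔ adj y i k) ∧
        (adj (β y) j k ↔ adj y j l) ∧ (adj (β y) j l ↔ adj y j k)) := by
      rcases s2 with ⟨e1, e2⟩ | ⟨e1, e2⟩
      · left; simp only [bi, bj, e1, e2, and_self]
      · right; simp only [bi, bj, e1, e2, and_self]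
    have A1 : ∀ u w, u ≠ i → u ≠ j → w ≠ i → w ≠ j → (adj x' u w ↔ adj (β y) u w) := by
      intro u w a b c d
      by_cases h1 : u = k
      · rw [h1, bk y w c d]
      by_cases h2 : u = l
      · rw [h2, bl y w c d]
      by_cases h3 : w = k
      · rw [h3, adj_comm, adj_comm (u := u), bk y u a b]
      by_cases h4 : w = l
      · rw [h4, adj_comm, adj_comm (u := u), bl y u a b]
      rw [bo y u w h1 h2 h3 h4, ← p1 u w a b c d, q1 u w h1 h2 h3 h4]
    have A3 : ∀ c, c ≠ i → c ≠ j → (adj x' i c ∧ adj x' j c ↔ adj (β y) i c ∧ adj (β y) j c) ∧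
        (adj x' i c ∨ adj x' j c ↔ adj (β y) i c ∨ adj (β y) j c) := by
      intro c a b
      rw [bi, bj]
      by_cases h1 : c = k
      · rcases s2 with ⟨e1, e2⟩ | ⟨e1, e2⟩ <;> rw [h1, sk.1, sk.2, e1] <;> assumption
      by_cases h2 : c = l
      · rcases s2 with ⟨e1, e2⟩ | ⟨e1, e2⟩ <;> rw [h2, sl.1, sl.2, e2] <;> assumption
      rw [s1 c h1 h2, ← q1 i c d2 d3 h1 h2, ← q1 j c d4 d5 h1 h2]
      exact p3 c a b
    refine ⟨rel_iff.2 ⟨A1, ?_, A3, ?_⟩, rel_iff.2 ⟨fun u w a b c d => (bo y u w a b c d).symm, ?_,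
      fun c a b => ?_, ?_⟩, ?_⟩
    · rw [bi, sj, ← p2, q1 i j d2 d3 d4 d5]
    · have e1 : (row i j x').card = (row i j x).card :=
        card_two d6 (fun c a b => by simp only [mem_row, q1 i c d2 d3 a b])
          (by simpa [d2.symm, d3.symm, d4.symm, d5.symm] using qi.1.symm)
          (by simpa [d2.symm, d3.symm, d4.symm, d5.symm] using qi.2.symm)
      have e2 : (row i j y).card = (row i j (β y)).card :=
        card_two d6 (fun c a b => by simp only [mem_row, bo y i c d2 d3 a b])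
          (by rcases bb with ⟨b1, b2, -, -⟩ | ⟨b1, b2, -, -⟩ <;>
                simp [b1, b2, d2.symm, d3.symm, d4.symm, d5.symm, and_comm])
          (by rcases bb with ⟨b1, b2, -, -⟩ | ⟨b1, b2, -, -⟩ <;>
                simp [b1, b2, d2.symm, d3.symm, d4.symm, d5.symm, or_comm])
      rw [e1, p4, e2]
    · rw [bk y l d3.symm d5.symm, ← q2, p1 k l d2.symm d4.symm d3.symm d5.symm]
    · by_cases h1 : c = i
      · rcases bb with ⟨b1, b2, -, -⟩ | ⟨b1, b2, -, -⟩ <;>
          simp only [h1, adj_comm (u := k), adj_comm (u := l), b1, b2, and_comm, or_comm, and_self]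
      by_cases h2 : c = j
      · rcases bb with ⟨-, -, b1, b2⟩ | ⟨-, -, b1, b2⟩ <;>
          simp only [h2, adj_comm (u := k), adj_comm (u := l), b1, b2, and_comm, or_comm, and_self]
      rw [bk y c h1 h2, bl y c h1 h2, ← p1 k c d2.symm d4.symm h1 h2, ← p1 l c d3.symm d5.symm h1 h2]
      exact q3 c a b
    · have e1 : (row k l y).card = (row k l x).card :=
        card_two d1 (fun c a b => by simp only [mem_row, p1 k c d2.symm d4.symm a b])
          (by simpa [d2, d3, d4, d5, adj_comm (u := k)] using pk.1.symm)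
          (by simpa [d2, d3, d4, d5, adj_comm (u := k)] using pk.2.symm)
      have e2 : (row k l x').card = (row k l (β y)).card :=
        card_two d1 (fun c a b => by simp only [mem_row, bk y c a b])
          (by simpa [d2, d3, d4, d5, adj_comm (u := k)] using (A3 k d2.symm d4.symm).1)
          (by simpa [d2, d3, d4, d5, adj_comm (u := k)] using (A3 k d2.symm d4.symm).2)
      rw [e1, q4, e2]
    · rcases bb with ⟨b1, b2, b3, b4⟩ | ⟨b1, b2, b3, b4⟩ <;> simp only [DD, b1, b2, b3, b4, and_comm]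
  · obtain ⟨p1, p2, -, -⟩ := rel_iff.1 hy
    obtain ⟨p1', p2', -, -⟩ := rel_iff.1 hy'
    have ai : ∀ c, adj y i c ↔ adj y' i c := fun c => by
      rw [← σ.apply_symm_apply c, ← bi, ← bi, e]
    have aj : ∀ c, adj y j c ↔ adj y' j c := fun c => by
      rw [← σ.apply_symm_apply c, ← bj, ← bj, e]
    refine gr_ext fun u w _ => ?_
    by_cases h1 : u = i
    · rw [h1, ai]
    by_cases h2 : u = j
    · rw [h2, aj]
    by_cases h3 : w = i
    · rw [h3, adj_comm, ai, adj_comm]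
    by_cases h4 : w = j
    · rw [h4, adj_comm, aj, adj_comm]
    rw [← p1 u w h1 h2 h3 h4, p1' u w h1 h2 h3 h4]

lemma comm1 {i j k l : Fin n} (hd : dist4 i j k l) (f : EE (Gr n)) :
    cE (Rel i j) (cE (RelP k l i j) f) = cE (RelP k l i j) (cE (Rel i j) f) :=
  cE_comm (rel_equiv i j) (relP_equiv k l i j) (fun _ _ hx => beta hd hx) f

lemma comm2 {i j k l : Fin n} (hd : dist4 i j k l) (f : EE (Gr n)) :
    cE (RelP i j k l) (cE (RelP k l i j) f) = cE (RelP k l i j) (cE (RelP i j k l) f) := by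
  refine cE_comm (relP_equiv i j k l) (relP_equiv k l i j) (fun x x' hx => ?_) f
  obtain ⟨β, h1, h2⟩ := beta hd hx
  refine ⟨β, fun y hy => ⟨⟨(h1 y hy.1).1, ?_⟩, (h1 y hy.1).2⟩, h2.mono fun y hy => hy.1⟩
  rw [← DD_rel hd.symm hx.1, ← DD_rel hd.symm (h1 y hy.1).2.1]
  exact hy.2

/-- switch energy -/
noncomputable def WW (i j k l : Fin n) (f : EE (Gr n)) (x : Gr n) : ℝ := (f x - f (tau i j k l x)) ^ 2

open Classical in
/-- defect -/
noncomputable def NN (i j k l : Fin n) (f : EE (Gr n)) (x : Gr n) : ℝ :=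
  if DD i j k l x ∧ DD k l i j x then (cE (RelP i j k l) f x - cE (Rel i j) f x) ^ 2 else 0

lemma quad_gr {i j k l : Fin n} (hd : dist4 i j k l) (f : EE (Gr n)) :
    ∑ x, (WW i j k l f x / 4 - NN i j k l f x) + ∑ x, (WW k l i j f x / 4 - NN k l i j f x) ≤
      2 * inner ℝ (f - cE (Rel i j) f) (f - cE (Rel k l) f) := by
  have := quad (rel_equiv i j) (rel_equiv k l) (relP_equiv i j k l) (relP_equiv k l i j)
    (fun _ _ h => h.1) (fun _ _ h => h.1) (comm1 hd) (comm1 hd.symm) (comm2 hd) (tau i j k l)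
    (tau_invol hd) (relP_tau hd) (fun x => by rw [tau_symm]; exact relP_tau hd.symm x)
    (DD i j k l) (DD k l i j) (fun x y => relP_of_not hd) (fun x y => relP_of_not hd.symm)
    (fun x y h h' => ⟨(DD_rel hd h.1).1 h'.1, h.2.1 h'.2⟩)
    (fun x y h h' => ⟨h.2.1 h'.1, (DD_rel hd.symm h.1).1 h'.2⟩) f
  refine le_trans (le_of_eq ?_) this
  rw [sum_div, ← sum_sub_distrib, ← sum_sub_distrib, ← sum_add_distrib]
  refine sum_congr rfl fun x _ => ?_
  simp only [WW, NN, ← tau_symm i j k l]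
  by_cases h : DD i j k l x ∧ DD k l i j x
  · simp only [if_pos h, if_pos h.symm]; ring
  · simp only [if_neg h, if_neg (fun h' : DD k l i j x ∧ DD i j k l x => h h'.symm)]; ring

end Crest.Agent.H7.Sw
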