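import Mathlib
import Crest.Agent.H7.SwQuad

set_option autoImplicit false

open Finset

namespace Crest.Agent.H7.Sw

open Crest.SwitchChain

variable {n : ℕ}

lemma fib_par {i j : Fin n} (hij : i ≠ j) (x : Gr n) :
    ∃ (B : Finset (Fin n) → Gr n) (α : ℕ) (D : Finset (Fin n)),
      (∀ F : Gr n → ℝ, ∑ y ∈ fib (Rel i j) x, F y = ∑ S ∈ powersetCard α D, F (B S)) ∧
      (∀ S ∈ powersetCard α D, Rel i j x (B S)) ∧
      (∀ k l, dist4 i j k l → DD i j k l x → k ∈ D ∧ l ∈ D) ∧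
      ∀ k ∈ D, ∀ l ∈ D, k ≠ l → dist4 i j k l ∧ ∀ S ∈ powersetCard α D,
        tau i j k l (B S) = B (sw k l S) ∧ DD i j k l (B S) ∧
          (DD k l i j (B S) ↔ ¬ (k ∈ S ↔ l ∈ S)) := by
  obtain ⟨B, B1, B2, B3, -⟩ := rel_par hij x
  have hD : ∀ c ∈ (row i j x ∪ row j i x) \ (row i j x ∩ row j i x), c ≠ i ∧ c ≠ j ∧
      c ∉ row i j x ∩ row j i x := fun c hc => by
    simp only [mem_sdiff, mem_union, mem_row] at hc ⊢; tauto
  refine ⟨B, _, _, B3, fun S hS => (B1 S hS).1, fun k l hd h => ?_, ?_⟩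
  · simp only [dist4, DD, mem_sdiff, mem_union, mem_inter, mem_row] at hd h ⊢
    grind
  generalize (row i j x ∪ row j i x) \ (row i j x ∩ row j i x) = D at *
  generalize row i j x ∩ row j i x = I at *
  generalize (row i j x \ row j i x).card = α at *
  intro k hk l hl hkl
  have hd : dist4 i j k l :=
    ⟨hij, (hD k hk).1.symm, (hD l hl).1.symm, (hD k hk).2.1.symm, (hD l hl).2.1.symm, hkl⟩
  refine ⟨hd, fun S hS => ?_⟩
  obtain ⟨p1, p2, p3⟩ := B1 S hS
  have a : ∀ c ∈ D, (adj (B S) i c ↔ c ∈ S) ∧ (adj (B S) j c ↔ c ∉ S) := fun c hc => by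
    have e1 := Finset.ext_iff.1 p2 c
    have e2 := Finset.ext_iff.1 p3 c
    obtain ⟨h1, h2, h3⟩ := hD c hc
    simpa [h1, h2, h3, hc] using And.intro e1 e2
  have b1 : DD i j k l (B S) := by
    simp only [DD, (a k hk).1, (a k hk).2, (a l hl).1, (a l hl).2, not_not, and_self]
  have b2 : DD k l i j (B S) ↔ ¬ (k ∈ S ↔ l ∈ S) := by
    simp only [DD, adj_comm (u := k), adj_comm (u := l), (a k hk).1, (a k hk).2, (a l hl).1, (a l hl).2]
    tauto
  refine ⟨?_, b1, b2⟩
  by_cases h : k ∈ S ↔ l ∈ S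
  · rw [sw_eq_self h, tau_of_not fun h' => b2.1 h'.2 h]
  · obtain ⟨T, hT, e⟩ := B2 _ ((rel_equiv i j).trans p1 (rel_tau hd (B S)))
    rw [← e]
    congr 1
    have e1 := (row_tau hd ⟨b1, b2.2 h⟩).1
    rw [← e, (B1 T hT).2.1, p2] at e1
    have hT' := (mem_powersetCard.1 hT).1
    have hS' := (mem_powersetCard.1 (sw_mem_pc hk hl hS)).1
    ext c
    have e2 := Finset.ext_iff.1 e1 c
    have := @hT' c; have := @hS' c; have := hD c; have := hD k hk; have := hD l hl
    simp only [mem_union, mem_sw, Equiv.swap_apply_def] at *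
    grind

lemma fib_mean {i j : Fin n} {x : Gr n} {B : Finset (Fin n) → Gr n} {P : Finset (Finset (Fin n))}
    (h : ∀ F : Gr n → ℝ, ∑ y ∈ fib (Rel i j) x, F y = ∑ S ∈ P, F (B S)) (f : EE (Gr n)) :
    ∑ S ∈ P, (f (B S) - cE (Rel i j) f x) = 0 := by
  rw [← h fun y => f y - cE (Rel i j) f x, sum_sub_distrib, sum_const, nsmul_eq_mul, cE_apply,
    mul_div_cancel₀ _ (card_fib_pos (rel_equiv i j) x).ne', sub_self]

lemma WW_nonneg (i j k l : Fin n) (f : EE (Gr n)) (x : Gr n) : 0 ≤ WW i j k l f x := sq_nonneg _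

lemma sum_univ_ge {D : Finset (Fin n)} {F G : Fin n → Fin n → ℝ}
    (h1 : ∀ k ∈ D, ∀ l ∈ D, G k l ≤ F k l) (h2 : ∀ k l, ¬ (k ∈ D ∧ l ∈ D) → 0 ≤ F k l) :
    ∑ k ∈ D, ∑ l ∈ D, G k l ≤ ∑ k, ∑ l, F k l := by
  have : ∑ k ∈ D, ∑ l ∈ D, G k l = ∑ k, ∑ l, if k ∈ D ∧ l ∈ D then G k l else 0 := by
    simp only [ite_and, sum_ite_irrel, sum_ite_mem, univ_inter, sum_const_zero]
  rw [this]
  refine sum_le_sum fun k _ => sum_le_sum fun l _ => ?_
  split_ifs with h
  exacts [h1 k h.1 l h.2, h2 k l h]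

lemma sum_nonneg_fib2 {A : Type*} [Fintype A] {r : A → A → Prop} (hr : Equivalence r)
    (F : Fin n → Fin n → A → ℝ) (h : ∀ x, 0 ≤ ∑ k, ∑ l, ∑ y ∈ fib r x, F k l y) :
    0 ≤ ∑ k, ∑ l, ∑ y, F k l y := by
  have e : ∀ s : Finset A, ∑ k, ∑ l, ∑ y ∈ s, F k l y = ∑ y ∈ s, ∑ k, ∑ l, F k l y := fun s => by
    rw [sum_congr rfl fun k _ => sum_comm, sum_comm]
  rw [e]
  exact sum_nonneg_of_fib hr fun x => by rw [← e]; exact h x

lemma fib_N {i j : Fin n} (hij : i ≠ j) (f : EE (Gr n)) :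
    0 ≤ ∑ k, ∑ l, if dist4 i j k l then ∑ x, (WW i j k l f x / 4 - NN i j k l f x) else 0 := by
  classical
  have : ∀ k l, (if dist4 i j k l then ∑ x, (WW i j k l f x / 4 - NN i j k l f x) else 0) =
      ∑ x, if dist4 i j k l then (WW i j k l f x / 4 - NN i j k l f x) else 0 := fun k l => by
    split_ifs <;> simp
  simp only [this]
  refine sum_nonneg_fib2 (rel_equiv i j) _ fun x => ?_
  obtain ⟨B, α, D, B1, B2, B4, B3⟩ := fib_par hij x
  have hN := N_bound D α _ (fib_mean B1 f)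
  rw [← sub_nonneg, sum_div, ← sum_sub_distrib] at hN
  simp only [sum_div (s := D), ← sum_sub_distrib] at hN
  refine hN.trans (sum_univ_ge (fun k hk l hl => ?_) fun k l hkl => ?_)
  · by_cases hkl : k = l
    · simp [hkl, dist4, sw]
    obtain ⟨hd, h⟩ := B3 k hk l hl hkl
    simp only [if_pos hd]
    rw [B1, sum_sub_distrib (fun S => WW i j k l f (B S) / 4), sum_div]
    refine sub_le_sub (le_of_eq (sum_congr rfl fun S hS => ?_)) (Eq.le (α := ℝ) ?_)
    · rw [WW, (h S hS).1]; ring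
    set Q := (powersetCard α D).filter fun S => ¬ (k ∈ S ↔ l ∈ S) with hQ
    have e : ∀ S ∈ Q, NN i j k l f (B S) = ((∑ T ∈ Q, (f (B T) - cE (Rel i j) f x)) / Q.card) ^ 2 := by
      intro S hS
      have hQ0 : (0:ℝ) < Q.card := by exact_mod_cast card_pos.2 ⟨S, hS⟩
      obtain ⟨hS, hS'⟩ := mem_filter.1 hS
      have hDD := (h S hS).2.2.2 hS'
      have e1 : ∀ F : Gr n → ℝ, ∑ y ∈ fib (RelP i j k l) (B S), F y = ∑ T ∈ Q, F (B T) := by
        intro F
        have : fib (RelP i j k l) (B S) = (fib (Rel i j) x).filter (DD k l i j) := by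
          ext y
          simp only [mem_fib, mem_filter, RelP, hDD, true_iff]
          exact and_congr_left fun _ => ⟨fun h => (rel_equiv i j).trans (B2 S hS) h,
            fun h => (rel_equiv i j).trans ((rel_equiv i j).symm (B2 S hS)) h⟩
        rw [this, sum_filter, B1, hQ, sum_filter]
        exact sum_congr rfl fun T hT => by simp only [(h T hT).2.2]
      have e2 : ((fib (RelP i j k l) (B S)).card : ℝ) = Q.card := by simpa using e1 fun _ => 1
      rw [NN, if_pos ⟨(h S hS).2.1, hDD⟩, ← cE_inv (rel_equiv i j) f (B2 S hS), cE_apply (RelP i j k l),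
        e1, e2, sum_sub_distrib, sum_const, nsmul_eq_mul, sub_div, mul_div_cancel_left₀ _ hQ0.ne']
    rw [← sum_filter_add_sum_filter_not _ (fun S => ¬ (k ∈ S ↔ l ∈ S)), ← hQ, sum_congr rfl e,
      sum_eq_zero (s := filter (fun S => ¬¬ (k ∈ S ↔ l ∈ S)) _), add_zero, sum_const, nsmul_eq_mul]
    · rcases Nat.eq_zero_or_pos Q.card with h0 | h0
      · simp [h0]
      · field_simp
    · intro S hS
      obtain ⟨hS, hS'⟩ := mem_filter.1 hS
      rw [NN, if_neg fun h' => hS' ((h S hS).2.2.1 h'.2)]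
  · refine sum_nonneg fun y hy => ?_
    split_ifs with hd
    · rw [NN, if_neg fun h' => hkl (B4 k l hd ((DD_rel hd (mem_fib.1 hy)).2 h'.1)), sub_zero]
      exact div_nonneg (WW_nonneg _ _ _ _ _ _) (by norm_num)
    · rfl

lemma fib_W {i j : Fin n} (hij : i ≠ j) (f : EE (Gr n)) :
    8 * ‖f - cE (Rel i j) f‖ ^ 2 ≤
      ∑ k, ∑ l, if dist4 i j k l then ∑ x, WW i j k l f x else 0 := by
  classical
  have hn : (0:ℝ) < n := by exact_mod_cast i.pos
  have : ∀ k l, (if dist4 i j k l then ∑ x, WW i j k l f x else 0) =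
      ∑ x, if dist4 i j k l then WW i j k l f x else 0 := fun k l => by
    split_ifs <;> simp
  simp only [this]
  have key := sum_nonneg_fib2 (rel_equiv i j) (fun k l y => (if dist4 i j k l then WW i j k l f y else 0) -
    8 * (f y - cE (Rel i j) f y) ^ 2 / n ^ 2) fun x => ?_
  · simp only [sum_sub_distrib, sum_const, card_univ, Fintype.card_fin, nsmul_eq_mul, ← sum_div,
      ← mul_sum] at key
    rw [normsq_eq]
    simp only [PiLp.sub_apply]
    refine le_trans (le_of_eq ?_) (sub_nonneg.1 key)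
    field_simp
  obtain ⟨B, α, D, B1, B2, -, B3⟩ := fib_par hij x
  simp only [sum_sub_distrib, sum_const, card_univ, Fintype.card_fin, nsmul_eq_mul, ← sum_div,
      ← mul_sum]
  have hm := fib_mean B1 f
  have hg := bl_gap D α _ hm
  rw [sub_nonneg, B1, sum_congr rfl fun S hS => by rw [← cE_inv (rel_equiv i j) f (B2 S hS)]]
  have h8 : 8 * ∑ S ∈ powersetCard α D, (f (B S) - cE (Rel i j) f x) ^ 2 ≤
      4 * D.card * ∑ S ∈ powersetCard α D, (f (B S) - cE (Rel i j) f x) ^ 2 := by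
    by_cases h2 : 2 ≤ D.card
    · have : (2:ℝ) ≤ D.card := by exact_mod_cast h2
      have : 0 ≤ ∑ S ∈ powersetCard α D, (f (B S) - cE (Rel i j) f x) ^ 2 := by positivity
      nlinarith
    · have h1 : (powersetCard α D).card ≤ 1 := by
        rw [card_powersetCard]
        have : D.card = 0 ∨ D.card = 1 := by omega
        rcases this with h | h <;> rw [h] <;> rcases α with _ | _ | α <;> simp [Nat.choose]
      rw [sum_eq_zero fun S hS => ?_]
      · simp
      · rw [card_le_one_iff_subset_singleton] at h1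
        obtain ⟨T, hT⟩ := h1
        rw [(subset_singleton_iff.1 hT).resolve_left (ne_empty_of_mem hS), sum_singleton] at hm
        rw [mem_singleton.1 (hT hS), hm]; simp
  refine le_trans (le_of_eq (by field_simp)) (h8.trans (hg.trans (sum_univ_ge (fun k hk l hl => ?_)
    fun k l _ => sum_nonneg fun y _ => ?_)))
  · by_cases hkl : k = l
    · simp [hkl, dist4, sw]
    obtain ⟨hd, h⟩ := B3 k hk l hl hkl
    simp only [if_pos hd]
    rw [B1]
    refine le_of_eq (sum_congr rfl fun S hS => ?_)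
    rw [WW, (h S hS).1]; ring
  · split_ifs
    exacts [WW_nonneg _ _ _ _ _ _, le_rfl]

/-- the pair projections -/
noncomputable def pa (f : EE (Gr n)) (i j : Fin n) : EE (Gr n) :=
  if i ≠ j then f - cE (Rel i j) f else 0

lemma pa_comm (f : EE (Gr n)) (i j : Fin n) : pa f i j = pa f j i := by
  simp only [pa, rel_comm i j, ne_comm]

lemma pa_self (f : EE (Gr n)) (i : Fin n) : pa f i i = 0 := by simp [pa]

lemma disj_nonneg (f : EE (Gr n)) :
    0 ≤ ∑ i, ∑ j, ∑ k, ∑ l, if dist4 i j k l then inner ℝ (pa f i j) (pa f k l) else 0 := by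
  set X : Fin n → Fin n → Fin n → Fin n → ℝ := fun i j k l =>
    if dist4 i j k l then ∑ x, (WW i j k l f x / 4 - NN i j k l f x) else 0 with hX
  have h1 : 0 ≤ ∑ i, ∑ j, ∑ k, ∑ l, X i j k l := by
    refine sum_nonneg fun i _ => sum_nonneg fun j _ => ?_
    by_cases hij : i = j
    · simp [hX, hij, dist4]
    · exact fib_N hij f
  have h2 : ∑ i, ∑ j, ∑ k, ∑ l, X k l i j = ∑ i, ∑ j, ∑ k, ∑ l, X i j k l := by
    simp only [← Fintype.sum_prod_type']
    exact Fintype.sum_equiv ((Equiv.prodAssoc _ _ _).symm.trans ((Equiv.prodComm _ _).trans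
      (Equiv.prodAssoc _ _ _))) _ _ fun _ => rfl
  have h3 : ∑ i, ∑ j, ∑ k, ∑ l, X i j k l + ∑ i, ∑ j, ∑ k, ∑ l, X k l i j ≤
      2 * ∑ i, ∑ j, ∑ k, ∑ l, if dist4 i j k l then inner ℝ (pa f i j) (pa f k l) else 0 := by
    simp only [mul_sum, ← sum_add_distrib]
    refine sum_le_sum fun i _ => sum_le_sum fun j _ => sum_le_sum fun k _ => sum_le_sum fun l _ => ?_
    by_cases hd : dist4 i j k l
    · simp only [hX, if_pos hd, if_pos hd.symm, pa, if_pos hd.1, if_pos hd.symm.1]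
      exact quad_gr hd f
    · simp only [hX, if_neg hd, if_neg fun h : dist4 k l i j => hd h.symm]
      simp
  linarith

lemma over_nonneg (f : EE (Gr n)) :
    ∑ i, ∑ j, ‖pa f i j‖ ^ 2 ≤ ∑ i, ∑ j, ∑ k, inner ℝ (pa f i j) (pa f i k) := by
  set Y : Fin n → Fin n → Fin n → ℝ := fun i j k =>
    if j ≠ k then inner ℝ (pa f i j) (pa f i k) else 0 with hY
  have h0 : ∑ i, ∑ j, ∑ k, inner ℝ (pa f i j) (pa f i k) =
      ∑ i, ∑ j, ‖pa f i j‖ ^ 2 + ∑ i, ∑ j, ∑ k, Y i j k := by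
    simp only [← sum_add_distrib]
    refine sum_congr rfl fun i _ => sum_congr rfl fun j _ => ?_
    rw [← real_inner_self_eq_norm_sq, ← sum_ite_eq_of_mem univ j
      (fun k => inner ℝ (pa f i j) (pa f i k)) (mem_univ j), ← sum_add_distrib]
    refine sum_congr rfl fun k _ => ?_
    by_cases h : j = k <;> simp [hY, h]
  have h1 : ∑ i, ∑ j, ∑ k, Y j k i = ∑ i, ∑ j, ∑ k, Y i j k := by
    rw [sum_comm]
    exact sum_congr rfl fun _ _ => sum_comm
  have h2 : ∑ i, ∑ j, ∑ k, Y k i j = ∑ i, ∑ j, ∑ k, Y i j k := by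
    rw [← h1, sum_comm]
    exact sum_congr rfl fun _ _ => sum_comm
  have h3 : 0 ≤ ∑ i, ∑ j, ∑ k, Y i j k + ∑ i, ∑ j, ∑ k, Y j k i + ∑ i, ∑ j, ∑ k, Y k i j := by
    simp only [← sum_add_distrib]
    refine sum_nonneg fun i _ => sum_nonneg fun j _ => sum_nonneg fun k _ => ?_
    by_cases hij : i = j
    · simp [hY, hij, pa_self]
    by_cases hik : i = k
    · simp [hY, hik, pa_self]
    by_cases hjk : j = k
    · simp [hY, hjk, pa_self]
    have := triple_gr hij hik hjk f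
    simpa [hY, pa, hij, hik, hjk, Ne.symm hij, Ne.symm hik, Ne.symm hjk] using this
  linarith

lemma knabe (f : EE (Gr n)) : 2 * ∑ i, ∑ j, ‖pa f i j‖ ^ 2 ≤ ‖∑ i, ∑ j, pa f i j‖ ^ 2 := by
  have e : ‖∑ i, ∑ j, pa f i j‖ ^ 2 = ∑ i, ∑ j, ∑ k, ∑ l, inner ℝ (pa f i j) (pa f k l) := by
    rw [← real_inner_self_eq_norm_sq]
    simp only [sum_inner]
    simp only [inner_sum]
  have e2 : ∀ i j k l, inner ℝ (pa f i j) (pa f k l) =
      (if dist4 i j k l then inner ℝ (pa f i j) (pa f k l) else 0)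
      + (if i = k then inner ℝ (pa f i j) (pa f i l) else 0)
      + (if i = l then inner ℝ (pa f i j) (pa f i k) else 0)
      + (if j = k then inner ℝ (pa f j i) (pa f j l) else 0)
      + (if j = l then inner ℝ (pa f j i) (pa f j k) else 0)
      - (if i = k then if j = l then ‖pa f i j‖ ^ 2 else 0 else 0)
      - (if j = k then if i = l then ‖pa f i j‖ ^ 2 else 0 else 0) := by
    intro i j k l
    by_cases hij : i = j
    · simp [hij, pa_self]
    by_cases hkl : k = l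
    · subst hkl
      by_cases h1 : i = k
      · subst h1; simp [dist4, pa_self, Ne.symm hij]
      by_cases h2 : j = k
      · subst h2; simp [dist4, pa_self, hij]
      · simp [dist4, pa_self, h1, h2]
    rw [← real_inner_self_eq_norm_sq, pa_comm f j i]
    by_cases h1 : i = k
    · subst h1
      by_cases h2 : j = l
      · subst h2; rw [pa_comm f j i]; simp [dist4, hij, Ne.symm hij]
      · simp [dist4, hij, Ne.symm hij, h2, hkl]
    by_cases h2 : i = l
    · subst h2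
      by_cases h3 : j = k
      · subst h3; rw [pa_comm f j i]; simp [dist4, hij, Ne.symm hij]
      · simp [dist4, hij, Ne.symm hij, h1, h3, pa_comm f k i]
    by_cases h3 : j = k
    · subst h3; simp [dist4, h1, h2, hkl]
    by_cases h4 : j = l
    · subst h4; simp [dist4, h1, h2, h3, pa_comm f k j]
    simp [dist4, hij, hkl, h1, h2, h3, h4]
  have d := disj_nonneg f
  have o := over_nonneg f
  have o' : ∑ i, ∑ j, ∑ k, inner ℝ (pa f j i) (pa f j k) = ∑ i, ∑ j, ∑ k, inner ℝ (pa f i j) (pa f i k) :=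
    sum_comm
  rw [e, sum_congr rfl fun i _ => sum_congr rfl fun j _ => sum_congr rfl fun k _ =>
    sum_congr rfl fun l _ => e2 i j k l]
  simp only [sum_add_distrib, sum_sub_distrib, sum_ite_irrel, sum_const_zero, sum_ite_eq, mem_univ,
    if_true]
  linarith

end Crest.Agent.H7.Sw
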