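import Mathlib
import Crest.Agent.H7.SwFib

set_option autoImplicit false

open Finset

namespace Crest.Agent.H7.Sw

open Crest.SwitchChain

variable {n : ℕ}

lemma lt_of_no_switch {G : Gr n} {W : Finset (Fin n)} {a b c : Fin n} (ha : a ∈ W) (hb : b ∈ W)
    (hc : c ∈ W) (hab : adj G a b) (hac : ¬ adj G a c) (hca : c ≠ a)
    (h : ∀ z ∈ W, z ≠ b → adj G c z → adj G b z) : (nb G c ∩ W).card < (nb G b ∩ W).card := by
  rw [card_split (nb G c ∩ W) b, card_split (nb G b ∩ W) c]
  have : ((nb G c ∩ W).erase b).card < ((nb G b ∩ W).erase c).card := by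
    refine card_lt_card ⟨fun z hz => ?_, fun h' => ?_⟩
    · simp only [mem_erase, mem_inter, mem_nb] at hz ⊢
      exact ⟨(adj_ne hz.2.1).symm, h z hz.2.2 hz.1 hz.2.1, hz.2.2⟩
    · have := h' (show a ∈ _ by simp [hca.symm, ha, adj_comm.1 hab])
      simp only [mem_erase, mem_inter, mem_nb] at this
      exact hac (adj_comm.1 this.2.1)
  simp only [mem_inter, mem_nb, hb, hc, and_true, adj_comm (u := c) (w := b)]
  omega

lemma switch_step {G : Gr n} {W : Finset (Fin n)} {a b c z : Fin n} (ha : a ∈ W) (hb : b ∈ W)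
    (hc : c ∈ W) (hab : adj G a b) (hac : ¬ adj G a c) (hca : c ≠ a) (hz : z ∈ W) (hzb : z ≠ b)
    (hcz : adj G c z) (hbz : ¬ adj G b z) : ∃ G₁, (∃ i j, i ≠ j ∧ Rel i j G G₁) ∧
      (∀ u w, u ∉ W → (adj G₁ u w ↔ adj G u w)) ∧ nb G₁ a = insert c ((nb G a).erase b) := by
  have hd : dist4 b c a z := ⟨fun h => hac (h ▸ hab), (adj_ne hab).symm, hzb.symm, hca, adj_ne hcz,
    fun h => hac (adj_comm.1 (h ▸ hcz))⟩
  have hD : DD b c a z G ∧ DD a z b c G := by
    simp [DD, hab, hac, hcz, hbz, adj_comm (u := b) (w := a), adj_comm (u := c) (w := a),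
      adj_comm (u := z)]
  refine ⟨tau b c a z G, ⟨b, c, hd.1, rel_tau hd G⟩, fun u w hu => ?_, ?_⟩
  · by_cases huw : u = w
    · simp [huw, adj_irrefl]
    rw [adj_tau hD huw, slot]
    grind
  · ext w
    rw [mem_nb, mem_insert, mem_erase, mem_nb]
    by_cases haw : a = w
    · subst haw; simp [adj_irrefl, hca.symm]
    rw [adj_tau hD haw, slot]
    unfold dist4 at hd
    grind

lemma conn (v : Gr n → ℝ) (hv : ∀ i j, i ≠ j → ∀ x y, Rel i j x y → v x = v y) (W : Finset (Fin n)) :
    ∀ G G' : Gr n, (∀ u, (nb G u).card = (nb G' u).card) →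
      (∀ u w, u ∉ W → (adj G u w ↔ adj G' u w)) → v G = v G' := by
  induction W using Finset.induction_on with
  | empty => intro G G' _ h; rw [gr_ext fun u w _ => h u w (by simp)]
  | insert a W haW ih =>
    intro G G'
    induction hm : (nb G a \ nb G' a).card generalizing G G' with
    | zero =>
      intro h1 h2
      have e : nb G a = nb G' a :=
        eq_of_subset_of_card_le (sdiff_eq_empty_iff_subset.1 (card_eq_zero.1 hm)) (h1 a).ge
      refine ih G G' h1 fun u w hu => ?_
      by_cases hua : u = a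
      · simpa [hua] using Finset.ext_iff.1 e w
      · exact h2 u w (by simp [hua, hu])
    | succ m ihm =>
      intro h1 h2
      obtain ⟨b, hb⟩ := card_pos.1 (show 0 < (nb G a \ nb G' a).card by omega)
      obtain ⟨c, hc⟩ := card_pos.1 (show 0 < (nb G' a \ nb G a).card by
        rw [← card_sdiff_comm (h1 a)]; omega)
      have hb0 := hb
      simp only [mem_sdiff, mem_nb] at hb hc
      have hbW : b ∈ insert a W := by
        by_contra h
        exact hb.2 (adj_comm.1 ((h2 b a h).1 (adj_comm.1 hb.1)))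
      have hcW : c ∈ insert a W := by
        by_contra h
        exact hc.2 (adj_comm.1 ((h2 c a h).2 (adj_comm.1 hc.1)))
      have haW' := mem_insert_self a W
      by_cases s1 : ∃ z ∈ insert a W, z ≠ b ∧ adj G c z ∧ ¬ adj G b z
      · obtain ⟨z, hz, hzb, hcz, hbz⟩ := s1
        obtain ⟨G₁, ⟨i, j, hij, hr⟩, k1, k2⟩ :=
          switch_step haW' hbW hcW hb.1 hc.2 (adj_ne hc.1).symm hz hzb hcz hbz
        rw [hv i j hij _ _ hr]
        refine ihm G₁ G' ?_ (fun u => (deg_of_rel hij hr u).symm.trans (h1 u))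
          fun u w hu => (k1 u w hu).trans (h2 u w hu)
        have : nb G₁ a \ nb G' a = (nb G a \ nb G' a).erase b := by
          rw [k2]; ext w; simp only [mem_sdiff, mem_insert, mem_erase, mem_nb]; grind
        rw [this, card_erase_of_mem hb0, hm]; rfl
      by_cases s2 : ∃ z ∈ insert a W, z ≠ c ∧ adj G' b z ∧ ¬ adj G' c z
      · obtain ⟨z, hz, hzb, hcz, hbz⟩ := s2
        obtain ⟨G₁, ⟨i, j, hij, hr⟩, k1, k2⟩ :=
          switch_step haW' hcW hbW hc.1 hb.2 (adj_ne hb.1).symm hz hzb hcz hbz
        rw [hv i j hij _ _ hr]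
        refine ihm G G₁ ?_ (fun u => (h1 u).trans (deg_of_rel hij hr u))
          fun u w hu => (h2 u w hu).trans (k1 u w hu).symm
        have : nb G a \ nb G₁ a = (nb G a \ nb G' a).erase b := by
          rw [k2]; ext w; simp only [mem_sdiff, mem_insert, mem_erase, mem_nb]; grind
        rw [this, card_erase_of_mem hb0, hm]; rfl
      exfalso
      push Not at s1 s2
      have l1 := lt_of_no_switch haW' hbW hcW hb.1 hc.2 (adj_ne hc.1).symm s1
      have l2 := lt_of_no_switch haW' hcW hbW hc.1 hb.2 (adj_ne hb.1).symm s2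
      have e : ∀ u, (nb G u ∩ insert a W).card = (nb G' u ∩ insert a W).card := by
        intro u
        have a1 := card_inter_add_card_sdiff (nb G u) (insert a W)
        have a2 := card_inter_add_card_sdiff (nb G' u) (insert a W)
        have : nb G u \ insert a W = nb G' u \ insert a W := by
          ext w
          simp only [mem_sdiff, mem_nb]
          exact and_congr_left fun hw => by rw [adj_comm, h2 w u hw, adj_comm]
        have := h1 u
        rw [‹nb G u \ insert a W = _›] at a1
        omega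
      rw [e, e] at l1
      omega

lemma mem_real {d : Fin n → ℕ} {G : Gr n} : G ∈ realizations d ↔ ∀ v, (nb G v).card = d v := by
  simp [realizations, deg_eq]

lemma tau_real {d : Fin n → ℕ} {i j k l : Fin n} (hd : dist4 i j k l) {G : Gr n} :
    tau i j k l G ∈ realizations d ↔ G ∈ realizations d := by
  simp only [mem_real, ← deg_of_rel hd.1 (rel_tau hd G)]

theorem poincare_tau (d : Fin n → ℕ) (f : Gr n → ℝ) (hf : ∑ G ∈ realizations d, f G = 0) :
    16 * ∑ G ∈ realizations d, f G ^ 2 ≤ ∑ i, ∑ j, ∑ k, ∑ l,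
      if dist4 i j k l then ∑ G ∈ realizations d, (f G - f (tau i j k l G)) ^ 2 else 0 := by
  set T : EE (Gr n) →ₗ[ℝ] EE (Gr n) :=
    ∑ i, ∑ j, if i ≠ j then LinearMap.id - cE (Rel i j) else 0 with hT
  have hTa : ∀ g, T g = ∑ i, ∑ j, pa g i j := fun g => by
    simp only [hT, LinearMap.sum_apply, pa]
    refine sum_congr rfl fun i _ => sum_congr rfl fun j _ => ?_
    split_ifs <;> simp
  have hTs : T.IsSymmetric := fun g g' => by
    simp only [hTa, sum_inner, inner_sum, pa]
    refine sum_congr rfl fun i _ => sum_congr rfl fun j _ => ?_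
    split_ifs
    · rw [inner_sub_left, inner_sub_right, cE_symm (rel_equiv i j)]
    · simp
  have hTi : ∀ g, inner ℝ g (T g) = ∑ i, ∑ j, ‖pa g i j‖ ^ 2 := fun g => by
    simp only [hTa, inner_sum, pa]
    refine sum_congr rfl fun i _ => sum_congr rfl fun j _ => ?_
    split_ifs
    · exact inner_sub_cE (rel_equiv i j) g
    · simp
  set F : EE (Gr n) := WithLp.toLp 2 fun G => if G ∈ realizations d then f G else 0 with hF
  have hFa : ∀ G, F G = if G ∈ realizations d then f G else 0 := fun _ => rfl
  have key := gap_of_sq hTs (γ := 2) (fun g => by rw [hTi]; positivity)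
    (fun g => by rw [hTi, hTa]; exact knabe g) F (fun v hv => by
      have h0 := hTi v
      rw [hv, inner_zero_right] at h0
      have h1 : ∀ i j, i ≠ j → ∀ x y, Rel i j x y → v x = v y := by
        intro i j hij x y hxy
        have a := (sum_eq_zero_iff_of_nonneg fun i _ => by positivity).1 h0.symm i (mem_univ _)
        have b := (sum_eq_zero_iff_of_nonneg fun j _ => by positivity).1 a j (mem_univ _)
        rw [pa, if_pos hij, pow_eq_zero_iff two_ne_zero, norm_eq_zero, sub_eq_zero] at b
        rw [b]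
        exact cE_inv (rel_equiv i j) v hxy
      rw [inner_eq]
      simp only [hFa, mul_ite, mul_zero, sum_ite_mem, univ_inter]
      rcases (realizations d).eq_empty_or_nonempty with h | ⟨G₀, h⟩
      · simp [h]
      rw [sum_congr rfl fun G hG => by
        rw [conn v h1 univ G G₀ (fun u => (mem_real.1 hG u).trans (mem_real.1 h u).symm) (by simp)],
        ← mul_sum, hf, mul_zero])
  rw [hTi, normsq_eq] at key
  simp only [hFa, ite_pow, ne_eq, OfNat.ofNat_ne_zero, not_false_eq_true, zero_pow, sum_ite_mem,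
    univ_inter] at key
  refine le_trans (by linarith : _ ≤ 8 * ∑ i, ∑ j, ‖pa F i j‖ ^ 2) ?_
  simp only [mul_sum]
  refine sum_le_sum fun i _ => sum_le_sum fun j _ => ?_
  by_cases hij : i = j
  · simp [hij, pa_self, dist4]
  rw [pa, if_pos hij]
  refine (fib_W hij F).trans (le_of_eq (sum_congr rfl fun k _ => sum_congr rfl fun l _ => ?_))
  split_ifs with hd
  · rw [← sum_subset (subset_univ (realizations d))]
    · refine sum_congr rfl fun G hG => ?_
      rw [WW, hFa, hFa, if_pos hG, if_pos ((tau_real hd).2 hG)]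
    · intro G _ hG
      rw [WW, hFa, hFa, if_neg hG, if_neg fun h => hG ((tau_real hd).1 h)]; simp
  · rfl

end Crest.Agent.H7.Sw
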