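import Mathlib
import Crest.Agent.H7.SwConn

set_option autoImplicit false

open Finset

namespace Crest.Agent.H7.Sw

open Crest.SwitchChain

variable {n : ℕ}

/-- a two-edge matching -/
def MM (a b c d : Fin n) : Gr n := univ.filter fun e => e.1 = s(a, b) ∨ e.1 = s(c, d)

lemma adj_MM {a b c d u w : Fin n} (huw : u ≠ w) : adj (MM a b c d) u w ↔
    ((u = a ∧ w = b) ∨ (u = b ∧ w = a)) ∨ ((u = c ∧ w = d) ∨ (u = d ∧ w = c)) := by
  rw [← mem_iff_adj (e := ⟨s(u, w), by simpa using huw⟩) rfl]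
  simp [MM]

lemma mem_pm {S : Finset (Fin n)} {F : Gr n} : F ∈ pmSet S ↔
    F.card = 2 ∧ (∀ u w, adj F u w → u ∈ S) ∧ ∀ v ∈ S, (nb F v).card = 1 := by
  simp only [pmSet, mem_filter, mem_powersetCard, subset_univ, true_and, ← deg_eq, deg]
  refine and_congr_right fun _ => and_congr_left fun _ => ⟨fun h u w ⟨e, he, he'⟩ => h e he u (by simp [he']),
    fun h e he v hv => ?_⟩
  obtain ⟨w, hw⟩ := Sym2.mem_iff_exists.1 hv
  exact h v w ⟨e, he, hw⟩

lemma MM_mem {a b c d : Fin n} (hd : dist4 a b c d) {S : Finset (Fin n)}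
    (hS : ∀ v, v ∈ S ↔ v = a ∨ v = b ∨ v = c ∨ v = d) : MM a b c d ∈ pmSet S := by
  obtain ⟨d1, d2, d3, d4, d5, d6⟩ := hd
  rw [mem_pm]
  refine ⟨card_eq_two.2 ⟨⟨s(a, b), by simpa using d1⟩, ⟨s(c, d), by simpa using d6⟩, ?_, ?_⟩,
    fun u w h => ?_, fun v hv => ?_⟩
  · simp [d2, d3]
  · ext e; simp [MM, Subtype.ext_iff]
  · rw [adj_MM (adj_ne h)] at h
    grind
  · have : ∀ w, adj (MM a b c d) v w ↔
        ((v = a ∧ w = b) ∨ (v = b ∧ w = a)) ∨ ((v = c ∧ w = d) ∨ (v = d ∧ w = c)) := fun w => by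
      by_cases h : v = w
      · have := adj_irrefl (MM a b c d) v; grind
      · exact adj_MM h
    rw [card_eq_one]
    rcases (hS v).1 hv with rfl | rfl | rfl | rfl
    · exact ⟨b, by ext w; rw [mem_nb, this, mem_singleton]; grind⟩
    · exact ⟨a, by ext w; rw [mem_nb, this, mem_singleton]; grind⟩
    · exact ⟨d, by ext w; rw [mem_nb, this, mem_singleton]; grind⟩
    · exact ⟨c, by ext w; rw [mem_nb, this, mem_singleton]; grind⟩

lemma pm_eq {a b c d : Fin n} (hd : dist4 a b c d) {S : Finset (Fin n)}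
    (hS : ∀ v, v ∈ S ↔ v = a ∨ v = b ∨ v = c ∨ v = d) {F : Gr n} (hF : F ∈ pmSet S)
    (hab : adj F a b) : F = MM a b c d := by
  obtain ⟨d1, d2, d3, d4, d5, d6⟩ := hd
  obtain ⟨-, h1, h2⟩ := mem_pm.1 hF
  have h3 : ∀ v ∈ S, ∀ w w', adj F v w → adj F v w' → w = w' := fun v hv w w' h h' =>
    card_le_one.1 (h2 v hv).le w (mem_nb.2 h) w' (mem_nb.2 h')
  have ka : ∀ w, adj F a w → w = b := fun w h => h3 a (by simp [hS]) _ _ h hab
  have kb : ∀ w, adj F b w → w = a := fun w h => h3 b (by simp [hS]) _ _ h (adj_comm.1 hab)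
  have hcd : adj F c d := by
    obtain ⟨w, hw⟩ := card_pos.1 (show 0 < (nb F c).card by rw [h2 c (by simp [hS])]; norm_num)
    rw [mem_nb] at hw
    have hw' := adj_comm.1 hw
    rcases (hS w).1 (h1 _ _ hw') with rfl | rfl | rfl | rfl
    · exact absurd (ka _ hw') d4.symm
    · exact absurd (kb _ hw') d2.symm
    · exact absurd hw (adj_irrefl _ _)
    · exact hw
  have kc : ∀ w, adj F c w → w = d := fun w h => h3 c (by simp [hS]) _ _ h hcd
  have kd : ∀ w, adj F d w → w = c := fun w h => h3 d (by simp [hS]) _ _ h (adj_comm.1 hcd)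
  refine gr_ext fun u w huw => ?_
  rw [adj_MM huw]
  constructor
  · intro h
    rcases (hS u).1 (h1 _ _ h) with rfl | rfl | rfl | rfl
    · simp [ka _ h]
    · simp [kb _ h]
    · simp [kc _ h]
    · simp [kd _ h]
  · rintro ((⟨rfl, rfl⟩ | ⟨rfl, rfl⟩) | (⟨rfl, rfl⟩ | ⟨rfl, rfl⟩))
    exacts [hab, adj_comm.1 hab, hcd, adj_comm.1 hcd]

lemma MM_disj {a b c d : Fin n} (hd : dist4 a b c d) : Disjoint (MM a b c d) (MM a c b d) ∧
    Disjoint (MM a b c d) (MM a d b c) ∧ Disjoint (MM a c b d) (MM a d b c) := by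
  obtain ⟨d1, d2, d3, d4, d5, d6⟩ := hd
  refine ⟨?_, ?_, ?_⟩ <;> rw [disjoint_left] <;> intro e h h' <;>
    simp only [MM, mem_filter, mem_univ, true_and] at h h' <;>
    rcases h with h | h <;> rw [h] at h' <;> simp only [Sym2.eq_iff] at h' <;> grind

lemma pm_four {S : Finset (Fin n)} (hS : S.card = 4) :
    (pmSet S).card = 3 ∧ ∀ F ∈ pmSet S, ∀ F' ∈ pmSet S, F' ≠ F → Disjoint F F' := by
  obtain ⟨a, b, c, d, d1, d2, d3, d4, d5, d6, rfl⟩ := card_eq_four.1 hS
  have hd : dist4 a b c d := ⟨d1, d2, d3, d4, d5, d6⟩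
  have hd' : dist4 a c b d := ⟨d2, d1, d3, d4.symm, d6, d5⟩
  have hd'' : dist4 a d b c := ⟨d3, d1, d2, d5.symm, d6.symm, d4⟩
  have s1 : ∀ v, v ∈ ({a, b, c, d} : Finset (Fin n)) ↔ v = a ∨ v = b ∨ v = c ∨ v = d := by simp
  have s2 : ∀ v, v ∈ ({a, b, c, d} : Finset (Fin n)) ↔ v = a ∨ v = c ∨ v = b ∨ v = d := by
    intro v; rw [s1]; tauto
  have s3 : ∀ v, v ∈ ({a, b, c, d} : Finset (Fin n)) ↔ v = a ∨ v = d ∨ v = b ∨ v = c := by
    intro v; rw [s1]; tauto
  have m1 := MM_mem hd s1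
  have m2 := MM_mem hd' s2
  have m3 := MM_mem hd'' s3
  have e : pmSet {a, b, c, d} = {MM a b c d, MM a c b d, MM a d b c} := by
    ext F
    simp only [mem_insert, mem_singleton]
    refine ⟨fun hF => ?_, by rintro (rfl | rfl | rfl) <;> assumption⟩
    obtain ⟨-, h1, h2⟩ := mem_pm.1 hF
    obtain ⟨w, hw⟩ := card_pos.1 (show 0 < (nb F a).card by rw [h2 a (by simp)]; norm_num)
    rw [mem_nb] at hw
    rcases (s1 w).1 (h1 _ _ (adj_comm.1 hw)) with rfl | rfl | rfl | rfl
    · exact absurd hw (adj_irrefl _ _)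
    · exact Or.inl (pm_eq hd s1 hF hw)
    · exact Or.inr (Or.inl (pm_eq hd' s2 hF hw))
    · exact Or.inr (Or.inr (pm_eq hd'' s3 hF hw))
  obtain ⟨j1, j2, j3⟩ := MM_disj hd
  have ne : ∀ F F' : Gr n, F ∈ pmSet {a, b, c, d} → Disjoint F F' → F ≠ F' := by
    rintro F F' hF h rfl
    have := (mem_pm.1 hF).1
    rw [disjoint_self.1 h] at this
    simp at this
  refine ⟨?_, ?_⟩
  · rw [e]
    exact card_eq_three.2 ⟨_, _, _, ne _ _ m1 j1, ne _ _ m1 j2, ne _ _ m2 j3, rfl⟩
  · rw [e]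
    simp only [mem_insert, mem_singleton]
    rintro F (rfl | rfl | rfl) F' (rfl | rfl | rfl) h
    exacts [absurd rfl h, j1, j2, j1.symm, absurd rfl h, j3, j2.symm, j3.symm, absurd rfl h]

lemma sr_symm {E E' F F' : Gr n} (hF : Disjoint F F') (hE : E ≠ E')
    (h : switchResult E F F' = E') : switchResult E' F' F = E := by
  unfold switchResult at h ⊢
  split_ifs at h with h1
  · subst h
    rw [if_pos ⟨subset_union_right, by
      rw [disjoint_union_right]; exact ⟨disjoint_sdiff, hF⟩⟩]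
    ext e
    have : e ∈ F → e ∈ E := fun h => h1.1 h
    have : e ∈ F' → e ∉ E := fun h => disjoint_left.1 h1.2 h
    simp only [mem_union, mem_sdiff]
    tauto
  · exact absurd h hE

lemma pc_symm (E E' : Gr n) : proposalCount E E' = proposalCount E' E := by
  by_cases hE : E = E'
  · rw [hE]
  unfold proposalCount
  refine sum_congr rfl fun S hS => ?_
  have h4 := (pm_four (mem_powersetCard.1 hS).2).2
  rw [sum_comm' (t' := pmSet S) (s' := fun F' => (pmSet S).erase F') (by
    intro F F'; simp only [mem_erase]; tauto)]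
  refine sum_congr rfl fun F hF => sum_congr rfl fun F' hF' => ?_
  have hd := h4 F hF F' (mem_erase.1 hF').2 (mem_erase.1 hF').1
  exact if_congr ⟨sr_symm hd.symm hE, sr_symm hd (Ne.symm hE)⟩ rfl rfl

lemma ker_symm (E E' : Gr n) : kernel n E E' = kernel n E' E := by
  simp only [kernel, pc_symm E E', eq_comm (a := E)]

lemma ker_lazy (E E' : Gr n) : (if E = E' then 1 / 2 else 0) ≤ kernel n E E' := by
  unfold kernel
  exact le_add_of_nonneg_right (by positivity)

lemma sr_real {d : Fin n → ℕ} {E F F' : Gr n} {S : Finset (Fin n)} (hF : F ∈ pmSet S)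
    (hF' : F' ∈ pmSet S) (hE : E ∈ realizations d) : switchResult E F F' ∈ realizations d := by
  unfold switchResult
  split_ifs with h
  · simp only [realizations, mem_filter, mem_univ, true_and] at hE ⊢
    intro v
    have key : ∀ X ∈ pmSet S, deg X v = if v ∈ S then 1 else 0 := by
      intro X hX
      obtain ⟨-, h1, h2⟩ := mem_pm.1 hX
      rw [deg_eq]
      split_ifs with hv
      · exact h2 v hv
      · exact card_eq_zero.2 (eq_empty_of_forall_notMem fun w hw => hv (h1 _ _ (mem_nb.1 hw)))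
    have a1 : deg (E \ F ∪ F') v = deg (E \ F) v + deg F' v := by
      unfold deg
      rw [filter_union, card_union_of_disjoint]
      exact disjoint_filter_filter (h.2.symm.mono_left sdiff_subset)
    have a2 : deg E v = deg (E \ F) v + deg F v := by
      unfold deg
      rw [← card_union_of_disjoint (disjoint_filter_filter sdiff_disjoint), ← filter_union,
        sdiff_union_of_subset h.1]
    rw [a1, ← hE v, a2, key F hF, key F' hF']
  · exact hE

/-- sum over the proposals -/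
def props (X : Gr n → Gr n → ℝ) : ℝ :=
  ∑ S ∈ (univ : Finset (Fin n)).powersetCard 4, ∑ F ∈ pmSet S, ∑ F' ∈ (pmSet S).erase F, X F F'

lemma ker_apply {d : Fin n → ℕ} {E : Gr n} (hE : E ∈ realizations d) (g : Gr n → ℝ) :
    ∑ E' ∈ realizations d, kernel n E E' * g E' =
      g E / 2 + props (fun F F' => g (switchResult E F F')) / (12 * (n.choose 4 : ℝ)) := by
  simp only [kernel, add_mul, sum_add_distrib, ite_mul, zero_mul, sum_ite_eq, hE, if_true,
    div_mul_eq_mul_div, ← sum_div, one_mul]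
  congr 2
  simp only [proposalCount, Nat.cast_sum, Nat.cast_ite, Nat.cast_one, Nat.cast_zero, sum_mul, ite_mul,
    one_mul, zero_mul, props]
  rw [sum_comm]
  refine sum_congr rfl fun S _ => ?_
  rw [sum_comm]
  refine sum_congr rfl fun F hF => ?_
  rw [sum_comm]
  refine sum_congr rfl fun F' hF' => ?_
  rw [sum_ite_eq, if_pos (sr_real hF (mem_erase.1 hF').2 hE)]

lemma ker_zero {d : Fin n → ℕ} {E E' : Gr n} (hE : E ∈ realizations d) (hE' : E' ∉ realizations d) :
    kernel n E E' = 0 := by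
  have : proposalCount E E' = 0 :=
    sum_eq_zero fun S _ => sum_eq_zero fun F hF => sum_eq_zero fun F' hF' =>
      if_neg fun h => hE' (by rw [← h]; exact sr_real hF (mem_erase.1 hF').2 hE)
  rw [kernel, this, if_neg fun h : E = E' => hE' (h ▸ hE)]; simp

lemma ker_row (hn : 4 ≤ n) {d : Fin n → ℕ} {E : Gr n} (hE : E ∈ realizations d) :
    ∑ E' ∈ realizations d, kernel n E E' = 1 := by
  have := ker_apply hE fun _ => 1
  simp only [mul_one] at this
  have hC : (0:ℝ) < n.choose 4 := by exact_mod_cast Nat.choose_pos hn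
  have e : props (fun _ _ : Gr n => (1:ℝ)) = 6 * n.choose 4 := by
    unfold props
    rw [sum_congr rfl fun S hS => show _ = (6:ℝ) from ?_]
    · simp [mul_comm]
    have h3 := (pm_four (mem_powersetCard.1 hS).2).1
    rw [sum_congr rfl fun F hF => show _ = (2:ℝ) by simp [card_erase_of_mem hF, h3]]
    simp [h3]; norm_num
  rw [this, e]
  field_simp
  norm_num

lemma tau_le {i j k l : Fin n} (hd : dist4 i j k l) (f : Gr n → ℝ) (G : Gr n) :
    (f G - f (tau i j k l G)) ^ 2 ≤ (f G - f (switchResult G (MM i k j l) (MM i l j k))) ^ 2 +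
      (f G - f (switchResult G (MM i l j k) (MM i k j l))) ^ 2 := by
  have key : ∀ k l, dist4 i j k l → adj G i k → adj G j l → ¬ adj G i l → ¬ adj G j k →
      ∀ u w, u ≠ w → (adj (switchResult G (MM i k j l) (MM i l j k)) u w ↔
        (slot i j k l u w ↔ ¬ adj G u w)) := by
    intro k l hd a1 a2 a3 a4 u w huw
    obtain ⟨d1, d2, d3, d4, d5, d6⟩ := hd
    have c1 : MM i k j l ⊆ G := fun e he => by
      rcases (mem_filter.1 he).2 with h | h <;> rwa [mem_iff_adj h]
    have c2 : Disjoint (MM i l j k) G := disjoint_left.2 fun e he => by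
      rcases (mem_filter.1 he).2 with h | h <;> rwa [mem_iff_adj h]
    rw [switchResult, if_pos ⟨c1, c2⟩, ← mem_iff_adj (e := ⟨s(u, w), by simpa using huw⟩) rfl,
      mem_union, mem_sdiff, mem_iff_adj (u := u) (w := w) rfl, mem_iff_adj (u := u) (w := w) rfl,
      mem_iff_adj (u := u) (w := w) rfl, adj_MM huw, adj_MM huw, slot]
    have := @adj_comm _ G u w
    grind
  by_cases h : DD i j k l G ∧ DD k l i j G
  · have h' := h
    simp only [DD, adj_comm (u := k), adj_comm (u := l)] at h'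
    by_cases hik : adj G i k
    · rw [show tau i j k l G = switchResult G (MM i k j l) (MM i l j k) from gr_ext fun u w huw => by
        rw [adj_tau h huw, key k l hd hik (by tauto) (by tauto) (by tauto) u w huw]]
      exact le_add_of_nonneg_right (sq_nonneg _)
    · rw [show tau i j k l G = switchResult G (MM i l j k) (MM i k j l) from gr_ext fun u w huw => by
        rw [adj_tau h huw, key l k (by unfold dist4 at *; grind) (by tauto) (by tauto) hik (by tauto) u w huw,
          slot, slot, or_comm (a := w = k), or_comm (a := u = k)]]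
      exact le_add_of_nonneg_left (sq_nonneg _)
  · rw [tau_of_not h, sub_self, zero_pow two_ne_zero]; positivity

lemma sum_le_props (i j : Fin n) (X : Gr n → Gr n → ℝ) (hX : ∀ F F', 0 ≤ X F F') :
    ∑ k, ∑ l, (if dist4 i j k l then X (MM i k j l) (MM i l j k) else 0) ≤ props X := by
  classical
  rw [← Fintype.sum_prod_type', ← sum_filter, props]
  simp only [sum_sigma']
  set φ : Fin n × Fin n → (Σ _ : Finset (Fin n), Σ _ : Gr n, Gr n) :=
    fun p => ⟨{i, j, p.1, p.2}, MM i p.1 j p.2, MM i p.2 j p.1⟩ with hφ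
  have hinj : Set.InjOn φ (univ.filter fun p : Fin n × Fin n => dist4 i j p.1 p.2) := by
    rintro ⟨k, l⟩ h ⟨k', l'⟩ h' e
    simp only [coe_filter, mem_univ, true_and, Set.mem_ofPred_eq, dist4] at h h'
    have e' : MM i k j l = MM i k' j l' := congrArg (fun p => p.2.1) e
    have a1 : adj (MM i k' j l') i k := by rw [← e', adj_MM h.2.1]; simp
    have a2 : adj (MM i k' j l') j l := by rw [← e', adj_MM h.2.2.2.2.1]; simp
    rw [adj_MM h.2.1] at a1
    rw [adj_MM h.2.2.2.2.1] at a2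
    grind
  refine le_trans (le_of_eq (sum_image (f := fun p => X p.2.1 p.2.2) hinj).symm)
    (sum_le_sum_of_subset_of_nonneg (fun p hp => ?_) fun _ _ _ => hX _ _)
  obtain ⟨⟨k, l⟩, h, rfl⟩ := mem_image.1 hp
  have hd : dist4 i j k l := (mem_filter.1 h).2
  obtain ⟨d1, d2, d3, d4, d5, d6⟩ := hd
  simp only [mem_sigma, hφ, mem_powersetCard, subset_univ, true_and, mem_erase]
  refine ⟨card_eq_four.2 ⟨_, _, _, _, d1, d2, d3, d4, d5, d6, rfl⟩,
    MM_mem ⟨d2, d1, d3, d4.symm, d6, d5⟩ (fun v => by simp only [mem_insert, mem_singleton]; tauto),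
    fun e => ?_,
    MM_mem ⟨d3, d1, d2, d5.symm, d6.symm, d4⟩ (fun v => by simp only [mem_insert, mem_singleton]; tauto)⟩
  have a1 : adj (MM i l j k) i k := by rw [e, adj_MM d2]; simp
  rw [adj_MM d2] at a1
  grind

lemma dirichlet (hn : 4 ≤ n) (d : Fin n → ℕ) (f : Gr n → ℝ) :
    ∑ G ∈ realizations d, f G * (f G - ∑ G' ∈ realizations d, kernel n G G' * f G') =
      props (fun F F' => ∑ G ∈ realizations d, (f G - f (switchResult G F F')) ^ 2) /
        (24 * (n.choose 4 : ℝ)) := by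
  have a : ∑ G ∈ realizations d, ∑ G' ∈ realizations d, kernel n G G' * (f G - f G') ^ 2 =
      props (fun F F' => ∑ G ∈ realizations d, (f G - f (switchResult G F F')) ^ 2) /
        (12 * (n.choose 4 : ℝ)) := by
    rw [sum_congr rfl fun G hG => ker_apply hG fun G' => (f G - f G') ^ 2]
    simp only [sub_self, ne_eq, OfNat.ofNat_ne_zero, not_false_eq_true, zero_pow, zero_div, zero_add,
      ← sum_div, props]
    congr 1
    rw [sum_comm]
    refine sum_congr rfl fun S _ => ?_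
    rw [sum_comm]
    exact sum_congr rfl fun F _ => sum_comm
  have b : ∑ G ∈ realizations d, ∑ G' ∈ realizations d, kernel n G G' * f G ^ 2 =
      ∑ G ∈ realizations d, f G ^ 2 :=
    sum_congr rfl fun G hG => by rw [← sum_mul, ker_row hn hG, one_mul]
  have c : ∑ G ∈ realizations d, ∑ G' ∈ realizations d, kernel n G G' * f G' ^ 2 =
      ∑ G ∈ realizations d, f G ^ 2 := by
    rw [sum_comm, ← b]; simp only [ker_symm]
  have e : ∑ G ∈ realizations d, ∑ G' ∈ realizations d, kernel n G G' * (f G - f G') ^ 2 =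
      ∑ G ∈ realizations d, ∑ G' ∈ realizations d, kernel n G G' * f G ^ 2 +
      ∑ G ∈ realizations d, ∑ G' ∈ realizations d, kernel n G G' * f G' ^ 2 -
      2 * ∑ G ∈ realizations d, f G * ∑ G' ∈ realizations d, kernel n G G' * f G' := by
    simp only [mul_sum, ← sum_add_distrib, ← sum_sub_distrib]
    exact sum_congr rfl fun _ _ => sum_congr rfl fun _ _ => by ring
  rw [b, c, a] at e
  simp only [mul_sub, sum_sub_distrib, ← sq]
  rw [show (24:ℝ) * n.choose 4 = 12 * n.choose 4 * 2 by ring, ← div_div]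
  linarith

theorem poincare0 (hn : 4 ≤ n) (d : Fin n → ℕ) (f : Gr n → ℝ) (c : ℝ)
    (hf : ∑ G ∈ realizations d, (f G - c) = 0) :
    ∑ G ∈ realizations d, (f G - c) ^ 2 ≤ 24 * (n:ℝ) ^ 2 * (n.choose 4 : ℝ) *
      ∑ G ∈ realizations d, f G * (f G - ∑ G' ∈ realizations d, kernel n G G' * f G') := by
  have hC : (0:ℝ) < n.choose 4 := by exact_mod_cast Nat.choose_pos hn
  rw [dirichlet hn]
  set X : Gr n → Gr n → ℝ := fun F F' => ∑ G ∈ realizations d, (f G - f (switchResult G F F')) ^ 2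
    with hX
  have hX0 : ∀ F F', 0 ≤ X F F' := fun _ _ => by positivity
  have hP : 0 ≤ props X := sum_nonneg fun _ _ => sum_nonneg fun _ _ => sum_nonneg fun _ _ => hX0 _ _
  have h := poincare_tau d _ hf
  have h2 : ∀ i j : Fin n, ∑ k, ∑ l, (if dist4 i j k l then
      ∑ G ∈ realizations d, (f G - c - (f (tau i j k l G) - c)) ^ 2 else 0) ≤ 2 * props X := by
    intro i j
    have a := sum_le_props i j X hX0
    have b := a
    rw [sum_comm] at b
    rw [two_mul]
    refine le_trans ?_ (add_le_add a b)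
    simp only [← sum_add_distrib]
    refine sum_le_sum fun k _ => sum_le_sum fun l _ => ?_
    by_cases hd : dist4 i j k l
    · rw [if_pos hd, if_pos hd, if_pos (by unfold dist4 at *; grind), hX, ← sum_add_distrib]
      refine sum_le_sum fun G _ => ?_
      rw [sub_sub_sub_cancel_right]
      exact tau_le hd f G
    · rw [if_neg hd, if_neg hd, if_neg (by unfold dist4 at *; grind), add_zero]
  have h3 := h.trans (sum_le_sum fun i _ => sum_le_sum fun j _ => h2 i j)
  simp only [sum_const, card_univ, Fintype.card_fin, nsmul_eq_mul] at h3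
  rw [show 24 * (n:ℝ) ^ 2 * (n.choose 4 : ℝ) * (props X / (24 * n.choose 4)) = n ^ 2 * props X by
    field_simp]
  nlinarith [mul_nonneg (sq_nonneg (n:ℝ)) hP]

lemma mix_step {A : Type*} [DecidableEq A] (Ω : Finset A) (K : A → A → ℝ) (hs : ∀ x y, K x y = K y x)
    (hl : ∀ x y, (if x = y then 1 / 2 else 0) ≤ K x y) (hr : ∀ x ∈ Ω, ∑ y ∈ Ω, K x y = 1) (g : A → ℝ) :
    ∑ x ∈ Ω, (∑ y ∈ Ω, K x y * g y) ^ 2 ≤ ∑ x ∈ Ω, g x * ∑ y ∈ Ω, K x y * g y := by
  set Q : A → A → ℝ := fun x y => 2 * K x y - if x = y then 1 else 0 with hQ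
  have Q0 : ∀ x y, 0 ≤ Q x y := fun x y => by
    have := hl x y
    simp only [hQ]
    split_ifs at this ⊢ <;> linarith
  have Qs : ∀ x y, Q x y = Q y x := fun x y => by simp only [hQ, hs x y, eq_comm (a := x)]
  have Qr : ∀ x ∈ Ω, ∑ y ∈ Ω, Q x y = 1 := fun x hx => by
    simp only [hQ, sum_sub_distrib, ← mul_sum, hr x hx, sum_ite_eq, hx, if_true]; norm_num
  have Qa : ∀ x ∈ Ω, ∑ y ∈ Ω, Q x y * g y = 2 * ∑ y ∈ Ω, K x y * g y - g x := fun x hx => by
    simp only [hQ, sub_mul, sum_sub_distrib, mul_assoc, ← mul_sum, ite_mul, one_mul, zero_mul,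
      sum_ite_eq, hx, if_true]
  have J : ∑ x ∈ Ω, (∑ y ∈ Ω, Q x y * g y) ^ 2 ≤ ∑ x ∈ Ω, g x ^ 2 := by
    calc _ ≤ ∑ x ∈ Ω, ∑ y ∈ Ω, Q x y * g y ^ 2 := by
          refine sum_le_sum fun x hx => ?_
          set m := ∑ y ∈ Ω, Q x y * g y with hm
          have : 0 ≤ ∑ y ∈ Ω, Q x y * (g y - m) ^ 2 := sum_nonneg fun y _ => mul_nonneg (Q0 x y) (sq_nonneg _)
          have e : ∑ y ∈ Ω, Q x y * (g y - m) ^ 2 =
              ∑ y ∈ Ω, Q x y * g y ^ 2 - 2 * m * ∑ y ∈ Ω, Q x y * g y + m ^ 2 * ∑ y ∈ Ω, Q x y := by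
            simp only [mul_sum, ← sum_sub_distrib, ← sum_add_distrib]
            exact sum_congr rfl fun _ _ => by ring
          rw [e, Qr x hx, ← hm] at this
          nlinarith
      _ = _ := by
          rw [sum_comm]
          exact sum_congr rfl fun y hy => by simp only [Qs _ y, ← sum_mul, Qr y hy, one_mul]
  rw [sum_congr rfl fun x hx => by rw [Qa x hx]] at J
  have : ∑ x ∈ Ω, (2 * ∑ y ∈ Ω, K x y * g y - g x) ^ 2 = 4 * ∑ x ∈ Ω, (∑ y ∈ Ω, K x y * g y) ^ 2
      - 4 * ∑ x ∈ Ω, g x * ∑ y ∈ Ω, K x y * g y + ∑ x ∈ Ω, g x ^ 2 := by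
    rw [mul_sum, mul_sum, ← sum_sub_distrib, ← sum_add_distrib]
    exact sum_congr rfl fun _ _ => by ring
  linarith

lemma mixing {A : Type*} [Fintype A] [DecidableEq A] (Ω : Finset A) (K : Matrix A A ℝ)
    (hs : ∀ x y, K x y = K y x) (hl : ∀ x y, (if x = y then 1 / 2 else 0) ≤ K x y)
    (hr : ∀ x ∈ Ω, ∑ y ∈ Ω, K x y = 1) (hz : ∀ x ∈ Ω, ∀ y ∉ Ω, K x y = 0) {c : ℝ} (hc : 1 ≤ c)
    (hp : ∀ g : A → ℝ, ∑ x ∈ Ω, g x = 0 →
      ∑ x ∈ Ω, g x ^ 2 ≤ c * ∑ x ∈ Ω, g x * (g x - ∑ y ∈ Ω, K x y * g y))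
    {x : A} (hx : x ∈ Ω) (t : ℕ) :
    (∑ y, |(K ^ t) x y - unifOn Ω y|) ^ 2 ≤ Ω.card * (1 - 1 / c) ^ t := by
  have hΩ : (0:ℝ) < Ω.card := by exact_mod_cast card_pos.2 ⟨x, hx⟩
  have key : (∀ y ∉ Ω, (K ^ t) x y = 0) ∧ ∑ y ∈ Ω, ((K ^ t) x y - 1 / Ω.card) = 0 ∧
      ∑ y ∈ Ω, ((K ^ t) x y - 1 / Ω.card) ^ 2 ≤ (1 - 1 / c) ^ t := by
    induction t with
    | zero =>
      refine ⟨fun y hy => ?_, ?_, ?_⟩
      · rw [pow_zero, Matrix.one_apply_ne fun h : x = y => hy (h ▸ hx)]
      · simp [Matrix.one_apply, hx, hΩ.ne']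
      · have : ∀ y, ((K ^ 0) x y - 1 / Ω.card) ^ 2 =
            (if x = y then 1 - 2 / (Ω.card : ℝ) else 0) + 1 / Ω.card ^ 2 := fun y => by
          rw [pow_zero, Matrix.one_apply]; split_ifs <;> ring
        rw [sum_congr rfl fun y _ => this y]
        simp only [sum_add_distrib, sum_ite_eq, hx, if_true, sum_const, nsmul_eq_mul, pow_zero]
        have : (Ω.card : ℝ) * (1 / Ω.card ^ 2) = 1 / Ω.card := by field_simp
        have : 0 < 1 / (Ω.card : ℝ) := by positivity
        have : 2 / (Ω.card : ℝ) = 2 * (1 / Ω.card) := by ring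
        linarith
    | succ t ih =>
      obtain ⟨i1, i2, i3⟩ := ih
      have e : ∀ y, (K ^ (t + 1)) x y = ∑ z ∈ Ω, K y z * (K ^ t) x z := fun y => by
        rw [pow_succ, Matrix.mul_apply, ← sum_subset (subset_univ Ω) fun z _ hz => by rw [i1 z hz, zero_mul]]
        exact sum_congr rfl fun z _ => by rw [hs, mul_comm]
      set g : A → ℝ := fun y => (K ^ t) x y - 1 / Ω.card with hg
      have e2 : ∀ y ∈ Ω, (K ^ (t + 1)) x y - 1 / Ω.card = ∑ z ∈ Ω, K y z * g z := fun y hy => by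
        simp only [e, hg, mul_sub, sum_sub_distrib, ← sum_mul, hr y hy, one_mul]
      refine ⟨fun y hy => ?_, ?_, ?_⟩
      · rw [e]
        exact sum_eq_zero fun z hz' => by rw [hs, hz z hz' y hy, zero_mul]
      · rw [sum_congr rfl e2, sum_comm, ← i2]
        exact sum_congr rfl fun z hz' => by simp only [hs _ z, ← sum_mul, hr z hz', one_mul, hg]
      · rw [sum_congr rfl fun y hy => by rw [e2 y hy]]
        have a := mix_step Ω K hs hl hr g
        have b := hp g i2
        simp only [mul_sub (g _), sum_sub_distrib, ← sq] at b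
        have c0 : 0 ≤ 1 - 1 / c := by rw [sub_nonneg, div_le_one (by linarith)]; exact hc
        have b' : ∑ x ∈ Ω, g x * ∑ y ∈ Ω, K x y * g y ≤ (1 - 1 / c) * ∑ x ∈ Ω, g x ^ 2 := by
          rw [sub_mul, one_mul, le_sub_comm, one_div, inv_mul_le_iff₀ (by linarith)]
          exact b
        calc _ ≤ _ := a.trans b'
          _ ≤ (1 - 1 / c) * (1 - 1 / c) ^ t := mul_le_mul_of_nonneg_left i3 c0
          _ = _ := by ring
  rw [← sum_subset (subset_univ Ω) fun y _ hy => by simp [key.1 y hy, unifOn, hy],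
    sum_congr rfl fun y hy => by rw [unifOn, if_pos hy]]
  refine sq_sum_le_card_mul_sum_sq.trans (mul_le_mul_of_nonneg_left ?_ hΩ.le)
  simpa only [sq_abs] using key.2.2

theorem switch_main (n : ℕ) (hn : 4 ≤ n) (d : Fin n → ℕ) (hd : (realizations d).Nonempty) :
    (∃ t : ℕ, t ≤ 2 * n ^ 8 ∧ ∀ G ∈ realizations d,
        tvDist (fun G' => (kernel n ^ t) G G') (unifOn (realizations d)) ≤ 1 / 4) ∧
      ∀ f : Finset (Edge n) → ℝ,
        ((realizations d).card : ℝ) * (∑ G ∈ realizations d, f G ^ 2) -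
            (∑ G ∈ realizations d, f G) ^ 2 ≤
          24 * (n : ℝ) ^ 2 * (n.choose 4 : ℝ) * (realizations d).card *
            ∑ G ∈ realizations d, f G * (f G - ∑ G' ∈ realizations d, kernel n G G' * f G') := by
  have hΩ : (0:ℝ) < (realizations d).card := by exact_mod_cast card_pos.2 hd
  have hn' : (4:ℝ) ≤ n := by exact_mod_cast hn
  refine ⟨⟨_, le_rfl, fun G hG => ?_⟩, fun f => ?_⟩
  · have hC : 24 * (n.choose 4 : ℝ) ≤ n ^ 4 := by
      have := Nat.choose_le_pow_div (α := ℝ) 4 n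
      norm_num [Nat.factorial] at this
      linarith
    have h6 : (1:ℝ) ≤ n ^ 6 := one_le_pow₀ (by linarith)
    have h := mixing (realizations d) (kernel n) ker_symm ker_lazy (fun x => ker_row hn)
      (fun x hx y hy => ker_zero hx hy) h6 (fun g hg => by
        have h := poincare0 hn d g 0 (by simpa using hg)
        simp only [sub_zero] at h
        refine h.trans (mul_le_mul_of_nonneg_right (by nlinarith [sq_nonneg (n:ℝ)]) ?_)
        rw [dirichlet hn]
        exact div_nonneg (sum_nonneg fun _ _ => sum_nonneg fun _ _ => sum_nonneg fun _ _ => by positivity)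
          (by positivity)) hG (2 * n ^ 8)
    have c1 : ((realizations d).card : ℝ) ≤ 2 ^ (n ^ 2) := by
      have : (realizations d).card ≤ 2 ^ (n ^ 2) := by
        refine (card_le_univ _).trans ?_
        rw [Fintype.card_finset, Sym2.card_subtype_not_diag, Fintype.card_fin]
        exact Nat.pow_le_pow_right (by norm_num) (Nat.choose_le_pow _ _)
      exact_mod_cast this
    have c2 : (1 - 1 / (n:ℝ) ^ 6) ^ (2 * n ^ 8) ≤ (1 / 4) ^ (n ^ 2) := by
      have c0 : 0 ≤ 1 - 1 / (n:ℝ) ^ 6 := by rw [sub_nonneg, div_le_one (by linarith)]; exact h6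
      calc _ ≤ Real.exp (-(1 / (n:ℝ) ^ 6)) ^ (2 * n ^ 8) :=
            pow_le_pow_left₀ c0 (by linarith [Real.add_one_le_exp (-(1 / (n:ℝ) ^ 6))]) _
        _ = Real.exp (-1) ^ (2 * n ^ 2) := by
            rw [← Real.exp_nat_mul, ← Real.exp_nat_mul]; congr 1; push_cast; field_simp
        _ ≤ (1 / 2) ^ (2 * n ^ 2) := by
            refine pow_le_pow_left₀ (Real.exp_pos _).le ?_ _
            rw [Real.exp_neg, one_div]
            exact inv_anti₀ (by norm_num) (by linarith [Real.add_one_le_exp 1])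
        _ = _ := by rw [pow_mul]; norm_num
    have c3 : (2:ℝ) ^ (n ^ 2) * (1 / 4) ^ (n ^ 2) ≤ (1 / 2) ^ 2 := by
      rw [← mul_pow]
      norm_num
      calc _ ≤ (1 / 2 : ℝ) ^ 2 := pow_le_pow_of_le_one (by norm_num) (by norm_num) (by nlinarith)
        _ = _ := by norm_num
    have c4 := h.trans ((mul_le_mul c1 c2 (pow_nonneg (by
      rw [sub_nonneg, div_le_one (by linarith)]; exact h6) _) (by positivity)).trans c3)
    have := pow_le_pow_left₀ (by norm_num : (0:ℝ) ≤ 1 / 2) le_rfl 2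
    have c5 := (pow_le_pow_iff_left₀ (by positivity) (by norm_num) two_ne_zero).1 c4
    unfold tvDist
    linarith
  · have h := poincare0 hn d f ((∑ G ∈ realizations d, f G) / (realizations d).card) (by
      rw [sum_sub_distrib, sum_const, nsmul_eq_mul, mul_div_cancel₀ _ hΩ.ne', sub_self])
    set s := ∑ G ∈ realizations d, f G with hs
    have e : ∑ G ∈ realizations d, (f G - s / (realizations d).card) ^ 2 =
        ∑ G ∈ realizations d, f G ^ 2 - s ^ 2 / (realizations d).card := by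
      simp only [sub_sq, sum_add_distrib, sum_sub_distrib, ← sum_mul, ← mul_sum, ← hs, sum_const,
        nsmul_eq_mul]
      field_simp
      ring
    rw [e] at h
    have := mul_le_mul_of_nonneg_left h hΩ.le
    rw [mul_sub, mul_div_cancel₀ _ hΩ.ne'] at this
    linarith

end Crest.Agent.H7.Sw
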