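import Crest.Agent.H7.TkTrC

/-! Row 186: `transStmt`. -/

set_option autoImplicit false
set_option linter.unusedSectionVars false

noncomputable section
namespace Crest.Agent.H7.Tk
open MulOpposite Finsupp Crest.Agent.H6.Tk Crest.Agent.Lead.Tk TrivSqZeroExt

section pm
variable {R : Type} [Ring R] {I J : Type}

/-- partial maps of generators -/
def pm (f : I → Option J) (ε : I → R) : (I →₀ R) →ₗ[R] (J →₀ R) :=
  Finsupp.linearCombination R fun i => (f i).elim 0 fun j => single j (ε i)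

lemma pm_none {f : I → Option J} (ε : I → R) {i : I} (h : f i = none) (r : R) :
    pm f ε (single i r) = 0 := by simp [pm, h]

lemma pm_some {f : I → Option J} (ε : I → R) {i : I} {j : J} (h : f i = some j) (r : R) :
    pm f ε (single i r) = single j (r * ε i) := by simp [pm, h]

lemma isM_pm {f : I → Option J} {dI : I → ℤ} {eI : I → R} {dJ : J → ℤ} {eJ : J → R} {n : ℤ}
    (hI : ∀ i, eI i * eI i = eI i) (h : ∀ i j, f i = some j → dJ j = dI i + n ∧ eJ j = eI i) :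
    IsM R dI eI dJ eJ n (pm f eI) := fun i j => by
  classical
  cases hf : f i with
  | none => rw [pm_none eI hf]; simp
  | some j' =>
    rw [pm_some eI hf, one_mul, Finsupp.single_apply]
    split_ifs with e
    · subst e
      exact ⟨fun hn => absurd (h i _ hf).1 hn, hI i, by rw [(h i _ hf).2]; exact hI i⟩
    · simp

/-- embedding -/
abbrev em (R : Type) [Ring R] (f : I → J) : (I →₀ R) →ₗ[R] (J →₀ R) := Finsupp.lmapDomain R R f

lemma em_single (f : I → J) (i : I) (r : R) : em R f (single i r) = single (f i) r := by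
  simp [em]

lemma pm_em_none {L : Type} {f : I → Option J} (ε : I → R) (g : L → I) (h : ∀ l, f (g l) = none) :
    pm f ε ∘ₗ em R g = 0 := ch_ext fun l j => by
  rw [LinearMap.comp_apply, em_single, pm_none ε (h l)]; rfl

lemma pm_em_some (Q : Cx R) {f : I → Option J} (ε : I → R) (g : Q.I → I) (g' : Q.I → J)
    (h : ∀ l, f (g l) = some (g' l)) (hε : ∀ l, ε (g l) = Q.ε l) :
    pm f ε ∘ₗ em R g = em R g' ∘ₗ Q.one := ch_ext fun l j => by
  rw [LinearMap.comp_apply, em_single, pm_some ε (h l), LinearMap.comp_apply, one_single, em_single, hε]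

lemma one_em (P Q : Cx R) (g : Q.I → P.I) (hε : ∀ l, P.ε (g l) = Q.ε l) :
    P.one ∘ₗ em R g = em R g ∘ₗ Q.one := ch_ext fun l j => by
  rw [LinearMap.comp_apply, em_single, one_single, LinearMap.comp_apply, one_single, em_single, hε]

end pm

section
variable {B : Type} [Ring B] {I J : Type}

lemma ρ_inl (s : Bool) (g : I → J) (x : I →₀ B) :
    ρ M s (x.sum fun j b => single (g j) (inl b : DualNumber B)) = em B (fun j => (g j, s)) x := by
  induction x using Finsupp.induction_linear with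
  | zero => simp
  | add x y hx hy =>
    rw [Finsupp.sum_add_index' (by simp) (by simp [inl_add]), map_add, hx, hy, map_add]
  | single i b =>
    rw [Finsupp.sum_single_index (by simp), ρ_single, em_single]
    cases s <;> simp

lemma ρ_inr_f (g : I → J) (x : I →₀ B) :
    ρ M false (x.sum fun j b => single (g j) (inr b : DualNumber B)) = em B (fun j => (g j, true)) x := by
  induction x using Finsupp.induction_linear with
  | zero => simp
  | add x y hx hy =>
    rw [Finsupp.sum_add_index' (by simp) (fun _ _ _ => by rw [inr_add, single_add]), map_add, hx, hy, map_add]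
  | single i b =>
    rw [Finsupp.sum_single_index (by simp), ρ_single, em_single]
    simp

lemma ρ_inr_t (g : I → J) (x : I →₀ B) :
    ρ M true (x.sum fun j b => single (g j) (inr b : DualNumber B)) = 0 := by
  induction x using Finsupp.induction_linear with
  | zero => simp
  | add x y hx hy =>
    rw [Finsupp.sum_add_index' (by simp) (fun _ _ _ => by rw [inr_add, single_add]), map_add, hx, hy, add_zero]
  | single i b =>
    rw [Finsupp.sum_single_index (by simp), ρ_single]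
    simp
end

variable {k : Type} [Field k] {B : Type} [Ring B] [Algebra k B] {m : ℕ} {X : BD k B m}

lemma hsnd (Y : PD X) (i : Y.P.I) : (Y.P.ε i).snd = 0 := by
  obtain ⟨(⟨w, i⟩ | ⟨w, i⟩), rfl⟩ := Y.e.surjective i
  · rw [Y.ε_l]; rfl
  · rw [Y.ε_r]; rfl

/-- the restricted complex -/
abbrev PY (Y : PD X) : Cx B := PB Y.P (hsnd Y)

def gl (Y : PD X) (w : ℕ) (s : Bool) (i : X.Qp.I) : (PY Y).I := (Y.e (.inl (w, i)), s)
def gr (Y : PD X) (w : ℕ) (s : Bool) (i : X.Qm.I) : (PY Y).I := (Y.e (.inr (w, i)), s)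

lemma ε_gl (Y : PD X) (w : ℕ) (s : Bool) (i : X.Qp.I) : (PY Y).ε (gl Y w s i) = X.Qp.ε i := by
  change (Y.P.ε (Y.e (.inl (w, i)))).fst = _
  rw [Y.ε_l]; rfl
lemma ε_gr (Y : PD X) (w : ℕ) (s : Bool) (i : X.Qm.I) : (PY Y).ε (gr Y w s i) = X.Qm.ε i := by
  change (Y.P.ε (Y.e (.inr (w, i)))).fst = _
  rw [Y.ε_r]; rfl
lemma deg_gl (Y : PD X) (w : ℕ) (s : Bool) (i : X.Qp.I) : (PY Y).deg (gl Y w s i) = X.Qp.deg i - w :=
  Y.deg_l w i
lemma deg_gr (Y : PD X) (w : ℕ) (s : Bool) (i : X.Qm.I) :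
    (PY Y).deg (gr Y w s i) = X.Qm.deg i + w + 1 := Y.deg_r w i

lemma d_PY (Y : PD X) (i : Y.P.I) (s : Bool) :
    (PY Y).d (single (i, s) 1) = ρ M s (Y.P.d (single i 1)) := by
  have := res_single (Θ := M) Y.P.d i s (1 : B)
  rw [one_smul] at this
  exact this

lemma lext {R I N : Type} [Ring R] [AddCommGroup N] [Module R N] {f g : (I →₀ R) →ₗ[R] N}
    (h : ∀ i, f (single i 1) = g (single i 1)) : f = g :=
  Finsupp.lhom_ext' fun i => LinearMap.ext_ring (h i)

lemma d1 (Y : PD X) : (PY Y).d ∘ₗ em B (gl Y 0 false) =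
    em B (gl Y 0 false) ∘ₗ X.Qp.d + em B (gr Y 0 true) ∘ₗ X.φ := lext fun i => by
  rw [LinearMap.comp_apply, em_single]
  refine (d_PY Y _ _).trans ?_
  rw [Y.d_l0, map_add, ρ_inl, ρ_inr_f]
  rfl

lemma d2 (Y : PD X) (w : ℕ) : (PY Y).d ∘ₗ em B (gl Y w true) = em B (gl Y w true) ∘ₗ X.Qp.d :=
  lext fun i => by
    rw [LinearMap.comp_apply, em_single]
    refine (d_PY Y _ _).trans ?_
    cases w with
    | zero =>
      rw [Y.d_l0, map_add, ρ_inl, ρ_inr_t, add_zero]
      rfl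
    | succ w =>
      rw [Y.d_l, map_add, ρ_inl, ρ_single]
      simp only [M_tf, M_tt, fst_inr, single_zero, add_zero]
      rfl

lemma d3 (Y : PD X) (w : ℕ) : (PY Y).d ∘ₗ em B (gl Y (w + 1) false) =
    em B (gl Y (w + 1) false) ∘ₗ X.Qp.d + em B (gl Y w true) ∘ₗ X.Qp.one := lext fun i => by
  rw [LinearMap.comp_apply, em_single]
  refine (d_PY Y _ _).trans ?_
  rw [Y.d_l, map_add, ρ_inl, ρ_single, LinearMap.add_apply, LinearMap.comp_apply, LinearMap.comp_apply,
    one_single, em_single]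
  simp only [M_ff, M_ft, fst_inr, snd_inr, single_zero, zero_add, one_mul]
  rfl

lemma d4 (Y : PD X) (w : ℕ) : (PY Y).d ∘ₗ em B (gr Y w false) =
    em B (gr Y w false) ∘ₗ X.Qm.d + em B (gr Y (w + 1) true) ∘ₗ X.Qm.one := lext fun i => by
  rw [LinearMap.comp_apply, em_single]
  refine (d_PY Y _ _).trans ?_
  rw [Y.d_r, map_add, ρ_inl, ρ_single, LinearMap.add_apply, LinearMap.comp_apply, LinearMap.comp_apply,
    one_single, em_single]
  simp only [M_ff, M_ft, fst_inr, snd_inr, single_zero, zero_add, one_mul]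
  rfl

lemma d5 (Y : PD X) (w : ℕ) : (PY Y).d ∘ₗ em B (gr Y w true) = em B (gr Y w true) ∘ₗ X.Qm.d :=
  lext fun i => by
    rw [LinearMap.comp_apply, em_single]
    refine (d_PY Y _ _).trans ?_
    rw [Y.d_r, map_add, ρ_inl, ρ_single]
    simp only [M_tf, M_tt, fst_inr, single_zero, add_zero]
    rfl

lemma ext_PY (Y : PD X) {N : Type} [AddCommGroup N] [Module B N] {f g : ((PY Y).I →₀ B) →ₗ[B] N}
    (hl : ∀ w s, f ∘ₗ em B (gl Y w s) = g ∘ₗ em B (gl Y w s))
    (hr : ∀ w s, f ∘ₗ em B (gr Y w s) = g ∘ₗ em B (gr Y w s)) : f = g := lext fun ⟨i, s⟩ => by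
  obtain ⟨(⟨w, i⟩ | ⟨w, i⟩), rfl⟩ := Y.e.surjective i
  · have := LinearMap.congr_fun (hl w s) (single i 1)
    rwa [LinearMap.comp_apply, LinearMap.comp_apply, em_single] at this
  · have := LinearMap.congr_fun (hr w s) (single i 1)
    rwa [LinearMap.comp_apply, LinearMap.comp_apply, em_single] at this

def hl (H : HD X) (i : X.Qp.I) : H.H.I := H.e (.inl i)
def hr (H : HD X) (i : X.Qm.I) : H.H.I := H.e (.inr i)

lemma e1 (H : HD X) : H.H.d ∘ₗ em B (hl H) = em B (hl H) ∘ₗ X.Qp.d + em B (hr H) ∘ₗ X.φ :=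
  lext fun i => by
    rw [LinearMap.comp_apply, em_single]
    exact H.d_l i

lemma e2 (H : HD X) : H.H.d ∘ₗ em B (hr H) = em B (hr H) ∘ₗ X.Qm.d :=
  lext fun i => by
    rw [LinearMap.comp_apply, em_single]
    exact H.d_r i

lemma ext_H (H : HD X) {N : Type} [AddCommGroup N] [Module B N] {f g : (H.H.I →₀ B) →ₗ[B] N}
    (h1 : f ∘ₗ em B (hl H) = g ∘ₗ em B (hl H)) (h2 : f ∘ₗ em B (hr H) = g ∘ₗ em B (hr H)) : f = g :=
  lext fun i => by
    obtain ⟨(i | i), rfl⟩ := H.e.surjective i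
    · have := LinearMap.congr_fun h1 (single i 1)
      rwa [LinearMap.comp_apply, LinearMap.comp_apply, em_single] at this
    · have := LinearMap.congr_fun h2 (single i 1)
      rwa [LinearMap.comp_apply, LinearMap.comp_apply, em_single] at this

variable (H : HD X) (Y : PD X)

def fα : X.Qp.I ⊕ X.Qm.I → Option (PY Y).I
  | .inl i => some (gl Y 0 false i)
  | .inr i => some (gr Y 0 true i)

def fβ : (ℕ × X.Qp.I) ⊕ (ℕ × X.Qm.I) → Bool → Option H.H.I
  | .inl (0, i), false => some (hl H i)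
  | .inl (_ + 1, _), false => none
  | .inl _, true => none
  | .inr _, false => none
  | .inr (0, i), true => some (hr H i)
  | .inr (_ + 1, _), true => none

def fr : (ℕ × X.Qp.I) ⊕ (ℕ × X.Qm.I) → Bool → Option (PY Y).I
  | .inl _, false => none
  | .inl (w, i), true => some (gl Y (w + 1) false i)
  | .inr _, false => none
  | .inr (0, _), true => none
  | .inr (w + 1, i), true => some (gr Y w false i)

def αm : Ch H.H (PY Y) B := pm (fun i => fα Y (H.e.symm i)) H.H.ε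
def βm : Ch (PY Y) H.H B := pm (fun p : Y.P.I × Bool => fβ H (Y.e.symm p.1) p.2) (PY Y).ε
def rm : Ch (PY Y) (PY Y) B := pm (fun p : Y.P.I × Bool => fr Y (Y.e.symm p.1) p.2) (PY Y).ε

lemma isC_α : IsC H.H (PY Y) B 0 (αm H Y) := isM_pm H.H.idem fun i j h => by
  obtain ⟨(i | i), rfl⟩ := H.e.surjective i
  · rw [Equiv.symm_apply_apply] at h
    obtain rfl := Option.some.inj h
    rw [deg_gl, ε_gl, H.deg_l, H.ε_l]; simp
  · rw [Equiv.symm_apply_apply] at h
    obtain rfl := Option.some.inj h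
    rw [deg_gr, ε_gr, H.deg_r, H.ε_r]; simp

lemma isC_β : IsC (PY Y) H.H B 0 (βm H Y) := isM_pm (PY Y).idem fun ⟨i, s⟩ j h => by
  obtain ⟨(⟨w, i⟩ | ⟨w, i⟩), rfl⟩ := Y.e.surjective i
  · simp only [Equiv.symm_apply_apply] at h
    cases s <;> cases w <;> simp only [fβ, reduceCtorEq] at h
    obtain rfl := Option.some.inj h
    change _ = (PY Y).deg (gl Y 0 false i) + 0 ∧ _ = (PY Y).ε (gl Y 0 false i)
    rw [deg_gl, ε_gl, hl, H.deg_l, H.ε_l]; simp
  · simp only [Equiv.symm_apply_apply] at h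
    cases s <;> cases w <;> simp only [fβ, reduceCtorEq] at h
    obtain rfl := Option.some.inj h
    change _ = (PY Y).deg (gr Y 0 true i) + 0 ∧ _ = (PY Y).ε (gr Y 0 true i)
    rw [deg_gr, ε_gr, hr, H.deg_r, H.ε_r]; simp

lemma isC_r : IsC (PY Y) (PY Y) B (0 - 1) (rm Y) := isM_pm (PY Y).idem fun ⟨i, s⟩ j h => by
  obtain ⟨(⟨w, i⟩ | ⟨w, i⟩), rfl⟩ := Y.e.surjective i
  · simp only [Equiv.symm_apply_apply] at h
    cases s <;> simp only [fr, reduceCtorEq] at h
    obtain rfl := Option.some.inj h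
    change _ = (PY Y).deg (gl Y w true i) + (0 - 1) ∧ _ = (PY Y).ε (gl Y w true i)
    rw [deg_gl, ε_gl, deg_gl, ε_gl]
    exact ⟨by push_cast; ring, rfl⟩
  · simp only [Equiv.symm_apply_apply] at h
    cases s <;> cases w <;> simp only [fr, reduceCtorEq] at h
    obtain rfl := Option.some.inj h
    rename_i w
    change _ = (PY Y).deg (gr Y (w + 1) true i) + (0 - 1) ∧ _ = (PY Y).ε (gr Y (w + 1) true i)
    rw [deg_gr, ε_gr, deg_gr, ε_gr]
    exact ⟨by push_cast; ring, rfl⟩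

lemma α1 : αm H Y ∘ₗ em B (hl H) = em B (gl Y 0 false) ∘ₗ X.Qp.one :=
  pm_em_some X.Qp _ _ _ (fun l => by simp [hl, fα]) H.ε_l
lemma α2 : αm H Y ∘ₗ em B (hr H) = em B (gr Y 0 true) ∘ₗ X.Qm.one :=
  pm_em_some X.Qm _ _ _ (fun l => by simp [hr, fα]) H.ε_r
lemma β1 : βm H Y ∘ₗ em B (gl Y 0 false) = em B (hl H) ∘ₗ X.Qp.one :=
  pm_em_some X.Qp _ _ _ (fun l => by simp [gl, fβ]) (ε_gl Y 0 false)
lemma β2 (w : ℕ) : βm H Y ∘ₗ em B (gl Y (w + 1) false) = 0 :=
  pm_em_none _ _ (fun l => by simp [gl, fβ])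
lemma β3 (w : ℕ) : βm H Y ∘ₗ em B (gl Y w true) = 0 :=
  pm_em_none _ _ (fun l => by simp [gl, fβ])
lemma β4 (w : ℕ) : βm H Y ∘ₗ em B (gr Y w false) = 0 :=
  pm_em_none _ _ (fun l => by simp [gr, fβ])
lemma β5 : βm H Y ∘ₗ em B (gr Y 0 true) = em B (hr H) ∘ₗ X.Qm.one :=
  pm_em_some X.Qm _ _ _ (fun l => by simp [gr, fβ]) (ε_gr Y 0 true)
lemma β6 (w : ℕ) : βm H Y ∘ₗ em B (gr Y (w + 1) true) = 0 :=
  pm_em_none _ _ (fun l => by simp [gr, fβ])
lemma r1 (w : ℕ) : rm Y ∘ₗ em B (gl Y w false) = 0 :=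
  pm_em_none _ _ (fun l => by simp [gl, fr])
lemma r2 (w : ℕ) : rm Y ∘ₗ em B (gl Y w true) = em B (gl Y (w + 1) false) ∘ₗ X.Qp.one :=
  pm_em_some X.Qp _ _ _ (fun l => by simp [gl, fr]) (ε_gl Y w true)
lemma r3 (w : ℕ) : rm Y ∘ₗ em B (gr Y w false) = 0 :=
  pm_em_none _ _ (fun l => by simp [gr, fr])
lemma r4 : rm Y ∘ₗ em B (gr Y 0 true) = 0 :=
  pm_em_none _ _ (fun l => by simp [gr, fr])
lemma r5 (w : ℕ) : rm Y ∘ₗ em B (gr Y (w + 1) true) = em B (gr Y w false) ∘ₗ X.Qm.one :=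
  pm_em_some X.Qm _ _ _ (fun l => by simp [gr, fr]) (ε_gr Y (w + 1) true)

lemma cancel {A : Type} [AddCommGroup A] (h : ∀ x : A, x + x = 0) {a b : A} (c : A) (e : a = b + (c + c)) :
    a = b := by rw [e, h, add_zero]

section
variable {R : Type} [Ring R] {M1 M2 M3 M4 : Type} [AddCommGroup M1] [AddCommGroup M2] [AddCommGroup M3]
  [AddCommGroup M4] [Module R M1] [Module R M2] [Module R M3] [Module R M4]
lemma reassoc {f : M2 →ₗ[R] M3} {g : M1 →ₗ[R] M2} {h : M1 →ₗ[R] M3} (e : f ∘ₗ g = h) (x : M4 →ₗ[R] M1) :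
    f ∘ₗ g ∘ₗ x = h ∘ₗ x := by rw [← e]; rfl
end

lemma cy_α (h2 : (2 : B) = 0) : Cy H.H (PY Y) B 0 (αm H Y) := ⟨isC_α H Y, by
  have p1 := one_comp (isC_d (P := X.Qp))
  have p2 := comp_one (isC_d (P := X.Qp))
  have p3 := one_comp (isC_d (P := X.Qm))
  have p4 := comp_one (isC_d (P := X.Qm))
  have p5 := one_comp X.φ_cy.1
  have p6 := comp_one X.φ_cy.1
  rw [δ_self]
  refine ext_H H ?_ ?_
  · simp only [LinearMap.add_comp, LinearMap.comp_add, LinearMap.comp_assoc, LinearMap.zero_comp, e1, α1,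
      reassoc (α1 H Y), reassoc (α2 H Y), reassoc (d1 Y), p1, p2, p5, p6]
    exact two_Ch h2 _
  · simp only [LinearMap.add_comp, LinearMap.comp_add, LinearMap.comp_assoc, LinearMap.zero_comp, e2, α2,
      reassoc (α2 H Y), reassoc (d5 Y 0), p3, p4]
    exact two_Ch h2 _⟩

lemma cy_β (h2 : (2 : B) = 0) : Cy (PY Y) H.H B 0 (βm H Y) := ⟨isC_β H Y, by
  have p1 := one_comp (isC_d (P := X.Qp))
  have p2 := comp_one (isC_d (P := X.Qp))
  have p3 := one_comp (isC_d (P := X.Qm))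
  have p4 := comp_one (isC_d (P := X.Qm))
  have p5 := one_comp X.φ_cy.1
  have p6 := comp_one X.φ_cy.1
  rw [δ_self]
  refine ext_PY Y (fun w s => ?_) (fun w s => ?_) <;> cases s <;> cases w <;>
    simp only [LinearMap.add_comp, LinearMap.comp_add, LinearMap.comp_assoc, LinearMap.zero_comp,
      LinearMap.comp_zero, d1, d2, d3, d4, d5, β1, β2, β3, β4, β5, β6, reassoc (β1 H Y),
      reassoc (β2 H Y _), reassoc (β3 H Y _), reassoc (β4 H Y _), reassoc (β5 H Y), reassoc (β6 H Y _),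
      reassoc (e1 H), reassoc (e2 H), p1, p2, p3, p4, p5, p6, add_zero, two_Ch h2]⟩

lemma δ_r (h2 : (2 : B) = 0) :
    δ (PY Y) (PY Y) B (rm Y) = (PY Y).one + αm H Y ∘ₗ βm H Y := by
  have p1 := one_comp (isC_d (P := X.Qp))
  have p2 := comp_one (isC_d (P := X.Qp))
  have p3 := one_comp (isC_d (P := X.Qm))
  have p4 := comp_one (isC_d (P := X.Qm))
  have p5 := one_comp (isC_one (P := X.Qp))
  have p6 := one_comp (isC_one (P := X.Qm))
  have o1 := fun w s => one_em (PY Y) X.Qp (gl Y w s) (ε_gl Y w s)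
  have o2 := fun w s => one_em (PY Y) X.Qm (gr Y w s) (ε_gr Y w s)
  rw [δ_self]
  refine ext_PY Y (fun w s => ?_) (fun w s => ?_) <;> cases s <;> cases w <;>
    simp only [LinearMap.add_comp, LinearMap.comp_add, LinearMap.comp_assoc, LinearMap.zero_comp,
      LinearMap.comp_zero, d1, d2, d3, d4, d5, β1, β2, β3, β4, β5, β6, r1, r2, r3, r4, r5,
      reassoc (r1 Y _), reassoc (r2 Y _), reassoc (r3 Y _), reassoc (r4 Y), reassoc (r5 Y _),
      reassoc (α1 H Y), reassoc (α2 H Y), reassoc (d3 Y _), reassoc (d4 Y _), o1, o2,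
      p1, p2, p3, p4, p5, p6, add_zero, zero_add, two_Ch h2, ← add_assoc]

theorem transStmt : TransStmt := by
  intro k _ _ B _ _ m X H Y h
  have h2 : (2 : B) = 0 := by
    have : (2 : B) = algebraMap k B 2 := (map_ofNat _ 2).symm
    rw [this, CharTwo.two_eq_zero, map_zero]
  haveI := X.fd
  exact two_of_res (hP := hsnd Y) cmp_Q ΘQ_inj ΘQ_surj
    (two_of_htpy h2 (αm H Y) (βm H Y) (cy_α H Y h2) (cy_β H Y h2) ⟨rm Y, isC_r Y, δ_r H Y h2⟩ h)

end Crest.Agent.H7.Tk
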