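import Crest.Agent.H6.TkD
import Crest.Agent.Lead.TkB

/-! Row 186: transfer of `Two` along homotopy equivalences and along restriction of scalars. -/

set_option autoImplicit false
set_option linter.unusedSectionVars false

noncomputable section
namespace Crest.Agent.H7.Tk
open MulOpposite Finsupp Crest.Agent.H6.Tk Crest.Agent.Lead.Tk

section A
variable {k : Type} [Field k] {R : Type} [Ring R] [Algebra k R] {V : Type} [AddCommGroup V] [Module R V]
  [Module Rᵐᵒᵖ V] [SMulCommClass R Rᵐᵒᵖ V] {H P : Cx R}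

theorem two_of_htpy (h2 : (2 : R) = 0) {m : ℕ} (α : Ch H P R) (β : Ch P H R) (hα : Cy H P R 0 α)
    (hβ : Cy P H R 0 β) (hr : Bd P P R 0 (P.one + α ∘ₗ β)) (h : Two k H V m) : Two k P V m := by
  have hu : Cy P P R 0 (α ∘ₗ β) := by simpa using cy_comp h2 hβ hα
  have key : ∀ n Φ, Cy P P V n Φ →
      Bd P P V n (Φ + tens V α ∘ₗ (tens V β ∘ₗ Φ ∘ₗ α) ∘ₗ β) := by
    intro n Φ hΦ
    have h1 := bd_comp_left h2 hr hΦ
    rw [zero_add, LinearMap.comp_add, comp_one hΦ.1] at h1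
    have hc : Cy P P V n (Φ ∘ₗ α ∘ₗ β) := by simpa using cy_comp h2 hu hΦ
    have h3 := bd_tens_right h2 hc hr
    rw [add_zero, tens_add, LinearMap.add_comp, tens_one hc.1, tens_comp] at h3
    have h4 := bd_add h1 h3
    have e : Φ + Φ ∘ₗ α ∘ₗ β + (Φ ∘ₗ α ∘ₗ β + (tens V α ∘ₗ tens V β) ∘ₗ Φ ∘ₗ α ∘ₗ β) =
        Φ + tens V α ∘ₗ (tens V β ∘ₗ Φ ∘ₗ α) ∘ₗ β := by
      rw [add_assoc, ← add_assoc (Φ ∘ₗ α ∘ₗ β), two_Ch h2, zero_add]
      rfl
    rwa [e] at h4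
  have fw : ∀ n Φ, Cy P P V n Φ → Cy H H V n (tens V β ∘ₗ Φ ∘ₗ α) := fun n Φ hΦ => by
    simpa using cy_tens h2 (cy_comp h2 hα hΦ) hβ
  have bw : ∀ n Ψ, Bd H H V n Ψ → Bd P P V n (tens V α ∘ₗ Ψ ∘ₗ β) := fun n Ψ hΨ => by
    simpa using bd_tens_left h2 (bd_comp_right h2 hβ hΨ) hα
  obtain ⟨h1, ω, hω, h3⟩ := h
  refine ⟨fun n hn hn' Φ hΦ => bd_of_add h2 (key n Φ hΦ) (bw n _ (h1 n hn hn' _ (fw n Φ hΦ))),
    tens V α ∘ₗ ω ∘ₗ β, by simpa using cy_tens h2 (cy_comp h2 hβ hω) hα, fun Φ hΦ => ?_⟩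
  obtain ⟨a, ha⟩ := h3 _ (fw _ Φ hΦ)
  refine ⟨a, ?_⟩
  have h4 := bd_add (key _ Φ hΦ) (bw _ _ ha)
  have e0 : (a • H.one) ∘ₗ β = β ∘ₗ (a • P.one) := by
    rw [LinearMap.smul_comp, LinearMap.comp_smul, one_comp hβ.1, comp_one hβ.1]
  have e : Φ + tens V α ∘ₗ (tens V β ∘ₗ Φ ∘ₗ α) ∘ₗ β +
      tens V α ∘ₗ (tens V β ∘ₗ Φ ∘ₗ α + ω ∘ₗ (a • H.one)) ∘ₗ β =
      Φ + (tens V α ∘ₗ ω ∘ₗ β) ∘ₗ (a • P.one) := by
    rw [LinearMap.add_comp, LinearMap.comp_add, add_assoc, ← add_assoc (tens V α ∘ₗ _), two_Ch h2,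
      zero_add, LinearMap.comp_assoc β, e0]
    rfl
  rwa [e] at h4
end A

section B
open TrivSqZeroExt
variable {B : Type} [Ring B]

/-- matrix of right multiplication in the basis `1, z` -/
def M : Bool → Bool → (DualNumber B →+ B)
  | false, false => (fstHom ℕ B B).toRingHom.toAddMonoidHom
  | false, true => (sndHom B B).toAddMonoidHom
  | true, false => 0
  | true, true => (fstHom ℕ B B).toRingHom.toAddMonoidHom

@[simp] lemma M_ff (a : DualNumber B) : M false false a = a.fst := rfl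
@[simp] lemma M_ft (a : DualNumber B) : M false true a = a.snd := rfl
@[simp] lemma M_tf (a : DualNumber B) : M true false a = 0 := rfl
@[simp] lemma M_tt (a : DualNumber B) : M true true a = a.fst := rfl

variable {V : Type} [AddCommGroup V] [Module (DualNumber B) V] [Module (DualNumber B)ᵐᵒᵖ V]
  [SMulCommClass (DualNumber B) (DualNumber B)ᵐᵒᵖ V]
  {W : Type} [AddCommGroup W] [Module B W] [Module Bᵐᵒᵖ W] [SMulCommClass B Bᵐᵒᵖ W]

variable (B) in
/-- compatibility with the actions -/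
structure Cmp (Θ : Bool → Bool → (V →+ W)) : Prop where
  l : ∀ (a : DualNumber B) v s t, Θ s t (a • v) = M s false a • Θ false t v + M s true a • Θ true t v
  r : ∀ (a : DualNumber B) v s t,
    Θ s t (op a • v) = op (M false t a) • Θ s false v + op (M true t a) • Θ s true v

lemma cmp_M : Cmp B (M (B := B)) where
  l a v s t := by cases s <;> cases t <;> simp
  r a v s t := by cases s <;> cases t <;> simp [add_comm]

variable {I J L : Type}

/-- the rows -/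
def ρ (Θ : Bool → Bool → (V →+ W)) (s : Bool) : (J →₀ V) →+ (J × Bool →₀ W) :=
  Finsupp.liftAddHom fun j =>
    (singleAddHom (j, false)).comp (Θ s false) + (singleAddHom (j, true)).comp (Θ s true)

lemma ρ_single (Θ : Bool → Bool → (V →+ W)) (s : Bool) (j : J) (v : V) :
    ρ Θ s (single j v) = single (j, false) (Θ s false v) + single (j, true) (Θ s true v) := by
  simp [ρ]

lemma ρ_apply (Θ : Bool → Bool → (V →+ W)) (s : Bool) (x : J →₀ V) (j : J) (t : Bool) :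
    ρ Θ s x (j, t) = Θ s t (x j) := by
  classical
  induction x using Finsupp.induction_linear with
  | zero => simp
  | add x y hx hy => simp [hx, hy]
  | single i v =>
    rw [ρ_single]
    by_cases h : i = j
    · subst h; cases t <;> simp
    · cases t <;> simp [h]

variable (B) in
/-- restriction of a matrix -/
def res (Θ : Bool → Bool → (V →+ W)) (Φ : (I →₀ DualNumber B) →ₗ[DualNumber B] (J →₀ V)) :
    (I × Bool →₀ B) →ₗ[B] (J × Bool →₀ W) :=
  Finsupp.linearCombination B fun p => ρ Θ p.2 (Φ (single p.1 1))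

variable {Θ : Bool → Bool → (V →+ W)}

lemma res_single (Φ : (I →₀ DualNumber B) →ₗ[DualNumber B] (J →₀ V)) (i : I) (s : Bool) (b : B) :
    res B Θ Φ (single (i, s) b) = b • ρ Θ s (Φ (single i 1)) := by simp [res]

lemma res_ent (Φ : (I →₀ DualNumber B) →ₗ[DualNumber B] (J →₀ V)) (i : I) (s : Bool) (j : J) (t : Bool) :
    res B Θ Φ (single (i, s) 1) (j, t) = Θ s t (Φ (single i 1) j) := by
  rw [res_single, one_smul, ρ_apply]

lemma res_add (Φ Ψ : (I →₀ DualNumber B) →ₗ[DualNumber B] (J →₀ V)) :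
    res B Θ (Φ + Ψ) = res B Θ Φ + res B Θ Ψ := ch_ext fun ⟨i, s⟩ ⟨j, t⟩ => by
  simp [res_ent]

lemma res_zero : res B Θ (0 : (I →₀ DualNumber B) →ₗ[DualNumber B] (J →₀ V)) = 0 :=
  ch_ext fun ⟨i, s⟩ ⟨j, t⟩ => by simp [res_ent]

lemma res_ρ (h : Cmp B Θ) (Φ : (I →₀ DualNumber B) →ₗ[DualNumber B] (J →₀ V)) (s : Bool)
    (x : I →₀ DualNumber B) : res B Θ Φ (ρ M s x) = ρ Θ s (Φ x) := by
  induction x using Finsupp.induction_linear with
  | zero => simp
  | add x y hx hy => simp [hx, hy]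
  | single i a =>
    ext ⟨j, t⟩
    have : (single i a : I →₀ DualNumber B) = a • single i 1 := by simp
    rw [ρ_single, map_add, res_single, res_single, this, map_smul, ρ_apply, Finsupp.smul_apply, h.l]
    simp [ρ_apply]

lemma res_comp (h : Cmp B Θ) (g : (I →₀ DualNumber B) →ₗ[DualNumber B] (J →₀ DualNumber B))
    (Φ : (J →₀ DualNumber B) →ₗ[DualNumber B] (L →₀ V)) :
    res B Θ (Φ ∘ₗ g) = res B Θ Φ ∘ₗ res B M g := ch_ext fun ⟨i, s⟩ p => by
  rw [LinearMap.comp_apply, res_single, res_single, one_smul, one_smul, res_ρ h, LinearMap.comp_apply]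

lemma tens_ρ (h : Cmp B Θ) (g : (J →₀ DualNumber B) →ₗ[DualNumber B] (L →₀ DualNumber B)) (s : Bool)
    (y : J →₀ V) : tens W (res B M g) (ρ Θ s y) = ρ Θ s (tens V g y) := by
  induction y using Finsupp.induction_linear with
  | zero => simp
  | add x y hx hy => simp [hx, hy]
  | single j v =>
    ext ⟨l, t⟩
    rw [ρ_single, map_add, Finsupp.add_apply, tens_single, tens_single, res_ent, res_ent, ρ_apply,
      tens_single, h.r]

lemma res_tens (h : Cmp B Θ) (Φ : (I →₀ DualNumber B) →ₗ[DualNumber B] (J →₀ V))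
    (g : (J →₀ DualNumber B) →ₗ[DualNumber B] (L →₀ DualNumber B)) :
    res B Θ (tens V g ∘ₗ Φ) = tens W (res B M g) ∘ₗ res B Θ Φ := ch_ext fun ⟨i, s⟩ p => by
  rw [LinearMap.comp_apply, res_single, res_single, one_smul, one_smul, tens_ρ h, LinearMap.comp_apply]

lemma Cmp.l0 (h : Cmp B Θ) {a : DualNumber B} (ha : a.snd = 0) (v : V) (s t : Bool) :
    Θ s t (a • v) = a.fst • Θ s t v := by
  rw [h.l]; cases s <;> simp [ha]

lemma Cmp.r0 (h : Cmp B Θ) {a : DualNumber B} (ha : a.snd = 0) (v : V) (s t : Bool) :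
    Θ s t (op a • v) = op a.fst • Θ s t v := by
  rw [h.r]; cases t <;> simp [ha]

lemma isM_res (h : Cmp B Θ) {dI : I → ℤ} {eI : I → DualNumber B} {dJ : J → ℤ} {eJ : J → DualNumber B}
    (hI : ∀ i, (eI i).snd = 0) (hJ : ∀ j, (eJ j).snd = 0) {n : ℤ}
    {Φ : (I →₀ DualNumber B) →ₗ[DualNumber B] (J →₀ V)} (hΦ : IsM V dI eI dJ eJ n Φ) :
    IsM W (fun p : I × Bool => dI p.1) (fun p => (eI p.1).fst) (fun p : J × Bool => dJ p.1)
      (fun p => (eJ p.1).fst) n (res B Θ Φ) := fun ⟨i, s⟩ ⟨j, t⟩ => by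
  rw [res_ent]
  refine ⟨fun hn => by rw [(hΦ i j).1 hn, map_zero], ?_, ?_⟩
  · rw [← h.l0 (hI i), (hΦ i j).2.1]
  · rw [← h.r0 (hJ j), (hΦ i j).2.2]

/-- restriction of a complex -/
def PB (P : Cx (DualNumber B)) (hP : ∀ i, (P.ε i).snd = 0) : Cx B where
  I := P.I × Bool
  deg p := P.deg p.1
  fin n := ((P.fin n).prod (Set.toFinite Set.univ)).subset fun p hp => ⟨hp, trivial⟩
  ε p := (P.ε p.1).fst
  idem p := by rw [← fst_mul, P.idem]
  d := res B M P.d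
  d_isM := isM_res cmp_M hP hP P.d_isM
  dd := by rw [← res_comp cmp_M, P.dd, res_zero]

variable {P : Cx (DualNumber B)} {hP : ∀ i, (P.ε i).snd = 0}

lemma res_δ (h : Cmp B Θ) (Φ : Ch P P V) :
    res B Θ (δ P P V Φ) = δ (PB P hP) (PB P hP) W (res B Θ Φ) := by
  rw [δ, res_add, res_comp h, res_tens h]; rfl

theorem two_of_res {k : Type} [Field k] [Algebra k B] (h : Cmp B Θ)
    (hi : ∀ v, (∀ s t, Θ s t v = 0) → v = 0) (hs : ∀ f : Bool → Bool → W, ∃ v, ∀ s t, Θ s t v = f s t)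
    {m : ℕ} (h0 : Two k (PB P hP) W m) : Two k P V m := by
  have hi' : ∀ v w, (∀ s t, Θ s t v = Θ s t w) → v = w := fun v w e =>
    sub_eq_zero.1 (hi _ fun s t => by rw [map_sub, e, sub_self])
  have inj : ∀ Φ Ψ : Ch P P V, res B Θ Φ = res B Θ Ψ → Φ = Ψ := fun Φ Ψ e =>
    ch_ext fun i j => hi' _ _ fun s t => by rw [← res_ent, e, res_ent]
  have surj : ∀ n (Ψ : Ch (PB P hP) (PB P hP) W), IsC (PB P hP) (PB P hP) W n Ψ →
      ∃ Φ, IsC P P V n Φ ∧ res B Θ Φ = Ψ := by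
    intro n Ψ hΨ
    choose v hv using fun i j : P.I => hs fun s t => Ψ (single (i, s) 1) (j, t)
    refine ⟨ofEnt P P n v, isC_ofEnt n (fun i j => hi' _ _ fun s t => ?_)
      (fun i j => hi' _ _ fun s t => ?_), ch_ext fun ⟨i, s⟩ ⟨j, t⟩ => ?_⟩
    · rw [h.l0 (hP i), hv]; exact (hΨ (i, s) (j, t)).2.1
    · rw [h.r0 (hP j), hv]; exact (hΨ (i, s) (j, t)).2.2
    · rw [res_ent, ofEnt_ent]
      split_ifs with hd
      · exact hv i j s t
      · rw [map_zero]; exact ((hΨ (i, s) (j, t)).1 hd).symm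
  have fw : ∀ n Φ, Cy P P V n Φ → Cy (PB P hP) (PB P hP) W n (res B Θ Φ) := fun n Φ hΦ =>
    ⟨isM_res h hP hP hΦ.1, by rw [← res_δ h, hΦ.2, res_zero]; rfl⟩
  have bw : ∀ n Φ, Bd (PB P hP) (PB P hP) W n (res B Θ Φ) → Bd P P V n Φ := by
    rintro n Φ ⟨Ψ, h1, h2⟩
    obtain ⟨Ψ, h3, rfl⟩ := surj _ Ψ h1
    exact ⟨Ψ, h3, inj _ _ (by rw [res_δ (hP := hP) h, h2])⟩
  obtain ⟨h1, ω, hω, h3⟩ := h0
  obtain ⟨ω, hω', rfl⟩ := surj _ ω hω.1
  refine ⟨fun n hn hn' Φ hΦ => bw n Φ (h1 n hn hn' _ (fw n Φ hΦ)), ω,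
    ⟨hω', inj _ _ (by rw [res_δ (hP := hP) h, hω.2, res_zero]; rfl)⟩, fun Φ hΦ => ?_⟩
  obtain ⟨a, ha⟩ := h3 _ (fw _ Φ hΦ)
  refine ⟨a, bw _ _ ?_⟩
  have e : res B M (a • P.one) = a • (PB P hP).one := by
    classical
    refine ch_ext fun ⟨i, s⟩ ⟨j, t⟩ => ?_
    rw [res_ent, LinearMap.smul_apply, Finsupp.smul_apply, one_ent]
    have e1 : (PB P hP).one (single (i, s) 1) = (single (i, s) (1 * (P.ε i).fst) : P.I × Bool →₀ B) :=
      one_single (P := PB P hP) _ _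
    change _ = a • ((PB P hP).one (single (i, s) 1) : P.I × Bool →₀ B) (j, t)
    rw [e1]
    change _ = a • (single (i, s) (1 * (P.ε i).fst) : P.I × Bool →₀ B) (j, t)
    by_cases hij : i = j
    · subst hij
      cases s <;> cases t <;> simp [hP]
    · simp [hij]
  rw [res_add, res_comp h, e]
  exact ha

end B

end Crest.Agent.H7.Tk
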