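import Crest.Agent.H7.TkTrA

/-! Row 186: `End_k E / K` restricted to `B` is four copies of the dual of `B`. -/

set_option autoImplicit false
set_option linter.unusedSectionVars false

noncomputable section
namespace Crest.Agent.H7.Tk
open MulOpposite Finsupp Crest.Agent.H6.Tk Crest.Agent.Lead.Tk TrivSqZeroExt

variable {k : Type} [Field k] {B : Type} [Ring B] [Algebra k B]

variable (k) in
/-- coordinates -/
def co : Bool → (DualNumber B →ₗ[k] B)
  | false => { toFun := fst, map_add' := fst_add, map_smul' := fun c x => by simp }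
  | true => { toFun := snd, map_add' := snd_add, map_smul' := fun c x => by simp }

variable (k) in
/-- inclusions -/
def inc : Bool → (B →ₗ[k] DualNumber B)
  | false => { toFun := inl, map_add' := inl_add B, map_smul' := fun c x => by ext <;> simp }
  | true => { toFun := inr, map_add' := inr_add B, map_smul' := fun c x => by ext <;> simp }

@[simp] lemma co_f (x : DualNumber B) : co k false x = x.fst := rfl
@[simp] lemma co_t (x : DualNumber B) : co k true x = x.snd := rfl
@[simp] lemma inc_f (x : B) : inc k false x = (inl x : DualNumber B) := rfl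
@[simp] lemma inc_t (x : B) : inc k true x = (inr x : DualNumber B) := rfl

variable (k) in
/-- elementary `B`-linear maps -/
def ψ (t s : Bool) : B →ₗ[k] (DualNumber B →ₗ[k] DualNumber B) where
  toFun b := inc k s ∘ₗ LinearMap.mulRight k b ∘ₗ co k t
  map_add' a b := by ext x : 1; simp [mul_add]
  map_smul' c a := by ext x : 1; simp

lemma ψ_apply (t s : Bool) (b : B) (x : DualNumber B) : ψ k t s b x = inc k s (co k t x * b) := rfl

lemma bLin_ψ (t s : Bool) (b : B) : BLin k B (ψ k t s b) := fun c x => by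
  rw [ψ_apply, ψ_apply]
  cases s <;> cases t <;> ext <;> simp [mul_assoc]

variable (k B) in
def Θ0 (s t : Bool) : Om k (DualNumber B) →+ Du k B where
  toFun φ := Du.ofL (LinearMap.trace k _ ∘ₗ LinearMap.mulLeft k (Om.toL φ) ∘ₗ ψ k t s)
  map_zero' := by ext b; simp
  map_add' a b := by ext x; simp [add_mul]

lemma Θ0_apply (s t : Bool) (φ : Om k (DualNumber B)) (b : B) :
    Du.toL (Θ0 k B s t φ) b = LinearMap.trace k _ (Om.toL φ ∘ₗ ψ k t s b) := rfl

variable (k B) in
def ΘQ (s t : Bool) : (KK k B).Quo →+ Du k B :=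
  QuotientAddGroup.lift (KK k B).N.toAddSubgroup (Θ0 k B s t) fun φ hφ => by
    rw [AddMonoidHom.mem_ker]
    ext b
    rw [Θ0_apply]
    exact hφ _ (bLin_ψ t s b)

lemma ΘQ_mk (s t : Bool) (φ : Om k (DualNumber B)) : ΘQ k B s t ((KK k B).mkQ φ) = Θ0 k B s t φ := rfl

lemma cmp_Q : Cmp B (ΘQ k B) where
  l a v s t := by
    obtain ⟨φ, rfl⟩ := (KK k B).mkQ_surj v
    rw [← map_smul, ΘQ_mk, ΘQ_mk, ΘQ_mk]
    ext b
    rw [map_add, LinearMap.add_apply, Du.smul_apply, Du.smul_apply, Θ0_apply, Θ0_apply, Θ0_apply,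
      ← map_add, ← LinearMap.comp_add, Om.toL_smul, LinearMap.comp_assoc]
    congr 2
    ext x : 1
    simp only [LinearMap.comp_apply, LinearMap.add_apply, ψ_apply, LinearMap.mulRight_apply]
    cases s <;> ext <;> simp [mul_assoc]
  r a v s t := by
    obtain ⟨φ, rfl⟩ := (KK k B).mkQ_surj v
    rw [← SubBi.mkQ_op, ΘQ_mk, ΘQ_mk, ΘQ_mk]
    ext b
    rw [map_add, LinearMap.add_apply, Du.op_apply, Du.op_apply, Θ0_apply, Θ0_apply, Θ0_apply,
      ← map_add, ← LinearMap.comp_add, Om.toL_op, LinearMap.comp_assoc]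
    change LinearMap.trace k _ (_ * (Om.toL φ * ψ k t s b)) = _
    rw [LinearMap.trace_mul_comm, mul_assoc]
    change LinearMap.trace k _ (Om.toL φ ∘ₗ _) = _
    congr 2
    ext x : 1
    simp only [Module.End.mul_apply, LinearMap.add_apply, ψ_apply, LinearMap.mulRight_apply, unop_op,
      ← map_add]
    congr 1
    cases t <;> simp [mul_assoc, add_mul]

lemma ΘQ_inj (v : (KK k B).Quo) (h : ∀ s t, ΘQ k B s t v = 0) : v = 0 := by
  obtain ⟨φ, rfl⟩ := (KK k B).mkQ_surj v
  rw [SubBi.mkQ_eq_zero]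
  intro χ hχ
  have h0 : ∀ s t b, LinearMap.trace k _ (Om.toL φ ∘ₗ ψ k t s b) = 0 := fun s t b => by
    rw [← Θ0_apply, ← ΘQ_mk, h]; simp
  have e : χ = ψ k false false (χ 1).fst + ψ k false true (χ 1).snd +
      (ψ k true false (χ (inr 1)).fst + ψ k true true (χ (inr 1)).snd) := by
    ext x : 1
    have hx : x = inl x.fst * 1 + inl x.snd * inr 1 := by ext <;> simp
    conv_lhs => rw [hx, map_add, hχ, hχ]
    simp only [LinearMap.add_apply, ψ_apply]
    ext <;> simp
  rw [e]
  simp only [LinearMap.comp_add, map_add, h0, add_zero]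

lemma ΘQ_surj [FiniteDimensional k B] (f : Bool → Bool → Du k B) :
    ∃ v, ∀ s t, ΘQ k B s t v = f s t := by
  haveI : FiniteDimensional k (DualNumber B) := inferInstanceAs (FiniteDimensional k (B × B))
  refine ⟨(KK k B).mkQ (Om.ofL (∑ s, ∑ t, (Du.toL (f s t) ∘ₗ co k s).smulRight (inc k t 1))),
    fun s t => ?_⟩
  ext b
  have e : ∀ (g : DualNumber B →ₗ[k] k) (v : DualNumber B) (χ : DualNumber B →ₗ[k] DualNumber B),
      LinearMap.trace k _ (g.smulRight v ∘ₗ χ) = g (χ v) := fun g v χ => by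
    have : g.smulRight v ∘ₗ χ = (g ∘ₗ χ).smulRight v := rfl
    rw [this, LinearMap.trace_smulRight]; rfl
  rw [ΘQ_mk, Θ0_apply, Om.toL_ofL]
  simp only [Fintype.sum_bool, LinearMap.add_comp, map_add, e, ψ_apply, LinearMap.comp_apply]
  cases s <;> cases t <;> simp

end Crest.Agent.H7.Tk
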